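import Crest.Agent.R62.State
import Crest.Agent.Lib.PT.All

/-!
# R62/Alg: the algorithm on lists of rationals, and its interpretation as a state

Half-edges are the numbers `k < N = r0 = n d`, the vertex of `k` is `k / d`.
-/

set_option autoImplicit false
open Finset Matrix

namespace Crest.Agent.R62

open Crest.Agent.Lib.PT

abbrev Mat := List (List ℚ)

def mg (C : Mat) (k l : ℕ) : ℚ := (C.getD k []).getD l 0
def mkM (N : ℕ) (f : ℕ → ℕ → ℚ) : Mat := (List.range N).map fun k => (List.range N).map fun l => f k l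
def mmul (N : ℕ) (C D : Mat) : Mat := mkM N fun k l => ∑ j ∈ range N, mg C k j * mg D j l
def trL (N : ℕ) (C : Mat) : ℚ := ∑ k ∈ range N, mg C k k

def updL (N : ℕ) (b : ℚ) (C : Mat) (u v : ℕ) : Mat := mkM N fun k l =>
  if k = u ∨ k = v ∨ l = u ∨ l = v then 0 else
    mg C k l + 1 / ((b - mg C u v) ^ 2 - mg C u u * mg C v v) *
      (mg C v v * mg C k u * mg C l u + mg C u u * mg C k v * mg C l v +
        (b - mg C u v) * (mg C k u * mg C l v + mg C k v * mg C l u))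

def UsideL (P : Par ℚ) (r : ℕ) (C D : Mat) : ℚ :=
  P.Uobs r (trL P.r0 C) (trL P.r0 (mmul P.r0 C C)) (trL P.r0 (mmul P.r0 (mmul P.r0 C C) C))
    (trL P.r0 (mmul P.r0 (mmul P.r0 (mmul P.r0 C C) C) C))
    (∑ k ∈ range P.r0, mg C k k ^ 2) (∑ k ∈ range P.r0, mg (mmul P.r0 C C) k k ^ 2)
    (∑ k ∈ range P.r0, ∑ l ∈ range P.r0, mg C k l ^ 4) (trL P.r0 (mmul P.r0 (mmul P.r0 C C) D))

/-- unmatched half-edges, edges, the two matrices -/
abbrev Sig := List ℕ × List (ℕ × ℕ) × Mat × Mat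

def adjL (E : List (ℕ × ℕ)) (x y : ℕ) : Prop := (x, y) ∈ E ∨ (y, x) ∈ E

instance (E : List (ℕ × ℕ)) (x y : ℕ) : Decidable (adjL E x y) := by unfold adjL; infer_instance

def ScL (d : ℕ) (R : List ℕ) : ℚ :=
  (R.map fun k => (R.map fun l => if k ≠ l ∧ k / d = l / d then (1 : ℚ) else 0).sum).sum
def AcL (d : ℕ) (E : List (ℕ × ℕ)) (R : List ℕ) : ℚ :=
  (R.map fun k => (R.map fun l => if adjL E (k / d) (l / d) then (1 : ℚ) else 0).sum).sum

def potL (P : Par ℚ) (σ : Sig) : ℚ :=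
  UsideL P σ.1.length σ.2.2.1 σ.2.2.2 + UsideL P σ.1.length σ.2.2.2 σ.2.2.1 +
    P.US σ.1.length (ScL P.d σ.1) + P.UA σ.1.length (AcL P.d σ.2.1 σ.1)

def stepL (P : Par ℚ) (σ : Sig) (p : ℕ × ℕ) : Sig :=
  (σ.1.filter fun k => decide (k ≠ p.1 ∧ k ≠ p.2), (p.1 / P.d, p.2 / P.d) :: σ.2.1,
    updL P.r0 P.a σ.2.2.1 p.1 p.2, updL P.r0 (-P.a) σ.2.2.2 p.1 p.2)

def okL (P : Par ℚ) (σ : Sig) (p : ℕ × ℕ) : Prop :=
  p.1 / P.d ≠ p.2 / P.d ∧ ¬ adjL σ.2.1 (p.1 / P.d) (p.2 / P.d) ∧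
  0 < (P.a - mg σ.2.2.1 p.1 p.2) ^ 2 - mg σ.2.2.1 p.1 p.1 * mg σ.2.2.1 p.2 p.2 ∧
  0 < (-P.a - mg σ.2.2.2 p.1 p.2) ^ 2 - mg σ.2.2.2 p.1 p.1 * mg σ.2.2.2 p.2 p.2

instance (P : Par ℚ) (σ : Sig) (p : ℕ × ℕ) : Decidable (okL P σ p) := by unfold okL; infer_instance

def cands (P : Par ℚ) (σ : Sig) : List (ℕ × ℕ) := (σ.1 ×ˢ σ.1).filter fun p => decide (okL P σ p)

/-- one round: match the admissible pair that minimises the potential -/
def nextL (P : Par ℚ) (σ : Sig) : Sig :=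
  if 4 * P.L * σ.1.length ^ 2 ≤ P.rs then σ
  else ((cands P σ).argmin fun p => potL P (stepL P σ p)).elim σ (stepL P σ)

def szB (P : Par ℚ) : ℕ := 10 ^ 4 * (P.r0 + 1) ^ 8

/-- the round with a size clamp (never active for large even `n`) -/
def nextC (P : Par ℚ) (σ : Sig) : Sig := if sz (nextL P σ) ≤ szB P then nextL P σ else σ

def C0L (P : Par ℚ) (b : ℚ) : Mat := mkM P.r0 fun k l =>
  P.gam * ((if k / P.d = l / P.d then 1 else 0) - 1 / P.n) + (b + P.g) / P.r0 -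
    (if k = l then P.g else 0)

def initL (P : Par ℚ) : Sig := (List.range P.r0, [], C0L P P.a, C0L P (-P.a))

def runL (P : Par ℚ) : Sig := (nextC P)^[P.r0] (initL P)

/-- the last edges: consecutive remaining half-edges are matched -/
def pairsL (d : ℕ) (R : List ℕ) : List (ℕ × ℕ) :=
  (List.range (R.length / 2)).map fun j => (R.getD (2 * j) 0 / d, R.getD (2 * j + 1) 0 / d)

def finalE (d : ℕ) (σ : Sig) : List (ℕ × ℕ) := pairsL d σ.1 ++ σ.2.1

def bitsL (n : ℕ) (E : List (ℕ × ℕ)) : List Bool :=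
  (List.range (n * n)).map fun p => decide (adjL E (p / n) (p % n))

def Lof (n : ℕ) : ℕ := ((List.range n).filter fun i => decide ((i + 1) ^ 96000 ≤ n)).length

def kof (d n : ℕ) : ℕ := ((List.range n).filter fun j =>
  decide ((d - 1) * (j + 1) ^ 2 * Lof n ^ 31880 ≤ (Lof n ^ 31880 - 1) * n ^ 2)).length

def par (d n : ℕ) : Par ℚ := ⟨d, n, Lof n, (kof d n : ℚ) / n⟩

/-- the algorithm -/
def algF (d : ℕ) (w : List Bool) : List Bool := bitsL w.length (finalE d (runL (par d w.length)))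

/-! ### interpretation -/

def vxF (P : Par ℚ) (k : Fin P.r0) : Fin P.n :=
  ⟨k.val / P.d, Nat.div_lt_of_lt_mul (by have h : k.val < P.n * P.d := k.2; rwa [mul_comm] at h)⟩

def toM (N : ℕ) (C : Mat) : Matrix (Fin N) (Fin N) ℝ := Matrix.of fun k l => (mg C k l : ℝ)

def interp (P : Par ℚ) (σ : Sig) : St (Fin P.r0) (Fin P.n) :=
  ⟨univ.filter fun k => k.val ∈ σ.1, fun x y => adjL σ.2.1 x y, toM P.r0 σ.2.2.1, toM P.r0 σ.2.2.2⟩

/-- well-formed list states -/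
structure LInv (P : Par ℚ) (σ : Sig) : Prop where
  nodup : σ.1.Nodup
  lt : ∀ k ∈ σ.1, k < P.r0
  elt : ∀ e ∈ σ.2.1, e.1 < P.n ∧ e.2 < P.n
  len : σ.1.length + 2 * σ.2.1.length = P.r0
  sh₁ : σ.2.2.1 = mkM P.r0 (mg σ.2.2.1)
  sh₂ : σ.2.2.2 = mkM P.r0 (mg σ.2.2.2)

end Crest.Agent.R62
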