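import Crest.Agent.R62.Alg

/-!
# R62/AlgPT: the algorithm runs in polynomial time

`Par ℚ` is encoded with `d` and `n` in unary; every function of `Alg` gets a `fun_prop` lemma.
-/

set_option autoImplicit false

namespace Crest.Agent.R62

open Crest.Agent.Lib.PT

instance algptEnc : Enc (Par ℚ) :=
  Enc.ofInj (fun P => (Un.mk P.d, Un.mk P.n, P.L, P.m)) (by
    rintro ⟨_, _, _, _⟩ ⟨_, _, _, _⟩ h
    simp only [Prod.mk.injEq, Un.mk.injEq] at h
    obtain ⟨rfl, rfl, rfl, rfl⟩ := h
    rfl)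

section

variable {α : Type} [Enc α] {P : α → Par ℚ} {r N u v k l d n : α → ℕ} {z z' b : α → ℚ}
  {C D : α → Mat} {σ : α → Sig} {p : α → ℕ × ℕ} {E : α → List (ℕ × ℕ)} {R : α → List ℕ}

theorem algpt_tup (hP : PT P) : PT fun a => (Un.mk (P a).d, Un.mk (P a).n, (P a).L, (P a).m) :=
  hP.of_enc_eq fun _ => rfl

@[fun_prop] theorem algpt_d (hP : PT P) : PT fun a => (P a).d := (algpt_tup hP).fst.un_n
@[fun_prop] theorem algpt_n (hP : PT P) : PT fun a => (P a).n := (algpt_tup hP).snd.fst.un_n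
@[fun_prop] theorem algpt_L (hP : PT P) : PT fun a => (P a).L := (algpt_tup hP).snd.snd.fst
@[fun_prop] theorem algpt_m (hP : PT P) : PT fun a => (P a).m := (algpt_tup hP).snd.snd.snd
@[fun_prop] theorem algpt_r0 (hP : PT P) : PT fun a => (P a).r0 :=
  (algpt_n hP).nat_mul (algpt_d hP)
@[fun_prop] theorem algpt_r0b (hP : PT P) : PB fun a => (P a).r0 :=
  (PB.un (algpt_tup hP).snd.fst).mul (PB.un (algpt_tup hP).fst)
@[fun_prop] theorem algpt_a (hP : PT P) : PT fun a => (P a).a := by
  unfold Par.a; fun_prop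
@[fun_prop] theorem algpt_g (hP : PT P) : PT fun a => (P a).g := by
  unfold Par.g; fun_prop
@[fun_prop] theorem algpt_x (hP : PT P) : PT fun a => (P a).x := by
  unfold Par.x; fun_prop
@[fun_prop] theorem algpt_gam (hP : PT P) : PT fun a => (P a).gam := by
  unfold Par.gam; fun_prop
@[fun_prop] theorem algpt_rs (hP : PT P) : PT fun a => (P a).rs := by
  unfold Par.rs; fun_prop
@[fun_prop] theorem algpt_r2 (hP : PT P) : PT fun a => (P a).r2 := by
  unfold Par.r2; fun_prop
@[fun_prop] theorem algpt_r3 (hP : PT P) : PT fun a => (P a).r3 := by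
  unfold Par.r3; fun_prop
@[fun_prop] theorem algpt_r4 (hP : PT P) : PT fun a => (P a).r4 := by
  unfold Par.r4; fun_prop
@[fun_prop] theorem algpt_Th (hP : PT P) : PT fun a => (P a).Th := by
  unfold Par.Th; fun_prop
@[fun_prop] theorem algpt_psi0 (hP : PT P) : PT fun a => (P a).psi0 := by
  unfold Par.psi0; fun_prop
@[fun_prop] theorem algpt_Y0 (hP : PT P) : PT fun a => (P a).Y0 := by
  unfold Par.Y0; fun_prop
@[fun_prop] theorem algpt_Tc (hP : PT P) : PT fun a => (P a).Tc := by
  unfold Par.Tc; fun_prop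
@[fun_prop] theorem algpt_sig (hP : PT P) : PT fun a => (P a).sig := by
  unfold Par.sig; fun_prop
@[fun_prop] theorem algpt_Psi (hP : PT P) (hr : PT r) : PT fun a => (P a).Psi (r a) := by
  unfold Par.Psi; fun_prop
@[fun_prop] theorem algpt_tau (hP : PT P) (hr : PT r) : PT fun a => (P a).tau (r a) := by
  unfold Par.tau; fun_prop
@[fun_prop] theorem algpt_A (hP : PT P) (hr : PT r) : PT fun a => (P a).A (r a) := by
  unfold Par.A; fun_prop
@[fun_prop] theorem algpt_wT (hP : PT P) (hr : PT r) : PT fun a => (P a).wT (r a) := by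
  unfold Par.wT; fun_prop
@[fun_prop] theorem algpt_Dbar (hP : PT P) (hr : PT r) : PT fun a => (P a).Dbar (r a) := by
  unfold Par.Dbar; fun_prop
@[fun_prop] theorem algpt_Wbar (hP : PT P) (hr : PT r) : PT fun a => (P a).Wbar (r a) := by
  unfold Par.Wbar; fun_prop
@[fun_prop] theorem algpt_fprod (hP : PT P) (hr : PT r) : PT fun a => (P a).fprod (r a) := by
  unfold Par.fprod; fun_prop
@[fun_prop] theorem algpt_f (hP : PT P) (hr : PT r) : PT fun a => (P a).f (r a) := by
  unfold Par.f; fun_prop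
@[fun_prop] theorem algpt_Uphi (hP : PT P) (hr : PT r) (hz : PT z) :
    PT fun a => (P a).Uphi (r a) (z a) := by
  unfold Par.Uphi; fun_prop
@[fun_prop] theorem algpt_Upsi (hP : PT P) (hr : PT r) (hz : PT z) :
    PT fun a => (P a).Upsi (r a) (z a) := by
  unfold Par.Upsi; fun_prop
@[fun_prop] theorem algpt_UT (hP : PT P) (hr : PT r) (hz : PT z) :
    PT fun a => (P a).UT (r a) (z a) := by
  unfold Par.UT; fun_prop
@[fun_prop] theorem algpt_U4 (hP : PT P) (hr : PT r) (hz : PT z) :
    PT fun a => (P a).U4 (r a) (z a) := by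
  unfold Par.U4; fun_prop
@[fun_prop] theorem algpt_UD (hP : PT P) (hr : PT r) (hz : PT z) :
    PT fun a => (P a).UD (r a) (z a) := by
  unfold Par.UD; fun_prop
@[fun_prop] theorem algpt_UW (hP : PT P) (hr : PT r) (hz : PT z) :
    PT fun a => (P a).UW (r a) (z a) := by
  unfold Par.UW; fun_prop
@[fun_prop] theorem algpt_UQ (hP : PT P) (hr : PT r) (hz : PT z) :
    PT fun a => (P a).UQ (r a) (z a) := by
  unfold Par.UQ; fun_prop
@[fun_prop] theorem algpt_UF (hP : PT P) (hr : PT r) (hz : PT z) :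
    PT fun a => (P a).UF (r a) (z a) := by
  unfold Par.UF; fun_prop
@[fun_prop] theorem algpt_US (hP : PT P) (hr : PT r) (hz : PT z) :
    PT fun a => (P a).US (r a) (z a) := by
  unfold Par.US; fun_prop
@[fun_prop] theorem algpt_UA (hP : PT P) (hr : PT r) (hz : PT z) :
    PT fun a => (P a).UA (r a) (z a) := by
  unfold Par.UA; fun_prop
@[fun_prop] theorem algpt_Uchi (hP : PT P) (hr : PT r) (hz : PT z) (hz' : PT z') :
    PT fun a => (P a).Uchi (r a) (z a) (z' a) := by
  unfold Par.Uchi; fun_prop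
@[fun_prop] theorem algpt_Uobs {z1 z2 z3 z4 zd zw zq zc : α → ℚ} (hP : PT P) (hr : PT r)
    (h1 : PT z1) (h2 : PT z2) (h3 : PT z3) (h4 : PT z4) (hd : PT zd) (hw : PT zw) (hq : PT zq)
    (hc : PT zc) : PT fun a =>
      (P a).Uobs (r a) (z1 a) (z2 a) (z3 a) (z4 a) (zd a) (zw a) (zq a) (zc a) := by
  unfold Par.Uobs; fun_prop

@[fun_prop] theorem algpt_mg (hC : PT C) (hk : PT k) (hl : PT l) :
    PT fun a => mg (C a) (k a) (l a) := by
  unfold mg; fun_prop
theorem algpt_mkM {f : α → ℕ → ℕ → ℚ} (hN : PT N) (hb : PB N)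
    (hf : PT fun q : (α × ℕ) × ℕ => f q.1.1 q.1.2 q.2) : PT fun a => mkM (N a) (f a) := by
  unfold mkM
  exact PT.map (hN.range hb) (PT.map (f := fun (q : α × ℕ) j => f q.1 q.2 j)
    ((hN.range hb).comp PT.id.fst) hf)
@[fun_prop] theorem algpt_mmul (hN : PT N) (hb : PB N) (hC : PT C) (hD : PT D) :
    PT fun a => mmul (N a) (C a) (D a) :=
  algpt_mkM hN hb (by fun_prop)
@[fun_prop] theorem algpt_trL (hN : PT N) (hb : PB N) (hC : PT C) :
    PT fun a => trL (N a) (C a) := by
  unfold trL; fun_prop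
@[fun_prop] theorem algpt_updL (hN : PT N) (hb : PB N) (hz : PT b) (hC : PT C) (hu : PT u)
    (hv : PT v) : PT fun a => updL (N a) (b a) (C a) (u a) (v a) :=
  algpt_mkM hN hb (by fun_prop)
@[fun_prop] theorem algpt_UsideL (hP : PT P) (hr : PT r) (hC : PT C) (hD : PT D) :
    PT fun a => UsideL (P a) (r a) (C a) (D a) := by
  unfold UsideL; fun_prop
@[fun_prop] theorem algpt_adjL (hE : PT E) (hu : PT u) (hv : PT v) :
    PT fun a => adjL (E a) (u a) (v a) := by
  unfold adjL; fun_prop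
@[fun_prop] theorem algpt_ScL (hd : PT d) (hR : PT R) : PT fun a => ScL (d a) (R a) := by
  unfold ScL; fun_prop
@[fun_prop] theorem algpt_AcL (hd : PT d) (hE : PT E) (hR : PT R) :
    PT fun a => AcL (d a) (E a) (R a) := by
  unfold AcL; fun_prop
@[fun_prop] theorem algpt_potL (hP : PT P) (hσ : PT σ) : PT fun a => potL (P a) (σ a) := by
  unfold potL; fun_prop
@[fun_prop] theorem algpt_stepL (hP : PT P) (hσ : PT σ) (hp : PT p) :
    PT fun a => stepL (P a) (σ a) (p a) := by
  unfold stepL; fun_prop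
@[fun_prop] theorem algpt_okL (hP : PT P) (hσ : PT σ) (hp : PT p) :
    PT fun a => okL (P a) (σ a) (p a) := by
  unfold okL; fun_prop
@[fun_prop] theorem algpt_cands (hP : PT P) (hσ : PT σ) : PT fun a => cands (P a) (σ a) := by
  unfold cands; fun_prop
theorem algpt_nextL (hP : PT P) (hσ : PT σ) : PT fun a => nextL (P a) (σ a) := by
  unfold nextL
  have h1 : PT fun q : α × (ℕ × ℕ) => stepL (P q.1) (σ q.1) q.2 :=
    algpt_stepL (hP.comp PT.id.fst) (hσ.comp PT.id.fst) PT.id.snd
  exact PT.ite (by fun_prop) hσ (PT.option_elim (PT.argmin (algpt_cands hP hσ) (by fun_prop)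
    (algpt_potL (hP.comp PT.id.fst) h1)) hσ h1)
theorem algpt_szB (hP : PT P) : PT fun a => szB (P a) :=
  (PT.const _).nat_mul (((algpt_r0 hP).nat_add (PT.const _)).nat_pow (PT.const _) (PB.const _))
theorem algpt_szBb (hP : PT P) : PB fun a => szB (P a) :=
  (PB.const _).mul (((algpt_r0b hP).add (PB.const _)).pow _)
theorem algpt_nextC (hP : PT P) (hσ : PT σ) : PT fun a => nextC (P a) (σ a) := by
  unfold nextC
  have h := algpt_nextL hP hσ
  exact PT.ite ((h.toBits.length.of_eq fun _ => length_toBits _).nat_le (algpt_szB hP)) h hσ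
@[fun_prop] theorem algpt_C0L (hP : PT P) (hz : PT b) : PT fun a => C0L (P a) (b a) :=
  algpt_mkM (algpt_r0 hP) (algpt_r0b hP) (by fun_prop)
theorem algpt_initL (hP : PT P) : PT fun a => initL (P a) := by
  unfold initL; fun_prop
theorem algpt_runL (hP : PT P) : PT fun a => runL (P a) := by
  refine PT.iterate (f := fun a => nextC (P a)) (algpt_r0 hP) (algpt_r0b hP) (algpt_initL hP)
    (algpt_nextC (hP.comp PT.id.fst) PT.id.snd)
    ((PB.sz (algpt_initL hP)).add (algpt_szBb hP)) fun a j hj => ?_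
  clear hj
  induction j with
  | zero => exact Nat.le_add_right _ _
  | succ j ih =>
    rw [Function.iterate_succ_apply', nextC]
    split_ifs with h
    · exact h.trans (Nat.le_add_left _ _)
    · exact ih
@[fun_prop] theorem algpt_pairsL (hd : PT d) (hR : PT R) : PT fun a => pairsL (d a) (R a) := by
  unfold pairsL; fun_prop
theorem algpt_finalE (hd : PT d) (hσ : PT σ) : PT fun a => finalE (d a) (σ a) := by
  unfold finalE; fun_prop
theorem algpt_bitsL (hn : PT n) (hb : PB n) (hE : PT E) : PT fun a => bitsL (n a) (E a) := by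
  unfold bitsL; fun_prop
@[fun_prop] theorem algpt_Lof (hn : PT n) (hb : PB n) : PT fun a => Lof (n a) := by
  have key : ∀ e : ℕ, PT fun a => ((List.range (n a)).filter fun i =>
      decide ((i + 1) ^ e ≤ n a)).length := fun e => by fun_prop
  exact key 96000
@[fun_prop] theorem algpt_kof (hd : PT d) (hn : PT n) (hb : PB n) : PT fun a => kof (d a) (n a) := by
  have key : ∀ {y : α → ℕ}, PT y → PT fun a => ((List.range (n a)).filter fun j =>
      decide ((d a - 1) * (j + 1) ^ 2 * y a ≤ (y a - 1) * n a ^ 2)).length := fun hy => by fun_prop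
  exact key ((algpt_Lof hn hb).nat_pow (PT.const 31880) (PB.const 31880))
theorem algpt_par (d : ℕ) (hn : PT n) (hb : PB n) : PT fun a => par d (n a) :=
  PT.of_enc_eq (g := fun a => (Un.mk d, Un.mk (n a), Lof (n a), (kof d (n a) : ℚ) / n a))
    (by fun_prop) fun _ => rfl

end

theorem algF_polyTime (d : ℕ) : Crest.Complexity.PolyTime (algF d) :=
  PT.polyTime (algpt_bitsL PT.id.length (PB.length PT.id) (algpt_finalE (PT.const d)
    (algpt_runL (algpt_par d PT.id.length (PB.length PT.id)))))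

end Crest.Agent.R62
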