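import Crest.Agent.R62.Defs

/-!
# R62/Api: the calculus of pair averages, bounds on `K`, operator norm bounds (TASK)

Many small lemmas used by all drift lemmas.  All are elementary (Cauchy-Schwarz
`Finset.sum_mul_sq_le_sq_mul_sq`).  The owner may add further lemmas but must not change these.
-/

set_option autoImplicit false
set_option linter.unusedSectionVars false
open Finset Matrix

namespace Crest.Agent.R62

variable {ι : Type} [Fintype ι] [DecidableEq ι]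

theorem le_of_sq_le_sq₀' {x y : ℝ} (h : x ^ 2 ≤ y ^ 2) (hy : 0 ≤ y) : x ≤ y :=
  (le_abs_self x).trans (abs_le_of_sq_le_sq' h hy |> fun h => abs_le.2 h)

/-! ### `av` and `Ea` -/

theorem rr_nonneg : 0 ≤ rr ι := by
  unfold rr; positivity
theorem av_add (f g : ι → ι → ℝ) : av (fun u v => f u v + g u v) = av f + av g := by
  simp only [av, sum_add_distrib, add_div]
theorem av_sub (f g : ι → ι → ℝ) : av (fun u v => f u v - g u v) = av f - av g := by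
  simp only [av, sum_sub_distrib, sub_div]
theorem av_const_mul (c : ℝ) (f : ι → ι → ℝ) : av (fun u v => c * f u v) = c * av f := by
  simp only [av, ← mul_sum, mul_div_assoc]
theorem av_mono {f g : ι → ι → ℝ} (h : ∀ u v, f u v ≤ g u v) : av f ≤ av g := by
  unfold av
  exact div_le_div_of_nonneg_right (sum_le_sum fun u _ => sum_le_sum fun v _ => h u v) (sq_nonneg _)
theorem av_nonneg {f : ι → ι → ℝ} (h : ∀ u v, 0 ≤ f u v) : 0 ≤ av f := by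
  unfold av
  exact div_nonneg (sum_nonneg fun u _ => sum_nonneg fun v _ => h u v) (sq_nonneg _)
theorem av_congr {f g : ι → ι → ℝ} (h : ∀ u v, f u v = g u v) : av f = av g := by
  rw [show f = g from funext fun u => funext fun v => h u v]
theorem abs_av_le (f : ι → ι → ℝ) : |av f| ≤ av fun u v => |f u v| := by
  unfold av
  rw [abs_div, abs_of_nonneg (sq_nonneg (rr ι))]
  refine div_le_div_of_nonneg_right ?_ (sq_nonneg _)
  exact (abs_sum_le_sum_abs _ _).trans (sum_le_sum fun u _ => abs_sum_le_sum_abs _ _)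
theorem av_swap (f : ι → ι → ℝ) : av (fun u v => f v u) = av f := by
  unfold av; rw [sum_comm]
theorem av_const (h : 0 < rr ι) (c : ℝ) : av (fun _ _ : ι => c) = c := by
  unfold av
  simp only [sum_const, card_univ, nsmul_eq_mul]
  change rr ι * (rr ι * c) / rr ι ^ 2 = c
  field_simp
theorem av_prod (f g : ι → ℝ) :
    av (fun u v => f u * g v) = (∑ u, f u) / rr ι * ((∑ v, g v) / rr ι) := by
  unfold av
  rw [← sum_mul_sum, div_mul_div_comm, sq]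
theorem av_left (h : 0 < rr ι) (f : ι → ℝ) : av (fun u _ => f u) = (∑ u, f u) / rr ι := by
  have := av_prod f (fun _ => (1 : ℝ))
  simp only [mul_one, sum_const, card_univ, nsmul_eq_mul] at this
  rw [this]
  change _ * (rr ι / rr ι) = _
  rw [div_self h.ne', mul_one]
theorem av_right (h : 0 < rr ι) (f : ι → ℝ) : av (fun _ v => f v) = (∑ v, f v) / rr ι := by
  rw [← av_left h f, ← av_swap]
/-- Cauchy-Schwarz -/
theorem av_cs {f g : ι → ι → ℝ} {A B : ℝ} (hA : 0 ≤ A) (hB : 0 ≤ B)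
    (hf : av (fun u v => f u v ^ 2) ≤ A ^ 2) (hg : av (fun u v => g u v ^ 2) ≤ B ^ 2) :
    av (fun u v => |f u v| * |g u v|) ≤ A * B := by
  have h1 : av (fun u v => |f u v| * |g u v|) ^ 2 ≤
      av (fun u v => f u v ^ 2) * av (fun u v => g u v ^ 2) := by
    unfold av
    rw [div_pow, div_mul_div_comm, ← sq (rr ι ^ 2)]
    refine div_le_div_of_nonneg_right ?_ (sq_nonneg _)
    have := sum_mul_sq_le_sq_mul_sq (univ : Finset (ι × ι)) (fun p => |f p.1 p.2|)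
      (fun p => |g p.1 p.2|)
    simpa only [sq_abs, Fintype.sum_prod_type] using this
  have h2 : av (fun u v => f u v ^ 2) * av (fun u v => g u v ^ 2) ≤ (A * B) ^ 2 := by
    rw [mul_pow]
    exact mul_le_mul hf hg (av_nonneg fun _ _ => sq_nonneg _) (sq_nonneg _)
  exact le_of_sq_le_sq₀' (h1.trans h2) (mul_nonneg hA hB)
theorem abs_av_cs {f g : ι → ι → ℝ} {A B : ℝ} (hA : 0 ≤ A) (hB : 0 ≤ B)
    (hf : av (fun u v => f u v ^ 2) ≤ A ^ 2) (hg : av (fun u v => g u v ^ 2) ≤ B ^ 2) :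
    |av (fun u v => f u v * g u v)| ≤ A * B := by
  refine (abs_av_le _).trans ?_
  simp only [abs_mul]
  exact av_cs hA hB hf hg
theorem sum_cs {f g : ι → ℝ} {A B : ℝ} (hA : 0 ≤ A) (hB : 0 ≤ B)
    (hf : ∑ k, f k ^ 2 ≤ A ^ 2) (hg : ∑ k, g k ^ 2 ≤ B ^ 2) : ∑ k, |f k| * |g k| ≤ A * B := by
  have h1 := sum_mul_sq_le_sq_mul_sq (univ : Finset ι) (fun k => |f k|) (fun k => |g k|)
  simp only [sq_abs] at h1
  have h2 : (∑ k, f k ^ 2) * ∑ k, g k ^ 2 ≤ (A * B) ^ 2 := by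
    rw [mul_pow]
    exact mul_le_mul hf hg (sum_nonneg fun _ _ => sq_nonneg _) (sq_nonneg _)
  exact le_of_sq_le_sq₀' (h1.trans h2) (mul_nonneg hA hB)

theorem Ea_add (ω f g : ι → ι → ℝ) : Ea ω (fun u v => f u v + g u v) = Ea ω f + Ea ω g := by
  unfold Ea; rw [← av_add]; exact av_congr fun u v => by ring
theorem Ea_sub (ω f g : ι → ι → ℝ) : Ea ω (fun u v => f u v - g u v) = Ea ω f - Ea ω g := by
  unfold Ea; rw [← av_sub]; exact av_congr fun u v => by ring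
theorem Ea_const_mul (ω : ι → ι → ℝ) (c : ℝ) (f : ι → ι → ℝ) :
    Ea ω (fun u v => c * f u v) = c * Ea ω f := by
  unfold Ea; rw [← av_const_mul]; exact av_congr fun u v => by ring
/-- `E_ω f = E f + E [(ω - 1) f]` -/
theorem Ea_eq (ω f : ι → ι → ℝ) : Ea ω f = av f + av fun u v => (ω u v - 1) * f u v := by
  unfold Ea; rw [← av_add]; exact av_congr fun u v => by ring
theorem Ea_congr {ω f g : ι → ι → ℝ} (h : ∀ u v, ω u v ≠ 0 → f u v = g u v) : Ea ω f = Ea ω g := by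
  unfold Ea
  refine av_congr fun u v => ?_
  by_cases h0 : ω u v = 0
  · simp [h0]
  · rw [h u v h0]

section Wt
variable {ω : ι → ι → ℝ} {ϑ Ξ Ω t : ℝ}

theorem Wt.ne (hw : Wt ω ϑ Ξ Ω t) {u v : ι} (h : ω u v ≠ 0) : u ≠ v := by
  rintro rfl; exact h (hw.diag u)
theorem Wt.Ea_const (hw : Wt ω ϑ Ξ Ω t) (h : 0 < rr ι) (c : ℝ) : Ea ω (fun _ _ => c) = c := by
  unfold Ea av
  simp only [← sum_mul]
  rw [hw.tot]; field_simp
theorem Wt.Ea_mono (hw : Wt ω ϑ Ξ Ω t) {f g : ι → ι → ℝ} (h : ∀ u v, ω u v ≠ 0 → f u v ≤ g u v) :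
    Ea ω f ≤ Ea ω g := by
  unfold Ea
  refine av_mono fun u v => ?_
  by_cases h0 : ω u v = 0
  · simp [h0]
  · exact mul_le_mul_of_nonneg_left (h u v h0) (hw.nn u v)
theorem Wt.abs_Ea_le (hw : Wt ω ϑ Ξ Ω t) {f g : ι → ι → ℝ}
    (h : ∀ u v, ω u v ≠ 0 → |f u v| ≤ g u v) : |Ea ω f| ≤ Ea ω g := by
  rw [abs_le]
  constructor
  · have := hw.Ea_mono (f := fun u v => (-1) * g u v) (g := f)
      fun u v h0 => by linarith [(abs_le.1 (h u v h0)).1]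
    rw [Ea_const_mul] at this
    linarith
  · exact hw.Ea_mono fun u v h0 => (abs_le.1 (h u v h0)).2
theorem Wt.Ea_swap (hw : Wt ω ϑ Ξ Ω t) (f : ι → ι → ℝ) : Ea ω (fun u v => f v u) = Ea ω f := by
  unfold Ea
  rw [← av_swap]
  exact av_congr fun u v => by rw [hw.symm v u]
theorem Wt.Ea_le (hw : Wt ω ϑ Ξ Ω t) {f : ι → ι → ℝ} (h : ∀ u v, 0 ≤ f u v) :
    Ea ω f ≤ (1 + ϑ) * av f := by
  unfold Ea
  rw [← av_const_mul]
  exact av_mono fun u v => mul_le_mul_of_nonneg_right (hw.le u v) (h u v)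
theorem Wt.Ea_le_two (hw : Wt ω ϑ Ξ Ω t) (h1 : ϑ ≤ 1) {f : ι → ι → ℝ} (h : ∀ u v, 0 ≤ f u v) :
    Ea ω f ≤ 2 * av f := by
  refine (hw.Ea_le h).trans (mul_le_mul_of_nonneg_right (by linarith) (av_nonneg h))
/-- marginal lower bound (removal terms) -/
theorem Wt.le_Ea_left (hw : Wt ω ϑ Ξ Ω t) {f : ι → ℝ} (h : ∀ u, 0 ≤ f u) :
    (1 - ϑ) * ((∑ u, f u) / rr ι) ≤ Ea ω fun u _ => f u := by
  rcases (rr_nonneg (ι := ι)).eq_or_lt with h0 | h0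
  · simp [Ea, av, ← h0]
  unfold Ea av
  rw [le_div_iff₀ (by positivity)]
  have : (1 - ϑ) * ((∑ u, f u) / rr ι) * rr ι ^ 2 = ∑ u, (1 - ϑ) * rr ι * f u := by
    rw [← mul_sum]; field_simp
  rw [this]
  refine sum_le_sum fun u _ => ?_
  rw [← sum_mul]
  exact mul_le_mul_of_nonneg_right (hw.row u) (h u)
theorem Wt.le_Ea_right (hw : Wt ω ϑ Ξ Ω t) {f : ι → ℝ} (h : ∀ u, 0 ≤ f u) :
    (1 - ϑ) * ((∑ u, f u) / rr ι) ≤ Ea ω fun _ v => f v := by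
  rw [← hw.Ea_swap]
  exact hw.le_Ea_left h
theorem Wt.av_sq (hw : Wt ω ϑ Ξ Ω t) (ht : 0 < t) (h8 : t ^ 8 = rr ι) :
    av (fun u v => (ω u v - 1) ^ 2) ≤ (Ξ / t ^ 4) ^ 2 := by
  unfold av
  have h0 : 0 < rr ι := h8 ▸ pow_pos ht 8
  rw [div_le_iff₀ (by positivity)]
  refine hw.fro.trans (le_of_eq ?_)
  rw [← h8]; field_simp
/-- some pair in the support is at most the average -/
theorem Wt.exists_le (hw : Wt ω ϑ Ξ Ω t) (h : 0 < rr ι) (f : ι → ι → ℝ) :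
    ∃ u v, ω u v ≠ 0 ∧ f u v ≤ Ea ω f := by
  by_contra hc
  push Not at hc
  have hex : ∃ u v, ω u v ≠ 0 := by
    by_contra h0
    push Not at h0
    have := hw.tot
    simp only [h0, sum_const_zero] at this
    have h2 : 0 < rr ι ^ 2 := by positivity
    linarith
  obtain ⟨u₀, v₀, h0⟩ := hex
  have h1 : ∑ u, ∑ v, ω u v * Ea ω f < ∑ u, ∑ v, ω u v * f u v := by
    have key : ∀ u v, ω u v * Ea ω f ≤ ω u v * f u v := fun u v => by
      by_cases h2 : ω u v = 0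
      · simp [h2]
      · exact mul_le_mul_of_nonneg_left (hc u v h2).le (hw.nn u v)
    refine sum_lt_sum (fun u _ => sum_le_sum fun v _ => key u v) ⟨u₀, mem_univ _, ?_⟩
    refine sum_lt_sum (fun v _ => key u₀ v) ⟨v₀, mem_univ _, ?_⟩
    exact mul_lt_mul_of_pos_left (hc u₀ v₀ h0) ((hw.nn u₀ v₀).lt_of_ne' h0)
  have h2 : ∑ u, ∑ v, ω u v * f u v = rr ι ^ 2 * Ea ω f := by
    unfold Ea av; field_simp
  simp only [← sum_mul] at h1
  rw [hw.tot, h2] at h1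
  exact lt_irrefl _ h1
theorem Wt.Ea_sq_le (hw : Wt ω ϑ Ξ Ω t) (h : 0 < rr ι) (f : ι → ι → ℝ) :
    Ea ω f ^ 2 ≤ Ea ω fun u v => f u v ^ 2 := by
  have h1 : 0 ≤ Ea ω fun u v => (f u v - Ea ω f) ^ 2 := by
    have := hw.Ea_mono (f := fun _ _ => 0) (g := fun u v => (f u v - Ea ω f) ^ 2)
      fun u v _ => sq_nonneg _
    rwa [hw.Ea_const h] at this
  have h2 : (Ea ω fun u v => (f u v - Ea ω f) ^ 2) =
      (Ea ω fun u v => f u v ^ 2) - Ea ω f ^ 2 := by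
    have : (Ea ω fun u v => (f u v - Ea ω f) ^ 2) =
        Ea ω fun u v => (f u v ^ 2 - (2 * Ea ω f) * f u v) + Ea ω f ^ 2 :=
      Ea_congr fun u v _ => by ring
    rw [this, Ea_add, Ea_sub, Ea_const_mul, hw.Ea_const h]
    ring
  linarith
end Wt

/-! ### operator norms -/

theorem OpLe.mono {M : Matrix ι ι ℝ} {μ μ' : ℝ} (h : OpLe M μ) (h0 : 0 ≤ μ) (h1 : μ ≤ μ') :
    OpLe M μ' := by
  intro x
  exact (h x).trans (mul_le_mul_of_nonneg_right (pow_le_pow_left₀ h0 h1 2)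
    (sum_nonneg fun _ _ => sq_nonneg _))
theorem OpLe.one : OpLe (1 : Matrix ι ι ℝ) 1 := by
  intro x; simp
theorem OpLe.mul {M N : Matrix ι ι ℝ} {μ μ' : ℝ} (h : OpLe M μ) (h' : OpLe N μ') :
    OpLe (M * N) (μ * μ') := by
  intro x
  rw [← mulVec_mulVec, mul_pow, mul_assoc]
  exact (h _).trans (mul_le_mul_of_nonneg_left (h' x) (sq_nonneg _))
theorem OpLe.transpose {M : Matrix ι ι ℝ} {μ : ℝ} (h : OpLe M μ) : OpLe Mᵀ μ := by
  intro x
  set y := Mᵀ *ᵥ x with hy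
  have h1 : ∑ k, y k ^ 2 = ∑ k, x k * (M *ᵥ y) k := by
    have : y ⬝ᵥ y = x ⬝ᵥ M *ᵥ y := by rw [dotProduct_mulVec x, ← mulVec_transpose]
    simpa only [dotProduct, sq] using this
  have h2 := sum_mul_sq_le_sq_mul_sq univ x (M *ᵥ y)
  have h3 := h y
  have hx : 0 ≤ ∑ k, x k ^ 2 := sum_nonneg fun _ _ => sq_nonneg _
  have hy0 : 0 ≤ ∑ k, y k ^ 2 := sum_nonneg fun _ _ => sq_nonneg _
  rw [← h1] at h2
  have h4 := h2.trans (mul_le_mul_of_nonneg_left h3 hx)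
  rcases hy0.eq_or_lt with h5 | h5
  · rw [← h5]; positivity
  · have : (∑ k, y k ^ 2) * ∑ k, y k ^ 2 ≤ (μ ^ 2 * ∑ k, x k ^ 2) * ∑ k, y k ^ 2 := by linarith
    exact le_of_mul_le_mul_right this h5
theorem OpLe.opB {M : Matrix ι ι ℝ} {μ : ℝ} (h : OpLe M μ) : OpB (fun u v => M u v) μ := by
  intro x y
  have h1 : ∑ u, ∑ v, x u * M u v * y v = ∑ u, x u * (M *ᵥ y) u := by
    simp only [mulVec, dotProduct, mul_sum, mul_assoc]
  rw [h1]
  have h2 := sum_mul_sq_le_sq_mul_sq univ x (M *ᵥ y)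
  have hx : 0 ≤ ∑ k, x k ^ 2 := sum_nonneg fun _ _ => sq_nonneg _
  refine h2.trans ((mul_le_mul_of_nonneg_left (h y) hx).trans (le_of_eq ?_))
  ring
theorem OpLe.of_fro {M : Matrix ι ι ℝ} {μ : ℝ} (h : fro M ≤ μ ^ 2) : OpLe M μ := by
  intro x
  have h1 : ∑ k, (M *ᵥ x) k ^ 2 ≤ ∑ k, (∑ l, M k l ^ 2) * ∑ l, x l ^ 2 :=
    sum_le_sum fun k _ => sum_mul_sq_le_sq_mul_sq univ (M k) x
  rw [← sum_mul] at h1
  exact h1.trans (mul_le_mul_of_nonneg_right h (sum_nonneg fun _ _ => sq_nonneg _))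
/-- `‖B x‖² = xᵀ B² x ≤ ‖B²‖_F ‖x‖²` -/
theorem opLe_of_t4 {B : Matrix ι ι ℝ} (hB : B.IsSymm) {ν : ℝ} (h : t4 B ≤ ν ^ 4) : OpLe B ν := by
  have h2 : OpLe (B * B) (ν ^ 2) := by
    refine OpLe.of_fro ?_
    have : fro (B * B) = t4 B := by
      unfold fro t4
      rw [Matrix.mul_assoc (B * B)]
      simp only [Matrix.trace, Matrix.diag, Matrix.mul_apply (M := B * B), sq]
      refine sum_congr rfl fun k _ => sum_congr rfl fun l _ => ?_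
      congr 1
      simp only [Matrix.mul_apply]
      exact sum_congr rfl fun m _ => by rw [hB.apply k m, hB.apply m l, mul_comm]
    rw [this, ← pow_mul]; exact h
  intro x
  have h1 : ∑ k, (B *ᵥ x) k ^ 2 = ∑ k, x k * ((B * B) *ᵥ x) k := by
    have : (B *ᵥ x) ⬝ᵥ (B *ᵥ x) = x ⬝ᵥ (B * B) *ᵥ x := by
      rw [← mulVec_mulVec, dotProduct_mulVec x, ← mulVec_transpose, hB.eq]
    simpa only [dotProduct, sq] using this
  have h3 := sum_mul_sq_le_sq_mul_sq univ x ((B * B) *ᵥ x)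
  have hx : 0 ≤ ∑ k, x k ^ 2 := sum_nonneg fun _ _ => sq_nonneg _
  rw [h1]
  refine le_of_sq_le_sq₀' (h3.trans ((mul_le_mul_of_nonneg_left (h2 x) hx).trans
    (le_of_eq (by ring)))) (by positivity)
theorem fro_mul_left {M N : Matrix ι ι ℝ} {μ : ℝ} (h : OpLe M μ) :
    fro (M * N) ≤ μ ^ 2 * fro N := by
  unfold fro
  rw [sum_comm, sum_comm (f := fun k l => N k l ^ 2), mul_sum]
  exact sum_le_sum fun l _ => h fun k => N k l
theorem fro_mul_right {M N : Matrix ι ι ℝ} {μ : ℝ} (h : OpLe N μ) :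
    fro (M * N) ≤ μ ^ 2 * fro M := by
  have h1 := fro_mul_left (N := Mᵀ) h.transpose
  rw [← transpose_mul] at h1
  unfold fro at h1 ⊢
  rw [sum_comm, sum_comm (f := fun k l => M k l ^ 2)]
  exact h1
theorem fro_eq_t2 {B : Matrix ι ι ℝ} (hB : B.IsSymm) : fro B = t2 B := by
  unfold fro t2
  simp only [Matrix.trace, Matrix.diag, Matrix.mul_apply, sq]
  exact sum_congr rfl fun k _ => sum_congr rfl fun l _ => by rw [hB.apply k l]
theorem fro_sq_eq_t4 {B : Matrix ι ι ℝ} (hB : B.IsSymm) : fro (B * B) = t4 B := by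
  have h2 : (B * B).IsSymm := by
    unfold Matrix.IsSymm; rw [transpose_mul, hB.eq]
  rw [fro_eq_t2 h2]
  unfold t2 t4
  rw [Matrix.mul_assoc (B * B)]
/-- `‖B₁ B₂‖_F² = tr (B₁² B₂²) ≤ √(t4 B₁ t4 B₂)` -/
theorem fro_mul_le {B₁ B₂ : Matrix ι ι ℝ} (h₁ : B₁.IsSymm) (h₂ : B₂.IsSymm) {ν : ℝ}
    (h1 : t4 B₁ ≤ ν ^ 4) (h2 : t4 B₂ ≤ ν ^ 4) : fro (B₁ * B₂) ≤ ν ^ 4 := by
  have e1 : fro (B₁ * B₂) = ∑ p : ι × ι, (B₁ * B₁) p.1 p.2 * (B₂ * B₂) p.1 p.2 := by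
    have a1 : fro (B₁ * B₂) = ((B₁ * B₂) * (B₁ * B₂)ᵀ).trace := by
      unfold fro
      simp only [Matrix.trace, Matrix.diag, Matrix.mul_apply (M := B₁ * B₂), transpose_apply, sq]
    have hs : (B₂ * B₂).IsSymm := by
      unfold Matrix.IsSymm; rw [transpose_mul, h₂.eq]
    rw [a1, transpose_mul, h₁.eq, h₂.eq, ← Matrix.mul_assoc, trace_mul_comm, ← Matrix.mul_assoc,
      ← Matrix.mul_assoc, Matrix.mul_assoc (B₁ * B₁), Fintype.sum_prod_type]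
    simp only [Matrix.trace, Matrix.diag, Matrix.mul_apply (M := B₁ * B₁)]
    exact sum_congr rfl fun k _ => sum_congr rfl fun l _ => by rw [hs.apply k l]
  have e2 := sum_mul_sq_le_sq_mul_sq (univ : Finset (ι × ι)) (fun p => (B₁ * B₁) p.1 p.2)
    (fun p => (B₂ * B₂) p.1 p.2)
  rw [← e1, Fintype.sum_prod_type, Fintype.sum_prod_type] at e2
  have e3 := fro_sq_eq_t4 h₁
  have e4 := fro_sq_eq_t4 h₂
  unfold fro at e3 e4
  rw [e3, e4] at e2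
  have n2 : 0 ≤ t4 B₂ := e4 ▸ sum_nonneg fun _ _ => sum_nonneg fun _ _ => sq_nonneg _
  have hν : 0 ≤ ν ^ 4 := by positivity
  exact le_of_sq_le_sq₀' (e2.trans ((mul_le_mul h1 h2 n2 hν).trans (le_of_eq (by ring)))) hν
theorem t4_le_t2_sq {B : Matrix ι ι ℝ} (hB : B.IsSymm) : t4 B ≤ t2 B ^ 2 := by
  rw [← fro_sq_eq_t4 hB, ← fro_eq_t2 hB, sq]
  have h0 : 0 ≤ fro B := sum_nonneg fun _ _ => sum_nonneg fun _ _ => sq_nonneg _
  have := fro_mul_left (N := B) (OpLe.of_fro (M := B) (μ := Real.sqrt (fro B))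
    (Real.sq_sqrt h0).ge)
  rwa [Real.sq_sqrt h0] at this
theorem av_sq_eq_fro (M : ι → ι → ℝ) : av (fun u v => M u v ^ 2) = fro M / rr ι ^ 2 := by
  rfl
/-- trace of a product as a sum over pairs -/
theorem trace_mul_eq (M N : Matrix ι ι ℝ) : (M * N).trace = ∑ u, ∑ v, M u v * N v u := by
  simp only [Matrix.trace, Matrix.diag, Matrix.mul_apply]

theorem OpB.of_fro {ζ : ι → ι → ℝ} {Ω : ℝ} (h : fro ζ ≤ Ω ^ 2) : OpB ζ Ω := by
  exact (OpLe.of_fro (M := Matrix.of ζ) h).opB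
theorem OpB.add {ζ ζ' : ι → ι → ℝ} {Ω Ω' : ℝ} (h : OpB ζ Ω) (h' : OpB ζ' Ω') (h0 : 0 ≤ Ω)
    (h0' : 0 ≤ Ω') : OpB (fun u v => ζ u v + ζ' u v) (Ω + Ω') := by
  intro x y
  have hx : 0 ≤ ∑ k, x k ^ 2 := sum_nonneg fun _ _ => sq_nonneg _
  have hy : 0 ≤ ∑ k, y k ^ 2 := sum_nonneg fun _ _ => sq_nonneg _
  have e : ∑ u, ∑ v, x u * (ζ u v + ζ' u v) * y v =
      ∑ u, ∑ v, x u * ζ u v * y v + ∑ u, ∑ v, x u * ζ' u v * y v := by
    simp only [mul_add, add_mul, sum_add_distrib]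
  have hP : 0 ≤ (∑ k, x k ^ 2) * ∑ k, y k ^ 2 := mul_nonneg hx hy
  set w := Real.sqrt ((∑ k, x k ^ 2) * ∑ k, y k ^ 2) with hw
  have hw2 : w ^ 2 = (∑ k, x k ^ 2) * ∑ k, y k ^ 2 := Real.sq_sqrt hP
  have hw0 : 0 ≤ w := Real.sqrt_nonneg _
  have a1 := abs_le_of_sq_le_sq' (b := Ω * w) ((h x y).trans (le_of_eq (by rw [mul_pow, hw2]; ring)))
    (by positivity)
  have a2 := abs_le_of_sq_le_sq' (b := Ω' * w)
    ((h' x y).trans (le_of_eq (by rw [mul_pow, hw2]; ring))) (by positivity)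
  rw [e, mul_assoc, ← hw2, ← mul_pow]
  exact sq_le_sq' (by linarith [a1.1, a2.1]) (by linarith [a1.2, a2.2])
theorem OpB.const_mul {ζ : ι → ι → ℝ} {Ω : ℝ} (h : OpB ζ Ω) (c : ℝ) :
    OpB (fun u v => c * ζ u v) (|c| * Ω) := by
  intro x y
  have e : ∑ u, ∑ v, x u * (c * ζ u v) * y v = c * ∑ u, ∑ v, x u * ζ u v * y v := by
    simp only [mul_sum]
    exact sum_congr rfl fun u _ => sum_congr rfl fun v _ => by ring
  rw [e, mul_pow, mul_pow, sq_abs, mul_assoc, mul_assoc, ← mul_assoc (Ω ^ 2)]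
  exact mul_le_mul_of_nonneg_left (h x y) (sq_nonneg _)
theorem OpB.mono {ζ : ι → ι → ℝ} {Ω Ω' : ℝ} (h : OpB ζ Ω) (h0 : 0 ≤ Ω) (h1 : Ω ≤ Ω') : OpB ζ Ω' := by
  intro x y
  have hx : 0 ≤ ∑ k, x k ^ 2 := sum_nonneg fun _ _ => sq_nonneg _
  have hy : 0 ≤ ∑ k, y k ^ 2 := sum_nonneg fun _ _ => sq_nonneg _
  exact (h x y).trans (mul_le_mul_of_nonneg_right (mul_le_mul_of_nonneg_right
    (pow_le_pow_left₀ h0 h1 2) hx) hy)
theorem OpB.abs_le {ζ : ι → ι → ℝ} {Ω : ℝ} (h : OpB ζ Ω) (h0 : 0 ≤ Ω) {x y : ι → ℝ} {A B : ℝ}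
    (hA : 0 ≤ A) (hB : 0 ≤ B) (hx : ∑ u, x u ^ 2 ≤ A ^ 2) (hy : ∑ v, y v ^ 2 ≤ B ^ 2) :
    |∑ u, ∑ v, x u * ζ u v * y v| ≤ Ω * A * B := by
  have hy0 : 0 ≤ ∑ k, y k ^ 2 := sum_nonneg fun _ _ => sq_nonneg _
  refine _root_.abs_le.2 (abs_le_of_sq_le_sq' ((h x y).trans ?_) (by positivity))
  rw [mul_pow, mul_pow]
  exact mul_le_mul (mul_le_mul_of_nonneg_left hx (sq_nonneg _)) hy hy0 (by positivity)
/-- nuclear norm bound: `|Σ ζ_uv (Σ_k w_k x_k(u) y_k(v))| ≤ Ω Σ_k |w_k| ‖x_k‖ ‖y_k‖` -/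
theorem OpB.nuclear {ζ : ι → ι → ℝ} {Ω : ℝ} (h : OpB ζ Ω) (h0 : 0 ≤ Ω) {κ : Type} [Fintype κ]
    (w : κ → ℝ) (x y : κ → ι → ℝ) (A : κ → ℝ) (hA0 : ∀ k, 0 ≤ A k)
    (hA : ∀ k, (∑ u, x k u ^ 2) * (∑ v, y k v ^ 2) ≤ A k ^ 2) :
    |∑ u, ∑ v, ζ u v * ∑ k, w k * x k u * y k v| ≤ Ω * ∑ k, |w k| * A k := by
  have e : ∑ u, ∑ v, ζ u v * ∑ k, w k * x k u * y k v =
      ∑ k, w k * ∑ u, ∑ v, x k u * ζ u v * y k v := by
    simp only [mul_sum]
    symm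
    rw [sum_comm]
    refine sum_congr rfl fun u _ => ?_
    rw [sum_comm]
    exact sum_congr rfl fun v _ => sum_congr rfl fun k _ => by ring
  rw [e, mul_sum]
  refine (abs_sum_le_sum_abs _ _).trans (sum_le_sum fun k _ => ?_)
  rw [abs_mul, mul_left_comm]
  refine mul_le_mul_of_nonneg_left ?_ (abs_nonneg _)
  refine _root_.abs_le.2 (abs_le_of_sq_le_sq' ((h _ _).trans ?_) (mul_nonneg h0 (hA0 k)))
  rw [mul_pow, mul_assoc]
  exact mul_le_mul_of_nonneg_left (hA k) (sq_nonneg _)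

/-! ### diagonal and off-diagonal entries of words -/

theorem bet_eq {B : Matrix ι ι ℝ} (hB : B.IsSymm) (k : ι) : bet B k = ∑ l, B k l ^ 2 := by
  unfold bet
  simp only [Matrix.mul_apply, sq]
  exact sum_congr rfl fun l _ => by rw [hB.apply k l]
theorem bet_nonneg {B : Matrix ι ι ℝ} (hB : B.IsSymm) (k : ι) : 0 ≤ bet B k := by
  rw [bet_eq hB]; exact sum_nonneg fun _ _ => sq_nonneg _
theorem sq_le_bet {B : Matrix ι ι ℝ} (hB : B.IsSymm) (k l : ι) : B k l ^ 2 ≤ bet B k := by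
  rw [bet_eq hB]
  exact single_le_sum (f := fun l => B k l ^ 2) (fun _ _ => sq_nonneg _) (mem_univ l)
theorem sum_bet (B : Matrix ι ι ℝ) : ∑ k, bet B k = t2 B := rfl
theorem bet_sq_le_ww (B : Matrix ι ι ℝ) (k : ι) : bet B k ^ 2 ≤ ww B := by
  exact single_le_sum (f := fun k => bet B k ^ 2) (fun _ _ => sq_nonneg _) (mem_univ k)
theorem diag_sq_le_dd (B : Matrix ι ι ℝ) (k : ι) : B k k ^ 2 ≤ dd B := by
  exact single_le_sum (f := fun k => B k k ^ 2) (fun _ _ => sq_nonneg _) (mem_univ k)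
theorem q4_le_ww {B : Matrix ι ι ℝ} (hB : B.IsSymm) : q4 B ≤ ww B := by
  refine sum_le_sum fun k _ => ?_
  rw [sq (bet B k)]
  conv_rhs => rw [bet_eq hB k, sum_mul, ← bet_eq hB k]
  refine sum_le_sum fun l _ => ?_
  rw [show B k l ^ 4 = B k l ^ 2 * B k l ^ 2 by ring]
  exact mul_le_mul_of_nonneg_left (sq_le_bet hB k l) (sq_nonneg _)
theorem t1_sq_le (B : Matrix ι ι ℝ) : t1 B ^ 2 ≤ rr ι * dd B := by
  have := sum_mul_sq_le_sq_mul_sq univ (fun _ : ι => (1 : ℝ)) (fun k => B k k)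
  simpa [t1, dd, rr, Matrix.trace] using this
/-- `|(B₁ M B₂) u v| ≤ ‖M‖ √(β¹_u β²_v)` -/
theorem word_sq_le {B₁ B₂ M : Matrix ι ι ℝ} (h₁ : B₁.IsSymm) (h₂ : B₂.IsSymm) {μ : ℝ}
    (hM : OpLe M μ) (u v : ι) : (B₁ * M * B₂) u v ^ 2 ≤ μ ^ 2 * (bet B₁ u * bet B₂ v) := by
  have e : (B₁ * M * B₂) u v = ∑ k, B₁ u k * (M *ᵥ fun l => B₂ l v) k := by
    rw [Matrix.mul_assoc]; rfl
  have a1 := sum_mul_sq_le_sq_mul_sq univ (fun k => B₁ u k) (M *ᵥ fun l => B₂ l v)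
  have a2 := hM fun l => B₂ l v
  have a3 : ∑ l, B₂ l v ^ 2 = bet B₂ v := by
    rw [bet_eq h₂]; exact sum_congr rfl fun l _ => by rw [h₂.apply v l]
  rw [← bet_eq h₁] at a1
  rw [a3] at a2
  rw [e]
  exact a1.trans ((mul_le_mul_of_nonneg_left a2 (bet_nonneg h₁ u)).trans (le_of_eq (by ring)))
theorem word_diag_le {B M : Matrix ι ι ℝ} (hB : B.IsSymm) {μ : ℝ} (h0 : 0 ≤ μ)
    (hM : OpLe M μ) (u : ι) : |(B * M * B) u u| ≤ μ * bet B u := by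
  refine _root_.abs_le.2 (abs_le_of_sq_le_sq' ((word_sq_le hB hB hM u u).trans
    (le_of_eq (by ring))) (mul_nonneg h0 (bet_nonneg hB u)))
theorem word_diag_le' {B₁ B₂ M : Matrix ι ι ℝ} (h₁ : B₁.IsSymm) (h₂ : B₂.IsSymm) {μ : ℝ} (h0 : 0 ≤ μ)
    (hM : OpLe M μ) (u : ι) : |(B₁ * M * B₂) u u| ≤ μ * (bet B₁ u + bet B₂ u) / 2 := by
  have a1 := bet_nonneg h₁ u
  have a2 := bet_nonneg h₂ u
  refine _root_.abs_le.2 (abs_le_of_sq_le_sq' ((word_sq_le h₁ h₂ hM u u).trans ?_) (by positivity))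
  rw [mul_div_assoc, mul_pow]
  exact mul_le_mul_of_nonneg_left (by nlinarith [sq_nonneg (bet B₁ u - bet B₂ u)]) (sq_nonneg _)
theorem mul_sq_le {B₁ B₂ : Matrix ι ι ℝ} (h₁ : B₁.IsSymm) (h₂ : B₂.IsSymm) (u v : ι) :
    (B₁ * B₂) u v ^ 2 ≤ bet B₁ u * bet B₂ v := by
  simpa using word_sq_le h₁ h₂ OpLe.one u v
/-- row of `M B`: `Σ_l ((M B) k l)² ≤ ‖..‖`, here in the form needed for `x_k = B M e_k` -/
theorem sum_row_mul_sq_le {B M : Matrix ι ι ℝ} (hB : B.IsSymm) {μ : ℝ} (hM : OpLe M μ) (k : ι) :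
    ∑ u, (M * B) u k ^ 2 ≤ μ ^ 2 * bet B k := by
  have a2 := hM fun l => B l k
  have a3 : ∑ l, B l k ^ 2 = bet B k := by
    rw [bet_eq hB]; exact sum_congr rfl fun l _ => by rw [hB.apply k l]
  rw [a3] at a2
  exact a2

theorem row_mul {M N : Matrix ι ι ℝ} {x y : ℝ} (hM : ∀ k, ∑ l, M k l = x) (hN : ∀ k, ∑ l, N k l = y)
    (k : ι) : ∑ l, (M * N) k l = x * y := by
  simp only [Matrix.mul_apply]
  rw [sum_comm]
  simp only [← mul_sum, hN, ← sum_mul, hM]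
theorem col_mul {M N : Matrix ι ι ℝ} {x y : ℝ} (hM : ∀ l, ∑ k, M k l = x) (hN : ∀ l, ∑ k, N k l = y)
    (l : ι) : ∑ k, (M * N) k l = x * y := by
  simp only [Matrix.mul_apply]
  rw [sum_comm]
  simp only [← sum_mul, hM, ← mul_sum, hN]
theorem av_row {M : Matrix ι ι ℝ} {x : ℝ} (hM : ∀ k, ∑ l, M k l = x) (f : ι → ℝ) :
    av (fun u v => f u * M u v) = x * (∑ u, f u) / rr ι ^ 2 := by
  unfold av
  simp only [← mul_sum, hM, ← sum_mul, mul_comm x]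
theorem av_col {M : Matrix ι ι ℝ} {x : ℝ} (hM : ∀ l, ∑ k, M k l = x) (f : ι → ℝ) :
    av (fun u v => f v * M u v) = x * (∑ u, f u) / rr ι ^ 2 := by
  unfold av
  rw [sum_comm]
  simp only [← mul_sum, hM, ← sum_mul, mul_comm x]
/-- constant row sums `b` force `t2 ≥ b²` -/
theorem sq_le_t2 {B : Matrix ι ι ℝ} (hB : B.IsSymm) {b : ℝ} (h : ∀ k, ∑ l, B k l = b)
    (h0 : 0 < rr ι) : b ^ 2 ≤ t2 B := by
  have a1 : ∀ k, b ^ 2 ≤ rr ι * bet B k := fun k => by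
    have := sum_mul_sq_le_sq_mul_sq univ (fun _ : ι => (1 : ℝ)) (fun l => B k l)
    rw [bet_eq hB, ← h k]
    simpa [rr] using this
  have a2 := sum_le_sum fun k (_ : k ∈ univ) => a1 k
  rw [← mul_sum, sum_bet, sum_const, card_univ, nsmul_eq_mul] at a2
  exact le_of_mul_le_mul_left a2 h0

/-! ### consequences of `Reg` -/

theorem kap_aux2 {y ϑ : ℝ} (th1 : ϑ ≤ 1 / 1000) (h0 : 0 ≤ ϑ) (h1 : -(8 * ϑ) ≤ y - 1)
    (h2 : y - 1 ≤ 8 * ϑ) : |y ^ 2 - 1| ≤ 120 * ϑ :=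
  _root_.abs_le.2 ⟨by nlinarith, by nlinarith⟩

set_option maxHeartbeats 800000 in
theorem kap_aux {b c d ϑ : ℝ} (b1 : 1 ≤ b ^ 2) (b4 : b ^ 2 ≤ 4) (th1 : ϑ ≤ 1 / 1000)
    (hc : |c| ≤ ϑ) (hd : |d| ≤ ϑ) :
    (99 / 100) * b ^ 2 ≤ (b - c) ^ 2 - d ∧
    0 < 1 / ((b - c) ^ 2 - d) ∧ 1 / ((b - c) ^ 2 - d) ≤ 11 / 10 ∧
    |1 / ((b - c) ^ 2 - d) - 1 / b ^ 2| ≤ 6 * (|c| + |d|) ∧
    |1 / ((b - c) ^ 2 - d) * (b - c) - 1 / b| ≤ 14 * (|c| + |d|) ∧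
    |1 / ((b - c) ^ 2 - d) * (b - c)| ≤ 11 / 10 ∧
    |1 / ((b - c) ^ 2 - d) * (b - c) * b - 1| ≤ 56 * ϑ ∧
    |(1 / ((b - c) ^ 2 - d) * (b - c)) ^ 2 * b ^ 2 - 1| ≤ 120 * ϑ := by
  have hb1 : 1 ≤ |b| := (one_le_sq_iff_one_le_abs b).1 b1
  have hb2 : |b| ≤ 2 := _root_.abs_le.2 (abs_le_of_sq_le_sq' (by linarith) (by norm_num))
  have hb0 : b ≠ 0 := by rintro rfl; norm_num at b1
  have hc0 := abs_nonneg c
  have hd0 := abs_nonneg d
  have hbc : |b * c| ≤ 2 * |c| := by rw [abs_mul]; exact mul_le_mul_of_nonneg_right hb2 hc0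
  have hcc : c ^ 2 ≤ |c| / 1000 := by rw [← sq_abs]; nlinarith
  have hc2 := sq_nonneg c
  obtain ⟨D, hD⟩ : ∃ D, D = (b - c) ^ 2 - d := ⟨_, rfl⟩
  rw [← hD]
  have hbc' := _root_.abs_le.1 hbc
  have hd' := _root_.abs_le.1 (le_refl |d|)
  have g1 : (99 / 100) * b ^ 2 ≤ D := by rw [hD]; nlinarith
  have hD1 : 99 / 100 ≤ D := by linarith
  have hD0 : 0 < D := by linarith
  have g3 : 1 / D ≤ 100 / 99 := by rw [div_le_div_iff₀ hD0 (by norm_num)]; linarith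
  have g2 : 0 < 1 / D := by positivity
  have n1 : |b ^ 2 - D| ≤ 5 * (|c| + |d|) := by
    rw [hD]; exact _root_.abs_le.2 ⟨by nlinarith, by nlinarith⟩
  have n2 : |(b - c) * b - D| ≤ 3 * (|c| + |d|) := by
    rw [hD]; exact _root_.abs_le.2 ⟨by nlinarith, by nlinarith⟩
  have hib : |1 / b| ≤ 1 := by rw [abs_div, abs_one, div_le_one (by linarith)]; exact hb1
  have hib2 : 1 / b ^ 2 ≤ 1 := by rw [div_le_one (by linarith)]; exact b1
  have hib2' : 0 < 1 / b ^ 2 := by positivity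
  have m1 : |1 / D * (b - c) * b - 1| ≤ 4 * (|c| + |d|) := by
    rw [show 1 / D * (b - c) * b - 1 = 1 / D * ((b - c) * b - D) by field_simp, abs_mul,
      abs_of_pos g2]
    nlinarith [mul_le_mul g3 n2 (abs_nonneg _) (by norm_num)]
  have m2 : |1 / D * (b - c) - 1 / b| ≤ 4 * (|c| + |d|) := by
    rw [show 1 / D * (b - c) - 1 / b = (1 / D * (b - c) * b - 1) * (1 / b) by field_simp, abs_mul]
    nlinarith [mul_le_mul m1 hib (abs_nonneg _) (by positivity)]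
  refine ⟨g1, g2, by linarith, ?_, by linarith, ?_, by linarith, ?_⟩
  · rw [show 1 / D - 1 / b ^ 2 = 1 / D * (1 / b ^ 2) * (b ^ 2 - D) by field_simp, abs_mul,
      abs_of_pos (mul_pos g2 hib2')]
    have : 1 / D * (1 / b ^ 2) ≤ 100 / 99 := by nlinarith
    nlinarith [mul_le_mul this n1 (abs_nonneg _) (by norm_num)]
  · have := abs_sub_abs_le_abs_sub (1 / D * (b - c)) (1 / b)
    linarith
  · have hy := _root_.abs_le.1 (show |1 / D * (b - c) * b - 1| ≤ 8 * ϑ by linarith)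
    rw [← mul_pow]
    generalize 1 / D * (b - c) * b = y at hy
    exact kap_aux2 th1 (hc0.trans hc) hy.1 hy.2

section Reg
variable {B : Matrix ι ι ℝ} {b Λ ν t ϑ : ℝ}

theorem Reg.t1000 (h : Reg B b Λ ν t ϑ) : 1000 ≤ t := by
  have := h.L1.trans h.Lt
  have h2 := mul_le_mul_of_nonneg_right h.th1 h.t0.le
  linarith
theorem Reg.rpos (h : Reg B b Λ ν t ϑ) : 0 < rr ι := by
  rw [← h.t8]; exact pow_pos h.t0 8
theorem Reg.col (h : Reg B b Λ ν t ϑ) (l : ι) : ∑ k, B k l = b := by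
  rw [← h.row l]; exact sum_congr rfl fun k _ => h.symm.apply l k
theorem Reg.op (h : Reg B b Λ ν t ϑ) : OpLe B ν := by
  exact opLe_of_t4 h.symm h.t4
theorem Reg.abs_b (h : Reg B b Λ ν t ϑ) : 1 ≤ |b| ∧ |b| ≤ 2 := by
  constructor
  · exact (one_le_sq_iff_one_le_abs b).1 h.b1
  · exact _root_.abs_le.2 (abs_le_of_sq_le_sq' (by linarith [h.b4]) (by norm_num))
theorem Reg.f2' (h : Reg B b Λ ν t ϑ) : t2 B ≤ 4 * t ^ 8 := by
  rw [h.t8]
  exact h.f2.trans (mul_le_mul_of_nonneg_right h.b4 rr_nonneg)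
theorem Reg.bet_le (h : Reg B b Λ ν t ϑ) (k : ι) : bet B k ≤ Λ * t ^ 4 := by
  have h1 := h.L1
  have ht := h.t0
  refine le_of_sq_le_sq₀' ((bet_sq_le_ww B k).trans (h.w.trans ?_)) (by positivity)
  rw [← h.t8, mul_pow, ← pow_mul]
  exact mul_le_mul_of_nonneg_right (by nlinarith) (by positivity)
theorem Reg.abs_ent (h : Reg B b Λ ν t ϑ) (k l : ι) : |B k l| ≤ Λ := by
  have h1 := h.L1
  exact _root_.abs_le.2 (abs_le_of_sq_le_sq' ((h.ent k l).trans (by nlinarith)) (by linarith))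
/-- `E e² ≤ 16 / r` -/
theorem Reg.av_e (h : Reg B b Λ ν t ϑ) :
    av (fun u v => (|B u v| + |B u u * B v v|) ^ 2) ≤ (4 / t ^ 4) ^ 2 := by
  have hr := h.rpos
  have ht := h.t0
  have a1 : av (fun u v => (|B u v| + |B u u * B v v|) ^ 2) ≤
      av (fun u v => 2 * B u v ^ 2 + 2 * (B u u ^ 2 * B v v ^ 2)) := av_mono fun u v => by
    rw [← sq_abs (B u v), ← mul_pow, ← sq_abs (B u u * B v v)]
    nlinarith [sq_nonneg (|B u v| - |B u u * B v v|)]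
  rw [av_add, av_const_mul, av_const_mul, av_prod, av_sq_eq_fro B, fro_eq_t2 h.symm] at a1
  refine a1.trans ?_
  have hd0 : 0 ≤ dd B := sum_nonneg fun _ _ => sq_nonneg _
  have hΛt : Λ ≤ t := h.Lt.trans (by nlinarith [h.th1])
  have ht1 : 1 ≤ t := by linarith [h.t1000]
  have hd : dd B ≤ t ^ 4 := h.d.trans (hΛt.trans (le_self_pow₀ ht1 (by norm_num)))
  have a2 : t2 B / rr ι ^ 2 ≤ 4 / t ^ 8 := by
    rw [← h.t8, div_le_div_iff₀ (by positivity) (by positivity)]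
    have := mul_le_mul_of_nonneg_right h.f2' (show 0 ≤ t ^ 8 by positivity)
    linarith
  have a3 : dd B / rr ι * (dd B / rr ι) ≤ 1 / t ^ 8 := by
    have : dd B / rr ι ≤ 1 / t ^ 4 := by
      rw [← h.t8, div_le_div_iff₀ (by positivity) (by positivity)]
      have := mul_le_mul_of_nonneg_right hd (show 0 ≤ t ^ 4 by positivity)
      linarith
    refine (mul_le_mul this this (by positivity) (by positivity)).trans (le_of_eq ?_)
    field_simp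
  have a4 : (4 / t ^ 4) ^ 2 = 16 * (1 / t ^ 8) := by field_simp; norm_num
  have a5 : 4 / t ^ 8 = 4 * (1 / t ^ 8) := by ring
  have a6 : 0 < 1 / t ^ 8 := by positivity
  change 2 * (t2 B / rr ι ^ 2) + 2 * (dd B / rr ι * (dd B / rr ι)) ≤ _
  linarith
/-- bounds on `κ` on admissible pairs -/
theorem Reg.kap_bd (h : Reg B b Λ ν t ϑ) {u v : ι} (hc : |B u v| ≤ ϑ) (hd : |B u u * B v v| ≤ ϑ) :
    (99 / 100) * b ^ 2 ≤ (b - B u v) ^ 2 - B u u * B v v ∧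
    0 < kap b B u v ∧ kap b B u v ≤ 11 / 10 ∧
    |kap b B u v - 1 / b ^ 2| ≤ 6 * (|B u v| + |B u u * B v v|) ∧
    |kap b B u v * (b - B u v) - 1 / b| ≤ 14 * (|B u v| + |B u u * B v v|) ∧
    |kap b B u v * (b - B u v)| ≤ 11 / 10 ∧
    |kap b B u v * (b - B u v) * b - 1| ≤ 56 * ϑ ∧
    |(kap b B u v * (b - B u v)) ^ 2 * b ^ 2 - 1| ≤ 120 * ϑ := by
  exact kap_aux h.b1 h.b4 h.th1 hc hd
end Reg

end Crest.Agent.R62
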