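import Crest.Agent.R62.Api

/-!
# R62/Psd: consequences of `Γ = B + g - ((b+g)/r) J ⪰ 0` (TASK)

`Gam B b g` says that the symmetric matrix `Γ k l = B k l + g 1_{k=l} - (b+g)/r` is positive semidefinite.
* `ent_sq_le`: testing with `e_k ± e_l` gives `|Γ_kl| ≤ (Γ_kk + Γ_ll)/2`, so for `k ≠ l`
  `|B_kl| ≤ g + (|δ_k| + |δ_l|)/2 + 8/r`.  (`g ≤ √2`, `|b + g| ≤ 4`.)
* `q4_le_half`: `Q4 ≤ Σ δ^4 + Σ_{k≠l} B_kl² · B_kl²`, `B_kl² ≤ (1+ϑ) g² + (C/ϑ)(δ_k² + δ_l² + 1/r²)`,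
  `Σ_kl B_kl² δ_k² = Σ β_k δ_k² ≤ Λ t^4 · Λ`, and `Λ²t^4/ϑ ≤ ϑ t^6`.
* `chi_lower`, `cross_lower`: the trace of a product of two positive semidefinite matrices is `≥ 0`
  (for `chi_lower`: `tr (B₁² Γ₂) = Σ_k (B₁ e_k)ᵀ Γ₂ (B₁ e_k) ≥ 0` directly from `Gam` with `p = B₁ e_k`, `Σ p = b₁`;
  for `cross_lower` write `Γ₁ = Mᵀ M` (`Matrix.posSemidef_iff_eq_conjTranspose_mul_self` or `CFC.sqrt`), or use the
  spectral theorem).  `tr (B₁² Γ₂) = χ + g F2 - (b₂+g) b₁²`, and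
  `tr Γ₁Γ₂ = tr B₁B₂ + g (T1 + T1') + g² r - (b₁+g)(b₂+g)`.
-/

set_option autoImplicit false
set_option linter.unusedSectionVars false
open Finset Matrix

namespace Crest.Agent.R62

variable {ι : Type} [Fintype ι] [DecidableEq ι]

private theorem psd_test {B : Matrix ι ι ℝ} {b g : ℝ} (hB : B.IsSymm) (hΓ : Gam B b g) {k l : ι}
    (hkl : k ≠ l) (s : ℝ) :
    0 ≤ B k k + s ^ 2 * B l l + 2 * s * B k l + g * (1 + s ^ 2) - (b + g) / rr ι * (1 + s) ^ 2 := by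
  have h := hΓ (Pi.single k 1 + Pi.single l s)
  have h1 : ∑ j, (Pi.single k 1 + Pi.single l s : ι → ℝ) j = 1 + s := by
    simp [Finset.sum_add_distrib]
  have h2 : ∑ j, (Pi.single k 1 + Pi.single l s : ι → ℝ) j ^ 2 = 1 + s ^ 2 := by
    have : ∀ j, (Pi.single k 1 + Pi.single l s : ι → ℝ) j ^ 2 =
        (Pi.single k 1 + Pi.single l (s ^ 2) : ι → ℝ) j := by
      intro j
      by_cases hk : j = k
      · subst hk
        simp [hkl]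
      · by_cases hl : j = l
        · subst hl
          simp [hk]
        · simp [hk, hl]
    simp only [this]
    simp [Finset.sum_add_distrib]
  have h3 : (Pi.single k 1 + Pi.single l s : ι → ℝ) ⬝ᵥ B *ᵥ (Pi.single k 1 + Pi.single l s) =
      B k k + s ^ 2 * B l l + 2 * s * B k l := by
    simp only [Matrix.mulVec_add, add_dotProduct, single_dotProduct, Pi.add_apply,
      Matrix.mulVec_single, Matrix.col_apply, MulOpposite.smul_eq_mul_unop, Pi.smul_apply,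
      MulOpposite.unop_op]
    rw [hB.apply k l]
    ring
  rw [h1, h2, h3] at h
  exact h

private theorem psd_abs_le {B : Matrix ι ι ℝ} {b g : ℝ} (hB : B.IsSymm) (hΓ : Gam B b g)
    (hb : b ^ 2 ≤ 4) (hg0 : 0 ≤ g) (hr : 0 < rr ι) {k l : ι} (hkl : k ≠ l) :
    |B k l| ≤ g + ((|B k k| + |B l l|) / 2 + 4 / rr ι) := by
  have h1 := psd_test hB hΓ hkl 1
  have h2 := psd_test hB hΓ hkl (-1)
  have hb' : -2 ≤ b := by nlinarith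
  have h3 : -2 / rr ι ≤ (b + g) / rr ι := div_le_div_of_nonneg_right (by linarith) hr.le
  have h4 : 0 ≤ 4 / rr ι := by positivity
  have h5 : -2 / rr ι = -(4 / rr ι) / 2 := by ring
  have h6 := le_abs_self (B k k)
  have h7 := le_abs_self (B l l)
  rw [abs_le]
  constructor <;> nlinarith

private theorem psd_sq_le {B : Matrix ι ι ℝ} {b g ϑ : ℝ} (hB : B.IsSymm) (hΓ : Gam B b g)
    (hb : b ^ 2 ≤ 4) (hg0 : 0 ≤ g) (hr : 0 < rr ι) (hϑ0 : 0 < ϑ) (hϑ : ϑ ≤ 1) (k l : ι) :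
    B k l ^ 2 ≤ (1 + ϑ) * g ^ 2 + 2 / ϑ * (B k k ^ 2 + B l l ^ 2 + 32 / rr ι ^ 2) := by
  have hθ : 1 ≤ 1 / ϑ := by rw [le_div_iff₀ hϑ0]; linarith
  have hθ2 : 2 / ϑ = 2 * (1 / ϑ) := by ring
  have hr2 : 0 ≤ 32 / rr ι ^ 2 := by positivity
  by_cases hkl : k = l
  · subst hkl
    have h1 : 0 ≤ (1 + ϑ) * g ^ 2 := by positivity
    have h2 : 1 * (B k k ^ 2 + B k k ^ 2 + 32 / rr ι ^ 2) ≤
        2 / ϑ * (B k k ^ 2 + B k k ^ 2 + 32 / rr ι ^ 2) :=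
      mul_le_mul_of_nonneg_right (by linarith) (by positivity)
    nlinarith [sq_nonneg (B k k)]
  · have h := psd_abs_le hB hΓ hb hg0 hr hkl
    set y := (|B k k| + |B l l|) / 2 + 4 / rr ι with hy
    have hy2 : y ^ 2 ≤ B k k ^ 2 + B l l ^ 2 + 32 / rr ι ^ 2 := by
      have e : 32 / rr ι ^ 2 = 2 * (4 / rr ι) ^ 2 := by ring
      rw [e, hy, ← sq_abs (B k k), ← sq_abs (B l l)]
      nlinarith [sq_nonneg (|B k k| - |B l l|), sq_nonneg ((|B k k| + |B l l|) / 2 - 4 / rr ι)]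
    have h1 : B k l ^ 2 ≤ (g + y) ^ 2 := by
      rw [← sq_abs (B k l)]
      exact pow_le_pow_left₀ (abs_nonneg _) h 2
    have h2 : 2 * g * y ≤ ϑ * g ^ 2 + 1 / ϑ * y ^ 2 := by
      have e : ϑ * g ^ 2 + 1 / ϑ * y ^ 2 - 2 * g * y = (ϑ * g - y) ^ 2 / ϑ := by
        field_simp
        ring
      have : 0 ≤ (ϑ * g - y) ^ 2 / ϑ := by positivity
      linarith
    have h3 : 1 * y ^ 2 ≤ 1 / ϑ * y ^ 2 := mul_le_mul_of_nonneg_right hθ (sq_nonneg _)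
    have h4 : 2 / ϑ * y ^ 2 ≤ 2 / ϑ * (B k k ^ 2 + B l l ^ 2 + 32 / rr ι ^ 2) :=
      mul_le_mul_of_nonneg_left hy2 (by positivity)
    rw [hθ2] at h4 ⊢
    nlinarith

private theorem psd_q4_le {B : Matrix ι ι ℝ} {x y z : ℝ} (hB : B.IsSymm)
    (h : ∀ k l, B k l ^ 2 ≤ x + y * (B k k ^ 2 + B l l ^ 2 + z)) :
    q4 B ≤ (x + y * z) * t2 B + 2 * y * ∑ k, bet B k * B k k ^ 2 := by
  have h1 : q4 B ≤ ∑ k, ∑ l, B k l ^ 2 * (x + y * (B k k ^ 2 + B l l ^ 2 + z)) := by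
    refine Finset.sum_le_sum fun k _ => Finset.sum_le_sum fun l _ => ?_
    calc B k l ^ 4 = B k l ^ 2 * B k l ^ 2 := by ring
      _ ≤ _ := mul_le_mul_of_nonneg_left (h k l) (sq_nonneg _)
  have h2 : ∑ k, ∑ l, B k l ^ 2 * B k k ^ 2 = ∑ k, bet B k * B k k ^ 2 := by
    refine Finset.sum_congr rfl fun k _ => ?_
    rw [bet_eq hB, Finset.sum_mul]
  have h3 : ∑ k, ∑ l, B k l ^ 2 * B l l ^ 2 = ∑ k, bet B k * B k k ^ 2 := by
    rw [Finset.sum_comm, ← h2]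
    refine Finset.sum_congr rfl fun k _ => Finset.sum_congr rfl fun l _ => ?_
    rw [hB.apply k l]
  have h4 : ∑ k, ∑ l, B k l ^ 2 = t2 B := by
    rw [← sum_bet]
    exact Finset.sum_congr rfl fun k _ => (bet_eq hB k).symm
  have h5 : ∑ k, ∑ l, B k l ^ 2 * (x + y * (B k k ^ 2 + B l l ^ 2 + z)) =
      (x + y * z) * ∑ k, ∑ l, B k l ^ 2 + y * ∑ k, ∑ l, B k l ^ 2 * B k k ^ 2 +
        y * ∑ k, ∑ l, B k l ^ 2 * B l l ^ 2 := by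
    simp only [Finset.mul_sum, ← Finset.sum_add_distrib]
    refine Finset.sum_congr rfl fun k _ => Finset.sum_congr rfl fun l _ => ?_
    ring
  rw [h5, h2, h3, h4] at h1
  linarith

/-- the matrix `Γ` -/
private noncomputable def psd_G (B : Matrix ι ι ℝ) (b g : ℝ) : Matrix ι ι ℝ :=
  B + g • (1 : Matrix ι ι ℝ) - ((b + g) / rr ι) • Matrix.of fun _ _ => (1 : ℝ)

private theorem psd_G_psd {B : Matrix ι ι ℝ} {b g : ℝ} (hB : B.IsSymm) (hΓ : Gam B b g) :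
    (psd_G B b g).PosSemidef := by
  refine Matrix.PosSemidef.of_dotProduct_mulVec_nonneg ?_ fun p => ?_
  · ext k l
    simp [psd_G, Matrix.conjTranspose_apply, hB.apply k l, Matrix.one_apply, eq_comm]
  · have h := hΓ p
    have e1 : p ⬝ᵥ p = ∑ k, p k ^ 2 := by simp [dotProduct, sq]
    have e2 : p ⬝ᵥ (Matrix.of fun _ _ => (1 : ℝ)) *ᵥ p = (∑ k, p k) ^ 2 := by
      simp [dotProduct, Matrix.mulVec, sq, Finset.sum_mul]
    rw [star_trivial, psd_G, Matrix.sub_mulVec, Matrix.add_mulVec, Matrix.smul_mulVec,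
      Matrix.smul_mulVec, Matrix.one_mulVec, dotProduct_sub, dotProduct_add, dotProduct_smul,
      dotProduct_smul, e1, e2]
    exact h

open scoped MatrixOrder in
private theorem psd_trace_mul_nonneg {M N : Matrix ι ι ℝ} (hM : M.PosSemidef) (hN : N.PosSemidef) :
    0 ≤ (M * N).trace := by
  obtain ⟨C, rfl⟩ := CStarAlgebra.nonneg_iff_eq_star_mul_self.mp hM.nonneg
  rw [Matrix.mul_assoc, Matrix.trace_mul_comm]
  exact (hN.mul_mul_conjTranspose_same C).trace_nonneg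

theorem ent_sq_le {B : Matrix ι ι ℝ} {b g : ℝ} (hB : B.IsSymm) (hΓ : Gam B b g) (hb : b ^ 2 ≤ 4)
    (hg0 : 0 ≤ g) (hg : g ^ 2 ≤ 2) (hr : 100 ≤ rr ι) (k l : ι) : B k l ^ 2 ≤ 2 * dd B + 8 := by
  have hd0 := diag_sq_le_dd B k
  have hd1 := diag_sq_le_dd B l
  have hr0 : 0 < rr ι := by linarith
  by_cases hkl : k = l
  · subst hkl
    nlinarith [sq_nonneg (B k k)]
  have h := psd_abs_le hB hΓ hb hg0 hr0 hkl
  have h1 : 4 / rr ι ≤ 1 / 25 := by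
    rw [div_le_iff₀ hr0]
    linarith
  have hg' : g ≤ 3 / 2 := by nlinarith
  have h2 : |B k l| ≤ 2 + (|B k k| + |B l l|) / 2 := by linarith
  have h3 : B k l ^ 2 ≤ (2 + (|B k k| + |B l l|) / 2) ^ 2 := by
    rw [← sq_abs (B k l)]
    exact pow_le_pow_left₀ (abs_nonneg _) h2 2
  rw [← sq_abs] at hd0 hd1
  nlinarith [sq_nonneg (|B k k| - |B l l|), sq_nonneg ((|B k k| + |B l l|) / 2 - 2)]

theorem q4_le_half {B : Matrix ι ι ℝ} {b g Λ t ϑ : ℝ} (hB : B.IsSymm) (hΓ : Gam B b g)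
    (hb1 : 1 ≤ b ^ 2) (hb : b ^ 2 ≤ 4) (hg0 : 0 ≤ g) (hg : g ^ 2 ≤ b ^ 2 / 2) (ht : 0 < t)
    (h8 : t ^ 8 = rr ι) (hϑ0 : 0 < ϑ) (hϑ : ϑ ≤ 1 / 1000) (hΛ1 : 1 ≤ Λ) (hΛ : Λ ≤ ϑ * t)
    (hf : t2 B ≤ b ^ 2 * rr ι) (hd : dd B ≤ Λ) (hw : ww B ≤ Λ * rr ι) :
    q4 B ≤ (1 / 2 + 10 * ϑ) * b ^ 4 * rr ι := by
  have hr : 0 < rr ι := by rw [← h8]; positivity
  have hϑt : 1 ≤ ϑ * t := hΛ1.trans hΛ
  have ht1 : 1000 ≤ t := by nlinarith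
  have h := psd_q4_le hB (psd_sq_le hB hΓ hb hg0 hr hϑ0 (by linarith))
  have hbet : ∀ k, bet B k ≤ Λ * t ^ 4 := by
    intro k
    have h1 := (bet_sq_le_ww B k).trans hw
    refine le_of_sq_le_sq ?_ (by positivity)
    rw [← h8] at h1
    have h2 : Λ * t ^ 8 ≤ Λ ^ 2 * t ^ 8 := mul_le_mul_of_nonneg_right (by nlinarith) (by positivity)
    calc bet B k ^ 2 ≤ Λ ^ 2 * t ^ 8 := h1.trans h2
      _ = (Λ * t ^ 4) ^ 2 := by ring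
  have hs : ∑ k, bet B k * B k k ^ 2 ≤ (ϑ * t) ^ 2 * t ^ 4 := by
    calc ∑ k, bet B k * B k k ^ 2 ≤ ∑ k, Λ * t ^ 4 * B k k ^ 2 :=
          Finset.sum_le_sum fun k _ => mul_le_mul_of_nonneg_right (hbet k) (sq_nonneg _)
      _ = Λ * t ^ 4 * dd B := by rw [dd, Finset.mul_sum]
      _ ≤ Λ * t ^ 4 * Λ := mul_le_mul_of_nonneg_left hd (by positivity)
      _ = Λ ^ 2 * t ^ 4 := by ring
      _ ≤ (ϑ * t) ^ 2 * t ^ 4 := by gcongr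
  have hb4 : 1 ≤ b ^ 4 := by nlinarith
  have hA : 2 * (2 / ϑ) * ∑ k, bet B k * B k k ^ 2 ≤ ϑ * b ^ 4 * rr ι := by
    calc 2 * (2 / ϑ) * ∑ k, bet B k * B k k ^ 2 ≤ 2 * (2 / ϑ) * ((ϑ * t) ^ 2 * t ^ 4) :=
          mul_le_mul_of_nonneg_left hs (by positivity)
      _ = ϑ * (4 * t ^ 6) := by field_simp; ring
      _ ≤ ϑ * (t ^ 2 * t ^ 6) := by
          gcongr
          nlinarith
      _ = ϑ * 1 * rr ι := by rw [← h8]; ring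
      _ ≤ ϑ * b ^ 4 * rr ι := by gcongr
  have hz : 2 / ϑ * (32 / rr ι ^ 2) ≤ ϑ := by
    have h1 : 64 * t ^ 2 ≤ rr ι ^ 2 := by
      rw [← h8]
      have h2 : (64 : ℝ) ≤ t ^ 14 := by
        calc (64 : ℝ) ≤ 1000 ^ 14 := by norm_num
          _ ≤ t ^ 14 := by gcongr
      calc 64 * t ^ 2 ≤ t ^ 14 * t ^ 2 := by gcongr
        _ = (t ^ 8) ^ 2 := by ring
    have h2 : 1 ≤ (ϑ * t) ^ 2 := one_le_pow₀ hϑt
    rw [div_mul_div_comm, div_le_iff₀ (by positivity)]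
    have h3 : ϑ ^ 2 * (64 * t ^ 2) ≤ ϑ ^ 2 * rr ι ^ 2 := by gcongr
    nlinarith
  have hx : (1 + ϑ) * g ^ 2 + 2 / ϑ * (32 / rr ι ^ 2) ≤ (1 / 2 + 2 * ϑ) * b ^ 2 := by
    have h1 : (1 + ϑ) * g ^ 2 ≤ (1 + ϑ) * (b ^ 2 / 2) := by gcongr
    have h2 : ϑ * 1 ≤ ϑ * b ^ 2 := by gcongr
    nlinarith
  have hB' : ((1 + ϑ) * g ^ 2 + 2 / ϑ * (32 / rr ι ^ 2)) * t2 B ≤
      (1 / 2 + 2 * ϑ) * b ^ 2 * (b ^ 2 * rr ι) :=
    (mul_le_mul_of_nonneg_left hf (by positivity)).trans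
      (mul_le_mul_of_nonneg_right hx (by positivity))
  have h0 : 0 ≤ ϑ * b ^ 4 * rr ι := by positivity
  nlinarith

theorem chi_lower {B₁ B₂ : Matrix ι ι ℝ} {b₁ b₂ g : ℝ} (h₁ : B₁.IsSymm) (h₂ : B₂.IsSymm)
    (hrow : ∀ k, ∑ l, B₁ k l = b₁) (hΓ : Gam B₂ b₂ g) (hb₁ : b₁ ^ 2 ≤ 4) (hb₂ : b₂ ^ 2 ≤ 4)
    (hg0 : 0 ≤ g) (hr : 0 < rr ι) : 0 ≤ chi B₁ B₂ + g * t2 B₁ + 16 := by
  have h := Finset.sum_nonneg fun k (_ : k ∈ Finset.univ) => hΓ fun l => B₁ k l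
  have e1 : ∑ k, (fun l => B₁ k l) ⬝ᵥ B₂ *ᵥ (fun l => B₁ k l) = chi B₁ B₂ := by
    rw [chi, Matrix.mul_assoc, Matrix.trace_mul_comm, Matrix.mul_assoc, Matrix.trace]
    refine Finset.sum_congr rfl fun k _ => ?_
    simp only [Matrix.diag_apply, Matrix.mul_apply, dotProduct, Matrix.mulVec, h₁.apply k]
  have e2 : ∑ k, ∑ l, B₁ k l ^ 2 = t2 B₁ := by
    rw [← sum_bet]
    exact Finset.sum_congr rfl fun k _ => (bet_eq h₁ k).symm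
  have e3 : ∑ _k : ι, (b₂ + g) / rr ι * b₁ ^ 2 = (b₂ + g) * b₁ ^ 2 := by
    rw [Finset.sum_const, Finset.card_univ, nsmul_eq_mul]
    change rr ι * _ = _
    field_simp
  simp only [hrow] at h
  rw [Finset.sum_sub_distrib, Finset.sum_add_distrib, ← Finset.mul_sum, e1, e2, e3] at h
  have hb' : -2 ≤ b₂ := by nlinarith
  have h4 : -2 * b₁ ^ 2 ≤ (b₂ + g) * b₁ ^ 2 :=
    mul_le_mul_of_nonneg_right (by linarith) (sq_nonneg _)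
  linarith

theorem cross_lower {B₁ B₂ : Matrix ι ι ℝ} {b₁ b₂ g : ℝ} (h₁ : B₁.IsSymm) (h₂ : B₂.IsSymm)
    (hrow₁ : ∀ k, ∑ l, B₁ k l = b₁) (hrow₂ : ∀ k, ∑ l, B₂ k l = b₂)
    (hΓ₁ : Gam B₁ b₁ g) (hΓ₂ : Gam B₂ b₂ g) (hb₁ : b₁ ^ 2 ≤ 4) (hb₂ : b₂ ^ 2 ≤ 4)
    (hg0 : 0 ≤ g) (hg : g ^ 2 ≤ 2) (hr : 0 < rr ι) :
    -g ^ 2 * rr ι - g * (t1 B₁ + t1 B₂) - 16 ≤ (B₁ * B₂).trace := by
  have h := psd_trace_mul_nonneg (psd_G_psd h₁ hΓ₁) (psd_G_psd h₂ hΓ₂)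
  set J : Matrix ι ι ℝ := Matrix.of fun _ _ => (1 : ℝ) with hJ
  have hBJ : ∀ {B : Matrix ι ι ℝ} {b : ℝ}, (∀ k, ∑ l, B k l = b) → (B * J).trace = b * rr ι := by
    intro B b hb
    simp [hJ, Matrix.trace, Matrix.mul_apply, hb, rr, mul_comm]
  have hJJ : (J * J).trace = rr ι * rr ι := hBJ fun k => by simp [hJ, rr]
  have hJ1 : J.trace = rr ι := by simp [hJ, Matrix.trace, rr]
  have h11 : (1 : Matrix ι ι ℝ).trace = rr ι := by simp [rr]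
  have hJB : (J * B₂).trace = b₂ * rr ι := by rw [Matrix.trace_mul_comm, hBJ hrow₂]
  have e : (psd_G B₁ b₁ g * psd_G B₂ b₂ g).trace =
      (B₁ * B₂).trace + g * (t1 B₁ + t1 B₂) + g ^ 2 * rr ι - (b₁ + g) * (b₂ + g) := by
    simp only [psd_G, ← hJ, Matrix.sub_mul, Matrix.mul_sub, Matrix.add_mul, Matrix.mul_add,
      Matrix.smul_mul, Matrix.mul_smul, Matrix.one_mul, Matrix.mul_one, Matrix.trace_sub,
      Matrix.trace_add, Matrix.trace_smul, smul_eq_mul, hBJ hrow₁, hJB, hJJ, hJ1, h11, t1]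
    field_simp
    ring
  rw [e] at h
  have hg' : g ≤ 2 := by nlinarith
  have a1 : |b₁ + g| ≤ 4 := by
    rw [abs_le]
    constructor <;> nlinarith
  have a2 : |b₂ + g| ≤ 4 := by
    rw [abs_le]
    constructor <;> nlinarith
  have a3 : |(b₁ + g) * (b₂ + g)| ≤ 4 * 4 := by
    rw [abs_mul]
    exact mul_le_mul a1 a2 (abs_nonneg _) (by norm_num)
  have a4 := (abs_le.1 a3).1
  linarith

end Crest.Agent.R62
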