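import Crest.Agent.R62.Facts
import Crest.Agent.R62.Psd

/-!
# R62/BFacts: what the bounds `Bnd` on the terms of the potential say (TASK)

Unfold the term, use the phase hypothesis (`if_pos`), clear the (positive) denominator; `y² ≤ 2 s² → |y| ≤ 2 s`.
-/

set_option autoImplicit false
set_option linter.unusedSectionVars false
open Finset Matrix

namespace Crest.Agent.R62

variable {ι : Type} [Fintype ι] [DecidableEq ι] {P : Par ℝ} {r : ℕ} {t : ℝ} {B B' : Matrix ι ι ℝ}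

theorem bfacts_sq {y s : ℝ} (hs : 0 < s) (h : y ^ 2 / s ^ 2 ≤ 2) : |y| ≤ 2 * s := by
  rw [div_le_iff₀ (by positivity)] at h
  exact _root_.abs_le.2 (abs_le_of_sq_le_sq' (by nlinarith [sq_nonneg s]) (by positivity))

theorem bfacts_c (hg : P.Good) {c : ℝ} (hc : c ≤ 10 ^ 80) : c ≤ P.L := hc.trans hg.L_big

theorem bfacts_L (hg : P.Good) : (0 : ℝ) < P.L := lt_of_lt_of_le one_pos hg.L_one

theorem bfacts_n (hg : P.Good) : (0 : ℝ) < P.n := (pow_pos (bfacts_L hg) _).trans_le hg.n_lo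

theorem bfacts_rs (hg : P.Good) : (0 : ℝ) < P.rs := by
  rw [P.rs_cast]; exact pow_pos (bfacts_L hg) _

theorem bfacts_r0 (hc : Ctx P r t) : 0 < r := by have := hc.r_big; omega

theorem bfacts_r (hc : Ctx P r t) : (0 : ℝ) < r := by exact_mod_cast bfacts_r0 hc

theorem bfacts_div {L t c : ℝ} (hL : 1 ≤ L) (hc : c ≤ L) {a k m : ℕ} (ht : L ^ k ≤ t)
    (h : a + 1 < k * m) : c * L ^ a / t ^ m ≤ 1 / L := by
  have hL0 : 0 < L := lt_of_lt_of_le one_pos hL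
  have ht0 : 0 < t := (pow_pos hL0 k).trans_le ht
  rw [div_le_div_iff₀ (pow_pos ht0 m) hL0, one_mul]
  calc c * L ^ a * L = c * L ^ (a + 1) := by ring
    _ ≤ L ^ (k * m) := cpow_le hL hc h
    _ = (L ^ k) ^ m := pow_mul L k m
    _ ≤ t ^ m := pow_le_pow_left₀ (pow_pos hL0 k).le ht m

theorem bfacts_late (hc : Ctx P r t) (hr : r ≤ P.r4) :
    2 * P.L * (r : ℝ) / P.rs ≤ 1 / (2 * P.L) := by
  have hL := bfacts_L hc.good
  have h1 : (r : ℝ) ≤ (P.L : ℝ) ^ 64072 := by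
    rw [← P.r4_cast]; exact_mod_cast hr
  rw [div_le_div_iff₀ (bfacts_rs hc.good) (by positivity), one_mul, P.rs_cast]
  calc 2 * P.L * (r : ℝ) * (2 * P.L) ≤ 2 * P.L * (P.L : ℝ) ^ 64072 * (2 * P.L) := by gcongr
    _ = 4 * (P.L : ℝ) ^ 64074 := by ring
    _ ≤ _ := cpow_le hc.good.L_one (bfacts_c hc.good (by norm_num)) (by norm_num)

theorem Bnd.phi_bd (h : Bnd P r B B') (hc : Ctx P r t) (hr : P.r4 < r) :
    |-t1 B - P.A r| ≤ 2 * P.sig := by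
  have h1 := h.phi
  rw [Par.Uphi, if_pos hr] at h1
  exact bfacts_sq hc.good.sig_pos h1

theorem Bnd.t1_early (h : Bnd P r B B') (hc : Ctx P r t) (hr : P.r4 < r) :
    |t1 B| ≤ 2 * (P.L : ℝ) ^ 32241 := by
  have h1 := h.phi_bd hc hr
  have h2 := (hc.good.A_abs r).trans hc.good.Th1
  have h3 : 2 * (P.L : ℝ) ^ 31979 ≤ (P.L : ℝ) ^ 32241 :=
    cpow_le hc.good.L_one (bfacts_c hc.good (by norm_num)) (by norm_num)
  have h4 : |t1 B| ≤ |-t1 B - P.A r| + |P.A r| := by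
    calc |t1 B| = |-t1 B - P.A r + P.A r| := by rw [sub_add_cancel, abs_neg]
      _ ≤ _ := abs_add_le _ _
  unfold Par.sig at h1
  linarith

theorem Bnd.t1_mid (h : Bnd P r B B') (hc : Ctx P r t) (hr : P.r4 < r) (hr2 : r ≤ P.r2) :
    |t1 B| ≤ 2 * (P.L : ℝ) ^ 31979 := by
  have h1 := h.phi_bd hc hr
  rwa [hc.good.A_zero hr2, sub_zero, abs_neg, Par.sig] at h1

theorem Bnd.psi_bd (h : Bnd P r B B') (hc : Ctx P r t) (hr : P.r4 < r) :
    |P.a ^ 2 * r - t2 B - P.Psi r| ≤ 2 * P.tau r := by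
  have h1 := h.psi
  rw [Par.Upsi, if_pos hr] at h1
  exact bfacts_sq (hc.good.tau_pos (bfacts_r0 hc)) h1

theorem Bnd.psi_range (h : Bnd P r B B') (hc : Ctx P r t) (hr : P.r4 < r) :
    0 ≤ P.a ^ 2 * r - t2 B ∧ P.a ^ 2 * r - t2 B ≤ 2 * P.Psi r := by
  obtain ⟨h1, h2⟩ := _root_.abs_le.1 (h.psi_bd hc hr)
  have h3 := hc.good.tau_le (bfacts_r0 hc)
  have h4 := hc.good.Psi_pos (bfacts_r0 hc)
  have h5 : P.Psi r / P.L ≤ P.Psi r / 2 :=
    div_le_div_of_nonneg_left h4.le (by norm_num) (bfacts_c hc.good (by norm_num))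
  constructor <;> linarith

theorem Bnd.F_mid (h : Bnd P r B B') (hc : Ctx P r t) (hr : P.r4 < r) :
    t2 B ≤ 48 * (r : ℝ) ^ 2 / P.rs := by
  obtain ⟨h1, -⟩ := _root_.abs_le.1 (h.psi_bd hc hr)
  have h3 := hc.good.tau_le' (bfacts_r0 hc)
  have h4 := hc.good.Psi_gap (bfacts_r0 hc)
  have h5 := bfacts_rs hc.good
  have h6 : 16 * (r : ℝ) ^ 2 / (P.L * P.rs) ≤ 16 * (r : ℝ) ^ 2 / P.rs :=
    div_le_div_of_nonneg_left (by positivity) h5 (le_mul_of_one_le_left h5.le hc.good.L_one)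
  have h7 : 48 * (r : ℝ) ^ 2 / P.rs = 3 * (16 * (r : ℝ) ^ 2 / P.rs) := by ring
  linarith

theorem Bnd.F_late (h : Bnd P r B B') (hc : Ctx P r t) (hr : r ≤ P.r4) :
    t2 B ≤ P.a ^ 2 + 2 * P.L * (r : ℝ) ^ 2 / P.rs := by
  have h1 := h.F
  have hL := bfacts_L hc.good
  have hr0 := bfacts_r hc
  rw [Par.UF, if_pos hr, div_le_iff₀ (by positivity), ← le_div_iff₀ (bfacts_rs hc.good)] at h1
  have e : 2 * (P.L * (r : ℝ) ^ 2) / P.rs = 2 * P.L * (r : ℝ) ^ 2 / P.rs := by ring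
  linarith

theorem Bnd.f2_le (h : Bnd P r B B') (hc : Ctx P r t) : t2 B ≤ P.a ^ 2 * r := by
  rcases lt_or_ge P.r4 r with hr | hr
  · linarith [(h.psi_range hc hr).1]
  · have h1 := h.F_late hc hr
    have h2 := bfacts_late hc hr
    have hL := bfacts_L hc.good
    have hr0 := bfacts_r hc
    have h3 : (1000 : ℝ) ≤ r := by exact_mod_cast hc.r_big
    have h4 : 1 / (2 * (P.L : ℝ)) ≤ 1 / 2 :=
      div_le_div_of_nonneg_left (by norm_num) (by norm_num) (by linarith [hc.good.L_one])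
    have h5 : 2 * P.L * (r : ℝ) ^ 2 / P.rs = 2 * P.L * (r : ℝ) / P.rs * r := by ring
    have h6 : 2 * P.L * (r : ℝ) / P.rs * r ≤ 1 / 2 * r :=
      mul_le_mul_of_nonneg_right (h2.trans h4) hr0.le
    have h7 : 1 ≤ P.a ^ 2 := one_le_pow₀ hc.good.a1
    nlinarith

theorem Bnd.o_small (h : Bnd P r B B') (hc : Ctx P r t) (hr : r ≤ P.r3 + 2) :
    t2 B / r ≤ 1 / P.L := by
  have hL := bfacts_L hc.good
  have hL1 := hc.good.L_one
  have hr0 := bfacts_r hc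
  have hrs := bfacts_rs hc.good
  rcases lt_or_ge P.r4 r with hr4 | hr4
  · have h1 := h.F_mid hc hr4
    have h2 : (r : ℝ) ≤ (P.L : ℝ) ^ 64118 + 2 := by
      rw [← P.r3_cast]; exact_mod_cast hr
    have h3 : (1 : ℝ) ≤ (P.L : ℝ) ^ 64118 := one_le_pow₀ hL1
    have h4 : 144 * (P.L : ℝ) ^ 64119 ≤ (P.L : ℝ) ^ 64120 :=
      cpow_le hL1 (bfacts_c hc.good (by norm_num)) (by norm_num)
    calc t2 B / r ≤ 48 * (r : ℝ) ^ 2 / P.rs / r := by gcongr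
      _ = 48 * r / P.rs := by field_simp
      _ ≤ 1 / P.L := by
        rw [div_le_div_iff₀ hrs hL, one_mul, P.rs_cast]
        calc 48 * (r : ℝ) * P.L ≤ 48 * (3 * (P.L : ℝ) ^ 64118) * P.L := by gcongr; linarith
          _ = 144 * (P.L : ℝ) ^ 64119 := by ring
          _ ≤ _ := h4
  · have h1 := h.F_late hc hr4
    have h2 := bfacts_late hc hr4
    have h3 : P.a ^ 2 ≤ 4 := by nlinarith [hc.good.a1, hc.good.a2]
    have h4 : 8 * (P.L : ℝ) ^ 1 ≤ (P.L : ℝ) ^ 32059 :=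
      cpow_le hL1 (bfacts_c hc.good (by norm_num)) (by norm_num)
    have h5 : 4 / (r : ℝ) ≤ 1 / (2 * P.L) := by
      rw [div_le_div_iff₀ hr0 (by positivity)]
      linarith [hc.r_lo]
    calc t2 B / r ≤ (4 + 2 * P.L * (r : ℝ) ^ 2 / P.rs) / r := by gcongr; linarith
      _ = 4 / r + 2 * P.L * r / P.rs := by field_simp
      _ ≤ 1 / (2 * P.L) + 1 / (2 * P.L) := add_le_add h5 h2
      _ = 1 / P.L := by field_simp; norm_num

theorem Bnd.t3_early (h : Bnd P r B B') (hc : Ctx P r t) (hr : P.r2 < r) :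
    |t3 B - P.Tc| ≤ 2 * P.n / P.L := by
  have h1 := h.T
  have hL := bfacts_L hc.good
  have hn := bfacts_n hc.good
  rw [Par.UT, Par.wT, if_pos hr] at h1
  rw [mul_div_assoc]
  refine bfacts_sq (by positivity) (le_of_eq_of_le ?_ h1)
  field_simp

theorem Bnd.t3_mid' (h : Bnd P r B B') (hc : Ctx P r t) (hr : P.r4 < r) :
    |t3 B - P.Tc| ≤ 2 * P.L * P.n := by
  have hL := bfacts_L hc.good
  have hn := bfacts_n hc.good
  rcases lt_or_ge P.r2 r with hr2 | hr2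
  · refine (h.t3_early hc hr2).trans ?_
    have h1 := hc.good.L_one
    calc 2 * (P.n : ℝ) / P.L ≤ 2 * P.n := div_le_self (by positivity) h1
      _ ≤ 2 * P.L * P.n := by nlinarith
  · have h1 := h.T
    rw [Par.UT, Par.wT, if_neg (not_lt.2 hr2), if_pos hr] at h1
    rw [mul_assoc]
    refine bfacts_sq (by positivity) (le_of_eq_of_le ?_ h1)
    field_simp

theorem Bnd.t3_mid (h : Bnd P r B B') (hc : Ctx P r t) (hr : P.r4 < r) :
    |t3 B| ≤ 3 * P.L * P.n := by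
  obtain ⟨h1, h2⟩ := _root_.abs_le.1 (h.t3_mid' hc hr)
  have h3 := hc.good.Tc_le
  have h4 := hc.good.Tc1
  have hn := bfacts_n hc.good
  have h5 : 0 ≤ (P.L : ℝ) * P.n := by positivity
  rw [_root_.abs_le]
  constructor <;> linarith

theorem Bnd.t4_bd (h : Bnd P r B B') (hc : Ctx P r t) (hr : P.r4 < r) :
    t4 B ≤ 2 * (P.L : ℝ) ^ 192096 / r := by
  have h1 := h.T4
  have hL := bfacts_L hc.good
  rwa [Par.U4, if_pos hr, div_le_iff₀ (by positivity), ← le_div_iff₀ (bfacts_r hc)] at h1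

theorem Bnd.d_bd (h : Bnd P r B B') (hc : Ctx P r t) : dd B ≤ 2 * P.Dbar r := by
  exact (div_le_iff₀ (hc.good.Dbar_pos r)).1 h.D

theorem Bnd.w_bd (h : Bnd P r B B') (hc : Ctx P r t) : ww B ≤ 2 * P.Wbar r := by
  exact (div_le_iff₀ (hc.good.Wbar_pos (bfacts_r0 hc))).1 h.W

theorem Bnd.w_bd' (h : Bnd P r B B') (hc : Ctx P r t) : ww B ≤ 4 * (P.L : ℝ) ^ 12 * r := by
  linarith [h.w_bd hc, hc.good.Wbar_le r]

theorem Bnd.q_bd (h : Bnd P r B B') (hc : Ctx P r t) : q4 B / r ≤ 2 * P.L / P.f r := by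
  have h1 := h.Q
  have hL := bfacts_L hc.good
  have hr0 := bfacts_r hc
  have hf : 0 < P.f r := lt_of_lt_of_le one_pos (hc.good.f_one r)
  rw [Par.UQ, div_le_iff₀ (by positivity)] at h1
  rw [div_le_div_iff₀ hr0 hf]
  linarith

theorem Bnd.q_small1 (h : Bnd P r B B') (hc : Ctx P r t) (hr : (P.L : ℝ) ^ 11 * r ≤ 2 * P.r0) :
    q4 B / r ≤ 1 / P.L := by
  have hL := bfacts_L hc.good
  refine (h.q_bd hc).trans ?_
  calc 2 * (P.L : ℝ) / P.f r ≤ 2 * P.L / (2 * (P.L : ℝ) ^ 2) :=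
        div_le_div_of_nonneg_left (by positivity) (by positivity) (hc.f_ge1 hr)
    _ = 1 / P.L := by field_simp

theorem Bnd.q_small2 (h : Bnd P r B B') (hc : Ctx P r t) (hr : r < 2 * P.r2 + 2) :
    q4 B / r ≤ 1 / (P.L : ℝ) ^ 4780 := by
  have hL := bfacts_L hc.good
  have hf : 0 < P.f r := lt_of_lt_of_le one_pos (hc.good.f_one r)
  refine (h.q_bd hc).trans ?_
  rw [div_le_div_iff₀ hf (by positivity), one_mul]
  calc 2 * (P.L : ℝ) * (P.L : ℝ) ^ 4780 = 2 * (P.L : ℝ) ^ 4781 := by ring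
    _ ≤ (P.L : ℝ) ^ 4782 := cpow_le hc.good.L_one (bfacts_c hc.good (by norm_num)) (by norm_num)
    _ ≤ _ := hc.f_ge2 hr

theorem Bnd.chi_bd (h : Bnd P r B B') (hc : Ctx P r t) (hr : P.r2 < r) :
    R62.chi B B' + P.g * t2 B + 16 ≤ 2 * ((P.L : ℝ) ^ 2 * r + P.n / P.L) := by
  have h1 := h.chi
  have hL := bfacts_L hc.good
  have hr0 := bfacts_r hc
  rwa [Par.Uchi, if_pos hr, div_le_iff₀ (by positivity)] at h1

/-- all terms are nonnegative (`t4 = fro (B*B)`, `chi_lower`, `sq_le_t2`) -/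
theorem terms_nonneg (hg : P.Good) (hr : 0 < r) (hcard : Fintype.card ι = r) {b : ℝ}
    (hb : b = P.a ∨ b = -P.a) (hB : B.IsSymm) (hB' : B'.IsSymm) (hrow : ∀ k, ∑ l, B k l = b)
    (hΓ' : Gam B' (-b) P.g) :
    0 ≤ P.Uphi r (t1 B) ∧ 0 ≤ P.Upsi r (t2 B) ∧ 0 ≤ P.UT r (t3 B) ∧ 0 ≤ P.U4 r (t4 B) ∧
    0 ≤ P.UD r (dd B) ∧ 0 ≤ P.UW r (ww B) ∧ 0 ≤ P.UQ r (q4 B) ∧
    0 ≤ P.Uchi r (chi B B') (t2 B) ∧ 0 ≤ P.UF r (t2 B) := by
  have hL := bfacts_L hg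
  have hrr : 0 < rr ι := by
    rw [rr, hcard]; exact_mod_cast hr
  have hb2 : b ^ 2 = P.a ^ 2 := by
    rcases hb with rfl | rfl
    · rfl
    · exact neg_sq _
  have hb4 : b ^ 2 ≤ 4 := by rw [hb2]; nlinarith [hg.a1, hg.a2]
  have h4 : 0 ≤ t4 B := by
    rw [← fro_sq_eq_t4 hB]
    exact sum_nonneg fun _ _ => sum_nonneg fun _ _ => sq_nonneg _
  have hd : 0 ≤ dd B := sum_nonneg fun _ _ => sq_nonneg _
  have hw : 0 ≤ ww B := sum_nonneg fun _ _ => sq_nonneg _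
  have hq : 0 ≤ q4 B := sum_nonneg fun _ _ => sum_nonneg fun _ _ => by positivity
  have hf : 0 < P.f r := lt_of_lt_of_le one_pos (hg.f_one r)
  have hchi := chi_lower hB hB' hrow hΓ' hb4 (by rw [neg_sq]; exact hb4) hg.g0.le hrr
  have hF : 0 ≤ t2 B - P.a ^ 2 := by
    rw [← hb2]; linarith [sq_le_t2 hB hrow hrr]
  refine ⟨?_, ?_, mul_nonneg (hg.wT_nonneg r) (sq_nonneg _), ?_,
    div_nonneg hd (hg.Dbar_pos r).le, div_nonneg hw (hg.Wbar_pos hr).le, ?_, ?_, ?_⟩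
  · unfold Par.Uphi
    split_ifs
    · exact div_nonneg (sq_nonneg _) (sq_nonneg _)
    · exact le_rfl
  · unfold Par.Upsi
    split_ifs
    · exact div_nonneg (sq_nonneg _) (sq_nonneg _)
    · exact le_rfl
  · unfold Par.U4
    split_ifs
    · positivity
    · exact le_rfl
  · unfold Par.UQ
    positivity
  · unfold Par.Uchi
    split_ifs
    · exact div_nonneg hchi (by positivity)
    · exact le_rfl
  · unfold Par.UF
    split_ifs
    · exact div_nonneg (mul_nonneg hF (Nat.cast_nonneg _)) (by positivity)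
    · exact le_rfl

/-! ### convenient facts in a `Side` -/
variable {b : ℝ} {ω : ι → ι → ℝ}

theorem Side.rr_eq (h : Side P r t B B' b ω) : rr ι = r := by
  rw [rr, h.card]

theorem Side.b_sq (h : Side P r t B B' b ω) : b ^ 2 = P.a ^ 2 := by
  rcases h.hb with rfl | rfl
  · rfl
  · exact neg_sq _

theorem Side.q_half (h : Side P r t B B' b ω) : q4 B / r ≤ (1 / 2 + 10 / P.L) * b ^ 4 := by
  have R := h.reg
  have h1 := q4_le_half R.symm h.gam R.b1 R.b4 h.ctx.good.g0.le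
    (by rw [h.b_sq]; exact h.ctx.good.g2) R.t0 R.t8 R.th0 R.th1 R.L1 R.Lt R.f2 R.d R.w
  rw [h.rr_eq, mul_one_div] at h1
  exact (div_le_iff₀ (bfacts_r h.ctx)).2 h1

theorem Side.nonneg (h : Side P r t B B' b ω) :
    0 ≤ P.Uphi r (t1 B) ∧ 0 ≤ P.Upsi r (t2 B) ∧ 0 ≤ P.UT r (t3 B) ∧ 0 ≤ P.U4 r (t4 B) ∧
    0 ≤ P.UD r (dd B) ∧ 0 ≤ P.UW r (ww B) ∧ 0 ≤ P.UQ r (q4 B) ∧
    0 ≤ P.Uchi r (chi B B') (t2 B) ∧ 0 ≤ P.UF r (t2 B) := by
  exact terms_nonneg h.ctx.good (bfacts_r0 h.ctx) h.card h.hb h.reg.symm h.reg'.symm h.reg.row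
    h.gam'

/-- the two relative error terms of `drift_t4` and `drift_ww` are at most `1/L` in all phases.
`r > r2`: `|t1| ≤ 2 L^32241`, `ν ≤ 2 L^31714`, `r ≥ L^65240`; middle: `|t1| ≤ 2 L^31979`, `ν ≤ 2 L^32006`, `r ≥ L^64072`;
late: `t1² ≤ r D ≤ r L^20`, `ν = t^4/L^23`.  `Ω ν / r = 2 L^48026/t^6` (`t ≥ L^8009`) outside the tilt and late phases,
`≤ 2 L^(33197 + 31714)/L^65240` in the tilt phase, `L^-21` in the late phase. -/
theorem Side.rel_small (h : Side P r t B B' b ω) :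
    |t1 B| * P.nu r t / r ≤ 1 / P.L ∧ P.Om r t * P.nu r t / r ≤ 1 / P.L := by
  have hc := h.ctx
  have hg := hc.good
  have hL := bfacts_L hg
  have hL1 := hg.L_one
  have ht := hc.t0
  have h42 : P.r4 < P.r2 := by have := hg.r4_lt_r3; have := hg.r3_lt_r2; omega
  rw [← hc.t8]
  rcases lt_or_ge P.r4 r with hr | hr
  · have hν : P.nu r t = 2 * (P.L : ℝ) ^ 48024 / t ^ 2 := if_pos hr
    rw [hν]
    constructor
    · rcases lt_or_ge P.r2 r with hr2 | hr2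
      · calc |t1 B| * (2 * (P.L : ℝ) ^ 48024 / t ^ 2) / t ^ 8
            ≤ 2 * (P.L : ℝ) ^ 32241 * (2 * (P.L : ℝ) ^ 48024 / t ^ 2) / t ^ 8 := by
              gcongr; exact h.bnd.t1_early hc hr
          _ = 4 * (P.L : ℝ) ^ 80265 / t ^ 10 := by ring
          _ ≤ _ := bfacts_div hL1 (bfacts_c hg (by norm_num)) (hc.t_tilt hr2) (by norm_num)
      · calc |t1 B| * (2 * (P.L : ℝ) ^ 48024 / t ^ 2) / t ^ 8
            ≤ 2 * (P.L : ℝ) ^ 31979 * (2 * (P.L : ℝ) ^ 48024 / t ^ 2) / t ^ 8 := by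
              gcongr; exact h.bnd.t1_mid hc hr hr2
          _ = 4 * (P.L : ℝ) ^ 80003 / t ^ 10 := by ring
          _ ≤ _ := bfacts_div hL1 (bfacts_c hg (by norm_num)) (hc.t_mid hr) (by norm_num)
    · unfold Par.Om
      split_ifs with h2
      · calc (P.L : ℝ) ^ 33197 * (2 * (P.L : ℝ) ^ 48024 / t ^ 2) / t ^ 8
            = 2 * (P.L : ℝ) ^ 81221 / t ^ 10 := by ring
          _ ≤ _ := bfacts_div hL1 (bfacts_c hg (by norm_num)) (hc.t_tilt h2.1) (by norm_num)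
      · calc (P.L : ℝ) ^ 2 * t ^ 4 * (2 * (P.L : ℝ) ^ 48024 / t ^ 2) / t ^ 8
            = (P.L : ℝ) ^ 2 * (P.L : ℝ) ^ 48024 * (t ^ 4 * (2 / t ^ 2) / t ^ 8) := by ring
          _ = (P.L : ℝ) ^ 2 * (P.L : ℝ) ^ 48024 * (2 / t ^ 6) := by congr 1; field_simp
          _ = 2 * (P.L : ℝ) ^ 48026 / t ^ 6 := by ring
          _ ≤ _ := bfacts_div hL1 (bfacts_c hg (by norm_num)) (hc.t_mid hr) (by norm_num)
  · have hν : P.nu r t = t ^ 4 / (P.L : ℝ) ^ 23 := if_neg (not_lt.2 hr)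
    have hΩ : P.Om r t = (P.L : ℝ) ^ 2 * t ^ 4 := if_neg fun h2 => by omega
    have hΛ : P.Lam r = (P.L : ℝ) ^ 20 := if_neg fun h2 => by omega
    have h1 : |t1 B| ≤ (P.L : ℝ) ^ 10 * t ^ 4 := by
      refine _root_.abs_le.2 (abs_le_of_sq_le_sq' ((t1_sq_le B).trans ?_) (by positivity))
      have h2 := h.reg.d
      rw [hΛ] at h2
      calc rr ι * dd B ≤ rr ι * (P.L : ℝ) ^ 20 := mul_le_mul_of_nonneg_left h2 rr_nonneg
        _ = _ := by rw [← h.reg.t8]; ring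
    rw [hν, hΩ]
    constructor
    · calc |t1 B| * (t ^ 4 / (P.L : ℝ) ^ 23) / t ^ 8
          ≤ (P.L : ℝ) ^ 10 * t ^ 4 * (t ^ 4 / (P.L : ℝ) ^ 23) / t ^ 8 := by gcongr
        _ = 1 / (P.L : ℝ) ^ 13 := by field_simp
        _ ≤ 1 / P.L := div_le_div_of_nonneg_left zero_le_one hL (le_self_pow₀ hL1 (by norm_num))
    · calc (P.L : ℝ) ^ 2 * t ^ 4 * (t ^ 4 / (P.L : ℝ) ^ 23) / t ^ 8
          = 1 / (P.L : ℝ) ^ 21 := by field_simp
        _ ≤ 1 / (P.L : ℝ) := div_le_div_of_nonneg_left zero_le_one hL (le_self_pow₀ hL1 (by norm_num))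

/-- `E_ω Δ t2 ≤ 1` before the late phase (from `drift_t2` this is proved in `TPsi`) -/
theorem Side.t1_t3_small (h : Side P r t B B' b ω) (hr : P.r4 < r) :
    4 * |t1 B| * |t3 B| / (r : ℝ) ^ 2 ≤ 1 / P.L := by
  have hc := h.ctx
  have hg := hc.good
  have hL := bfacts_L hg
  have hL1 := hg.L_one
  have ht := hc.t0
  have h3 : |t3 B| ≤ 3 * P.L * (2 * (P.L : ℝ) ^ 96000) :=
    (h.bnd.t3_mid hc hr).trans (mul_le_mul_of_nonneg_left hg.n_hi (by positivity))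
  rw [← hc.t8]
  rcases lt_or_ge P.r2 r with hr2 | hr2
  · calc 4 * |t1 B| * |t3 B| / (t ^ 8) ^ 2
        ≤ 4 * (2 * (P.L : ℝ) ^ 32241) * (3 * P.L * (2 * (P.L : ℝ) ^ 96000)) / (t ^ 8) ^ 2 := by
          gcongr; exact h.bnd.t1_early hc hr
      _ = 48 * (P.L : ℝ) ^ 128242 / t ^ 16 := by ring
      _ ≤ _ := bfacts_div hL1 (bfacts_c hg (by norm_num)) (hc.t_tilt hr2) (by norm_num)
  · calc 4 * |t1 B| * |t3 B| / (t ^ 8) ^ 2
        ≤ 4 * (2 * (P.L : ℝ) ^ 31979) * (3 * P.L * (2 * (P.L : ℝ) ^ 96000)) / (t ^ 8) ^ 2 := by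
          gcongr; exact h.bnd.t1_mid hc hr hr2
      _ = 48 * (P.L : ℝ) ^ 127980 / t ^ 16 := by ring
      _ ≤ _ := bfacts_div hL1 (bfacts_c hg (by norm_num)) (hc.t_mid hr) (by norm_num)

end Crest.Agent.R62
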