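import Crest.Agent.R62.ChiAux3

/-!
# R62/Chi: drift of the cubic word `chi B₁ B₂ = tr (B₁² B₂)` (TASK; `B₁ = B₂` gives `t3`)

General method (notation: see `Defs`).  On the support of `ω` (`ω u v ≠ 0`) we have `u ≠ v` (`Wt.ne`),
`|c| ≤ ϑ`, `|δ_u δ_v| ≤ ϑ` (`Adm`), so the exact formulas of `Trace` and `Reg.kap_bd` apply:
`K12 = 1/b + O(14 e)`, `κ = 1/b² + O(6 e)`, `E e² ≤ 16/r` (`Reg.av_e`), `E (ω-1)² ≤ Ξ²/r` (`Wt.av_sq`).
Write the increment as `main + rem` where `main` is a polynomial in entries of powers of `B` (defined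
for all pairs); `E_ω main = E main + E[(ω-1) main]` (`Ea_eq`), `E main` is computed exactly with
`av_prod, av_row, av_col` (row sums of `B^j` are `b^j`), everything else is bounded with Cauchy-Schwarz
(`av_cs`, `abs_av_cs`), `Wt.abs_Ea_le`, `Wt.Ea_le_two`, using the L² norms (over pairs, `r = t^8`)
`‖δ_u‖² = D/r ≤ Λ/r`, `‖β_u‖² = W/r ≤ Λ`, `‖b_j(u)‖² ≤ ν^(2j-4) Λ` (`word_diag_le`),
`‖c‖² ≤ 4/r`, `‖c_j‖ ≤ ν^j / r` for `j ≥ 2` (`av_sq_eq_fro`, `fro_mul_left`), `‖f(u) g(v)‖ = ‖f‖ ‖g‖`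
(`av_prod`), and the pointwise bounds `δ² ≤ Λ`, `δ_u² ≤ β_u`, `β² ≤ Λ r`, `c_2² ≤ β_u β_v`, `|b| ≤ 2`,
`1 ≤ Λ ≤ ν ≤ t^4`, `Λ ≤ ϑ t`.  The constant `CC = 10^12` is very generous: be crude.
Advice: split into many small lemmas (one per monomial type); avoid big `nlinarith` calls, use
`abs_mul, mul_le_mul, gcongr, positivity`.

Use `chi_upd` (7 terms).  For `H = Hm b₁ B₁ w B₂` call `x` the diagonal and `y` the off-diagonal entries;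
`H 0 1 = K12 ((B₁wB₂) v v - b₁ (wB₂) u v) + K11 ((B₁wB₂) u v - b₁ (wB₂) v v)`.
* Terms 1-3 (single trace), e.g. term 1 with `M = B₁B₁B₂B₁`, `M' = B₁B₂B₁`:
  `K11 (M u u - b M' v u) + K22 (M v v - b M' u v) + K12 (M u v + M v u - b M' u u - b M' v v)`;
  main part `(δ_v M u u + δ_u M v v)/b² + (M u v + M v u)/b - M' u u - M' v v`, whose average is
  `2 T1 tr M/(b² r²) + O(16/r) - 2 χ/r` (`tr M' = χ` by cyclicity/symmetry, `|tr M| ≤ ν^4` by Cauchy-Schwarz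
  with `fro_mul_le`).  L² norms: `‖M u v‖ ≤ ν^4/r`, `‖M' u u‖ ≤ ν Λ` (`word_diag_le'`), `‖δ_v M u u‖ ≤ ν² Λ/t^4`,
  `E|δ_v M' v u| ≤ (Λ/t^4) ν³/r`.
* Terms 4-6 (trace of a product `H H'` = `x x' + x x' + y_v y'_u + y_u y'_v`), `H` of degree 2, `H'` of degree 3
  (or conversely).  Main part `K12 K12' b_2(v) b_3(u) + sym → (1/(b b')) 2 (tr/r)(χ/r)`: term 4 gives
  `2 o₁ χ/(b₁² r)`, terms 5, 6 give `2 o₁₂ χ/(b₁ b₂ r)` each.  `‖b_2(v) b_3(u)‖ ≤ ν Λ`.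
  `‖x‖ ≤ C (Λ/t^4 + ν²/r)` in degree 2, `‖x'‖ ≤ C (Λ + ν³/r)` in degree 3.  The corrections of `y` are
  `e |b_j| + |c_(j-1)| + |δ| (|c_j| + |b_(j-1)|)`; bound all cross products as in `Psi`.
* Term 7 (trace of three degree-2 matrices) = sums of `x x x` and `x y y`:
  `E|x y_u y_v| ≤ ‖x‖ ‖y_u y_v‖ ≤ C (Λ/t^4 + ν²/r) Λ²`, `E|x|³ ≤ ‖x‖ ‖x²‖ ≤ C (Λ/t^4 + ν²/r) Λ²`
  (`E x^4 ≤ C Λ^4`, `E (y_u y_v)² ≤ C Λ^4` as in `Psi`, with `β = β¹ + β²`, `|δ| ≤ |δ¹| + |δ²|`; for mixed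
  products `|δ¹_u δ²_v|` is not known to be small, use `δ² ≤ Λ`, or e.g.
  `E |δ¹_v δ²_u| |c_2| |c_3| ≤ ‖δ¹_v δ²_u √(β_u β_v)‖ ‖c_3‖ ≤ C (Λ²/t^4)(ν³/r) ≤ C Λ² ν/t^4`).
A good plan: prove once a lemma giving, for `H = Hm b₁ B₁ w B₂` with `OpLe w μ`, pointwise bounds of the
entries in terms of `β¹, β², δ¹, μ` and L²/L⁴ bounds, then apply it to the 7 terms.  May be split in several files.
-/

set_option autoImplicit false
set_option linter.unusedSectionVars false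
open Finset Matrix

namespace Crest.Agent.R62

variable {ι : Type} [Fintype ι] [DecidableEq ι]
variable {ω : ι → ι → ℝ} {B : Matrix ι ι ℝ} {b Λ ν t ϑ Ξ Ω ρ : ℝ}

namespace ChiA

section traces
variable {γ d : ι → ℝ} {s : ℝ} {B' B'' C C' A A' w w' : Matrix ι ι ℝ} {b' c c' a a' : ℝ}

theorem E_tr1 (hw : Wg ω) (hB : B.IsSymm) : Ea ω (fun u v => (Hm b B w B' u v).trace) =
    2 * Ea ω (xx b B (B * w * B') (w * B')) := by
  rw [two_mul]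
  nth_rw 2 [← hw.swap]
  rw [← Ea_add]
  exact Ea_congr fun u v _ => by rw [trace_fin_two, H00, H11 b hB, add_comm]

theorem E_tr2 (hw : Wg ω) (hB : B.IsSymm) (hC : C.IsSymm) :
    Ea ω (fun u v => (Hm b B w B' u v * Hm c C w' C' u v).trace) =
    2 * Ea ω (fun u v => xx b B (B * w * B') (w * B') u v * xx c C (C * w' * C') (w' * C') u v) +
    2 * Ea ω (fun u v => yy b B (B * w * B') (w * B') u v * yy c C (C * w' * C') (w' * C') v u) := by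
  rw [two_mul, two_mul]
  nth_rw 2 [← hw.swap]
  nth_rw 4 [← hw.swap]
  rw [← Ea_add, ← Ea_add, ← Ea_add]
  refine Ea_congr fun u v _ => ?_
  simp only [trace_fin_two, Matrix.mul_apply, Fin.sum_univ_two, H00, H01, H10 _ hB, H11 _ hB,
    H10 _ hC, H11 _ hC]
  ring

theorem E_tr3 (m : Mom γ d Λ ν s) (hw : Wg ω) (h : Dom ω γ d ν s B b) (h' : Dom ω γ d ν s B' b')
    (g : Dom ω γ d ν s C c) (g' : Dom ω γ d ν s C' c') (k : Dom ω γ d ν s A a)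
    (k' : Dom ω γ d ν s A' a') :
    |Ea ω fun u v => (Hm b B 1 B' u v * Hm c C 1 C' u v * Hm a A 1 A' u v).trace| ≤
      12000000 * eta Λ ν s := by
  have x1 := m.nx2 hw h h'
  have x2 := m.nx2 hw g g'
  have x3 := m.nx2 hw k k'
  have a1 := m.Exxx hw h h' g g' k k'
  have a2 := m.Exxx hw h h' g g' k k'
  rw [← hw.swap] at a2
  have a3 := m.Exyy hw x1 g g' k k'
  have a4 := m.Exyy hw x3 h h' g g'
  have a5 := m.Exyy hw (x2.swap hw) h h' k k'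
  have a6 := m.Exyy hw x2 k k' h h'
  have a7 := m.Exyy hw (x3.swap hw) g g' h h'
  have a8 := m.Exyy hw (x1.swap hw) k k' g g'
  have e : (Ea ω fun u v => (Hm b B 1 B' u v * Hm c C 1 C' u v * Hm a A 1 A' u v).trace) =
      Ea ω fun u v =>
      xx b B (B * B') B' u v * (xx c C (C * C') C' u v * xx a A (A * A') A' u v) +
      xx b B (B * B') B' v u * (xx c C (C * C') C' v u * xx a A (A * A') A' v u) +
      xx b B (B * B') B' u v * (yy c C (C * C') C' u v * yy a A (A * A') A' v u) +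
      xx a A (A * A') A' u v * (yy b B (B * B') B' u v * yy c C (C * C') C' v u) +
      xx c C (C * C') C' v u * (yy b B (B * B') B' u v * yy a A (A * A') A' v u) +
      xx c C (C * C') C' u v * (yy a A (A * A') A' u v * yy b B (B * B') B' v u) +
      xx a A (A * A') A' v u * (yy c C (C * C') C' u v * yy b B (B * B') B' v u) +
      xx b B (B * B') B' v u * (yy a A (A * A') A' u v * yy c C (C * C') C' v u) := by
    refine Ea_congr fun u v _ => ?_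
    simp only [trace_fin_two, Matrix.mul_apply, Fin.sum_univ_two, H00, H01, H10 _ h.symm,
      H11 _ h.symm, H10 _ g.symm, H11 _ g.symm, H10 _ k.symm, H11 _ k.symm, Matrix.mul_one,
      Matrix.one_mul]
    ring
  rw [e, Ea_add, Ea_add, Ea_add, Ea_add, Ea_add, Ea_add, Ea_add]
  rw [abs_le] at *
  constructor <;> linarith [a1.1, a1.2, a2.1, a2.2, a3.1, a3.2, a4.1, a4.2, a5.1, a5.2, a6.1, a6.2,
    a7.1, a7.2, a8.1, a8.2]

theorem E_23 (m : Mom γ d Λ ν s) (hw : Wg ω) (hΞ : 1 ≤ Ξ)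
    (hz : N2 (fun _ _ => 1) (fun u v => ω u v - 1) (Ξ / s))
    (h : Dom ω γ d ν s B b) (h' : Dom ω γ d ν s B' b') (g : Dom ω γ d ν s C c)
    (gA : Dom ω γ d ν s A a) (g' : Dom ω γ d ν s C' c') :
    |(Ea ω fun u v => (Hm b B 1 B' u v * Hm c C A C' u v).trace) -
      2 * ((B * B').trace / rr ι / (b * c) * (C * A * C').trace / rr ι)| ≤
      440000 * (Ξ * eta Λ ν s) := by
  rw [E_tr2 hw h.symm g.symm, Matrix.mul_one, Matrix.one_mul]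
  have a1 := abs_le.1 (m.Ex2x3 hw h h' g gA g')
  have a2 := abs_le.1 (m.Ey2y3 hw hΞ hz h h' g gA g')
  have r6 : eta Λ ν s ≤ Ξ * eta Λ ν s := le_mul_of_one_le_left m.eta0 hΞ
  rw [abs_le]
  constructor <;> linarith [a1.1, a1.2, a2.1, a2.2]

theorem E_4 (m : Mom γ d Λ ν s) (hw : Wg ω) (hΞ : 1 ≤ Ξ)
    (hz : N2 (fun _ _ => 1) (fun u v => ω u v - 1) (Ξ / s))
    (h : Dom ω γ d ν s B b) (hA : Dom ω γ d ν s A a) (hA' : Dom ω γ d ν s A' a')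
    (h' : Dom ω γ d ν s B' b') :
    |(Ea ω fun u v => (Hm b B (A * A') B' u v).trace) + 2 * ((A * A' * B').trace / rr ι)| ≤
      2 * (|t1 B| * ν ^ 4 / rr ι ^ 2) + 12000 * (Ξ * eta Λ ν s) := by
  rw [E_tr1 hw h.symm]
  have a1 := abs_le.1 (m.Ex4 hw hΞ hz h hA hA' h')
  rw [abs_le]
  constructor <;> linarith [a1.1, a1.2]

end traces

theorem mom {B₁ B₂ : Matrix ι ι ℝ} {b₁ b₂ : ℝ} (h₁ : Reg B₁ b₁ Λ ν t ϑ) (h₂ : Reg B₂ b₂ Λ ν t ϑ) :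
    Mom (fun u => bet B₁ u + bet B₂ u + 1) (fun u => |B₁ u u| + |B₂ u u|) Λ ν (t ^ 4) where
  r_eq := by rw [← h₁.t8]; ring
  L1 := h₁.L1
  Lν := h₁.Lν
  νs := h₁.νt
  γ1 u := by linarith [bet_nonneg h₁.symm u, bet_nonneg h₂.symm u]
  γle u := by
    have h1 := h₁.bet_le u
    have h2 := h₂.bet_le u
    have h3 : 1 ≤ Λ * t ^ 4 := one_le_mul_of_one_le_of_one_le h₁.L1
      (h₁.L1.trans (h₁.Lν.trans h₁.νt))
    linarith
  γ2 := by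
    have h1 := h₁.w
    have h2 := h₂.w
    have h3 : rr ι ≤ Λ * rr ι := le_mul_of_one_le_left h₁.rpos.le h₁.L1
    have h4 := h₁.rpos
    calc ∑ u, (bet B₁ u + bet B₂ u + 1) ^ 2
        ≤ ∑ u, (3 * bet B₁ u ^ 2 + 3 * bet B₂ u ^ 2 + 3) := sum_le_sum fun u _ => by
          nlinarith [sq_nonneg (bet B₁ u - bet B₂ u), sq_nonneg (bet B₁ u - 1),
            sq_nonneg (bet B₂ u - 1)]
      _ = 3 * ww B₁ + 3 * ww B₂ + rr ι * 3 := by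
          rw [sum_add_distrib, sum_add_distrib, ← mul_sum, ← mul_sum, sum_const, card_univ,
            nsmul_eq_mul]
          rfl
      _ ≤ _ := by linarith
  d0 u := by positivity
  dγ u := by
    have h1 := sq_le_bet h₁.symm u u
    have h2 := sq_le_bet h₂.symm u u
    rw [← sq_abs] at h1 h2
    nlinarith [sq_nonneg (|B₁ u u| - |B₂ u u|)]
  d2 := by
    have h1 := h₁.d
    have h2 := h₂.d
    calc ∑ u, (|B₁ u u| + |B₂ u u|) ^ 2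
        ≤ ∑ u, (2 * B₁ u u ^ 2 + 2 * B₂ u u ^ 2) := sum_le_sum fun u _ => by
          rw [← sq_abs (B₁ u u), ← sq_abs (B₂ u u)]
          nlinarith [sq_nonneg (|B₁ u u| - |B₂ u u|)]
      _ = 2 * dd B₁ + 2 * dd B₂ := by
          rw [sum_add_distrib, ← mul_sum, ← mul_sum]
          rfl
      _ ≤ _ := by linarith

theorem dom {γ d : ι → ℝ} (h : Reg B b Λ ν t ϑ) (hw : Wg ω) (ha : Adm ω B ϑ ρ)
    (h1 : ∀ u, bet B u ≤ γ u) (h2 : ∀ u, |B u u| ≤ d u) : Dom ω γ d ν (t ^ 4) B b where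
  symm := h.symm
  row := h.row
  b1 := h.abs_b.1
  b2 := h.abs_b.2
  op := h.op
  t4 := h.t4
  fro := by rw [fro_eq_t2 h.symm]; linarith [h.f2']
  bγ := h1
  δd := h2
  c1 u v h0 := by linarith [(ha u v h0).1, h.th1]
  k u v h0 := by
    obtain ⟨-, k1, k2, k3, k4, k5, -⟩ := h.kap_bd (ha u v h0).1 (ha u v h0).2.1
    exact ⟨k1, k2, k3, k4, k5⟩
  ne := by
    have := h.t0
    refine (N2.of_av hw (fun _ _ => le_rfl) (by positivity) h.av_e).mono (le_of_eq ?_)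
    ring

end ChiA

open ChiA in
theorem drift_chi {B₁ B₂ : Matrix ι ι ℝ} {b₁ b₂ : ℝ} (h₁ : Reg B₁ b₁ Λ ν t ϑ) (h₂ : Reg B₂ b₂ Λ ν t ϑ)
    (hw : Wt ω ϑ Ξ Ω t) (ha₁ : Adm ω B₁ ϑ ρ) (ha₂ : Adm ω B₂ ϑ ρ) :
    |Ea ω (fun u v => chi (upd b₁ B₁ u v) (upd b₂ B₂ u v) - chi B₁ B₂) -
      (-6 + 2 * (t2 B₁ / rr ι) / b₁ ^ 2 + 4 * ((B₁ * B₂).trace / rr ι) / (b₁ * b₂)) *
        chi B₁ B₂ / rr ι| ≤
    CC * ((|t1 B₁| + |t1 B₂|) * ν ^ 4 / rr ι ^ 2 + Ξ * (ν ^ 4 / t ^ 12 + Λ ^ 3 * ν / t ^ 4)) := by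
  have hg : Wg ω := ⟨hw.nn, fun u v => by linarith [hw.le u v, h₁.th1], hw.symm⟩
  have m := mom h₁ h₂
  have d₁ := dom h₁ hg ha₁ (γ := fun u => bet B₁ u + bet B₂ u + 1)
    (d := fun u => |B₁ u u| + |B₂ u u|) (fun u => by linarith [bet_nonneg h₂.symm u])
    fun u => by linarith [abs_nonneg (B₂ u u)]
  have d₂ := dom h₂ hg ha₂ (γ := fun u => bet B₁ u + bet B₂ u + 1)
    (d := fun u => |B₁ u u| + |B₂ u u|) (fun u => by linarith [bet_nonneg h₁.symm u])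
    fun u => by linarith [abs_nonneg (B₁ u u)]
  have hΞ := hw.Xi1
  have ht := h₁.t0
  have hz : N2 (fun _ _ => 1) (fun u v => ω u v - 1) (Ξ / t ^ 4) :=
    ⟨by positivity, by rw [Ea_one]; exact hw.av_sq ht h₁.t8⟩
  have hk : ∀ {B : Matrix ι ι ℝ} {b : ℝ}, Reg B b Λ ν t ϑ → Adm ω B ϑ ρ → ∀ u v, ω u v ≠ 0 →
      (b - B u v) ^ 2 - B u u * B v v ≠ 0 := fun h ha u v h0 => by
    have := (h.kap_bd (ha u v h0).1 (ha u v h0).2.1).1
    have := h.b1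
    exact ne_of_gt (by linarith)
  rw [Ea_congr fun u v h0 => chi_upd h₁.symm h₂.symm (hw.ne h0) (hk h₁ ha₁ u v h0)
    (hk h₂ ha₂ u v h0), Ea_add, Ea_add, Ea_add, Ea_add, Ea_add, Ea_add]
  have a1 := E_4 m hg hΞ hz d₁ d₁ d₂ d₁
  have a2 := E_4 m hg hΞ hz d₁ d₂ d₁ d₁
  have a3 := E_4 m hg hΞ hz d₂ d₁ d₁ d₂
  have a4 := E_23 m hg hΞ hz d₁ d₁ d₁ d₂ d₁
  have a5 := E_23 m hg hΞ hz d₂ d₁ d₁ d₁ d₂
  have a6 := E_23 m hg hΞ hz d₁ d₂ d₂ d₁ d₁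
  have a7 := E_tr3 m hg d₁ d₁ d₁ d₂ d₂ d₁
  have c1 : (B₁ * B₂ * B₁).trace = chi B₁ B₂ := by
    rw [trace_mul_comm, ← Matrix.mul_assoc]; rfl
  have c2 : (B₂ * B₁ * B₁).trace = chi B₁ B₂ := by
    rw [Matrix.mul_assoc, trace_mul_comm]; rfl
  have c3 : (B₁ * B₁ * B₂).trace = chi B₁ B₂ := rfl
  have c4 : (B₁ * B₁).trace = t2 B₁ := rfl
  rw [c1] at a1 a4
  rw [c2] at a2 a6
  rw [c3] at a3 a5
  rw [c4, ← sq] at a4
  rw [trace_mul_comm B₂ B₁, mul_comm b₂ b₁,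
    Ea_congr fun u v _ => trace_mul_comm (Hm b₂ B₂ 1 B₁ u v) _] at a5
  have he : ν ^ 4 / t ^ 12 + Λ ^ 3 * ν / t ^ 4 = eta Λ ν (t ^ 4) := by
    rw [eta, ← pow_mul]
  have r6 : eta Λ ν (t ^ 4) ≤ Ξ * eta Λ ν (t ^ 4) := le_mul_of_one_le_left m.eta0 hΞ
  have r7 := m.eta0
  have r1 : 0 ≤ |t1 B₁| * ν ^ 4 / rr ι ^ 2 := by positivity
  have r2 : 0 ≤ |t1 B₂| * ν ^ 4 / rr ι ^ 2 := by positivity
  have e1 : (-6 + 2 * (t2 B₁ / rr ι) / b₁ ^ 2 + 4 * ((B₁ * B₂).trace / rr ι) / (b₁ * b₂)) *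
      chi B₁ B₂ / rr ι = -6 * (chi B₁ B₂ / rr ι) + 2 * (t2 B₁ / rr ι / b₁ ^ 2 * chi B₁ B₂ / rr ι) +
      4 * ((B₁ * B₂).trace / rr ι / (b₁ * b₂) * chi B₁ B₂ / rr ι) := by ring
  rw [he, e1, add_mul, add_div, CC]
  rw [abs_le] at *
  constructor <;> linarith [a1.1, a1.2, a2.1, a2.2, a3.1, a3.2, a4.1, a4.2, a5.1, a5.2, a6.1, a6.2,
    a7.1, a7.2]

end Crest.Agent.R62
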