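import Crest.Agent.R62.Defs

/-!
# R62/Trace: exact formulas for the change of the traces under `upd` (TASK)

Proof.  Let `U : Matrix ι (Fin 2) ℝ` have columns `e_u, e_v` (`u ≠ v`, so `Uᵀ U = 1`), `K = Kmat b B u v`,
`S = Uᵀ B U = blk B u v`.  Then `K (b X - S) = 1` (direct computation, uses the denominator `≠ 0`),
so `1 + K S = b K X`.  With `B̂ = B + B U K Uᵀ B` and `Q = 1 - U Uᵀ` (the diagonal 0/1 matrix killing
`u, v`; `Q * Q = Q`) one has `upd b B u v = Q B̂ Q` (entrywise check, uses symmetry of `B`), and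
`B̂ Q = B + V₁ V₂ =: E` with `V₁ = B U`, `V₂ = K (Uᵀ B - b X Uᵀ)` since `B̂ U = B U (1 + K S) = b B U K X`.
By cyclicity of the trace and `Q Q = Q`, the trace of a word in the `upd`'s is the trace of the same
word in the `E`'s.  Expand, and use `trace_mul_comm` to bring each term to the form of a product of
the `2 × 2` matrices `V₂ w V₁' = K (Uᵀ B w B' U - b X Uᵀ w B' U) = Hm b B w B'`
(`Uᵀ M U = blk M u v`).  All five identities were checked numerically with exact rationals.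
-/

set_option autoImplicit false
set_option linter.unusedSectionVars false
open Finset Matrix

namespace Crest.Agent.R62

variable {ι : Type} [Fintype ι] [DecidableEq ι]

/-- the columns `e_u, e_v` -/
private def trace_U (u v : ι) : Matrix ι (Fin 2) ℝ :=
  Matrix.of fun k i => if k = ![u, v] i then 1 else 0

/-- the projection killing `u, v` -/
private def trace_Q (u v : ι) : Matrix ι ι ℝ :=
  Matrix.diagonal fun k => if k = u ∨ k = v then 0 else 1

private noncomputable def trace_hat (b : ℝ) (B : Matrix ι ι ℝ) (u v : ι) : Matrix ι ι ℝ :=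
  B + B * trace_U u v * Kmat b B u v * ((trace_U u v)ᵀ * B)

private noncomputable def trace_W (b : ℝ) (B : Matrix ι ι ℝ) (u v : ι) : Matrix (Fin 2) ι ℝ :=
  Kmat b B u v * ((trace_U u v)ᵀ * B - b • (Xm * (trace_U u v)ᵀ))

private theorem trace_mul_U {κ : Type} (M : Matrix κ ι ℝ) (u v : ι) (k : κ) (i : Fin 2) :
    (M * trace_U u v) k i = M k (![u, v] i) := by
  simp [trace_U, Matrix.mul_apply]

private theorem trace_U_mul {κ : Type} (M : Matrix ι κ ℝ) (u v : ι) (k : κ) (i : Fin 2) :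
    ((trace_U u v)ᵀ * M) i k = M (![u, v] i) k := by
  simp [trace_U, Matrix.mul_apply]

private theorem trace_blk (M : Matrix ι ι ℝ) (u v : ι) :
    (trace_U u v)ᵀ * (M * trace_U u v) = blk M u v := by
  ext i j
  rw [trace_U_mul, trace_mul_U]
  fin_cases i <;> fin_cases j <;> simp [blk]

omit [Fintype ι] in
private theorem trace_Q_eq {u v : ι} (huv : u ≠ v) :
    trace_Q u v = 1 - trace_U u v * (trace_U u v)ᵀ := by
  ext k l
  simp only [trace_Q, trace_U, Matrix.sub_apply, Matrix.mul_apply, Fin.sum_univ_two,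
    Matrix.transpose_apply, Matrix.of_apply, Matrix.diagonal_apply, Matrix.one_apply,
    Matrix.cons_val_zero, Matrix.cons_val_one]
  by_cases h1 : k = l
  · subst h1
    by_cases h2 : k = u
    · subst h2; simp [huv]
    · by_cases h3 : k = v
      · subst h3; simp [h2]
      · simp [h2, h3]
  · by_cases h2 : k = u
    · subst h2; simp [h1, huv, Ne.symm h1]
    · by_cases h3 : k = v
      · subst h3; simp [h1, h2, Ne.symm h1]
      · simp [h1, h2, h3]

private theorem trace_QQ (u v : ι) : trace_Q u v * trace_Q u v = trace_Q u v := by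
  rw [trace_Q, Matrix.diagonal_mul_diagonal]
  congr 1
  funext k
  split_ifs <;> simp

private theorem trace_QQ' (u v : ι) (X : Matrix ι ι ℝ) :
    trace_Q u v * (trace_Q u v * X) = trace_Q u v * X := by
  rw [← Matrix.mul_assoc, trace_QQ]

private theorem trace_upd_eq (b : ℝ) {B : Matrix ι ι ℝ} (hB : B.IsSymm) (u v : ι) :
    upd b B u v = trace_Q u v * trace_hat b B u v * trace_Q u v := by
  ext k l
  have e : trace_hat b B u v k l = B k l + kap b B u v * (B v v * B k u * B l u +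
      B u u * B k v * B l v + (b - B u v) * (B k u * B l v + B k v * B l u)) := by
    rw [trace_hat, Matrix.add_apply, Matrix.mul_apply, Fin.sum_univ_two,
      Matrix.mul_apply (M := B * trace_U u v), Matrix.mul_apply (M := B * trace_U u v),
      Fin.sum_univ_two, Fin.sum_univ_two]
    simp only [trace_mul_U, trace_U_mul, Kmat, Matrix.of_apply, Matrix.cons_val', Matrix.cons_val_zero,
      Matrix.cons_val_one, Matrix.cons_val_fin_one]
    rw [hB.apply l u, hB.apply l v]
    ring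
  rw [trace_Q, Matrix.mul_diagonal, Matrix.diagonal_mul, e, upd, Matrix.of_apply]
  by_cases h1 : k = u ∨ k = v
  · rw [if_pos h1, if_pos (by tauto)]; ring
  · by_cases h2 : l = u ∨ l = v
    · rw [if_pos h2, if_pos (by tauto)]; ring
    · rw [if_neg h1, if_neg h2, if_neg (by tauto)]; ring

omit [Fintype ι] [DecidableEq ι] in
private theorem trace_KS {b : ℝ} {B : Matrix ι ι ℝ} (hB : B.IsSymm) {u v : ι}
    (hk : (b - B u v) ^ 2 - B u u * B v v ≠ 0) :
    1 + Kmat b B u v * blk B u v = b • (Kmat b B u v * Xm) := by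
  have h : kap b B u v * ((b - B u v) ^ 2 - B u u * B v v) = 1 := by
    rw [kap]; field_simp
  ext i j
  fin_cases i <;> fin_cases j <;>
    simp [Kmat, blk, Xm, hB.apply u v] <;>
    first | ring1 | linear_combination (-1 : ℝ) * h

private theorem trace_hat_Q {b : ℝ} {B : Matrix ι ι ℝ} (hB : B.IsSymm) {u v : ι} (huv : u ≠ v)
    (hk : (b - B u v) ^ 2 - B u u * B v v ≠ 0) :
    trace_hat b B u v * trace_Q u v = B + B * trace_U u v * trace_W b B u v := by
  have h1 : trace_hat b B u v * trace_U u v = B * trace_U u v * (b • (Kmat b B u v * Xm)) := by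
    rw [← trace_KS hB hk, ← trace_blk, trace_hat]
    simp only [Matrix.add_mul, Matrix.mul_add, Matrix.mul_assoc, Matrix.mul_one]
  rw [trace_Q_eq huv, Matrix.mul_sub, Matrix.mul_one, ← Matrix.mul_assoc, h1, trace_hat, trace_W]
  simp only [Matrix.mul_sub, Matrix.mul_smul, Matrix.smul_mul, Matrix.mul_assoc]
  abel

private theorem trace_Hm (b : ℝ) (B w B' : Matrix ι ι ℝ) (u v : ι) :
    Hm b B w B' u v = trace_W b B u v * w * (B' * trace_U u v) := by
  rw [Hm, ← trace_blk, ← trace_blk, trace_W]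
  simp only [Matrix.mul_sub, Matrix.sub_mul, Matrix.mul_smul, Matrix.smul_mul, Matrix.mul_assoc]

section expand

variable {κ : Type} [Fintype κ]
omit [DecidableEq ι]

private theorem trace_rot {m : Type} [Fintype m] (V : Matrix ι m ℝ) (X : Matrix m ι ℝ) :
    (V * X).trace = (X * V).trace := Matrix.trace_mul_comm V X

private theorem trace_exp2 (B : Matrix ι ι ℝ) (V : Matrix ι κ ℝ) (W : Matrix κ ι ℝ) :
    ((B + V * W) * (B + V * W)).trace - (B * B).trace =
      2 * (W * B * V).trace + (W * V * (W * V)).trace := by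
  have e1 : (B * (V * W)).trace = (W * B * V).trace := by
    iterate 2 (rw [Matrix.trace_mul_comm]; simp only [Matrix.mul_assoc])
  have e2 : (V * W * B).trace = (W * B * V).trace := by
    rw [Matrix.mul_assoc, Matrix.trace_mul_comm]
  have e3 : (V * W * (V * W)).trace = (W * V * (W * V)).trace := by
    rw [Matrix.mul_assoc, Matrix.trace_mul_comm]; simp only [Matrix.mul_assoc]
  simp only [Matrix.add_mul, Matrix.mul_add, Matrix.trace_add, e1, e2, e3]
  ring

private theorem trace_exp3 (B₁ B₂ B₃ : Matrix ι ι ℝ) (V₁ V₂ V₃ : Matrix ι κ ℝ)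
    (W₁ W₂ W₃ : Matrix κ ι ℝ) :
    ((B₁ + V₁ * W₁) * (B₂ + V₂ * W₂) * (B₃ + V₃ * W₃)).trace - (B₁ * B₂ * B₃).trace =
      (W₁ * (B₂ * B₃) * V₁).trace + (W₂ * (B₃ * B₁) * V₂).trace + (W₃ * (B₁ * B₂) * V₃).trace +
      (W₁ * V₂ * (W₂ * B₃ * V₁)).trace + (W₁ * B₂ * V₃ * (W₃ * V₁)).trace +
      (W₂ * V₃ * (W₃ * B₁ * V₂)).trace +
      (W₁ * V₂ * (W₂ * V₃) * (W₃ * V₁)).trace := by
  have e1 : (V₁ * W₁ * B₂ * B₃).trace = (W₁ * (B₂ * B₃) * V₁).trace := by
    simp only [Matrix.mul_assoc]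
    iterate 1 (rw [Matrix.trace_mul_comm]; simp only [Matrix.mul_assoc])
  have e2 : (B₁ * (V₂ * W₂) * B₃).trace = (W₂ * (B₃ * B₁) * V₂).trace := by
    simp only [Matrix.mul_assoc]
    iterate 2 (rw [Matrix.trace_mul_comm]; simp only [Matrix.mul_assoc])
  have e3 : (B₁ * B₂ * (V₃ * W₃)).trace = (W₃ * (B₁ * B₂) * V₃).trace := by
    simp only [Matrix.mul_assoc]
    iterate 3 (rw [Matrix.trace_mul_comm]; simp only [Matrix.mul_assoc])
  have e4 : (V₁ * W₁ * (V₂ * W₂) * B₃).trace = (W₁ * V₂ * (W₂ * B₃ * V₁)).trace := by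
    simp only [Matrix.mul_assoc]
    iterate 1 (rw [Matrix.trace_mul_comm]; simp only [Matrix.mul_assoc])
  have e5 : (V₁ * W₁ * B₂ * (V₃ * W₃)).trace = (W₁ * B₂ * V₃ * (W₃ * V₁)).trace := by
    simp only [Matrix.mul_assoc]
    iterate 1 (rw [Matrix.trace_mul_comm]; simp only [Matrix.mul_assoc])
  have e6 : (B₁ * (V₂ * W₂) * (V₃ * W₃)).trace = (W₂ * V₃ * (W₃ * B₁ * V₂)).trace := by
    simp only [Matrix.mul_assoc]
    iterate 2 (rw [Matrix.trace_mul_comm]; simp only [Matrix.mul_assoc])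
  have e7 : (V₁ * W₁ * (V₂ * W₂) * (V₃ * W₃)).trace =
      (W₁ * V₂ * (W₂ * V₃) * (W₃ * V₁)).trace := by
    simp only [Matrix.mul_assoc]
    iterate 1 (rw [Matrix.trace_mul_comm]; simp only [Matrix.mul_assoc])
  simp only [Matrix.add_mul, Matrix.mul_add, Matrix.trace_add, e1, e2, e3, e4, e5, e6, e7]
  ring

private theorem trace_exp4' (B P : Matrix ι ι ℝ) :
    ((B + P) * (B + P) * (B + P) * (B + P)).trace - (B * B * B * B).trace =
      4 * (P * (B * (B * B))).trace + 4 * (P * (P * (B * B))).trace + 2 * (P * (B * (P * B))).trace +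
      4 * (P * (P * (P * B))).trace + (P * (P * (P * P))).trace := by
  have rot : ∀ X Y Z T : Matrix ι ι ℝ, (X * (Y * (Z * T))).trace = (Y * (Z * (T * X))).trace :=
    fun X Y Z T => by rw [Matrix.trace_mul_comm]; simp only [Matrix.mul_assoc]
  simp only [Matrix.add_mul, Matrix.mul_add, Matrix.trace_add, Matrix.mul_assoc]
  have a1 := rot B P B B
  have a2 := rot B B P B
  have a3 := rot B B B P
  have b1 := rot B P P B
  have b2 := rot B B P P
  have b3 := rot P B B P
  have c1 := rot B P B P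
  have d1 := rot B P P P
  have d2 := rot P B P P
  have d3 := rot P P B P
  linarith

private theorem trace_exp4 (B : Matrix ι ι ℝ) (V : Matrix ι κ ℝ) (W : Matrix κ ι ℝ) :
    ((B + V * W) * (B + V * W) * (B + V * W) * (B + V * W)).trace - (B * B * B * B).trace =
      4 * (W * (B * B * B) * V).trace + 4 * (W * V * (W * (B * B) * V)).trace +
      2 * (W * B * V * (W * B * V)).trace + 4 * (W * V * (W * V) * (W * B * V)).trace +
      (W * V * (W * V) * (W * V) * (W * V)).trace := by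
  rw [trace_exp4']
  simp only [Matrix.mul_assoc, trace_rot V]

end expand

theorem upd_symm (b : ℝ) {B : Matrix ι ι ℝ} (hB : B.IsSymm) (u v : ι) : (upd b B u v).IsSymm := by
  ext k l
  simp only [Matrix.transpose_apply, upd, Matrix.of_apply]
  by_cases h : k = u ∨ k = v ∨ l = u ∨ l = v
  · rw [if_pos h, if_pos (by tauto)]
  · rw [if_neg h, if_neg (by tauto), hB.apply k l]
    ring

theorem t1_upd {b : ℝ} {B : Matrix ι ι ℝ} (hB : B.IsSymm) {u v : ι} (huv : u ≠ v)
    (hk : (b - B u v) ^ 2 - B u u * B v v ≠ 0) :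
    t1 (upd b B u v) - t1 B = (Hm b B 1 B u v).trace := by
  have e : t1 (upd b B u v) = (trace_hat b B u v * trace_Q u v).trace := by
    rw [t1, trace_upd_eq b hB, Matrix.mul_assoc, Matrix.trace_mul_comm, Matrix.mul_assoc, trace_QQ]
  rw [e, trace_hat_Q hB huv hk, trace_Hm, t1, Matrix.trace_add, Matrix.trace_mul_comm, Matrix.mul_one]
  ring

theorem t2_upd {b : ℝ} {B : Matrix ι ι ℝ} (hB : B.IsSymm) {u v : ι} (huv : u ≠ v)
    (hk : (b - B u v) ^ 2 - B u u * B v v ≠ 0) :
    t2 (upd b B u v) - t2 B =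
      2 * (Hm b B B B u v).trace + (Hm b B 1 B u v * Hm b B 1 B u v).trace := by
  have e : t2 (upd b B u v) =
      (trace_hat b B u v * trace_Q u v * (trace_hat b B u v * trace_Q u v)).trace := by
    rw [t2, trace_upd_eq b hB]
    simp only [Matrix.mul_assoc]
    rw [Matrix.trace_mul_comm]
    simp only [Matrix.mul_assoc, trace_QQ, trace_QQ']
  rw [e, trace_hat_Q hB huv hk, t2, trace_exp2]
  simp only [trace_Hm, Matrix.mul_one]

theorem chi_upd {b₁ b₂ : ℝ} {B₁ B₂ : Matrix ι ι ℝ} (h₁ : B₁.IsSymm) (h₂ : B₂.IsSymm) {u v : ι}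
    (huv : u ≠ v) (hk₁ : (b₁ - B₁ u v) ^ 2 - B₁ u u * B₁ v v ≠ 0)
    (hk₂ : (b₂ - B₂ u v) ^ 2 - B₂ u u * B₂ v v ≠ 0) :
    chi (upd b₁ B₁ u v) (upd b₂ B₂ u v) - chi B₁ B₂ =
      (Hm b₁ B₁ (B₁ * B₂) B₁ u v).trace + (Hm b₁ B₁ (B₂ * B₁) B₁ u v).trace +
      (Hm b₂ B₂ (B₁ * B₁) B₂ u v).trace +
      (Hm b₁ B₁ 1 B₁ u v * Hm b₁ B₁ B₂ B₁ u v).trace +
      (Hm b₁ B₁ B₁ B₂ u v * Hm b₂ B₂ 1 B₁ u v).trace +
      (Hm b₁ B₁ 1 B₂ u v * Hm b₂ B₂ B₁ B₁ u v).trace +
      (Hm b₁ B₁ 1 B₁ u v * Hm b₁ B₁ 1 B₂ u v * Hm b₂ B₂ 1 B₁ u v).trace := by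
  have e : chi (upd b₁ B₁ u v) (upd b₂ B₂ u v) = (trace_hat b₁ B₁ u v * trace_Q u v *
      (trace_hat b₁ B₁ u v * trace_Q u v) * (trace_hat b₂ B₂ u v * trace_Q u v)).trace := by
    rw [chi, trace_upd_eq b₁ h₁, trace_upd_eq b₂ h₂]
    simp only [Matrix.mul_assoc]
    rw [Matrix.trace_mul_comm]
    simp only [Matrix.mul_assoc, trace_QQ, trace_QQ']
  rw [e, trace_hat_Q h₁ huv hk₁, trace_hat_Q h₂ huv hk₂, chi, trace_exp3]
  simp only [trace_Hm, Matrix.mul_one]

theorem t3_upd {b : ℝ} {B : Matrix ι ι ℝ} (hB : B.IsSymm) {u v : ι} (huv : u ≠ v)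
    (hk : (b - B u v) ^ 2 - B u u * B v v ≠ 0) :
    t3 (upd b B u v) - t3 B =
      3 * (Hm b B (B * B) B u v).trace + 3 * (Hm b B 1 B u v * Hm b B B B u v).trace +
      (Hm b B 1 B u v * Hm b B 1 B u v * Hm b B 1 B u v).trace := by
  have e := chi_upd hB hB huv hk hk
  rw [Matrix.trace_mul_comm (Hm b B B B u v)] at e
  change chi (upd b B u v) (upd b B u v) - chi B B = _
  rw [e]
  ring

theorem t4_upd {b : ℝ} {B : Matrix ι ι ℝ} (hB : B.IsSymm) {u v : ι} (huv : u ≠ v)
    (hk : (b - B u v) ^ 2 - B u u * B v v ≠ 0) :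
    t4 (upd b B u v) - t4 B =
      4 * (Hm b B (B * B * B) B u v).trace + 4 * (Hm b B 1 B u v * Hm b B (B * B) B u v).trace +
      2 * (Hm b B B B u v * Hm b B B B u v).trace +
      4 * (Hm b B 1 B u v * Hm b B 1 B u v * Hm b B B B u v).trace +
      (Hm b B 1 B u v * Hm b B 1 B u v * Hm b B 1 B u v * Hm b B 1 B u v).trace := by
  have e : t4 (upd b B u v) =
      (trace_hat b B u v * trace_Q u v * (trace_hat b B u v * trace_Q u v) *
        (trace_hat b B u v * trace_Q u v) * (trace_hat b B u v * trace_Q u v)).trace := by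
    rw [t4, trace_upd_eq b hB]
    simp only [Matrix.mul_assoc]
    rw [Matrix.trace_mul_comm]
    simp only [Matrix.mul_assoc, trace_QQ, trace_QQ']
  rw [e, trace_hat_Q hB huv hk, t4, trace_exp4]
  simp only [trace_Hm, Matrix.mul_one]

/-- The diagonal of the square after the update.  With `a_k = (B k u, B k v)`, `z = K a_k`,
`β'_k = ‖B̂ e_k‖² - B̂_ku² - B̂_kv²`, and `Uᵀ B̂ e_k = (1 + S K) a_k = b X K a_k`. -/
theorem bet_upd {b : ℝ} {B : Matrix ι ι ℝ} (hB : B.IsSymm) {u v : ι} (huv : u ≠ v)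
    (hk : (b - B u v) ^ 2 - B u u * B v v ≠ 0) {k : ι} (hku : k ≠ u) (hkv : k ≠ v) (z₁ z₂ : ℝ)
    (hz₁ : z₁ = kap b B u v * (B v v * B k u + (b - B u v) * B k v))
    (hz₂ : z₂ = kap b B u v * ((b - B u v) * B k u + B u u * B k v)) :
    bet (upd b B u v) k = bet B k + 2 * ((B * B) k u * z₁ + (B * B) k v * z₂) +
      (bet B u - b ^ 2) * z₁ ^ 2 + (bet B v - b ^ 2) * z₂ ^ 2 + 2 * (B * B) u v * z₁ * z₂ := by
  have h : kap b B u v * ((b - B u v) ^ 2 - B u u * B v v) = 1 := by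
    rw [kap]; field_simp
  have hu : B k u + z₁ * B u u + z₂ * B u v = b * z₂ := by
    rw [hz₁, hz₂]; linear_combination (- B k u) * h
  have hv : B k v + z₁ * B v u + z₂ * B v v = b * z₁ := by
    rw [hz₁, hz₂, hB.apply u v]; linear_combination (- B k v) * h
  have e1 : ∀ l, upd b B u v k l * upd b B u v l k = (B k l + z₁ * B l u + z₂ * B l v) ^ 2 -
      (if l = u then (b * z₂) ^ 2 else 0) - (if l = v then (b * z₁) ^ 2 else 0) := fun l => by
    rw [(upd_symm b hB u v).apply k l, upd, Matrix.of_apply]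
    by_cases h1 : l = u
    · subst h1
      rw [if_pos (by tauto), if_pos rfl, if_neg huv, hu]; ring
    · by_cases h2 : l = v
      · subst h2
        rw [if_pos (by tauto), if_neg h1, if_pos rfl, hv]; ring
      · rw [if_neg (by tauto), if_neg h1, if_neg h2, hz₁, hz₂]; ring
  have e2 : ∑ l, (B k l + z₁ * B l u + z₂ * B l v) ^ 2 = (B * B) k k +
      2 * ((B * B) k u * z₁ + (B * B) k v * z₂) + (B * B) u u * z₁ ^ 2 + (B * B) v v * z₂ ^ 2 +
      2 * (B * B) u v * z₁ * z₂ := by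
    simp only [Matrix.mul_apply, Finset.sum_mul, Finset.mul_sum, mul_add, ← Finset.sum_add_distrib]
    refine Finset.sum_congr rfl fun l _ => ?_
    rw [hB.apply k l, hB.apply l u, hB.apply l v]
    ring
  rw [bet, Matrix.mul_apply]
  simp only [e1, Finset.sum_sub_distrib, e2, Finset.sum_ite_eq', Finset.mem_univ, if_true, bet]
  ring

theorem bet_upd_left (b : ℝ) (B : Matrix ι ι ℝ) (u v : ι) : bet (upd b B u v) u = 0 := by
  simp [bet, Matrix.mul_apply, upd]

theorem bet_upd_right (b : ℝ) (B : Matrix ι ι ℝ) (u v : ι) : bet (upd b B u v) v = 0 := by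
  simp [bet, Matrix.mul_apply, upd]

end Crest.Agent.R62
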