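import Crest.Agent.R62.Api
import Crest.Agent.R62.Trace

/-! R62/Chi, part 1: weighted `L²` norms of functions of a pair and the basic atoms. -/

set_option autoImplicit false
set_option linter.unusedSectionVars false
open Finset Matrix

namespace Crest.Agent.R62.ChiA

variable {ι : Type} [Fintype ι] [DecidableEq ι]

/-- symmetric weights with values in `[0, 2]` -/
structure Wg (w : ι → ι → ℝ) : Prop where
  nn : ∀ u v, 0 ≤ w u v
  le : ∀ u v, w u v ≤ 2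
  symm : ∀ u v, w u v = w v u

/-- weighted `L²` bound -/
def N2 (w f : ι → ι → ℝ) (A : ℝ) : Prop := 0 ≤ A ∧ Ea w (fun u v => f u v ^ 2) ≤ A ^ 2

section
variable {w f g : ι → ι → ℝ} {A B : ℝ}

theorem wg_one : Wg (fun _ _ : ι => (1 : ℝ)) := ⟨fun _ _ => zero_le_one, fun _ _ => one_le_two,
  fun _ _ => rfl⟩

theorem Ea_one (f : ι → ι → ℝ) : Ea (fun _ _ => 1) f = av f := av_congr fun _ _ => one_mul _

theorem Wg.mono (hw : Wg w) (h : ∀ u v, w u v ≠ 0 → f u v ≤ g u v) : Ea w f ≤ Ea w g := by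
  refine av_mono fun u v => ?_
  by_cases h0 : w u v = 0
  · simp [h0]
  · exact mul_le_mul_of_nonneg_left (h u v h0) (hw.nn u v)

theorem Wg.swap (hw : Wg w) (f : ι → ι → ℝ) : Ea w (fun u v => f v u) = Ea w f := by
  unfold Ea
  rw [← av_swap]
  exact av_congr fun u v => by rw [hw.symm]

theorem Wg.abs_le (hw : Wg w) (h : ∀ u v, w u v ≠ 0 → |f u v| ≤ g u v) : |Ea w f| ≤ Ea w g := by
  rw [_root_.abs_le]
  refine ⟨?_, hw.mono fun u v h0 => (le_abs_self _).trans (h u v h0)⟩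
  have := hw.mono (f := fun u v => (-1) * g u v) (g := f) fun u v h0 => by
    have := (_root_.abs_le.1 (h u v h0)).1
    linarith
  rw [Ea_const_mul] at this
  linarith

theorem N2.cs (hw : Wg w) (hf : N2 w f A) (hg : N2 w g B) :
    |Ea w fun u v => f u v * g u v| ≤ A * B := by
  have e : ∀ (f : ι → ι → ℝ), av (fun u v => (√(w u v) * f u v) ^ 2) =
      Ea w fun u v => f u v ^ 2 := fun f =>
    av_congr fun u v => by rw [mul_pow, Real.sq_sqrt (hw.nn u v)]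
  have := abs_av_cs (f := fun u v => √(w u v) * f u v) (g := fun u v => √(w u v) * g u v)
    hf.1 hg.1 (by rw [e]; exact hf.2) (by rw [e]; exact hg.2)
  convert this using 2
  exact av_congr fun u v => by
    rw [mul_mul_mul_comm, Real.mul_self_sqrt (hw.nn u v)]

theorem N2.cs' (hw : Wg w) (hf : N2 w f A) (hg : N2 w g B) :
    (Ea w fun u v => f u v * g u v) ≤ A * B := (le_abs_self _).trans (hf.cs hw hg)

theorem N2.add (hw : Wg w) (hf : N2 w f A) (hg : N2 w g B) :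
    N2 w (fun u v => f u v + g u v) (A + B) := by
  refine ⟨add_nonneg hf.1 hg.1, ?_⟩
  have h1 := hf.cs' hw hg
  have e : Ea w (fun u v => (f u v + g u v) ^ 2) = Ea w (fun u v => f u v ^ 2) +
      (2 * Ea w (fun u v => f u v * g u v) + Ea w (fun u v => g u v ^ 2)) := by
    rw [← Ea_const_mul, ← Ea_add, ← Ea_add]
    exact Ea_congr fun u v _ => by ring
  rw [e]
  nlinarith [hf.2, hg.2]

theorem N2.of_le (hw : Wg w) (hg : N2 w g A) (h : ∀ u v, w u v ≠ 0 → |f u v| ≤ g u v) :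
    N2 w f A :=
  ⟨hg.1, (hw.mono fun u v h0 => by
    rw [← sq_abs]; exact pow_le_pow_left₀ (abs_nonneg _) (h u v h0) 2).trans hg.2⟩

theorem N2.smul (hf : N2 w f A) {c : ℝ} (hc : 0 ≤ c) : N2 w (fun u v => c * f u v) (c * A) := by
  refine ⟨mul_nonneg hc hf.1, ?_⟩
  simp only [mul_pow]
  rw [Ea_const_mul]
  exact mul_le_mul_of_nonneg_left hf.2 (sq_nonneg _)

theorem N2.abs (hf : N2 w f A) : N2 w (fun u v => |f u v|) A := by
  refine ⟨hf.1, ?_⟩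
  simp only [sq_abs]
  exact hf.2

theorem N2.mono (hf : N2 w f A) (h : A ≤ B) : N2 w f B :=
  ⟨hf.1.trans h, hf.2.trans (pow_le_pow_left₀ hf.1 h 2)⟩

theorem N2.swap (hw : Wg w) (hf : N2 w f A) : N2 w (fun u v => f v u) A :=
  ⟨hf.1, by rw [hw.swap fun u v => f u v ^ 2]; exact hf.2⟩

theorem N2.of_av (hw : Wg w) {F : ι → ι → ℝ} (hF : ∀ u v, f u v ^ 2 ≤ F u v) (hA : 0 ≤ A)
    (h : av F ≤ A ^ 2) : N2 w f (2 * A) := by
  refine ⟨by linarith, ?_⟩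
  have h1 : Ea w (fun u v => f u v ^ 2) ≤ av fun u v => 2 * F u v :=
    av_mono fun u v => mul_le_mul (hw.le u v) (hF u v) (sq_nonneg _) zero_le_two
  rw [av_const_mul] at h1
  nlinarith [sq_nonneg A]

theorem N2.of_prod (hw : Wg w) (hr : 0 < rr ι) {p q : ι → ℝ} {a b : ℝ}
    (hF : ∀ u v, f u v ^ 2 ≤ p u * q v) (hp0 : ∀ u, 0 ≤ p u) (hq0 : ∀ u, 0 ≤ q u)
    (hp : ∑ u, p u ≤ a * rr ι) (hq : ∑ u, q u ≤ b * rr ι) (hA : 0 ≤ A) (h : a * b ≤ A ^ 2) :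
    N2 w f (2 * A) := by
  refine N2.of_av hw hF hA ?_
  rw [av_prod]
  have h1 : (∑ u, p u) / rr ι ≤ a := by rwa [div_le_iff₀ hr]
  have h2 : (∑ u, q u) / rr ι ≤ b := by rwa [div_le_iff₀ hr]
  have h3 : 0 ≤ (∑ u, p u) / rr ι := div_nonneg (sum_nonneg fun u _ => hp0 u) hr.le
  have h4 : 0 ≤ (∑ u, q u) / rr ι := div_nonneg (sum_nonneg fun u _ => hq0 u) hr.le
  exact (mul_le_mul h1 h2 h4 (h3.trans h1)).trans h

end

/-- moment bounds for the majorants `γ` of `β + 1` and `d` of `|δ|` -/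
structure Mom (γ d : ι → ℝ) (Λ ν s : ℝ) : Prop where
  r_eq : rr ι = s ^ 2
  L1 : 1 ≤ Λ
  Lν : Λ ≤ ν
  νs : ν ≤ s
  γ1 : ∀ u, 1 ≤ γ u
  γle : ∀ u, γ u ≤ 3 * Λ * s
  γ2 : ∑ u, γ u ^ 2 ≤ 10 * Λ * rr ι
  d0 : ∀ u, 0 ≤ d u
  dγ : ∀ u, d u ^ 2 ≤ 2 * γ u
  d2 : ∑ u, d u ^ 2 ≤ 4 * Λ

namespace Mom
variable {γ d : ι → ℝ} {Λ ν s : ℝ} (m : Mom γ d Λ ν s) {w : ι → ι → ℝ}
include m

theorem Λ0 : 0 < Λ := by linarith [m.L1]
theorem ν0 : 0 < ν := by linarith [m.L1, m.Lν]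
theorem s0 : 0 < s := by linarith [m.L1, m.Lν, m.νs]
theorem s1 : 1 ≤ s := by linarith [m.L1, m.Lν, m.νs]
theorem r0 : 0 < rr ι := by rw [m.r_eq]; exact pow_pos m.s0 2
theorem γ0 (u : ι) : 0 ≤ γ u := by linarith [m.γ1 u]
theorem dsq (u : ι) : d u ^ 2 ≤ 4 * Λ :=
  (single_le_sum (f := fun u => d u ^ 2) (fun _ _ => sq_nonneg _) (mem_univ u)).trans m.d2
theorem dle (u : ι) : d u ≤ 2 * Λ := by
  have h1 := m.dsq u
  have h2 := m.L1
  have h3 := m.d0 u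
  nlinarith

theorem sd2 : ∑ u, d u ^ 2 ≤ 4 * Λ / s ^ 2 * rr ι := by
  rw [m.r_eq, div_mul_cancel₀ _ (pow_pos m.s0 2).ne']
  exact m.d2

theorem sγ3 : ∑ u, γ u ^ 3 ≤ 30 * Λ ^ 2 * s * rr ι := by
  have h0 := m.Λ0
  have h1 := m.s0
  calc ∑ u, γ u ^ 3 ≤ ∑ u, 3 * Λ * s * γ u ^ 2 := sum_le_sum fun u _ => by
        rw [pow_succ' (γ u) 2]
        exact mul_le_mul_of_nonneg_right (m.γle u) (sq_nonneg _)
    _ = 3 * Λ * s * ∑ u, γ u ^ 2 := (mul_sum _ _ _).symm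
    _ ≤ 3 * Λ * s * (10 * Λ * rr ι) := mul_le_mul_of_nonneg_left m.γ2 (by positivity)
    _ = _ := by ring

theorem sγ4 : ∑ u, γ u ^ 4 ≤ 90 * Λ ^ 3 * s ^ 2 * rr ι := by
  have h0 := m.Λ0
  have h1 := m.s0
  calc ∑ u, γ u ^ 4 ≤ ∑ u, 3 * Λ * s * γ u ^ 3 := sum_le_sum fun u _ => by
        rw [pow_succ' (γ u) 3]
        exact mul_le_mul_of_nonneg_right (m.γle u) (pow_nonneg (m.γ0 u) 3)
    _ = 3 * Λ * s * ∑ u, γ u ^ 3 := (mul_sum _ _ _).symm
    _ ≤ 3 * Λ * s * (30 * Λ ^ 2 * s * rr ι) := mul_le_mul_of_nonneg_left m.sγ3 (by positivity)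
    _ = _ := by ring

theorem sd2γ : ∑ u, d u ^ 2 * γ u ≤ 12 * Λ ^ 2 / s * rr ι := by
  have h0 := m.Λ0
  have h1 := m.s0
  calc ∑ u, d u ^ 2 * γ u ≤ ∑ u, d u ^ 2 * (3 * Λ * s) := sum_le_sum fun u _ =>
        mul_le_mul_of_nonneg_left (m.γle u) (sq_nonneg _)
    _ = (∑ u, d u ^ 2) * (3 * Λ * s) := (sum_mul _ _ _).symm
    _ ≤ 4 * Λ * (3 * Λ * s) := mul_le_mul_of_nonneg_right m.d2 (by positivity)
    _ = _ := by rw [m.r_eq]; field_simp; ring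

theorem sd2γ2 : ∑ u, d u ^ 2 * γ u ^ 2 ≤ 40 * Λ ^ 2 * rr ι := by
  have h0 := m.Λ0
  calc ∑ u, d u ^ 2 * γ u ^ 2 ≤ ∑ u, 4 * Λ * γ u ^ 2 := sum_le_sum fun u _ =>
        mul_le_mul_of_nonneg_right (m.dsq u) (sq_nonneg _)
    _ = 4 * Λ * ∑ u, γ u ^ 2 := (mul_sum _ _ _).symm
    _ ≤ 4 * Λ * (10 * Λ * rr ι) := mul_le_mul_of_nonneg_left m.γ2 (by positivity)
    _ = _ := by ring

theorem sd4 : ∑ u, d u ^ 4 ≤ 16 * Λ ^ 2 / s ^ 2 * rr ι := by
  have h0 := m.Λ0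
  have h1 := m.s0
  calc ∑ u, d u ^ 4 ≤ ∑ u, 4 * Λ * d u ^ 2 := sum_le_sum fun u _ => by
        rw [show d u ^ 4 = d u ^ 2 * d u ^ 2 by ring]
        exact mul_le_mul_of_nonneg_right (m.dsq u) (sq_nonneg _)
    _ = 4 * Λ * ∑ u, d u ^ 2 := (mul_sum _ _ _).symm
    _ ≤ 4 * Λ * (4 * Λ) := mul_le_mul_of_nonneg_left m.d2 (by positivity)
    _ = _ := by rw [m.r_eq]; field_simp; ring

variable (hw : Wg w)
include hw

theorem aγγ : N2 w (fun u v => γ u * γ v) (20 * Λ) := by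
  have h0 := m.Λ0
  have := N2.of_prod (f := fun u v => γ u * γ v) hw m.r0 (A := 10 * Λ)
    (fun u v => (mul_pow _ _ _).le) (fun _ => sq_nonneg _) (fun _ => sq_nonneg _) m.γ2 m.γ2
    (by positivity) (by ring_nf; rfl)
  exact this.mono (by linarith)

theorem aγd : N2 w (fun u v => γ u * d v) (14 * (Λ / s)) := by
  have h0 := m.Λ0
  have h1 := m.s0
  have := N2.of_prod (f := fun u v => γ u * d v) hw m.r0 (A := 7 * (Λ / s))
    (fun u v => (mul_pow _ _ _).le) (fun _ => sq_nonneg _) (fun _ => sq_nonneg _) m.γ2 m.sd2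
    (by positivity) (by
      have : 10 * Λ * (4 * Λ / s ^ 2) = 40 * (Λ / s) ^ 2 := by field_simp; ring
      rw [this, mul_pow]
      gcongr; norm_num)
  exact this.mono (by linarith)

theorem aγ2d2 : N2 w (fun u v => γ u ^ 2 * d v ^ 2) (76 * Λ ^ 3) := by
  have h0 := m.Λ0
  have h1 := m.s0
  have h2 := m.L1
  have := N2.of_prod (f := fun u v => γ u ^ 2 * d v ^ 2) hw m.r0 (A := 38 * Λ ^ 3)
    (p := fun u => γ u ^ 4) (q := fun u => d u ^ 4)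
    (fun u v => le_of_eq (by ring)) (fun _ => by positivity) (fun _ => by positivity) m.sγ4 m.sd4
    (by positivity) (by
      have : 90 * Λ ^ 3 * s ^ 2 * (16 * Λ ^ 2 / s ^ 2) = 1440 * Λ ^ 5 := by field_simp; ring
      rw [this]
      have h5 : Λ ^ 5 ≤ Λ ^ 6 := pow_le_pow_right₀ h2 (by norm_num)
      have h6 : 0 ≤ Λ ^ 6 := by positivity
      calc 1440 * Λ ^ 5 ≤ 1444 * Λ ^ 6 := by linarith
        _ = _ := by ring)
  exact this.mono (by linarith)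

theorem aM {M : ι → ι → ℝ} {μ : ℝ} (hμ : 0 ≤ μ) (h : fro M ≤ μ ^ 2) :
    N2 w (fun u v => |M u v|) (2 * (μ / s ^ 2)) := by
  have h1 := m.s0
  refine N2.abs (N2.of_av hw (fun u v => le_rfl) (by positivity) ?_)
  rw [av_sq_eq_fro, m.r_eq, div_pow]
  gcongr

theorem azγ {P : ι → ι → ℝ} (hP : ∀ u v, P u v ^ 2 ≤ γ u * γ v) :
    N2 w (fun u v => d v * |P u v| * γ u) (38 * Λ ^ 2) := by
  have h0 := m.Λ0
  have h1 := m.s0
  have := N2.of_prod (f := fun u v => d v * |P u v| * γ u) hw m.r0 (A := 19 * Λ ^ 2)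
    (p := fun u => γ u ^ 3) (q := fun u => d u ^ 2 * γ u)
    (fun u v => by
      rw [mul_pow, mul_pow, sq_abs]
      calc d v ^ 2 * P u v ^ 2 * γ u ^ 2 ≤ d v ^ 2 * (γ u * γ v) * γ u ^ 2 := by
            gcongr; exact hP u v
        _ = _ := by ring)
    (fun u => pow_nonneg (m.γ0 u) 3) (fun u => mul_nonneg (sq_nonneg _) (m.γ0 u)) m.sγ3 m.sd2γ
    (by positivity) (by
      have : 30 * Λ ^ 2 * s * (12 * Λ ^ 2 / s) = 360 * (Λ ^ 2) ^ 2 := by field_simp; ring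
      rw [this, mul_pow]
      gcongr; norm_num)
  exact this.mono (by linarith)

theorem azd {P : ι → ι → ℝ} (hP : ∀ u v, P u v ^ 2 ≤ γ u * γ v) :
    N2 w (fun u v => d v * |P u v| * d u) (24 * (Λ ^ 2 / s)) := by
  have h0 := m.Λ0
  have h1 := m.s0
  have := N2.of_prod (f := fun u v => d v * |P u v| * d u) hw m.r0 (A := 12 * (Λ ^ 2 / s))
    (p := fun u => d u ^ 2 * γ u) (q := fun u => d u ^ 2 * γ u)
    (fun u v => by
      rw [mul_pow, mul_pow, sq_abs]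
      calc d v ^ 2 * P u v ^ 2 * d u ^ 2 ≤ d v ^ 2 * (γ u * γ v) * d u ^ 2 := by
            gcongr; exact hP u v
        _ = _ := by ring)
    (fun u => mul_nonneg (sq_nonneg _) (m.γ0 u)) (fun u => mul_nonneg (sq_nonneg _) (m.γ0 u))
    m.sd2γ m.sd2γ (by positivity) (le_of_eq (by ring))
  exact this.mono (by linarith)

theorem azz {P P' : ι → ι → ℝ} (hP : ∀ u v, P u v ^ 2 ≤ γ u * γ v)
    (hP' : ∀ u v, P' u v ^ 2 ≤ γ u * γ v) :
    N2 w (fun u v => d v * |P u v| * (d u * |P' v u|)) (80 * Λ ^ 2) := by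
  have h0 := m.Λ0
  have := N2.of_prod (f := fun u v => d v * |P u v| * (d u * |P' v u|)) hw m.r0 (A := 40 * Λ ^ 2)
    (p := fun u => d u ^ 2 * γ u ^ 2) (q := fun u => d u ^ 2 * γ u ^ 2)
    (fun u v => by
      rw [mul_pow, mul_pow, mul_pow, sq_abs, sq_abs]
      have := m.γ0 u
      have := m.γ0 v
      calc d v ^ 2 * P u v ^ 2 * (d u ^ 2 * P' v u ^ 2)
          ≤ d v ^ 2 * (γ u * γ v) * (d u ^ 2 * (γ v * γ u)) := by
            gcongr
            · exact hP u v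
            · exact hP' v u
        _ = _ := by ring)
    (fun u => by positivity) (fun u => by positivity)
    m.sd2γ2 m.sd2γ2 (by positivity) (le_of_eq (by ring))
  exact this.mono (by linarith)

end Mom

end Crest.Agent.R62.ChiA
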