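import Crest.Agent.R62.ChiAux1

/-! R62/Chi, part 2: the entries of the `2 × 2` matrices `Hm` and their pointwise bounds. -/

set_option autoImplicit false
set_option linter.unusedSectionVars false
open Finset Matrix

namespace Crest.Agent.R62.ChiA

variable {ι : Type} [Fintype ι] [DecidableEq ι]

/-! ### real inequalities -/

section real
variable {κ k b δ d e p q p' q' : ℝ}

theorem F0 (h1 : 0 < κ) (h2 : κ ≤ 11 / 10) (hb : |b| ≤ 2) (hδ : |δ| ≤ d) :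
    |κ * δ * (p - b * q)| ≤ 2 * d * (|p| + 2 * |q|) := by
  have h3 : |p - b * q| ≤ |p| + 2 * |q| := by
    refine (abs_sub _ _).trans ?_
    rw [abs_mul]
    gcongr
  rw [abs_mul, abs_mul, abs_of_pos h1]
  have hd : 0 ≤ d := (abs_nonneg _).trans hδ
  gcongr
  linarith

theorem F1 (h1 : 0 < κ) (h2 : κ ≤ 11 / 10) (hk : |k| ≤ 11 / 10) (hb : |b| ≤ 2) (hδ : |δ| ≤ d) :
    |κ * δ * (p - b * q) + k * (p' - b * q')| ≤
      2 * d * (|p| + 2 * |q|) + 2 * (|p'| + 2 * |q'|) := by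
  refine (abs_add_le _ _).trans (add_le_add (F0 h1 h2 hb hδ) ?_)
  have h3 : |p' - b * q'| ≤ |p'| + 2 * |q'| := by
    refine (abs_sub _ _).trans ?_
    rw [abs_mul]
    gcongr
  rw [abs_mul]
  gcongr
  linarith

theorem F2 (h1 : 0 < κ) (h2 : κ ≤ 11 / 10) (hk : |k| ≤ 11 / 10) (hb : |b| ≤ 2) (hδ : |δ| ≤ d)
    (hk' : |k - 1 / b| ≤ 14 * e) :
    |κ * δ * (p - b * q) + k * (p' - b * q') - p' / b| ≤
      2 * d * (|p| + 2 * |q|) + (14 * e * |p'| + 4 * |q'|) := by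
  have e1 : κ * δ * (p - b * q) + k * (p' - b * q') - p' / b =
      κ * δ * (p - b * q) + ((k - 1 / b) * p' - k * b * q') := by ring
  rw [e1]
  refine (abs_add_le _ _).trans (add_le_add (F0 h1 h2 hb hδ) ((abs_sub _ _).trans
    (add_le_add ?_ ?_)))
  · rw [abs_mul]; gcongr
  · rw [abs_mul, abs_mul]
    gcongr
    calc |k| * |b| ≤ 11 / 10 * 2 := by gcongr
      _ ≤ 4 := by norm_num

theorem F3 (h1 : 0 < κ) (h2 : κ ≤ 11 / 10) (hb1 : 1 ≤ |b|) (hb : |b| ≤ 2) (hδ : |δ| ≤ d)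
    (hκ : |κ - 1 / b ^ 2| ≤ 6 * e) (hk' : |k - 1 / b| ≤ 14 * e) :
    |κ * δ * (p - b * q) + k * (p' - b * q') - (δ * p / b ^ 2 + p' / b - q')| ≤
      6 * e * (d * |p|) + 4 * (d * |q|) + 14 * e * (|p'| + 2 * |q'|) := by
  have hb0 : b ≠ 0 := by
    rintro rfl
    norm_num at hb1
  have hd : 0 ≤ d := (abs_nonneg _).trans hδ
  have he : 0 ≤ e := by linarith [abs_nonneg (κ - 1 / b ^ 2)]
  have e1 : κ * δ * (p - b * q) + k * (p' - b * q') - (δ * p / b ^ 2 + p' / b - q') =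
      (κ - 1 / b ^ 2) * (δ * p) - κ * b * (δ * q) + (k - 1 / b) * (p' - b * q') := by
    field_simp; ring
  rw [e1]
  have h3 : |p' - b * q'| ≤ |p'| + 2 * |q'| := by
    refine (abs_sub _ _).trans ?_
    rw [abs_mul]
    gcongr
  refine (abs_add_le _ _).trans (add_le_add ((abs_sub _ _).trans (add_le_add ?_ ?_)) ?_)
  · rw [abs_mul, abs_mul]; gcongr
  · rw [abs_mul, abs_mul, abs_mul, abs_of_pos h1]
    gcongr
    calc κ * |b| ≤ 11 / 10 * 2 := by gcongr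
      _ ≤ 4 := by norm_num
  · rw [abs_mul]; gcongr

theorem abs_div_le' {x : ℝ} (hb1 : 1 ≤ |b|) : |x / b| ≤ |x| := by
  rw [abs_div]; exact div_le_self (abs_nonneg _) hb1

end real

/-- the diagonal entry `Hm 0 0` -/
noncomputable def xx (b : ℝ) (B P Q : Matrix ι ι ℝ) (u v : ι) : ℝ :=
  kap b B u v * B v v * (P u u - b * Q v u) + kap b B u v * (b - B u v) * (P v u - b * Q u u)

/-- the off-diagonal entry `Hm 0 1` -/
noncomputable def yy (b : ℝ) (B P Q : Matrix ι ι ℝ) (u v : ι) : ℝ :=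
  kap b B u v * B v v * (P u v - b * Q v v) + kap b B u v * (b - B u v) * (P v v - b * Q u v)

def ee (B : Matrix ι ι ℝ) (u v : ι) : ℝ := |B u v| + |B u u * B v v|

theorem kap_swap {B : Matrix ι ι ℝ} (hB : B.IsSymm) (b : ℝ) (u v : ι) :
    kap b B v u = kap b B u v := by
  unfold kap; rw [hB.apply u v, mul_comm]

theorem H00 (b : ℝ) (B w B' : Matrix ι ι ℝ) (u v : ι) :
    Hm b B w B' u v 0 0 = xx b B (B * w * B') (w * B') u v := Hm_00 ..

theorem H01 (b : ℝ) (B w B' : Matrix ι ι ℝ) (u v : ι) :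
    Hm b B w B' u v 0 1 = yy b B (B * w * B') (w * B') u v := Hm_01 ..

theorem H10 (b : ℝ) {B : Matrix ι ι ℝ} (hB : B.IsSymm) (w B' : Matrix ι ι ℝ) (u v : ι) :
    Hm b B w B' u v 1 0 = yy b B (B * w * B') (w * B') v u := by
  rw [Hm_10, yy, kap_swap hB b u v, hB.apply u v]; ring

theorem H11 (b : ℝ) {B : Matrix ι ι ℝ} (hB : B.IsSymm) (w B' : Matrix ι ι ℝ) (u v : ι) :
    Hm b B w B' u v 1 1 = xx b B (B * w * B') (w * B') v u := by
  rw [Hm_11, xx, kap_swap hB b u v, hB.apply u v]; ring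

/-- the properties of one matrix that are used below -/
structure Dom (ω : ι → ι → ℝ) (γ d : ι → ℝ) (ν s : ℝ) (B : Matrix ι ι ℝ) (b : ℝ) : Prop where
  symm : B.IsSymm
  row : ∀ k, ∑ l, B k l = b
  b1 : 1 ≤ |b|
  b2 : |b| ≤ 2
  op : OpLe B ν
  t4 : t4 B ≤ ν ^ 4
  fro : fro B ≤ (2 * s) ^ 2
  bγ : ∀ u, bet B u ≤ γ u
  δd : ∀ u, |B u u| ≤ d u
  c1 : ∀ u v, ω u v ≠ 0 → |B u v| ≤ 1
  k : ∀ u v, ω u v ≠ 0 → 0 < kap b B u v ∧ kap b B u v ≤ 11 / 10 ∧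
    |kap b B u v - 1 / b ^ 2| ≤ 6 * ee B u v ∧ |kap b B u v * (b - B u v) - 1 / b| ≤ 14 * ee B u v ∧
    |kap b B u v * (b - B u v)| ≤ 11 / 10
  ne : N2 ω (ee B) (8 / s)

variable {ω : ι → ι → ℝ} {γ d : ι → ℝ} {Λ ν s : ℝ} {B B' A A' : Matrix ι ι ℝ} {b b' a a' : ℝ}

theorem ee_nonneg (B : Matrix ι ι ℝ) (u v : ι) : 0 ≤ ee B u v := by unfold ee; positivity

theorem Dom.P2sq (h : Dom ω γ d ν s B b) (h' : Dom ω γ d ν s B' b') (u v : ι) :
    (B * B') u v ^ 2 ≤ γ u * γ v :=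
  (mul_sq_le h.symm h'.symm u v).trans (mul_le_mul (h.bγ u) (h'.bγ v) (bet_nonneg h'.symm v)
    ((bet_nonneg h.symm u).trans (h.bγ u)))

theorem Dom.P2d (h : Dom ω γ d ν s B b) (h' : Dom ω γ d ν s B' b') (u : ι) :
    |(B * B') u u| ≤ γ u :=
  abs_le_of_sq_le_sq' (by rw [sq (γ u)]; exact h.P2sq h' u u)
    ((bet_nonneg h.symm u).trans (h.bγ u)) |> abs_le.2

theorem Dom.P2f (h : Dom ω γ d ν s B b) (h' : Dom ω γ d ν s B' b') :
    R62.fro (B * B') ≤ (ν ^ 2) ^ 2 := by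
  rw [← pow_mul]; exact fro_mul_le h.symm h'.symm h.t4 h'.t4

theorem Dom.Pd (h : Dom ω γ d ν s B b) (h' : Dom ω γ d ν s B' b') {M : Matrix ι ι ℝ} {μ : ℝ}
    (h0 : 0 ≤ μ) (hM : OpLe M μ) (u : ι) : |(B * M * B') u u| ≤ μ * γ u := by
  refine (word_diag_le' h.symm h'.symm h0 hM u).trans ?_
  have := mul_le_mul_of_nonneg_left (add_le_add (h.bγ u) (h'.bγ u)) h0
  linarith

theorem Dom.P3f (h : Dom ω γ d ν s B b) (hA : Dom ω γ d ν s A a) (h' : Dom ω γ d ν s B' b') :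
    R62.fro (B * A * B') ≤ (ν ^ 3) ^ 2 := by
  refine (fro_mul_right h'.op).trans ?_
  calc ν ^ 2 * R62.fro (B * A) ≤ ν ^ 2 * (ν ^ 2) ^ 2 :=
        mul_le_mul_of_nonneg_left (h.P2f hA) (sq_nonneg _)
    _ = _ := by ring

theorem Dom.P4f (h : Dom ω γ d ν s B b) (hA : Dom ω γ d ν s A a) (hA' : Dom ω γ d ν s A' a')
    (h' : Dom ω γ d ν s B' b') : R62.fro (B * (A * A') * B') ≤ (ν ^ 4) ^ 2 := by
  refine (fro_mul_right h'.op).trans ?_
  rw [← Matrix.mul_assoc]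
  calc ν ^ 2 * R62.fro (B * A * A') ≤ ν ^ 2 * (ν ^ 3) ^ 2 :=
        mul_le_mul_of_nonneg_left (h.P3f hA hA') (sq_nonneg _)
    _ = _ := by ring

theorem abs_trace_mul_le {M N : Matrix ι ι ℝ} {μ : ℝ} (h0 : 0 ≤ μ) (hM : fro M ≤ μ ^ 2)
    (hN : fro N ≤ μ ^ 2) : |(M * N).trace| ≤ μ ^ 2 := by
  rw [trace_mul_eq, ← sum_product']
  have h1 := sum_mul_sq_le_sq_mul_sq (univ ×ˢ univ) (fun x : ι × ι => M x.1 x.2)
    (fun x : ι × ι => N x.2 x.1)
  have h2 : ∑ x ∈ (univ ×ˢ univ : Finset (ι × ι)), M x.1 x.2 ^ 2 = fro M := by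
    rw [sum_product]; rfl
  have h3 : ∑ x ∈ (univ ×ˢ univ : Finset (ι × ι)), N x.2 x.1 ^ 2 = fro N := by
    rw [sum_product, sum_comm]; rfl
  rw [h2, h3] at h1
  have h4 : 0 ≤ fro N := sum_nonneg fun _ _ => sum_nonneg fun _ _ => sq_nonneg _
  refine abs_le.2 (abs_le_of_sq_le_sq' (h1.trans ?_) (sq_nonneg _))
  rw [sq (μ ^ 2)]
  exact mul_le_mul hM hN h4 (sq_nonneg _)

theorem Dom.P4t (h : Dom ω γ d ν s B b) (hA : Dom ω γ d ν s A a) (hA' : Dom ω γ d ν s A' a')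
    (h' : Dom ω γ d ν s B' b') : |(B * (A * A') * B').trace| ≤ ν ^ 4 := by
  rw [trace_mul_comm, ← Matrix.mul_assoc]
  have := abs_trace_mul_le (sq_nonneg ν) (h'.P2f h) (hA.P2f hA')
  rwa [← pow_mul] at this

/-! ### pointwise bounds -/

section pt
variable (m : Mom γ d Λ ν s) {u v : ι} (h0 : ω u v ≠ 0)
include m h0

theorem x2_le (hw : Wg ω) (h : Dom ω γ d ν s B b) (h' : Dom ω γ d ν s B' b') :
    |xx b B (B * B') B' u v| ≤ 6 * (γ u * d v) + (2 * |(B * B') v u| + 4 * d u) := by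
  obtain ⟨k1, k2, -, -, k5⟩ := h.k u v h0
  refine (F1 k1 k2 k5 h.b2 (h.δd v)).trans ?_
  have a1 := h.P2d h' u
  have a2 := h'.c1 v u (by rwa [← hw.symm])
  have a3 := h'.δd u
  have a4 := m.γ1 u
  have a5 := m.d0 v
  have : 2 * d v * (|(B * B') u u| + 2 * |B' v u|) ≤ 2 * d v * (3 * γ u) := by
    gcongr; linarith
  linarith

theorem x2_sq (hw : Wg ω) (h : Dom ω γ d ν s B b) (h' : Dom ω γ d ν s B' b') :
    xx b B (B * B') B' u v ^ 2 ≤ 108 * (γ u ^ 2 * d v ^ 2 + γ u * γ v) := by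
  have a1 := x2_le m h0 hw h h'
  have a2 := h.P2sq h' v u
  have a3 := m.dγ u
  have a4 : γ u ≤ γ u * γ v := le_mul_of_one_le_right (m.γ0 u) (m.γ1 v)
  rw [← sq_abs] at a2 ⊢
  refine (pow_le_pow_left₀ (abs_nonneg _) a1 2).trans ?_
  generalize |(B * B') v u| = z at *
  nlinarith [sq_nonneg (6 * (γ u * d v) - 2 * z), sq_nonneg (6 * (γ u * d v) - 4 * d u),
    sq_nonneg (2 * z - 4 * d u)]

theorem y2_le (h : Dom ω γ d ν s B b) (h' : Dom ω γ d ν s B' b') :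
    |yy b B (B * B') B' u v| ≤ 2 * (d v * |(B * B') u v|) + 14 * γ v := by
  obtain ⟨k1, k2, -, -, k5⟩ := h.k u v h0
  refine (F1 k1 k2 k5 h.b2 (h.δd v)).trans ?_
  have a1 := h.P2d h' v
  have a2 := h'.c1 u v h0
  have a3 := h'.δd v
  have a4 := m.γ1 v
  have a5 := m.d0 v
  have a6 := m.dγ v
  have : d v * |B' v v| ≤ d v * d v := by gcongr
  nlinarith

theorem y2_sub (h : Dom ω γ d ν s B b) (h' : Dom ω γ d ν s B' b') :
    |yy b B (B * B') B' u v - (B * B') v v / b| ≤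
      d v * (2 * |(B * B') u v| + 4 * d v) + (14 * ee B u v + 4 * |B' u v|) * γ v := by
  obtain ⟨k1, k2, -, k4, k5⟩ := h.k u v h0
  refine (F2 k1 k2 k5 h.b2 (h.δd v) k4).trans ?_
  have a1 := h.P2d h' v
  have a3 := h'.δd v
  have a4 := m.γ1 v
  have a5 := m.d0 v
  have a6 := ee_nonneg B u v
  have b1 : d v * |B' v v| ≤ d v * d v := by gcongr
  have b2 : ee B u v * |(B * B') v v| ≤ ee B u v * γ v := by gcongr
  have b3 : |B' u v| ≤ |B' u v| * γ v := le_mul_of_one_le_right (abs_nonneg _) a4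
  nlinarith

theorem x3_le (h : Dom ω γ d ν s B b) (hA : Dom ω γ d ν s A a) (h' : Dom ω γ d ν s B' b') :
    |xx b B (B * A * B') (A * B') u v| ≤ 2 * ν * (γ u * d v) + (8 * Λ * |(A * B') v u| +
      (2 * |(B * A * B') v u| + 4 * (γ u * γ v))) := by
  obtain ⟨k1, k2, -, -, k5⟩ := h.k u v h0
  refine (F1 k1 k2 k5 h.b2 (h.δd v)).trans ?_
  have a1 := h.Pd h' m.ν0.le hA.op u
  have a2 := hA.P2d h' u
  have a4 : γ u ≤ γ u * γ v := le_mul_of_one_le_right (m.γ0 u) (m.γ1 v)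
  have a5 := m.d0 v
  have a6 := m.dle v
  have b1 : d v * |(B * A * B') u u| ≤ d v * (ν * γ u) := by gcongr
  have b2 : d v * |(A * B') v u| ≤ 2 * Λ * |(A * B') v u| := by gcongr
  nlinarith

theorem y3_sub (h : Dom ω γ d ν s B b) (hA : Dom ω γ d ν s A a) (h' : Dom ω γ d ν s B' b') :
    |yy b B (B * A * B') (A * B') u v - (B * A * B') v v / b| ≤
      d v * (2 * |(B * A * B') u v| + 4 * (γ u * γ v)) +
      γ v * (14 * ν * ee B u v + 4 * |(A * B') u v|) := by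
  obtain ⟨k1, k2, -, k4, k5⟩ := h.k u v h0
  refine (F2 k1 k2 k5 h.b2 (h.δd v) k4).trans ?_
  have a1 := h.Pd h' m.ν0.le hA.op v
  have a2 := hA.P2d h' v
  have a4 : γ v ≤ γ u * γ v := le_mul_of_one_le_left (m.γ0 v) (m.γ1 u)
  have a5 := m.d0 v
  have a6 := ee_nonneg B u v
  have b1 : d v * |(A * B') v v| ≤ d v * (γ u * γ v) := by gcongr; exact a2.trans a4
  have b2 : ee B u v * |(B * A * B') v v| ≤ ee B u v * (ν * γ v) := by gcongr
  have b3 : |(A * B') u v| ≤ γ v * |(A * B') u v| := le_mul_of_one_le_left (abs_nonneg _) (m.γ1 v)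
  nlinarith

theorem x4_sub (h : Dom ω γ d ν s B b) (hA : Dom ω γ d ν s A a) (hA' : Dom ω γ d ν s A' a')
    (h' : Dom ω γ d ν s B' b') :
    |xx b B (B * (A * A') * B') (A * A' * B') u v -
      (B v v * (B * (A * A') * B') u u / b ^ 2 + (B * (A * A') * B') v u / b - (A * A' * B') u u)| ≤
      ee B u v * (6 * ν ^ 2 * (γ u * d v) + (14 * |(B * (A * A') * B') v u| +
        28 * ν * (γ u * γ v))) + 4 * (γ u * d v) * |(A * A' * B') v u| := by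
  obtain ⟨k1, k2, k3, k4, -⟩ := h.k u v h0
  refine (F3 k1 k2 h.b1 h.b2 (h.δd v) k3 k4).trans ?_
  have hν := m.ν0
  have a1 := h.Pd h' (by positivity) (hA.op.mul hA'.op) u
  have a2 := hA.Pd h' hν.le hA'.op u
  have a4 : γ u ≤ γ u * γ v := le_mul_of_one_le_right (m.γ0 u) (m.γ1 v)
  have a5 := m.d0 v
  have a6 := ee_nonneg B u v
  have a7 : d v ≤ γ u * d v := le_mul_of_one_le_left a5 (m.γ1 u)
  have b1 : ee B u v * (d v * |(B * (A * A') * B') u u|) ≤ ee B u v * (d v * (ν * ν * γ u)) := by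
    gcongr
  have b2 : d v * |(A * A' * B') v u| ≤ γ u * d v * |(A * A' * B') v u| := by gcongr
  have b3 : ee B u v * |(A * A' * B') u u| ≤ ee B u v * (ν * (γ u * γ v)) := by
    gcongr; exact a2.trans (mul_le_mul_of_nonneg_left a4 hν.le)
  nlinarith

end pt

end Crest.Agent.R62.ChiA
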