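import Crest.Agent.R62.ChiAux2

/-! R62/Chi, part 3: norms of the entries and the averages of the seven terms. -/

set_option autoImplicit false
set_option linter.unusedSectionVars false
set_option linter.unusedVariables false
open Finset Matrix

namespace Crest.Agent.R62.ChiA

variable {ι : Type} [Fintype ι] [DecidableEq ι]
variable {ω : ι → ι → ℝ} {γ d : ι → ℝ} {Λ ν s Ξ : ℝ} {B B' B'' C C' C'' A A' : Matrix ι ι ℝ}
  {b b' b'' c c' c'' a a' : ℝ}

/-- the error unit -/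
noncomputable def eta (Λ ν s : ℝ) : ℝ := ν ^ 4 / s ^ 3 + Λ ^ 3 * ν / s

theorem main_approx {f : ι → ι → ℝ} {A z : ℝ} (hz : N2 (fun _ _ => 1) (fun u v => ω u v - 1) z)
    (hf : N2 (fun _ _ => 1) f A) : |Ea ω f - av f| ≤ z * A := by
  have := hz.cs wg_one hf
  rw [Ea_one] at this
  rw [Ea_eq, add_sub_cancel_left]
  exact this

namespace Mom
variable (m : Mom γ d Λ ν s)
include m

theorem νs1 : ν / s ≤ 1 := (div_le_one m.s0).2 m.νs
theorem Λs : Λ / s ≤ ν / s := by have := m.s0; gcongr; exact m.Lν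
theorem ν2s : ν ^ 2 / s ^ 2 ≤ ν / s := by
  rw [← div_pow, sq]
  exact mul_le_of_le_one_left (div_pos m.ν0 m.s0).le m.νs1
theorem L2 : Λ ≤ Λ ^ 2 := by simpa using pow_le_pow_right₀ m.L1 (show 1 ≤ 2 by norm_num)
theorem L3 : Λ ^ 2 ≤ Λ ^ 3 := pow_le_pow_right₀ m.L1 (show 2 ≤ 3 by norm_num)
theorem e1 : ν ^ 4 / s ^ 3 ≤ eta Λ ν s := by
  have := m.Λ0; have := m.ν0; have := m.s0
  exact le_add_of_nonneg_right (by positivity)
theorem e2 : Λ ^ 3 * (ν / s) ≤ eta Λ ν s := by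
  have := m.Λ0; have := m.ν0; have := m.s0
  rw [← mul_div_assoc]
  exact le_add_of_nonneg_left (by positivity)
theorem e3 : Λ ^ 2 * (ν / s) ≤ eta Λ ν s :=
  (mul_le_mul_of_nonneg_right m.L3 (div_pos m.ν0 m.s0).le).trans m.e2
theorem e4 : Λ * (ν / s) ≤ eta Λ ν s :=
  (mul_le_mul_of_nonneg_right m.L2 (div_pos m.ν0 m.s0).le).trans m.e3
theorem e5 : Λ * ν ^ 3 / s ^ 3 ≤ eta Λ ν s := by
  refine le_trans ?_ m.e1
  have := m.Λ0; have := m.ν0; have := m.s0
  rw [pow_succ' ν 3]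
  gcongr
  exact m.Lν
theorem e6 : 1 / s ^ 2 ≤ eta Λ ν s := by
  refine le_trans ?_ m.e4
  have := m.Λ0; have := m.ν0; have h1 := m.s0
  have h2 : 1 / s ≤ Λ := ((div_le_one h1).2 m.s1).trans m.L1
  have h3 : 1 / s ≤ ν / s := by gcongr; linarith [m.L1, m.Lν]
  calc 1 / s ^ 2 = 1 / s * (1 / s) := by field_simp
    _ ≤ _ := by gcongr
theorem eta0 : 0 ≤ eta Λ ν s := le_trans (by have := m.s0; positivity) m.e6

variable (hw : Wg ω)
include hw

theorem nx2 (h : Dom ω γ d ν s B b) (h' : Dom ω γ d ν s B' b') :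
    N2 ω (xx b B (B * B') B') (144 * (ν / s)) := by
  have h1 := m.aγd hw
  have h2 := (m.aM hw (sq_nonneg ν) (h.P2f h')).swap hw
  have h3 : N2 ω (fun u v => d u) (14 * (Λ / s)) := (h1.swap hw).of_le hw fun u v _ => by
    rw [abs_of_nonneg (m.d0 u)]; exact le_mul_of_one_le_left (m.d0 u) (m.γ1 v)
  refine (N2.of_le hw ((h1.smul (c := 6) (by norm_num)).add hw ((h2.smul (c := 2)
    (by norm_num)).add hw (h3.smul (c := 4) (by norm_num)))) fun u v h0 =>
      x2_le m h0 hw h h').mono ?_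
  linarith [m.Λs, m.ν2s]

theorem nX : N2 ω (fun u v => 108 * (γ u ^ 2 * d v ^ 2 + γ u * γ v)) (10368 * Λ ^ 3) := by
  refine (((m.aγ2d2 hw).add hw (m.aγγ hw)).smul (by norm_num)).mono ?_
  linarith [m.L2, m.L3]

theorem nx2x2 (h : Dom ω γ d ν s B b) (h' : Dom ω γ d ν s B' b') (g : Dom ω γ d ν s C c)
    (g' : Dom ω γ d ν s C' c') :
    N2 ω (fun u v => xx b B (B * B') B' u v * xx c C (C * C') C' u v) (10368 * Λ ^ 3) := by
  refine N2.of_le hw (m.nX hw) fun u v h0 => ?_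
  have a1 := x2_sq m h0 hw h h'
  have a2 := x2_sq m h0 hw g g'
  rw [abs_le]
  constructor
  · nlinarith [sq_nonneg (xx b B (B * B') B' u v + xx c C (C * C') C' u v)]
  · nlinarith [sq_nonneg (xx b B (B * B') B' u v - xx c C (C * C') C' u v)]

theorem ny2d (h : Dom ω γ d ν s B b) (h' : Dom ω γ d ν s B' b') :
    N2 ω (fun u v => |yy b B (B * B') B' u v| * d u) (244 * (Λ ^ 2 / s)) := by
  have h1 := m.azd hw (h.P2sq h')
  have h2 := (m.aγd hw).swap hw
  refine (N2.of_le hw ((h1.smul (c := 2) (by norm_num)).add hw (h2.smul (c := 14)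
    (by norm_num))) fun u v h0 => ?_).mono ?_
  · rw [abs_mul, abs_abs, abs_of_nonneg (m.d0 u)]
    have := mul_le_mul_of_nonneg_right (y2_le m h0 h h') (m.d0 u)
    linarith
  · have : Λ / s ≤ Λ ^ 2 / s := by have := m.s0; gcongr; exact m.L2
    linarith

theorem ny2γ (h : Dom ω γ d ν s B b) (h' : Dom ω γ d ν s B' b') :
    N2 ω (fun u v => |yy b B (B * B') B' u v| * γ u) (356 * Λ ^ 2) := by
  have h1 := m.azγ hw (h.P2sq h')
  have h2 := m.aγγ hw
  refine (N2.of_le hw ((h1.smul (c := 2) (by norm_num)).add hw (h2.smul (c := 14)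
    (by norm_num))) fun u v h0 => ?_).mono ?_
  · rw [abs_mul, abs_abs, abs_of_nonneg (m.γ0 u)]
    have := mul_le_mul_of_nonneg_right (y2_le m h0 h h') (m.γ0 u)
    linarith
  · linarith [m.L2]

theorem ny2y2 (h : Dom ω γ d ν s B b) (h' : Dom ω γ d ν s B' b') (g : Dom ω γ d ν s C c)
    (g' : Dom ω γ d ν s C' c') :
    N2 ω (fun u v => yy b B (B * B') B' u v * yy c C (C * C') C' v u) (6368 * Λ ^ 2) := by
  have h1 := m.azz hw (h.P2sq h') (g.P2sq g')
  have h2 := m.azγ hw (h.P2sq h')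
  have h3 := (m.azγ hw (g.P2sq g')).swap hw
  have h4 := m.aγγ hw
  refine (N2.of_le hw ((h1.smul (c := 4) (by norm_num)).add hw ((h2.smul (c := 28)
    (by norm_num)).add hw ((h3.smul (c := 28) (by norm_num)).add hw (h4.smul (c := 196)
    (by norm_num))))) fun u v h0 => ?_).mono ?_
  · rw [abs_mul]
    have a1 := y2_le m h0 h h'
    have a2 := y2_le m (show ω v u ≠ 0 by rwa [← hw.symm]) g g'
    refine (mul_le_mul a1 a2 (abs_nonneg _) ((abs_nonneg _).trans a1)).trans (le_of_eq ?_)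
    ring
  · linarith [m.L2]

theorem nx3 (h : Dom ω γ d ν s B b) (hA : Dom ω γ d ν s A a) (h' : Dom ω γ d ν s B' b') :
    N2 ω (xx b B (B * A * B') (A * B')) (124 * (Λ + ν ^ 3 / s ^ 2)) := by
  have hΛ := m.Λ0
  have hν := m.ν0
  have hs := m.s0
  have h1 := m.aγd hw
  have h2 := (m.aM hw (sq_nonneg ν) (hA.P2f h')).swap hw
  have h3 := (m.aM hw (by positivity) (h.P3f hA h')).swap hw
  have h4 := m.aγγ hw
  refine (N2.of_le hw ((h1.smul (c := 2 * ν) (by positivity)).add hw ((h2.smul (c := 8 * Λ)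
    (by positivity)).add hw ((h3.smul (c := 2) (by norm_num)).add hw (h4.smul (c := 4)
    (by norm_num))))) fun u v h0 => x3_le m h0 h hA h').mono ?_
  have a1 : ν * (Λ / s) ≤ Λ := by
    rw [← mul_div_assoc, mul_comm, mul_div_assoc]
    exact mul_le_of_le_one_right hΛ.le m.νs1
  have a2 : Λ * (ν ^ 2 / s ^ 2) ≤ Λ := mul_le_of_le_one_right hΛ.le (m.ν2s.trans m.νs1)
  have a3 : 0 ≤ ν ^ 3 / s ^ 2 := by positivity
  nlinarith

/-! ### the averages -/

theorem Exxx (h : Dom ω γ d ν s B b) (h' : Dom ω γ d ν s B' b') (g : Dom ω γ d ν s C c)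
    (g' : Dom ω γ d ν s C' c') (k : Dom ω γ d ν s A a) (k' : Dom ω γ d ν s A' a') :
    |Ea ω fun u v => xx b B (B * B') B' u v *
      (xx c C (C * C') C' u v * xx a A (A * A') A' u v)| ≤ 1500000 * eta Λ ν s := by
  refine ((m.nx2 hw h h').cs hw (m.nx2x2 hw g g' k k')).trans ?_
  linarith [m.e2, m.eta0]

theorem Exyy {x : ι → ι → ℝ} (hx : N2 ω x (144 * (ν / s))) (g : Dom ω γ d ν s C c)
    (g' : Dom ω γ d ν s C' c') (k : Dom ω γ d ν s A a) (k' : Dom ω γ d ν s A' a') :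
    |Ea ω fun u v => x u v *
      (yy c C (C * C') C' u v * yy a A (A * A') A' v u)| ≤ 1500000 * eta Λ ν s := by
  refine (hx.cs hw (m.ny2y2 hw g g' k k')).trans ?_
  linarith [m.e3, m.eta0]

theorem Ex2x3 (h : Dom ω γ d ν s B b) (h' : Dom ω γ d ν s B' b') (g : Dom ω γ d ν s C c)
    (gA : Dom ω γ d ν s A a) (g' : Dom ω γ d ν s C' c') :
    |Ea ω fun u v => xx b B (B * B') B' u v * xx c C (C * A * C') (A * C') u v| ≤
      20000 * eta Λ ν s := by
  refine ((m.nx2 hw h h').cs hw (m.nx3 hw g gA g')).trans ?_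
  have hs := m.s0
  have : 144 * (ν / s) * (124 * (Λ + ν ^ 3 / s ^ 2)) =
      17856 * (Λ * (ν / s)) + 17856 * (ν ^ 4 / s ^ 3) := by field_simp; ring
  rw [this]
  have h1 : Λ * (ν / s) ≤ Λ ^ 3 * ν / s := by
    rw [mul_div_assoc]
    exact mul_le_mul_of_nonneg_right (m.L2.trans m.L3) (div_pos m.ν0 m.s0).le
  have h2 := m.eta0
  unfold eta at *
  linarith

theorem Ey2y3 (hΞ : 1 ≤ Ξ) (hz : N2 (fun _ _ => 1) (fun u v => ω u v - 1) (Ξ / s))
    (h : Dom ω γ d ν s B b) (h' : Dom ω γ d ν s B' b') (g : Dom ω γ d ν s C c)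
    (gA : Dom ω γ d ν s A a) (g' : Dom ω γ d ν s C' c') :
    |(Ea ω fun u v => yy b B (B * B') B' u v * yy c C (C * A * C') (A * C') v u) -
      (B * B').trace / rr ι / (b * c) * (C * A * C').trace / rr ι| ≤ 200000 * (Ξ * eta Λ ν s) := by
  have hΛ := m.Λ0
  have hν := m.ν0
  have hs := m.s0
  have hη := m.eta0
  set y₂ := yy b B (B * B') B'
  set y₃ := yy c C (C * A * C') (A * C')
  set f : ι → ι → ℝ := fun u v => (C * A * C') u u / c * ((B * B') v v / b) with hf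
  have e1 : av f = (B * B').trace / rr ι / (b * c) * (C * A * C').trace / rr ι := by
    rw [hf, av_prod, ← sum_div, ← sum_div]
    simp only [Matrix.trace, Matrix.diag]
    ring
  have n1 : N2 (fun _ _ => 1) f (ν * (20 * Λ)) := by
    refine N2.of_le wg_one ((m.aγγ wg_one).smul hν.le) fun u v _ => ?_
    simp only [hf]
    rw [abs_mul, ← mul_assoc]
    exact mul_le_mul ((abs_div_le' g.b1).trans (g.Pd g' hν.le gA.op u))
      ((abs_div_le' h.b1).trans (h.P2d h' v)) (abs_nonneg _) (mul_nonneg hν.le (m.γ0 u))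
  have a1 := main_approx hz n1
  have e2 : (Ea ω fun u v => y₂ u v * y₃ v u) = Ea ω f +
      Ea ω fun u v => y₂ u v * y₃ v u - f u v := by
    rw [← Ea_add]; exact Ea_congr fun u v _ => by ring
  -- the remainder
  have p1 := (m.aγd hw).cs' hw (((m.aM hw (sq_nonneg ν) (h.P2f h')).smul (c := 2)
    (by norm_num)).add hw (((m.aγd hw).of_le hw (f := fun u v => d v) fun u v _ => by
      rw [abs_of_nonneg (m.d0 v)]; exact le_mul_of_one_le_left (m.d0 v) (m.γ1 u)).smul (c := 4)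
        (by norm_num)))
  have p2 := ((h.ne.smul (c := 14) (by norm_num)).add hw ((m.aM hw (by positivity) h'.fro).smul
    (c := 4) (by norm_num))).cs' hw (m.aγγ hw)
  have p3 := (m.ny2d hw h h').cs' hw ((((m.aM hw (by positivity) (g.P3f gA g')).swap hw).smul
    (c := 2) (by norm_num)).add hw ((m.aγγ hw).smul (c := 4) (by norm_num)))
  have p4 := (m.ny2γ hw h h').cs' hw (((g.ne.swap hw).smul (c := 14 * ν) (by positivity)).add hw
    (((m.aM hw (sq_nonneg ν) (gA.P2f g')).swap hw).smul (c := 4) (by norm_num)))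
  have a2 := hw.abs_le (f := fun u v => y₂ u v * y₃ v u - f u v)
    (g := fun u v => ν * (γ u * d v * (2 * |(B * B') u v| + 4 * d v)) +
      (ν * ((14 * ee B u v + 4 * |B' u v|) * (γ u * γ v)) +
      (|y₂ u v| * d u * (2 * |(C * A * C') v u| + 4 * (γ u * γ v)) +
      |y₂ u v| * γ u * (14 * ν * ee C v u + 4 * |(A * C') v u|)))) fun u v h0 => by
    have b1 := y2_sub m h0 h h'
    have b2 := y3_sub m (show ω v u ≠ 0 by rwa [← hw.symm]) g gA g'
    have b3 : |(C * A * C') u u / c| ≤ ν * γ u :=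
      (abs_div_le' g.b1).trans (g.Pd g' hν.le gA.op u)
    have e : y₂ u v * y₃ v u - f u v = (C * A * C') u u / c * (y₂ u v - (B * B') v v / b) +
        y₂ u v * (y₃ v u - (C * A * C') u u / c) := by simp only [hf]; ring
    rw [e]
    refine (abs_add_le _ _).trans ?_
    rw [abs_mul, abs_mul]
    have c1 := mul_le_mul b3 b1 (abs_nonneg _) (mul_nonneg hν.le (m.γ0 u))
    have c2 := mul_le_mul_of_nonneg_left b2 (abs_nonneg (y₂ u v))
    refine (add_le_add c1 c2).trans (le_of_eq ?_)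
    ring
  rw [Ea_add, Ea_add, Ea_add, Ea_const_mul, Ea_const_mul] at a2
  have q1 := mul_le_mul_of_nonneg_left p1 hν.le
  have q2 := mul_le_mul_of_nonneg_left p2 hν.le
  have r1 : ν * (14 * (Λ / s) * (2 * (2 * (ν ^ 2 / s ^ 2)) + 4 * (14 * (Λ / s)))) ≤
      840 * eta Λ ν s := by
    have e : ν * (14 * (Λ / s) * (2 * (2 * (ν ^ 2 / s ^ 2)) + 4 * (14 * (Λ / s)))) =
        56 * (Λ * ν ^ 3 / s ^ 3) + 784 * (Λ ^ 2 * (ν / s) * (1 / s)) := by field_simp; ring
    have : Λ ^ 2 * (ν / s) * (1 / s) ≤ Λ ^ 2 * (ν / s) :=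
      mul_le_of_le_one_right (by positivity) ((div_le_one hs).2 m.s1)
    linarith [m.e5, m.e3]
  have r2 : ν * ((14 * (8 / s) + 4 * (2 * (2 * s / s ^ 2))) * (20 * Λ)) ≤ 2560 * eta Λ ν s := by
    have e : ν * ((14 * (8 / s) + 4 * (2 * (2 * s / s ^ 2))) * (20 * Λ)) =
        2560 * (Λ * (ν / s)) := by field_simp; ring
    linarith [m.e4]
  have r3 : 244 * (Λ ^ 2 / s) * (2 * (2 * (ν ^ 3 / s ^ 2)) + 4 * (20 * Λ)) ≤
      20496 * eta Λ ν s := by
    have e : 244 * (Λ ^ 2 / s) * (2 * (2 * (ν ^ 3 / s ^ 2)) + 4 * (20 * Λ)) =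
        976 * (Λ ^ 2 * (ν / s) * (ν ^ 2 / s ^ 2)) + 19520 * (Λ ^ 3 * (1 / s)) := by
      field_simp; ring
    have : Λ ^ 2 * (ν / s) * (ν ^ 2 / s ^ 2) ≤ Λ ^ 2 * (ν / s) :=
      mul_le_of_le_one_right (by positivity) (m.ν2s.trans m.νs1)
    have : Λ ^ 3 * (1 / s) ≤ Λ ^ 3 * (ν / s) := by gcongr; linarith [m.L1, m.Lν]
    linarith [m.e2, m.e3]
  have r4 : 356 * Λ ^ 2 * (14 * ν * (8 / s) + 4 * (2 * (ν ^ 2 / s ^ 2))) ≤
      42720 * eta Λ ν s := by
    have e : 356 * Λ ^ 2 * (14 * ν * (8 / s) + 4 * (2 * (ν ^ 2 / s ^ 2))) =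
        39872 * (Λ ^ 2 * (ν / s)) + 2848 * (Λ ^ 2 * (ν ^ 2 / s ^ 2)) := by
      field_simp; ring
    have : Λ ^ 2 * (ν ^ 2 / s ^ 2) ≤ Λ ^ 2 * (ν / s) :=
      mul_le_mul_of_nonneg_left m.ν2s (sq_nonneg _)
    linarith [m.e3]
  have r5 : Ξ / s * (ν * (20 * Λ)) ≤ 20 * (Ξ * eta Λ ν s) := by
    have e : Ξ / s * (ν * (20 * Λ)) = 20 * (Ξ * (Λ * (ν / s))) := by field_simp
    rw [e]
    gcongr
    exact m.e4
  have r6 : eta Λ ν s ≤ Ξ * eta Λ ν s := le_mul_of_one_le_left hη hΞ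
  rw [e2, ← e1, add_sub_right_comm]
  refine (abs_add_le _ _).trans ?_
  linarith

theorem Ex4 (hΞ : 1 ≤ Ξ) (hz : N2 (fun _ _ => 1) (fun u v => ω u v - 1) (Ξ / s))
    (h : Dom ω γ d ν s B b) (hA : Dom ω γ d ν s A a) (hA' : Dom ω γ d ν s A' a')
    (h' : Dom ω γ d ν s B' b') :
    |Ea ω (xx b B (B * (A * A') * B') (A * A' * B')) + (A * A' * B').trace / rr ι| ≤
      |t1 B| * ν ^ 4 / rr ι ^ 2 + 6000 * (Ξ * eta Λ ν s) := by
  have hΛ := m.Λ0
  have hν := m.ν0
  have hs := m.s0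
  have hη := m.eta0
  have hr := m.r0
  set P := B * (A * A') * B' with hP
  set Q := A * A' * B' with hQ
  set x := xx b B P Q
  set f : ι → ι → ℝ := fun u v => B v v * P u u / b ^ 2 + P v u / b - Q u u with hf
  have hrow : ∀ k, ∑ l, P k l = b * (a * a') * b' :=
    row_mul (row_mul h.row (row_mul hA.row hA'.row)) h'.row
  have e1 : av f = P.trace / rr ι * (t1 B / rr ι) / b ^ 2 + b * (a * a') * b' / b / rr ι -
      Q.trace / rr ι := by
    have e11 : av (fun u v => B v v * P u u / b ^ 2) = P.trace / rr ι * (t1 B / rr ι) / b ^ 2 := by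
      rw [av_congr (g := fun u v => P u u / b ^ 2 * B v v) fun u v => by ring, av_prod, ← sum_div]
      simp only [Matrix.trace, Matrix.diag, t1]
      ring
    have e12 : av (fun u v => P v u / b) = b * (a * a') * b' / b / rr ι := by
      rw [av_swap fun u v => P u v / b,
        av_congr (g := fun u v => 1 / b * P u v) fun u v => by ring, av_row hrow fun _ => 1 / b,
        sum_const, card_univ, nsmul_eq_mul]
      change _ * (rr ι * _) / _ = _
      field_simp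
    rw [hf, av_sub, av_add, e11, e12, av_left hr]
    rfl
  have hb2 : 1 ≤ |b ^ 2| := by rw [abs_pow]; exact one_le_pow₀ h.b1
  have n1 : N2 (fun _ _ => 1) f (ν ^ 2 * (14 * (Λ / s)) + (2 * (ν ^ 4 / s ^ 2) + ν * (20 * Λ))) := by
    refine N2.of_le wg_one (((m.aγd wg_one).smul (sq_nonneg ν)).add wg_one
      (((m.aM wg_one (by positivity) (h.P4f hA hA' h')).swap wg_one).add wg_one
      ((m.aγγ wg_one).smul hν.le))) fun u v _ => ?_
    simp only [hf]
    refine (abs_sub _ _).trans ((add_le_add_left (abs_add_le _ _) _).trans ?_)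
    rw [add_assoc]
    refine add_le_add ((abs_div_le' hb2).trans ?_) (add_le_add (abs_div_le' h.b1) ?_)
    · rw [abs_mul]
      refine (mul_le_mul (h.δd v) (h.Pd h' (by positivity) (hA.op.mul hA'.op) u) (abs_nonneg _)
        (m.d0 v)).trans (le_of_eq ?_)
      ring
    · exact (hA.Pd h' hν.le hA'.op u).trans (mul_le_mul_of_nonneg_left
        (le_mul_of_one_le_right (m.γ0 u) (m.γ1 v)) hν.le)
  have a1 := main_approx hz n1
  have e2 : Ea ω x = Ea ω f + Ea ω fun u v => x u v - f u v := by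
    rw [← Ea_add]; exact Ea_congr fun u v _ => by ring
  have p1 := h.ne.cs' hw (((m.aγd hw).smul (c := 6 * ν ^ 2) (by positivity)).add hw
    ((((m.aM hw (by positivity) (h.P4f hA hA' h')).swap hw).smul (c := 14) (by norm_num)).add hw
    ((m.aγγ hw).smul (c := 28 * ν) (by positivity))))
  have p2 := ((m.aγd hw).smul (c := 4) (by norm_num)).cs' hw
    ((m.aM hw (by positivity) (hA.P3f hA' h')).swap hw)
  have a2 := hw.abs_le (f := fun u v => x u v - f u v) fun u v h0 => x4_sub m h0 h hA hA' h'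
  rw [Ea_add] at a2
  have t1' : Λ * (ν / s) * (ν / s) ≤ Λ * (ν / s) := mul_le_of_le_one_right (by positivity) m.νs1
  have r1 : 8 / s * (6 * ν ^ 2 * (14 * (Λ / s)) + (14 * (2 * (ν ^ 4 / s ^ 2)) +
      28 * ν * (20 * Λ))) ≤ 5376 * eta Λ ν s := by
    have e : 8 / s * (6 * ν ^ 2 * (14 * (Λ / s)) + (14 * (2 * (ν ^ 4 / s ^ 2)) +
      28 * ν * (20 * Λ))) = 672 * (Λ * (ν / s) * (ν / s)) + 224 * (ν ^ 4 / s ^ 3) +
        4480 * (Λ * (ν / s)) := by field_simp; ring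
    linarith [m.e4, m.e1]
  have r2 : 4 * (14 * (Λ / s)) * (2 * (ν ^ 3 / s ^ 2)) ≤ 112 * eta Λ ν s := by
    have e : 4 * (14 * (Λ / s)) * (2 * (ν ^ 3 / s ^ 2)) = 112 * (Λ * ν ^ 3 / s ^ 3) := by
      field_simp; ring
    linarith [m.e5]
  have r3 : Ξ / s * (ν ^ 2 * (14 * (Λ / s)) + (2 * (ν ^ 4 / s ^ 2) + ν * (20 * Λ))) ≤
      36 * (Ξ * eta Λ ν s) := by
    have e : Ξ / s * (ν ^ 2 * (14 * (Λ / s)) + (2 * (ν ^ 4 / s ^ 2) + ν * (20 * Λ))) =
        Ξ * (14 * (Λ * (ν / s) * (ν / s)) + 2 * (ν ^ 4 / s ^ 3) + 20 * (Λ * (ν / s))) := by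
      field_simp; ring
    rw [e, mul_left_comm 36]
    exact mul_le_mul_of_nonneg_left (by linarith [m.e4, m.e1]) (by linarith)
  have r4 : |b * (a * a') * b' / b / rr ι| ≤ 16 * eta Λ ν s := by
    rw [abs_div, abs_of_pos hr, m.r_eq]
    have : |b * (a * a') * b' / b| ≤ 16 := by
      refine (abs_div_le' h.b1).trans ?_
      rw [abs_mul, abs_mul, abs_mul]
      calc |b| * (|a| * |a'|) * |b'| ≤ 2 * (2 * 2) * 2 := by
            gcongr
            exacts [h.b2, hA.b2, hA'.b2, h'.b2]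
        _ = 16 := by norm_num
    calc _ ≤ 16 / s ^ 2 := by gcongr
      _ = 16 * (1 / s ^ 2) := by ring
      _ ≤ _ := by linarith [m.e6]
  have r5 : |P.trace / rr ι * (t1 B / rr ι) / b ^ 2| ≤ |t1 B| * ν ^ 4 / rr ι ^ 2 := by
    refine (abs_div_le' hb2).trans ?_
    rw [abs_mul, abs_div, abs_div, abs_of_pos hr]
    calc _ ≤ ν ^ 4 / rr ι * (|t1 B| / rr ι) := by
          gcongr
          exact h.P4t hA hA' h'
      _ = _ := by field_simp
  have r6 : eta Λ ν s ≤ Ξ * eta Λ ν s := le_mul_of_one_le_left hη hΞ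
  have e3 : Ea ω x + Q.trace / rr ι = (Ea ω f - av f) + (Ea ω fun u v => x u v - f u v) +
      P.trace / rr ι * (t1 B / rr ι) / b ^ 2 + b * (a * a') * b' / b / rr ι := by
    rw [e2, e1]; ring
  rw [e3]
  refine (abs_add_le _ _).trans ((add_le_add_left (abs_add_three _ _ _) _).trans ?_)
  linarith

end Mom

end Crest.Agent.R62.ChiA
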