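import Crest.Agent.R62.Api
import Crest.Agent.R62.Trace

/-!
# R62/DD: one-sided drift of `dd` (TASK)

General method (notation: see `Defs`).  On the support of `ω` (`ω u v ≠ 0`) we have `u ≠ v` (`Wt.ne`),
`|c| ≤ ϑ`, `|δ_u δ_v| ≤ ϑ` (`Adm`), so the exact formulas of `Trace` and `Reg.kap_bd` apply:
`K12 = 1/b + O(14 e)`, `κ = 1/b² + O(6 e)`, `E e² ≤ 16/r` (`Reg.av_e`), `E (ω-1)² ≤ Ξ²/r` (`Wt.av_sq`).
Write the increment as `main + rem` where `main` is a polynomial in entries of powers of `B` (defined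
for all pairs); `E_ω main = E main + E[(ω-1) main]` (`Ea_eq`), `E main` is computed exactly with
`av_prod, av_row, av_col` (row sums of `B^j` are `b^j`), everything else is bounded with Cauchy-Schwarz
(`av_cs`, `abs_av_cs`), `Wt.abs_Ea_le`, `Wt.Ea_le_two`, using the L² norms (over pairs, `r = t^8`)
`‖δ_u‖² = D/r ≤ Λ/r`, `‖β_u‖² = W/r ≤ Λ`, `‖b_j(u)‖² ≤ ν^(2j-4) Λ` (`word_diag_le`),
`‖c‖² ≤ 4/r`, `‖c_j‖ ≤ ν^j / r` for `j ≥ 2` (`av_sq_eq_fro`, `fro_mul_left`), `‖f(u) g(v)‖ = ‖f‖ ‖g‖`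
(`av_prod`), and the pointwise bounds `δ² ≤ Λ`, `δ_u² ≤ β_u`, `β² ≤ Λ r`, `c_2² ≤ β_u β_v`, `|b| ≤ 2`,
`1 ≤ Λ ≤ ν ≤ t^4`, `Λ ≤ ϑ t`.  The constant `CC = 10^12` is very generous: be crude.
Advice: split into many small lemmas (one per monomial type); avoid big `nlinarith` calls, use
`abs_mul, mul_le_mul, gcongr, positivity`.

For `k ≠ u, v`: `upd k k = δ_k + j_k`, `j_k = K11 B_ku² + K22 B_kv² + 2 K12 B_ku B_kv`.  So
`D' = D - δ_u² - δ_v² + 2 Σ_k δ_k j_k - 2 δ_u j_u - 2 δ_v j_v + Σ_{k ≠ u,v} j_k²`.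
* `|δ_u j_u| ≤ C ϑ δ_u²` on the support; removal `E_ω (δ_u² + δ_v²) ≥ 2 (1-ϑ) D/r`.
* `j_k² ≤ 2 κ² (δ_v B_ku² + δ_u B_kv²)² + 8 K12² B_ku² B_kv²`, `κ² ≤ (1 + Cϑ)/b^4`;
  `E Σ_k δ_v² B_ku^4 = (D/r)(Q4/r)`, `E Σ_k B_ku² B_kv² = W/r² ≤ (Ω²/r²) W/(ϑ r)`; use `Q4/r ≤ 16`.
* `Σ_k δ_k B_ku B_kv`: average `b² T1/r²`, `|T1| ≤ √(r D)`, so `4 |b| |T1|/r² ≤ ϑ D/r + 16/(ϑ r²)`;
  with `ζ = ω K12 - 1/b` (`OpB` norm `≤ 113 Ω`, see `T4`), `OpB.nuclear`: `≤ 113 Ω Σ |δ_k| β_k/r²`,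
  and `x √(D W)/r ≤ ϑ D/r + x² W/(ϑ r)` (termwise: `x |δ_k| β_k ≤ ϑ δ_k² + x² β_k²/ϑ`).
* `z_u = Σ_k δ_k B_ku²`: `E[ω κ δ_v z_u] = (T1/r)(Σ δ β/r)/b² + E[(ω κ - 1/b²) δ_v z_u]`; the Frobenius norm of
  `ω κ - 1/b²` is `≤ (Ξ + 48) t^4`; `Σ z_u² ≤ max|z| Σ|z|`, `z_u² ≤ D Σ_k B_ku^4 ≤ D Λ β_u ≤ D Λ² t^4`,
  `(Σ|z_u|)² ≤ D W ≤ D Λ² t^8`, hence `Σ z_u² ≤ D Λ² t^6` and the term is `≤ C Ξ t^4 D Λ t³/r² = C (Ξ Λ/t) D/r`.
-/

set_option autoImplicit false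
set_option linter.unusedSectionVars false
open Finset Matrix

namespace Crest.Agent.R62

variable {ι : Type} [Fintype ι] [DecidableEq ι]
variable {ω : ι → ι → ℝ} {B : Matrix ι ι ℝ} {b Λ ν t ϑ Ξ Ω ρ : ℝ}

/-- `j_k` -/
noncomputable def dd_j (b : ℝ) (B : Matrix ι ι ℝ) (u v k : ι) : ℝ :=
  kap b B u v * (B v v * B k u ^ 2 + B u u * B k v ^ 2 + 2 * (b - B u v) * (B k u * B k v))
/-- `z_u` -/
def dd_z (B : Matrix ι ι ℝ) (u : ι) : ℝ := ∑ k, B k k * B k u ^ 2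
/-- `m_uv` -/
def dd_m (B : Matrix ι ι ℝ) (u v : ι) : ℝ := ∑ k, B k k * B k u * B k v
/-- `a_u` -/
def dd_a (B : Matrix ι ι ℝ) (u : ι) : ℝ := ∑ k, B k u ^ 4
/-- `n_uv` -/
def dd_n (B : Matrix ι ι ℝ) (u v : ι) : ℝ := ∑ k, B k u ^ 2 * B k v ^ 2

theorem dd_upd_le (b : ℝ) (B : Matrix ι ι ℝ) {u v : ι} (huv : u ≠ v) :
    dd (upd b B u v) ≤ dd B - B u u ^ 2 - B v v ^ 2 + 2 * ∑ k, B k k * dd_j b B u v k -
      2 * (B u u * dd_j b B u v u) - 2 * (B v v * dd_j b B u v v) + ∑ k, dd_j b B u v k ^ 2 := by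
  have h1 : ∀ k, upd b B u v k k ^ 2 ≤ (B k k + dd_j b B u v k) ^ 2 -
      (if k = u then B u u ^ 2 + 2 * (B u u * dd_j b B u v u) else 0) -
      (if k = v then B v v ^ 2 + 2 * (B v v * dd_j b B u v v) else 0) := by
    intro k
    by_cases hu : k = u
    · subst hu
      simp only [upd, Matrix.of_apply, true_or, if_true, if_neg huv]
      nlinarith [sq_nonneg (dd_j b B k v k)]
    · by_cases hv : k = v
      · subst hv
        simp only [upd, Matrix.of_apply, true_or, or_true, if_true, if_neg hu]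
        nlinarith [sq_nonneg (dd_j b B u k k)]
      · simp only [upd, Matrix.of_apply, hu, hv, or_self, if_false, dd_j]
        apply le_of_eq
        ring
  refine (Finset.sum_le_sum fun k _ => h1 k).trans (le_of_eq ?_)
  simp only [Finset.sum_sub_distrib, Finset.sum_ite_eq', Finset.mem_univ, if_true, dd, add_sq,
    Finset.sum_add_distrib, Finset.mul_sum, mul_assoc]
  ring

theorem dd_sum_j (b : ℝ) (B : Matrix ι ι ℝ) (u v : ι) :
    ∑ k, B k k * dd_j b B u v k = kap b B u v * B v v * dd_z B u + kap b B u v * B u u * dd_z B v +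
      2 * (kap b B u v * (b - B u v) * dd_m B u v) := by
  simp only [dd_z, dd_m, Finset.mul_sum, ← Finset.sum_add_distrib, dd_j]
  exact Finset.sum_congr rfl fun k _ => by ring

theorem dd_kap_sq (h : Reg B b Λ ν t ϑ) {u v : ι} (hc : |B u v| ≤ ϑ) (hd : |B u u * B v v| ≤ ϑ) :
    kap b B u v ^ 2 ≤ (1 + 100 * ϑ) / b ^ 4 := by
  obtain ⟨-, h0, -, h1, -⟩ := h.kap_bd hc hd
  have hb : 0 < b ^ 2 := lt_of_lt_of_le one_pos h.b1
  have h2 : kap b B u v ≤ 1 / b ^ 2 + 12 * ϑ := by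
    have := le_abs_self (kap b B u v - 1 / b ^ 2)
    linarith
  have h3 : kap b B u v * b ^ 2 ≤ 1 + 48 * ϑ := by
    have e : (1 / b ^ 2 + 12 * ϑ) * b ^ 2 = 1 + 12 * ϑ * b ^ 2 := by
      rw [add_mul, one_div, inv_mul_cancel₀ hb.ne']
    have := mul_le_mul_of_nonneg_right h2 hb.le
    have h4 := mul_le_mul_of_nonneg_left h.b4 (show 0 ≤ 12 * ϑ by have := h.th0; positivity)
    linarith
  rw [le_div_iff₀ (by have : b ^ 4 = (b ^ 2) ^ 2 := by ring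
                      rw [this]; positivity)]
  have h5 : (kap b B u v * b ^ 2) ^ 2 ≤ (1 + 48 * ϑ) ^ 2 :=
    pow_le_pow_left₀ (by positivity) h3 2
  have h6 := h.th0
  have h7 := h.th1
  nlinarith

theorem dd_rem (κ K du dv c ϑ : ℝ) (hκ0 : 0 < κ) (hκ : κ ≤ 11 / 10) (hK : |K| ≤ 11 / 10)
    (hc : |c| ≤ ϑ) (hd : |du * dv| ≤ ϑ) (h1 : ϑ ≤ 1 / 1000) :
    -(4 * ϑ) ≤ κ * (du * dv) + κ * c ^ 2 + 2 * (K * c) := by
  have h0 : 0 ≤ ϑ := (abs_nonneg _).trans hc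
  have e1 : |κ * (du * dv)| ≤ 11 / 10 * ϑ := by
    rw [abs_mul, abs_of_pos hκ0]
    exact mul_le_mul hκ hd (abs_nonneg _) (by norm_num)
  have e2 : |K * c| ≤ 11 / 10 * ϑ := by
    rw [abs_mul]
    exact mul_le_mul hK hc (abs_nonneg _) (by norm_num)
  have e3 : 0 ≤ κ * c ^ 2 := by positivity
  have := neg_abs_le (κ * (du * dv))
  have := neg_abs_le (K * c)
  linarith

theorem dd_jsq (κ K du dv x y ϑ M : ℝ) (hκ0 : 0 < κ) (hκ : κ ≤ 11 / 10) (hK : |K| ≤ 11 / 10)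
    (hd : |du * dv| ≤ ϑ) (h1 : ϑ ≤ 1 / 1000) (hM : κ ^ 2 ≤ M) :
    (κ * (dv * x ^ 2 + du * y ^ 2) + 2 * K * (x * y)) ^ 2 ≤
      2 * M * (dv ^ 2 * x ^ 4 + du ^ 2 * y ^ 4) + 10 * (x ^ 2 * y ^ 2) := by
  have e0 : ∀ p q : ℝ, (p + q) ^ 2 ≤ 2 * p ^ 2 + 2 * q ^ 2 := fun p q => by
    nlinarith [sq_nonneg (p - q)]
  refine (e0 _ _).trans ?_
  have hK2 : K ^ 2 ≤ 121 / 100 := by
    have := pow_le_pow_left₀ (abs_nonneg K) hK 2
    rw [sq_abs] at this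
    linarith
  have hκ2 : κ ^ 2 ≤ 121 / 100 := by
    have := pow_le_pow_left₀ hκ0.le hκ 2
    linarith
  have hxy : 0 ≤ x ^ 2 * y ^ 2 := by positivity
  have hs : 0 ≤ dv ^ 2 * x ^ 4 + du ^ 2 * y ^ 4 := by positivity
  have e1 : κ ^ 2 * (du * dv) ≤ 121 / 100 * (1 / 1000) := by
    have := le_abs_self (du * dv)
    calc κ ^ 2 * (du * dv) ≤ κ ^ 2 * (1 / 1000) := by gcongr; linarith
      _ ≤ _ := by gcongr
  have e2 : 2 * (κ * (dv * x ^ 2 + du * y ^ 2)) ^ 2 + 2 * (2 * K * (x * y)) ^ 2 =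
      2 * κ ^ 2 * (dv ^ 2 * x ^ 4 + du ^ 2 * y ^ 4) +
        (4 * (κ ^ 2 * (du * dv)) + 8 * K ^ 2) * (x ^ 2 * y ^ 2) := by ring
  rw [e2]
  apply add_le_add
  · gcongr
  · gcongr
    linarith

theorem dd_point (h : Reg B b Λ ν t ϑ) {u v : ι} (huv : u ≠ v) (hc : |B u v| ≤ ϑ)
    (hd : |B u u * B v v| ≤ ϑ) :
    dd (upd b B u v) ≤ dd B - (1 - 8 * ϑ) * (B u u ^ 2 + B v v ^ 2) +
      2 * (kap b B u v * (dd_z B u * B v v) + kap b B v u * (dd_z B v * B u u)) +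
      4 * (kap b B u v * (b - B u v) * dd_m B u v) +
      2 * ((1 + 100 * ϑ) / b ^ 4) * (dd_a B u * B v v ^ 2 + B u u ^ 2 * dd_a B v) +
      10 * dd_n B u v := by
  obtain ⟨-, h0, h1, -, -, h2, -⟩ := h.kap_bd hc hd
  have hs : B v u = B u v := h.symm.apply u v
  have hk : kap b B v u = kap b B u v := by simp only [kap, hs, mul_comm]
  have hrem := dd_rem _ _ _ _ _ _ h0 h1 h2 hc hd h.th1
  have hu : -(4 * ϑ) * B u u ^ 2 ≤ B u u * dd_j b B u v u := by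
    have : B u u * dd_j b B u v u = (kap b B u v * (B u u * B v v) + kap b B u v * B u v ^ 2 +
        2 * (kap b B u v * (b - B u v) * B u v)) * B u u ^ 2 := by
      simp only [dd_j]; ring
    rw [this]
    exact mul_le_mul_of_nonneg_right hrem (sq_nonneg _)
  have hv : -(4 * ϑ) * B v v ^ 2 ≤ B v v * dd_j b B u v v := by
    have : B v v * dd_j b B u v v = (kap b B u v * (B u u * B v v) + kap b B u v * B u v ^ 2 +
        2 * (kap b B u v * (b - B u v) * B u v)) * B v v ^ 2 := by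
      simp only [dd_j, hs]; ring
    rw [this]
    exact mul_le_mul_of_nonneg_right hrem (sq_nonneg _)
  have hj : ∑ k, dd_j b B u v k ^ 2 ≤
      2 * ((1 + 100 * ϑ) / b ^ 4) * (dd_a B u * B v v ^ 2 + B u u ^ 2 * dd_a B v) +
        10 * dd_n B u v := by
    simp only [dd_a, dd_n, Finset.mul_sum, Finset.sum_mul, ← Finset.sum_add_distrib]
    refine Finset.sum_le_sum fun k _ => ?_
    have := dd_jsq _ _ _ _ (B k u) (B k v) _ _ h0 h1 h2 hd h.th1 (dd_kap_sq h hc hd)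
    refine le_trans (le_of_eq ?_) (this.trans (le_of_eq ?_))
    · simp only [dd_j]; ring
    · ring
  have := dd_upd_le b B huv
  rw [dd_sum_j] at this
  rw [hk]
  linarith

theorem dd_amgm (hϑ : 0 < ϑ) (B : Matrix ι ι ℝ) (x : ℝ) :
    x * ∑ k, |B k k| * bet B k ≤ ϑ * dd B + x ^ 2 * ww B / ϑ := by
  simp only [dd, ww, Finset.mul_sum, Finset.sum_div, ← Finset.sum_add_distrib]
  refine Finset.sum_le_sum fun k _ => ?_
  have e : x ^ 2 * bet B k ^ 2 / ϑ = ϑ * (x * bet B k / ϑ) ^ 2 := by field_simp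
  have e2 : x * (|B k k| * bet B k) = ϑ * (|B k k| * (x * bet B k / ϑ)) := by field_simp
  rw [e, e2, ← mul_add, ← sq_abs (B k k)]
  apply mul_le_mul_of_nonneg_left _ hϑ.le
  nlinarith [sq_nonneg (|B k k| - x * bet B k / ϑ), sq_nonneg (|B k k|),
    sq_nonneg (x * bet B k / ϑ)]

theorem dd_col_sq (hB : B.IsSymm) (u : ι) : ∑ k, B k u ^ 2 = bet B u := by
  rw [bet_eq hB]
  exact Finset.sum_congr rfl fun k _ => by rw [hB.apply u k]

theorem dd_dd_nonneg (B : Matrix ι ι ℝ) : 0 ≤ dd B := Finset.sum_nonneg fun _ _ => sq_nonneg _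

theorem dd_ww_nonneg (B : Matrix ι ι ℝ) : 0 ≤ ww B := Finset.sum_nonneg fun _ _ => sq_nonneg _

theorem dd_sum_abs_z (hB : B.IsSymm) : ∑ u, |dd_z B u| ≤ ∑ k, |B k k| * bet B k := by
  calc ∑ u, |dd_z B u| ≤ ∑ u, ∑ k, |B k k| * B k u ^ 2 := by
        refine Finset.sum_le_sum fun u _ => (Finset.abs_sum_le_sum_abs _ _).trans (le_of_eq ?_)
        exact Finset.sum_congr rfl fun k _ => by rw [abs_mul, abs_sq]
    _ = _ := by
        rw [Finset.sum_comm]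
        exact Finset.sum_congr rfl fun k _ => by rw [← Finset.mul_sum, bet_eq hB]

theorem dd_sum_z_sq (h : Reg B b Λ ν t ϑ) : ∑ u, dd_z B u ^ 2 ≤ dd B * Λ ^ 2 * t ^ 6 := by
  set s := Real.sqrt (dd B) with hs
  have hs0 : 0 ≤ s := Real.sqrt_nonneg _
  have hs2 : s ^ 2 = dd B := Real.sq_sqrt (dd_dd_nonneg B)
  have hL : 0 ≤ Λ := zero_le_one.trans h.L1
  have ht := h.t0
  have h1 : ∀ u, |dd_z B u| ≤ s * (Λ * t ^ 2) := by
    intro u
    refine (Finset.abs_sum_le_sum_abs _ _).trans ?_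
    simp only [abs_mul]
    apply sum_cs hs0 (by positivity) hs2.ge
    calc ∑ k, (B k u ^ 2) ^ 2 ≤ ∑ k, Λ * B k u ^ 2 := by
          refine Finset.sum_le_sum fun k _ => ?_
          rw [sq (B k u ^ 2)]
          exact mul_le_mul_of_nonneg_right (h.ent k u) (sq_nonneg _)
      _ = Λ * bet B u := by rw [← Finset.mul_sum, dd_col_sq h.symm]
      _ ≤ Λ * (Λ * t ^ 4) := mul_le_mul_of_nonneg_left (h.bet_le u) hL
      _ = (Λ * t ^ 2) ^ 2 := by ring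
  have h2 : ∑ u, |dd_z B u| ≤ s * (Λ * t ^ 4) := by
    refine (dd_sum_abs_z h.symm).trans ?_
    have := sum_cs (f := fun k => B k k) (g := fun k => bet B k) (A := s) (B := Λ * t ^ 4) hs0
      (by positivity) hs2.ge (by
        refine h.w.trans ?_
        rw [← h.t8]
        have : Λ ≤ Λ ^ 2 := by nlinarith [h.L1]
        calc Λ * t ^ 8 ≤ Λ ^ 2 * t ^ 8 := by gcongr
          _ = _ := by ring)
    simpa only [abs_of_nonneg (bet_nonneg h.symm _)] using this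
  calc ∑ u, dd_z B u ^ 2 ≤ ∑ u, s * (Λ * t ^ 2) * |dd_z B u| := by
        refine Finset.sum_le_sum fun u _ => ?_
        rw [← sq_abs, sq]
        exact mul_le_mul_of_nonneg_right (h1 u) (abs_nonneg _)
    _ = s * (Λ * t ^ 2) * ∑ u, |dd_z B u| := by rw [Finset.mul_sum]
    _ ≤ s * (Λ * t ^ 2) * (s * (Λ * t ^ 4)) := by gcongr
    _ = _ := by rw [← hs2]; ring

theorem dd_xi (h : Reg B b Λ ν t ϑ) (hw : Wt ω ϑ Ξ Ω t) (ha : Adm ω B ϑ ρ) :
    av (fun u v => (ω u v * kap b B u v - 1 / b ^ 2) ^ 2) ≤ (70 * Ξ / t ^ 4) ^ 2 := by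
  have h1 : ∀ u v, (ω u v * kap b B u v - 1 / b ^ 2) ^ 2 ≤
      2 * (ω u v - 1) ^ 2 + 288 * (|B u v| + |B u u * B v v|) ^ 2 := by
    intro u v
    have e0 : ∀ p q : ℝ, (p + q) ^ 2 ≤ 2 * p ^ 2 + 2 * q ^ 2 := fun p q => by
      nlinarith [sq_nonneg (p - q)]
    have e : ω u v * kap b B u v - 1 / b ^ 2 =
        (ω u v - 1) * (1 / b ^ 2) + ω u v * (kap b B u v - 1 / b ^ 2) := by ring
    rw [e]
    refine (e0 _ _).trans (add_le_add ?_ ?_)
    · have hb : 1 / b ^ 2 ≤ 1 := by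
        rw [div_le_one (lt_of_lt_of_le one_pos h.b1)]; exact h.b1
      have hb2 : (1 / b ^ 2) ^ 2 ≤ 1 := pow_le_one₀ (by positivity) hb
      rw [mul_pow]
      have := mul_le_mul_of_nonneg_left hb2 (sq_nonneg (ω u v - 1))
      linarith
    · by_cases h0 : ω u v = 0
      · rw [h0]
        simp only [zero_mul, ne_eq, OfNat.ofNat_ne_zero, not_false_eq_true, zero_pow, mul_zero]
        positivity
      · obtain ⟨hc, hd, -⟩ := ha u v h0
        obtain ⟨-, -, -, h2, -⟩ := h.kap_bd hc hd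
        have h3 : |ω u v * (kap b B u v - 1 / b ^ 2)| ≤ 2 * (6 * (|B u v| + |B u u * B v v|)) := by
          rw [abs_mul, abs_of_nonneg (hw.nn u v)]
          refine mul_le_mul ?_ h2 (abs_nonneg _) (by norm_num)
          have := hw.le u v
          have := h.th1
          linarith
        have h4 := pow_le_pow_left₀ (abs_nonneg _) h3 2
        rw [sq_abs] at h4
        linarith
  refine (av_mono h1).trans ?_
  rw [av_add, av_const_mul, av_const_mul]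
  have h2 := hw.av_sq h.t0 h.t8
  have h3 := h.av_e
  have ht := h.t0
  have hX : 1 ≤ Ξ ^ 2 := one_le_pow₀ hw.Xi1
  have e1 : (Ξ / t ^ 4) ^ 2 = Ξ ^ 2 * (1 / t ^ 4) ^ 2 := by ring
  have e2 : (4 / t ^ 4) ^ 2 = 16 * (1 / t ^ 4) ^ 2 := by ring
  have e3 : (70 * Ξ / t ^ 4) ^ 2 = 4900 * (Ξ ^ 2 * (1 / t ^ 4) ^ 2) := by ring
  have h4 : (1 / t ^ 4) ^ 2 ≤ Ξ ^ 2 * (1 / t ^ 4) ^ 2 := le_mul_of_one_le_left (by positivity) hX
  have h5 : 0 ≤ (1 / t ^ 4) ^ 2 := by positivity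
  rw [e1] at h2
  rw [e2] at h3
  rw [e3]
  linarith

theorem dd_Ez (h : Reg B b Λ ν t ϑ) (hw : Wt ω ϑ Ξ Ω t) (ha : Adm ω B ϑ ρ) :
    Ea ω (fun u v => kap b B u v * (dd_z B u * B v v)) ≤
      ϑ * dd B / rr ι + t1 B ^ 2 / rr ι ^ 2 * ww B / (ϑ * rr ι) +
        70 * (Ξ * Λ / t) * dd B / rr ι := by
  have hr := h.rpos
  have ht := h.t0
  have hϑ := h.th0
  have hL : 0 ≤ Λ := zero_le_one.trans h.L1
  have hX : 0 ≤ Ξ := zero_le_one.trans hw.Xi1
  have hD := dd_dd_nonneg B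
  have e : Ea ω (fun u v => kap b B u v * (dd_z B u * B v v)) =
      1 / b ^ 2 * av (fun u v => dd_z B u * B v v) +
        av (fun u v => (ω u v * kap b B u v - 1 / b ^ 2) * (dd_z B u * B v v)) := by
    rw [← av_const_mul, ← av_add, Ea]
    exact av_congr fun u v => by ring
  rw [e]
  have h1 : av (fun u v => (ω u v * kap b B u v - 1 / b ^ 2) * (dd_z B u * B v v)) ≤
      70 * (Ξ * Λ / t) * dd B / rr ι := by
    refine (le_abs_self _).trans ((abs_av_cs (A := 70 * Ξ / t ^ 4) (B := dd B * Λ * t ^ 3 / rr ι)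
      (by positivity) (by positivity) (dd_xi h hw ha) ?_).trans (le_of_eq ?_))
    · simp only [mul_pow]
      rw [av_prod (fun u => dd_z B u ^ 2) (fun v => B v v ^ 2)]
      calc (∑ u, dd_z B u ^ 2) / rr ι * ((∑ v, B v v ^ 2) / rr ι)
          ≤ dd B * Λ ^ 2 * t ^ 6 / rr ι * (dd B / rr ι) := by
            gcongr
            · exact dd_sum_z_sq h
            · exact le_rfl
        _ = _ := by ring
    · field_simp
  have h2 : 1 / b ^ 2 * av (fun u v => dd_z B u * B v v) ≤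
      ϑ * dd B / rr ι + t1 B ^ 2 / rr ι ^ 2 * ww B / (ϑ * rr ι) := by
    rw [av_prod (dd_z B) (fun v => B v v)]
    have hb : 1 / b ^ 2 ≤ 1 := by
      rw [div_le_one (lt_of_lt_of_le one_pos h.b1)]; exact h.b1
    have h3 := dd_amgm hϑ B (|t1 B| / rr ι)
    have h4 : |∑ u, dd_z B u| ≤ ∑ k, |B k k| * bet B k :=
      (Finset.abs_sum_le_sum_abs _ _).trans (dd_sum_abs_z h.symm)
    have h5 : (∑ v, B v v) = t1 B := rfl
    rw [h5]
    calc 1 / b ^ 2 * ((∑ u, dd_z B u) / rr ι * (t1 B / rr ι))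
        ≤ 1 / b ^ 2 * |(∑ u, dd_z B u) / rr ι * (t1 B / rr ι)| := by
          gcongr; exact le_abs_self _
      _ ≤ 1 * |(∑ u, dd_z B u) / rr ι * (t1 B / rr ι)| := by gcongr
      _ = |t1 B| / rr ι * |∑ u, dd_z B u| / rr ι := by
          rw [one_mul, abs_mul, abs_div, abs_div, abs_of_pos hr]; ring
      _ ≤ |t1 B| / rr ι * (∑ k, |B k k| * bet B k) / rr ι := by gcongr
      _ ≤ (ϑ * dd B + (|t1 B| / rr ι) ^ 2 * ww B / ϑ) / rr ι := by gcongr
      _ = _ := by rw [div_pow, sq_abs]; field_simp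
  linarith

theorem dd_zeta (h : Reg B b Λ ν t ϑ) (hw : Wt ω ϑ Ξ Ω t) (ha : Adm ω B ϑ ρ) :
    OpB (fun u v => ω u v * (kap b B u v * (b - B u v)) - 1 / b) (113 * Ω) := by
  have ht := h.t0
  have hΩ : 0 ≤ Ω := le_trans (by positivity) hw.Om
  have h1 := hw.op.const_mul (1 / b)
  have h2 : OpB (fun u v => ω u v * (kap b B u v * (b - B u v) - 1 / b)) (112 * t ^ 4) := by
    apply OpB.of_fro
    have h3 : av (fun u v => (ω u v * (kap b B u v * (b - B u v) - 1 / b)) ^ 2) ≤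
        av (fun u v => 784 * (|B u v| + |B u u * B v v|) ^ 2) := by
      refine av_mono fun u v => ?_
      by_cases h0 : ω u v = 0
      · rw [h0]
        simp only [zero_mul, ne_eq, OfNat.ofNat_ne_zero, not_false_eq_true, zero_pow]
        positivity
      · obtain ⟨hc, hd, -⟩ := ha u v h0
        obtain ⟨-, -, -, -, h2, -⟩ := h.kap_bd hc hd
        have h3 : |ω u v * (kap b B u v * (b - B u v) - 1 / b)| ≤
            2 * (14 * (|B u v| + |B u u * B v v|)) := by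
          rw [abs_mul, abs_of_nonneg (hw.nn u v)]
          refine mul_le_mul ?_ h2 (abs_nonneg _) (by norm_num)
          have := hw.le u v
          have := h.th1
          linarith
        have h4 := pow_le_pow_left₀ (abs_nonneg _) h3 2
        rw [sq_abs] at h4
        linarith
    rw [av_const_mul, av_sq_eq_fro, div_le_iff₀ (by have := h.rpos; positivity), ← h.t8] at h3
    refine h3.trans ?_
    calc 784 * av (fun u v => (|B u v| + |B u u * B v v|) ^ 2) * (t ^ 8) ^ 2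
        ≤ 784 * (4 / t ^ 4) ^ 2 * (t ^ 8) ^ 2 := by gcongr; exact h.av_e
      _ = _ := by field_simp; norm_num
  have h3 := h1.add h2 (by positivity) (by positivity)
  have hb : |1 / b| ≤ 1 := by
    rw [abs_div, abs_one, div_le_one (lt_of_lt_of_le one_pos h.abs_b.1)]
    exact h.abs_b.1
  have h4 := h3.mono (Ω' := 113 * Ω) (by positivity) (by
    have := mul_le_mul_of_nonneg_right hb hΩ
    have := hw.Om
    linarith)
  convert h4 using 3
  ring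

theorem dd_Em (h : Reg B b Λ ν t ϑ) (hw : Wt ω ϑ Ξ Ω t) (ha : Adm ω B ϑ ρ) :
    4 * Ea ω (fun u v => kap b B u v * (b - B u v) * dd_m B u v) ≤
      2 * (ϑ * dd B / rr ι) + 16 * (1 / (ϑ * rr ι ^ 2)) +
        452 ^ 2 * (Ω ^ 2 / rr ι ^ 2 * ww B / (ϑ * rr ι)) := by
  have hr := h.rpos
  have ht := h.t0
  have hϑ := h.th0
  have hΩ : 0 ≤ Ω := le_trans (by positivity) hw.Om
  have hb0 : b ≠ 0 := by
    intro h0
    have := h.b1
    rw [h0] at this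
    norm_num at this
  have e : Ea ω (fun u v => kap b B u v * (b - B u v) * dd_m B u v) =
      1 / b * av (dd_m B) +
        av (fun u v => (ω u v * (kap b B u v * (b - B u v)) - 1 / b) * dd_m B u v) := by
    rw [← av_const_mul, ← av_add, Ea]
    exact av_congr fun u v => by ring
  have e2 : av (dd_m B) = b ^ 2 * t1 B / rr ι ^ 2 := by
    simp only [av, dd_m]
    congr 1
    calc ∑ u, ∑ v, ∑ k, B k k * B k u * B k v = ∑ u, ∑ k, B k k * B k u * b := by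
          refine Finset.sum_congr rfl fun u _ => ?_
          rw [Finset.sum_comm]
          exact Finset.sum_congr rfl fun k _ => by rw [← Finset.mul_sum, h.row]
      _ = ∑ k, B k k * b * b := by
          rw [Finset.sum_comm]
          exact Finset.sum_congr rfl fun k _ => by rw [← Finset.sum_mul, ← Finset.mul_sum, h.row]
      _ = b ^ 2 * t1 B := by
          rw [← Finset.sum_mul, ← Finset.sum_mul]
          have : (∑ v, B v v) = t1 B := rfl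
          rw [this]; ring
  have h1 : 4 * (1 / b * av (dd_m B)) ≤ ϑ * dd B / rr ι + 16 * (1 / (ϑ * rr ι ^ 2)) := by
    rw [e2]
    have h2 : 4 * (b * t1 B) ≤ ϑ * t1 B ^ 2 + 16 / ϑ := by
      have h3 : b * t1 B ≤ 2 * |t1 B| := by
        refine (le_abs_self _).trans ?_
        rw [abs_mul]
        exact mul_le_mul_of_nonneg_right h.abs_b.2 (abs_nonneg _)
      have h4 : 8 * |t1 B| ≤ ϑ * t1 B ^ 2 + 16 / ϑ := by
        have e3 : 16 / ϑ = ϑ * (4 / ϑ) ^ 2 := by field_simp; norm_num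
        have e4 : 8 * |t1 B| = ϑ * (2 * |t1 B| * (4 / ϑ)) := by field_simp; ring
        rw [e3, e4, ← mul_add, ← sq_abs (t1 B)]
        apply mul_le_mul_of_nonneg_left _ hϑ.le
        nlinarith [sq_nonneg (|t1 B| - 4 / ϑ)]
      linarith
    calc 4 * (1 / b * (b ^ 2 * t1 B / rr ι ^ 2)) = 4 * (b * t1 B) / rr ι ^ 2 := by field_simp
      _ ≤ (ϑ * (rr ι * dd B) + 16 / ϑ) / rr ι ^ 2 := by
          gcongr
          refine h2.trans ?_
          gcongr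
          exact t1_sq_le B
      _ = _ := by field_simp
  have h2 : 4 * av (fun u v => (ω u v * (kap b B u v * (b - B u v)) - 1 / b) * dd_m B u v) ≤
      ϑ * dd B / rr ι + 452 ^ 2 * (Ω ^ 2 / rr ι ^ 2 * ww B / (ϑ * rr ι)) := by
    have h3 := (dd_zeta h hw ha).nuclear (by positivity) (fun k => B k k) (fun k u => B k u)
      (fun k v => B k v) (fun k => bet B k) (fun k => bet_nonneg h.symm k) (fun k => by
        rw [← bet_eq h.symm, sq])
    have h4 := dd_amgm hϑ B (452 * Ω / rr ι)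
    calc 4 * av (fun u v => (ω u v * (kap b B u v * (b - B u v)) - 1 / b) * dd_m B u v)
        ≤ 4 * ((113 * Ω * ∑ k, |B k k| * bet B k) / rr ι ^ 2) := by
          simp only [av]
          gcongr
          exact (le_abs_self _).trans h3
      _ = (452 * Ω / rr ι * ∑ k, |B k k| * bet B k) / rr ι := by field_simp; ring
      _ ≤ (ϑ * dd B + (452 * Ω / rr ι) ^ 2 * ww B / ϑ) / rr ι := by gcongr
      _ = _ := by field_simp
  rw [e]
  linarith

theorem dd_En (h : Reg B b Λ ν t ϑ) (hw : Wt ω ϑ Ξ Ω t) :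
    Ea ω (dd_n B) ≤ 2 * (Ω ^ 2 / rr ι ^ 2 * ww B / (ϑ * rr ι)) := by
  have hr := h.rpos
  have ht := h.t0
  have hϑ := h.th0
  have hϑ1 : ϑ ≤ 1 := h.th1.trans (by norm_num)
  refine (hw.Ea_le_two hϑ1 fun u v => Finset.sum_nonneg fun k _ => by positivity).trans ?_
  apply mul_le_mul_of_nonneg_left _ (by norm_num)
  have e : av (dd_n B) = ww B / rr ι ^ 2 := by
    simp only [av, dd_n]
    congr 1
    calc ∑ u, ∑ v, ∑ k, B k u ^ 2 * B k v ^ 2 = ∑ u, ∑ k, B k u ^ 2 * bet B k := by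
          refine Finset.sum_congr rfl fun u _ => ?_
          rw [Finset.sum_comm]
          exact Finset.sum_congr rfl fun k _ => by rw [← Finset.mul_sum, bet_eq h.symm]
      _ = ww B := by
          rw [Finset.sum_comm]
          exact Finset.sum_congr rfl fun k _ => by rw [← Finset.sum_mul, ← bet_eq h.symm, sq]
  refine le_trans e.le ?_
  have h1 : ϑ * rr ι ≤ Ω ^ 2 := by
    have h2 : (t ^ 4) ^ 2 ≤ Ω ^ 2 := pow_le_pow_left₀ (by positivity) hw.Om 2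
    have h3 : ϑ * rr ι ≤ rr ι := mul_le_of_le_one_left hr.le hϑ1
    have h4 : (t ^ 4) ^ 2 = rr ι := by rw [← h.t8]; ring
    linarith
  have hW := dd_ww_nonneg B
  calc ww B / rr ι ^ 2 = ϑ * rr ι / rr ι ^ 2 * ww B / (ϑ * rr ι) := by field_simp
    _ ≤ _ := by gcongr

theorem dd_Ea (h : Reg B b Λ ν t ϑ) (hw : Wt ω ϑ Ξ Ω t) :
    2 * ((1 + 100 * ϑ) / b ^ 4) *
      Ea ω (fun u v => dd_a B u * B v v ^ 2 + B u u ^ 2 * dd_a B v) ≤
      4 * (q4 B / rr ι) / b ^ 4 * dd B / rr ι + 6528 * (ϑ * dd B / rr ι) := by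
  have hr := h.rpos
  have hϑ := h.th0
  have hϑ1 := h.th1
  have hD := dd_dd_nonneg B
  have ha0 : ∀ u, 0 ≤ dd_a B u := fun u => Finset.sum_nonneg fun k _ => by positivity
  have hb4 : 1 ≤ b ^ 4 := by
    have : b ^ 4 = (b ^ 2) ^ 2 := by ring
    rw [this]
    exact one_le_pow₀ h.b1
  have h1 := hw.Ea_le (f := fun u v => dd_a B u * B v v ^ 2 + B u u ^ 2 * dd_a B v)
    (fun u v => by have := ha0 u; have := ha0 v; positivity)
  have e1 : ∑ u, dd_a B u = q4 B := by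
    simp only [dd_a, q4]
    exact Finset.sum_comm
  have e2 : (∑ v, B v v ^ 2) = dd B := rfl
  rw [av_add, av_prod (dd_a B) (fun v => B v v ^ 2), av_prod (fun v => B v v ^ 2) (dd_a B), e1,
    e2] at h1
  have hq0 : 0 ≤ q4 B := by rw [← e1]; exact Finset.sum_nonneg fun u _ => ha0 u
  have hq : q4 B / rr ι ≤ 16 := by rw [div_le_iff₀ hr]; exact h.q
  have h2 : (1 + 100 * ϑ) * (1 + ϑ) ≤ 1 + 102 * ϑ := by nlinarith
  have h3 : q4 B / rr ι / b ^ 4 ≤ 16 := (div_le_self (by positivity) hb4).trans hq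
  calc 2 * ((1 + 100 * ϑ) / b ^ 4) * Ea ω (fun u v => dd_a B u * B v v ^ 2 + B u u ^ 2 * dd_a B v)
      ≤ 2 * ((1 + 100 * ϑ) / b ^ 4) *
        ((1 + ϑ) * (q4 B / rr ι * (dd B / rr ι) + dd B / rr ι * (q4 B / rr ι))) := by gcongr
    _ = 4 * ((1 + 100 * ϑ) * (1 + ϑ)) * (q4 B / rr ι / b ^ 4 * (dd B / rr ι)) := by ring
    _ ≤ 4 * (1 + 102 * ϑ) * (q4 B / rr ι / b ^ 4 * (dd B / rr ι)) := by gcongr
    _ = 4 * (q4 B / rr ι) / b ^ 4 * dd B / rr ι +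
        408 * (q4 B / rr ι / b ^ 4) * (ϑ * dd B / rr ι) := by ring
    _ ≤ 4 * (q4 B / rr ι) / b ^ 4 * dd B / rr ι + 408 * 16 * (ϑ * dd B / rr ι) := by gcongr
    _ = _ := by ring

theorem drift_dd (h : Reg B b Λ ν t ϑ) (hw : Wt ω ϑ Ξ Ω t) (ha : Adm ω B ϑ ρ) :
    Ea ω (fun u v => dd (upd b B u v)) ≤
      dd B - (2 - 4 * (q4 B / rr ι) / b ^ 4) * dd B / rr ι +
      CC * (ϑ + Ξ * Λ / t) * dd B / rr ι +
      CC * ((t1 B ^ 2 / rr ι ^ 2 + Ω ^ 2 / rr ι ^ 2) * ww B / (ϑ * rr ι) + 1 / (ϑ * rr ι ^ 2)) := by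
  have hr := h.rpos
  have ht := h.t0
  have hϑ := h.th0
  have hϑ1 := h.th1
  have hL : 0 ≤ Λ := zero_le_one.trans h.L1
  have hX : 0 ≤ Ξ := zero_le_one.trans hw.Xi1
  have hD := dd_dd_nonneg B
  have hW := dd_ww_nonneg B
  have h0 := hw.Ea_mono (fun u v huv => dd_point h (hw.ne huv) (ha u v huv).1 (ha u v huv).2.1)
  rw [Ea_add, Ea_add, Ea_add, Ea_add, Ea_sub, Ea_const_mul, Ea_const_mul, Ea_const_mul,
    Ea_const_mul, Ea_const_mul, hw.Ea_const hr, Ea_add, Ea_add,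
    hw.Ea_swap (fun u v => kap b B u v * (dd_z B u * B v v))] at h0
  have h1 := dd_Ez h hw ha
  have h2 := dd_Em h hw ha
  have h3 := dd_En h hw
  have h4 := dd_Ea h hw
  have h5 := hw.le_Ea_left (f := fun u => B u u ^ 2) (fun u => sq_nonneg _)
  have h6 := hw.le_Ea_right (f := fun u => B u u ^ 2) (fun u => sq_nonneg _)
  have e2 : (∑ v, B v v ^ 2) = dd B := rfl
  rw [e2] at h5 h6
  have h7 : 2 * (dd B / rr ι) - 18 * (ϑ * dd B / rr ι) ≤
      (1 - 8 * ϑ) * ((Ea ω fun u _ => B u u ^ 2) + Ea ω fun _ v => B v v ^ 2) := by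
    have h8 : (1 - 8 * ϑ) * ((1 - ϑ) * (dd B / rr ι) + (1 - ϑ) * (dd B / rr ι)) ≤
        (1 - 8 * ϑ) * ((Ea ω fun u _ => B u u ^ 2) + Ea ω fun _ v => B v v ^ 2) :=
      mul_le_mul_of_nonneg_left (add_le_add h5 h6) (by linarith)
    refine le_trans ?_ h8
    have h9 : 0 ≤ ϑ ^ 2 * (dd B / rr ι) := by positivity
    have e : (1 - 8 * ϑ) * ((1 - ϑ) * (dd B / rr ι) + (1 - ϑ) * (dd B / rr ι)) =
        2 * (dd B / rr ι) - 18 * (ϑ * dd B / rr ι) + 16 * (ϑ ^ 2 * (dd B / rr ι)) := by ring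
    rw [e]
    linarith
  have p1 : 0 ≤ ϑ * dd B / rr ι := by positivity
  have p2 : 0 ≤ Ξ * Λ / t * dd B / rr ι := by positivity
  have p3 : 0 ≤ t1 B ^ 2 / rr ι ^ 2 * ww B / (ϑ * rr ι) := by positivity
  have p4 : 0 ≤ Ω ^ 2 / rr ι ^ 2 * ww B / (ϑ * rr ι) := by positivity
  have p5 : 0 ≤ 1 / (ϑ * rr ι ^ 2) := by positivity
  have e3 : dd B - (2 - 4 * (q4 B / rr ι) / b ^ 4) * dd B / rr ι +
      CC * (ϑ + Ξ * Λ / t) * dd B / rr ι +
      CC * ((t1 B ^ 2 / rr ι ^ 2 + Ω ^ 2 / rr ι ^ 2) * ww B / (ϑ * rr ι) + 1 / (ϑ * rr ι ^ 2)) =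
      dd B - 2 * (dd B / rr ι) + 4 * (q4 B / rr ι) / b ^ 4 * dd B / rr ι +
      10 ^ 12 * (ϑ * dd B / rr ι) + 10 ^ 12 * (Ξ * Λ / t * dd B / rr ι) +
      10 ^ 12 * (t1 B ^ 2 / rr ι ^ 2 * ww B / (ϑ * rr ι)) +
      10 ^ 12 * (Ω ^ 2 / rr ι ^ 2 * ww B / (ϑ * rr ι)) + 10 ^ 12 * (1 / (ϑ * rr ι ^ 2)) := by
    simp only [CC]
    ring
  have e4 : 70 * (Ξ * Λ / t) * dd B / rr ι = 70 * (Ξ * Λ / t * dd B / rr ι) := by ring
  rw [e3]
  rw [e4] at h1
  have e5 : Ea ω (fun u v => dd_n B u v) = Ea ω (dd_n B) := rfl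
  rw [e5] at h0
  linarith only [h0, h1, h2, h3, h4, h7, p1, p2, p3, p4, p5]

end Crest.Agent.R62
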