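import Mathlib

/-!
# R62 (S0084): deterministic non-bipartite Ramanujan graphs.  Basic definitions.

Overview.  We match half-edges one pair at a time (configuration model).  For each sign `s = ±1`
we keep the symmetric matrix `B` (indexed by the unmatched half-edges, row sums `b = s a`) which is
the resolvent of `x - s A - m D_ρ + ..` restricted to the unmatched half-edges, minus `g`.
Matching the half-edges `u, v` replaces `B` by `upd b B u v` (a Schur-complement update).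
A potential made of traces of powers of `B` (and a few entrywise sums) does not increase much
on average over a cleverly weighted random pair; the algorithm picks the pair minimising it.

In the analysis files the index type `ι` is the set of unmatched half-edges, `r = card ι = t ^ 8`.
Notation used in the docstrings: `δ_u = B u u`, `c = B u v`, `β_u = (B*B) u u = bet B u`,
`b_j(u) = (B^j) u u`, `c_j = (B^j) u v`, `F2 = t2 B`, `D = dd B`, `W = ww B`, `o = F2 / r`,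
`κ = kap b B u v`, `K11 = κ δ_v`, `K22 = κ δ_u`, `K12 = κ (b - c)`, `e = |c| + |δ_u δ_v|`.
-/

set_option autoImplicit false
open Finset Matrix

namespace Crest.Agent.R62

variable {ι : Type} [Fintype ι] [DecidableEq ι]

/-- the universal constant of the drift lemmas -/
def CC : ℝ := 10 ^ 12

/-- `r`, the number of unmatched half-edges -/
def rr (ι : Type) [Fintype ι] : ℝ := (Fintype.card ι : ℝ)

/-- `κ = 1 / ((b - c)^2 - δ_u δ_v)` -/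
noncomputable def kap (b : ℝ) (B : Matrix ι ι ℝ) (u v : ι) : ℝ :=
  1 / ((b - B u v) ^ 2 - B u u * B v v)

/-- the update of `B` when `u` and `v` are matched (rows and columns `u, v` are set to `0`) -/
noncomputable def upd (b : ℝ) (B : Matrix ι ι ℝ) (u v : ι) : Matrix ι ι ℝ := Matrix.of fun k l =>
  if k = u ∨ k = v ∨ l = u ∨ l = v then 0 else
    B k l + kap b B u v * (B v v * B k u * B l u + B u u * B k v * B l v +
      (b - B u v) * (B k u * B l v + B k v * B l u))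

def t1 (B : Matrix ι ι ℝ) : ℝ := B.trace
def t2 (B : Matrix ι ι ℝ) : ℝ := (B * B).trace
def t3 (B : Matrix ι ι ℝ) : ℝ := (B * B * B).trace
def t4 (B : Matrix ι ι ℝ) : ℝ := (B * B * B * B).trace
def chi (B D : Matrix ι ι ℝ) : ℝ := (B * B * D).trace
/-- `β_k` -/
def bet (B : Matrix ι ι ℝ) (k : ι) : ℝ := (B * B) k k
def dd (B : Matrix ι ι ℝ) : ℝ := ∑ k, B k k ^ 2
def ww (B : Matrix ι ι ℝ) : ℝ := ∑ k, bet B k ^ 2
def q4 (B : Matrix ι ι ℝ) : ℝ := ∑ k, ∑ l, B k l ^ 4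
/-- squared Frobenius norm -/
def fro (M : ι → ι → ℝ) : ℝ := ∑ k, ∑ l, M k l ^ 2

/-- average over all ordered pairs -/
noncomputable def av (f : ι → ι → ℝ) : ℝ := (∑ u, ∑ v, f u v) / rr ι ^ 2
/-- weighted average -/
noncomputable def Ea (ω f : ι → ι → ℝ) : ℝ := av fun u v => ω u v * f u v

/-- operator norm bound `‖M x‖ ≤ μ ‖x‖` -/
def OpLe (M : Matrix ι ι ℝ) (μ : ℝ) : Prop := ∀ x : ι → ℝ, ∑ k, (M *ᵥ x) k ^ 2 ≤ μ ^ 2 * ∑ k, x k ^ 2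
/-- operator norm bound, bilinear form version -/
def OpB (ζ : ι → ι → ℝ) (Ω : ℝ) : Prop := ∀ x y : ι → ℝ,
  (∑ u, ∑ v, x u * ζ u v * y v) ^ 2 ≤ Ω ^ 2 * (∑ u, x u ^ 2) * ∑ v, y v ^ 2

/-- The standing assumptions on one matrix. -/
structure Reg (B : Matrix ι ι ℝ) (b Λ ν t ϑ : ℝ) : Prop where
  symm : B.IsSymm
  row : ∀ k, ∑ l, B k l = b
  b1 : 1 ≤ b ^ 2
  b4 : b ^ 2 ≤ 4
  t0 : 0 < t
  t8 : t ^ 8 = rr ι
  th0 : 0 < ϑ
  th1 : ϑ ≤ 1 / 1000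
  L1 : 1 ≤ Λ
  Lt : Λ ≤ ϑ * t
  Lν : Λ ≤ ν
  νt : ν ≤ t ^ 4
  f2 : t2 B ≤ b ^ 2 * rr ι
  d : dd B ≤ Λ
  w : ww B ≤ Λ * rr ι
  t4 : t4 B ≤ ν ^ 4
  q : q4 B ≤ 16 * rr ι
  ent : ∀ k l, B k l ^ 2 ≤ Λ

/-- The properties of the weight `ω` on ordered pairs (a probability density for `av`). -/
structure Wt (ω : ι → ι → ℝ) (ϑ Ξ Ω t : ℝ) : Prop where
  nn : ∀ u v, 0 ≤ ω u v
  le : ∀ u v, ω u v ≤ 1 + ϑ
  symm : ∀ u v, ω u v = ω v u
  diag : ∀ u, ω u u = 0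
  tot : ∑ u, ∑ v, ω u v = rr ι ^ 2
  row : ∀ u, (1 - ϑ) * rr ι ≤ ∑ v, ω u v
  fro : ∑ u, ∑ v, (ω u v - 1) ^ 2 ≤ Ξ ^ 2 * rr ι
  op : OpB (fun u v => ω u v - 1) Ω
  Xi1 : 1 ≤ Ξ
  Om : t ^ 4 ≤ Ω

/-- The support of `ω` avoids the pairs that are bad for `B`. -/
def Adm (ω : ι → ι → ℝ) (B : Matrix ι ι ℝ) (ϑ ρ : ℝ) : Prop := ∀ u v, ω u v ≠ 0 →
  |B u v| ≤ ϑ ∧ |B u u * B v v| ≤ ϑ ∧ |B v v| * bet B u ≤ ρ ∧ bet B u * bet B v ≤ ρ ^ 2

/-- `Γ = B + g - ((b + g) / r) J` is positive semidefinite. -/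
def Gam (B : Matrix ι ι ℝ) (b g : ℝ) : Prop := ∀ p : ι → ℝ,
  0 ≤ p ⬝ᵥ B *ᵥ p + g * ∑ k, p k ^ 2 - (b + g) / rr ι * (∑ k, p k) ^ 2

/-! ### the `2 × 2` matrices of the exact trace formulas -/

def blk (M : Matrix ι ι ℝ) (u v : ι) : Matrix (Fin 2) (Fin 2) ℝ := !![M u u, M u v; M v u, M v v]

noncomputable def Kmat (b : ℝ) (B : Matrix ι ι ℝ) (u v : ι) : Matrix (Fin 2) (Fin 2) ℝ :=
  !![kap b B u v * B v v, kap b B u v * (b - B u v); kap b B u v * (b - B u v), kap b B u v * B u u]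

def Xm : Matrix (Fin 2) (Fin 2) ℝ := !![0, 1; 1, 0]

/-- `H(B₁; w; B₂) = K₁ ([B₁ w B₂] - b₁ X [w B₂])` -/
noncomputable def Hm (b₁ : ℝ) (B₁ w B₂ : Matrix ι ι ℝ) (u v : ι) : Matrix (Fin 2) (Fin 2) ℝ :=
  Kmat b₁ B₁ u v * (blk (B₁ * w * B₂) u v - b₁ • (Xm * blk (w * B₂) u v))

theorem Hm_00 (b₁ : ℝ) (B₁ w B₂ : Matrix ι ι ℝ) (u v : ι) : Hm b₁ B₁ w B₂ u v 0 0 =
    kap b₁ B₁ u v * B₁ v v * ((B₁ * w * B₂) u u - b₁ * (w * B₂) v u) +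
    kap b₁ B₁ u v * (b₁ - B₁ u v) * ((B₁ * w * B₂) v u - b₁ * (w * B₂) u u) := by
  simp [Hm, Kmat, blk, Xm, Matrix.mul_apply, Fin.sum_univ_two]

theorem Hm_01 (b₁ : ℝ) (B₁ w B₂ : Matrix ι ι ℝ) (u v : ι) : Hm b₁ B₁ w B₂ u v 0 1 =
    kap b₁ B₁ u v * B₁ v v * ((B₁ * w * B₂) u v - b₁ * (w * B₂) v v) +
    kap b₁ B₁ u v * (b₁ - B₁ u v) * ((B₁ * w * B₂) v v - b₁ * (w * B₂) u v) := by
  simp [Hm, Kmat, blk, Xm, Matrix.mul_apply, Fin.sum_univ_two]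

theorem Hm_10 (b₁ : ℝ) (B₁ w B₂ : Matrix ι ι ℝ) (u v : ι) : Hm b₁ B₁ w B₂ u v 1 0 =
    kap b₁ B₁ u v * (b₁ - B₁ u v) * ((B₁ * w * B₂) u u - b₁ * (w * B₂) v u) +
    kap b₁ B₁ u v * B₁ u u * ((B₁ * w * B₂) v u - b₁ * (w * B₂) u u) := by
  simp [Hm, Kmat, blk, Xm, Matrix.mul_apply, Fin.sum_univ_two]

theorem Hm_11 (b₁ : ℝ) (B₁ w B₂ : Matrix ι ι ℝ) (u v : ι) : Hm b₁ B₁ w B₂ u v 1 1 =
    kap b₁ B₁ u v * (b₁ - B₁ u v) * ((B₁ * w * B₂) u v - b₁ * (w * B₂) v v) +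
    kap b₁ B₁ u v * B₁ u u * ((B₁ * w * B₂) v v - b₁ * (w * B₂) u v) := by
  simp [Hm, Kmat, blk, Xm, Matrix.mul_apply, Fin.sum_univ_two]

end Crest.Agent.R62
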