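import Crest.Agent.R62.WFacts

/-!
# R62/Endgame: any perfect matching of the remaining half-edges finishes the graph (TASK)

`Sc < 1` and `Ac < 1` (sums of `0/1` terms) say that `vx` is injective on `R` and that no two vertices of `R` are adjacent.
So the final adjacency matrix is `A_F = A + Tᵀ Π T`, i.e. `A_F y z = A y z + #{k ∈ R | vx k = y ∧ vx (π k) = z}`, it is loopless and
has row sums `deg + rho = d`.  For `s = ±1` and `w ≠ 0` with `Σ w = 0` we show `0 < wᵀ (x - s A_F) w`; with `x ≤ 2√(d-1)` this gives the claim.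
Let `H_F = x - s A_F + ((s d - x)/n) J`; `H_F 1 = 0`, and `wᵀ H_F w = wᵀ (x - s A_F) w`.  Put `w₀ = w - (ρ·w/r) 1 ∈ ρ^⊥`, `w₀ ≠ 0`
(a constant `w` with zero sum vanishes), `wᵀ H_F w = w₀ᵀ H_F w₀ = Q w₀ - s Σ_{k∈R} p_k p_{π k} + m Σ p_k² ≥ Q w₀ - (1-m) N`,
`p_k = w₀ (vx k)`, `N = Σ_{k ∈ R} p_k²`, `Σ p = 0`, `Q w₀ = w₀ᵀ H w₀ > 0`.  With `q = Tᵀ p`, `z = G q ∈ ρ^⊥`:
`N = q · w₀ = zᵀ H w₀`, Cauchy-Schwarz for `Q` on `ρ^⊥` gives `N² ≤ Q z · Q w₀`, `Q z = qᵀ G q = pᵀ C p + g N ≤ (1 + g) N` because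
`pᵀ C p = pᵀ (C - (b/r) J) p ≤ ‖C - (b/r) J‖_F N` and `‖C - (b/r) J‖_F² = t2 C - b² < 1` (on `R × R`, use `res_row`).
Finally `(1-m)(1+g) ≤ (1-m)(a+g) = 1`; for strictness: if `N = 0` done, else `Q z < (1+g) N`, or use `‖·‖_F < 1 ≤ a`.
-/

set_option autoImplicit false
set_option linter.unusedSectionVars false
open Finset Matrix

namespace Crest.Agent.R62

variable {ι V : Type} [Fintype ι] [DecidableEq ι] [Fintype V] [DecidableEq V]
  {P : Par ℝ} {vx : ι → V}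

theorem endgame_form {κ : Type} [Fintype κ] [DecidableEq κ] {B : Matrix κ κ ℝ} {b : ℝ}
    (hB : B.IsSymm) (hrow : ∀ k, ∑ l, B k l = b) (h2 : t2 B - b ^ 2 < 1) (p : κ → ℝ)
    (hp : ∑ k, p k = 0) (hN : 0 < ∑ k, p k ^ 2) :
    ∑ l, ∑ k, p l * B l k * p k < ∑ k, p k ^ 2 := by
  have hne : Nonempty κ := by
    by_contra hc
    rw [not_nonempty_iff] at hc
    simp at hN
  have hr : (0 : ℝ) < Fintype.card κ := by exact_mod_cast Fintype.card_pos
  set r : ℝ := (Fintype.card κ : ℝ) with hrdef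
  set N := ∑ k, p k ^ 2 with hNdef
  have e1 : ∑ l, ∑ k, p l * B l k * p k = ∑ x : κ × κ, (p x.1 * p x.2) * (B x.1 x.2 - b / r) := by
    rw [Fintype.sum_prod_type]
    have : ∀ l, ∑ k, (p l * p k) * (B l k - b / r)
        = ∑ k, p l * B l k * p k - p l * (b / r) * ∑ k, p k := fun l => by
      rw [Finset.mul_sum, ← Finset.sum_sub_distrib]
      exact Finset.sum_congr rfl fun k _ => by ring
    simp only [this, hp, mul_zero, sub_zero]
  have e2 : ∑ x : κ × κ, (p x.1 * p x.2) ^ 2 = N ^ 2 := by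
    rw [Fintype.sum_prod_type, sq N, hNdef, Finset.sum_mul_sum]
    exact Finset.sum_congr rfl fun l _ => Finset.sum_congr rfl fun k _ => by ring
  have e3 : ∑ x : κ × κ, (B x.1 x.2 - b / r) ^ 2 = t2 B - b ^ 2 := by
    rw [Fintype.sum_prod_type, ← fro_eq_t2 hB, fro]
    have : ∀ l, ∑ k, (B l k - b / r) ^ 2 = ∑ k, B l k ^ 2 - b ^ 2 / r := fun l => by
      have : ∀ k, (B l k - b / r) ^ 2 = B l k ^ 2 - 2 * (b / r) * B l k + (b / r) ^ 2 :=
        fun k => by ring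
      simp only [this, Finset.sum_add_distrib, Finset.sum_sub_distrib, ← Finset.mul_sum, hrow,
        Finset.sum_const, Finset.card_univ, nsmul_eq_mul, ← hrdef]
      field_simp
      ring
    simp only [this, Finset.sum_sub_distrib, Finset.sum_const, Finset.card_univ, nsmul_eq_mul,
      ← hrdef]
    field_simp
  have cs := Finset.sum_mul_sq_le_sq_mul_sq Finset.univ (fun x : κ × κ => p x.1 * p x.2)
    (fun x => B x.1 x.2 - b / r)
  rw [e2, e3, ← e1] at cs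
  have h3 : (∑ l, ∑ k, p l * B l k * p k) ^ 2 < N ^ 2 :=
    cs.trans_lt (by nlinarith [pow_pos hN 2])
  exact lt_of_pow_lt_pow_left₀ 2 hN.le h3

/-- the quadratic form of `Ht` -/
theorem endgame_Q (s : ℝ) (R : Finset ι) (adj : V → V → Prop) (w : V → ℝ) :
    w ⬝ᵥ Ht P s vx R adj *ᵥ w = P.x * (w ⬝ᵥ w) - P.m * ∑ k ∈ R, w (vx k) ^ 2
      - s * (w ⬝ᵥ Amat adj *ᵥ w) + (s * P.d - P.x) / P.n * (∑ y, w y) ^ 2 := by
  rw [← sum_rho vx R (fun y => w y ^ 2)]
  have : ∀ y, (Ht P s vx R adj *ᵥ w) y = (P.x - P.m * rho vx R y) * w y - s * (Amat adj *ᵥ w) y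
      + (s * P.d - P.x) / P.n * ∑ z, w z := fun y => by
    simp only [Ht, Matrix.mulVec, dotProduct, Matrix.of_apply, add_mul, sub_mul, ite_mul, zero_mul,
      Finset.sum_add_distrib, Finset.sum_sub_distrib, Finset.sum_ite_eq, Finset.mem_univ, if_true,
      Finset.mul_sum, mul_assoc]
  simp only [dotProduct, this, Finset.mul_sum, sq (∑ y, w y), Finset.sum_mul]
  rw [← Finset.sum_sub_distrib, ← Finset.sum_sub_distrib, ← Finset.sum_add_distrib]
  refine Finset.sum_congr rfl fun y _ => ?_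
  have e : ∀ c : ℝ, ∑ x, c * (w x * w y) = c * ((∑ x, w x) * w y) := fun c => by
    rw [Finset.sum_mul, Finset.mul_sum]
  rw [e, ← Finset.mul_sum]
  ring

/-- the key estimate `(1 - m) N < Q w₀` on `ρ^⊥` -/
theorem endgame_key {s : ℝ} {R : Finset ι} {adj : V → V → Prop} {C : Matrix ι ι ℝ} (hP : P.Good)
    (hV : Fintype.card V = P.n) (hs : s = 1 ∨ s = -1) (hg : GInv P.d vx R adj)
    (h : WInv P s vx R adj C) (h2 : t2 C - P.a ^ 2 < 1) (w : V → ℝ)
    (hw : ∑ k ∈ R, w (vx k) = 0) (hw0 : w ≠ 0) :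
    (1 - P.m) * ∑ k ∈ R, w (vx k) ^ 2 < w ⬝ᵥ Ht P s vx R adj *ᵥ w := by
  have hpos := h.pos w (by rw [sum_rho]; exact hw) hw0
  have hN0 : 0 ≤ ∑ k ∈ R, w (vx k) ^ 2 := Finset.sum_nonneg fun _ _ => sq_nonneg _
  rcases hN0.eq_or_lt with hN | hN
  · rw [← hN, mul_zero]; exact hpos
  obtain ⟨G, hG, hC⟩ := h.ex
  set H := Ht P s vx R adj with hH
  have hHs : H.IsSymm := Ht_symm hg
  have hBs : (res R C).IsSymm := res_symm (h.symm hg)
  have hrow := h.res_row hP hV hs hg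
  set p : R → ℝ := fun k => w (vx k) with hpdef
  have hp0 : ∑ k, p k = 0 := by rw [← hw]; exact Finset.sum_coe_sort R (fun k => w (vx k))
  have hNp : ∑ k, p k ^ 2 = ∑ k ∈ R, w (vx k) ^ 2 := Finset.sum_coe_sort R (fun k => w (vx k) ^ 2)
  set N := ∑ k ∈ R, w (vx k) ^ 2 with hNdef
  set q : V → ℝ := fun y => ∑ k : R, if vx k = y then p k else 0 with hq
  have hqdot : ∀ u : V → ℝ, u ⬝ᵥ q = ∑ k : R, u (vx k) * p k := fun u => by
    simp only [dotProduct, hq, Finset.mul_sum]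
    rw [Finset.sum_comm]
    refine Finset.sum_congr rfl fun k _ => ?_
    simp only [mul_ite, mul_zero, Finset.sum_ite_eq, Finset.mem_univ, if_true]
  set z := G *ᵥ q with hz
  have hHz : H *ᵥ z = q := by rw [hz, Matrix.mulVec_mulVec, hG, Matrix.one_mulVec]
  have hzv : ∀ l : R, z (vx l) = ∑ k, res R C l k * p k + P.g * p l := fun l => by
    have e : z (vx l) = ∑ k : R, G (vx l) (vx k) * p k := hqdot (G (vx l))
    have e2 : ∀ k : R, G (vx l) (vx k) * p k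
        = res R C l k * p k + (if l = k then P.g * p k else 0) := fun k => by
      have := hC l k
      simp only [l.2, k.2, and_self, if_true] at this
      simp only [res, Matrix.submatrix_apply, this, Subtype.coe_inj]
      split_ifs <;> ring
    rw [e]
    simp only [e2, Finset.sum_add_distrib, Finset.sum_ite_eq, Finset.mem_univ, if_true]
  have hzρ : ∑ y, rho vx R y * z y = 0 := by
    rw [sum_rho, ← Finset.sum_coe_sort R (fun k => z (vx k))]
    simp only [hzv, Finset.sum_add_distrib, ← Finset.mul_sum, hp0, mul_zero, add_zero]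
    rw [Finset.sum_comm]
    have : ∀ k : R, ∑ l, res R C l k * p k = s * P.a * p k := fun k => by
      rw [← Finset.sum_mul, ← hrow k]
      congr 1
      exact Finset.sum_congr rfl fun l _ => hBs.apply k l
    simp only [this, ← Finset.mul_sum, hp0, mul_zero]
  have hwz : w ⬝ᵥ H *ᵥ z = N := by
    rw [hHz, hqdot, ← hNp]
    exact Finset.sum_congr rfl fun k _ => by rw [sq]
  have hzw : z ⬝ᵥ H *ᵥ w = N := by
    rw [Matrix.dotProduct_mulVec, ← Matrix.mulVec_transpose, hHs.eq, dotProduct_comm, hwz]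
  have hsa : (s * P.a) ^ 2 = P.a ^ 2 := by rcases hs with rfl | rfl <;> ring
  have hzz : z ⬝ᵥ H *ᵥ z < (1 + P.g) * N := by
    have hf := endgame_form hBs hrow (by rw [t2_res h.supp, hsa]; exact h2) p hp0
      (by rw [hNp]; exact hN)
    rw [hHz, hqdot]
    have : ∑ l : R, z (vx l) * p l = ∑ l, ∑ k, p l * res R C l k * p k + P.g * ∑ k, p k ^ 2 := by
      rw [Finset.mul_sum, ← Finset.sum_add_distrib]
      refine Finset.sum_congr rfl fun l _ => ?_
      rw [hzv, add_mul, Finset.sum_mul]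
      congr 1
      · exact Finset.sum_congr rfl fun k _ => by ring
      · ring
    rw [this, hNp]
    rw [hNp] at hf
    linarith
  have hm : 0 < 1 - P.m := by nlinarith [hP.m2, hP.m0]
  have hone : (1 - P.m) * (P.a + P.g) = 1 := by
    simpa using sm_mul (s := 1) hP (Or.inl rfl)
  have hnn : 0 ≤ (w - (1 - P.m) • z) ⬝ᵥ H *ᵥ (w - (1 - P.m) • z) := by
    by_cases h0 : w - (1 - P.m) • z = 0
    · rw [h0]; simp
    · refine (h.pos _ ?_ h0).le
      have e : ∀ y, rho vx R y * (w - (1 - P.m) • z) y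
          = rho vx R y * w y - (1 - P.m) * (rho vx R y * z y) := fun y => by
        simp only [Pi.sub_apply, Pi.smul_apply, smul_eq_mul]; ring
      simp only [e, Finset.sum_sub_distrib, ← Finset.mul_sum, hzρ]
      rw [sum_rho, hw]; ring
  rw [Matrix.mulVec_sub, Matrix.mulVec_smul, sub_dotProduct, dotProduct_sub, dotProduct_sub,
    smul_dotProduct, smul_dotProduct, dotProduct_smul, dotProduct_smul, hwz, hzw] at hnn
  simp only [smul_eq_mul] at hnn
  have h5 : (1 - P.m) * (z ⬝ᵥ H *ᵥ z) < N := by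
    have h6 : (1 - P.m) * (z ⬝ᵥ H *ᵥ z) < (1 - P.m) * ((1 + P.g) * N) :=
      mul_lt_mul_of_pos_left hzz hm
    have h7 : (1 - P.m) * (1 + P.g) ≤ 1 := by nlinarith [hP.a1]
    nlinarith
  have h8 := mul_lt_mul_of_pos_left h5 hm
  nlinarith

theorem endgame_adj {R : Finset ι} {adj : V → V → Prop} (hg : GInv P.d vx R adj)
    (hS : Sc vx R < 1) (hA : Ac vx adj R < 1) (π : ι → ι)
    (hπ : ∀ k ∈ R, π k ∈ R ∧ π k ≠ k ∧ π (π k) = k)
    (Γ : SimpleGraph V) [DecidableRel Γ.Adj]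
    (hΓ : ∀ y z, Γ.Adj y z ↔ y ≠ z ∧ (adj y z ∨ ∃ k ∈ R, vx k = y ∧ vx (π k) = z)) (y z : V) :
    Γ.adjMatrix ℝ y z = Amat adj y z + ∑ k ∈ R, if vx k = y ∧ vx (π k) = z then 1 else 0 := by
  classical
  have two : ∀ (f : ι → ι → ℝ), (∀ k l, 0 ≤ f k l) → ∀ k ∈ R, ∀ l ∈ R,
      f k l ≤ ∑ k ∈ R, ∑ l ∈ R, f k l := fun f hf k hk l hl =>
    (Finset.single_le_sum (f := fun l => f k l) (fun l _ => hf k l) hl).trans
      (Finset.single_le_sum (f := fun k => ∑ l ∈ R, f k l)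
        (fun k _ => Finset.sum_nonneg fun l _ => hf k l) hk)
  have inj : ∀ k ∈ R, ∀ l ∈ R, vx k = vx l → k = l := fun k hk l hl e => by
    by_contra hne
    have := two (fun k l => if k ≠ l ∧ vx k = vx l then 1 else 0)
      (fun k l => by split_ifs <;> norm_num) k hk l hl
    simp only [ne_eq, hne, not_false_eq_true, e, and_self, if_true] at this
    exact absurd (this.trans_lt hS) (lt_irrefl _)
  have nadj : ∀ k ∈ R, ∀ l ∈ R, ¬ adj (vx k) (vx l) := fun k hk l hl e => by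
    have := two (fun k l => if adj (vx k) (vx l) then 1 else 0)
      (fun k l => by split_ifs <;> norm_num) k hk l hl
    simp only [e, if_true] at this
    have hA' : (∑ k ∈ R, ∑ l ∈ R, if adj (vx k) (vx l) then (1 : ℝ) else 0) < 1 := by
      convert hA using 1
      unfold Ac
      congr!
    exact absurd (this.trans_lt hA') (lt_irrefl _)
  rw [SimpleGraph.adjMatrix_apply]
  simp only [Amat, Matrix.of_apply]
  by_cases hex : ∃ k ∈ R, vx k = y ∧ vx (π k) = z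
  · obtain ⟨k, hk, rfl, rfl⟩ := hex
    have hne : vx k ≠ vx (π k) := fun e => (hπ k hk).2.1 (inj k hk _ (hπ k hk).1 e).symm
    rw [if_pos ((hΓ _ _).2 ⟨hne, Or.inr ⟨k, hk, rfl, rfl⟩⟩), if_neg (nadj k hk _ (hπ k hk).1),
      Finset.sum_eq_single k]
    · simp
    · intro l hl hlk
      exact if_neg fun e => hlk (inj l hl k hk e.1)
    · exact fun h => absurd hk h
  · rw [Finset.sum_eq_zero fun k hk => if_neg fun e => hex ⟨k, hk, e⟩, add_zero]
    by_cases ha : adj y z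
    · rw [if_pos ha, if_pos ((hΓ _ _).2 ⟨fun e => hg.irrefl y (by rwa [← e] at ha), Or.inl ha⟩)]
    · rw [if_neg ha, if_neg fun e => ((hΓ _ _).1 e).2.elim ha hex]

theorem endgame_side {s : ℝ} {R : Finset ι} {adj : V → V → Prop} {C : Matrix ι ι ℝ} (hP : P.Good)
    (hV : Fintype.card V = P.n) (hs : s = 1 ∨ s = -1) (hg : GInv P.d vx R adj)
    (h : WInv P s vx R adj C) (h2 : t2 C - P.a ^ 2 < 1) (hR : 0 < R.card) (π : ι → ι)
    (hπ : ∀ k ∈ R, π k ∈ R ∧ π k ≠ k ∧ π (π k) = k) (A : Matrix V V ℝ) (hAs : A.IsSymm)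
    (hArow : ∀ y, ∑ z, A y z = P.d)
    (hA : ∀ y z, A y z = Amat adj y z + ∑ k ∈ R, if vx k = y ∧ vx (π k) = z then 1 else 0)
    (w : V → ℝ) (hw : ∑ y, w y = 0) (hw0 : w ≠ 0) :
    s * (w ⬝ᵥ A *ᵥ w) < P.x * (w ⬝ᵥ w) := by
  have hr : (0 : ℝ) < R.card := by exact_mod_cast hR
  have hVne : Nonempty V := by
    by_contra hc
    rw [not_nonempty_iff] at hc
    exact hw0 (funext fun y => (hc.false y).elim)
  have hn : (0 : ℝ) < P.n := by rw [← hV]; exact_mod_cast Fintype.card_pos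
  set c : ℝ := (∑ k ∈ R, w (vx k)) / R.card with hc
  set one : V → ℝ := fun _ => 1 with hone
  set w₀ : V → ℝ := w - c • one with hw₀
  have hw₀y : ∀ y, w₀ y = w y - c := fun y => by simp [hw₀, hone]
  have h1 : ∑ k ∈ R, w₀ (vx k) = 0 := by
    simp only [hw₀y, Finset.sum_sub_distrib, Finset.sum_const, nsmul_eq_mul]
    rw [hc]; field_simp; ring
  have hsum : ∑ y, w₀ y = -(c * P.n) := by
    simp only [hw₀y, Finset.sum_sub_distrib, Finset.sum_const, nsmul_eq_mul, hw, Finset.card_univ,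
      hV]
    ring
  have h0 : w₀ ≠ 0 := fun e => by
    have hc0 : c = 0 := by
      rw [e] at hsum
      simp only [Pi.zero_apply, Finset.sum_const_zero, zero_eq_neg, mul_eq_zero] at hsum
      exact hsum.resolve_right hn.ne'
    apply hw0
    rw [← e, hw₀, hc0, zero_smul, sub_zero]
  have key := endgame_key hP hV hs hg h h2 w₀ h1 h0
  rw [endgame_Q] at key
  have hA1 : A *ᵥ one = (P.d : ℝ) • one := by
    funext y
    simp [Matrix.mulVec, dotProduct, hone, hArow]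
  have hw1 : w ⬝ᵥ one = 0 := by simp [dotProduct, hone, hw]
  have h1w : one ⬝ᵥ w = 0 := by rw [dotProduct_comm, hw1]
  have h11 : one ⬝ᵥ one = P.n := by simp [dotProduct, hone, hV]
  have h1A : one ⬝ᵥ A *ᵥ w = 0 := by
    rw [Matrix.dotProduct_mulVec, ← Matrix.mulVec_transpose, hAs.eq, hA1, smul_dotProduct, h1w,
      smul_zero]
  have e1 : w₀ ⬝ᵥ w₀ = w ⬝ᵥ w + c ^ 2 * P.n := by
    rw [hw₀, sub_dotProduct, dotProduct_sub, dotProduct_sub, smul_dotProduct, smul_dotProduct,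
      dotProduct_smul, dotProduct_smul, hw1, h1w, h11]
    simp only [smul_eq_mul]; ring
  have e2 : w₀ ⬝ᵥ A *ᵥ w₀ = w ⬝ᵥ A *ᵥ w + c ^ 2 * P.d * P.n := by
    rw [hw₀, Matrix.mulVec_sub, Matrix.mulVec_smul, hA1, sub_dotProduct, dotProduct_sub,
      dotProduct_sub, smul_dotProduct, smul_dotProduct, dotProduct_smul, dotProduct_smul,
      dotProduct_smul, dotProduct_smul, hw1, h1A, h11]
    simp only [smul_eq_mul]; ring
  have e3 : w₀ ⬝ᵥ A *ᵥ w₀ = w₀ ⬝ᵥ Amat adj *ᵥ w₀ + ∑ k ∈ R, w₀ (vx k) * w₀ (vx (π k)) := by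
    simp only [dotProduct, Matrix.mulVec, hA, add_mul, mul_add, Finset.sum_add_distrib,
      Finset.sum_mul, Finset.mul_sum]
    congr 1
    rw [Finset.sum_congr rfl fun y _ => Finset.sum_comm, Finset.sum_comm]
    refine Finset.sum_congr rfl fun k _ => ?_
    simp only [ite_and, ite_mul, one_mul, zero_mul, mul_ite, mul_zero]
    rw [Finset.sum_eq_single (vx k)]
    · simp
    · intro y _ hy
      simp [Ne.symm hy]
    · simp
  have e4 : ∑ k ∈ R, w₀ (vx (π k)) ^ 2 = ∑ k ∈ R, w₀ (vx k) ^ 2 :=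
    Finset.sum_bij' (fun k _ => π k) (fun k _ => π k) (fun k hk => (hπ k hk).1)
      (fun k hk => (hπ k hk).1) (fun k hk => (hπ k hk).2.2) (fun k hk => (hπ k hk).2.2)
      (fun _ _ => rfl)
  have e5 : s * ∑ k ∈ R, w₀ (vx k) * w₀ (vx (π k)) ≤ ∑ k ∈ R, w₀ (vx k) ^ 2 := by
    have : 2 * (s * ∑ k ∈ R, w₀ (vx k) * w₀ (vx (π k)))
        ≤ ∑ k ∈ R, w₀ (vx k) ^ 2 + ∑ k ∈ R, w₀ (vx (π k)) ^ 2 := by
      rw [← Finset.sum_add_distrib, Finset.mul_sum, Finset.mul_sum]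
      refine Finset.sum_le_sum fun k _ => ?_
      rcases hs with rfl | rfl
      · nlinarith [sq_nonneg (w₀ (vx k) - w₀ (vx (π k)))]
      · nlinarith [sq_nonneg (w₀ (vx k) + w₀ (vx (π k)))]
    linarith
  have e6 : (s * P.d - P.x) / P.n * (∑ y, w₀ y) ^ 2 = (s * P.d - P.x) * c ^ 2 * P.n := by
    rw [hsum]; field_simp
  have e7 : w₀ ⬝ᵥ Amat adj *ᵥ w₀
      = w ⬝ᵥ A *ᵥ w + c ^ 2 * P.d * P.n - ∑ k ∈ R, w₀ (vx k) * w₀ (vx (π k)) := by linarith
  rw [e6, e1, e7] at key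
  nlinarith

theorem endgame {σ : St ι V} (hP : P.Good) (hV : Fintype.card V = P.n) (h : Inv P vx σ)
    (hR : 0 < σ.R.card) (h₁ : t2 σ.C₁ - P.a ^ 2 < 1) (h₂ : t2 σ.C₂ - P.a ^ 2 < 1)
    (hS : Sc vx σ.R < 1) (hA : Ac vx σ.adj σ.R < 1) (π : ι → ι)
    (hπ : ∀ k ∈ σ.R, π k ∈ σ.R ∧ π k ≠ k ∧ π (π k) = k)
    (Γ : SimpleGraph V) [DecidableRel Γ.Adj]
    (hΓ : ∀ y z, Γ.Adj y z ↔ y ≠ z ∧ (σ.adj y z ∨ ∃ k ∈ σ.R, vx k = y ∧ vx (π k) = z)) :
    Γ.IsRegularOfDegree P.d ∧ ∀ w : V → ℝ, ∑ i, w i = 0 → w ≠ 0 →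
      |w ⬝ᵥ (Γ.adjMatrix ℝ *ᵥ w)| < 2 * Real.sqrt ((P.d : ℝ) - 1) * (w ⬝ᵥ w) := by
  have hadj := endgame_adj h.g hS hA π hπ Γ hΓ
  have hrow : ∀ y, ∑ z, Γ.adjMatrix ℝ y z = P.d := fun y => by
    simp only [hadj, Finset.sum_add_distrib]
    rw [← h.g.deg y, Finset.sum_comm (s := Finset.univ) (t := σ.R)]
    congr 1
    rw [rho, Finset.card_filter]
    push_cast
    refine Finset.sum_congr rfl fun k _ => ?_
    simp only [ite_and]
    split_ifs <;> simp
  refine ⟨fun y => ?_, fun w hw hw0 => ?_⟩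
  · have h1 := hrow y
    have h2 : ∑ z, Γ.adjMatrix ℝ y z = (Γ.degree y : ℝ) := by
      have := Γ.adjMatrix_mulVec_const_apply (α := ℝ) (a := 1) (v := y)
      simpa [Matrix.mulVec, dotProduct] using this
    exact_mod_cast h2.symm.trans h1
  · have hs := Γ.isSymm_adjMatrix (α := ℝ)
    have k1 := endgame_side hP hV (Or.inl rfl) h.g h.w₁ h₁ hR π hπ _ hs hrow hadj w hw hw0
    have k2 := endgame_side hP hV (Or.inr rfl) h.g h.w₂ h₂ hR π hπ _ hs hrow hadj w hw hw0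
    have hww : 0 ≤ w ⬝ᵥ w := Finset.sum_nonneg fun _ _ => mul_self_nonneg _
    have k3 := mul_le_mul_of_nonneg_right hP.xlt hww
    rw [abs_lt]
    constructor <;> linarith

end Crest.Agent.R62
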