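import Crest.Agent.R62.Par

/-!
# R62/Facts: numerical facts on the scales and the weights (TASK)

All elementary.  Powers of `L` with huge exponents are never evaluated: use `pow_le_pow_right₀`,
`pow_add`/`pow_mul` (`ring` handles `L^a * L^b = L^(a+b)`), `pow_le_pow_left₀`, `abs_le_abs`, `pow_le_pow_iff_left₀`.
`cpow_le` below is the workhorse for all numerical tasks.
-/

set_option autoImplicit false
set_option linter.unusedVariables false
open Finset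

namespace Crest.Agent.R62

/-- `c L^a ≤ L^b` when `c ≤ L` and `a < b` -/
theorem cpow_le {L c : ℝ} (hL : 1 ≤ L) (hc : c ≤ L) {a b : ℕ} (hab : a < b) : c * L ^ a ≤ L ^ b := by
  calc c * L ^ a ≤ L * L ^ a := by gcongr
    _ = L ^ (a + 1) := by ring
    _ ≤ L ^ b := pow_le_pow_right₀ hL hab

namespace Par

section casts
variable (P : Par ℝ)
theorem rs_cast : (P.rs : ℝ) = (P.L : ℝ) ^ 64120 := by simp [rs]
theorem r2_cast : (P.r2 : ℝ) = (P.L : ℝ) ^ 65240 := by simp [r2]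
theorem r3_cast : (P.r3 : ℝ) = (P.L : ℝ) ^ 64118 := by simp [r3]
theorem r4_cast : (P.r4 : ℝ) = (P.L : ℝ) ^ 64072 := by simp [r4]
theorem r0_cast : (P.r0 : ℝ) = (P.n : ℝ) * P.d := by simp [r0]
end casts

variable {P : Par ℝ}

theorem Good.L_big (h : P.Good) : (10 : ℝ) ^ 80 ≤ P.L := by
  have h1 : 10 ^ 80 * 1 ≤ P.L :=
    le_trans (Nat.mul_le_mul_left _ (Nat.one_le_pow _ _ (by have := h.d3; omega))) h.Lbig
  rw [mul_one] at h1
  exact_mod_cast h1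
theorem Good.L_one (h : P.Good) : (1 : ℝ) ≤ P.L := le_trans (by norm_num) h.L_big
theorem Good.dL (h : P.Good) : (10 : ℝ) ^ 80 * (P.d : ℝ) ^ 20 ≤ P.L := by exact_mod_cast h.Lbig
theorem Good.dL' (h : P.Good) : (10 : ℝ) ^ 80 * (P.d : ℝ) ≤ P.L := by
  have h1 : (1 : ℝ) ≤ P.d := by have := h.d3; exact_mod_cast (by omega : 1 ≤ P.d)
  refine le_trans ?_ h.dL
  exact mul_le_mul_of_nonneg_left (le_self_pow₀ h1 (by norm_num)) (by positivity)
theorem Good.d3' (h : P.Good) : (3 : ℝ) ≤ P.d := by exact_mod_cast h.d3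
theorem Good.n_lo (h : P.Good) : (P.L : ℝ) ^ 96000 ≤ P.n := by exact_mod_cast h.nlo
theorem Good.n_hi (h : P.Good) : (P.n : ℝ) ≤ 2 * (P.L : ℝ) ^ 96000 := by exact_mod_cast h.nhi
theorem Good.r0_lo (h : P.Good) : 3 * (P.n : ℝ) ≤ P.r0 := by
  rw [r0_cast, mul_comm]
  exact mul_le_mul_of_nonneg_left h.d3' (Nat.cast_nonneg _)
theorem Good.r0_hi (h : P.Good) : (P.r0 : ℝ) ≤ (P.L : ℝ) ^ 96001 := by
  rw [r0_cast]
  have h1 := h.dL'
  have h2 := h.d3'
  calc (P.n : ℝ) * P.d ≤ 2 * (P.L : ℝ) ^ 96000 * P.d :=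
        mul_le_mul_of_nonneg_right h.n_hi (Nat.cast_nonneg _)
    _ = (2 * P.d) * (P.L : ℝ) ^ 96000 := by ring
    _ ≤ _ := cpow_le h.L_one (by linarith) (by norm_num)
theorem Good.r0_hi' (h : P.Good) : (P.r0 : ℝ) ≤ P.L * P.n := by
  rw [r0_cast, mul_comm]
  have h1 := h.dL'
  have h2 := h.d3'
  exact mul_le_mul_of_nonneg_right (by linarith) (Nat.cast_nonneg _)
theorem Good.facts_L0 (h : P.Good) : (0 : ℝ) < P.L := lt_of_lt_of_le one_pos h.L_one
theorem Good.facts_lt (h : P.Good) {a b : ℕ} (ha : a ≠ 0) (hab : a < b) :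
    P.L ^ a + 2 < P.L ^ b := by
  have h1 : 3 * (P.L : ℝ) ^ a ≤ (P.L : ℝ) ^ b :=
    cpow_le h.L_one (le_trans (by norm_num) h.L_big) hab
  have h2 : (P.L : ℝ) ≤ (P.L : ℝ) ^ a := le_self_pow₀ h.L_one ha
  have h3 : (2 : ℝ) ≤ P.L := le_trans (by norm_num) h.L_big
  have h4 : (P.L : ℝ) ^ a + 2 < (P.L : ℝ) ^ b := by linarith
  exact_mod_cast h4
theorem Good.r4_lt_r3 (h : P.Good) : P.r4 + 2 < P.r3 := by
  rw [r4, r3]
  exact h.facts_lt (by norm_num) (by norm_num)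
theorem Good.r3_lt_r2 (h : P.Good) : P.r3 + 2 < P.r2 := by
  rw [r3, r2]
  exact h.facts_lt (by norm_num) (by norm_num)
theorem Good.g_le (h : P.Good) : P.g ≤ 3 / 2 := by
  have h1 := h.g2
  have h2 := h.a1
  have h3 := h.a2
  have h4 : P.a ^ 2 ≤ 4 := by nlinarith
  exact le_of_pow_le_pow_left₀ (n := 2) (by norm_num) (by norm_num) (by linarith)
theorem Good.sig_pos (h : P.Good) : 0 < P.sig := by
  rw [sig]
  exact pow_pos h.facts_L0 _
theorem Good.Tc_le (h : P.Good) : P.Tc ≤ P.L * P.n := by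
  have h1 := h.L_one
  refine le_of_pow_le_pow_left₀ (n := 2) (by norm_num) (by positivity) (h.Tc2.trans ?_)
  rw [mul_pow]
  exact mul_le_mul_of_nonneg_right (le_self_pow₀ h1 (by norm_num)) (by positivity)

/-! ### the path `Psi` -/
theorem Good.facts_rs (h : P.Good) : (0 : ℝ) < P.rs := by
  rw [rs_cast]; exact pow_pos h.facts_L0 _
theorem Good.facts_Y0 (h : P.Good) : 0 < P.Y0 :=
  lt_of_lt_of_le (one_div_pos.2 (mul_pos h.facts_L0 h.facts_rs)) h.Y1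
theorem Good.facts_u (h : P.Good) {r : ℕ} (hr : 0 < r) : 0 < P.a ^ 2 * r :=
  mul_pos (pow_pos (lt_of_lt_of_le one_pos h.a1) 2) (by exact_mod_cast hr)
theorem Good.facts_u4 (h : P.Good) (r : ℕ) : P.a ^ 2 * r ≤ 4 * r := by
  have h2 := h.a1
  have h3 := h.a2
  exact mul_le_mul_of_nonneg_right (by nlinarith) (Nat.cast_nonneg _)
theorem Good.facts_id (h : P.Good) {r : ℕ} (hr : 0 < r) :
    P.a ^ 2 * r - P.Psi r = P.a ^ 2 * r * P.Psi r * P.Y0 := by
  have h1 := h.facts_Y0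
  have h2 := h.facts_u hr
  unfold Psi
  generalize P.a ^ 2 * r = u at h2 ⊢
  have h3 : 0 < P.Y0 * u + 1 := by positivity
  have e1 : 1 / (P.Y0 + 1 / u) = u / (P.Y0 * u + 1) := by field_simp
  rw [e1]
  field_simp
  ring
theorem Good.Psi_pos (h : P.Good) {r : ℕ} (hr : 0 < r) : 0 < P.Psi r := by
  have h1 := h.facts_Y0
  have h2 := h.facts_u hr
  unfold Psi
  positivity
theorem Good.Psi_le (h : P.Good) {r : ℕ} (hr : 0 < r) : P.Psi r ≤ P.a ^ 2 * r := by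
  have h1 := h.facts_Y0
  have h2 := h.facts_u hr
  have h3 := h.Psi_pos hr
  have h4 := h.facts_id hr
  have : 0 ≤ P.a ^ 2 * r * P.Psi r * P.Y0 := by positivity
  linarith
theorem Good.Psi_Y (h : P.Good) {r : ℕ} (hr : 0 < r) : P.Psi r * P.Y0 ≤ 1 := by
  have h1 := h.facts_Y0
  have h2 := h.facts_u hr
  unfold Psi
  rw [one_div_mul_eq_div, div_le_one (by positivity)]
  have : 0 < 1 / (P.a ^ 2 * r) := by positivity
  linarith
theorem Good.Psi_le' (h : P.Good) {r : ℕ} (hr : 0 < r) : P.Psi r ≤ P.L * P.rs := by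
  have h1 := h.Psi_Y hr
  have h2 := h.Psi_pos hr
  have h3 : 0 < (P.L : ℝ) * P.rs := mul_pos h.facts_L0 h.facts_rs
  have h4 := mul_le_mul_of_nonneg_left h.Y1 h2.le
  rw [mul_one_div] at h4
  exact (div_le_one h3).1 (h4.trans h1)
theorem Good.Psi_ge (h : P.Good) {r : ℕ} (hr : 0 < r) : min (r : ℝ) P.rs / 2 ≤ P.Psi r := by
  have h1 := h.facts_Y0
  have h2 := h.facts_u hr
  have hr' : (0 : ℝ) < r := by exact_mod_cast hr
  have hm : 0 < min (r : ℝ) P.rs := lt_min hr' h.facts_rs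
  have h3 : P.Y0 ≤ 1 / min (r : ℝ) P.rs :=
    h.Y2.trans (one_div_le_one_div_of_le hm (min_le_right _ _))
  have h4 : 1 / (P.a ^ 2 * r) ≤ 1 / min (r : ℝ) P.rs := by
    refine one_div_le_one_div_of_le hm ((min_le_left _ _).trans ?_)
    exact le_mul_of_one_le_left hr'.le (one_le_pow₀ h.a1)
  unfold Psi
  rw [← one_div_div]
  refine one_div_le_one_div_of_le (by positivity) ?_
  have : 2 / min (r : ℝ) P.rs = 1 / min (r : ℝ) P.rs + 1 / min (r : ℝ) P.rs := by ring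
  linarith
theorem Good.Psi_gap (h : P.Good) {r : ℕ} (hr : 0 < r) :
    P.a ^ 2 * r - P.Psi r ≤ 16 * (r : ℝ) ^ 2 / P.rs := by
  have h1 := h.facts_Y0
  have h2 := h.facts_u hr
  have h3 := h.Psi_pos hr
  rw [h.facts_id hr]
  calc P.a ^ 2 * r * P.Psi r * P.Y0 ≤ 4 * r * (4 * r) * (1 / P.rs) :=
        mul_le_mul (mul_le_mul (h.facts_u4 r) ((h.Psi_le hr).trans (h.facts_u4 r)) h3.le
          (by positivity)) h.Y2 h1.le (by positivity)
    _ = _ := by ring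
theorem Good.Psi_step (h : P.Good) {r : ℕ} (hr : 3 ≤ r) :
    P.Psi (r - 2) * (1 + 2 * P.Psi r / (P.a ^ 2 * r * (r - 2))) = P.Psi r := by
  have h1 := h.facts_Y0
  have ha : 0 < P.a := lt_of_lt_of_le one_pos h.a1
  have hr' : (3 : ℝ) ≤ r := by exact_mod_cast hr
  have h2 : (0 : ℝ) < r := by linarith
  have h3 : (0 : ℝ) < (r : ℝ) - 2 := by linarith
  unfold Psi
  rw [Nat.cast_sub (by omega), Nat.cast_ofNat]
  have h4 : 0 < P.Y0 * (P.a ^ 2 * r) + 1 := by positivity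
  have h5 : 0 < P.Y0 * (P.a ^ 2 * ((r : ℝ) - 2)) + 1 := by positivity
  have e1 : 1 / (P.Y0 + 1 / (P.a ^ 2 * r)) = P.a ^ 2 * r / (P.Y0 * (P.a ^ 2 * r) + 1) := by
    field_simp
  have e2 : 1 / (P.Y0 + 1 / (P.a ^ 2 * ((r : ℝ) - 2)))
      = P.a ^ 2 * ((r : ℝ) - 2) / (P.Y0 * (P.a ^ 2 * ((r : ℝ) - 2)) + 1) := by
    field_simp
  rw [e1, e2]
  field_simp
  ring
theorem Good.Psi_r0 (h : P.Good) : P.Psi P.r0 = P.psi0 := by
  unfold Psi Y0
  rw [sub_add_cancel, one_div_one_div]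
theorem Good.tau_pos (h : P.Good) {r : ℕ} (hr : 0 < r) : 0 < P.tau r := by
  have h1 := h.facts_Y0
  have h2 := h.Psi_pos hr
  have h3 := h.facts_L0
  unfold tau
  positivity
theorem Good.tau_ge (h : P.Good) {r : ℕ} (hr : 0 < r) :
    min (r : ℝ) P.rs ^ 2 / (4 * (P.L : ℝ) ^ 2 * P.rs) ≤ P.tau r := by
  have h3 := h.facts_L0
  have h4 := h.facts_rs
  have hm : 0 ≤ min (r : ℝ) P.rs := le_min (Nat.cast_nonneg _) (Nat.cast_nonneg _)
  calc min (r : ℝ) P.rs ^ 2 / (4 * (P.L : ℝ) ^ 2 * P.rs)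
      = (min (r : ℝ) P.rs / 2) ^ 2 * (1 / (P.L * P.rs)) / P.L := by field_simp; ring
    _ ≤ P.tau r := by
      unfold tau
      refine div_le_div_of_nonneg_right (mul_le_mul (pow_le_pow_left₀ (by positivity)
        (h.Psi_ge hr) 2) h.Y1 (by positivity) (by positivity)) h3.le
theorem Good.tau_le (h : P.Good) {r : ℕ} (hr : 0 < r) : P.tau r ≤ P.Psi r / P.L := by
  have h1 := h.Psi_Y hr
  have h2 := h.Psi_pos hr
  unfold tau
  refine div_le_div_of_nonneg_right ?_ h.facts_L0.le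
  rw [pow_two, mul_assoc]
  exact mul_le_of_le_one_right h2.le h1
theorem Good.tau_le' (h : P.Good) {r : ℕ} (hr : 0 < r) :
    P.tau r ≤ 16 * (r : ℝ) ^ 2 / (P.L * P.rs) := by
  have h1 := h.facts_Y0
  have h2 := h.Psi_pos hr
  have h3 := h.facts_L0
  have h4 := h.facts_rs
  calc P.tau r ≤ (4 * r) ^ 2 * (1 / P.rs) / P.L := by
        unfold tau
        exact div_le_div_of_nonneg_right (mul_le_mul (pow_le_pow_left₀ h2.le
          ((h.Psi_le hr).trans (h.facts_u4 r)) 2) h.Y2 h1.le (by positivity)) h3.le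
    _ = _ := by field_simp; ring

/-! ### the path `A` and the gain `G` -/
theorem Good.facts_r2' (h : P.Good) : (0 : ℝ) < P.r2 := by
  rw [r2_cast]; exact pow_pos h.facts_L0 _
theorem Good.facts_A (h : P.Good) (r : ℕ) :
    P.A r = -(P.Th * (min (r - P.r2) P.r2 : ℕ) / P.r2) := by
  have h1 := h.facts_r2'
  unfold A
  split_ifs with h2 h3
  · rw [min_eq_right (by omega)]
    field_simp
  · rw [min_eq_left (by omega), Nat.cast_sub h3]
    ring
  · rw [Nat.sub_eq_zero_of_le (by omega)]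
    simp
theorem Good.facts_G (h : P.Good) (r : ℕ) : P.G r =
    P.Th * (((min (r - P.r2) P.r2 : ℕ) : ℝ) - (min (r - 2 - P.r2) P.r2 : ℕ)) / P.r2 := by
  rw [G, h.facts_A, h.facts_A]
  ring
theorem Good.facts_tilt (h : P.Good) {r : ℕ} (hr : r < 2 * P.r2 + 2) :
    (r : ℝ) ≤ 4 * (P.L : ℝ) ^ 65240 := by
  have h1 : 0 < P.r2 := by exact_mod_cast h.facts_r2'
  have h2 : r ≤ 4 * P.r2 := by omega
  rw [← r2_cast]
  exact_mod_cast h2
theorem Good.A_abs (h : P.Good) (r : ℕ) : |P.A r| ≤ P.Th := by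
  have h1 := h.facts_r2'
  have h2 : ((min (r - P.r2) P.r2 : ℕ) : ℝ) ≤ P.r2 := by exact_mod_cast min_le_right _ _
  have h3 := h.Th0
  rw [h.facts_A, abs_neg, abs_of_nonneg (by positivity), div_le_iff₀ h1]
  exact mul_le_mul_of_nonneg_left h2 h3
theorem Good.A_zero (h : P.Good) {r : ℕ} (hr : r ≤ P.r2) : P.A r = 0 := by
  rw [h.facts_A, Nat.sub_eq_zero_of_le hr]
  simp
theorem Good.A_r0 (h : P.Good) : P.A P.r0 = -P.Th := by
  have h1 : 2 * (P.r2 : ℝ) ≤ P.r0 := by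
    have a := h.r0_lo
    have b := h.n_lo
    have c : (0 : ℝ) ≤ P.n := Nat.cast_nonneg _
    have d : 2 * (P.L : ℝ) ^ 65240 ≤ (P.L : ℝ) ^ 96000 :=
      cpow_le h.L_one (le_trans (by norm_num) h.L_big) (by norm_num)
    rw [r2_cast]
    linarith
  have h2 : 2 * P.r2 ≤ P.r0 := by exact_mod_cast h1
  rw [A, if_pos h2]
theorem Good.G_nonneg (h : P.Good) (r : ℕ) : 0 ≤ P.G r := by
  have h1 := h.facts_r2'
  have h2 : ((min (r - 2 - P.r2) P.r2 : ℕ) : ℝ) ≤ (min (r - P.r2) P.r2 : ℕ) := by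
    exact_mod_cast (by omega : min (r - 2 - P.r2) P.r2 ≤ min (r - P.r2) P.r2)
  rw [h.facts_G]
  exact div_nonneg (mul_nonneg h.Th0 (by linarith)) h1.le
theorem Good.G_le (h : P.Good) (r : ℕ) : P.G r ≤ 2 * P.Th / P.r2 := by
  have h1 := h.facts_r2'
  have h2 : ((min (r - P.r2) P.r2 : ℕ) : ℝ) ≤ (min (r - 2 - P.r2) P.r2 : ℕ) + 2 := by
    exact_mod_cast (by omega : min (r - P.r2) P.r2 ≤ min (r - 2 - P.r2) P.r2 + 2)
  rw [h.facts_G, mul_comm 2]
  exact div_le_div_of_nonneg_right (mul_le_mul_of_nonneg_left (by linarith) h.Th0) h1.le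
theorem Good.G_zero (h : P.Good) {r : ℕ} (hr : ¬ (P.r2 < r ∧ r < 2 * P.r2 + 2)) : P.G r = 0 := by
  have h2 : min (r - P.r2) P.r2 = min (r - 2 - P.r2) P.r2 := by omega
  rw [h.facts_G, h2]
  simp

/-! ### `Dbar`, `Wbar`, `f` -/
theorem Good.Dbar_pos (h : P.Good) (r : ℕ) : 0 < P.Dbar r := by
  have h3 := h.facts_L0
  unfold Dbar
  split_ifs <;> positivity
theorem Good.Dbar_le (h : P.Good) (r : ℕ) : 4 * P.Dbar r + 8 ≤ P.Lam r := by
  have hL := h.L_one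
  have hL0 := h.facts_L0
  have hB := h.L_big
  have h19 : (1 : ℝ) ≤ (P.L : ℝ) ^ 19 := one_le_pow₀ hL
  have h20 : 16 * (P.L : ℝ) ^ 19 ≤ (P.L : ℝ) ^ 20 :=
    cpow_le hL (le_trans (by norm_num) hB) (by norm_num)
  have hi : 1 / (P.L : ℝ) ^ 2 ≤ 1 := by
    rw [div_le_one (by positivity)]; exact one_le_pow₀ hL
  have h4 : (0 : ℝ) < P.r4 := by rw [r4_cast]; positivity
  unfold Dbar Lam
  by_cases h1 : 2 * P.r2 + 2 ≤ r
  · rw [if_pos h1, if_neg (by omega)]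
    linarith
  · rw [if_neg h1]
    by_cases h2 : P.r4 < r
    · rw [if_pos ⟨h2, by omega⟩]
      have h5 := h.facts_tilt (not_le.1 h1)
      have h6 : (P.L : ℝ) ^ 19 * r / P.r4 ≤ 4 * (P.L : ℝ) ^ 1187 := by
        rw [div_le_iff₀ h4, r4_cast]
        calc (P.L : ℝ) ^ 19 * r ≤ (P.L : ℝ) ^ 19 * (4 * (P.L : ℝ) ^ 65240) :=
              mul_le_mul_of_nonneg_left h5 (by positivity)
          _ = _ := by ring
      have h7 : (1 : ℝ) ≤ (P.L : ℝ) ^ 1187 := one_le_pow₀ hL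
      have h8 : 28 * (P.L : ℝ) ^ 1187 ≤ (P.L : ℝ) ^ 1188 :=
        cpow_le hL (le_trans (by norm_num) hB) (by norm_num)
      linarith
    · rw [if_neg fun hc => h2 hc.1]
      have h5 : (r : ℝ) ≤ P.r4 := by exact_mod_cast not_lt.1 h2
      have h6 : (P.L : ℝ) ^ 19 * r / P.r4 ≤ (P.L : ℝ) ^ 19 := by
        rw [div_le_iff₀ h4]
        exact mul_le_mul_of_nonneg_left h5 (by positivity)
      linarith
theorem Good.Wbar_pos (h : P.Good) {r : ℕ} (hr : 0 < r) : 0 < P.Wbar r := by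
  have h3 := h.facts_L0
  have hr' : (0 : ℝ) < r := by exact_mod_cast hr
  have h0 : (0 : ℝ) < P.r0 := by
    have a := h.r0_lo
    have b := h.n_lo
    have c : 0 < (P.L : ℝ) ^ 96000 := by positivity
    linarith
  unfold Wbar
  split_ifs <;> positivity
theorem Good.Wbar_le (h : P.Good) (r : ℕ) : P.Wbar r ≤ 2 * (P.L : ℝ) ^ 12 * r := by
  have hL := h.L_one
  have hL0 := h.facts_L0
  have h0 : 0 ≤ (P.L : ℝ) ^ 12 * r := by positivity
  rw [mul_assoc]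
  unfold Wbar
  split_ifs with h1 h2
  · have h3 : (P.r0 : ℝ) ≤ (P.L : ℝ) ^ 11 * r := by exact_mod_cast h2
    have h4 := mul_le_mul_of_nonneg_left h3 hL0.le
    have h5 : (P.L : ℝ) * ((P.L : ℝ) ^ 11 * r) = (P.L : ℝ) ^ 12 * r := by ring
    linarith
  · linarith
  · have h3 : (r : ℝ) ≤ P.r3 := by exact_mod_cast (not_le.1 h1).le
    have h4 : (0 : ℝ) < P.r3 := by rw [r3_cast]; positivity
    have h5 : (P.L : ℝ) ^ 12 * (r : ℝ) ^ 2 / P.r3 ≤ (P.L : ℝ) ^ 12 * r := by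
      rw [div_le_iff₀ h4, pow_two (r : ℝ), ← mul_assoc]
      exact mul_le_mul_of_nonneg_left h3 h0
    have h6 : (r : ℝ) / (P.L : ℝ) ^ 8 ≤ (P.L : ℝ) ^ 12 * r :=
      (div_le_self (Nat.cast_nonneg _) (one_le_pow₀ hL)).trans
        (le_mul_of_one_le_left (Nat.cast_nonneg _) (one_le_pow₀ hL))
    linarith
theorem facts_fprod_one (P : Par ℝ) (r : ℕ) : 1 ≤ P.fprod r := by
  refine Finset.one_le_prod fun i hi => le_add_of_nonneg_right ?_
  have h1 : 2 * i ≤ P.r0 := by have := Finset.mem_range.1 hi; omega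
  have h2 : 2 * (i : ℝ) ≤ P.r0 := by exact_mod_cast h1
  exact one_div_nonneg.2 (by linarith)
theorem facts_fprod_step (P : Par ℝ) {r i : ℕ} (hi : r + 2 + 2 * i = P.r0) :
    P.fprod r = P.fprod (r + 2) * (1 + 1 / (2 * ((r + 2 : ℕ) : ℝ))) := by
  have e1 : (P.r0 - r) / 2 = i + 1 := by omega
  have e2 : (P.r0 - (r + 2)) / 2 = i := by omega
  have e3 : (P.r0 : ℝ) - 2 * i = ((r + 2 : ℕ) : ℝ) := by rw [← hi]; push_cast; ring
  unfold fprod
  rw [e1, e2, Finset.prod_range_succ, e3]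
theorem facts_fprod_ge (P : Par ℝ) (i : ℕ) : ∀ r : ℕ, 10 ≤ r → r + 2 * i = P.r0 →
    (P.r0 : ℝ) ≤ P.fprod r ^ 5 * r := by
  induction i with
  | zero =>
    intro r _ hi
    obtain rfl : r = P.r0 := by omega
    exact le_mul_of_one_le_left (Nat.cast_nonneg _) (one_le_pow₀ (facts_fprod_one P _))
  | succ i ih =>
    intro r hr hi
    have h1 := ih (r + 2) (by omega) (by omega)
    rw [facts_fprod_step P (r := r) (i := i) (by omega), mul_pow, mul_assoc]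
    refine h1.trans (mul_le_mul_of_nonneg_left ?_
      (pow_nonneg (zero_le_one.trans (facts_fprod_one P _)) _))
    have hr' : (10 : ℝ) ≤ r := by exact_mod_cast hr
    push_cast
    have h2 := one_add_mul_le_pow (a := 1 / (2 * ((r : ℝ) + 2)))
      (le_trans (by norm_num) (by positivity : (0 : ℝ) ≤ 1 / (2 * ((r : ℝ) + 2)))) 5
    refine le_trans ?_ (mul_le_mul_of_nonneg_right h2 (by linarith))
    have h3 : (1 + ((5 : ℕ) : ℝ) * (1 / (2 * ((r : ℝ) + 2)))) * r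
        = r + 5 * r / (2 * ((r : ℝ) + 2)) := by push_cast; ring
    have h4 : 2 ≤ 5 * (r : ℝ) / (2 * ((r : ℝ) + 2)) := by
      rw [le_div_iff₀ (by positivity)]; linarith
    linarith
theorem Good.f_one (h : P.Good) (r : ℕ) : 1 ≤ P.f r := le_min (one_le_pow₀ h.L_one) (facts_fprod_one P r)
theorem Good.f_le (h : P.Good) (r : ℕ) : P.f r ≤ (P.L : ℝ) ^ 4782 := min_le_left _ _
theorem Good.f_r0 (h : P.Good) : P.f P.r0 = 1 := by
  rw [f, fprod, Nat.sub_self, Nat.zero_div, Finset.range_zero, Finset.prod_empty]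
  exact min_eq_right (one_le_pow₀ h.L_one)
theorem Good.wT_nonneg (h : P.Good) (r : ℕ) : 0 ≤ P.wT r := by
  unfold wT
  split_ifs <;> positivity

end Par

variable {P : Par ℝ} {r : ℕ} {t : ℝ}

theorem Ctx.r_le (h : Ctx P r t) : r ≤ P.r0 := by
  obtain ⟨i, hi⟩ := h.par
  omega
theorem Ctx.r_lo (h : Ctx P r t) : (P.L : ℝ) ^ 32059 ≤ r := by
  have hL := h.good.L_one
  have h1 : (P.rs : ℝ) < 4 * P.L * (r : ℝ) ^ 2 := by exact_mod_cast h.run
  rw [Par.rs_cast] at h1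
  by_contra hc
  have h2 : (r : ℝ) ^ 2 ≤ ((P.L : ℝ) ^ 32059) ^ 2 :=
    pow_le_pow_left₀ (Nat.cast_nonneg _) (not_le.1 hc).le 2
  have h3 : 4 * (P.L : ℝ) * (r : ℝ) ^ 2 ≤ 4 * P.L * ((P.L : ℝ) ^ 32059) ^ 2 :=
    mul_le_mul_of_nonneg_left h2 (by positivity)
  have h4 : 4 * (P.L : ℝ) * ((P.L : ℝ) ^ 32059) ^ 2 = 4 * (P.L : ℝ) ^ 64119 := by ring
  have h5 : 4 * (P.L : ℝ) ^ 64119 ≤ (P.L : ℝ) ^ 64120 :=
    cpow_le hL (le_trans (by norm_num) h.good.L_big) (by norm_num)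
  linarith
theorem Ctx.r_big (h : Ctx P r t) : 1000 ≤ r := by
  have h1 := h.r_lo
  have h2 : (P.L : ℝ) ≤ (P.L : ℝ) ^ 32059 := le_self_pow₀ h.good.L_one (by norm_num)
  have h3 : (1000 : ℝ) ≤ r := le_trans (le_trans (by norm_num) h.good.L_big) (h2.trans h1)
  exact_mod_cast h3
theorem Ctx.cast_sub (h : Ctx P r t) : ((r - 2 : ℕ) : ℝ) = r - 2 := by
  have := h.r_big
  rw [Nat.cast_sub (by omega), Nat.cast_ofNat]
theorem Ctx.t_lo (h : Ctx P r t) : (P.L : ℝ) ^ 4007 ≤ t := by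
  refine le_of_pow_le_pow_left₀ (n := 8) (by norm_num) h.t0.le ?_
  rw [h.t8, ← pow_mul]
  exact (pow_le_pow_right₀ h.good.L_one (by norm_num)).trans h.r_lo
theorem Ctx.t_hi (h : Ctx P r t) : t ≤ (P.L : ℝ) ^ 12001 := by
  refine le_of_pow_le_pow_left₀ (n := 8) (by norm_num) (by positivity) ?_
  rw [h.t8, ← pow_mul]
  have h1 : (r : ℝ) ≤ P.r0 := by exact_mod_cast h.r_le
  exact h1.trans (h.good.r0_hi.trans (pow_le_pow_right₀ h.good.L_one (by norm_num)))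
theorem Ctx.t_mid (h : Ctx P r t) (hr : P.r4 < r) : (P.L : ℝ) ^ 8009 ≤ t := by
  refine le_of_pow_le_pow_left₀ (n := 8) (by norm_num) h.t0.le ?_
  rw [h.t8, ← pow_mul]
  have h1 : (P.r4 : ℝ) ≤ r := by exact_mod_cast hr.le
  rwa [Par.r4_cast] at h1
theorem Ctx.t_tilt (h : Ctx P r t) (hr : P.r2 < r) : (P.L : ℝ) ^ 8155 ≤ t := by
  refine le_of_pow_le_pow_left₀ (n := 8) (by norm_num) h.t0.le ?_
  rw [h.t8, ← pow_mul]
  have h1 : (P.r2 : ℝ) ≤ r := by exact_mod_cast hr.le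
  rwa [Par.r2_cast] at h1
theorem Ctx.t4_tilt (h : Ctx P r t) (hr : r < 2 * P.r2 + 2) : t ^ 4 ≤ 2 * (P.L : ℝ) ^ 32620 := by
  refine le_of_pow_le_pow_left₀ (n := 2) (by norm_num) (by positivity) ?_
  rw [← pow_mul, h.t8]
  exact (h.good.facts_tilt hr).trans (le_of_eq (by ring))
/-- the new factor has index `i = (r0 - r)/2`, `r0 - 2 i = r` -/
theorem Ctx.f_step (h : Ctx P r t) : P.f (r - 2) ≤ P.f r * (1 + 1 / (2 * (r : ℝ))) := by
  obtain ⟨i, hi⟩ := h.par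
  have h1 := h.r_big
  have h2 := Par.facts_fprod_step P (r := r - 2) (i := i) (by omega)
  have e : r - 2 + 2 = r := by omega
  rw [e] at h2
  have hy : (1 : ℝ) ≤ 1 + 1 / (2 * (r : ℝ)) := le_add_of_nonneg_right (by positivity)
  unfold Par.f
  rw [h2, min_mul_of_nonneg _ _ (zero_le_one.trans hy)]
  exact min_le_min_right _ (le_mul_of_one_le_right (by positivity) hy)
/-- induction on the number of steps, `(1 + 1/(2ρ))^5 (ρ - 2) ≥ (1 + 5/(2ρ)) (ρ - 2) ≥ ρ` for `ρ ≥ 10` -/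
theorem Ctx.fprod_ge (h : Ctx P r t) : (P.r0 : ℝ) ≤ P.fprod r ^ 5 * r := by
  obtain ⟨i, hi⟩ := h.par
  exact Par.facts_fprod_ge P i r (by have := h.r_big; omega) hi
theorem Ctx.f_ge1 (h : Ctx P r t) (hr : (P.L : ℝ) ^ 11 * r ≤ 2 * P.r0) :
    2 * (P.L : ℝ) ^ 2 ≤ P.f r := by
  have hL := h.good.L_one
  have hB := h.good.L_big
  refine le_min (cpow_le hL (le_trans (by norm_num) hB) (by norm_num)) ?_
  refine le_of_pow_le_pow_left₀ (n := 5) (by norm_num)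
    (zero_le_one.trans (Par.facts_fprod_one P r)) ?_
  have hr0 : (0 : ℝ) < r := by have := h.r_big; exact_mod_cast (by omega : 0 < r)
  have h1 : (P.L : ℝ) ^ 11 * r ≤ 2 * P.fprod r ^ 5 * r := by linarith [h.fprod_ge]
  have h2 := le_of_mul_le_mul_right h1 hr0
  have h3 : 64 * (P.L : ℝ) ^ 10 ≤ (P.L : ℝ) ^ 11 :=
    cpow_le hL (le_trans (by norm_num) hB) (by norm_num)
  have h4 : (2 * (P.L : ℝ) ^ 2) ^ 5 = 32 * (P.L : ℝ) ^ 10 := by ring
  linarith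
theorem Ctx.f_ge2 (h : Ctx P r t) (hr : r < 2 * P.r2 + 2) : (P.L : ℝ) ^ 4782 ≤ P.f r := by
  have hL := h.good.L_one
  have hB := h.good.L_big
  refine le_min le_rfl ?_
  have hF := zero_le_one.trans (Par.facts_fprod_one P r)
  refine le_of_pow_le_pow_left₀ (n := 5) (by norm_num) hF ?_
  have h1 : P.fprod r ^ 5 * r ≤ P.fprod r ^ 5 * (4 * (P.L : ℝ) ^ 65240) :=
    mul_le_mul_of_nonneg_left (h.good.facts_tilt hr) (by positivity)
  have h2 : 4 * (P.L : ℝ) ^ 89150 ≤ (P.L : ℝ) ^ 96000 :=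
    cpow_le hL (le_trans (by norm_num) hB) (by norm_num)
  have h3 : ((P.L : ℝ) ^ 4782) ^ 5 * (4 * (P.L : ℝ) ^ 65240) = 4 * (P.L : ℝ) ^ 89150 := by ring
  have h4 := h.fprod_ge
  have h5 := h.good.r0_lo
  have h6 := h.good.n_lo
  have h7 : (0 : ℝ) ≤ P.n := Nat.cast_nonneg _
  refine le_of_mul_le_mul_right (a := 4 * (P.L : ℝ) ^ 65240) ?_ (by positivity)
  linarith

end Crest.Agent.R62
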