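import Crest.Agent.R62.Link
import Crest.Agent.R62.Endgame
import Crest.Prelude.Def_GraphCode

/-!
# R62/Finish: the output of the algorithm from a good final state (TASK)

Apply `endgame` with `Γ = adjGraph n (bitsL ..)` and the involution `π` of `R = σ.1` that swaps the positions `2j` and `2j+1`
(`π k = R[(R.idxOf k) xor 1]`, or `if idx % 2 = 0 then idx + 1 else idx - 1`; `R` has no duplicates and even length; as an element
of `Fin r0` use `lt`, default `k` outside `R`).  `(bitsL n E).getD (i n + j) false = decide (adjL E i j)` for `i, j < n`, `adjL` is symmetric,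
`adjL (pairsL d R) y z ↔ ∃ k ∈ R, k / d = y ∧ π k / d = z`.
-/

set_option autoImplicit false
open Finset Matrix

namespace Crest.Agent.R62

open Crest.CombinatoricsR Classical

/-- the swap `2j ↔ 2j+1` of positions -/
def finish_sw (i : ℕ) : ℕ := if i % 2 = 0 then i + 1 else i - 1

theorem finish_sw_lt {i n : ℕ} (hn : Even n) (hi : i < n) : finish_sw i < n := by
  obtain ⟨m, rfl⟩ := hn
  unfold finish_sw
  split_ifs <;> omega

theorem finish_sw_ne (i : ℕ) : finish_sw i ≠ i := by
  unfold finish_sw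
  split_ifs <;> omega

theorem finish_sw_sw (i : ℕ) : finish_sw (finish_sw i) = i := by
  unfold finish_sw
  split_ifs <;> omega

/-- the partner of `k` in the list `R` -/
def finish_p (R : List ℕ) (k : ℕ) : ℕ := R.getD (finish_sw (R.idxOf k)) 0

theorem finish_getD_mem {R : List ℕ} {i : ℕ} (hi : i < R.length) : R.getD i 0 ∈ R := by
  rw [List.getD_eq_getElem _ _ hi]
  exact List.getElem_mem hi

theorem finish_idx_getD {R : List ℕ} (hnd : R.Nodup) {i : ℕ} (hi : i < R.length) :
    R.idxOf (R.getD i 0) = i := by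
  rw [List.getD_eq_getElem _ _ hi]
  exact hnd.idxOf_getElem i hi

theorem finish_getD_idx {R : List ℕ} {k : ℕ} (hk : k ∈ R) : R.getD (R.idxOf k) 0 = k := by
  have hi : R.idxOf k < R.length := List.idxOf_lt_length_iff.2 hk
  rw [List.getD_eq_getElem _ _ hi]
  exact List.getElem_idxOf hi

theorem finish_p_mem {R : List ℕ} (hev : Even R.length) {k : ℕ} (hk : k ∈ R) :
    finish_p R k ∈ R :=
  finish_getD_mem (finish_sw_lt hev (List.idxOf_lt_length_iff.2 hk))

theorem finish_idx_p {R : List ℕ} (hnd : R.Nodup) (hev : Even R.length) {k : ℕ} (hk : k ∈ R) :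
    R.idxOf (finish_p R k) = finish_sw (R.idxOf k) :=
  finish_idx_getD hnd (finish_sw_lt hev (List.idxOf_lt_length_iff.2 hk))

theorem finish_p_ne {R : List ℕ} (hnd : R.Nodup) (hev : Even R.length) {k : ℕ} (hk : k ∈ R) :
    finish_p R k ≠ k := fun e => by
  have := finish_idx_p hnd hev hk
  rw [e] at this
  exact finish_sw_ne _ this.symm

theorem finish_p_p {R : List ℕ} (hnd : R.Nodup) (hev : Even R.length) {k : ℕ} (hk : k ∈ R) :
    finish_p R (finish_p R k) = k := by
  rw [finish_p, finish_idx_p hnd hev hk, finish_sw_sw, finish_getD_idx hk]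

theorem finish_adj_pairs {R : List ℕ} (hnd : R.Nodup) (hev : Even R.length) (d y z : ℕ) :
    adjL (pairsL d R) y z ↔ ∃ k ∈ R, k / d = y ∧ finish_p R k / d = z := by
  obtain ⟨m, hm⟩ := hev
  have hev : Even R.length := ⟨m, hm⟩
  simp only [adjL, pairsL, List.mem_map, List.mem_range, Prod.mk.injEq]
  constructor
  · rintro (⟨j, hj, h1, h2⟩ | ⟨j, hj, h1, h2⟩)
    · have hj' : 2 * j < R.length := by omega
      refine ⟨_, finish_getD_mem hj', h1, ?_⟩
      rw [finish_p, finish_idx_getD hnd hj', ← h2]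
      congr 2
      unfold finish_sw
      split_ifs <;> omega
    · have hj' : 2 * j + 1 < R.length := by omega
      refine ⟨_, finish_getD_mem hj', h2, ?_⟩
      rw [finish_p, finish_idx_getD hnd hj', ← h1]
      congr 2
      unfold finish_sw
      split_ifs <;> omega
  · rintro ⟨k, hk, rfl, rfl⟩
    have hi : R.idxOf k < R.length := List.idxOf_lt_length_iff.2 hk
    by_cases h2 : R.idxOf k % 2 = 0
    · refine Or.inl ⟨R.idxOf k / 2, by omega, ?_, ?_⟩
      · rw [show 2 * (R.idxOf k / 2) = R.idxOf k by omega, finish_getD_idx hk]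
      · rw [finish_p, finish_sw, if_pos h2, show 2 * (R.idxOf k / 2) = R.idxOf k by omega]
    · refine Or.inr ⟨R.idxOf k / 2, by omega, ?_, ?_⟩
      · rw [finish_p, finish_sw, if_neg h2, show 2 * (R.idxOf k / 2) = R.idxOf k - 1 by omega]
      · rw [show 2 * (R.idxOf k / 2) + 1 = R.idxOf k by omega, finish_getD_idx hk]

theorem finish_bits {n : ℕ} (E : List (ℕ × ℕ)) (i j : Fin n) :
    (bitsL n E).getD (i.val * n + j.val) false = true ↔ adjL E i j := by
  have hn : 0 < n := lt_of_le_of_lt (Nat.zero_le _) i.2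
  have hlt : i.val * n + j.val < n * n := by
    have h1 : (i.val + 1) * n ≤ n * n := Nat.mul_le_mul_right n i.2
    have h2 := j.2
    nlinarith
  have hl : i.val * n + j.val < (bitsL n E).length := by simpa [bitsL] using hlt
  have e1 : (i.val * n + j.val) / n = i.val := by
    rw [add_comm, Nat.add_mul_div_right _ _ hn, Nat.div_eq_of_lt j.2, zero_add]
  have e2 : (i.val * n + j.val) % n = j.val := by
    rw [add_comm, Nat.add_mul_mod_self_right, Nat.mod_eq_of_lt j.2]
  rw [List.getD_eq_getElem _ _ hl]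
  simp only [bitsL, List.getElem_map, List.getElem_range, e1, e2, decide_eq_true_eq]

theorem finish_adjL_symm (E : List (ℕ × ℕ)) (x y : ℕ) : adjL E x y ↔ adjL E y x := or_comm

theorem finish_adjL_append (E F : List (ℕ × ℕ)) (x y : ℕ) :
    adjL (E ++ F) x y ↔ adjL F x y ∨ adjL E x y := by
  simp only [adjL, List.mem_append]
  tauto

theorem finish {P : Par ℚ} {σ : Sig} (hP : P.toR.Good) (h : LInv P σ)
    (hi : Inv P.toR (vxF P) (interp P σ)) (hev : Even σ.1.length) (h0 : 0 < σ.1.length)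
    (h₁ : t2 (interp P σ).C₁ - P.toR.a ^ 2 < 1) (h₂ : t2 (interp P σ).C₂ - P.toR.a ^ 2 < 1)
    (hS : Sc (vxF P) (interp P σ).R < 1) (hA : Ac (vxF P) (interp P σ).adj (interp P σ).R < 1) :
    (GraphCode.adjGraph P.n (bitsL P.n (finalE P.d σ))).IsRegularOfDegree P.d ∧
    ∀ x : Fin P.n → ℝ, ∑ i, x i = 0 → x ≠ 0 →
      |x ⬝ᵥ ((GraphCode.adjGraph P.n (bitsL P.n (finalE P.d σ))).adjMatrix ℝ *ᵥ x)| <
        2 * Real.sqrt ((P.d : ℝ) - 1) * (x ⬝ᵥ x) := by
  let π : Fin P.r0 → Fin P.r0 := fun k =>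
    if hk : k.val ∈ σ.1 then ⟨finish_p σ.1 k.val, h.lt _ (finish_p_mem hev hk)⟩ else k
  have hπv : ∀ k : Fin P.r0, k.val ∈ σ.1 → (π k).val = finish_p σ.1 k.val := fun k hk => by
    simp only [π, dif_pos hk]
  have hmem : ∀ k : Fin P.r0, k ∈ (interp P σ).R ↔ k.val ∈ σ.1 := fun k => by
    simp [interp]
  have hR : 0 < (interp P σ).R.card := by rw [interp_card h]; exact h0
  refine endgame (P := P.toR) hP (Fintype.card_fin _) hi hR h₁ h₂ hS hA π ?_ _ ?_
  · intro k hk
    rw [hmem] at hk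
    have hk' : (π k).val ∈ σ.1 := by rw [hπv k hk]; exact finish_p_mem hev hk
    refine ⟨(hmem _).2 hk', fun e => finish_p_ne h.nodup hev hk ?_, Fin.ext ?_⟩
    · rw [← hπv k hk, e]
    · rw [hπv _ hk', hπv k hk, finish_p_p h.nodup hev hk]
  · intro (y : Fin P.n) (z : Fin P.n)
    have e : (GraphCode.adjGraph P.n (bitsL P.n (finalE P.d σ))).Adj y z ↔
        y ≠ z ∧ adjL (finalE P.d σ) y z := by
      show (y ≠ z ∧ _ ∧ _) ↔ _
      rw [finish_bits, finish_bits, finish_adjL_symm _ z.val y.val, and_self]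
    rw [e, finalE, finish_adjL_append, finish_adj_pairs h.nodup hev]
    refine and_congr_right fun _ => or_congr Iff.rfl ⟨?_, ?_⟩
    · rintro ⟨k, hk, h1, h2⟩
      refine ⟨⟨k, h.lt k hk⟩, (hmem _).2 hk, Fin.ext h1, Fin.ext ?_⟩
      show (π ⟨k, h.lt k hk⟩).val / P.d = z.val
      rw [hπv _ hk]
      exact h2
    · rintro ⟨k, hk, h1, h2⟩
      rw [hmem] at hk
      refine ⟨k.val, hk, congrArg Fin.val h1, ?_⟩
      rw [← hπv k hk]
      exact congrArg Fin.val h2

end Crest.Agent.R62
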