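import Crest.Agent.R62.Par

/-!
# R62/GoodPar: the derived bounds on the parameters (TASK)

Put `w = 1 - (d-1) m² ∈ [L^-31880, 2 L^-31880]` (tiny), so `m² ≤ 1/(d-1) ≤ 1/2`, `m² ≥ 0.99/(d-1)`, `m ≥ 1/d`.
`a = 1/(1-m²) ∈ [1,2]`, `g = m a`, `m ≤ g ≤ √2`.  With `p = (d-1) m`, `q = 1/m`: `x = 4pq/(p+q)`, so `x² ≤ 4 p q = 4(d-1)`
(harmonic ≤ geometric mean: `x² ≤ 4(d-1)` iff `4 (d-1) m² ≤ (1 + (d-1) m²)²`), and
`1/g - (x - d m) = p + q - x = (p-q)²/(p+q) = w²/(m (2 - w)) =: ξ ∈ [0, d w²]`.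
Hence `x - d m = 1/g - ξ > 0`, `gam = g/(1 - g ξ) ∈ [g, 2g]`, `ε := gam - g = g gam ξ ≤ 18 d / L^63760`,
`Th = n d ε ≤ 36 d² L^32240`.
`psi0 = n d a² w + (gam d - g)² - a² - n (2 (d-1) d g ε + d² ε²)` (use `a² - (d-1) g² = a² w`), so
`2 rs ≤ psi0 ≤ 17 d rs`; `Y0 ≤ 1/psi0`, `Y0 ≥ 1/(17 d rs) - 1/(3 L^96000) ≥ 1/(L rs)`.
`Tc ≥ n g³ (d-1) d (d-2) ≥ n · m · 0.99 d (d-2) ≥ 1.5 n` (`m² (0.99 d (d-2))² ≥ 0.97 d² (d-2)²/(d-1) ≥ 2.25`),
`0 ≤ Tc ≤ n (3d)³`.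
-/

set_option autoImplicit false

namespace Crest.Agent.R62

/-- the scales: `Z = L^31880`, `M = L^32240` -/
private structure goodpar_H (D L Z M n m : ℝ) : Prop where
  D3 : 3 ≤ D
  LD : 1000 * D ^ 6 ≤ L
  LZ : L ≤ Z
  M1 : 1 ≤ M
  nlo : M * Z ^ 2 ≤ n
  nhi : n ≤ 2 * (M * Z ^ 2)
  m0 : 0 < m
  w1 : 1 / Z ≤ 1 - (D - 1) * m ^ 2
  w2 : 1 - (D - 1) * m ^ 2 ≤ 2 / Z

section core

variable {D L Z M n m : ℝ}

private theorem goodpar_D6 (h : goodpar_H D L Z M n m) :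
    1000 ≤ L ∧ 1000 * D ≤ L ∧ 1000 * D ^ 2 ≤ L ∧ 1000 * D ^ 3 ≤ L := by
  have h1 : (1 : ℝ) ≤ D := by linarith [h.D3]
  have h0 : D ^ 0 ≤ D ^ 6 := pow_le_pow_right₀ h1 (by norm_num)
  have h2 : D ^ 1 ≤ D ^ 6 := pow_le_pow_right₀ h1 (by norm_num)
  have h3 : D ^ 2 ≤ D ^ 6 := pow_le_pow_right₀ h1 (by norm_num)
  have h4 : D ^ 3 ≤ D ^ 6 := pow_le_pow_right₀ h1 (by norm_num)
  rw [pow_zero] at h0
  rw [pow_one] at h2
  have := h.LD
  refine ⟨?_, ?_, ?_, ?_⟩ <;> linarith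

private theorem goodpar_Z (h : goodpar_H D L Z M n m) : 1000 ≤ Z :=
  (goodpar_D6 h).1.trans h.LZ

private theorem goodpar_w (h : goodpar_H D L Z M n m) :
    0 < 1 - (D - 1) * m ^ 2 ∧ 1 - (D - 1) * m ^ 2 ≤ 1 / 100 := by
  have hZ := goodpar_Z h
  constructor
  · exact lt_of_lt_of_le (by positivity) h.w1
  · refine h.w2.trans ?_
    rw [div_le_div_iff₀ (by linarith) (by norm_num)]
    linarith

private theorem goodpar_m2 (h : goodpar_H D L Z M n m) : m ^ 2 ≤ 1 / 2 := by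
  have h1 := (goodpar_w h).1
  have h2 := h.D3
  nlinarith [sq_nonneg m]

private theorem goodpar_Dm (h : goodpar_H D L Z M n m) : 19 / 10 ≤ D * m := by
  have h1 := (goodpar_w h).2
  have h2 := h.D3
  have h3 := h.m0
  have h4 : (19 / 10 : ℝ) ^ 2 ≤ (D * m) ^ 2 := by
    have : 4 * (D - 1) * m ^ 2 ≤ D ^ 2 * m ^ 2 :=
      mul_le_mul_of_nonneg_right (by nlinarith [sq_nonneg (D - 2)]) (sq_nonneg m)
    nlinarith
  exact (pow_le_pow_iff_left₀ (by norm_num) (by positivity) two_ne_zero).mp h4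

private theorem goodpar_a (h : goodpar_H D L Z M n m) :
    1 ≤ 1 / (1 - m ^ 2) ∧ 1 / (1 - m ^ 2) ≤ 2 := by
  have h1 := goodpar_m2 h
  have h2 : 0 < 1 - m ^ 2 := by linarith
  constructor
  · rw [le_div_iff₀ h2]; nlinarith [sq_nonneg m]
  · rw [div_le_iff₀ h2]; linarith

private theorem goodpar_x (h : goodpar_H D L Z M n m) :
    4 * (D - 1) * m / (1 + (D - 1) * m ^ 2) ≤ 2 * Real.sqrt (D - 1) := by
  have h1 : 0 ≤ D - 1 := by linarith [h.D3]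
  obtain ⟨s, hs0, hs⟩ : ∃ s : ℝ, 0 ≤ s ∧ D - 1 = s ^ 2 :=
    ⟨Real.sqrt (D - 1), Real.sqrt_nonneg _, (Real.sq_sqrt h1).symm⟩
  rw [hs, Real.sqrt_sq hs0, div_le_iff₀ (by positivity)]
  have := mul_nonneg hs0 (sq_nonneg (s * m - 1))
  nlinarith

/-- `x - D m = 1/g - ξ` with `0 ≤ ξ ≤ 4 D / Z²` -/
private theorem goodpar_xi (h : goodpar_H D L Z M n m) : ∃ ξ : ℝ, 0 ≤ ξ ∧ ξ * Z ^ 2 ≤ 4 * D ∧
    4 * (D - 1) * m / (1 + (D - 1) * m ^ 2) - D * m = (1 - m ^ 2) / m - ξ := by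
  obtain ⟨hw0, hw1⟩ := goodpar_w h
  have hm := h.m0
  have hD := h.D3
  have hZ := goodpar_Z h
  have hDm := goodpar_Dm h
  have hq : 0 < 1 + (D - 1) * m ^ 2 := by linarith
  refine ⟨(1 - (D - 1) * m ^ 2) ^ 2 / (m * (1 + (D - 1) * m ^ 2)), by positivity, ?_, ?_⟩
  · have h1 : (1 - (D - 1) * m ^ 2) * Z ≤ 2 := by
      have := h.w2
      rwa [le_div_iff₀ (by linarith)] at this
    have h2 : ((1 - (D - 1) * m ^ 2) * Z) ^ 2 ≤ 2 ^ 2 :=
      pow_le_pow_left₀ (by positivity) h1 2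
    rw [div_mul_eq_mul_div, div_le_iff₀ (by positivity), ← mul_pow]
    have h3 : 1 * 1 ≤ (D * m) * (1 + (D - 1) * m ^ 2) :=
      mul_le_mul (by linarith) (by linarith) (by norm_num) (by positivity)
    nlinarith
  · field_simp
    ring

/-- all the bounds on `g` and `ε = gam - g` -/
private theorem goodpar_eps (h : goodpar_H D L Z M n m) {a g x gam : ℝ} (ha : a = 1 / (1 - m ^ 2))
    (hg : g = m * a) (hx : x = 4 * (D - 1) * m / (1 + (D - 1) * m ^ 2))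
    (hgam : gam = 1 / (x - D * m)) :
    m ≤ g ∧ g ^ 2 ≤ a ^ 2 / 2 ∧ g ≤ 3 / 2 ∧ 0 < x - D * m ∧ g ≤ gam ∧ gam ≤ 3 ∧
      (gam - g) * Z ^ 2 ≤ 18 * D := by
  obtain ⟨ξ, h0, h1, h2⟩ := goodpar_xi h
  obtain ⟨a1, a2⟩ := goodpar_a h
  rw [← ha] at a1 a2
  rw [← hx] at h2
  have hm := h.m0
  have hm2 := goodpar_m2 h
  have hD := h.D3
  have hZ := goodpar_Z h
  have hg0 : 0 < g := by rw [hg]; positivity
  have e1 : m ≤ g := by rw [hg]; nlinarith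
  have e2 : g ^ 2 ≤ a ^ 2 / 2 := by
    rw [hg, mul_pow]; nlinarith [sq_nonneg a]
  have e3 : g ≤ 3 / 2 := by
    refine (pow_le_pow_iff_left₀ hg0.le (by norm_num) two_ne_zero).mp ?_
    nlinarith
  have e4 : (1 - m ^ 2) / m = 1 / g := by
    have h9 : 0 < 1 - m ^ 2 := by linarith
    rw [hg, ha]; field_simp
  rw [e4] at h2
  have hξ : ξ ≤ 1 / 100 := by
    have h3 : D ≤ Z / 1000 := by linarith [(goodpar_D6 h).2.1, h.LZ]
    by_contra hc
    push Not at hc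
    have : 1 / 100 * Z ^ 2 ≤ ξ * Z ^ 2 := mul_le_mul_of_nonneg_right hc.le (sq_nonneg Z)
    nlinarith
  have e5 : g * ξ ≤ 1 / 2 := by nlinarith
  have e6 : x - D * m = (1 - g * ξ) / g := by rw [h2]; field_simp
  have e7 : 0 < 1 - g * ξ := by linarith
  have e8 : gam * (1 - g * ξ) = g := by rw [hgam, e6]; field_simp
  have e9 : 0 < gam := by rw [hgam, e6]; positivity
  have e10 : gam - g = gam * g * ξ := by linarith
  have e11 : gam ≤ 3 := by nlinarith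
  refine ⟨e1, e2, e3, by rw [e6]; positivity, ?_, e11, ?_⟩
  · have : 0 ≤ gam * g * ξ := by positivity
    linarith
  · rw [e10, mul_assoc (gam * g)]
    have h5 : gam * g ≤ 3 * (3 / 2) := mul_le_mul e11 e3 hg0.le (by norm_num)
    have h6 := mul_le_mul h5 h1 (by positivity) (by norm_num)
    linarith

private theorem goodpar_psi (h : goodpar_H D L Z M n m) {a g gam psi : ℝ} (a1 : 1 ≤ a) (a2 : a ≤ 2)
    (hg : g = m * a) (g3 : g ≤ 3 / 2) (e0 : g ≤ gam) (gam3 : gam ≤ 3)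
    (e1 : (gam - g) * Z ^ 2 ≤ 18 * D)
    (hpsi : psi = a ^ 2 * (n * D) - ((n - 1) * (gam * D - g) ^ 2 + n * (D - 1) * g ^ 2 + a ^ 2)) :
    M * Z ≤ psi ∧ psi ≤ 17 * D * (M * Z) := by
  have hm := h.m0
  have hD := h.D3
  have hZ := goodpar_Z h
  have hM := h.M1
  have hg0 : 0 < g := by rw [hg]; positivity
  obtain ⟨ε, hε⟩ : ∃ ε, ε = gam - g := ⟨_, rfl⟩
  obtain ⟨w, hw⟩ : ∃ w, w = 1 - (D - 1) * m ^ 2 := ⟨_, rfl⟩
  have hw0 : 0 < w := hw ▸ (goodpar_w h).1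
  have hε0 : 0 ≤ ε := by linarith
  have hε3 : ε ≤ 3 := by linarith
  have hn0 : 0 < n := lt_of_lt_of_le (by positivity) h.nlo
  have key : psi = n * w * (D * a ^ 2) + (gam * D - g) ^ 2 - a ^ 2 -
      n * ε * (2 * (D - 1) * D * g + D ^ 2 * ε) := by
    rw [hpsi, hw, hε, hg]; ring
  have w1 : 1 ≤ w * Z := by
    have := h.w1
    rwa [← hw, div_le_iff₀ (by linarith)] at this
  have w2 : w * Z ≤ 2 := by
    have := h.w2
    rwa [← hw, le_div_iff₀ (by linarith)] at this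
  have nw1 : M * Z ≤ n * w := by
    calc M * Z = M * Z * 1 := by ring
      _ ≤ M * Z * (w * Z) := mul_le_mul_of_nonneg_left w1 (by positivity)
      _ = M * Z ^ 2 * w := by ring
      _ ≤ n * w := mul_le_mul_of_nonneg_right h.nlo hw0.le
  have nw2 : n * w ≤ 4 * (M * Z) := by
    calc n * w ≤ 2 * (M * Z ^ 2) * w := mul_le_mul_of_nonneg_right h.nhi hw0.le
      _ = 2 * (M * Z) * (w * Z) := by ring
      _ ≤ 2 * (M * Z) * 2 := mul_le_mul_of_nonneg_left w2 (by positivity)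
      _ = 4 * (M * Z) := by ring
  have a3 : 1 ≤ a ^ 2 := by nlinarith
  have a4 : a ^ 2 ≤ 4 := by nlinarith
  have ne1 : n * ε ≤ 36 * D * M := by
    calc n * ε ≤ 2 * (M * Z ^ 2) * ε := mul_le_mul_of_nonneg_right h.nhi hε0
      _ = 2 * M * (ε * Z ^ 2) := by ring
      _ ≤ 2 * M * (18 * D) := mul_le_mul_of_nonneg_left (by rw [hε]; exact e1) (by positivity)
      _ = 36 * D * M := by ring
  have b0 : 0 ≤ 2 * (D - 1) * D * g + D ^ 2 * ε := by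
    have : 0 ≤ D - 1 := by linarith
    positivity
  have b1 : 2 * (D - 1) * D * g + D ^ 2 * ε ≤ 6 * D ^ 2 := by
    have c1 : 2 * (D - 1) * D * g ≤ 2 * D * D * (3 / 2) :=
      mul_le_mul (by nlinarith) g3 hg0.le (by positivity)
    have c2 : D ^ 2 * ε ≤ D ^ 2 * 3 := mul_le_mul_of_nonneg_left hε3 (by positivity)
    nlinarith
  have b2 : n * ε * (2 * (D - 1) * D * g + D ^ 2 * ε) ≤ M * Z / 2 := by
    have c1 := mul_le_mul ne1 b1 b0 (by positivity)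
    have c2 : 1000 * D ^ 3 ≤ Z := (goodpar_D6 h).2.2.2.trans h.LZ
    have c3 : M * (1000 * D ^ 3) ≤ M * Z := mul_le_mul_of_nonneg_left c2 (by linarith)
    have c4 : 0 ≤ M * D ^ 3 := by positivity
    nlinarith
  have b3 : 0 ≤ n * ε * (2 * (D - 1) * D * g + D ^ 2 * ε) := by positivity
  have MZ : 1000 ≤ M * Z := by nlinarith
  constructor
  · have c1 : M * Z * (3 * 1) ≤ n * w * (D * a ^ 2) :=
      mul_le_mul nw1 (mul_le_mul hD a3 (by norm_num) (by linarith)) (by norm_num) (by positivity)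
    nlinarith [sq_nonneg (gam * D - g)]
  · have c1 : n * w * (D * a ^ 2) ≤ 4 * (M * Z) * (D * 4) :=
      mul_le_mul nw2 (mul_le_mul_of_nonneg_left a4 (by linarith)) (by positivity) (by positivity)
    have c2 : gam * D - g ≤ 3 * D := by nlinarith
    have c3 : 0 ≤ gam * D - g := by nlinarith
    have c4 : (gam * D - g) ^ 2 ≤ (3 * D) ^ 2 := pow_le_pow_left₀ c3 c2 2
    have c5 : 1000 * D ≤ M * Z := by
      have : 1000 * D ≤ Z := (goodpar_D6 h).2.1.trans h.LZ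
      nlinarith
    have c6 : D * (1000 * D) ≤ D * (M * Z) := mul_le_mul_of_nonneg_left c5 (by linarith)
    nlinarith [sq_nonneg D]

private theorem goodpar_Y (h : goodpar_H D L Z M n m) {a psi : ℝ} (a1 : 1 ≤ a)
    (p1 : M * Z ≤ psi) (p2 : psi ≤ 17 * D * (M * Z)) :
    1 / (L * (M * Z)) ≤ 1 / psi - 1 / (a ^ 2 * (n * D)) ∧
      1 / psi - 1 / (a ^ 2 * (n * D)) ≤ 1 / (M * Z) := by
  have hD := h.D3
  have hZ := goodpar_Z h
  have hM := h.M1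
  have hL := (goodpar_D6 h).1
  have hMZ : 0 < M * Z := by positivity
  have hn0 : 0 < n := lt_of_lt_of_le (by positivity) h.nlo
  have hp : 0 < psi := lt_of_lt_of_le hMZ p1
  constructor
  · have c1 : 2 / (L * (M * Z)) ≤ 1 / psi := by
      rw [div_le_div_iff₀ (by positivity) hp]
      have : 34 * D * (M * Z) ≤ L * (M * Z) :=
        mul_le_mul_of_nonneg_right (by linarith [(goodpar_D6 h).2.1]) hMZ.le
      linarith
    have c2 : 1 / (a ^ 2 * (n * D)) ≤ 1 / (L * (M * Z)) := by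
      refine one_div_le_one_div_of_le (by positivity) ?_
      have d1 : L * (M * Z) ≤ n := by
        calc L * (M * Z) ≤ Z * (M * Z) := mul_le_mul_of_nonneg_right h.LZ hMZ.le
          _ = M * Z ^ 2 := by ring
          _ ≤ n := h.nlo
      have d2 : 1 ≤ a ^ 2 := by nlinarith
      have d3 : 1 * (n * 1) ≤ a ^ 2 * (n * D) :=
        mul_le_mul d2 (mul_le_mul_of_nonneg_left (by linarith) hn0.le) (by positivity) (by positivity)
      linarith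
    have c3 : 2 / (L * (M * Z)) = 1 / (L * (M * Z)) + 1 / (L * (M * Z)) := by ring
    linarith
  · have c1 : 1 / psi ≤ 1 / (M * Z) := one_div_le_one_div_of_le hMZ p1
    have c2 : 0 ≤ 1 / (a ^ 2 * (n * D)) := by positivity
    linarith

private theorem goodpar_T (h : goodpar_H D L Z M n m) {g gam T : ℝ} (g1 : m ≤ g) (e0 : g ≤ gam)
    (gam3 : gam ≤ 3) (hT : T = n * (gam * D - g) ^ 3 - n * (D - 1) * g ^ 3) :
    3 / 2 * n ≤ T ∧ T ^ 2 ≤ L * n ^ 2 := by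
  have hm := h.m0
  have hD := h.D3
  have hZ := goodpar_Z h
  have hM := h.M1
  have hn0 : 0 < n := lt_of_lt_of_le (by positivity) h.nlo
  have hg0 : 0 < g := lt_of_lt_of_le hm g1
  have hD1 : 0 ≤ D - 1 := by linarith
  have c1 : (D - 1) * g ≤ gam * D - g := by nlinarith
  have c2 : ((D - 1) * g) ^ 3 ≤ (gam * D - g) ^ 3 := pow_le_pow_left₀ (by positivity) c1 3
  have c3 : 99 / 100 ≤ (D - 1) * g ^ 2 := by
    have d1 : m ^ 2 ≤ g ^ 2 := pow_le_pow_left₀ hm.le g1 2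
    have d2 := mul_le_mul_of_nonneg_left d1 hD1
    linarith [(goodpar_w h).2]
  have c4 : 19 / 10 ≤ D * g := by
    have := goodpar_Dm h
    nlinarith
  have c5 : 99 / 100 * (19 / 10) * 1 ≤ (D - 1) * g ^ 2 * (D * g) * (D - 2) :=
    mul_le_mul (mul_le_mul c3 c4 (by norm_num) (by positivity)) (by linarith) (by norm_num)
      (by positivity)
  have c6 : 3 / 2 ≤ (gam * D - g) ^ 3 - (D - 1) * g ^ 3 := by nlinarith
  have c7 : T = n * ((gam * D - g) ^ 3 - (D - 1) * g ^ 3) := by rw [hT]; ring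
  have c8 : gam * D - g ≤ 3 * D := by nlinarith
  have c9 : (gam * D - g) ^ 3 ≤ (3 * D) ^ 3 :=
    pow_le_pow_left₀ (le_trans (by positivity) c1) c8 3
  have c10 : (gam * D - g) ^ 3 - (D - 1) * g ^ 3 ≤ 27 * D ^ 3 := by
    have : 0 ≤ (D - 1) * g ^ 3 := by positivity
    nlinarith
  constructor
  · rw [c7, mul_comm (3 / 2 : ℝ)]
    exact mul_le_mul_of_nonneg_left c6 hn0.le
  · have d1 : ((gam * D - g) ^ 3 - (D - 1) * g ^ 3) ^ 2 ≤ (27 * D ^ 3) ^ 2 :=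
      pow_le_pow_left₀ (by linarith) c10 2
    have d2 : (27 * D ^ 3) ^ 2 ≤ L := by
      have := h.LD
      have e : 0 ≤ D ^ 6 := by positivity
      nlinarith
    rw [c7, mul_pow, mul_comm]
    exact mul_le_mul_of_nonneg_right (d1.trans d2) (sq_nonneg n)

private theorem goodpar_Th (h : goodpar_H D L Z M n m) {ε : ℝ} (e0 : 0 ≤ ε)
    (e1 : ε * Z ^ 2 ≤ 18 * D) : n * D * ε ≤ L * M := by
  have hD := h.D3
  have hM := h.M1
  have hD2 := (goodpar_D6 h).2.2.1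
  calc n * D * ε = n * (D * ε) := by ring
    _ ≤ 2 * (M * Z ^ 2) * (D * ε) := mul_le_mul_of_nonneg_right h.nhi (by positivity)
    _ = 2 * M * D * (ε * Z ^ 2) := by ring
    _ ≤ 2 * M * D * (18 * D) := mul_le_mul_of_nonneg_left e1 (by positivity)
    _ = 36 * D ^ 2 * M := by ring
    _ ≤ L * M := mul_le_mul_of_nonneg_right (by nlinarith [sq_nonneg D]) (by linarith)

end core

private theorem goodpar_H_of {P : Par ℝ} (h : P.Basic) :
    goodpar_H (P.d : ℝ) (P.L : ℝ) ((P.L : ℝ) ^ 31880) ((P.L : ℝ) ^ 32240) (P.n : ℝ) P.m := by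
  have hd : (3 : ℝ) ≤ P.d := by exact_mod_cast h.d3
  have hL : (10 : ℝ) ^ 80 * (P.d : ℝ) ^ 20 ≤ P.L := by exact_mod_cast h.Lbig
  have h1 : (1 : ℝ) ≤ P.d := by linarith
  have h6 : (P.d : ℝ) ^ 6 ≤ (P.d : ℝ) ^ 20 := pow_le_pow_right₀ h1 (by norm_num)
  have h7 : (1 : ℝ) ≤ (P.d : ℝ) ^ 6 := one_le_pow₀ h1
  have hLD : 1000 * (P.d : ℝ) ^ 6 ≤ P.L :=
    le_trans (mul_le_mul (by norm_num) h6 (by positivity) (by positivity)) hL
  have hL1 : (1 : ℝ) ≤ P.L := by linarith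
  have e : (P.L : ℝ) ^ 32240 * ((P.L : ℝ) ^ 31880) ^ 2 = (P.L : ℝ) ^ 96000 := by
    rw [← pow_mul, ← pow_add]
  refine ⟨hd, hLD, ?_, one_le_pow₀ hL1, ?_, ?_, h.m0, h.om1, h.om2⟩
  · exact le_self_pow₀ hL1 (by norm_num)
  · rw [e]; exact_mod_cast h.nlo
  · rw [e]; exact_mod_cast h.nhi

theorem Par.Basic.good {P : Par ℝ} (h : P.Basic) : P.Good := by
  have H := goodpar_H_of h
  obtain ⟨a1, a2⟩ : 1 ≤ P.a ∧ P.a ≤ 2 := goodpar_a H
  obtain ⟨g1, g2, g3, xm, e0, gam3, e1⟩ := goodpar_eps H (a := P.a) (g := P.g) (x := P.x)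
    (gam := P.gam) rfl rfl rfl rfl
  have hr0 : (P.r0 : ℝ) = P.n * P.d := by unfold Par.r0; push_cast; ring
  have hrs : (P.rs : ℝ) = (P.L : ℝ) ^ 32240 * (P.L : ℝ) ^ 31880 := by
    unfold Par.rs; rw [← pow_add, Nat.cast_pow]
  obtain ⟨p1, p2⟩ := goodpar_psi H (psi := P.psi0) (g := P.g) a1 a2 rfl g3 e0 gam3 e1
    (by unfold Par.psi0; rw [hr0])
  obtain ⟨y1, y2⟩ := goodpar_Y H a1 p1 p2
  obtain ⟨t1, t2⟩ := goodpar_T H (T := P.Tc) g1 e0 gam3 rfl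
  have hth := goodpar_Th H (ε := P.gam - P.g) (by linarith) e1
  have hL0 : (0 : ℝ) < P.L := by linarith [(goodpar_D6 H).1]
  refine
    { toBasic := h
      m2 := goodpar_m2 H
      a1 := a1
      a2 := a2
      g0 := lt_of_lt_of_le h.m0 g1
      g2 := g2
      xlt := goodpar_x H
      xm := xm
      gam1 := e0
      gam2 := gam3
      Th0 := ?_
      Th1 := ?_
      psi0 := lt_of_lt_of_le (mul_pos (pow_pos hL0 _) (pow_pos hL0 _)) p1
      Y1 := ?_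
      Y2 := ?_
      Tc1 := t1
      Tc2 := t2 }
  · unfold Par.Th
    exact mul_nonneg (Nat.cast_nonneg _) (by linarith)
  · unfold Par.Th
    rw [hr0, pow_succ' (P.L : ℝ) 32240]
    exact hth
  · unfold Par.Y0
    rw [hr0, hrs]
    exact y1
  · unfold Par.Y0
    rw [hr0, hrs]
    exact y2

end Crest.Agent.R62
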