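import Crest.Agent.R62.State
import Crest.Agent.R62.Facts
import Crest.Agent.R62.Api

/-!
# R62/Init: the initial state (TASK)

All fibres of `vx` have `d` elements, so `card ι = n d = r0`, `rho = d`.
`init_inv`: `Ht = (x - m d) 1 + ((s d - x)/n) J`, inverse `G = gam (1 - J/n) + ((s a + g)/(n d)) J` (`gam (x - d m) = 1`,
`(s - m)(s a + g) = 1`); on `ρ^⊥ = {Σ w = 0}` the form is `(x - d m) ‖w‖² > 0`.
`init_U`: `C0 = gam E + c J - g 1` with `E k l = 1{vx k = vx l}`, `E² = d E`, `E J = J E = d J`, `J² = r0 J`.  Best write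
`C0 b = λ₁ P₁ + λ₂ P₂ + b P₃` with the orthogonal idempotents `P₁ = E/d - J/r0` (trace `n - 1`), `P₃ = J/r0` (trace `1`),
`P₂ = 1 - E/d` (trace `n (d-1)`), `λ₁ = gam d - g ∈ [0, 3d]`, `λ₂ = -g`; then the trace of any word is
`(n-1) λ₁^j + n (d-1) (-g)^j + Π b_i`.  The terms at `r = r0` (`> 2 r2 + 2`), each at most `16/L` or so (`UF = 0`):
`-t1 - A r0 = gam d - g - b`; `a² r0 - t2 = psi0 = Psi r0`; `t3 - Tc = b³ - λ₁³`; `t4 ≤ 100 d^4 n`;
`C0 k k = (gam - g) - gam/n + (b+g)/r0`, so `dd ≤ 2 Th²/r0 + 2 r0 (5/n)² ≤ 1`; `bet k = t2/r0 ≤ a²` for all `k` (the diagonal of `C0²` is constant),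
`ww ≤ 16 r0`, `q4 ≤ ww` (`q4_le_ww`), `f r0 = 1`; `|chi| ≤ 40 d³ n`; `Sc ≤ r0 d`; `Ac = 0`.  Use `10^80 d^20 ≤ L`.
-/

set_option autoImplicit false
set_option linter.unusedSectionVars false
open Finset Matrix

namespace Crest.Agent.R62

variable {ι V : Type} [Fintype ι] [DecidableEq ι] [Fintype V] [DecidableEq V]
  {P : Par ℝ} {vx : ι → V}

theorem init_card (hV : Fintype.card V = P.n)
    (hf : ∀ y, (univ.filter fun k => vx k = y).card = P.d) : Fintype.card ι = P.r0 := by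
  rw [← card_univ, card_eq_sum_card_fiberwise (f := vx) (t := univ) fun _ _ => mem_univ _]
  simp [hf, hV, Par.r0]

theorem init_rho (hf : ∀ y, (univ.filter fun k => vx k = y).card = P.d) (y : V) :
    rho vx univ y = P.d := by rw [rho, hf]

theorem init_n_pos (hP : P.Good) : (0 : ℝ) < P.n :=
  lt_of_lt_of_le (pow_pos (lt_of_lt_of_le one_pos hP.L_one) _) hP.n_lo

theorem init_Ht (hf : ∀ y, (univ.filter fun k => vx k = y).card = P.d) (s : ℝ) (y z : V) :
    Ht P s vx univ (fun _ _ => False) y z =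
      (if y = z then P.x - P.d * P.m else 0) + (s * P.d - P.x) / P.n := by
  simp [Ht, Amat, init_rho hf, mul_comm]

theorem init_winv (hP : P.Good) (hV : Fintype.card V = P.n)
    (hf : ∀ y, (univ.filter fun k => vx k = y).card = P.d) {s b : ℝ}
    (hs : (s - P.m) * (b + P.g) = 1) : WInv P s vx univ (fun _ _ => False) (C0 P b vx) := by
  have hn := init_n_pos hP
  have hd : (0 : ℝ) < P.d := by linarith [hP.d3']
  have hx := hP.xm
  refine ⟨⟨Matrix.of fun y z => (if y = z then P.gam else 0) +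
    ((b + P.g) / P.r0 - P.gam / P.n), ?_, fun k l => ?_⟩, fun w hw hw0 => ?_⟩
  · ext y z
    rw [Matrix.mul_apply, Matrix.one_apply]
    simp only [init_Ht hf, Matrix.of_apply, add_mul, mul_add, sum_add_distrib, ite_mul, mul_ite,
      zero_mul, mul_zero, sum_ite_eq, sum_ite_eq', mem_univ, if_true, sum_const, card_univ, hV,
      nsmul_eq_mul]
    have hg : P.gam * (P.x - P.d * P.m) = 1 := by rw [Par.gam]; field_simp
    have key : (s * P.d - P.x) / P.n * P.gam + ((P.x - P.d * P.m) * ((b + P.g) / P.r0 - P.gam / P.n) +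
        P.n * ((s * P.d - P.x) / P.n * ((b + P.g) / P.r0 - P.gam / P.n))) = 0 := by
      rw [P.r0_cast]
      field_simp
      linear_combination (P.d : ℝ) * hs - P.d * hg
    split_ifs <;> linarith
  · simp only [C0, Matrix.of_apply, mem_univ, and_self, if_true]
    split_ifs <;> ring
  · have h0 : ∑ y, w y = 0 := by
      simp only [init_rho hf, ← mul_sum] at hw
      exact (mul_eq_zero.1 hw).resolve_left hd.ne'
    have e : w ⬝ᵥ Ht P s vx univ (fun _ _ => False) *ᵥ w = (P.x - P.d * P.m) * (w ⬝ᵥ w) := by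
      simp only [dotProduct, mulVec, init_Ht hf, add_mul, sum_add_distrib, ite_mul, zero_mul,
        sum_ite_eq, mem_univ, if_true, ← mul_sum, h0, mul_zero, add_zero]
      rw [mul_sum]
      exact sum_congr rfl fun _ _ => by ring
    rw [e]
    refine mul_pos hx (lt_of_le_of_ne (sum_nonneg fun _ _ => mul_self_nonneg _) fun h => hw0 ?_)
    exact dotProduct_self_eq_zero.1 h.symm

theorem init_inv (hP : P.Good) (hV : Fintype.card V = P.n)
    (hf : ∀ y, (univ.filter fun k => vx k = y).card = P.d) : Inv P vx (St.init P vx) := by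
  have hm : 1 - P.m ^ 2 ≠ 0 := by linarith [hP.m2]
  refine ⟨⟨fun _ _ h => h, fun _ h => h, fun y => ?_⟩, init_winv hP hV hf ?_, init_winv hP hV hf ?_⟩
  · simp [St.init, Amat, init_rho hf]
  · rw [Par.g, Par.a]; field_simp; ring
  · rw [Par.g, Par.a]; field_simp; ring

/-! ### the commutative algebra spanned by `E`, `J`, `1` -/

def initE (vx : ι → V) : Matrix ι ι ℝ := Matrix.of fun k l => if vx k = vx l then 1 else 0

def initJ (ι : Type) : Matrix ι ι ℝ := Matrix.of fun _ _ => 1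

/-- the matrix with eigenvalues `x, y, z` -/
noncomputable def initN (P : Par ℝ) (vx : ι → V) (x y z : ℝ) : Matrix ι ι ℝ :=
  ((x - y) / P.d) • initE vx + ((z - x) / P.r0) • initJ ι + y • (1 : Matrix ι ι ℝ)

theorem init_rowE (hf : ∀ y, (univ.filter fun k => vx k = y).card = P.d) (y : V) :
    ∑ j, (if vx j = y then (1 : ℝ) else 0) = P.d := by
  rw [sum_boole, hf]

theorem initN_mul (hP : P.Good) (hV : Fintype.card V = P.n)
    (hf : ∀ y, (univ.filter fun k => vx k = y).card = P.d) (x y z x' y' z' : ℝ) :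
    initN P vx x y z * initN P vx x' y' z' = initN P vx (x * x') (y * y') (z * z') := by
  have hn := (init_n_pos hP).ne'
  have hd : (P.d : ℝ) ≠ 0 := by linarith [hP.d3']
  have EE : initE vx * initE vx = (P.d : ℝ) • initE vx := by
    ext k l
    simp only [initE, Matrix.mul_apply, Matrix.of_apply, Matrix.smul_apply, smul_eq_mul]
    by_cases h : vx k = vx l
    · rw [if_pos h, mul_one, ← init_rowE hf (vx l)]
      refine sum_congr rfl fun j _ => ?_
      by_cases h' : vx j = vx l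
      · simp [h, h']
      · simp [h']
    · rw [if_neg h, mul_zero]
      refine sum_eq_zero fun j _ => ?_
      by_cases h' : vx j = vx l
      · simp [h, h']
      · simp [h']
  have EJ : initE vx * initJ ι = (P.d : ℝ) • initJ ι := by
    ext k l
    simp only [initE, initJ, Matrix.mul_apply, Matrix.of_apply, Matrix.smul_apply, smul_eq_mul,
      mul_one, eq_comm (a := vx k)]
    exact init_rowE hf _
  have JE : initJ ι * initE vx = (P.d : ℝ) • initJ ι := by
    ext k l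
    simp only [initE, initJ, Matrix.mul_apply, Matrix.of_apply, Matrix.smul_apply, smul_eq_mul,
      mul_one, one_mul]
    exact init_rowE hf _
  have JJ : initJ ι * initJ ι = (P.r0 : ℝ) • initJ ι := by
    ext k l
    simp [initJ, Matrix.mul_apply, init_card hV hf]
  simp only [initN, add_mul, mul_add, Matrix.smul_mul, Matrix.mul_smul, EE, EJ, JE, JJ,
    Matrix.one_mul, Matrix.mul_one, P.r0_cast]
  match_scalars
  · field_simp; ring
  · field_simp; ring
  · ring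

theorem initN_diag (x y z : ℝ) (k : ι) :
    initN P vx x y z k k = (x - y) / P.d + (z - x) / P.r0 + y := by
  simp [initN, initE, initJ]

theorem initN_trace (hP : P.Good) (hV : Fintype.card V = P.n)
    (hf : ∀ y, (univ.filter fun k => vx k = y).card = P.d) (x y z : ℝ) :
    (initN P vx x y z).trace = (P.n - 1) * x + P.n * (P.d - 1) * y + z := by
  have hn := (init_n_pos hP).ne'
  have hd : (P.d : ℝ) ≠ 0 := by linarith [hP.d3']
  simp only [Matrix.trace, Matrix.diag_apply, initN_diag, sum_const, card_univ, init_card hV hf,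
    nsmul_eq_mul, P.r0_cast]
  field_simp
  ring

theorem init_C0 (hP : P.Good) (b : ℝ) :
    C0 P b vx = initN P vx (P.gam * P.d - P.g) (-P.g) b := by
  have hn := (init_n_pos hP).ne'
  have hd : (P.d : ℝ) ≠ 0 := by linarith [hP.d3']
  ext k l
  simp only [C0, initN, initE, initJ, Matrix.of_apply, Matrix.add_apply, Matrix.smul_apply,
    smul_eq_mul, Matrix.one_apply, P.r0_cast]
  split_ifs <;> field_simp <;> ring

theorem init_symm (b : ℝ) : (C0 P b vx).IsSymm := by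
  ext k l
  simp only [C0, Matrix.transpose_apply, Matrix.of_apply, eq_comm (a := vx l), eq_comm (a := l)]

theorem init_r2 (hP : P.Good) : 2 * P.r2 + 2 ≤ P.r0 := by
  have h1 : (P.r2 : ℝ) ≤ P.n := by
    rw [P.r2_cast]
    exact (pow_le_pow_right₀ hP.L_one (by norm_num)).trans hP.n_lo
  have h2 : (P.L : ℝ) ≤ P.n :=
    (le_self_pow₀ hP.L_one (by norm_num)).trans hP.n_lo
  have h3 : (2 * P.r2 + 2 : ℝ) ≤ P.r0 := by linarith [hP.r0_lo, hP.L_big]
  exact_mod_cast h3

/-- `c d^j ≤ L` -/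
theorem init_cd (hP : P.Good) {c : ℝ} (hc : c ≤ 10 ^ 80) {j : ℕ} (hj : j ≤ 20) :
    c * (P.d : ℝ) ^ j ≤ P.L := by
  have hd := hP.d3'
  refine le_trans ?_ hP.dL
  have : (P.d : ℝ) ^ j ≤ (P.d : ℝ) ^ 20 := pow_le_pow_right₀ (by linarith) hj
  gcongr

theorem init_side (hP : P.Good) (hV : Fintype.card V = P.n)
    (hf : ∀ y, (univ.filter fun k => vx k = y).card = P.d) {b b' : ℝ} (hb : b ^ 2 = P.a ^ 2)
    (hb' : b' ≤ 2) : Uside P P.r0 (C0 P b vx) (C0 P b' vx) ≤ 1 / 10 := by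
  have hn := init_n_pos hP
  have hd := hP.d3'
  have hL := hP.L_big
  have hL1 := hP.L_one
  have hL0 : (0 : ℝ) < P.L := by linarith
  have hr : (0 : ℝ) < P.r0 := by linarith [hP.r0_lo]
  have hLn : ∀ j : ℕ, j ≤ 96000 → (P.L : ℝ) ^ j ≤ P.n := fun j hj =>
    (pow_le_pow_right₀ hL1 hj).trans hP.n_lo
  have hn1 : (1 : ℝ) ≤ P.n := by simpa using hLn 0 (by norm_num)
  have c2 := init_r2 hP
  have c3 := hP.r3_lt_r2
  have c4 := hP.r4_lt_r3
  have hg0 := hP.g0
  have hg1 := hP.g_le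
  obtain ⟨l, hl⟩ : ∃ l, l = P.gam * P.d - P.g := ⟨_, rfl⟩
  have hl0 : 0 ≤ l := by
    linarith [hP.gam1, mul_le_mul_of_nonneg_left hd (hg0.le.trans hP.gam1)]
  have hl1 : l ≤ 3 * P.d := by
    linarith [mul_le_mul_of_nonneg_right hP.gam2 (show (0 : ℝ) ≤ P.d by positivity)]
  have hb4 : b ^ 2 ≤ 4 := by linarith [pow_le_pow_left₀ (zero_le_one.trans hP.a1) hP.a2 2]
  have hb2 : |b| ≤ 2 := abs_le_of_sq_le_sq' (by linarith) (by norm_num) |> abs_le.2
  have hsym := init_symm (P := P) (vx := vx) b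
  have e1 : t1 (C0 P b vx) = (P.n - 1) * l + P.n * (P.d - 1) * (-P.g) + b := by
    rw [t1, init_C0 hP, initN_trace hP hV hf, hl]
  have e2 : t2 (C0 P b vx) = (P.n - 1) * l ^ 2 + P.n * (P.d - 1) * P.g ^ 2 + b ^ 2 := by
    rw [t2, init_C0 hP, initN_mul hP hV hf, initN_trace hP hV hf, hl]; ring
  have e3 : t3 (C0 P b vx) = (P.n - 1) * l ^ 3 - P.n * (P.d - 1) * P.g ^ 3 + b ^ 3 := by
    rw [t3, init_C0 hP, initN_mul hP hV hf, initN_mul hP hV hf, initN_trace hP hV hf, hl]; ring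
  have e4 : t4 (C0 P b vx) = (P.n - 1) * l ^ 4 + P.n * (P.d - 1) * P.g ^ 4 + b ^ 4 := by
    rw [t4, init_C0 hP, initN_mul hP hV hf, initN_mul hP hV hf, initN_mul hP hV hf,
      initN_trace hP hV hf, hl]; ring
  have e5 : chi (C0 P b vx) (C0 P b' vx) =
      (P.n - 1) * l ^ 3 - P.n * (P.d - 1) * P.g ^ 3 + b ^ 2 * b' := by
    rw [chi, init_C0 hP, init_C0 hP, initN_mul hP hV hf, initN_mul hP hV hf, initN_trace hP hV hf,
      hl]; ring
  have e6 : dd (C0 P b vx) = (P.Th + b - l) ^ 2 / P.r0 := by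
    have hd0 : (P.d : ℝ) ≠ 0 := by linarith
    simp only [dd, init_C0 hP, initN_diag, sum_const, card_univ, init_card hV hf, nsmul_eq_mul,
      Par.Th, hl]
    field_simp
    ring
  have h2 : t2 (C0 P b vx) ≤ 4 * P.r0 := by
    have := hP.psi0
    rw [Par.psi0, ← hl, ← hb, ← e2] at this
    linarith [mul_le_mul_of_nonneg_right hb4 hr.le]
  have e7 : ww (C0 P b vx) ≤ 16 * P.r0 := by
    obtain ⟨β, hβ⟩ : ∃ β, ∀ k, bet (C0 P b vx) k = β :=
      ⟨_, fun k => by rw [bet, init_C0 hP, initN_mul hP hV hf, initN_diag]⟩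
    have a1 : t2 (C0 P b vx) = P.r0 * β := by
      rw [← sum_bet]; simp [hβ, init_card hV hf]
    have a2 : ww (C0 P b vx) = P.r0 * β ^ 2 := by simp [ww, hβ, init_card hV hf]
    have a3 : β ≤ 4 := le_of_mul_le_mul_left (by linarith) hr
    have a4 : 0 ≤ t2 (C0 P b vx) := sum_nonneg fun k _ => bet_nonneg hsym k
    have a5 : 0 ≤ β := le_of_mul_le_mul_left (by linarith) hr
    have a6 : β ^ 2 ≤ 4 ^ 2 := pow_le_pow_left₀ a5 a3 2
    linarith [mul_le_mul_of_nonneg_left a6 hr.le]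
  have l3 : l ^ 3 ≤ 27 * P.d ^ 3 := by
    calc l ^ 3 ≤ (3 * P.d) ^ 3 := by gcongr
      _ = _ := by ring
  have d3 : (27 : ℝ) ≤ P.d ^ 3 := by
    calc (27 : ℝ) = 3 ^ 3 := by norm_num
      _ ≤ _ := by gcongr
  have u1 : P.Uphi P.r0 (t1 (C0 P b vx)) ≤ 1 / 100 := by
    rw [Par.Uphi, if_pos (by omega), hP.A_r0, div_le_iff₀ (pow_pos hP.sig_pos 2)]
    have a1 : -t1 (C0 P b vx) - -P.Th = l - b := by
      rw [e1, Par.Th, P.r0_cast, hl]; ring
    have a2 : (l - b) ^ 2 ≤ (4 * P.d) ^ 2 := by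
      have := abs_le.1 hb2
      exact sq_le_sq' (by linarith) (by linarith)
    have a3 := init_cd hP (c := 1600) (by norm_num) (j := 2) (by norm_num)
    have a4 : (P.L : ℝ) ≤ P.sig ^ 2 := by
      rw [Par.sig, ← pow_mul]
      exact le_self_pow₀ hL1 (by norm_num)
    rw [a1]
    linarith
  have u2 : P.Upsi P.r0 (t2 (C0 P b vx)) = 0 := by
    rw [Par.Upsi, if_pos (by omega), hP.Psi_r0, Par.psi0, ← hl, e2, hb, sub_self]
    simp
  have u3 : P.UT P.r0 (t3 (C0 P b vx)) ≤ 1 / 100 := by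
    rw [Par.UT, Par.wT, if_pos (by omega), div_mul_eq_mul_div, div_le_iff₀ (by positivity)]
    have a1 : t3 (C0 P b vx) - P.Tc = b ^ 3 - l ^ 3 := by
      rw [e3, Par.Tc, ← hl]; ring
    have a0 : |b ^ 3| ≤ 8 := by
      rw [abs_pow]
      calc |b| ^ 3 ≤ 2 ^ 3 := by gcongr
        _ = 8 := by norm_num
    have a2 : (b ^ 3 - l ^ 3) ^ 2 ≤ (28 * P.d ^ 3) ^ 2 := by
      have := abs_le.1 a0
      have := pow_nonneg hl0 3
      exact sq_le_sq' (by linarith) (by linarith)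
    have a3 := init_cd hP (c := 78400) (by norm_num) (j := 6) (by norm_num)
    have a4 : (b ^ 3 - l ^ 3) ^ 2 ≤ P.L / 100 := by linarith
    have a5 : (P.n : ℝ) ≤ P.n ^ 2 := le_self_pow₀ hn1 (by norm_num)
    rw [a1]
    calc _ ≤ (P.L : ℝ) ^ 2 * (P.L / 100) := by gcongr
      _ = 1 / 100 * P.L ^ 3 := by ring
      _ ≤ _ := by linarith [hLn 3 (by norm_num)]
  have u4 : P.U4 P.r0 (t4 (C0 P b vx)) ≤ 1 / 100 := by
    rw [Par.U4, if_pos (by omega), div_le_iff₀ (pow_pos hL0 _)]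
    have a1 : l ^ 4 ≤ 81 * P.d ^ 4 := by
      calc l ^ 4 ≤ (3 * P.d) ^ 4 := by gcongr
        _ = _ := by ring
    have a2 : P.g ^ 4 ≤ 6 := by
      calc P.g ^ 4 ≤ (3 / 2) ^ 4 := by gcongr
        _ ≤ _ := by norm_num
    have a3 : b ^ 4 ≤ 16 := by linarith [pow_le_pow_left₀ (sq_nonneg b) hb4 2]
    have a4 : (P.d : ℝ) ≤ P.d ^ 4 := le_self_pow₀ (by linarith) (by norm_num)
    have a5 : t4 (C0 P b vx) ≤ 100 * P.d ^ 4 * P.n := by
      have b1 : (P.n - 1) * l ^ 4 ≤ P.n * (81 * P.d ^ 4) := by gcongr; linarith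
      have b2 : P.n * (P.d - 1) * P.g ^ 4 ≤ P.n * P.d ^ 4 * 6 := by gcongr; linarith
      have b3 : 1 * 3 ≤ P.n * (P.d : ℝ) ^ 4 := by gcongr; linarith
      rw [e4]
      linarith
    have a6 := init_cd hP (c := 40000) (by norm_num) (j := 5) (by norm_num)
    have a7 : (P.n : ℝ) ^ 2 ≤ (2 * (P.L : ℝ) ^ 96000) ^ 2 := pow_le_pow_left₀ hn.le hP.n_hi 2
    have a8 : (P.L : ℝ) * (P.L : ℝ) ^ 192000 ≤ (P.L : ℝ) ^ 192096 := cpow_le hL1 le_rfl (by norm_num)
    rw [mul_pow, ← pow_mul] at a7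
    have a9 : (0 : ℝ) ≤ (P.L : ℝ) ^ 192000 := by positivity
    generalize (P.L : ℝ) ^ 192000 = X at a7 a8 a9
    generalize (P.L : ℝ) ^ 192096 = Y at a8
    calc t4 (C0 P b vx) * P.r0 ≤ 100 * P.d ^ 4 * P.n * P.r0 := by gcongr
      _ = 100 * P.d ^ 5 * P.n ^ 2 := by rw [P.r0_cast]; ring
      _ ≤ 100 * P.d ^ 5 * (2 ^ 2 * X) := by gcongr
      _ = 1 / 100 * (40000 * P.d ^ 5 * X) := by ring
      _ ≤ 1 / 100 * (P.L * X) := by gcongr
      _ ≤ _ := by gcongr
  have u5 : P.UD P.r0 (dd (C0 P b vx)) ≤ 1 / 100 := by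
    rw [Par.UD, Par.Dbar, if_pos c2, div_le_iff₀ (pow_pos hL0 _), e6]
    have a1 : (P.L : ℝ) ≤ (P.L : ℝ) ^ 32241 := le_self_pow₀ hL1 (by norm_num)
    have a2 : 4 * ((P.L : ℝ) ^ 32241) ^ 2 ≤ P.n := by
      rw [← pow_mul]
      exact (cpow_le hL1 (by linarith) (by norm_num)).trans hP.n_lo
    have a3 := hP.Th1
    have a4 := hP.Th0
    have a5 := hP.dL'
    generalize (P.L : ℝ) ^ 32241 = X at a1 a2 a3
    have a6 : (P.Th + b - l) ^ 2 ≤ (2 * X) ^ 2 := by
      have := abs_le.1 hb2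
      exact sq_le_sq' (by linarith) (by linarith)
    have a7 : (P.Th + b - l) ^ 2 / P.r0 ≤ 1 := by
      rw [div_le_one hr]
      linarith [hP.r0_lo]
    have a8 : (P.L : ℝ) ≤ (P.L : ℝ) ^ 19 := le_self_pow₀ hL1 (by norm_num)
    linarith
  have u6 : P.UW P.r0 (ww (C0 P b vx)) ≤ 1 / 100 := by
    have a1 : P.r0 ≤ P.L ^ 11 * P.r0 :=
      Nat.le_mul_of_pos_left _ (pow_pos (by exact_mod_cast hL0) _)
    rw [Par.UW, Par.Wbar, if_pos (by omega), if_pos a1, div_le_iff₀ (by positivity)]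
    linarith [mul_le_mul_of_nonneg_right hL hr.le]
  have u7 : P.UQ P.r0 (q4 (C0 P b vx)) ≤ 1 / 100 := by
    rw [Par.UQ, hP.f_r0, mul_one, div_le_iff₀ (by positivity)]
    have := q4_le_ww hsym
    linarith [mul_le_mul_of_nonneg_right hL hr.le]
  have u8 : P.Uchi P.r0 (chi (C0 P b vx) (C0 P b' vx)) (t2 (C0 P b vx)) ≤ 1 / 100 := by
    rw [Par.Uchi, if_pos (by omega), div_le_iff₀ (by positivity)]
    have a1 : (P.n - 1) * l ^ 3 ≤ P.n * (27 * P.d ^ 3) := by gcongr; linarith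
    have a2 : 0 ≤ P.n * (P.d - 1) * P.g ^ 3 :=
      mul_nonneg (mul_nonneg hn.le (by linarith)) (by positivity)
    have a3 : b ^ 2 * b' ≤ 8 := by linarith [mul_le_mul_of_nonneg_left hb' (sq_nonneg b)]
    have a4 : P.g * t2 (C0 P b vx) ≤ 3 / 2 * (4 * P.r0) := by
      calc P.g * t2 (C0 P b vx) ≤ P.g * (4 * P.r0) := by gcongr
        _ ≤ _ := by gcongr
    have a5 : (P.r0 : ℝ) ≤ P.n * P.d ^ 3 := by
      rw [P.r0_cast]
      gcongr
      exact le_self_pow₀ (by linarith) (by norm_num)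
    have a6 : 1 * 27 ≤ P.n * (P.d : ℝ) ^ 3 := by gcongr
    have a7 := init_cd hP (c := 4000) (by norm_num) (j := 3) (by norm_num)
    have a8 : P.n * (4000 * (P.d : ℝ) ^ 3) ≤ P.r0 * (P.L : ℝ) ^ 2 :=
      mul_le_mul (by linarith [hP.r0_lo]) (a7.trans (le_self_pow₀ hL1 (by norm_num)))
        (by positivity) hr.le
    have a9 : 0 ≤ (P.n : ℝ) / P.L := by positivity
    rw [e5]
    linarith
  have u9 : P.UF P.r0 (t2 (C0 P b vx)) = 0 := by rw [Par.UF, if_neg (by omega)]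
  rw [Uside, Par.Uobs]
  linarith

theorem init_U (hP : P.Good) (hV : Fintype.card V = P.n)
    (hf : ∀ y, (univ.filter fun k => vx k = y).card = P.d) : (St.init P vx).U P vx ≤ 1 / 2 := by
  have hn := init_n_pos hP
  have hd := hP.d3'
  have hL := hP.L_big
  have h1 := init_side hP hV hf (b := P.a) (b' := -P.a) rfl (by linarith [hP.a1])
  have h2 := init_side hP hV hf (b := -P.a) (b' := P.a) (by ring) hP.a2
  have h3 : P.US P.r0 (Sc vx univ) ≤ 1 / 10 := by
    have a1 : Sc vx univ ≤ P.r0 * P.d := by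
      have : ∀ k, ∑ l, (if k ≠ l ∧ vx k = vx l then (1 : ℝ) else 0) ≤ P.d := fun k => by
        rw [← init_rowE hf (vx k)]
        refine sum_le_sum fun l _ => ?_
        by_cases h : vx l = vx k
        · rw [if_pos h]; split_ifs <;> norm_num
        · rw [if_neg h, if_neg fun h' => h h'.2.symm]
      refine (sum_le_sum fun k _ => this k).trans ?_
      simp [init_card hV hf]
    have hr : (0 : ℝ) < P.r0 := by linarith [hP.r0_lo]
    rw [Par.US, div_le_iff₀ (by positivity)]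
    calc Sc vx univ * P.n ≤ P.r0 * P.d * P.n := by gcongr
      _ = 1 / 10 * (10 * (P.r0 : ℝ) ^ 2) := by rw [P.r0_cast]; ring
      _ ≤ _ := by gcongr; linarith
  have h4 : P.UA P.r0 (Ac vx (fun _ _ => False) univ) = 0 := by simp [Par.UA, Ac]
  simp only [St.U, St.init, card_univ, init_card hV hf]
  linarith

end Crest.Agent.R62
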