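import Crest.Agent.R62.Api
import Crest.Agent.R62.Trace

/-!
# R62/Late: one-sided drift of `t2` with errors relative to `t2` (TASK)

General method (notation: see `Defs`).  On the support of `ω` (`ω u v ≠ 0`) we have `u ≠ v` (`Wt.ne`),
`|c| ≤ ϑ`, `|δ_u δ_v| ≤ ϑ` (`Adm`), so the exact formulas of `Trace` and `Reg.kap_bd` apply:
`K12 = 1/b + O(14 e)`, `κ = 1/b² + O(6 e)`, `E e² ≤ 16/r` (`Reg.av_e`), `E (ω-1)² ≤ Ξ²/r` (`Wt.av_sq`).
Write the increment as `main + rem` where `main` is a polynomial in entries of powers of `B` (defined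
for all pairs); `E_ω main = E main + E[(ω-1) main]` (`Ea_eq`), `E main` is computed exactly with
`av_prod, av_row, av_col` (row sums of `B^j` are `b^j`), everything else is bounded with Cauchy-Schwarz
(`av_cs`, `abs_av_cs`), `Wt.abs_Ea_le`, `Wt.Ea_le_two`, using the L² norms (over pairs, `r = t^8`)
`‖δ_u‖² = D/r ≤ Λ/r`, `‖β_u‖² = W/r ≤ Λ`, `‖b_j(u)‖² ≤ ν^(2j-4) Λ` (`word_diag_le`),
`‖c‖² ≤ 4/r`, `‖c_j‖ ≤ ν^j / r` for `j ≥ 2` (`av_sq_eq_fro`, `fro_mul_left`), `‖f(u) g(v)‖ = ‖f‖ ‖g‖`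
(`av_prod`), and the pointwise bounds `δ² ≤ Λ`, `δ_u² ≤ β_u`, `β² ≤ Λ r`, `c_2² ≤ β_u β_v`, `|b| ≤ 2`,
`1 ≤ Λ ≤ ν ≤ t^4`, `Λ ≤ ϑ t`.  The constant `CC = 10^12` is very generous: be crude.
Advice: split into many small lemmas (one per monomial type); avoid big `nlinarith` calls, use
`abs_mul, mul_le_mul, gcongr, positivity`.

Same formulas as in `Psi`: `Δ t2 = 2 tr H1 + x_u² + x_v² + 2 y_u y_v`.  Put `o = F2/r`, `ε = Ξ Λ ν / t^4 ≤ 1`
(so `ν/t^4, Λ ν/t^4, ν²/r, Λ ν²/r, Λ/r, 1/r ≤ ε`).  Note `F2 ≥ b² ≥ 1` (`sq_le_t2`), `W ≤ ν² F2`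
(`β_k ≤ ν²`), `T4 ≤ ν² F2`.
* removal: `-2 K12 b (β_u + β_v) ≤ -2 (1 - 56ϑ)(β_u + β_v)`, `E_ω ≤ -4 (1-56ϑ)(1-ϑ) o` (`Wt.le_Ea_left/right`).
* `4 ω K12 c_3 = 4 c_3/b + 4 (ω K12 - 1/b) c_3`; `E c_3 = b³/r`; the matrix `ζ = ω K12 - 1/b = (ω-1)/b + ω (K12 - 1/b)`
  has Frobenius norm `≤ (Ξ + 2·14·4) t^4`; `c_3 = Σ_k B u k (B*B) v k`, so by `OpB.nuclear`
  `|Σ ζ c_3| ≤ ‖ζ‖ Σ_k ν β_k = ‖ζ‖ ν F2`.
* `|K11 b_3(u)| ≤ 1.1 |δ_v| ν β_u`, `E ≤ 1.1 (Λ/t^4) ν o`;  `|δ_v c_2| ≤ (δ_v² + c_2²)/2`, `E c_2² = T4/r²`.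
* `x_u² ≤ C (δ_v² β_u² + δ_v² + c_2² + δ_u²)`, `E δ_v² β_u² ≤ (Λ/r)(ν² o)`.
* `|y_u| ≤ C (β_u + |c| + |δ_u||c_2| + δ_u²)`; products: `β_u β_v → o²`, `β_u |c| ≤ ϑ β_u`, `c² → o/r`,
  `β_u |δ_v||c_2| ≤ (β_u² δ_v² + c_2²)/2`, `β_u δ_v² → o Λ/r`, `|c||δ||c_2| ≤ δ² + c_2²`, `|c| δ² ≤ δ²`,
  `|δ_u δ_v| c_2² ≤ c_2²`, `|δ_u c_2| δ_v² ≤ |c_2||δ_v|`, `δ_u² δ_v² ≤ |δ_u δ_v| ≤ δ_u² + δ_v²`.
-/

set_option autoImplicit false
set_option linter.unusedSectionVars false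
set_option linter.unusedVariables false
open Finset Matrix

namespace Crest.Agent.R62

variable {ι : Type} [Fintype ι] [DecidableEq ι]
variable {ω : ι → ι → ℝ} {B : Matrix ι ι ℝ} {b Λ ν t ϑ Ξ Ω ρ : ℝ}

/-- the linear part of one half of `2 tr H1` -/
theorem late_A {b ϑ κ k q βu βv c2 a ν s : ℝ} (hb : |b| ≤ 2) (hκ0 : 0 < κ) (hκ : κ ≤ 11 / 10)
    (hkb : |k * b - 1| ≤ 56 * ϑ) (hu : 0 ≤ βu) (hc2 : c2 ^ 2 ≤ βu * βv) (ha : |a| ≤ ν * βu)
    (hν : 0 ≤ ν) (hs : 0 < s) :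
    2 * (κ * q * (a - b * c2)) - 2 * (k * (b * βu)) ≤ -2 * βu + 112 * (ϑ * βu) +
      2 * (ν * s * (q ^ 2 * βu)) + 2 * (ν / s * βu) + 3 * q ^ 2 + 3 * (βu * βv) := by
  have h1 : -(k * (b * βu)) ≤ -βu + 56 * (ϑ * βu) := by
    have := (abs_le.1 hkb).1
    nlinarith
  have h2 : κ * q * a ≤ 11 / 10 * (|q| * (ν * βu)) := by
    calc κ * q * a ≤ |κ * q * a| := le_abs_self _
      _ = κ * (|q| * |a|) := by rw [abs_mul, abs_mul, abs_of_pos hκ0, mul_assoc]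
      _ ≤ 11 / 10 * (|q| * (ν * βu)) := by gcongr
  have h3 : 2 * |q| ≤ s * q ^ 2 + 1 / s := by
    have : 0 ≤ (s * |q| - 1) ^ 2 / s := by positivity
    have e : (s * |q| - 1) ^ 2 / s = s * q ^ 2 + 1 / s - 2 * |q| := by
      rw [← sq_abs q]; field_simp; ring
    linarith
  have h4 : 2 * (|q| * (ν * βu)) ≤ ν * s * (q ^ 2 * βu) + ν / s * βu := by
    have := mul_le_mul_of_nonneg_right h3 (mul_nonneg hν hu)
    calc 2 * (|q| * (ν * βu)) = 2 * |q| * (ν * βu) := by ring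
      _ ≤ (s * q ^ 2 + 1 / s) * (ν * βu) := this
      _ = _ := by ring
  have h5 : -(κ * q * (b * c2)) ≤ 11 / 10 * (|q| * (2 * |c2|)) := by
    calc -(κ * q * (b * c2)) ≤ |κ * q * (b * c2)| := neg_le_abs _
      _ = κ * (|q| * (|b| * |c2|)) := by rw [abs_mul, abs_mul, abs_mul, abs_of_pos hκ0, mul_assoc]
      _ ≤ _ := by gcongr
  have h6 : 2 * (|q| * |c2|) ≤ q ^ 2 + c2 ^ 2 := by
    rw [← sq_abs q, ← sq_abs c2]; nlinarith [sq_nonneg (|q| - |c2|)]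
  have h7 : 0 ≤ ν * s * (q ^ 2 * βu) := by positivity
  have h8 : 0 ≤ ν / s * βu := by positivity
  nlinarith [sq_nonneg q, sq_nonneg c2]

/-- the diagonal entries of `H0` -/
theorem late_B {b κ k p q c βu βv c2 m : ℝ} (hb : |b| ≤ 2) (hκ0 : 0 < κ) (hκ : κ ≤ 11 / 10)
    (hk : |k| ≤ 11 / 10) (hc : |c| ≤ 1) (hu : 0 ≤ βu) (hc2 : c2 ^ 2 ≤ βu * βv) (hm : βu ≤ m) :
    (κ * q * (βu - b * c) + k * (c2 - b * p)) ^ 2 ≤
      20 * (m * (q ^ 2 * βu) + q ^ 2 + βu * βv + p ^ 2) := by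
  have h1 : |κ * q * (βu - b * c) + k * (c2 - b * p)| ≤
      11 / 10 * (|q| * βu + 2 * |q| + |c2| + 2 * |p|) := by
    have a1 : |βu - b * c| ≤ βu + 2 * 1 := by
      refine (abs_sub _ _).trans ?_
      rw [abs_of_nonneg hu, abs_mul]
      gcongr
    have a2 : |c2 - b * p| ≤ |c2| + 2 * |p| := by
      refine (abs_sub _ _).trans ?_
      rw [abs_mul]
      gcongr
    calc _ ≤ |κ * q * (βu - b * c)| + |k * (c2 - b * p)| := abs_add_le _ _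
      _ = κ * (|q| * |βu - b * c|) + |k| * |c2 - b * p| := by
        rw [abs_mul, abs_mul, abs_mul, abs_of_pos hκ0, mul_assoc]
      _ ≤ 11 / 10 * (|q| * (βu + 2 * 1)) + 11 / 10 * (|c2| + 2 * |p|) := by gcongr
      _ = _ := by ring
  have h2 : ∀ x y z w : ℝ, (x + y + z + w) ^ 2 ≤ 4 * (x ^ 2 + y ^ 2 + z ^ 2 + w ^ 2) := by
    intro x y z w
    nlinarith [sq_nonneg (x - y), sq_nonneg (x - z), sq_nonneg (x - w), sq_nonneg (y - z),
      sq_nonneg (y - w), sq_nonneg (z - w)]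
  have h3 := h2 (|q| * βu) (2 * |q|) |c2| (2 * |p|)
  rw [mul_pow, mul_pow, mul_pow, sq_abs, sq_abs, sq_abs] at h3
  have h4 : q ^ 2 * βu ^ 2 ≤ m * (q ^ 2 * βu) := by
    calc q ^ 2 * βu ^ 2 = βu * (q ^ 2 * βu) := by ring
      _ ≤ _ := by gcongr
  have h5 : 0 ≤ q ^ 2 * βu ^ 2 := by positivity
  calc _ = |κ * q * (βu - b * c) + k * (c2 - b * p)| ^ 2 := (sq_abs _).symm
    _ ≤ (11 / 10 * (|q| * βu + 2 * |q| + |c2| + 2 * |p|)) ^ 2 := by gcongr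
    _ = 121 / 100 * (|q| * βu + 2 * |q| + |c2| + 2 * |p|) ^ 2 := by ring
    _ ≤ _ := by nlinarith [sq_nonneg q, sq_nonneg p, sq_nonneg c2]

/-- the off-diagonal entries of `H0` -/
theorem late_C {b κ k p c βu c2 : ℝ} (hb : |b| ≤ 2) (hκ0 : 0 < κ) (hκ : κ ≤ 11 / 10)
    (hk : |k| ≤ 11 / 10) (hp : p ^ 2 ≤ βu) :
    |k * (βu - b * c) + κ * p * (c2 - b * p)| ≤ 4 * (βu + |c| + |p| * |c2|) := by
  have hu : 0 ≤ βu := (sq_nonneg p).trans hp
  have a1 : |βu - b * c| ≤ βu + 2 * |c| := by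
    refine (abs_sub _ _).trans ?_
    rw [abs_of_nonneg hu, abs_mul]
    gcongr
  have a2 : |c2 - b * p| ≤ |c2| + 2 * |p| := by
    refine (abs_sub _ _).trans ?_
    rw [abs_mul]
    gcongr
  have a3 : |p| * |p| ≤ βu := by rw [← sq, sq_abs]; exact hp
  have a4 : 0 ≤ |p| * |c2| := by positivity
  calc _ ≤ |k * (βu - b * c)| + |κ * p * (c2 - b * p)| := abs_add_le _ _
    _ = |k| * |βu - b * c| + κ * (|p| * |c2 - b * p|) := by
      rw [abs_mul, abs_mul, abs_mul, abs_of_pos hκ0, mul_assoc]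
    _ ≤ 11 / 10 * (βu + 2 * |c|) + 11 / 10 * (|p| * (|c2| + 2 * |p|)) := by gcongr
    _ ≤ _ := by nlinarith [abs_nonneg c]

/-- the product of the two off-diagonal bounds -/
theorem late_D {ϑ p q c βu βv c2 m : ℝ} (hϑ : ϑ ≤ 1) (hc : |c| ≤ ϑ) (hpq : |p * q| ≤ ϑ)
    (hu : 0 ≤ βu) (hv : 0 ≤ βv) (hc2 : c2 ^ 2 ≤ βu * βv) (hmu : βu ≤ m) (hmv : βv ≤ m) :
    (βu + |c| + |p| * |c2|) * (βv + |c| + |q| * |c2|) ≤ 4 * (βu * βv) + ϑ * βu + ϑ * βv + c ^ 2 +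
      p ^ 2 + q ^ 2 + m * (q ^ 2 * βu) + m * (p ^ 2 * βv) := by
  have am : ∀ x y : ℝ, x * y ≤ (x ^ 2 + y ^ 2) / 2 := fun x y => by nlinarith [sq_nonneg (x - y)]
  have key : ∀ {q β : ℝ}, 0 ≤ β → β ≤ m → β * (|q| * |c2|) ≤ m * (q ^ 2 * β) + βu * βv / 2 ∧
      |c| * (|q| * |c2|) ≤ q ^ 2 + βu * βv / 2 := by
    intro q β h0 h1
    have e1 := am (β * |q|) |c2|
    have e2 := am |q| |c2|
    rw [mul_pow, sq_abs, sq_abs] at e1
    rw [sq_abs, sq_abs] at e2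
    have e3 : β ^ 2 * q ^ 2 ≤ m * (q ^ 2 * β) := by
      calc β ^ 2 * q ^ 2 = β * (q ^ 2 * β) := by ring
        _ ≤ _ := by gcongr
    have e4 : 0 ≤ β ^ 2 * q ^ 2 := by positivity
    have e5 : |c| * (|q| * |c2|) ≤ 1 * (|q| * |c2|) := by gcongr; linarith
    refine ⟨by linarith [mul_assoc β |q| |c2|], by nlinarith [sq_nonneg q]⟩
  have h1 : βu * |c| ≤ βu * ϑ := by gcongr
  have h2 : βv * |c| ≤ βv * ϑ := by gcongr
  have h3 := key (q := q) hu hmu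
  have h4 := key (q := p) hv hmv
  have h5 : |p| * |c2| * (|q| * |c2|) ≤ βu * βv := by
    calc |p| * |c2| * (|q| * |c2|) = |p * q| * c2 ^ 2 := by rw [abs_mul, ← sq_abs c2]; ring
      _ ≤ 1 * (βu * βv) := by gcongr; linarith
      _ = _ := one_mul _
  have h6 : |c| * |c| = c ^ 2 := by rw [← sq, sq_abs]
  calc _ = βu * βv + βu * |c| + βu * (|q| * |c2|) + βv * |c| + |c| * |c| + |c| * (|q| * |c2|) +
      βv * (|p| * |c2|) + |c| * (|p| * |c2|) + |p| * |c2| * (|q| * |c2|) := by ring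
    _ ≤ _ := by linarith [h3.1, h3.2, h4.1, h4.2]

/-- the error function -/
noncomputable def lateG (B : Matrix ι ι ℝ) (ν t ϑ : ℝ) (u v : ι) : ℝ :=
  ϑ * bet B u + ϑ * bet B v + bet B u * bet B v + B u v ^ 2 + B u u ^ 2 + B v v ^ 2 +
    ν * t ^ 4 * (bet B u * B v v ^ 2) + ν * t ^ 4 * (B u u ^ 2 * bet B v) +
    ν / t ^ 4 * bet B u + ν / t ^ 4 * bet B v

theorem late_G_nonneg (h : Reg B b Λ ν t ϑ) (u v : ι) : 0 ≤ lateG B ν t ϑ u v := by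
  have h1 := bet_nonneg h.symm u
  have h2 := bet_nonneg h.symm v
  have h3 := h.th0
  have h4 : 0 ≤ ν := by linarith [h.L1, h.Lν]
  have h5 := h.t0
  unfold lateG
  positivity

/-- pointwise bound on the support -/
theorem late_pt (h : Reg B b Λ ν t ϑ) {u v : ι} (huv : u ≠ v) (hc : |B u v| ≤ ϑ)
    (hd : |B u u * B v v| ≤ ϑ) :
    t2 (upd b B u v) - t2 B ≤ -2 * bet B u + -2 * bet B v +
      4 * (kap b B u v * (b - B u v) * (B * B * B) u v) + 200 * lateG B ν t ϑ u v := by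
  obtain ⟨k1, k2, k3, -, -, k6, k7, -⟩ := h.kap_bd hc hd
  have hb := h.abs_b.2
  have hk : (b - B u v) ^ 2 - B u u * B v v ≠ 0 := by nlinarith [h.b1]
  have hν : 0 ≤ ν := by linarith [h.L1, h.Lν]
  have hs : 0 < t ^ 4 := pow_pos h.t0 4
  have hϑ : ϑ ≤ 1 := by linarith [h.th1]
  have s1 : B v u = B u v := h.symm.apply u v
  have hB2 : (B * B).IsSymm := by
    rw [Matrix.IsSymm, Matrix.transpose_mul, h.symm.eq]
  have hB3 : (B * B * B).IsSymm := by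
    rw [Matrix.IsSymm, Matrix.transpose_mul, hB2.eq, h.symm.eq, Matrix.mul_assoc]
  have s2 : (B * B) v u = (B * B) u v := hB2.apply u v
  have s3 : (B * B * B) v u = (B * B * B) u v := hB3.apply u v
  have hu := bet_nonneg h.symm u
  have hv := bet_nonneg h.symm v
  have hc2 : (B * B) u v ^ 2 ≤ bet B u * bet B v := mul_sq_le h.symm h.symm u v
  have hc2' : (B * B) u v ^ 2 ≤ bet B v * bet B u := by rwa [mul_comm]
  have hm : ∀ k, bet B k ≤ ν * t ^ 4 := fun k => (h.bet_le k).trans (by gcongr; exact h.Lν)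
  have A1 := late_A (q := B v v) hb k2 k3 k7 hu hc2 (word_diag_le h.symm hν h.op u) hν hs
  have A2 := late_A (q := B u u) hb k2 k3 k7 hv hc2' (word_diag_le h.symm hν h.op v) hν hs
  have B1 := late_B (p := B u u) (q := B v v) hb k2 k3 k6 (hc.trans hϑ) hu hc2 (hm u)
  have B2 := late_B (p := B v v) (q := B u u) hb k2 k3 k6 (hc.trans hϑ) hv hc2' (hm v)
  have C1 := late_C (c := B u v) (c2 := (B * B) u v) hb k2 k3 k6 (sq_le_bet h.symm u u)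
  have C2 := late_C (c := B u v) (c2 := (B * B) u v) hb k2 k3 k6 (sq_le_bet h.symm v v)
  have D := late_D hϑ hc hd hu hv hc2 (hm u) (hm v)
  have E := (le_abs_self _).trans ((abs_mul _ _).le.trans
    (mul_le_mul C1 C2 (abs_nonneg _) ((abs_nonneg _).trans C1)))
  rw [t2_upd h.symm huv hk, Matrix.trace_fin_two, Matrix.trace_fin_two, Matrix.mul_apply,
    Matrix.mul_apply, Fin.sum_univ_two, Fin.sum_univ_two, Hm_00, Hm_11, Hm_00, Hm_01, Hm_10, Hm_11]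
  simp only [Matrix.mul_one, Matrix.one_mul, s1, s2, s3]
  change 2 * (_ * (_ - _) + _ * (_ - b * bet B u) + (_ * (_ - b * bet B v) + _ * (_ - _))) +
    ((_ * (bet B u - _) + _) * (_ * (bet B u - _) + _) + (_ + _ * (bet B v - _)) *
      (_ * (bet B u - _) + _) + ((_ * (bet B u - _) + _) * (_ + _ * (bet B v - _)) +
      (_ + _ * (bet B v - _)) * (_ + _ * (bet B v - _)))) ≤ _
  have n1 : 0 ≤ ϑ * bet B u := mul_nonneg h.th0.le hu
  have n2 : 0 ≤ ϑ * bet B v := mul_nonneg h.th0.le hv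
  have n3 : 0 ≤ bet B u * bet B v := mul_nonneg hu hv
  have n4 : 0 ≤ ν * t ^ 4 * (bet B u * B v v ^ 2) := by positivity
  have n5 : 0 ≤ ν * t ^ 4 * (B u u ^ 2 * bet B v) := by positivity
  have n6 : 0 ≤ ν / t ^ 4 * bet B u := by positivity
  have n7 : 0 ≤ ν / t ^ 4 * bet B v := by positivity
  unfold lateG
  linarith [sq_nonneg (B u v), sq_nonneg (B u u), sq_nonneg (B v v)]

theorem late_av_G (h : Reg B b Λ ν t ϑ) (hΞ : 1 ≤ Ξ) :
    av (lateG B ν t ϑ) ≤ 4 * (t2 B / rr ι * (ϑ + t2 B / rr ι + Ξ * Λ * ν / t ^ 4)) +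
      2 * (dd B / rr ι) := by
  have hr := h.rpos
  have hF : 1 ≤ t2 B := h.b1.trans (sq_le_t2 h.symm h.row hr)
  have hν : 0 ≤ ν := by linarith [h.L1, h.Lν]
  have hs : 0 < t ^ 4 := pow_pos h.t0 4
  have hL := h.L1
  have e : av (lateG B ν t ϑ) = ϑ * (t2 B / rr ι) + ϑ * (t2 B / rr ι) +
      t2 B / rr ι * (t2 B / rr ι) + t2 B / rr ι ^ 2 + dd B / rr ι + dd B / rr ι +
      ν * t ^ 4 * (t2 B / rr ι * (dd B / rr ι)) + ν * t ^ 4 * (dd B / rr ι * (t2 B / rr ι)) +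
      ν / t ^ 4 * (t2 B / rr ι) + ν / t ^ 4 * (t2 B / rr ι) := by
    unfold lateG
    rw [av_add, av_add, av_add, av_add, av_add, av_add, av_add, av_add, av_add, av_const_mul,
      av_const_mul, av_const_mul, av_const_mul, av_const_mul, av_const_mul, av_left hr, av_right hr,
      av_left hr, av_right hr, av_prod, av_prod (bet B) (fun v => B v v ^ 2),
      av_prod (fun v => B v v ^ 2) (bet B), av_sq_eq_fro (fun u v => B u v), sum_bet]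
    rw [show fro (fun u v => B u v) = t2 B from fro_eq_t2 h.symm]
    rfl
  have ho : 0 ≤ t2 B / rr ι := by positivity
  have h1 : t2 B / rr ι ^ 2 ≤ t2 B / rr ι * (t2 B / rr ι) := by
    rw [div_mul_div_comm, ← sq (rr ι)]
    gcongr
    nlinarith
  have h2 : ν * t ^ 4 * (dd B / rr ι) ≤ Ξ * Λ * ν / t ^ 4 := by
    calc ν * t ^ 4 * (dd B / rr ι) ≤ ν * t ^ 4 * (Λ / rr ι) := by gcongr; exact h.d
      _ = 1 * Λ * ν / t ^ 4 := by
        have := h.t0.ne'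
        rw [← h.t8]; field_simp
      _ ≤ _ := by gcongr
  have h3 : ν / t ^ 4 ≤ Ξ * Λ * ν / t ^ 4 := by
    calc ν / t ^ 4 = 1 * 1 * ν / t ^ 4 := by ring
      _ ≤ _ := by gcongr
  have h4 := mul_le_mul_of_nonneg_left h2 ho
  have h5 := mul_le_mul_of_nonneg_left h3 ho
  have h6 := mul_nonneg ho h.th0.le
  have h7 := mul_nonneg ho ho
  rw [e]
  linarith

theorem late_c3 (h : Reg B b Λ ν t ϑ) (hw : Wt ω ϑ Ξ Ω t) (ha : Adm ω B ϑ ρ) :
    Ea ω (fun u v => kap b B u v * (b - B u v) * (B * B * B) u v) ≤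
      b ^ 2 / rr ι + 159 * (t2 B / rr ι * (Ξ * Λ * ν / t ^ 4)) := by
  have hr := h.rpos
  have hF : 1 ≤ t2 B := h.b1.trans (sq_le_t2 h.symm h.row hr)
  have hν : 0 ≤ ν := by linarith [h.L1, h.Lν]
  have hs : 0 < t ^ 4 := pow_pos h.t0 4
  have hL := h.L1
  have hΞ := hw.Xi1
  have hb := h.abs_b.1
  have hb0 : b ≠ 0 := by rintro rfl; norm_num at hb
  have e : Ea ω (fun u v => kap b B u v * (b - B u v) * (B * B * B) u v) =
      av (fun u v => 1 / b * (B * B * B) u v) +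
      av (fun u v => (ω u v * (kap b B u v * (b - B u v)) - 1 / b) * (B * B * B) u v) := by
    rw [← av_add]
    exact av_congr fun u v => by ring
  have e1 : av (fun u v => 1 / b * (B * B * B) u v) = b ^ 2 / rr ι := by
    rw [av_row (row_mul (row_mul h.row h.row) h.row) fun _ => 1 / b, sum_const, card_univ,
      nsmul_eq_mul]
    change b * b * b * (rr ι * (1 / b)) / rr ι ^ 2 = _
    field_simp
  have z1 : ∀ u v, (ω u v * (kap b B u v * (b - B u v)) - 1 / b) ^ 2 ≤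
      2 * (ω u v - 1) ^ 2 + 1568 * (|B u v| + |B u u * B v v|) ^ 2 := by
    intro u v
    have a1 : ((ω u v - 1) * (1 / b)) ^ 2 ≤ (ω u v - 1) ^ 2 := by
      have : (1 / b) ^ 2 ≤ 1 := by
        rw [div_pow, one_pow, div_le_one (by positivity)]; exact h.b1
      rw [mul_pow]
      exact mul_le_of_le_one_right (sq_nonneg _) this
    have a2 : (ω u v * (kap b B u v * (b - B u v) - 1 / b)) ^ 2 ≤
        784 * (|B u v| + |B u u * B v v|) ^ 2 := by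
      by_cases h0 : ω u v = 0
      · rw [h0, zero_mul, zero_pow two_ne_zero]; positivity
      have a3 := (h.kap_bd (ha u v h0).1 (ha u v h0).2.1).2.2.2.2.1
      have a4 : ω u v ≤ 2 := by linarith [hw.le u v, h.th1]
      have a5 := hw.nn u v
      calc _ = (ω u v * |kap b B u v * (b - B u v) - 1 / b|) ^ 2 := by rw [mul_pow, mul_pow, sq_abs]
        _ ≤ (2 * (14 * (|B u v| + |B u u * B v v|))) ^ 2 := by gcongr
        _ = _ := by ring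
    rw [show ω u v * (kap b B u v * (b - B u v)) - 1 / b = (ω u v - 1) * (1 / b) +
      ω u v * (kap b B u v * (b - B u v) - 1 / b) by ring]
    nlinarith [sq_nonneg ((ω u v - 1) * (1 / b) - ω u v * (kap b B u v * (b - B u v) - 1 / b))]
  have z2 : av (fun u v => (ω u v * (kap b B u v * (b - B u v)) - 1 / b) ^ 2) ≤
      (159 * (Ξ / t ^ 4)) ^ 2 := by
    refine (av_mono z1).trans ?_
    rw [av_add, av_const_mul, av_const_mul]
    have a1 := hw.av_sq h.t0 h.t8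
    have a2 := h.av_e
    have a3 : (4 / t ^ 4) ^ 2 ≤ 16 * (Ξ / t ^ 4) ^ 2 := by
      calc (4 / t ^ 4) ^ 2 = 16 * (1 / t ^ 4) ^ 2 := by ring
        _ ≤ _ := by gcongr
    nlinarith [sq_nonneg (Ξ / t ^ 4)]
  have z3 : av (fun u v => (B * B * B) u v ^ 2) ≤ (ν * (t2 B / rr ι)) ^ 2 := by
    rw [av_sq_eq_fro (fun u v => (B * B * B) u v)]
    have a1 : fro (B * B * B) ≤ ν ^ 2 * t2 B ^ 2 := by
      refine (fro_mul_right h.op).trans ?_
      rw [fro_sq_eq_t4 h.symm]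
      gcongr
      exact t4_le_t2_sq h.symm
    calc _ ≤ ν ^ 2 * t2 B ^ 2 / rr ι ^ 2 := div_le_div_of_nonneg_right a1 (by positivity)
      _ = _ := by ring
  have z4 := (le_abs_self _).trans (abs_av_cs (by positivity) (by positivity) z2 z3)
  rw [e, e1]
  refine add_le_add le_rfl (z4.trans ?_)
  calc 159 * (Ξ / t ^ 4) * (ν * (t2 B / rr ι)) = 159 * (t2 B / rr ι * (Ξ * 1 * ν / t ^ 4)) := by ring
    _ ≤ _ := by gcongr

theorem drift_late (h : Reg B b Λ ν t ϑ) (hw : Wt ω ϑ Ξ Ω t) (ha : Adm ω B ϑ ρ)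
    (hε : Ξ * Λ * ν ≤ t ^ 4) :
    Ea ω (fun u v => t2 (upd b B u v) - t2 B) ≤
      -4 * (t2 B - b ^ 2) / rr ι +
      CC * (t2 B / rr ι) * (ϑ + t2 B / rr ι + Ξ * Λ * ν / t ^ 4) + CC * (dd B / rr ι) := by
  have hr := h.rpos
  have hF : 1 ≤ t2 B := h.b1.trans (sq_le_t2 h.symm h.row hr)
  have hν : 0 ≤ ν := by linarith [h.L1, h.Lν]
  have hs : 0 < t ^ 4 := pow_pos h.t0 4
  have hL := h.L1
  have hΞ := hw.Xi1
  have h1 := hw.Ea_mono fun u v h0 => late_pt h (hw.ne h0) (ha u v h0).1 (ha u v h0).2.1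
  rw [Ea_add, Ea_add, Ea_add, Ea_const_mul, Ea_const_mul, Ea_const_mul, Ea_const_mul] at h1
  have h2 := hw.le_Ea_left (bet_nonneg h.symm)
  have h3 := hw.le_Ea_right (bet_nonneg h.symm)
  rw [sum_bet] at h2 h3
  have h4 := late_c3 h hw ha
  have h5 := hw.Ea_le_two (by linarith [h.th1]) (late_G_nonneg h)
  have h6 := late_av_G h hΞ
  have ho : 0 ≤ t2 B / rr ι := by positivity
  have h7 := mul_nonneg ho h.th0.le
  have h8 := mul_nonneg ho ho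
  have h9 : 0 ≤ t2 B / rr ι * (Ξ * Λ * ν / t ^ 4) := by positivity
  have h10 : 0 ≤ dd B / rr ι := div_nonneg (sum_nonneg fun _ _ => sq_nonneg _) hr.le
  rw [show -4 * (t2 B - b ^ 2) / rr ι = -4 * (t2 B / rr ι) + 4 * (b ^ 2 / rr ι) by ring]
  unfold CC
  linarith

end Crest.Agent.R62
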