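import Crest.Agent.R62.Alg

/-!
# R62/Link: the list algorithm computes the mathematical step and potential (TASK)

`mg (mkM N f) k l = f k l` for `k, l < N`; `toM N (mmul N C D) = toM N C * toM N D` (`Fin.sum_univ_eq_sum_range`),
`(trL N C : ℝ) = (toM N C).trace`; every field/weight of `P.toR` is the cast of that of `P` (`simp [Par.a, Par.toR]`, `push_cast`,
`split_ifs`, `Rat.cast_min`; never evaluate the huge powers); sums over the list `σ.1` (no duplicates, entries `< N`) are sums over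
the finset `univ.filter (·.val ∈ σ.1)` (`List.sum_toFinset`, `Finset.sum_bij`/`sum_nbij`).
-/

set_option autoImplicit false
open Finset Matrix

namespace Crest.Agent.R62

variable {P : Par ℚ} {σ : Sig}

/-! ### matrices as lists -/

theorem link_mg_mkM {N k l : ℕ} (f : ℕ → ℕ → ℚ) (hk : k < N) (hl : l < N) :
    mg (mkM N f) k l = f k l := by
  simp [mg, mkM, List.getD_eq_getElem?_getD, List.getElem?_range hk, List.getElem?_range hl]

theorem link_mkM_congr {N : ℕ} {f g : ℕ → ℕ → ℚ} (h : ∀ k < N, ∀ l < N, f k l = g k l) :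
    mkM N f = mkM N g := by
  unfold mkM
  refine List.map_congr_left fun k hk => List.map_congr_left fun l hl => ?_
  exact h k (List.mem_range.1 hk) l (List.mem_range.1 hl)

theorem link_mkM_mg (N : ℕ) (f : ℕ → ℕ → ℚ) : mkM N f = mkM N (mg (mkM N f)) :=
  link_mkM_congr fun _ hk _ hl => (link_mg_mkM f hk hl).symm

theorem link_toM_apply (N : ℕ) (C : Mat) (k l : Fin N) : toM N C k l = (mg C k l : ℝ) := rfl

theorem link_toM_mkM (N : ℕ) (f : ℕ → ℕ → ℚ) (k l : Fin N) : toM N (mkM N f) k l = (f k l : ℝ) := by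
  rw [link_toM_apply, link_mg_mkM f k.2 l.2]

theorem link_sum_cast (N : ℕ) (f : ℕ → ℚ) :
    ((∑ k ∈ range N, f k : ℚ) : ℝ) = ∑ k : Fin N, (f k : ℝ) := by
  rw [Rat.cast_sum, Fin.sum_univ_eq_sum_range (fun k => (f k : ℝ))]

theorem link_toM_mmul (N : ℕ) (C D : Mat) : toM N (mmul N C D) = toM N C * toM N D := by
  ext k l
  rw [mmul, link_toM_mkM, link_sum_cast, Matrix.mul_apply]
  simp only [link_toM_apply, Rat.cast_mul]

theorem link_trL (N : ℕ) (C : Mat) : (trL N C : ℝ) = (toM N C).trace := by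
  rw [trL, link_sum_cast]; rfl

theorem link_toM_updL (N : ℕ) (b : ℚ) (C : Mat) (u v : Fin N) :
    toM N (updL N b C u v) = upd (b : ℝ) (toM N C) u v := by
  ext k l
  rw [updL, link_toM_mkM]
  simp only [upd, kap, Matrix.of_apply, link_toM_apply, Fin.ext_iff]
  split_ifs
  · simp
  · push_cast; rfl

/-! ### casts of the parameters -/

section cast
variable (P)

theorem link_a : ((P.a : ℚ) : ℝ) = P.toR.a := by simp [Par.a, Par.toR]
theorem link_g : ((P.g : ℚ) : ℝ) = P.toR.g := by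
  rw [Par.g, Par.g, ← link_a]; push_cast; rfl
theorem link_x : ((P.x : ℚ) : ℝ) = P.toR.x := by simp [Par.x, Par.toR]
theorem link_gam : ((P.gam : ℚ) : ℝ) = P.toR.gam := by
  rw [Par.gam, Par.gam, ← link_x]; push_cast; rfl
theorem link_Th : ((P.Th : ℚ) : ℝ) = P.toR.Th := by
  rw [Par.Th, Par.Th, ← link_gam, ← link_g]; push_cast; rfl
theorem link_psi0 : ((P.psi0 : ℚ) : ℝ) = P.toR.psi0 := by
  rw [Par.psi0, Par.psi0, ← link_gam, ← link_g, ← link_a]; push_cast; rfl
theorem link_Y0 : ((P.Y0 : ℚ) : ℝ) = P.toR.Y0 := by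
  rw [Par.Y0, Par.Y0, ← link_psi0, ← link_a]; push_cast; rfl
theorem link_Psi (r : ℕ) : ((P.Psi r : ℚ) : ℝ) = P.toR.Psi r := by
  rw [Par.Psi, Par.Psi, ← link_Y0, ← link_a]; push_cast; rfl
theorem link_tau (r : ℕ) : ((P.tau r : ℚ) : ℝ) = P.toR.tau r := by
  rw [Par.tau, Par.tau, ← link_Y0, ← link_Psi]; push_cast; rfl
theorem link_Tc : ((P.Tc : ℚ) : ℝ) = P.toR.Tc := by
  rw [Par.Tc, Par.Tc, ← link_gam, ← link_g]; push_cast; rfl
theorem link_r0 : P.toR.r0 = P.r0 := rfl
theorem link_L : P.toR.L = P.L := rfl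
theorem link_rs : P.toR.rs = P.rs := by rw [Par.rs, Par.rs, link_L]
theorem link_r2 : P.toR.r2 = P.r2 := by rw [Par.r2, Par.r2, link_L]
theorem link_r3 : P.toR.r3 = P.r3 := by rw [Par.r3, Par.r3, link_L]
theorem link_r4 : P.toR.r4 = P.r4 := by rw [Par.r4, Par.r4, link_L]
theorem link_n : P.toR.n = P.n := rfl
theorem link_A (r : ℕ) : ((P.A r : ℚ) : ℝ) = P.toR.A r := by
  rw [Par.A, Par.A, ← link_Th, link_r2]
  split_ifs <;> push_cast <;> rfl
theorem link_sig : ((P.sig : ℚ) : ℝ) = P.toR.sig := by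
  rw [Par.sig, Par.sig, Rat.cast_pow, Rat.cast_natCast, link_L]
theorem link_wT (r : ℕ) : ((P.wT r : ℚ) : ℝ) = P.toR.wT r := by
  rw [Par.wT, Par.wT, link_r2, link_r4, link_L, link_n]
  split_ifs <;> push_cast <;> rfl
theorem link_Dbar (r : ℕ) : ((P.Dbar r : ℚ) : ℝ) = P.toR.Dbar r := by
  rw [Par.Dbar, Par.Dbar, link_r2, link_r4, link_L]
  split_ifs <;> push_cast <;> rfl
theorem link_Wbar (r : ℕ) : ((P.Wbar r : ℚ) : ℝ) = P.toR.Wbar r := by
  rw [Par.Wbar, Par.Wbar, link_r3, link_r0, link_L]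
  split_ifs <;> push_cast <;> rfl
theorem link_fprod (r : ℕ) : ((P.fprod r : ℚ) : ℝ) = P.toR.fprod r := by
  rw [Par.fprod, Par.fprod, link_r0]; push_cast; rfl
theorem link_f (r : ℕ) : ((P.f r : ℚ) : ℝ) = P.toR.f r := by
  rw [Par.f, Par.f, Rat.cast_min, link_fprod, Rat.cast_pow, Rat.cast_natCast, link_L]

theorem link_Uobs (r : ℕ) (z1 z2 z3 z4 zd zw zq zc : ℚ) :
    ((P.Uobs r z1 z2 z3 z4 zd zw zq zc : ℚ) : ℝ) = P.toR.Uobs r z1 z2 z3 z4 zd zw zq zc := by
  have e1 : ((P.Uphi r z1 : ℚ) : ℝ) = P.toR.Uphi r z1 := by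
    rw [Par.Uphi, Par.Uphi, link_r4, ← link_A, ← link_sig]
    split_ifs <;> push_cast <;> rfl
  have e2 : ((P.Upsi r z2 : ℚ) : ℝ) = P.toR.Upsi r z2 := by
    rw [Par.Upsi, Par.Upsi, link_r4, ← link_a, ← link_Psi, ← link_tau]
    split_ifs <;> push_cast <;> rfl
  have e3 : ((P.UT r z3 : ℚ) : ℝ) = P.toR.UT r z3 := by
    rw [Par.UT, Par.UT, ← link_wT, ← link_Tc]; push_cast; rfl
  have e4 : ((P.U4 r z4 : ℚ) : ℝ) = P.toR.U4 r z4 := by
    rw [Par.U4, Par.U4, link_r4, link_L]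
    split_ifs
    · rw [Rat.cast_div, Rat.cast_mul, Rat.cast_pow, Rat.cast_natCast, Rat.cast_natCast]
    · exact Rat.cast_zero
  have e5 : ((P.UD r zd : ℚ) : ℝ) = P.toR.UD r zd := by
    rw [Par.UD, Par.UD, ← link_Dbar, Rat.cast_div]
  have e6 : ((P.UW r zw : ℚ) : ℝ) = P.toR.UW r zw := by
    rw [Par.UW, Par.UW, ← link_Wbar, Rat.cast_div]
  have e7 : ((P.UQ r zq : ℚ) : ℝ) = P.toR.UQ r zq := by
    rw [Par.UQ, Par.UQ, ← link_f, link_L]; push_cast; rfl
  have e8 : ((P.Uchi r zc z2 : ℚ) : ℝ) = P.toR.Uchi r zc z2 := by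
    rw [Par.Uchi, Par.Uchi, ← link_g, link_L, link_n, link_r2]
    split_ifs <;> push_cast <;> rfl
  have e9 : ((P.UF r z2 : ℚ) : ℝ) = P.toR.UF r z2 := by
    rw [Par.UF, Par.UF, ← link_a, link_L, link_rs, link_r4]
    split_ifs <;> push_cast <;> rfl
  rw [Par.Uobs, Par.Uobs, ← e1, ← e2, ← e3, ← e4, ← e5, ← e6, ← e7, ← e8, ← e9]
  simp only [Rat.cast_add]

theorem link_US (r : ℕ) (z : ℚ) : ((P.US r z : ℚ) : ℝ) = P.toR.US r z := by
  rw [Par.US, Par.US, link_L, link_n]; push_cast; rfl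
theorem link_UA (r : ℕ) (z : ℚ) : ((P.UA r z : ℚ) : ℝ) = P.toR.UA r z := by
  rw [Par.UA, Par.UA, link_L, link_n]; push_cast; rfl

theorem link_Uside (r : ℕ) (C D : Mat) :
    ((UsideL P r C D : ℚ) : ℝ) = Uside P.toR r (toM P.r0 C) (toM P.r0 D) := by
  rw [UsideL, link_Uobs, Uside]
  simp only [link_trL, link_toM_mmul, link_sum_cast, Rat.cast_pow, ← link_toM_apply]
  rfl

end cast

/-! ### sums over the list of unmatched half-edges -/

theorem link_list_sum {N : ℕ} {R : List ℕ} (hn : R.Nodup) (hl : ∀ k ∈ R, k < N) (f : ℕ → ℝ) :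
    (R.map f).sum = ∑ k ∈ (univ.filter fun k : Fin N => k.val ∈ R), f k := by
  rw [← List.sum_toFinset f hn]
  symm
  refine Finset.sum_bij (fun k _ => k.val) ?_ ?_ ?_ ?_
  · intro k hk; simpa using hk
  · intro k _ l _ h; exact Fin.ext h
  · intro k hk
    have hk' := List.mem_toFinset.1 hk
    exact ⟨⟨k, hl k hk'⟩, by simpa using hk', rfl⟩
  · intro k _; rfl

theorem link_list_sum2 {N : ℕ} {R : List ℕ} (hn : R.Nodup) (hl : ∀ k ∈ R, k < N) (f : ℕ → ℕ → ℚ) :
    (((R.map fun k => (R.map fun l => f k l).sum).sum : ℚ) : ℝ) =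
      ∑ k ∈ (univ.filter fun k : Fin N => k.val ∈ R),
        ∑ l ∈ (univ.filter fun k : Fin N => k.val ∈ R), (f k l : ℝ) := by
  rw [Rat.cast_list_sum, List.map_map, link_list_sum hn hl]
  refine Finset.sum_congr rfl fun k _ => ?_
  rw [Function.comp_apply, Rat.cast_list_sum, List.map_map, link_list_sum hn hl]
  rfl

theorem link_vx_eq (k l : Fin P.r0) : vxF P k = vxF P l ↔ k.val / P.d = l.val / P.d := by
  simp [vxF]

/-! ### the statements -/

theorem vxF_fiber (P : Par ℚ) (hd : 0 < P.d) (y : Fin P.n) :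
    (univ.filter fun k => vxF P k = y).card = P.d := by
  have hlt : ∀ j < P.d, P.d * y.val + j < P.r0 := fun j hj => by
    have h1 : P.d * (y.val + 1) ≤ P.d * P.n := Nat.mul_le_mul_left _ y.2
    rw [Par.r0, mul_comm P.n]
    rw [Nat.mul_succ] at h1
    omega
  symm
  conv_lhs => rw [← Finset.card_range P.d]
  refine Finset.card_bij (fun j hj => (⟨P.d * y.val + j, hlt j (mem_range.1 hj)⟩ : Fin P.r0))
    ?_ ?_ ?_
  · intro j hj
    simp only [mem_filter, mem_univ, true_and, vxF, Fin.ext_iff]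
    rw [Nat.mul_add_div hd, Nat.div_eq_of_lt (mem_range.1 hj), add_zero]
  · intro i _ j _ h
    simpa using h
  · intro k hk
    simp only [mem_filter, mem_univ, true_and, vxF, Fin.ext_iff] at hk
    refine ⟨k.val % P.d, mem_range.2 (Nat.mod_lt _ hd), Fin.ext ?_⟩
    simp only [← hk]
    exact Nat.div_add_mod _ _

theorem interp_card (h : LInv P σ) : (interp P σ).R.card = σ.1.length := by
  have := link_list_sum h.nodup h.lt (fun _ => (1 : ℝ))
  simp only [List.map_const', List.sum_replicate, nsmul_eq_mul, mul_one, Finset.sum_const] at this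
  exact_mod_cast this.symm

theorem interp_init (P : Par ℚ) : interp P (initL P) = St.init P.toR (vxF P) := by
  have hC : ∀ b : ℚ, toM P.r0 (C0L P b) = C0 P.toR b (vxF P) := by
    intro b
    ext k l
    rw [C0L, link_toM_mkM, C0, Matrix.of_apply, ← link_gam, ← link_g, link_n, link_r0]
    simp only [link_vx_eq, Fin.ext_iff (a := k)]
    split_ifs <;> push_cast <;> rfl
  simp only [interp, initL, St.init, hC, Rat.cast_neg, link_a]
  congr 1
  · ext k; simp
  · ext x y; simp [adjL]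

theorem interp_step (u v : Fin P.r0) :
    interp P (stepL P σ (u.val, v.val)) = (interp P σ).step P.toR (vxF P) u v := by
  simp only [interp, stepL, St.step, link_toM_updL, Rat.cast_neg, link_a]
  congr 1
  · ext k
    simp only [mem_filter, mem_univ, true_and, List.mem_filter, decide_eq_true_eq, mem_erase,
      ne_eq, Fin.ext_iff]
    tauto
  · ext x y
    simp only [adjL, adjStep, List.mem_cons, Prod.mk.injEq, vxF, Fin.ext_iff]
    tauto

theorem pot_cast (h : LInv P σ) : (potL P σ : ℝ) = (interp P σ).U P.toR (vxF P) := by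
  have e1 : (ScL P.d σ.1 : ℝ) = Sc (vxF P) (interp P σ).R := by
    rw [ScL, link_list_sum2 h.nodup h.lt, Sc]
    refine Finset.sum_congr rfl fun k _ => Finset.sum_congr rfl fun l _ => ?_
    simp only [link_vx_eq, ne_eq, Fin.ext_iff (a := k)]
    split_ifs <;> simp
  have e2 : (AcL P.d σ.2.1 σ.1 : ℝ) = Ac (vxF P) (interp P σ).adj (interp P σ).R := by
    rw [AcL, link_list_sum2 h.nodup h.lt, Ac]
    refine Finset.sum_congr rfl fun k _ => Finset.sum_congr rfl fun l _ => ?_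
    by_cases ha : adjL σ.2.1 (k.val / P.d) (l.val / P.d)
    · rw [if_pos ha, if_pos (show (interp P σ).adj (vxF P k) (vxF P l) from ha), Rat.cast_one]
    · rw [if_neg ha, if_neg (show ¬ (interp P σ).adj (vxF P k) (vxF P l) from ha), Rat.cast_zero]
  rw [potL, St.U, interp_card h, ← e1, ← e2]
  simp only [Rat.cast_add, link_Uside, link_US, link_UA]
  rfl

theorem link_mem_cands {p : ℕ × ℕ} : p ∈ cands P σ ↔ p.1 ∈ σ.1 ∧ p.2 ∈ σ.1 ∧ okL P σ p := by
  obtain ⟨x, y⟩ := p
  simp only [cands, List.mem_filter, List.mem_product, decide_eq_true_eq, and_assoc]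

theorem mem_cands (u v : Fin P.r0) :
    (u.val, v.val) ∈ cands P σ ↔ (interp P σ).Ok P.toR (vxF P) u v := by
  have e : ∀ (b : ℚ) (C : Mat), 0 < (b - mg C u v) ^ 2 - mg C u u * mg C v v ↔
      0 < ((b : ℝ) - toM P.r0 C u v) ^ 2 - toM P.r0 C u u * toM P.r0 C v v := by
    intro b C
    simp only [link_toM_apply]
    exact_mod_cast Iff.rfl
  rw [link_mem_cands, okL, e, e, St.Ok, Rat.cast_neg, link_a, ne_eq, ne_eq, link_vx_eq]
  simp only [interp, mem_filter, mem_univ, true_and]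
  rfl

theorem cands_lt (h : LInv P σ) {p : ℕ × ℕ} (hp : p ∈ cands P σ) : p.1 < P.r0 ∧ p.2 < P.r0 :=
  ⟨h.lt _ (link_mem_cands.1 hp).1, h.lt _ (link_mem_cands.1 hp).2.1⟩

theorem linv_init (P : Par ℚ) : LInv P (initL P) where
  nodup := List.nodup_range
  lt _ hk := List.mem_range.1 hk
  elt _ he := by simp [initL] at he
  len := by simp [initL]
  sh₁ := link_mkM_mg _ _
  sh₂ := link_mkM_mg _ _

theorem link_length_filter {R : List ℕ} (hn : R.Nodup) {x y : ℕ} (hx : x ∈ R) (hy : y ∈ R)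
    (hxy : x ≠ y) : (R.filter fun k => decide (k ≠ x ∧ k ≠ y)).length + 2 = R.length := by
  rw [← List.toFinset_card_of_nodup hn, ← List.toFinset_card_of_nodup (hn.filter _)]
  have e : (R.filter fun k => decide (k ≠ x ∧ k ≠ y)).toFinset = (R.toFinset.erase x).erase y := by
    ext k
    simp only [List.mem_toFinset, List.mem_filter, decide_eq_true_eq, mem_erase]
    tauto
  have h1 := Finset.card_erase_add_one (List.mem_toFinset.2 hx)
  have h2 := Finset.card_erase_add_one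
    (Finset.mem_erase.2 ⟨hxy.symm, List.mem_toFinset.2 hy⟩)
  rw [e]
  omega

theorem linv_step (h : LInv P σ) {p : ℕ × ℕ} (hp : p ∈ cands P σ) :
    LInv P (stepL P σ p) ∧ (stepL P σ p).1.length + 2 = σ.1.length := by
  obtain ⟨h1, h2, h3, -⟩ := link_mem_cands.1 hp
  have hne : p.1 ≠ p.2 := fun e => h3 (by rw [e])
  have hlen : (stepL P σ p).1.length + 2 = σ.1.length := link_length_filter h.nodup h1 h2 hne
  have hdiv : ∀ k < P.r0, k / P.d < P.n := fun k hk =>
    Nat.div_lt_of_lt_mul (by rwa [Par.r0, mul_comm] at hk)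
  refine ⟨⟨h.nodup.filter _, fun k hk => h.lt k (List.mem_filter.1 hk).1, ?_, ?_,
    link_mkM_mg _ _, link_mkM_mg _ _⟩, hlen⟩
  · intro e he
    rcases List.mem_cons.1 he with rfl | he
    · exact ⟨hdiv _ (h.lt _ h1), hdiv _ (h.lt _ h2)⟩
    · exact h.elt e he
  · have := h.len
    have e : (stepL P σ p).2.1.length = σ.2.1.length + 1 := rfl
    omega

end Crest.Agent.R62
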