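import Crest.Agent.R62.WeightAux1

/-!
# R62/Weight: existence of the weight `ω` (exclusion of bad pairs + tilt) (TASK)

Let `Δ = l₁ B₁ - l₂ B₂` (symmetric), `Z u v = -Δ u v` if `|Δ u v| ≤ ϑ/4`, else `0`.  Call `(u,v)` *bad* if `Fb u v`
or for `B = B₁` or `B₂`: `|B u v| > ϑ`, `|δ_u δ_v| > ϑ`, `|δ_v| β_u > ρ`, `|δ_u| β_v > ρ`, `β_u β_v > ρ²` (a symmetric set).
Let `N = av ((1 + Z) 1_good)`, `ω = (1 + Z) 1_good / N`.  (`r = t^8`, `1 ≤ Λ ≤ ϑ t`, so `1/ϑ ≤ t`, `t ≥ 1000`.)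
* Row counts (Markov), fixed `u`: `1/ϑ² ≤ t²`; `β_u/ϑ² ≤ Λ t^4 t²`; `δ_u² D/ϑ² ≤ t²·t²`; `D β_u²/ρ² ≤ Λ² r/ρ²`, `δ_u² W/ρ² ≤ Λ² r/ρ²`,
  `β_u F2/ρ² ≤ 4 Λ t^4 r/ρ²`, with `ρ² ≥ 100 Λ t^4/ϑ`.  In total `≤ ϑ r/4` bad `v` per row.
* Total count: `r/ϑ² + 2 (F2/ϑ² + D²/ϑ² + 2 D W/ρ² + W²/ρ^4) ≤ 20 r/ϑ²`.
* `av Δ = (l₁ b₁ - l₂ b₂)/r`, `av Δ² ≤ 16 l²/r`, `av |Δ| 1_{|Δ|>ϑ/4} ≤ 4 av Δ²/ϑ`; so
  `|N - 1| ≤ (4 l + 64 l²/ϑ + 40/ϑ²)/r ≤ 110 t²/r` (as `l ≤ ϑ t`), tiny; `c = 1/N` has `|c - 1| ≤ 220 t²/r ≤ ϑ/4`.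
* `ω - 1 = (c - 1) + c Z - c (1+Z) 1_bad`.  Frobenius norms: `220 t² ≤ t^4/4`, `c ‖Δ‖_F ≤ 5 l t^4`,
  `1.1 √20 t^4/ϑ ≤ 5 t^4/ϑ`.  Operator norm of `Z = -Δ + Δ 1_{large}`: `‖Δ‖ ≤ 2 l ν` (`Reg.op`),
  `‖Δ 1_large‖_F² ≤ 16 Σ Δ^4/ϑ² ≤ 16 · 8 l^4 (Q4 + Q4')/ϑ² ≤ 256 l^4 y² r/ϑ²`.
* gain: `av (Δ · B_i²) = (l₁ chi B_i B₁ - l₂ chi B_i B₂)/r²` (`trace_mul_eq`, symmetry), `av B_i² = b²/r`,
  `‖(B_i²) u v‖ ≤ ν²/r`; the errors are `|c-1| 4/r`, `|c-1| ‖Δ‖ ν²/r`, `c ‖Δ 1_large‖ ν²/r`, `c (1+ϑ) ‖1_bad‖ ν²/r`.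
-/

set_option autoImplicit false
set_option linter.unusedSectionVars false
open Finset Matrix

namespace Crest.Agent.R62

variable {ι : Type} [Fintype ι] [DecidableEq ι]

/-- the pairs that are bad for `B` -/
def weightBad (B : Matrix ι ι ℝ) (ϑ ρ : ℝ) (u v : ι) : Prop :=
  ϑ < |B u v| ∨ ϑ < |B u u * B v v| ∨ ρ < |B v v| * bet B u ∨ ρ < |B u u| * bet B v ∨
    ρ ^ 2 < bet B u * bet B v

theorem weightBad_symm {B : Matrix ι ι ℝ} (hB : B.IsSymm) {ϑ ρ : ℝ} {u v : ι}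
    (h : weightBad B ϑ ρ u v) : weightBad B ϑ ρ v u := by
  unfold weightBad at h ⊢
  rw [hB.apply u v, mul_comm (B v v), mul_comm (bet B v)]
  tauto

theorem weight_markov {a a' x : ℝ} (ha : 0 < a) (h : a * a' = 1) (hx : a < |x|) :
    1 ≤ a' ^ 2 * x ^ 2 := by
  have h1 : a ^ 2 ≤ x ^ 2 := by
    rw [← sq_abs x]
    gcongr
  calc (1 : ℝ) = a' ^ 2 * a ^ 2 := by rw [← mul_pow, mul_comm, h, one_pow]
    _ ≤ _ := by gcongr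

theorem weightBad_le {B : Matrix ι ι ℝ} (hB : B.IsSymm) {ϑ τ ρ σ : ℝ} (hϑ : 0 < ϑ) (hτ : ϑ * τ = 1)
    (hρ : 0 < ρ) (hσ : ρ * σ = 1) (u v : ι) [Decidable (weightBad B ϑ ρ u v)] :
    (if weightBad B ϑ ρ u v then (1 : ℝ) else 0) ≤ τ ^ 2 * B u v ^ 2 +
      τ ^ 2 * B u u ^ 2 * B v v ^ 2 + σ ^ 2 * bet B u ^ 2 * B v v ^ 2 +
      σ ^ 2 * B u u ^ 2 * bet B v ^ 2 + σ ^ 2 * bet B u * bet B v ∧
    (if weightBad B ϑ ρ u v then (1 : ℝ) else 0) ≤ τ ^ 2 * B u v ^ 2 +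
      τ ^ 2 * B u u ^ 2 * B v v ^ 2 + σ ^ 2 * bet B u ^ 2 * B v v ^ 2 +
      σ ^ 2 * B u u ^ 2 * bet B v ^ 2 + σ ^ 4 * bet B u ^ 2 * bet B v ^ 2 := by
  have hu := bet_nonneg hB u
  have hv := bet_nonneg hB v
  have p1 : 0 ≤ τ ^ 2 * B u v ^ 2 := by positivity
  have p2 : 0 ≤ τ ^ 2 * B u u ^ 2 * B v v ^ 2 := by positivity
  have p3 : 0 ≤ σ ^ 2 * bet B u ^ 2 * B v v ^ 2 := by positivity
  have p4 : 0 ≤ σ ^ 2 * B u u ^ 2 * bet B v ^ 2 := by positivity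
  have p5 : 0 ≤ σ ^ 2 * bet B u * bet B v := by positivity
  have p6 : 0 ≤ σ ^ 4 * bet B u ^ 2 * bet B v ^ 2 := by positivity
  split_ifs with h
  · rcases h with h | h | h | h | h
    · have := weight_markov hϑ hτ h
      constructor <;> linarith
    · have := weight_markov hϑ hτ h
      rw [mul_pow, ← mul_assoc] at this
      constructor <;> linarith
    · rw [← abs_of_nonneg hu, ← abs_mul, mul_comm] at h
      have := weight_markov hρ hσ h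
      rw [mul_pow, ← mul_assoc] at this
      constructor <;> linarith
    · rw [← abs_of_nonneg hv, ← abs_mul] at h
      have := weight_markov hρ hσ h
      rw [mul_pow, ← mul_assoc] at this
      constructor <;> linarith
    · have h1 : 1 ≤ σ ^ 2 * bet B u * bet B v := by
        calc (1 : ℝ) = σ ^ 2 * ρ ^ 2 := by rw [← mul_pow, mul_comm, hσ, one_pow]
          _ ≤ σ ^ 2 * (bet B u * bet B v) := by gcongr
          _ = _ := by ring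
      have h2 : 1 ≤ σ ^ 4 * bet B u ^ 2 * bet B v ^ 2 := by
        calc (1 : ℝ) ≤ (σ ^ 2 * bet B u * bet B v) ^ 2 := one_le_pow₀ h1
          _ = _ := by ring
      constructor <;> linarith
  · constructor <;> linarith

theorem weight_num4 {t ϑ τ Λ : ℝ} (ht : 1000 ≤ t) (hτ0 : 0 < τ) (hτ : ϑ * τ = 1) (L1 : 1 ≤ Λ)
    (Lt : Λ ≤ ϑ * t) : τ ≤ t ∧ τ ^ 2 * (Λ * t ^ 4) ≤ ϑ / 1000 * t ^ 8 ∧
      τ ^ 2 * Λ * Λ ≤ ϑ / 1000 * t ^ 8 ∧ τ ^ 2 ≤ ϑ / 1000 * t ^ 8 := by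
  have ht0 : 0 < t := by linarith
  have h1 : τ * Λ ≤ t := by
    calc τ * Λ ≤ τ * (ϑ * t) := by gcongr
      _ = ϑ * τ * t := by ring
      _ = t := by rw [hτ, one_mul]
  have h2 : τ ≤ t := (le_mul_of_one_le_right hτ0.le L1).trans h1
  have h3 : t ^ 6 ≤ ϑ / 1000 * t ^ 8 := by
    refine le_of_mul_le_mul_left ?_ hτ0
    calc τ * t ^ 6 ≤ t * t ^ 6 := by gcongr
      _ = 1000 / 1000 * t ^ 7 := by ring
      _ ≤ t / 1000 * t ^ 7 := by gcongr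
      _ = ϑ * τ * (t ^ 8 / 1000) := by rw [hτ]; ring
      _ = _ := by ring
  have h4 : t ^ 2 ≤ t ^ 6 := pow_le_pow_right₀ (by linarith) (by norm_num)
  refine ⟨h2, le_trans ?_ h3, le_trans ?_ (h4.trans h3), le_trans ?_ (h4.trans h3)⟩
  · calc τ ^ 2 * (Λ * t ^ 4) = τ * (τ * Λ) * t ^ 4 := by ring
      _ ≤ t * t * t ^ 4 := by gcongr
      _ = _ := by ring
  · calc τ ^ 2 * Λ * Λ = (τ * Λ) ^ 2 := by ring
      _ ≤ t ^ 2 := by gcongr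
  · gcongr

theorem weight_count {B : Matrix ι ι ℝ} {b Λ ν t ϑ τ ρ : ℝ} (h : Reg B b Λ ν t ϑ) (hτ : ϑ * τ = 1)
    (hρ0 : 0 < ρ) (hρ : 100 * Λ * t ^ 4 ≤ ϑ * ρ ^ 2) [DecidableRel (weightBad B ϑ ρ)] :
    (∀ u, ∑ v, (if weightBad B ϑ ρ u v then (1 : ℝ) else 0) ≤ ϑ / 10 * rr ι) ∧
      weightS (fun u v => if weightBad B ϑ ρ u v then (1 : ℝ) else 0) ≤ 7 * τ ^ 2 * rr ι := by
  obtain ⟨σ, hσ⟩ : ∃ σ, ρ * σ = 1 := ⟨ρ⁻¹, mul_inv_cancel₀ hρ0.ne'⟩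
  obtain ⟨hτ0, hττ, -⟩ := weight_num3 h.th0 h.th1 hτ
  obtain ⟨-, n1, n2, -⟩ := weight_num4 h.t1000 hτ0 hτ h.L1 h.Lt
  rw [h.t8] at n1 n2
  have hr := h.rpos
  have hΛ : 0 ≤ Λ := by linarith [h.L1]
  have ht0 := h.t0
  have hΛt : Λ ≤ t ^ 4 := h.Lν.trans h.νt
  have hσ1 : σ ^ 2 * (Λ * t ^ 4) ≤ ϑ / 100 := by
    have a1 := mul_le_mul_of_nonneg_left hρ (sq_nonneg σ)
    have a2 : σ ^ 2 * (ϑ * ρ ^ 2) = ϑ := by
      rw [mul_left_comm, ← mul_pow, mul_comm σ, hσ, one_pow, mul_one]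
    linarith
  have hσ2 : σ ^ 2 * (Λ * Λ) ≤ ϑ / 100 := le_trans (by gcongr) hσ1
  have hD := h.d
  have hW := h.w
  have hF : t2 B ≤ 4 * rr ι := h.t8 ▸ h.f2'
  have hD0 : 0 ≤ dd B := sum_nonneg fun _ _ => sq_nonneg _
  have hW0 : 0 ≤ ww B := sum_nonneg fun _ _ => sq_nonneg _
  have hF0 : 0 ≤ t2 B := sum_nonneg fun k _ => bet_nonneg h.symm k
  have hϑr := mul_pos h.th0 hr
  have hσr1 := mul_le_mul_of_nonneg_right hσ1 hr.le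
  have hσr2 := mul_le_mul_of_nonneg_right hσ2 hr.le
  constructor
  · intro u
    refine (sum_le_sum fun v _ => (weightBad_le h.symm h.th0 hτ hρ0 hσ u v).1).trans ?_
    simp only [sum_add_distrib, ← mul_sum]
    rw [← bet_eq h.symm, sum_bet]
    change _ + _ * dd B + _ * dd B + _ * ww B + _ ≤ _
    have hu := bet_nonneg h.symm u
    have a1 : τ ^ 2 * bet B u ≤ τ ^ 2 * (Λ * t ^ 4) := by gcongr; exact h.bet_le u
    have a2 : τ ^ 2 * B u u ^ 2 * dd B ≤ τ ^ 2 * Λ * Λ := by gcongr; exact h.ent u u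
    have a3 : σ ^ 2 * bet B u ^ 2 * dd B ≤ σ ^ 2 * (Λ * rr ι) * Λ := by
      gcongr; exact (bet_sq_le_ww B u).trans hW
    have a4 : σ ^ 2 * B u u ^ 2 * ww B ≤ σ ^ 2 * Λ * (Λ * rr ι) := by gcongr; exact h.ent u u
    have a5 : σ ^ 2 * bet B u * t2 B ≤ σ ^ 2 * (Λ * t ^ 4) * (4 * rr ι) := by
      gcongr; exact h.bet_le u
    linarith
  · refine (weightS_mono fun u v => (weightBad_le h.symm h.th0 hτ hρ0 hσ u v).2).trans ?_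
    simp only [weightS, sum_add_distrib, ← mul_sum, ← sum_mul]
    change τ ^ 2 * fro B + _ * dd B * dd B + _ * ww B * dd B + _ * dd B * ww B +
      _ * ww B * ww B ≤ _
    rw [fro_eq_t2 h.symm]
    have a1 : τ ^ 2 * t2 B ≤ τ ^ 2 * (4 * rr ι) := by gcongr
    have a2 : τ ^ 2 * dd B * dd B ≤ τ ^ 2 * t ^ 4 * t ^ 4 := by
      gcongr <;> exact hD.trans hΛt
    have a2' : τ ^ 2 * t ^ 4 * t ^ 4 = τ ^ 2 * rr ι := by rw [← h.t8]; ring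
    have a3 : σ ^ 2 * ww B * dd B ≤ σ ^ 2 * (Λ * rr ι) * Λ := by gcongr
    have a4 : σ ^ 2 * dd B * ww B ≤ σ ^ 2 * Λ * (Λ * rr ι) := by gcongr
    have a5 : σ ^ 4 * ww B * ww B ≤ rr ι := by
      have b1 : σ ^ 2 * (Λ * t ^ 4) ≤ 1 := by linarith [h.th1]
      calc σ ^ 4 * ww B * ww B ≤ σ ^ 4 * (Λ * rr ι) * (Λ * rr ι) := by gcongr
        _ = (σ ^ 2 * (Λ * t ^ 4)) ^ 2 * rr ι := by rw [← h.t8]; ring
        _ ≤ 1 ^ 2 * rr ι := by gcongr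
        _ = _ := by ring
    have a6 := mul_le_mul_of_nonneg_right hττ hr.le
    have a7 := mul_le_mul_of_nonneg_right h.th1 hr.le
    linarith

theorem weight_pow4 (a b : ℝ) : (a - b) ^ 4 ≤ 8 * a ^ 4 + 8 * b ^ 4 := by
  have h1 : (a - b) ^ 2 ≤ 2 * a ^ 2 + 2 * b ^ 2 := by nlinarith [sq_nonneg (a + b)]
  have h2 : ((a - b) ^ 2) ^ 2 ≤ (2 * a ^ 2 + 2 * b ^ 2) ^ 2 := by gcongr
  nlinarith [sq_nonneg (a ^ 2 - b ^ 2)]

theorem weight_gain {B B₁ B₂ : Matrix ι ι ℝ} (hB : B.IsSymm) (h₁ : B₁.IsSymm) (h₂ : B₂.IsSymm)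
    {ν t l₁ l₂ K : ℝ} (h4 : t4 B ≤ ν ^ 4) (ht : 0 < t) (t8 : t ^ 8 = rr ι) (hK : 0 ≤ K)
    {ω : ι → ι → ℝ}
    (hω : weightS (fun u v => (ω u v - 1 + (l₁ * B₁ u v - l₂ * B₂ u v)) ^ 2) ≤ K ^ 2 * rr ι) :
    |av (fun u v => (ω u v - 1) * (B * B) u v) + (l₁ * chi B B₁ - l₂ * chi B B₂) / rr ι ^ 2| ≤
      K * ν ^ 2 / t ^ 12 := by
  have e1 : (l₁ * chi B B₁ - l₂ * chi B B₂) / rr ι ^ 2 =
      av (fun u v => (l₁ * B₁ u v - l₂ * B₂ u v) * (B * B) u v) := by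
    unfold chi av
    rw [trace_mul_eq, trace_mul_eq]
    simp only [mul_sum, ← sum_sub_distrib]
    congr 1
    refine sum_congr rfl fun u _ => sum_congr rfl fun v _ => ?_
    rw [h₁.apply u v, h₂.apply u v]
    ring
  rw [e1, ← av_add]
  have e2 := abs_av_cs (f := fun u v => ω u v - 1 + (l₁ * B₁ u v - l₂ * B₂ u v))
    (g := fun u v => (B * B) u v) (A := K / t ^ 4) (B := ν ^ 2 / t ^ 8) (by positivity)
    (by positivity) ?_ ?_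
  · refine le_trans (le_of_eq ?_) (e2.trans (le_of_eq ?_))
    · congr 1
      exact av_congr fun u v => by ring
    · field_simp
  · change weightS _ / rr ι ^ 2 ≤ _
    rw [← t8] at hω ⊢
    rw [div_le_iff₀ (by positivity)]
    refine hω.trans (le_of_eq ?_)
    field_simp
  · refine (av_sq_eq_fro (B * B)).le.trans ?_
    rw [← t8, div_pow]
    gcongr
    rw [← pow_mul]
    exact (fro_sq_eq_t4 hB).le.trans h4

theorem exists_weight {B₁ B₂ : Matrix ι ι ℝ} {b₁ b₂ Λ ν t ϑ ρ l₁ l₂ l y Ξ Ω : ℝ}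
    (h₁ : Reg B₁ b₁ Λ ν t ϑ) (h₂ : Reg B₂ b₂ Λ ν t ϑ)
    (Fb : ι → ι → Prop) [DecidableRel Fb] (hFs : ∀ u v, Fb u v → Fb v u) (hFr : ∀ u, Fb u u)
    (hFc : ∀ u, ((univ.filter fun v => Fb u v).card : ℝ) ≤ 1 / ϑ ^ 2)
    (hρ0 : 0 < ρ) (hρ : 100 * Λ * t ^ 4 ≤ ϑ * ρ ^ 2)
    (hl₁ : |l₁| ≤ l) (hl₂ : |l₂| ≤ l) (hl : l ≤ ϑ * t) (hy : 0 ≤ y)
    (hq₁ : q4 B₁ ≤ y ^ 2 * rr ι) (hq₂ : q4 B₂ ≤ y ^ 2 * rr ι)
    (hΞ : 10 / ϑ + 10 * l ≤ Ξ) (hΩ : 10 * t ^ 4 / ϑ + 4 * l * ν + 40 * l ^ 2 * y * t ^ 4 / ϑ ≤ Ω) :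
    ∃ ω : ι → ι → ℝ, Wt ω ϑ Ξ Ω t ∧ Adm ω B₁ ϑ ρ ∧ Adm ω B₂ ϑ ρ ∧ (∀ u v, ω u v ≠ 0 → ¬ Fb u v) ∧
      |av (fun u v => (ω u v - 1) * (B₁ * B₁) u v) + (l₁ * chi B₁ B₁ - l₂ * chi B₁ B₂) / rr ι ^ 2| ≤
        (20 + 40 * l ^ 2 * y) / ϑ * ν ^ 2 / t ^ 12 ∧
      |av (fun u v => (ω u v - 1) * (B₂ * B₂) u v) + (l₁ * chi B₂ B₁ - l₂ * chi B₂ B₂) / rr ι ^ 2| ≤
        (20 + 40 * l ^ 2 * y) / ϑ * ν ^ 2 / t ^ 12 := by
  classical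
  have hϑ := h₁.th0
  obtain ⟨τ, hτ⟩ : ∃ τ, ϑ * τ = 1 := ⟨ϑ⁻¹, mul_inv_cancel₀ hϑ.ne'⟩
  have hdiv : ∀ x : ℝ, x / ϑ = x * τ := fun x => by
    rw [div_eq_iff hϑ.ne', mul_assoc, mul_comm τ, hτ, mul_one]
  obtain ⟨hτ0, hττ, -⟩ := weight_num3 hϑ h₁.th1 hτ
  obtain ⟨hτt, -, -, n3⟩ := weight_num4 h₁.t1000 hτ0 hτ h₁.L1 h₁.Lt
  rw [h₁.t8] at n3
  have hτ1 : 1 ≤ τ := by nlinarith
  have hr := h₁.rpos
  have ht0 := h₁.t0
  have hl0 : 0 ≤ l := (abs_nonneg _).trans hl₁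
  have hν0 : 0 ≤ ν := by linarith [h₁.L1, h₁.Lν]
  have hF1 : ∀ u, ∑ v, (if Fb u v then (1 : ℝ) else 0) ≤ τ ^ 2 := fun u => by
    have := hFc u
    rw [card_filter, sq, ← div_div, hdiv, hdiv, one_mul, ← sq] at this
    exact_mod_cast this
  obtain ⟨r1, s1⟩ := weight_count h₁ hτ hρ0 hρ
  obtain ⟨r2, s2⟩ := weight_count h₂ hτ hρ0 hρ
  have hind : ∀ u v, (if Fb u v ∨ weightBad B₁ ϑ ρ u v ∨ weightBad B₂ ϑ ρ u v then (1 : ℝ) else 0) ≤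
      (if Fb u v then (1 : ℝ) else 0) + (if weightBad B₁ ϑ ρ u v then (1 : ℝ) else 0) +
        (if weightBad B₂ ϑ ρ u v then (1 : ℝ) else 0) := by
    intro u v
    by_cases a : Fb u v <;> by_cases b : weightBad B₁ ϑ ρ u v <;>
      by_cases c : weightBad B₂ ϑ ρ u v <;> simp [a, b, c]
  have hsq₁ : l₁ ^ 2 ≤ l ^ 2 := by rw [← sq_abs l₁]; gcongr
  have hsq₂ : l₂ ^ 2 ≤ l ^ 2 := by rw [← sq_abs l₂]; gcongr
  obtain ⟨ω, w1, w2, w3, w4, w5, w6, w7, w8⟩ := weight_abs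
    (Δ := fun u v => l₁ * B₁ u v - l₂ * B₂ u v)
    (fun u v => by rw [h₁.symm.apply u v, h₂.symm.apply u v])
    (fun u v => Fb u v ∨ weightBad B₁ ϑ ρ u v ∨ weightBad B₂ ϑ ρ u v)
    (fun u v h => h.imp (hFs u v) (Or.imp (weightBad_symm h₁.symm) (weightBad_symm h₂.symm)))
    (Y := 16 * l ^ 4 * y ^ 2) h₁.t1000 h₁.t8 hϑ h₁.th1 hτ hτt hl0 hl
    (fun u => by
      refine (sum_le_sum fun v _ => hind u v).trans ?_
      rw [sum_add_distrib, sum_add_distrib]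
      have := mul_pos hϑ hr
      linarith [hF1 u, r1 u, r2 u])
    (by
      refine (weightS_mono hind).trans ?_
      rw [weightS_add, weightS_add]
      have a : weightS (fun u v => if Fb u v then (1 : ℝ) else 0) ≤ τ ^ 2 * rr ι := by
        refine (sum_le_sum fun u _ => hF1 u).trans (le_of_eq ?_)
        rw [sum_const, card_univ, nsmul_eq_mul, mul_comm, rr]
      have : 0 ≤ τ ^ 2 * rr ι := by positivity
      linarith)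
    (by
      have a : weightS (fun u v => l₁ * B₁ u v - l₂ * B₂ u v) = (l₁ * b₁ - l₂ * b₂) * rr ι := by
        simp only [weightS, sum_sub_distrib, ← mul_sum, h₁.row, h₂.row, sum_const, card_univ,
          nsmul_eq_mul, rr]
        ring
      rw [a, abs_mul, abs_of_pos hr]
      refine mul_le_mul_of_nonneg_right ((abs_sub _ _).trans ?_) hr.le
      rw [abs_mul, abs_mul]
      have b1 := mul_le_mul hl₁ h₁.abs_b.2 (abs_nonneg _) hl0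
      have b2 := mul_le_mul hl₂ h₂.abs_b.2 (abs_nonneg _) hl0
      linarith)
    (by
      have a : weightS (fun u v => (l₁ * B₁ u v - l₂ * B₂ u v) ^ 2) ≤
          weightS (fun u v => 2 * l ^ 2 * B₁ u v ^ 2 + 2 * l ^ 2 * B₂ u v ^ 2) := by
        refine weightS_mono fun u v => ?_
        have b1 := mul_le_mul_of_nonneg_right hsq₁ (sq_nonneg (B₁ u v))
        have b2 := mul_le_mul_of_nonneg_right hsq₂ (sq_nonneg (B₂ u v))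
        have b3 := sq_nonneg (l₁ * B₁ u v + l₂ * B₂ u v)
        linarith [b1, b2, b3, (by ring : (l₁ * B₁ u v - l₂ * B₂ u v) ^ 2 +
          (l₁ * B₁ u v + l₂ * B₂ u v) ^ 2 = 2 * (l₁ ^ 2 * B₁ u v ^ 2) + 2 * (l₂ ^ 2 * B₂ u v ^ 2))]
      rw [weightS_add, weightS_mul, weightS_mul] at a
      have b1 : weightS (fun u v => B₁ u v ^ 2) ≤ 4 * rr ι :=
        (fro_eq_t2 h₁.symm).le.trans (h₁.t8 ▸ h₁.f2')
      have b2 : weightS (fun u v => B₂ u v ^ 2) ≤ 4 * rr ι :=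
        (fro_eq_t2 h₂.symm).le.trans (h₂.t8 ▸ h₂.f2')
      have b3 := mul_le_mul_of_nonneg_left b1 (sq_nonneg l)
      have b4 := mul_le_mul_of_nonneg_left b2 (sq_nonneg l)
      linarith)
    (by
      have c1 : l₁ ^ 4 ≤ l ^ 4 := by
        calc l₁ ^ 4 = (l₁ ^ 2) ^ 2 := by ring
          _ ≤ (l ^ 2) ^ 2 := by gcongr
          _ = _ := by ring
      have c2 : l₂ ^ 4 ≤ l ^ 4 := by
        calc l₂ ^ 4 = (l₂ ^ 2) ^ 2 := by ring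
          _ ≤ (l ^ 2) ^ 2 := by gcongr
          _ = _ := by ring
      have a : weightS (fun u v => (l₁ * B₁ u v - l₂ * B₂ u v) ^ 4) ≤
          weightS (fun u v => 8 * l ^ 4 * B₁ u v ^ 4 + 8 * l ^ 4 * B₂ u v ^ 4) := by
        refine weightS_mono fun u v => (weight_pow4 _ _).trans ?_
        have b1 := mul_le_mul_of_nonneg_right c1 (by positivity : 0 ≤ B₁ u v ^ 4)
        have b2 := mul_le_mul_of_nonneg_right c2 (by positivity : 0 ≤ B₂ u v ^ 4)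
        rw [mul_pow, mul_pow]
        linarith
      rw [weightS_add, weightS_mul, weightS_mul] at a
      have b3 := mul_le_mul_of_nonneg_left hq₁ (by positivity : 0 ≤ l ^ 4)
      have b4 := mul_le_mul_of_nonneg_left hq₂ (by positivity : 0 ≤ l ^ 4)
      change _ ≤ 8 * l ^ 4 * q4 B₁ + 8 * l ^ 4 * q4 B₂ at a
      linarith)
  rw [hdiv] at hΞ
  rw [hdiv, hdiv] at hΩ
  have hly : 0 ≤ l ^ 2 * y := by positivity
  have hK : ∀ a : ℝ, 10 ≤ a → weightS (fun u v => (ω u v - 1 + (l₁ * B₁ u v - l₂ * B₂ u v)) ^ 2) ≤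
      ((a + 40 * l ^ 2 * y) * τ) ^ 2 * rr ι := by
    intro a ha
    refine w8.trans (mul_le_mul_of_nonneg_right ?_ hr.le)
    rw [mul_pow]
    refine mul_le_mul_of_nonneg_right ?_ (sq_nonneg τ)
    have b1 : 0 ≤ a * (l ^ 2 * y) := mul_nonneg (by linarith) hly
    have b2 : 10 ^ 2 ≤ a ^ 2 := by gcongr
    linarith [(by ring : (a + 40 * l ^ 2 * y) ^ 2 =
      a ^ 2 + 80 * (a * (l ^ 2 * y)) + 1600 * (l ^ 4 * y ^ 2))]
  have hgood : ∀ u v, ω u v ≠ 0 → ¬ Fb u v ∧ ¬ weightBad B₁ ϑ ρ u v ∧ ¬ weightBad B₂ ϑ ρ u v := by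
    intro u v h
    have := mt (w4 u v) h
    rwa [not_or, not_or] at this
  have hadm : ∀ B : Matrix ι ι ℝ, (∀ u v, ω u v ≠ 0 → ¬ weightBad B ϑ ρ u v) → Adm ω B ϑ ρ := by
    intro B hB u v h
    have := hB u v h
    simp only [weightBad, not_or, not_lt] at this
    exact ⟨this.1, this.2.1, this.2.2.1, this.2.2.2.2⟩
  have p1 : 0 ≤ l * ν := mul_nonneg hl0 hν0
  have p2 : 0 ≤ l ^ 2 * y * t ^ 4 * τ := by positivity
  have p3 : t ^ 4 ≤ t ^ 4 * τ := le_mul_of_one_le_right (by positivity) hτ1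
  have p4 : 0 < t ^ 4 := by positivity
  refine ⟨ω, ⟨w1, w2, w3, fun u => w4 u u (Or.inl (hFr u)), w5, w6, ?_, ?_, by linarith,
    by linarith⟩, hadm B₁ fun u v h => (hgood u v h).2.1, hadm B₂ fun u v h => (hgood u v h).2.2,
    fun u v h => (hgood u v h).1, ?_, ?_⟩
  · refine w7.trans (mul_le_mul_of_nonneg_right ?_ hr.le)
    have a : (10 * τ + 10 * l) ^ 2 ≤ Ξ ^ 2 := by gcongr
    have b : 0 ≤ τ * l := by positivity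
    linarith [(by ring : (10 * τ + 10 * l) ^ 2 = 100 * τ ^ 2 + 200 * (τ * l) + 100 * l ^ 2)]
  · have a1 : OpB (fun u v => ω u v - 1 + (l₁ * B₁ u v - l₂ * B₂ u v))
        ((10 + 40 * l ^ 2 * y) * τ * t ^ 4) := by
      refine OpB.of_fro ((hK 10 le_rfl).trans (le_of_eq ?_))
      rw [← h₁.t8]
      ring
    have a2 := (a1.add (h₁.op.opB.const_mul (-l₁)) (by positivity) (by positivity)).add
      (h₂.op.opB.const_mul l₂) (by positivity) (by positivity)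
    have a3 : (fun u v => ω u v - 1) = fun u v =>
        ω u v - 1 + (l₁ * B₁ u v - l₂ * B₂ u v) + -l₁ * B₁ u v + l₂ * B₂ u v := by
      funext u v
      ring
    rw [a3]
    refine a2.mono (by positivity) ?_
    rw [abs_neg]
    have b1 := mul_le_mul_of_nonneg_right hl₁ hν0
    have b2 := mul_le_mul_of_nonneg_right hl₂ hν0
    linarith
  · rw [hdiv]
    exact weight_gain h₁.symm h₁.symm h₂.symm h₁.t4 ht0 h₁.t8 (by positivity) (hK 20 (by norm_num))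
  · rw [hdiv]
    exact weight_gain h₂.symm h₁.symm h₂.symm h₂.t4 ht0 h₁.t8 (by positivity) (hK 20 (by norm_num))

end Crest.Agent.R62
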