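import Crest.Agent.R62.BFacts
import Crest.Agent.R62.Weight

/-!
# R62/MkSide: the regime hypotheses and the weight, from the bounds on the potential (TASK)

`mk_reg`: `Λ ≤ t/L` (`1189 ≤ 4007`); `Λ ≤ ν` (`r > r4`: `ν ≥ 2 L^(48024-24002)`; late: `L^43 ≤ t^4`); `ν ≤ t^4`
(`2 L^48024 ≤ t^6`, `t^6 ≥ L^48054`); `dd ≤ 2 Dbar ≤ Λ`, entries by `ent_sq_le` and `Dbar_le`; `ww ≤ 4 L^12 r`;
`t4 ≤ 2 L^192096/r ≤ ν^4 = 16 L^192096/r`, late: `t4 ≤ t2²`, `t2 ≤ 4 + 2 L r²/rs ≤ r/L^46 = ν²`; `q4 ≤ 16 r` by `q4_le_half`.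
`mk_side`: apply `exists_weight` with `ϑ = 1/L`, `ρ = rho r t` (`100 Λ t^4 L ≤ ρ²`: for `r > r4` this is
`25 Λ r ≤ L^96047`, true as `L^(20+96001)`, resp. `4 L^(1188+65240)`; late `ρ = t^8`).
* Outside the tilt phase: `l₁ = l₂ = l = 0`, `y = 4`, `G r = 0`; gain error `2 · 20 L ν²/t^12 ≤ σ/(L r)` iff `160 L^96050 ≤ L^31979 r`.
* Tilt phase `r2 < r < 2 r2 + 2`: `T_i = t3 B_i = chi B_i B_i ≥ Tc - 2n/L ≥ n`, `χ₁ = chi B₁ B₂`, `χ₂ = chi B₂ B₁`,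
  `|χ_i| ≤ 4n/L` (upper: `chi_bd`, `L³ r ≤ n`; lower: `chi_lower`, `g t2 + 16 ≤ 7 r`).  `G' = G a r²/2 ∈ [0, 32 L^(32241+65240)]`.
  Solve `l₁ T₁ - l₂ χ₁ = G'`, `l₂ T₂ - l₁ χ₂ = G'`: `det = T₁T₂ - χ₁χ₂ ≥ T₁T₂/2`, `l₁ = G' (T₂ + χ₁)/det`, `l₂ = G' (T₁ + χ₂)/det`,
  `|l_i| ≤ 4 G'/n ≤ 128 L^1481 ≤ l := L^1482`.  `y = 1/L^2390` (`q_small2`).  `10 L + 10 l ≤ L^1483`;
  `10 L t^4 + 4 l ν + 40 l² y L t^4 ≤ L^33197` (`t^4 ≤ 2 L^32620`, `ν ≤ 2 L^31714`).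
  Then `(2/a) av₁ + G = (2/a)(av₁ + (l₁T₁ - l₂χ₁)/r²)` and `(2/(-a)) av₂ + G = -(2/a)(av₂ + (l₁χ₂ - l₂T₂)/r²)`;
  error `2 (20 + 40 L^574) L ν²/t^12 ≤ σ/(L r)` since `ν²/t^4 ≤ 4 L^63428/L^32620`.

General remarks.  `h : Side ..` provides `h.reg, h.wt, h.adm` (hypotheses of the drift lemmas, with `ϑ = 1/L`,
`Λ = Lam r`, `ν = nu r t`, `Ξ = Xi r`, `Ω = Om r t`), `h.bnd` (use the lemmas `Bnd.*` of `BFacts`), `h.ctx` (lemmas
`Ctx.*`, `Good.*` of `Facts`), `h.rr_eq : rr ι = r`, `h.b_sq`, `h.nonneg`.  `t^8 = r`; `CC = 10^12`, `C2 = 10^18`,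
`L ≥ 10^80`, `L^96000 ≤ n ≤ 2 L^96000`.  Split into phases (`by_cases`), rewrite the weights with `if_pos/if_neg`,
use linearity of `Ea` (`Ea_add, Ea_const_mul, Wt.Ea_const, Wt.Ea_mono`), then check the monomial inequalities with the
bounds on `t` (`Ctx.t_lo, t_mid, t_tilt, t_hi`) and `cpow_le`.  Prove each monomial inequality as a separate small
lemma about real numbers `L, t, ..` (never let `norm_num`/`nlinarith` see the huge exponents; `calc`, `gcongr`,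
`div_le_iff₀`, `pow_le_pow_right₀`, `ring`).
-/

set_option autoImplicit false
set_option linter.unusedSectionVars false
open Finset Matrix

namespace Crest.Agent.R62

variable {ι : Type} [Fintype ι] [DecidableEq ι] {P : Par ℝ} {r : ℕ} {t b : ℝ}
  {B B' : Matrix ι ι ℝ} {ω : ι → ι → ℝ}

theorem mkside_c_le {L c : ℝ} (hL : (10 : ℝ) ^ 80 ≤ L) (hc : c ≤ 1000) : c ≤ L :=
  hc.trans (le_trans (by norm_num) hL)

theorem mkside_Lam_le (hg : P.Good) (r : ℕ) : P.Lam r ≤ (P.L : ℝ) ^ 1188 := by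
  unfold Par.Lam
  split_ifs
  · exact le_rfl
  · exact pow_le_pow_right₀ hg.L_one (by norm_num)

theorem mkside_le_Lam (hg : P.Good) (r : ℕ) : (P.L : ℝ) ^ 20 ≤ P.Lam r := by
  unfold Par.Lam
  split_ifs
  · exact pow_le_pow_right₀ hg.L_one (by norm_num)
  · exact le_rfl

theorem mkside_pow_le_th {L t : ℝ} (hL : 1 ≤ L) (ht : L ^ 4007 ≤ t) {k : ℕ} (hk : k + 1 ≤ 4007) :
    L ^ k ≤ 1 / L * t := by
  have hL0 : 0 < L := by linarith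
  rw [one_div, inv_mul_eq_div, le_div_iff₀ hL0, ← pow_succ]
  exact (pow_le_pow_right₀ hL hk).trans ht

theorem mkside_nu_lo1 {L t : ℝ} (hL : 1 ≤ L) (ht0 : 0 < t) (ht : t ≤ L ^ 12001) :
    L ^ 1188 ≤ 2 * L ^ 48024 / t ^ 2 := by
  have hL0 : 0 < L := by linarith
  rw [le_div_iff₀ (by positivity)]
  calc L ^ 1188 * t ^ 2 ≤ L ^ 1188 * (L ^ 12001) ^ 2 := by gcongr
    _ = L ^ 25190 := by ring
    _ ≤ L ^ 48024 := pow_le_pow_right₀ hL (by norm_num)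
    _ ≤ 2 * L ^ 48024 := le_mul_of_one_le_left (by positivity) (by norm_num)

theorem mkside_nu_lo2 {L t : ℝ} (hL : 1 ≤ L) (ht : L ^ 4007 ≤ t) :
    L ^ 1188 ≤ t ^ 4 / L ^ 23 := by
  have hL0 : 0 < L := by linarith
  rw [le_div_iff₀ (by positivity)]
  calc L ^ 1188 * L ^ 23 = L ^ 1211 := by ring
    _ ≤ L ^ 16028 := pow_le_pow_right₀ hL (by norm_num)
    _ = (L ^ 4007) ^ 4 := by ring
    _ ≤ t ^ 4 := by gcongr

theorem mkside_nu_hi1 {L t : ℝ} (hL : (10 : ℝ) ^ 80 ≤ L) (ht0 : 0 < t) (ht : L ^ 8009 ≤ t) :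
    2 * L ^ 48024 / t ^ 2 ≤ t ^ 4 := by
  have hL1 : 1 ≤ L := mkside_c_le hL (by norm_num)
  have hL0 : 0 < L := by linarith
  rw [div_le_iff₀ (by positivity)]
  calc 2 * L ^ 48024 ≤ L ^ 48054 := cpow_le hL1 (mkside_c_le hL (by norm_num)) (by norm_num)
    _ = (L ^ 8009) ^ 6 := by ring
    _ ≤ t ^ 6 := by gcongr
    _ = t ^ 4 * t ^ 2 := by ring

theorem mkside_late {L r a F : ℝ} (hL : (10 : ℝ) ^ 80 ≤ L) (hr : L ^ 32059 ≤ r) (hr4 : r ≤ L ^ 64072)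
    (ha : a ^ 2 ≤ 4) (hF : F ≤ a ^ 2 + 2 * L * r ^ 2 / L ^ 64120) : F ≤ r / L ^ 46 := by
  have hL1 : 1 ≤ L := mkside_c_le hL (by norm_num)
  have hL0 : 0 < L := by linarith
  have hr0 : 0 < r := lt_of_lt_of_le (by positivity) hr
  have h1 : (4 : ℝ) ≤ r / L ^ 46 / 2 := by
    rw [div_div, le_div_iff₀ (by positivity)]
    calc 4 * (L ^ 46 * 2) = 8 * L ^ 46 := by ring
      _ ≤ L ^ 32059 := cpow_le hL1 (mkside_c_le hL (by norm_num)) (by norm_num)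
      _ ≤ r := hr
  have h2 : 2 * L * r ^ 2 / L ^ 64120 ≤ r / L ^ 46 / 2 := by
    rw [div_div, div_le_div_iff₀ (by positivity) (by positivity)]
    calc 2 * L * r ^ 2 * (L ^ 46 * 2) = r * (4 * L ^ 47 * r) := by ring
      _ ≤ r * (4 * L ^ 47 * L ^ 64072) := by gcongr
      _ = r * (4 * L ^ 64119) := by ring
      _ ≤ r * L ^ 64120 := by
          gcongr
          exact cpow_le hL1 (mkside_c_le hL (by norm_num)) (by norm_num)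
  linarith

theorem mk_reg (hc : Ctx P r t) (hcard : Fintype.card ι = r) (hb : b = P.a ∨ b = -P.a)
    (hB : B.IsSymm) (hrow : ∀ k, ∑ l, B k l = b) (hΓ : Gam B b P.g) (hbnd : Bnd P r B B') :
    Reg B b (P.Lam r) (P.nu r t) t (1 / P.L) := by
  have hg := hc.good
  have hL := hg.L_big
  have hL1 := hg.L_one
  have hL0 : (0 : ℝ) < P.L := by linarith
  have ht0 := hc.t0
  have hrr : rr ι = r := by rw [rr, hcard]
  have h8 : t ^ 8 = rr ι := by rw [hrr]; exact hc.t8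
  have hr1000 : (1000 : ℝ) ≤ r := by exact_mod_cast hc.r_big
  have hr0 : 0 < rr ι := by rw [hrr]; linarith
  have hbsq : b ^ 2 = P.a ^ 2 := by rcases hb with rfl | rfl <;> ring
  have ha1 := hg.a1
  have ha2 := hg.a2
  have hb1 : 1 ≤ b ^ 2 := by rw [hbsq]; nlinarith
  have hb4 : b ^ 2 ≤ 4 := by rw [hbsq]; nlinarith
  have hth0 : (0 : ℝ) < 1 / P.L := by positivity
  have hth1 : 1 / (P.L : ℝ) ≤ 1 / 1000 :=
    one_div_le_one_div_of_le (by norm_num) (mkside_c_le hL le_rfl)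
  have hΛ20 := mkside_le_Lam hg r
  have hΛ := mkside_Lam_le hg r
  have hΛ1 : 1 ≤ P.Lam r := (one_le_pow₀ hL1).trans hΛ20
  have hΛt : P.Lam r ≤ 1 / P.L * t := hΛ.trans (mkside_pow_le_th hL1 hc.t_lo (by norm_num))
  have hf2 : t2 B ≤ b ^ 2 * rr ι := by rw [hbsq, hrr]; exact hbnd.f2_le hc
  have hD := hg.Dbar_le r
  have hD0 := hg.Dbar_pos r
  have hd := hbnd.d_bd hc
  have hdΛ : dd B ≤ P.Lam r := by linarith
  have hw : ww B ≤ P.Lam r * rr ι := by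
    refine (hbnd.w_bd' hc).trans ?_
    rw [hrr]
    gcongr
    exact (cpow_le hL1 (mkside_c_le hL (by norm_num)) (by norm_num)).trans hΛ20
  have hg2 : P.g ^ 2 ≤ b ^ 2 / 2 := by rw [hbsq]; exact hg.g2
  refine ⟨hB, hrow, hb1, hb4, ht0, h8, hth0, hth1, hΛ1, hΛt, ?_, ?_, hf2, hdΛ, hw, ?_, ?_, ?_⟩
  · refine hΛ.trans ?_
    unfold Par.nu
    split_ifs
    · exact mkside_nu_lo1 hL1 ht0 hc.t_hi
    · exact mkside_nu_lo2 hL1 hc.t_lo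
  · unfold Par.nu
    split_ifs with h4
    · exact mkside_nu_hi1 hL ht0 (hc.t_mid h4)
    · exact div_le_self (by positivity) (one_le_pow₀ hL1)
  · unfold Par.nu
    split_ifs with h4
    · refine (hbnd.t4_bd hc h4).trans ?_
      rw [← hc.t8, div_pow, ← pow_mul, mul_pow, ← pow_mul]
      gcongr
      norm_num
    · have h4' : r ≤ P.r4 := not_lt.mp h4
      have h4'' : (r : ℝ) ≤ (P.L : ℝ) ^ 64072 := by rw [← P.r4_cast]; exact_mod_cast h4'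
      have hF := hbnd.F_late hc h4'
      rw [P.rs_cast] at hF
      have h1 := mkside_late hL hc.r_lo h4'' (hbsq ▸ hb4) hF
      have h0 : 0 ≤ t2 B := (sq_nonneg b).trans (sq_le_t2 hB hrow hr0)
      calc t4 B ≤ t2 B ^ 2 := t4_le_t2_sq hB
        _ ≤ ((r : ℝ) / (P.L : ℝ) ^ 46) ^ 2 := by gcongr
        _ = (t ^ 4 / (P.L : ℝ) ^ 23) ^ 4 := by rw [← hc.t8]; ring
  · refine (q4_le_half hB hΓ hb1 hb4 hg.g0.le hg2 ht0 h8 hth0 hth1 hΛ1 hΛt hf2 hdΛ hw).trans ?_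
    have h1 : b ^ 4 ≤ 16 := by nlinarith
    have h2 : 1 / 2 + 10 * (1 / (P.L : ℝ)) ≤ 1 := by linarith
    have h3 : (1 / 2 + 10 * (1 / (P.L : ℝ))) * b ^ 4 ≤ 1 * 16 := by gcongr
    gcongr
    linarith
  · intro k l
    have := ent_sq_le hB hΓ hb4 hg.g0.le (by linarith) (by rw [hrr]; linarith) k l
    linarith


/-! ### numerical lemmas for `mk_side` -/

theorem mkside_rho1 {L t Λ : ℝ} (hL : (10 : ℝ) ^ 80 ≤ L) (ht0 : 0 < t)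
    (h : Λ * t ^ 8 ≤ L ^ 96021) : 100 * Λ * t ^ 4 ≤ 1 / L * (2 * L ^ 48024 / t ^ 2) ^ 2 := by
  have hL1 : 1 ≤ L := mkside_c_le hL (by norm_num)
  have hL0 : 0 < L := by linarith
  have e : 1 / L * (2 * L ^ 48024 / t ^ 2) ^ 2 = 4 * L ^ 96047 / t ^ 4 := by
    have e1 : (L ^ 48024) ^ 2 = L * L ^ 96047 := by ring
    rw [div_pow, mul_pow, e1]
    generalize L ^ 96047 = M
    field_simp
    ring
  rw [e, le_div_iff₀ (by positivity)]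
  calc 100 * Λ * t ^ 4 * t ^ 4 = 4 * (25 * (Λ * t ^ 8)) := by ring
    _ ≤ 4 * (25 * L ^ 96021) := by gcongr
    _ ≤ 4 * L ^ 96047 := by
        gcongr
        exact cpow_le hL1 (mkside_c_le hL (by norm_num)) (by norm_num)

theorem mkside_rho2 {L t Λ : ℝ} (hL : (10 : ℝ) ^ 80 ≤ L) (ht : L ^ 4007 ≤ t)
    (h : Λ ≤ L ^ 1188) : 100 * Λ * t ^ 4 ≤ 1 / L * (t ^ 8) ^ 2 := by
  have hL1 : 1 ≤ L := mkside_c_le hL (by norm_num)
  have hL0 : 0 < L := by linarith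
  have ht1 : 1 ≤ t := (one_le_pow₀ hL1).trans ht
  have h1 : 100 * Λ ≤ 1 / L * t :=
    calc 100 * Λ ≤ 100 * L ^ 1188 := by gcongr
      _ ≤ L ^ 1189 := cpow_le hL1 (mkside_c_le hL (by norm_num)) (by norm_num)
      _ ≤ 1 / L * t := mkside_pow_le_th hL1 ht (by norm_num)
  calc 100 * Λ * t ^ 4 ≤ 1 / L * t * t ^ 4 := by gcongr
    _ = 1 / L * t ^ 5 := by ring
    _ ≤ 1 / L * t ^ 16 := by gcongr; norm_num
    _ = 1 / L * (t ^ 8) ^ 2 := by ring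

theorem mkside_r_tilt (hg : P.Good) (hr : r < 2 * P.r2 + 2) : (r : ℝ) ≤ 4 * (P.L : ℝ) ^ 65240 := by
  have h1 : (r : ℝ) ≤ 2 * P.r2 + 2 := by exact_mod_cast hr.le
  have h2 : (1 : ℝ) ≤ (P.L : ℝ) ^ 65240 := one_le_pow₀ hg.L_one
  rw [P.r2_cast] at h1
  generalize (P.L : ℝ) ^ 65240 = M at h1 h2 ⊢
  linarith

theorem mkside_rho (hc : Ctx P r t) :
    0 < P.rho r t ∧ 100 * P.Lam r * t ^ 4 ≤ 1 / P.L * P.rho r t ^ 2 := by
  have hg := hc.good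
  have hL := hg.L_big
  have hL1 := hg.L_one
  have hL0 : (0 : ℝ) < P.L := by linarith
  have ht0 := hc.t0
  unfold Par.rho Par.nu
  by_cases h4 : P.r4 < r
  · rw [if_pos h4, if_pos h4]
    refine ⟨by positivity, mkside_rho1 hL ht0 ?_⟩
    rw [hc.t8]
    unfold Par.Lam
    split_ifs with h
    · calc (P.L : ℝ) ^ 1188 * r ≤ (P.L : ℝ) ^ 1188 * (4 * (P.L : ℝ) ^ 65240) := by
            gcongr
            exact mkside_r_tilt hg h.2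
        _ = 4 * (P.L : ℝ) ^ 66428 := by ring
        _ ≤ (P.L : ℝ) ^ 96021 := cpow_le hL1 (mkside_c_le hL (by norm_num)) (by norm_num)
    · have h1 : (r : ℝ) ≤ P.r0 := by exact_mod_cast hc.r_le
      calc (P.L : ℝ) ^ 20 * r ≤ (P.L : ℝ) ^ 20 * (P.L : ℝ) ^ 96001 := by
            gcongr
            exact h1.trans hg.r0_hi
        _ = (P.L : ℝ) ^ 96021 := by ring
  · rw [if_neg h4]
    exact ⟨by positivity, mkside_rho2 hL hc.t_lo (mkside_Lam_le hg r)⟩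

theorem mkside_div_th {L : ℝ} (x : ℝ) : x / (1 / L) = x * L := by
  rw [div_div_eq_mul_div, div_one]

theorem mkside_err1 {L t : ℝ} (hL : (10 : ℝ) ^ 80 ≤ L) (ht0 : 0 < t) (ht : L ^ 64072 ≤ t ^ 8) :
    2 * ((20 + 40 * 0 ^ 2 * 4) / (1 / L) * (2 * L ^ 48024 / t ^ 2) ^ 2 / t ^ 12) ≤
      L ^ 31979 / (L * t ^ 8) := by
  have hL1 : 1 ≤ L := mkside_c_le hL (by norm_num)
  have hL0 : 0 < L := by linarith
  have e : 2 * ((20 + 40 * 0 ^ 2 * 4) / (1 / L) * (2 * L ^ 48024 / t ^ 2) ^ 2 / t ^ 12) =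
      160 * (L * (L ^ 48024) ^ 2) / t ^ 16 := by
    rw [mkside_div_th]
    generalize L ^ 48024 = M
    field_simp
    ring
  rw [e, div_le_div_iff₀ (by positivity) (by positivity)]
  calc 160 * (L * (L ^ 48024) ^ 2) * (L * t ^ 8) = 160 * L ^ 96050 * t ^ 8 := by ring
    _ ≤ L ^ 96051 * t ^ 8 := by
        gcongr
        exact cpow_le hL1 (mkside_c_le hL (by norm_num)) (by norm_num)
    _ = L ^ 31979 * (L ^ 64072 * t ^ 8) := by ring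
    _ ≤ L ^ 31979 * (t ^ 8 * t ^ 8) := by gcongr
    _ = L ^ 31979 * t ^ 16 := by ring

theorem mkside_nu_tilt {L t : ℝ} (hL : 1 ≤ L) (ht : L ^ 8155 ≤ t) :
    2 * L ^ 48024 / t ^ 2 ≤ 2 * L ^ 31714 := by
  have hL0 : 0 < L := by linarith
  have ht0 : 0 < t := lt_of_lt_of_le (by positivity) ht
  rw [div_le_iff₀ (by positivity)]
  calc 2 * L ^ 48024 = 2 * L ^ 31714 * (L ^ 8155) ^ 2 := by ring
    _ ≤ 2 * L ^ 31714 * t ^ 2 := by gcongr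

theorem mkside_ly {L : ℝ} (hL0 : 0 < L) : (L ^ 1482) ^ 2 * (1 / L ^ 2390) = L ^ 574 := by
  have e : (L ^ 1482) ^ 2 = L ^ 574 * L ^ 2390 := by ring
  rw [e, mul_assoc, mul_one_div_cancel (by positivity), mul_one]

theorem mkside_err2 {L t ν : ℝ} (hL : (10 : ℝ) ^ 80 ≤ L) (ht : L ^ 8155 ≤ t) (hν0 : 0 ≤ ν)
    (hν : ν ≤ 2 * L ^ 31714) :
    2 * ((20 + 40 * (L ^ 1482) ^ 2 * (1 / L ^ 2390)) / (1 / L) * ν ^ 2 / t ^ 12) ≤
      L ^ 31979 / (L * t ^ 8) := by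
  have hL1 : 1 ≤ L := mkside_c_le hL (by norm_num)
  have hL0 : 0 < L := by linarith
  have ht0 : 0 < t := lt_of_lt_of_le (by positivity) ht
  rw [mul_assoc 40, mkside_ly hL0, mkside_div_th, ← mul_div_assoc,
    div_le_div_iff₀ (by positivity) (by positivity)]
  have h1 : 20 + 40 * L ^ 574 ≤ 60 * L ^ 574 := by
    have : 1 ≤ L ^ 574 := one_le_pow₀ hL1
    generalize L ^ 574 = M at this ⊢
    linarith
  calc 2 * ((20 + 40 * L ^ 574) * L * ν ^ 2) * (L * t ^ 8)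
      ≤ 2 * (60 * L ^ 574 * L * (2 * L ^ 31714) ^ 2) * (L * t ^ 8) := by gcongr
    _ = 480 * L ^ 64004 * t ^ 8 := by ring
    _ ≤ L ^ 64599 * t ^ 8 := by
        gcongr
        exact cpow_le hL1 (mkside_c_le hL (by norm_num)) (by norm_num)
    _ = L ^ 31979 * ((L ^ 8155) ^ 4 * t ^ 8) := by ring
    _ ≤ L ^ 31979 * (t ^ 4 * t ^ 8) := by gcongr
    _ = L ^ 31979 * t ^ 12 := by ring

theorem mkside_Om {L t ν : ℝ} (hL : (10 : ℝ) ^ 80 ≤ L) (ht : t ^ 4 ≤ 2 * L ^ 32620)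
    (hν : ν ≤ 2 * L ^ 31714) :
    10 * t ^ 4 / (1 / L) + 4 * L ^ 1482 * ν +
      40 * (L ^ 1482) ^ 2 * (1 / L ^ 2390) * t ^ 4 / (1 / L) ≤ L ^ 33197 := by
  have hL1 : 1 ≤ L := mkside_c_le hL (by norm_num)
  have hL0 : 0 < L := by linarith
  rw [mul_assoc 40, mkside_ly hL0, mkside_div_th, mkside_div_th]
  have h1 : 10 * t ^ 4 * L ≤ 20 * L ^ 33196 :=
    calc 10 * t ^ 4 * L ≤ 10 * (2 * L ^ 32620) * L := by gcongr
      _ = 20 * L ^ 32621 := by ring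
      _ ≤ 20 * L ^ 33196 := by gcongr; norm_num
  have h2 : 4 * L ^ 1482 * ν ≤ 8 * L ^ 33196 :=
    calc 4 * L ^ 1482 * ν ≤ 4 * L ^ 1482 * (2 * L ^ 31714) := by gcongr
      _ = 8 * L ^ 33196 := by ring
  have h3 : 40 * L ^ 574 * t ^ 4 * L ≤ 80 * L ^ 33196 :=
    calc 40 * L ^ 574 * t ^ 4 * L ≤ 40 * L ^ 574 * (2 * L ^ 32620) * L := by gcongr
      _ = 80 * L ^ 33195 := by ring
      _ ≤ 80 * L ^ 33196 := by gcongr; norm_num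
  calc 10 * t ^ 4 * L + 4 * L ^ 1482 * ν + 40 * L ^ 574 * t ^ 4 * L
      ≤ 20 * L ^ 33196 + 8 * L ^ 33196 + 80 * L ^ 33196 := by gcongr
    _ = 108 * L ^ 33196 := by ring
    _ ≤ L ^ 33197 := cpow_le hL1 (mkside_c_le hL (by norm_num)) (by norm_num)

theorem mkside_Xi {L : ℝ} (hL : (10 : ℝ) ^ 80 ≤ L) : 10 / (1 / L) + 10 * L ^ 1482 ≤ L ^ 1483 := by
  have hL1 : 1 ≤ L := mkside_c_le hL (by norm_num)
  rw [mkside_div_th]
  have h1 : L ≤ L ^ 1482 := le_self_pow₀ hL1 (by norm_num)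
  calc 10 * L + 10 * L ^ 1482 ≤ 10 * L ^ 1482 + 10 * L ^ 1482 := by gcongr
    _ = 20 * L ^ 1482 := by ring
    _ ≤ L ^ 1483 := cpow_le hL1 (mkside_c_le hL (by norm_num)) (by norm_num)

/-- the `2 × 2` linear system -/
theorem mkside_solve {T₁ T₂ c₁ c₂ n G : ℝ} (hn : 0 < n) (h₁ : n ≤ T₁) (h₂ : n ≤ T₂)
    (k₁ : |c₁| ≤ n / 4) (k₂ : |c₂| ≤ n / 4) (hG : 0 ≤ G) :
    ∃ l₁ l₂ : ℝ, |l₁| ≤ 2 * G / n ∧ |l₂| ≤ 2 * G / n ∧ l₁ * T₁ - l₂ * c₁ = G ∧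
      l₁ * c₂ - l₂ * T₂ = -G := by
  have hT₁ : 0 < T₁ := by linarith
  have hT₂ : 0 < T₂ := by linarith
  have hcc : c₁ * c₂ ≤ n / 4 * (n / 4) :=
    calc c₁ * c₂ ≤ |c₁ * c₂| := le_abs_self _
      _ = |c₁| * |c₂| := abs_mul _ _
      _ ≤ n / 4 * (n / 4) := by gcongr
  have hnn : n * n ≤ T₁ * T₂ := by gcongr
  have hdet : 15 / 16 * (T₁ * T₂) ≤ T₁ * T₂ - c₁ * c₂ := by linarith
  have hTT : 0 < T₁ * T₂ := by positivity
  have hd0 : 0 < T₁ * T₂ - c₁ * c₂ := by linarith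
  obtain ⟨k1a, k1b⟩ := abs_le.mp k₁
  obtain ⟨k2a, k2b⟩ := abs_le.mp k₂
  have a1 : n * T₂ ≤ T₁ * T₂ := by gcongr
  have a2 : T₁ * n ≤ T₁ * T₂ := by gcongr
  refine ⟨G * (T₂ + c₁) / (T₁ * T₂ - c₁ * c₂), G * (T₁ + c₂) / (T₁ * T₂ - c₁ * c₂), ?_, ?_, ?_, ?_⟩
  · rw [abs_of_nonneg (div_nonneg (mul_nonneg hG (by linarith)) hd0.le), div_le_div_iff₀ hd0 hn]
    have h3 : (T₂ + c₁) * n ≤ 2 * (T₁ * T₂ - c₁ * c₂) := by nlinarith
    calc G * (T₂ + c₁) * n = G * ((T₂ + c₁) * n) := by ring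
      _ ≤ G * (2 * (T₁ * T₂ - c₁ * c₂)) := by gcongr
      _ = 2 * G * (T₁ * T₂ - c₁ * c₂) := by ring
  · rw [abs_of_nonneg (div_nonneg (mul_nonneg hG (by linarith)) hd0.le), div_le_div_iff₀ hd0 hn]
    have h3 : (T₁ + c₂) * n ≤ 2 * (T₁ * T₂ - c₁ * c₂) := by nlinarith
    calc G * (T₁ + c₂) * n = G * ((T₁ + c₂) * n) := by ring
      _ ≤ G * (2 * (T₁ * T₂ - c₁ * c₂)) := by gcongr
      _ = 2 * G * (T₁ * T₂ - c₁ * c₂) := by ring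
  · rw [div_mul_eq_mul_div, div_mul_eq_mul_div, ← sub_div, div_eq_iff hd0.ne']
    ring
  · rw [div_mul_eq_mul_div, div_mul_eq_mul_div, ← sub_div, div_eq_iff hd0.ne']
    ring

theorem mkside_gain {b x G y E S : ℝ} (hb : 1 ≤ b ^ 2) (hy : y = G * b / 2) (h : |x + y| ≤ E)
    (hE : 2 * E ≤ S) : |2 / b * x + G| ≤ S := by
  have hb1 : 1 ≤ |b| := by
    rw [← sq_abs] at hb
    nlinarith [abs_nonneg b]
  have hb0 : b ≠ 0 := by
    rintro rfl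
    norm_num at hb
  have e : 2 / b * x + G = 2 / b * (x + y) := by
    rw [hy]
    field_simp
  have h2 : |2 / b| ≤ 2 := by
    rw [abs_div, abs_two]
    exact div_le_self (by norm_num) hb1
  rw [e, abs_mul]
  calc |2 / b| * |x + y| ≤ 2 * E := by gcongr
    _ ≤ S := hE

theorem mkside_T (hc : Ctx P r t) (hr : P.r2 < r) (h : Bnd P r B B') : (P.n : ℝ) ≤ chi B B := by
  have hg := hc.good
  have hL := hg.L_big
  have h1 := (abs_le.mp (h.t3_early hc hr)).1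
  have h2 := hg.Tc1
  have hn : (0 : ℝ) ≤ P.n := Nat.cast_nonneg _
  have h3 : 2 * (P.n : ℝ) / P.L ≤ 2 * (P.n : ℝ) / 4 := by
    gcongr
    exact mkside_c_le hL (by norm_num)
  change (P.n : ℝ) ≤ t3 B
  linarith

theorem mkside_chi {b' : ℝ} (hc : Ctx P r t) (hcard : Fintype.card ι = r) (hr : P.r2 < r)
    (hr' : r < 2 * P.r2 + 2) (h : Bnd P r B B') (hB : B.IsSymm) (hB' : B'.IsSymm)
    (hrow : ∀ k, ∑ l, B k l = b) (hΓ : Gam B' b' P.g) (hb : b ^ 2 ≤ 4) (hb' : b' ^ 2 ≤ 4) :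
    |chi B B'| ≤ (P.n : ℝ) / 4 := by
  have hg := hc.good
  have hL := hg.L_big
  have hL1 := hg.L_one
  have hL0 : (0 : ℝ) < P.L := by linarith
  have hrr : rr ι = r := by rw [rr, hcard]
  have hr1000 : (1000 : ℝ) ≤ r := by exact_mod_cast hc.r_big
  have hr0 : 0 < rr ι := by rw [hrr]; linarith
  have hn : (0 : ℝ) ≤ P.n := Nat.cast_nonneg _
  have hlow := chi_lower hB hB' hrow hΓ hb hb' hg.g0.le hr0
  have hup := h.chi_bd hc hr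
  have h0 : 0 ≤ t2 B := (sq_nonneg b).trans (sq_le_t2 hB hrow hr0)
  have hf := h.f2_le hc
  have ha : P.a ^ 2 ≤ 4 := by nlinarith [hg.a1, hg.a2]
  have hf4 : t2 B ≤ 4 * r := hf.trans (by gcongr)
  have hgt : P.g * t2 B ≤ 3 / 2 * (4 * r) := by
    have := hg.g_le
    gcongr
  have hgt0 : 0 ≤ P.g * t2 B := mul_nonneg hg.g0.le h0
  have hrn : 16 * ((P.L : ℝ) ^ 2 * r) ≤ P.n :=
    calc 16 * ((P.L : ℝ) ^ 2 * r) ≤ 16 * ((P.L : ℝ) ^ 2 * (4 * (P.L : ℝ) ^ 65240)) := by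
          gcongr
          exact mkside_r_tilt hg hr'
      _ = 64 * (P.L : ℝ) ^ 65242 := by ring
      _ ≤ (P.L : ℝ) ^ 96000 := cpow_le hL1 (mkside_c_le hL (by norm_num)) (by norm_num)
      _ ≤ P.n := hg.n_lo
  have h3 : (P.n : ℝ) / P.L ≤ (P.n : ℝ) / 16 := by
    gcongr
    exact mkside_c_le hL (by norm_num)
  have h4 : 2 * (r : ℝ) ≤ (P.L : ℝ) ^ 2 * r := by
    have : (2 : ℝ) ≤ P.L := mkside_c_le hL (by norm_num)
    gcongr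
    nlinarith
  rw [abs_le]
  constructor <;> linarith

theorem mkside_l (hc : Ctx P r t) (hr' : r < 2 * P.r2 + 2) :
    2 * (P.G r * P.a * (r : ℝ) ^ 2 / 2) / P.n ≤ (P.L : ℝ) ^ 1482 := by
  have hg := hc.good
  have hL := hg.L_big
  have hL1 := hg.L_one
  have hL0 : (0 : ℝ) < P.L := by linarith
  have hn : (0 : ℝ) < P.n := lt_of_lt_of_le (by positivity) hg.n_lo
  have hG0 := hg.G_nonneg r
  have hG := hg.G_le r
  have hTh := hg.Th1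
  have ha := hg.a2
  have ha0 : 0 ≤ P.a := by linarith [hg.a1]
  have hr := mkside_r_tilt hg hr'
  rw [P.r2_cast, le_div_iff₀ (by positivity)] at hG
  rw [div_le_iff₀ hn]
  calc 2 * (P.G r * P.a * (r : ℝ) ^ 2 / 2) = P.G r * P.a * (r : ℝ) ^ 2 := by ring
    _ ≤ P.G r * 2 * (4 * (P.L : ℝ) ^ 65240) ^ 2 := by gcongr
    _ = 32 * (P.G r * (P.L : ℝ) ^ 65240) * (P.L : ℝ) ^ 65240 := by ring
    _ ≤ 32 * (2 * P.Th) * (P.L : ℝ) ^ 65240 := by gcongr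
    _ ≤ 32 * (2 * (P.L : ℝ) ^ 32241) * (P.L : ℝ) ^ 65240 := by gcongr
    _ = 64 * (P.L : ℝ) ^ 1481 * (P.L : ℝ) ^ 96000 := by ring
    _ ≤ (P.L : ℝ) ^ 1482 * P.n := by
        gcongr
        · exact cpow_le hL1 (mkside_c_le hL (by norm_num)) (by norm_num)
        · exact hg.n_lo

theorem mkside_lt {a b c d : ℕ} (h₁ : a + 2 < b) (h₂ : b + 2 < c) (h₃ : c < d) : a < d := by omega

theorem mkside_q (hc : Ctx P r t) (hcard : Fintype.card ι = r) (hr : r < 2 * P.r2 + 2)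
    (h : Bnd P r B B') : q4 B ≤ (1 / (P.L : ℝ) ^ 2390) ^ 2 * rr ι := by
  have hrr : rr ι = r := by rw [rr, hcard]
  have hr1000 : (1000 : ℝ) ≤ r := by exact_mod_cast hc.r_big
  have h1 := h.q_small2 hc hr
  rw [div_le_iff₀ (by linarith)] at h1
  have e : ((P.L : ℝ) ^ 2390) ^ 2 = (P.L : ℝ) ^ 4780 := by ring
  rw [hrr, _root_.one_div_pow, e]
  exact h1

theorem mkside_nu_le (hc : Ctx P r t) (hr : P.r2 < r) (h4 : P.r4 < r) :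
    P.nu r t ≤ 2 * (P.L : ℝ) ^ 31714 := by
  unfold Par.nu
  rw [if_pos h4]
  exact mkside_nu_tilt hc.good.L_one (hc.t_tilt hr)

theorem mkside_Xi_tilt (hc : Ctx P r t) (h : P.r2 < r ∧ r < 2 * P.r2 + 2) :
    10 / (1 / (P.L : ℝ)) + 10 * (P.L : ℝ) ^ 1482 ≤ P.Xi r := by
  unfold Par.Xi
  rw [if_pos h]
  exact mkside_Xi hc.good.L_big

theorem mkside_Om_tilt (hc : Ctx P r t) (h : P.r2 < r ∧ r < 2 * P.r2 + 2) (h4 : P.r4 < r) :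
    10 * t ^ 4 / (1 / (P.L : ℝ)) + 4 * (P.L : ℝ) ^ 1482 * P.nu r t +
      40 * ((P.L : ℝ) ^ 1482) ^ 2 * (1 / (P.L : ℝ) ^ 2390) * t ^ 4 / (1 / (P.L : ℝ)) ≤ P.Om r t := by
  unfold Par.Om
  rw [if_pos h]
  exact mkside_Om hc.good.L_big (hc.t4_tilt h.2) (mkside_nu_le hc h.1 h4)

theorem mkside_sig (P : Par ℝ) : P.sig = (P.L : ℝ) ^ 31979 := by simp only [Par.sig]

theorem mkside_err_tilt (hc : Ctx P r t) (h : P.r2 < r) (h4 : P.r4 < r) (hν0 : 0 ≤ P.nu r t) :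
    2 * ((20 + 40 * ((P.L : ℝ) ^ 1482) ^ 2 * (1 / (P.L : ℝ) ^ 2390)) / (1 / (P.L : ℝ)) *
      P.nu r t ^ 2 / t ^ 12) ≤ P.sig / (P.L * r) := by
  have herr := mkside_err2 hc.good.L_big (hc.t_tilt h) hν0 (mkside_nu_le hc h h4)
  rw [mkside_sig, ← hc.t8]
  exact herr

theorem mkside_Xi_non (hc : Ctx P r t) (h : ¬ (P.r2 < r ∧ r < 2 * P.r2 + 2)) :
    10 / (1 / (P.L : ℝ)) + 10 * 0 ≤ P.Xi r := by
  have : (10 : ℝ) ≤ P.L := mkside_c_le hc.good.L_big (by norm_num)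
  unfold Par.Xi
  rw [if_neg h, mkside_div_th]
  nlinarith

theorem mkside_Om_non (hc : Ctx P r t) (h : ¬ (P.r2 < r ∧ r < 2 * P.r2 + 2)) :
    10 * t ^ 4 / (1 / (P.L : ℝ)) + 4 * 0 * P.nu r t +
      40 * 0 ^ 2 * 4 * t ^ 4 / (1 / (P.L : ℝ)) ≤ P.Om r t := by
  have h0 : (10 : ℝ) ≤ P.L := mkside_c_le hc.good.L_big (by norm_num)
  have h10 : (10 : ℝ) * P.L ≤ (P.L : ℝ) ^ 2 := by nlinarith
  have h1 : 10 * (P.L : ℝ) * t ^ 4 ≤ (P.L : ℝ) ^ 2 * t ^ 4 := by gcongr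
  unfold Par.Om
  rw [if_neg h, mkside_div_th, mkside_div_th]
  generalize P.nu r t = ν
  linarith

theorem mkside_err_non (hc : Ctx P r t) (h4 : P.r4 < r) :
    2 * ((20 + 40 * 0 ^ 2 * 4) / (1 / (P.L : ℝ)) * P.nu r t ^ 2 / t ^ 12) ≤ P.sig / (P.L * r) := by
  unfold Par.nu Par.sig
  rw [if_pos h4, ← hc.t8]
  refine mkside_err1 hc.good.L_big hc.t0 ?_
  rw [hc.t8, ← P.r4_cast]
  exact Nat.cast_le.mpr h4.le

theorem mkside_y1 {x G a r : ℝ} (hr : 0 < r) (h : x = G * a * r ^ 2 / 2) : x / r ^ 2 = G * a / 2 := by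
  rw [h]
  field_simp

theorem mkside_y2 {x G a r : ℝ} (hr : 0 < r) (h : x = -(G * a * r ^ 2 / 2)) :
    x / r ^ 2 = G * (-a) / 2 := by
  rw [h]
  field_simp

theorem mkside_y3 {x y G a r : ℝ} (h : G = 0) : (0 * x - 0 * y) / r ^ 2 = G * a / 2 := by
  rw [h]
  ring

theorem mk_side {B₁ B₂ : Matrix ι ι ℝ} (hc : Ctx P r t) (hcard : Fintype.card ι = r)
    (h₁ : B₁.IsSymm) (h₂ : B₂.IsSymm) (hrow₁ : ∀ k, ∑ l, B₁ k l = P.a)
    (hrow₂ : ∀ k, ∑ l, B₂ k l = -P.a) (hΓ₁ : Gam B₁ P.a P.g) (hΓ₂ : Gam B₂ (-P.a) P.g)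
    (hb₁ : Bnd P r B₁ B₂) (hb₂ : Bnd P r B₂ B₁)
    (Fb : ι → ι → Prop) [DecidableRel Fb] (hFs : ∀ u v, Fb u v → Fb v u) (hFr : ∀ u, Fb u u)
    (hFc : ∀ u, ((univ.filter fun v => Fb u v).card : ℝ) ≤ (P.L : ℝ) ^ 2) :
    ∃ ω : ι → ι → ℝ, Side P r t B₁ B₂ P.a ω ∧ Side P r t B₂ B₁ (-P.a) ω ∧
      ∀ u v, ω u v ≠ 0 → ¬ Fb u v := by
  have hg := hc.good
  have hL := hg.L_big
  have hL1 := hg.L_one
  have hL0 : (0 : ℝ) < P.L := by linarith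
  have ht0 := hc.t0
  have hrr : rr ι = r := by rw [rr, hcard]
  have reg₁ := mk_reg hc hcard (Or.inl rfl) h₁ hrow₁ hΓ₁ hb₁
  have reg₂ := mk_reg hc hcard (Or.inr rfl) h₂ hrow₂ hΓ₂ hb₂
  have reg₁' : Reg B₁ (- -P.a) (P.Lam r) (P.nu r t) t (1 / P.L) := by rwa [neg_neg]
  have hΓ₁' : Gam B₁ (- -P.a) P.g := by rwa [neg_neg]
  have hFc' : ∀ u, ((univ.filter fun v => Fb u v).card : ℝ) ≤ 1 / (1 / (P.L : ℝ)) ^ 2 := fun u => by
    rw [_root_.one_div_pow, one_div_one_div]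
    exact hFc u
  obtain ⟨hρ0, hρ⟩ := mkside_rho hc
  suffices H : ∃ ω : ι → ι → ℝ, Wt ω (1 / P.L) (P.Xi r) (P.Om r t) t ∧
      Adm ω B₁ (1 / P.L) (P.rho r t) ∧ Adm ω B₂ (1 / P.L) (P.rho r t) ∧
      (∀ u v, ω u v ≠ 0 → ¬ Fb u v) ∧
      (P.r4 < r → |2 / P.a * av (fun u v => (ω u v - 1) * (B₁ * B₁) u v) + P.G r| ≤
        P.sig / (P.L * r)) ∧
      (P.r4 < r → |2 / (-P.a) * av (fun u v => (ω u v - 1) * (B₂ * B₂) u v) + P.G r| ≤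
        P.sig / (P.L * r)) by
    obtain ⟨ω, w1, w2, w3, w4, w5, w6⟩ := H
    exact ⟨ω, ⟨hc, hcard, Or.inl rfl, reg₁, reg₂, hΓ₁, hΓ₂, w1, w2, w3, hb₁, hb₂, w5⟩,
      ⟨hc, hcard, Or.inr rfl, reg₂, reg₁', hΓ₂, hΓ₁', w1, w3, w2, hb₂, hb₁, w6⟩, w4⟩
  by_cases htilt : P.r2 < r ∧ r < 2 * P.r2 + 2
  · have hr2 := htilt.1
    have hr2' := htilt.2
    have h4 : P.r4 < r := mkside_lt hg.r4_lt_r3 hg.r3_lt_r2 hr2
    have hn : (0 : ℝ) < P.n := lt_of_lt_of_le (pow_pos hL0 _) hg.n_lo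
    have ha0 : 0 ≤ P.a := zero_le_one.trans hg.a1
    have hG0 := hg.G_nonneg r
    obtain ⟨l₁, l₂, hl₁, hl₂, e₁, e₂⟩ := mkside_solve (G := P.G r * P.a * (r : ℝ) ^ 2 / 2) hn
      (mkside_T hc hr2 hb₁) (mkside_T hc hr2 hb₂)
      (mkside_chi hc hcard hr2 hr2' hb₁ h₁ h₂ hrow₁ hΓ₂ reg₁.b4 reg₂.b4)
      (mkside_chi hc hcard hr2 hr2' hb₂ h₂ h₁ hrow₂ hΓ₁ reg₂.b4 reg₁.b4) (by positivity)
    have hl := mkside_l hc hr2'
    have hν0 : 0 ≤ P.nu r t := zero_le_one.trans (reg₁.L1.trans reg₁.Lν)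
    obtain ⟨ω, w1, w2, w3, w4, w5, w6⟩ := exists_weight reg₁ reg₂ Fb
      hFs hFr hFc' hρ0 hρ (hl₁.trans hl) (hl₂.trans hl)
      (mkside_pow_le_th hL1 hc.t_lo (by norm_num)) (by positivity) (mkside_q hc hcard hr2' hb₁)
      (mkside_q hc hcard hr2' hb₂) (mkside_Xi_tilt hc htilt) (mkside_Om_tilt hc htilt h4)
    have herr := mkside_err_tilt hc hr2 h4 hν0
    rw [← hrr] at e₁ e₂
    exact ⟨ω, w1, w2, w3, w4, fun _ => mkside_gain reg₁.b1 (mkside_y1 reg₁.rpos e₁) w5 herr,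
      fun _ => mkside_gain reg₂.b1 (mkside_y2 reg₁.rpos e₂) w6 herr⟩
  · have hG := hg.G_zero htilt
    have h16 : (16 : ℝ) = 4 ^ 2 := by norm_num
    obtain ⟨ω, w1, w2, w3, w4, w5, w6⟩ := exists_weight (l₁ := 0)
      (l₂ := 0) (l := 0) (y := 4) reg₁ reg₂ Fb hFs hFr hFc' hρ0 hρ abs_zero.le abs_zero.le
      (by positivity) (by norm_num) (h16 ▸ reg₁.q) (h16 ▸ reg₂.q)
      (mkside_Xi_non hc htilt) (mkside_Om_non hc htilt)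
    exact ⟨ω, w1, w2, w3, w4,
      fun h4 => mkside_gain reg₁.b1 (mkside_y3 hG) w5 (mkside_err_non hc h4),
      fun h4 => mkside_gain reg₂.b1 (mkside_y3 hG) w6 (mkside_err_non hc h4)⟩

end Crest.Agent.R62
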