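import Crest.Agent.R62.Par

/-!
# R62/State: the state of the matching process and its invariants

`ι` = all half-edges, `V` = vertices, `vx : ι → V` the vertex of a half-edge, `R` = unmatched half-edges,
`adj` = the graph built so far, `C₁, C₂` = the matrices of the sides `s = 1`, `s = -1` (zero outside `R × R`).
`Ht P s vx R adj = x - m D_ρ - s A + ((s d - x)/n) J` where `ρ_y` is the number of unmatched half-edges at `y`.
Invariant: `C = T Ht⁻¹ Tᵀ - g` on `R × R`, and `Ht` is positive definite on the hyperplane `ρ^⊥`.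
Note `Ht 1 = (s - m) ρ` and `(s - m)(s a + g) = 1` for `s = ± 1`.
-/

set_option autoImplicit false
open Finset Matrix

namespace Crest.Agent.R62

structure St (ι V : Type) where
  R : Finset ι
  adj : V → V → Prop
  C₁ : Matrix ι ι ℝ
  C₂ : Matrix ι ι ℝ

variable {ι V : Type} [Fintype ι] [DecidableEq ι] [Fintype V] [DecidableEq V]

def adjStep (adj : V → V → Prop) (x y : V) : V → V → Prop :=
  fun p q => adj p q ∨ (p = x ∧ q = y) ∨ (p = y ∧ q = x)

/-- number of ordered pairs of distinct half-edges of `R` at the same vertex -/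
noncomputable def Sc (vx : ι → V) (R : Finset ι) : ℝ :=
  ∑ k ∈ R, ∑ l ∈ R, if k ≠ l ∧ vx k = vx l then 1 else 0

open Classical in
/-- number of ordered pairs of half-edges of `R` at adjacent vertices -/
noncomputable def Ac (vx : ι → V) (adj : V → V → Prop) (R : Finset ι) : ℝ :=
  ∑ k ∈ R, ∑ l ∈ R, if adj (vx k) (vx l) then 1 else 0

/-- residual degree -/
def rho (vx : ι → V) (R : Finset ι) (y : V) : ℝ := ((R.filter fun k => vx k = y).card : ℝ)

open Classical in
noncomputable def Amat (adj : V → V → Prop) : Matrix V V ℝ :=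
  Matrix.of fun y z => if adj y z then 1 else 0

noncomputable def Ht (P : Par ℝ) (s : ℝ) (vx : ι → V) (R : Finset ι) (adj : V → V → Prop) :
    Matrix V V ℝ := Matrix.of fun y z =>
  (if y = z then P.x - P.m * rho vx R y else 0) - s * Amat adj y z + (s * P.d - P.x) / P.n

/-- the resolvent invariant of the side `s` -/
structure WInv (P : Par ℝ) (s : ℝ) (vx : ι → V) (R : Finset ι) (adj : V → V → Prop)
    (C : Matrix ι ι ℝ) : Prop where
  ex : ∃ G : Matrix V V ℝ, Ht P s vx R adj * G = 1 ∧ ∀ k l, C k l =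
    if k ∈ R ∧ l ∈ R then G (vx k) (vx l) - (if k = l then P.g else 0) else 0
  pos : ∀ w : V → ℝ, ∑ y, rho vx R y * w y = 0 → w ≠ 0 → 0 < w ⬝ᵥ Ht P s vx R adj *ᵥ w

/-- the graph invariant -/
structure GInv (d : ℕ) (vx : ι → V) (R : Finset ι) (adj : V → V → Prop) : Prop where
  symm : ∀ y z, adj y z → adj z y
  irrefl : ∀ y, ¬ adj y y
  deg : ∀ y, ∑ z, Amat adj y z + rho vx R y = d

structure Inv (P : Par ℝ) (vx : ι → V) (σ : St ι V) : Prop where
  g : GInv P.d vx σ.R σ.adj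
  w₁ : WInv P 1 vx σ.R σ.adj σ.C₁
  w₂ : WInv P (-1) vx σ.R σ.adj σ.C₂

noncomputable def St.step (P : Par ℝ) (vx : ι → V) (σ : St ι V) (u v : ι) : St ι V :=
  ⟨(σ.R.erase u).erase v, adjStep σ.adj (vx u) (vx v), upd P.a σ.C₁ u v, upd (-P.a) σ.C₂ u v⟩

/-- the pairs the algorithm may match -/
def St.Ok (P : Par ℝ) (vx : ι → V) (σ : St ι V) (u v : ι) : Prop :=
  u ∈ σ.R ∧ v ∈ σ.R ∧ vx u ≠ vx v ∧ ¬ σ.adj (vx u) (vx v) ∧
  0 < (P.a - σ.C₁ u v) ^ 2 - σ.C₁ u u * σ.C₁ v v ∧
  0 < (-P.a - σ.C₂ u v) ^ 2 - σ.C₂ u u * σ.C₂ v v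

/-- the potential -/
noncomputable def St.U (P : Par ℝ) (vx : ι → V) (σ : St ι V) : ℝ :=
  Uside P σ.R.card σ.C₁ σ.C₂ + Uside P σ.R.card σ.C₂ σ.C₁ +
    P.US σ.R.card (Sc vx σ.R) + P.UA σ.R.card (Ac vx σ.adj σ.R)

/-- the initial matrix of the side with row sum `b = s a` -/
noncomputable def C0 (P : Par ℝ) (b : ℝ) (vx : ι → V) : Matrix ι ι ℝ := Matrix.of fun k l =>
  P.gam * ((if vx k = vx l then 1 else 0) - 1 / P.n) + (b + P.g) / P.r0 - (if k = l then P.g else 0)

noncomputable def St.init (P : Par ℝ) (vx : ι → V) : St ι V :=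
  ⟨univ, fun _ _ => False, C0 P P.a vx, C0 P (-P.a) vx⟩

/-- restriction of a matrix to `R × R` -/
def res (R : Finset ι) (C : Matrix ι ι ℝ) : Matrix R R ℝ := C.submatrix Subtype.val Subtype.val

/-- `C` vanishes outside `R × R` -/
def Supp (R : Finset ι) (C : Matrix ι ι ℝ) : Prop := ∀ k l, k ∉ R ∨ l ∉ R → C k l = 0

end Crest.Agent.R62
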