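import Crest.Agent.R62.Facts
import Crest.Agent.R62.Api
import Crest.Agent.R62.State

/-!
# R62/Pairs: one step of the two combinatorial terms (TASK)

`surv`: for `k ≠ l`, `1{k,l ∉ {u,v}} ≤ 1 - 1{u=k} - 1{u=l} - 1{v=k} - 1{v=l} + 1{(u,v)=(k,l)} + 1{(u,v)=(l,k)}` when `u ≠ v`;
use `Wt.row`, `Wt.symm`, `Wt.tot`, `ω ≤ 2`.
`term_S`: `(1 - 4(1 - 1/L)/r + 4/r²)(r/(r-2))² ≤ 1 + 10/(L r)` (`(r-4) r ≤ (r-2)²`, `L ≤ r`).
`term_A`: a pair `(k,l)` of remaining half-edges that is adjacent after the step was adjacent before, or has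
`vx k = vx u, vx l = vx v` or conversely; with `s_u = #{k ≠ u | vx k = vx u}` (`Σ s_u = Sc`) there are at most `2 s_u s_v` of
these; `E_ω 2 s_u s_v ≤ 4 (Sc/r)²`, `Sc ≤ 2 L r²/n`, so the new contribution is at most
`16 L² r² n/(n² L^4 (r-2)²) ≤ 32/(L² n) ≤ 32/(L r)` since `r ≤ r0 ≤ L n`.
-/

set_option autoImplicit false
set_option linter.unusedSectionVars false
open Finset Matrix

namespace Crest.Agent.R62

variable {ι V : Type} [Fintype ι] [DecidableEq ι] [Fintype V] [DecidableEq V]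
  {P : Par ℝ} {r : ℕ} {t Ξ Ω : ℝ} {ω : ι → ι → ℝ}

theorem pairs_sum_erase {u v : ι} (huv : u ≠ v) (g : ι → ℝ) :
    ∑ k ∈ (univ.erase u).erase v, g k = ∑ k, g k - g u - g v := by
  rw [sum_erase_eq_sub (mem_erase.2 ⟨huv.symm, mem_univ _⟩), sum_erase_eq_sub (mem_univ _)]

theorem surv {ϑ : ℝ} (hw : Wt ω ϑ Ξ Ω t) (h1 : ϑ ≤ 1) (hr : 0 < rr ι) (p : ι → ι → ℝ)
    (hp : ∀ k l, 0 ≤ p k l) (hd : ∀ k, p k k = 0) :
    Ea ω (fun u v => ∑ k ∈ (univ.erase u).erase v, ∑ l ∈ (univ.erase u).erase v, p k l) ≤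
      (1 - 4 * (1 - ϑ) / rr ι + 4 / rr ι ^ 2) * ∑ k, ∑ l, p k l := by
  set T := ∑ k, ∑ l, p k l with hT
  set a : ι → ℝ := fun u => ∑ l, p u l + ∑ k, p k u with ha
  have ha0 : ∀ u, 0 ≤ a u := fun u =>
    add_nonneg (sum_nonneg fun _ _ => hp _ _) (sum_nonneg fun _ _ => hp _ _)
  have hsa : ∑ u, a u = 2 * T := by
    simp only [ha, sum_add_distrib]
    rw [sum_comm (f := fun u k => p k u), two_mul]
  have e1 : Ea ω (fun u v => ∑ k ∈ (univ.erase u).erase v, ∑ l ∈ (univ.erase u).erase v, p k l) =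
      Ea ω (fun u v => ((T - a u) - a v) + (p u v + p v u)) := by
    refine Ea_congr fun u v h0 => ?_
    have huv := hw.ne h0
    simp only [pairs_sum_erase huv, sum_sub_distrib, hd, ha]
    ring
  have e2 := hw.le_Ea_left ha0
  have e3 := hw.le_Ea_right ha0
  have e4 := hw.Ea_le_two h1 (f := fun u v => p u v + p v u)
    fun u v => add_nonneg (hp _ _) (hp _ _)
  have e5 : av (fun u v => p u v + p v u) = 2 * T / rr ι ^ 2 := by
    rw [av_add, av_swap p]
    unfold av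
    rw [← hT]; ring
  rw [e1, Ea_add, Ea_sub, Ea_sub, hw.Ea_const hr]
  rw [hsa] at e2 e3
  rw [e5] at e4
  have e6 : (1 - 4 * (1 - ϑ) / rr ι + 4 / rr ι ^ 2) * T =
      T - (1 - ϑ) * (2 * T / rr ι) - (1 - ϑ) * (2 * T / rr ι) + 2 * (2 * T / rr ι ^ 2) := by ring
  rw [e6]
  linarith

theorem Sc_nonneg (vx : ι → V) (R : Finset ι) : 0 ≤ Sc vx R := by
  unfold Sc
  exact sum_nonneg fun _ _ => sum_nonneg fun _ _ => by split_ifs <;> norm_num
theorem Ac_nonneg (vx : ι → V) (adj : V → V → Prop) (R : Finset ι) : 0 ≤ Ac vx adj R := by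
  unfold Ac
  exact sum_nonneg fun _ _ => sum_nonneg fun _ _ => by split_ifs <;> norm_num

/-- the survival factor -/
theorem pairs_fac {L x : ℝ} (hL : 0 < L) (hx : 1000 ≤ x) :
    (1 - 4 * (1 - 1 / L) / x + 4 / x ^ 2) / (x - 2) ^ 2 ≤ (1 + 8 / (L * x)) / x ^ 2 := by
  have hx0 : 0 < x := by linarith
  have hx2 : 0 < x - 2 := by linarith
  have e1 : (1 - 4 * (1 - 1 / L) / x + 4 / x ^ 2) / (x - 2) ^ 2 =
      (1 + 4 * x / (L * (x - 2) ^ 2)) / x ^ 2 := by
    field_simp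
    ring
  rw [e1]
  refine div_le_div_of_nonneg_right ?_ (sq_nonneg _)
  have : 4 * x / (L * (x - 2) ^ 2) ≤ 8 / (L * x) := by
    rw [div_le_div_iff₀ (by positivity) (by positivity)]
    have h3 : x ^ 2 ≤ 2 * (x - 2) ^ 2 := by nlinarith
    nlinarith [mul_le_mul_of_nonneg_left h3 hL.le]
  linarith

theorem term_S (hc : Ctx P r t) (hcard : Fintype.card ι = r) (hw : Wt ω (1 / P.L) Ξ Ω t)
    (vx : ι → V) (hS : P.US r (Sc vx univ) ≤ 2) :
    Ea ω (fun u v => P.US (r - 2) (Sc vx ((univ.erase u).erase v))) ≤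
      P.US r (Sc vx univ) + C2 / (P.L * r) := by
  have hL := hc.good.facts_L0
  have hL1 := hc.good.L_one
  have hx : (1000 : ℝ) ≤ r := by exact_mod_cast hc.r_big
  have hrr : rr ι = r := by unfold rr; rw [hcard]
  have hn : (0 : ℝ) ≤ P.n := Nat.cast_nonneg _
  have h1 : 1 / (P.L : ℝ) ≤ 1 := by rw [div_le_one hL]; exact hL1
  have hs := surv hw h1 (by rw [hrr]; linarith)
    (fun k l => if k ≠ l ∧ vx k = vx l then (1 : ℝ) else 0)
    (fun k l => by split_ifs <;> norm_num) (fun k => by simp)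
  rw [hrr] at hs
  change Ea ω (fun u v => Sc vx ((univ.erase u).erase v)) ≤ _ * Sc vx univ at hs
  have e1 : Ea ω (fun u v => P.US (r - 2) (Sc vx ((univ.erase u).erase v))) =
      P.n / (P.L * ((r : ℝ) - 2) ^ 2) * Ea ω (fun u v => Sc vx ((univ.erase u).erase v)) := by
    rw [← Ea_const_mul]
    refine Ea_congr fun u v _ => ?_
    rw [Par.US, hc.cast_sub]; ring
  have hS0 := Sc_nonneg vx univ
  set S := Sc vx univ
  have hf := pairs_fac hL hx
  have hx2 : (0 : ℝ) < r - 2 := by linarith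
  have hx0 : (0 : ℝ) < r := by linarith
  rw [e1]
  refine (mul_le_mul_of_nonneg_left hs (by positivity)).trans ?_
  have e2 : P.n / (P.L * ((r : ℝ) - 2) ^ 2) *
      ((1 - 4 * (1 - 1 / (P.L : ℝ)) / r + 4 / (r : ℝ) ^ 2) * S) =
      (S * P.n / P.L) * ((1 - 4 * (1 - 1 / (P.L : ℝ)) / r + 4 / (r : ℝ) ^ 2) / (r - 2) ^ 2) := by
    field_simp
  rw [e2]
  refine (mul_le_mul_of_nonneg_left hf (by positivity)).trans ?_
  have e3 : (S * P.n / P.L) * ((1 + 8 / (P.L * r)) / (r : ℝ) ^ 2) =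
      P.US r S + P.US r S * (8 / (P.L * r)) := by
    rw [Par.US]; field_simp
  rw [e3]
  have e4 : P.US r S * (8 / (P.L * r)) ≤ 2 * (8 / (P.L * r)) :=
    mul_le_mul_of_nonneg_right hS (by positivity)
  have e5 : 2 * (8 / ((P.L : ℝ) * r)) ≤ C2 / (P.L * r) := by
    rw [← mul_div_assoc]
    exact div_le_div_of_nonneg_right (by unfold C2; norm_num) (by positivity)
  linarith

open Classical in
theorem pairs_Ac (vx : ι → V) (adj : V → V → Prop) (u v : ι) :
    Ac vx (adjStep adj (vx u) (vx v)) ((univ.erase u).erase v) ≤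
      (∑ k ∈ (univ.erase u).erase v, ∑ l ∈ (univ.erase u).erase v,
        if adj (vx k) (vx l) then (1 : ℝ) else 0) +
      2 * ((∑ k, if u ≠ k ∧ vx u = vx k then (1 : ℝ) else 0) *
        ∑ l, if v ≠ l ∧ vx v = vx l then (1 : ℝ) else 0) := by
  set R := (univ.erase u).erase v with hR
  set f : ι → ℝ := fun k => if u ≠ k ∧ vx u = vx k then (1 : ℝ) else 0 with hf
  set g : ι → ℝ := fun l => if v ≠ l ∧ vx v = vx l then (1 : ℝ) else 0 with hg
  have hf0 : ∀ k, 0 ≤ f k := fun k => by simp only [hf]; split_ifs <;> norm_num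
  have hg0 : ∀ k, 0 ≤ g k := fun k => by simp only [hg]; split_ifs <;> norm_num
  have h1 : Ac vx (adjStep adj (vx u) (vx v)) R ≤ ∑ k ∈ R, ∑ l ∈ R,
      ((if adj (vx k) (vx l) then (1 : ℝ) else 0) + (f k * g l + g k * f l)) := by
    unfold Ac
    refine sum_le_sum fun k hk => sum_le_sum fun l hl => ?_
    simp only [hR, mem_erase, mem_univ, and_true] at hk hl
    have a0 : (0 : ℝ) ≤ if adj (vx k) (vx l) then (1 : ℝ) else 0 := by split_ifs <;> norm_num
    have a1 := mul_nonneg (hf0 k) (hg0 l)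
    have a2 := mul_nonneg (hg0 k) (hf0 l)
    by_cases h : adjStep adj (vx u) (vx v) (vx k) (vx l)
    · rw [if_pos h]
      rcases h with h | ⟨h1, h2⟩ | ⟨h1, h2⟩
      · rw [if_pos h]; linarith
      · have : f k * g l = 1 := by
          simp only [hf, hg]
          rw [if_pos ⟨hk.2.symm, h1.symm⟩, if_pos ⟨hl.1.symm, h2.symm⟩, one_mul]
        linarith
      · have : g k * f l = 1 := by
          simp only [hf, hg]
          rw [if_pos ⟨hk.1.symm, h1.symm⟩, if_pos ⟨hl.2.symm, h2.symm⟩, one_mul]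
        linarith
    · rw [if_neg h]; linarith
  refine h1.trans ?_
  simp only [sum_add_distrib, ← sum_mul_sum]
  have b1 : ∑ k ∈ R, f k ≤ ∑ k, f k :=
    sum_le_sum_of_subset_of_nonneg (subset_univ _) fun k _ _ => hf0 k
  have b2 : ∑ k ∈ R, g k ≤ ∑ k, g k :=
    sum_le_sum_of_subset_of_nonneg (subset_univ _) fun k _ _ => hg0 k
  have b3 : (∑ k ∈ R, f k) * ∑ k ∈ R, g k ≤ (∑ k, f k) * ∑ k, g k :=
    mul_le_mul b1 b2 (sum_nonneg fun k _ => hg0 k) (sum_nonneg fun k _ => hf0 k)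
  linarith

theorem term_A (hc : Ctx P r t) (hcard : Fintype.card ι = r) (hw : Wt ω (1 / P.L) Ξ Ω t)
    (vx : ι → V) (adj : V → V → Prop) (hirr : ∀ y, ¬ adj y y) (hS : P.US r (Sc vx univ) ≤ 2)
    (hA : P.UA r (Ac vx adj univ) ≤ 2) :
    Ea ω (fun u v => P.UA (r - 2) (Ac vx (adjStep adj (vx u) (vx v)) ((univ.erase u).erase v))) ≤
      P.UA r (Ac vx adj univ) + C2 / (P.L * r) := by
  classical
  have hL := hc.good.facts_L0
  have hL1 := hc.good.L_one
  have hx : (1000 : ℝ) ≤ r := by exact_mod_cast hc.r_big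
  have hrr : rr ι = r := by unfold rr; rw [hcard]
  have hn : (0 : ℝ) < P.n := lt_of_lt_of_le (pow_pos hL _) hc.good.n_lo
  have h1 : 1 / (P.L : ℝ) ≤ 1 := by rw [div_le_one hL]; exact hL1
  have hx2 : (0 : ℝ) < r - 2 := by linarith
  have hx0 : (0 : ℝ) < r := by linarith
  have hs := surv hw h1 (by rw [hrr]; linarith)
    (fun k l => if adj (vx k) (vx l) then (1 : ℝ) else 0)
    (fun k l => by split_ifs <;> norm_num) (fun k => by simp [hirr])
  rw [hrr] at hs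
  have hAe : (∑ k, ∑ l, if adj (vx k) (vx l) then (1 : ℝ) else 0) = Ac vx adj univ := by
    unfold Ac; congr
  rw [hAe] at hs
  set s : ι → ℝ := fun u => ∑ k, if u ≠ k ∧ vx u = vx k then (1 : ℝ) else 0 with hsd
  have hs0 : ∀ u, 0 ≤ s u := fun u => sum_nonneg fun _ _ => by split_ifs <;> norm_num
  have hsS : ∑ u, s u = Sc vx univ := rfl
  have e0 : Ea ω (fun u v => s u * s v) ≤ 2 * (Sc vx univ / r * (Sc vx univ / r)) := by
    have := hw.Ea_le_two h1 (f := fun u v => s u * s v) fun u v => mul_nonneg (hs0 u) (hs0 v)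
    rwa [av_prod, hsS, hrr] at this
  have e1 : Ea ω (fun u v => P.UA (r - 2)
      (Ac vx (adjStep adj (vx u) (vx v)) ((univ.erase u).erase v))) =
      P.n / (P.L ^ 4 * ((r : ℝ) - 2) ^ 2) *
        Ea ω (fun u v => Ac vx (adjStep adj (vx u) (vx v)) ((univ.erase u).erase v)) := by
    rw [← Ea_const_mul]
    refine Ea_congr fun u v _ => ?_
    rw [Par.UA, hc.cast_sub]; ring
  have e2 : Ea ω (fun u v => Ac vx (adjStep adj (vx u) (vx v)) ((univ.erase u).erase v)) ≤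
      (1 - 4 * (1 - 1 / (P.L : ℝ)) / r + 4 / (r : ℝ) ^ 2) * Ac vx adj univ +
        2 * (2 * (Sc vx univ / r * (Sc vx univ / r))) := by
    refine (hw.Ea_mono fun u v _ => pairs_Ac vx adj u v).trans ?_
    rw [Ea_add, Ea_const_mul]
    refine add_le_add (le_of_eq_of_le ?_ hs) (mul_le_mul_of_nonneg_left e0 (by norm_num))
    congr
  have hS0 := Sc_nonneg vx univ
  have hA0 := Ac_nonneg vx adj univ
  set S := Sc vx univ
  set A := Ac vx adj univ
  have hf := pairs_fac hL hx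
  rw [e1]
  refine (mul_le_mul_of_nonneg_left e2 (by positivity)).trans ?_
  rw [mul_add]
  have e3 : P.n / (P.L ^ 4 * ((r : ℝ) - 2) ^ 2) *
      ((1 - 4 * (1 - 1 / (P.L : ℝ)) / r + 4 / (r : ℝ) ^ 2) * A) =
      (A * P.n / P.L ^ 4) *
        ((1 - 4 * (1 - 1 / (P.L : ℝ)) / r + 4 / (r : ℝ) ^ 2) / (r - 2) ^ 2) := by
    field_simp
  have e4 : (A * P.n / P.L ^ 4) * ((1 + 8 / (P.L * r)) / (r : ℝ) ^ 2) =
      P.UA r A + P.UA r A * (8 / (P.L * r)) := by
    rw [Par.UA]; field_simp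
  have e5 : P.UA r A * (8 / (P.L * r)) ≤ 2 * (8 / (P.L * r)) :=
    mul_le_mul_of_nonneg_right hA (by positivity)
  have e6 := mul_le_mul_of_nonneg_left hf (show 0 ≤ A * P.n / P.L ^ 4 by positivity)
  have e7 : P.n / (P.L ^ 4 * ((r : ℝ) - 2) ^ 2) * (2 * (2 * (S / r * (S / r)))) =
      4 * P.US r S ^ 2 * ((r : ℝ) ^ 2 / (r - 2) ^ 2) / (P.L * (P.L * P.n)) := by
    rw [Par.US]; field_simp; ring
  have e8 : 4 * P.US r S ^ 2 * ((r : ℝ) ^ 2 / (r - 2) ^ 2) / (P.L * (P.L * P.n)) ≤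
      32 / (P.L * r) := by
    have b1 : 0 ≤ P.US r S := by rw [Par.US]; positivity
    have b2 : P.US r S ^ 2 ≤ 4 := by nlinarith
    have b3 : (r : ℝ) ^ 2 / (r - 2) ^ 2 ≤ 2 := by
      rw [div_le_iff₀ (by positivity)]; nlinarith
    have b4 : (r : ℝ) ≤ P.L * P.n :=
      le_trans (by exact_mod_cast hc.r_le) hc.good.r0_hi'
    refine div_le_div₀ (by norm_num) ?_ (by positivity) (mul_le_mul_of_nonneg_left b4 hL.le)
    have b5 := mul_le_mul b2 b3 (by positivity) (by norm_num)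
    linarith
  have e9 : 2 * (8 / ((P.L : ℝ) * r)) + 32 / (P.L * r) ≤ C2 / (P.L * r) := by
    rw [← mul_div_assoc, ← add_div]
    exact div_le_div_of_nonneg_right (by unfold C2; norm_num) (by positivity)
  rw [e3, e7]
  linarith

end Crest.Agent.R62
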