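import Crest.Agent.R62.Defs

/-!
# R62/Par: parameters, weights and the terms of the potential

`d` = degree, `n` = number of vertices, `L` = a slowly growing parameter, `L^96000 ≤ n ≤ 2 L^96000`,
`m` slightly below `1/√(d-1)`.  Everything is defined over an arbitrary ordered field (`ℚ` for the
algorithm, `ℝ` for the analysis).  `r` = number of unmatched half-edges decreases from `r0 = n d` in steps of 2.
Phases: early `r ≥ 2 r2 + 2`; tilt `r2 < r < 2 r2 + 2`; middle `r4 < r ≤ r2`; late `r ≤ r4`;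
the process stops as soon as `4 L r² ≤ rs`.
-/

set_option autoImplicit false
open Finset Matrix

namespace Crest.Agent.R62

structure Par (K : Type) where
  d : ℕ
  n : ℕ
  L : ℕ
  m : K

namespace Par

variable {K : Type} [Field K] (P : Par K)

def a : K := 1 / (1 - P.m ^ 2)
def g : K := P.m * P.a
def x : K := 4 * ((P.d : K) - 1) * P.m / (1 + ((P.d : K) - 1) * P.m ^ 2)
def gam : K := 1 / (P.x - P.d * P.m)
def r0 : ℕ := P.n * P.d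
def rs : ℕ := P.L ^ 64120
def r2 : ℕ := P.L ^ 65240
def r3 : ℕ := P.L ^ 64118
def r4 : ℕ := P.L ^ 64072
def Th : K := (P.r0 : K) * (P.gam - P.g)
def psi0 : K := P.a ^ 2 * P.r0 -
  (((P.n : K) - 1) * (P.gam * P.d - P.g) ^ 2 + P.n * ((P.d : K) - 1) * P.g ^ 2 + P.a ^ 2)
def Y0 : K := 1 / P.psi0 - 1 / (P.a ^ 2 * P.r0)
/-- the target path of `ψ = a² r - t2` -/
def Psi (r : ℕ) : K := 1 / (P.Y0 + 1 / (P.a ^ 2 * r))
def tau (r : ℕ) : K := P.Psi r ^ 2 * P.Y0 / P.L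
def Tc : K := P.n * (P.gam * P.d - P.g) ^ 3 - P.n * ((P.d : K) - 1) * P.g ^ 3
/-- the target path of `φ = - t1` -/
def A (r : ℕ) : K :=
  if 2 * P.r2 ≤ r then -P.Th else if P.r2 ≤ r then -P.Th * ((r : K) - P.r2) / P.r2 else 0
def sig : K := (P.L : K) ^ 31979
def wT (r : ℕ) : K :=
  if P.r2 < r then (P.L : K) ^ 2 / (P.n : K) ^ 2
  else if P.r4 < r then 1 / ((P.L : K) ^ 2 * (P.n : K) ^ 2) else 0
def Dbar (r : ℕ) : K :=
  if 2 * P.r2 + 2 ≤ r then (P.L : K) ^ 19 else (P.L : K) ^ 19 * r / P.r4 + 1 / (P.L : K) ^ 2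
def Wbar (r : ℕ) : K :=
  if P.r3 ≤ r then (if P.r0 ≤ P.L ^ 11 * r then (P.L : K) * P.r0 else (P.L : K) ^ 12 * r)
  else (P.L : K) ^ 12 * (r : K) ^ 2 / P.r3 + r / (P.L : K) ^ 8
def fprod (r : ℕ) : K := ∏ i ∈ range ((P.r0 - r) / 2), (1 + 1 / (2 * ((P.r0 : K) - 2 * i)))
def f [LinearOrder K] (r : ℕ) : K := min ((P.L : K) ^ 4782) (P.fprod r)

/-! ### the terms of the potential; `z` is the observable -/

def Uphi (r : ℕ) (z : K) : K := if P.r4 < r then (-z - P.A r) ^ 2 / P.sig ^ 2 else 0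
def Upsi (r : ℕ) (z : K) : K :=
  if P.r4 < r then (P.a ^ 2 * r - z - P.Psi r) ^ 2 / P.tau r ^ 2 else 0
def UT (r : ℕ) (z : K) : K := P.wT r * (z - P.Tc) ^ 2
def U4 (r : ℕ) (z : K) : K := if P.r4 < r then z * r / (P.L : K) ^ 192096 else 0
def UD (r : ℕ) (z : K) : K := z / P.Dbar r
def UW (r : ℕ) (z : K) : K := z / P.Wbar r
def UQ [LinearOrder K] (r : ℕ) (z : K) : K := z * P.f r / (P.L * r)
def Uchi (r : ℕ) (z z2 : K) : K :=
  if P.r2 < r then (z + P.g * z2 + 16) / ((P.L : K) ^ 2 * r + P.n / P.L) else 0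
def UF (r : ℕ) (z2 : K) : K :=
  if r ≤ P.r4 then (z2 - P.a ^ 2) * P.rs / (P.L * (r : K) ^ 2) else 0
def US (r : ℕ) (z : K) : K := z * P.n / (P.L * (r : K) ^ 2)
def UA (r : ℕ) (z : K) : K := z * P.n / ((P.L : K) ^ 4 * (r : K) ^ 2)

/-- the potential of one side, as a function of the observables `t1, t2, t3, t4, dd, ww, q4, chi` -/
def Uobs [LinearOrder K] (r : ℕ) (z1 z2 z3 z4 zd zw zq zc : K) : K :=
  P.Uphi r z1 + P.Upsi r z2 + P.UT r z3 + P.U4 r z4 + P.UD r zd + P.UW r zw + P.UQ r zq +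
    P.Uchi r zc z2 + P.UF r z2

end Par

/-- the real parameters of rational parameters -/
def Par.toR (P : Par ℚ) : Par ℝ := ⟨P.d, P.n, P.L, (P.m : ℝ)⟩

namespace Par

/-- the assumptions on the parameters -/
structure Basic (P : Par ℝ) : Prop where
  d3 : 3 ≤ P.d
  Lbig : 10 ^ 80 * P.d ^ 20 ≤ P.L
  nlo : P.L ^ 96000 ≤ P.n
  nhi : P.n ≤ 2 * P.L ^ 96000
  m0 : 0 < P.m
  om1 : 1 / (P.L : ℝ) ^ 31880 ≤ 1 - ((P.d : ℝ) - 1) * P.m ^ 2
  om2 : 1 - ((P.d : ℝ) - 1) * P.m ^ 2 ≤ 2 / (P.L : ℝ) ^ 31880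

/-- `Basic` and its consequences (proved in `GoodPar`) -/
structure Good (P : Par ℝ) : Prop extends Basic P where
  m2 : P.m ^ 2 ≤ 1 / 2
  a1 : 1 ≤ P.a
  a2 : P.a ≤ 2
  g0 : 0 < P.g
  g2 : P.g ^ 2 ≤ P.a ^ 2 / 2
  xlt : P.x ≤ 2 * Real.sqrt ((P.d : ℝ) - 1)
  xm : 0 < P.x - P.d * P.m
  gam1 : P.g ≤ P.gam
  gam2 : P.gam ≤ 3
  Th0 : 0 ≤ P.Th
  Th1 : P.Th ≤ (P.L : ℝ) ^ 32241
  psi0 : 0 < P.psi0
  Y1 : 1 / ((P.L : ℝ) * P.rs) ≤ P.Y0
  Y2 : P.Y0 ≤ 1 / (P.rs : ℝ)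
  Tc1 : 3 / 2 * (P.n : ℝ) ≤ P.Tc
  Tc2 : P.Tc ^ 2 ≤ P.L * (P.n : ℝ) ^ 2

variable (P : Par ℝ)

/-! ### the phase dependent parameters of the analysis -/

noncomputable def Lam (r : ℕ) : ℝ :=
  if P.r4 < r ∧ r < 2 * P.r2 + 2 then (P.L : ℝ) ^ 1188 else (P.L : ℝ) ^ 20
noncomputable def Xi (r : ℕ) : ℝ :=
  if P.r2 < r ∧ r < 2 * P.r2 + 2 then (P.L : ℝ) ^ 1483 else (P.L : ℝ) ^ 2
noncomputable def nu (r : ℕ) (t : ℝ) : ℝ :=
  if P.r4 < r then 2 * (P.L : ℝ) ^ 48024 / t ^ 2 else t ^ 4 / (P.L : ℝ) ^ 23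
noncomputable def Om (r : ℕ) (t : ℝ) : ℝ :=
  if P.r2 < r ∧ r < 2 * P.r2 + 2 then (P.L : ℝ) ^ 33197 else (P.L : ℝ) ^ 2 * t ^ 4
noncomputable def rho (r : ℕ) (t : ℝ) : ℝ := if P.r4 < r then P.nu r t else t ^ 8
/-- the gain of `φ` required in the step from `r` to `r - 2` -/
noncomputable def G (r : ℕ) : ℝ := P.A (r - 2) - P.A r

end Par

/-- the constant of the one-step bounds of the terms -/
def C2 : ℝ := 10 ^ 18

/-- a running step: `r` unmatched half-edges, `t = r^(1/8)` -/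
structure Ctx (P : Par ℝ) (r : ℕ) (t : ℝ) : Prop where
  good : P.Good
  run : P.rs < 4 * P.L * r ^ 2
  par : ∃ i, r + 2 * i = P.r0
  t0 : 0 < t
  t8 : t ^ 8 = r

variable {ι : Type} [Fintype ι] [DecidableEq ι]

/-- the potential of one side -/
noncomputable def Uside (P : Par ℝ) (r : ℕ) (B B' : Matrix ι ι ℝ) : ℝ :=
  P.Uobs r (t1 B) (t2 B) (t3 B) (t4 B) (dd B) (ww B) (q4 B) (chi B B')

/-- every term of the potential of one side is at most `2` -/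
structure Bnd (P : Par ℝ) (r : ℕ) (B B' : Matrix ι ι ℝ) : Prop where
  phi : P.Uphi r (t1 B) ≤ 2
  psi : P.Upsi r (t2 B) ≤ 2
  T : P.UT r (t3 B) ≤ 2
  T4 : P.U4 r (t4 B) ≤ 2
  D : P.UD r (dd B) ≤ 2
  W : P.UW r (ww B) ≤ 2
  Q : P.UQ r (q4 B) ≤ 2
  chi : P.Uchi r (chi B B') (t2 B) ≤ 2
  F : P.UF r (t2 B) ≤ 2

/-- everything known about one side in a running step (`r = card ι`) -/
structure Side (P : Par ℝ) (r : ℕ) (t : ℝ) (B B' : Matrix ι ι ℝ) (b : ℝ) (ω : ι → ι → ℝ) : Prop where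
  ctx : Ctx P r t
  card : Fintype.card ι = r
  hb : b = P.a ∨ b = -P.a
  reg : Reg B b (P.Lam r) (P.nu r t) t (1 / P.L)
  reg' : Reg B' (-b) (P.Lam r) (P.nu r t) t (1 / P.L)
  gam : Gam B b P.g
  gam' : Gam B' (-b) P.g
  wt : Wt ω (1 / P.L) (P.Xi r) (P.Om r t) t
  adm : Adm ω B (1 / P.L) (P.rho r t)
  adm' : Adm ω B' (1 / P.L) (P.rho r t)
  bnd : Bnd P r B B'
  bnd' : Bnd P r B' B
  gain : P.r4 < r → |2 / b * av (fun u v => (ω u v - 1) * (B * B) u v) + P.G r| ≤ P.sig / (P.L * r)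

end Crest.Agent.R62
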