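import Crest.Agent.R62.Api
import Crest.Agent.R62.Trace

/-!
# R62/Phi: drift and variance of `t1` (TASK)

General method (notation: see `Defs`).  On the support of `ω` (`ω u v ≠ 0`) we have `u ≠ v` (`Wt.ne`),
`|c| ≤ ϑ`, `|δ_u δ_v| ≤ ϑ` (`Adm`), so the exact formulas of `Trace` and `Reg.kap_bd` apply:
`K12 = 1/b + O(14 e)`, `κ = 1/b² + O(6 e)`, `E e² ≤ 16/r` (`Reg.av_e`), `E (ω-1)² ≤ Ξ²/r` (`Wt.av_sq`).
Write the increment as `main + rem` where `main` is a polynomial in entries of powers of `B` (defined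
for all pairs); `E_ω main = E main + E[(ω-1) main]` (`Ea_eq`), `E main` is computed exactly with
`av_prod, av_row, av_col` (row sums of `B^j` are `b^j`), everything else is bounded with Cauchy-Schwarz
(`av_cs`, `abs_av_cs`), `Wt.abs_Ea_le`, `Wt.Ea_le_two`, using the L² norms (over pairs, `r = t^8`)
`‖δ_u‖² = D/r ≤ Λ/r`, `‖β_u‖² = W/r ≤ Λ`, `‖b_j(u)‖² ≤ ν^(2j-4) Λ` (`word_diag_le`),
`‖c‖² ≤ 4/r`, `‖c_j‖ ≤ ν^j / r` for `j ≥ 2` (`av_sq_eq_fro`, `fro_mul_left`), `‖f(u) g(v)‖ = ‖f‖ ‖g‖`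
(`av_prod`), and the pointwise bounds `δ² ≤ Λ`, `δ_u² ≤ β_u`, `β² ≤ Λ r`, `c_2² ≤ β_u β_v`, `|b| ≤ 2`,
`1 ≤ Λ ≤ ν ≤ t^4`, `Λ ≤ ϑ t`.  The constant `CC = 10^12` is very generous: be crude.
Advice: split into many small lemmas (one per monomial type); avoid big `nlinarith` calls, use
`abs_mul, mul_le_mul, gcongr, positivity`.

Here `Δ t1 = tr H0 = K11 (β_u - b c) + K22 (β_v - b c) + K12 (2 c_2 - b (δ_u + δ_v))`.
`main = (δ_v β_u + δ_u β_v)/b² - (δ_u + δ_v) c / b + 2 c_2 / b - δ_u - δ_v`,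
`E main = 2 (T1/r)(F2/r)/b² - 2 T1/r - 2 T1/r² + 2 b / r` (the last two terms are `≤ 6 Λ/r` in size, `|T1| ≤ √(r D)`).
In `E[(ω-1) main]` the term `2 c_2 / b` is kept; the others have L² norm `≤ Λ/t^4`
(`E δ_v² c² = Σ δ_v² β_v / r² ≤ Λ · Λ t^4 / r²`).
`|tr H0 - main| ≤ 6e (|δ_v| (β_u + 1) + |δ_u| (β_v + 1)) + 14 e (2|c_2| + 2|δ_u| + 2|δ_v|)` on the support.
Variance: `|tr H0| ≤ 1.1 |δ_v| (β_u + 1) + 1.1 |δ_u| (β_v+1) + 2.2 (|c_2| + |δ_u| + |δ_v|)`.
-/

set_option autoImplicit false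
set_option linter.unusedSectionVars false
open Finset Matrix

namespace Crest.Agent.R62

variable {ι : Type} [Fintype ι] [DecidableEq ι]
variable {ω : ι → ι → ℝ} {B : Matrix ι ι ℝ} {b Λ ν t ϑ Ξ Ω ρ : ℝ}

/-- pointwise dominating function -/
def phi_G (B : Matrix ι ι ℝ) (u v : ι) : ℝ :=
  |B v v * bet B u| + |B u u * bet B v| + |B u u| + |B v v| + |B u u * B u v| + |B v v * B u v|

theorem phi_G_nonneg (B : Matrix ι ι ℝ) (u v : ι) : 0 ≤ phi_G B u v := by
  unfold phi_G; positivity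

theorem phi_n1 (h : Reg B b Λ ν t ϑ) :
    av (fun u v => bet B u ^ 2 * B v v ^ 2) ≤ Λ ^ 2 / t ^ 8 := by
  have hr := h.rpos
  have hL := h.L1
  rw [av_prod, h.t8]
  have h1 : (∑ u, bet B u ^ 2) / rr ι ≤ Λ := (div_le_iff₀ hr).2 h.w
  have h2 : (∑ u, B u u ^ 2) / rr ι ≤ Λ / rr ι := div_le_div_of_nonneg_right h.d hr.le
  calc _ ≤ Λ * (Λ / rr ι) :=
        mul_le_mul h1 h2 (div_nonneg (Finset.sum_nonneg fun _ _ => sq_nonneg _) hr.le) (by linarith)
    _ = _ := by ring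

theorem phi_n2 (h : Reg B b Λ ν t ϑ) : av (fun u _ => B u u ^ 2) ≤ Λ ^ 2 / t ^ 8 := by
  have hr := h.rpos
  have hL := h.L1
  rw [av_left hr, h.t8]
  refine div_le_div_of_nonneg_right (le_trans h.d ?_) hr.le
  nlinarith

theorem phi_n4 (h : Reg B b Λ ν t ϑ) : av (fun u v => Λ * B u v ^ 2) ≤ 4 * (Λ ^ 2 / t ^ 8) := by
  have hL := h.L1
  have ht := h.t0
  rw [av_const_mul, av_sq_eq_fro, ← h.t8]
  have h1 : fro B ≤ 4 * t ^ 8 := (fro_eq_t2 h.symm).trans_le h.f2'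
  calc Λ * (fro B / (t ^ 8) ^ 2) ≤ Λ ^ 2 * (4 * t ^ 8 / (t ^ 8) ^ 2) := by
        refine mul_le_mul (by nlinarith) (div_le_div_of_nonneg_right h1 (by positivity)) ?_
          (by positivity)
        exact div_nonneg (Finset.sum_nonneg fun _ _ => Finset.sum_nonneg fun _ _ => sq_nonneg _)
          (by positivity)
    _ = _ := by field_simp

theorem phi_six (a1 a2 a3 a4 a5 a6 : ℝ) : (|a1| + |a2| + |a3| + |a4| + |a5| + |a6|) ^ 2 ≤
    6 * (a1 ^ 2 + a2 ^ 2 + a3 ^ 2 + a4 ^ 2 + a5 ^ 2 + a6 ^ 2) := by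
  rw [← sq_abs a1, ← sq_abs a2, ← sq_abs a3, ← sq_abs a4, ← sq_abs a5, ← sq_abs a6]
  generalize |a1| = x1
  generalize |a2| = x2
  generalize |a3| = x3
  generalize |a4| = x4
  generalize |a5| = x5
  generalize |a6| = x6
  nlinarith [sq_nonneg (x1 - x2), sq_nonneg (x1 - x3), sq_nonneg (x1 - x4), sq_nonneg (x1 - x5),
    sq_nonneg (x1 - x6), sq_nonneg (x2 - x3), sq_nonneg (x2 - x4), sq_nonneg (x2 - x5),
    sq_nonneg (x2 - x6), sq_nonneg (x3 - x4), sq_nonneg (x3 - x5), sq_nonneg (x3 - x6),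
    sq_nonneg (x4 - x5), sq_nonneg (x4 - x6), sq_nonneg (x5 - x6)]

theorem phi_av_G (h : Reg B b Λ ν t ϑ) : av (fun u v => phi_G B u v ^ 2) ≤ (9 * Λ / t ^ 4) ^ 2 := by
  have h1 := phi_n1 h
  have h1' : av (fun u v => bet B v ^ 2 * B u u ^ 2) ≤ Λ ^ 2 / t ^ 8 :=
    (av_swap fun u v => bet B u ^ 2 * B v v ^ 2).trans_le h1
  have h2 := phi_n2 h
  have h2' : av (fun _ v => B v v ^ 2) ≤ Λ ^ 2 / t ^ 8 :=
    (av_swap fun u _ => B u u ^ 2).trans_le h2
  have h4 := phi_n4 h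
  have ht := h.t0
  calc _ ≤ av (fun u v => 6 * (bet B u ^ 2 * B v v ^ 2 + bet B v ^ 2 * B u u ^ 2 + B u u ^ 2 +
          B v v ^ 2 + Λ * B u v ^ 2 + Λ * B u v ^ 2)) := by
        refine av_mono fun u v => (phi_six _ _ _ _ _ _).trans ?_
        have e1 := mul_le_mul_of_nonneg_right (h.ent u u) (sq_nonneg (B u v))
        have e2 := mul_le_mul_of_nonneg_right (h.ent v v) (sq_nonneg (B u v))
        simp only [mul_pow]
        linarith
    _ ≤ 6 * (Λ ^ 2 / t ^ 8 + Λ ^ 2 / t ^ 8 + Λ ^ 2 / t ^ 8 + Λ ^ 2 / t ^ 8 + 4 * (Λ ^ 2 / t ^ 8) +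
          4 * (Λ ^ 2 / t ^ 8)) := by
        rw [av_const_mul, av_add, av_add, av_add, av_add, av_add]
        linarith
    _ ≤ 81 * (Λ ^ 2 / t ^ 8) := by
        have : 0 ≤ Λ ^ 2 / t ^ 8 := by positivity
        linarith
    _ = _ := by field_simp; ring

theorem phi_av_c2 (h : Reg B b Λ ν t ϑ) :
    av (fun u v => (B * B) u v ^ 2) ≤ (ν ^ 2 / t ^ 8) ^ 2 := by
  have ht := h.t0
  rw [av_sq_eq_fro, ← h.t8, div_pow, ← pow_mul ν]
  exact div_le_div_of_nonneg_right ((fro_sq_eq_t4 h.symm).trans_le h.t4) (by positivity)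

theorem phi_inc (h : Reg B b Λ ν t ϑ) (hw : Wt ω ϑ Ξ Ω t) (ha : Adm ω B ϑ ρ) {u v : ι}
    (huv : ω u v ≠ 0) : t1 (upd b B u v) - t1 B =
      kap b B u v * (B v v * bet B u + B u u * bet B v - b * (B u u * B u v + B v v * B u v)) +
      kap b B u v * (b - B u v) * (2 * (B * B) u v - b * (B u u + B v v)) := by
  obtain ⟨h1, h2, -, -⟩ := ha u v huv
  have h3 := (h.kap_bd h1 h2).1
  have h4 := h.b1
  have hs : B v u = B u v := h.symm.apply u v
  have hs2 : (B * B) v u = (B * B) u v := by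
    have : (B * B).IsSymm := by
      rw [Matrix.IsSymm, Matrix.transpose_mul, h.symm.eq]
    exact this.apply u v
  rw [t1_upd h.symm (hw.ne huv) (by linarith), Matrix.trace_fin_two, Hm_00, Hm_11]
  simp only [Matrix.mul_one, Matrix.one_mul, hs, hs2, bet]
  ring

theorem phi_X (h : Reg B b Λ ν t ϑ) (u v : ι) :
    |B v v * bet B u + B u u * bet B v - b * (B u u * B u v + B v v * B u v)| ≤
      |B v v * bet B u| + |B u u * bet B v| + 2 * (|B u u * B u v| + |B v v * B u v|) := by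
  refine (abs_sub _ _).trans (add_le_add (abs_add_le _ _) ?_)
  rw [abs_mul]
  exact mul_le_mul h.abs_b.2 (abs_add_le _ _) (abs_nonneg _) (by norm_num)

theorem phi_Y (h : Reg B b Λ ν t ϑ) (u v : ι) :
    |2 * (B * B) u v - b * (B u u + B v v)| ≤ 2 * |(B * B) u v| + 2 * (|B u u| + |B v v|) := by
  refine (abs_sub _ _).trans (add_le_add (by rw [abs_mul]; norm_num) ?_)
  rw [abs_mul]
  exact mul_le_mul h.abs_b.2 (abs_add_le _ _) (abs_nonneg _) (by norm_num)

/-- the main term without `2 c₂ / b` -/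
noncomputable def phi_m (b : ℝ) (B : Matrix ι ι ℝ) (u v : ι) : ℝ :=
  1 / b ^ 2 * (bet B u * B v v + B u u * bet B v) - 1 / b * (B u u * B u v + B v v * B u v) -
    (B u u + B v v)

theorem phi_m_le (h : Reg B b Λ ν t ϑ) (u v : ι) : |phi_m b B u v| ≤ phi_G B u v := by
  have h1 : |1 / b ^ 2| ≤ 1 := by
    rw [abs_of_nonneg (by positivity)]
    exact div_le_one_of_le₀ h.b1 (by positivity)
  have h2 : |1 / b| ≤ 1 := by
    rw [abs_div, abs_one]
    exact div_le_one_of_le₀ h.abs_b.1 (abs_nonneg _)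
  have h3 : |1 / b ^ 2 * (bet B u * B v v + B u u * bet B v)| ≤
      |B v v * bet B u| + |B u u * bet B v| := by
    rw [abs_mul, mul_comm (bet B u)]
    exact (mul_le_of_le_one_left (abs_nonneg _) h1).trans (abs_add_le _ _)
  have h4 : |1 / b * (B u u * B u v + B v v * B u v)| ≤ |B u u * B u v| + |B v v * B u v| := by
    rw [abs_mul]
    exact (mul_le_of_le_one_left (abs_nonneg _) h2).trans (abs_add_le _ _)
  have h5 := abs_add_le (B u u) (B v v)
  unfold phi_m phi_G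
  refine (abs_sub _ _).trans ((add_le_add_left (abs_sub _ _) _).trans ?_)
  linarith

theorem phi_rem (h : Reg B b Λ ν t ϑ) (hw : Wt ω ϑ Ξ Ω t) (ha : Adm ω B ϑ ρ) {u v : ι}
    (huv : ω u v ≠ 0) :
    |t1 (upd b B u v) - t1 B - (phi_m b B u v + 2 / b * (B * B) u v)| ≤
      28 * (|(|B u v| + |B u u * B v v|)| * |phi_G B u v| +
        |(|B u v| + |B u u * B v v|)| * |(B * B) u v|) := by
  obtain ⟨h1, h2, -, -⟩ := ha u v huv
  obtain ⟨-, -, -, h3, h4, -⟩ := h.kap_bd h1 h2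
  have hb : b ≠ 0 := fun h0 => by have := h.b1; rw [h0] at this; norm_num at this
  have e : t1 (upd b B u v) - t1 B - (phi_m b B u v + 2 / b * (B * B) u v) =
      (kap b B u v - 1 / b ^ 2) *
        (B v v * bet B u + B u u * bet B v - b * (B u u * B u v + B v v * B u v)) +
      (kap b B u v * (b - B u v) - 1 / b) * (2 * (B * B) u v - b * (B u u + B v v)) := by
    rw [phi_inc h hw ha huv, phi_m]; field_simp; ring
  have he : 0 ≤ |B u v| + |B u u * B v v| := by positivity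
  rw [e, abs_of_nonneg he, abs_of_nonneg (phi_G_nonneg B u v)]
  refine (abs_add_le _ _).trans ?_
  rw [abs_mul, abs_mul]
  have h5 := mul_le_mul h3 (phi_X h u v) (abs_nonneg _) (by positivity)
  have h6 := mul_le_mul h4 (phi_Y h u v) (abs_nonneg _) (by positivity)
  refine (add_le_add h5 h6).trans ?_
  unfold phi_G
  generalize |B u v| + |B u u * B v v| = e at he ⊢
  have := mul_nonneg he (abs_nonneg (B v v * bet B u))
  have := mul_nonneg he (abs_nonneg (B u u * bet B v))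
  have := mul_nonneg he (abs_nonneg (B u u * B u v))
  have := mul_nonneg he (abs_nonneg (B v v * B u v))
  linarith

theorem phi_av_main (h : Reg B b Λ ν t ϑ) :
    av (fun u v => phi_m b B u v + 2 / b * (B * B) u v) =
      -2 * t1 B * (b ^ 2 * rr ι - t2 B) / (b ^ 2 * rr ι ^ 2) +
        (2 * b / rr ι - 2 * t1 B / rr ι ^ 2) := by
  have hb : b ≠ 0 := fun h0 => by have := h.b1; rw [h0] at this; norm_num at this
  have hr := h.rpos
  have e1 : av (fun u v => (B * B) u v) = b * b / rr ι := by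
    have := av_row (row_mul h.row h.row) (fun _ => (1 : ℝ))
    simp only [one_mul, Finset.sum_const, Finset.card_univ, nsmul_eq_mul, mul_one] at this
    rw [this]
    change b * b * rr ι / _ = _
    field_simp
  have e2 : ∑ u, B u u = t1 B := rfl
  unfold phi_m
  rw [av_add, av_sub, av_sub, av_const_mul, av_const_mul, av_const_mul, av_add, av_add, av_add,
    av_prod, av_prod, av_row h.row, av_col h.col, av_left hr, av_right hr, e1, e2, sum_bet]
  field_simp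
  ring

theorem drift_t1 (h : Reg B b Λ ν t ϑ) (hw : Wt ω ϑ Ξ Ω t) (ha : Adm ω B ϑ ρ) :
    |Ea ω (fun u v => t1 (upd b B u v) - t1 B) -
      (-2 * t1 B * (b ^ 2 * rr ι - t2 B) / (b ^ 2 * rr ι ^ 2)) -
      2 / b * av (fun u v => (ω u v - 1) * (B * B) u v)| ≤
    CC * (Ξ * Λ / t ^ 8 + ν ^ 2 / t ^ 12) := by
  have ht := h.t0
  have hL := h.L1
  have hX := hw.Xi1
  have hr := h.rpos
  have e1 : Ea ω (fun u v => t1 (upd b B u v) - t1 B) =
      Ea ω (fun u v => phi_m b B u v + 2 / b * (B * B) u v) +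
      Ea ω (fun u v => t1 (upd b B u v) - t1 B - (phi_m b B u v + 2 / b * (B * B) u v)) := by
    rw [← Ea_add]; exact Ea_congr fun u v _ => by ring
  have e2 : av (fun u v => (ω u v - 1) * (phi_m b B u v + 2 / b * (B * B) u v)) =
      av (fun u v => (ω u v - 1) * phi_m b B u v) +
        2 / b * av (fun u v => (ω u v - 1) * (B * B) u v) := by
    rw [← av_const_mul, ← av_add]; exact av_congr fun u v => by ring
  have b1 : |Ea ω (fun u v => t1 (upd b B u v) - t1 B - (phi_m b B u v + 2 / b * (B * B) u v))| ≤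
      2 * (28 * (4 / t ^ 4 * (9 * Λ / t ^ 4) + 4 / t ^ 4 * (ν ^ 2 / t ^ 8))) := by
    refine (hw.abs_Ea_le fun u v huv => phi_rem h hw ha huv).trans ?_
    refine (hw.Ea_le_two (by linarith [h.th1]) fun u v => by positivity).trans ?_
    rw [av_const_mul, av_add]
    have c1 := av_cs (by positivity) (by positivity) h.av_e (phi_av_G h)
    have c2 := av_cs (by positivity) (by positivity) h.av_e (phi_av_c2 h)
    linarith
  have b2 : |av (fun u v => (ω u v - 1) * phi_m b B u v)| ≤ Ξ / t ^ 4 * (9 * Λ / t ^ 4) := by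
    refine abs_av_cs (by positivity) (by positivity) (hw.av_sq ht h.t8)
      (le_trans (av_mono fun u v => ?_) (phi_av_G h))
    rw [← sq_abs]
    exact pow_le_pow_left₀ (abs_nonneg _) (phi_m_le h u v) 2
  have b3 : |2 * b / rr ι - 2 * t1 B / rr ι ^ 2| ≤ 6 * (Λ / t ^ 8) := by
    have hr1 : 1 ≤ rr ι := by rw [← h.t8]; exact one_le_pow₀ (by linarith [h.t1000])
    have c1 : |t1 B| ≤ rr ι * Λ := by
      refine abs_le_of_sq_le_sq' ?_ (by positivity) |> abs_le.2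
      have c2 := (t1_sq_le B).trans (mul_le_mul_of_nonneg_left h.d hr.le)
      have c3 : 1 ≤ rr ι * Λ := one_le_mul_of_one_le_of_one_le hr1 hL
      nlinarith
    have c2 : |2 * b / rr ι| ≤ 4 * (Λ / rr ι) := by
      rw [abs_div, abs_mul, abs_of_pos hr, abs_two, ← mul_div_assoc]
      exact div_le_div_of_nonneg_right (by linarith [h.abs_b.2]) hr.le
    have c3 : |2 * t1 B / rr ι ^ 2| ≤ 2 * (Λ / rr ι) := by
      rw [abs_div, abs_mul, abs_of_pos (pow_pos hr 2), abs_two, div_le_iff₀ (pow_pos hr 2)]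
      have : 2 * (Λ / rr ι) * rr ι ^ 2 = 2 * (rr ι * Λ) := by field_simp
      linarith
    rw [h.t8]
    refine (abs_sub _ _).trans ?_
    linarith
  rw [e1, Ea_eq ω fun u v => phi_m b B u v + 2 / b * (B * B) u v, e2, phi_av_main h]
  have c1 : Λ / t ^ 8 ≤ Ξ * Λ / t ^ 8 :=
    div_le_div_of_nonneg_right (by nlinarith) (by positivity)
  have c2 : 4 / t ^ 4 * (9 * Λ / t ^ 4) = 36 * (Λ / t ^ 8) := by field_simp; norm_num
  have c3 : 4 / t ^ 4 * (ν ^ 2 / t ^ 8) = 4 * (ν ^ 2 / t ^ 12) := by field_simp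
  have c4 : Ξ / t ^ 4 * (9 * Λ / t ^ 4) = 9 * (Ξ * Λ / t ^ 8) := by field_simp
  have c5 : 0 ≤ Λ / t ^ 8 := by positivity
  have c6 : 0 ≤ ν ^ 2 / t ^ 12 := by positivity
  rw [c2, c3] at b1
  rw [c4] at b2
  rw [abs_le] at b1 b2 b3 ⊢
  unfold CC
  constructor <;> linarith [b1.1, b1.2, b2.1, b2.2, b3.1, b3.2]

theorem var_t1 (h : Reg B b Λ ν t ϑ) (hw : Wt ω ϑ Ξ Ω t) (ha : Adm ω B ϑ ρ) :
    Ea ω (fun u v => (t1 (upd b B u v) - t1 B) ^ 2) ≤ CC * (ν ^ 4 / t ^ 16 + Λ ^ 2 / t ^ 8) := by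
  have ht := h.t0
  have b1 : ∀ u v, ω u v ≠ 0 → (t1 (upd b B u v) - t1 B) ^ 2 ≤
      18 * (phi_G B u v ^ 2 + (B * B) u v ^ 2) := by
    intro u v huv
    obtain ⟨h1, h2, -, -⟩ := ha u v huv
    obtain ⟨-, h3, h4, -, -, h5, -⟩ := h.kap_bd h1 h2
    have c1 : |t1 (upd b B u v) - t1 B| ≤ 3 * (phi_G B u v + |(B * B) u v|) := by
      rw [phi_inc h hw ha huv]
      refine (abs_add_le _ _).trans ?_
      rw [abs_mul, abs_mul (_ * _), abs_of_pos h3]
      have h6 := mul_le_mul h4 (phi_X h u v) (abs_nonneg _) (by positivity)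
      have h7 := mul_le_mul h5 (phi_Y h u v) (abs_nonneg _) (by positivity)
      refine (add_le_add h6 h7).trans ?_
      unfold phi_G
      linarith [abs_nonneg (B v v * bet B u), abs_nonneg (B u u * bet B v),
        abs_nonneg (B u u * B u v), abs_nonneg (B v v * B u v), abs_nonneg (B u u),
        abs_nonneg (B v v), abs_nonneg ((B * B) u v)]
    rw [← sq_abs, ← sq_abs ((B * B) u v)]
    refine (pow_le_pow_left₀ (abs_nonneg _) c1 2).trans ?_
    nlinarith [sq_nonneg (phi_G B u v - |(B * B) u v|)]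
  refine (hw.Ea_mono b1).trans ?_
  refine (hw.Ea_le_two (by linarith [h.th1]) fun u v => by positivity).trans ?_
  rw [av_const_mul, av_add]
  have c1 := phi_av_G h
  have c2 := phi_av_c2 h
  have c3 : (9 * Λ / t ^ 4) ^ 2 = 81 * (Λ ^ 2 / t ^ 8) := by field_simp; ring
  have c4 : (ν ^ 2 / t ^ 8) ^ 2 = ν ^ 4 / t ^ 16 := by field_simp
  have c5 : 0 ≤ Λ ^ 2 / t ^ 8 := by positivity
  have c6 : 0 ≤ ν ^ 4 / t ^ 16 := by positivity
  unfold CC
  linarith

end Crest.Agent.R62
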