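import Mathlib

/-! # R62/PsiAux1: real inequalities for `Psi` -/

set_option autoImplicit false

namespace Crest.Agent.R62

/-! ### pointwise real inequalities -/

theorem psi_am (x y : ℝ) : |x| * |y| ≤ (x ^ 2 + y ^ 2) / 2 := by
  nlinarith [sq_nonneg (|x| - |y|), sq_abs x, sq_abs y]

theorem psi_x {b κ K du dv c bu c2 : ℝ} (hb : |b| ≤ 2) (hc : |c| ≤ 1) (hκ : |κ| ≤ 11 / 10)
    (hK : |K| ≤ 11 / 10) : (κ * dv * (bu - b * c) + K * (c2 - b * du)) ^ 2 ≤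
      20 * ((dv * bu) ^ 2 + du ^ 2 + dv ^ 2 + c2 ^ 2) := by
  have h1 : |κ * dv * (bu - b * c) + K * (c2 - b * du)| ≤
      11 / 10 * (|dv * bu| + 2 * |dv| + |c2| + 2 * |du|) := by
    have e : κ * dv * (bu - b * c) + K * (c2 - b * du) =
        κ * (dv * bu) - κ * b * c * dv + K * c2 - K * b * du := by ring
    have a1 : |κ * (dv * bu)| ≤ 11 / 10 * |dv * bu| := by rw [abs_mul]; gcongr
    have a2 : |κ * b * c * dv| ≤ 11 / 10 * 2 * 1 * |dv| := by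
      simp only [abs_mul]; gcongr
    have a3 : |K * c2| ≤ 11 / 10 * |c2| := by rw [abs_mul]; gcongr
    have a4 : |K * b * du| ≤ 11 / 10 * 2 * |du| := by simp only [abs_mul]; gcongr
    rw [e, abs_le]
    constructor <;> linarith [abs_le.1 a1, abs_le.1 a2, abs_le.1 a3, abs_le.1 a4]
  have h2 := pow_le_pow_left₀ (abs_nonneg _) h1 2
  rw [sq_abs] at h2
  refine h2.trans ?_
  rw [← sq_abs (dv * bu), ← sq_abs du, ← sq_abs dv, ← sq_abs c2]
  generalize |dv * bu| = p, |du| = q, |dv| = r, |c2| = s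
  nlinarith [sq_nonneg (p - 2 * r), sq_nonneg (p - s), sq_nonneg (p - 2 * q), sq_nonneg (2 * r - s),
    sq_nonneg (r - q), sq_nonneg (s - 2 * q), sq_nonneg p, sq_nonneg s, sq_nonneg q, sq_nonneg r]

theorem psi_y {b ib κ K d c β c2 e : ℝ} (hb : |b| ≤ 2) (hκ : |κ| ≤ 11 / 10) (hK : |K| ≤ 11 / 10)
    (hK' : |K - ib| ≤ 14 * e) (hβ : 0 ≤ β) :
    |K * (β - b * c) + κ * d * (c2 - b * d) - ib * β| ≤
      (14 * e * β + 11 / 5 * d ^ 2) + (11 / 5 * |c| + 11 / 10 * (|d| * |c2|)) := by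
  have e' : K * (β - b * c) + κ * d * (c2 - b * d) - ib * β =
      (K - ib) * β - K * b * c + κ * (d * c2) - κ * b * d ^ 2 := by ring
  have a1 : |(K - ib) * β| ≤ 14 * e * β := by rw [abs_mul, abs_of_nonneg hβ]; gcongr
  have a2 : |K * b * c| ≤ 11 / 10 * 2 * |c| := by simp only [abs_mul]; gcongr
  have a3 : |κ * (d * c2)| ≤ 11 / 10 * (|d| * |c2|) := by simp only [abs_mul]; gcongr
  have a4 : |κ * b * d ^ 2| ≤ 11 / 10 * 2 * d ^ 2 := by
    simp only [abs_mul, abs_of_nonneg (sq_nonneg d)]; gcongr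
  rw [e', abs_le]
  constructor <;> linarith [abs_le.1 a1, abs_le.1 a2, abs_le.1 a3, abs_le.1 a4]

theorem psi_Y {ib bu bv yu yv su sv ru rv : ℝ} (hib : |ib| ≤ 1) (hbu : 0 ≤ bu) (hbv : 0 ≤ bv)
    (hsu : 0 ≤ su) (hru : 0 ≤ ru) (hsu' : su ≤ 3 * bu) (hsv' : sv ≤ 3 * bv)
    (hu : |yu - ib * bu| ≤ su + ru) (hv : |yv - ib * bv| ≤ sv + rv) :
    |yu * yv - ib ^ 2 * (bu * bv)| ≤ 4 * (bu * (sv + rv)) + 4 * (bv * (su + ru)) + ru * rv := by
  have e : yu * yv - ib ^ 2 * (bu * bv) = ib * bu * (yv - ib * bv) + ib * bv * (yu - ib * bu) +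
      (yu - ib * bu) * (yv - ib * bv) := by ring
  have h0 : 0 ≤ sv + rv := (abs_nonneg _).trans hv
  have a1 : |ib * bu * (yv - ib * bv)| ≤ 1 * bu * (sv + rv) := by
    simp only [abs_mul, abs_of_nonneg hbu]; gcongr
  have a2 : |ib * bv * (yu - ib * bu)| ≤ 1 * bv * (su + ru) := by
    simp only [abs_mul, abs_of_nonneg hbv]; gcongr
  have a3 : |(yu - ib * bu) * (yv - ib * bv)| ≤ (su + ru) * (sv + rv) := by
    rw [abs_mul]; gcongr
  have a4 : su * (sv + rv) ≤ 3 * bu * (sv + rv) := by gcongr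
  have a5 : ru * sv ≤ ru * (3 * bv) := by gcongr
  have a6 : 0 ≤ bv * su := by positivity
  rw [e, abs_le]
  constructor <;> nlinarith [abs_le.1 a1, abs_le.1 a2, abs_le.1 a3]

theorem psi_bs {e c d bu bv c2 : ℝ} (hc : |c| ≤ e) (hbu : 0 ≤ bu) :
    bu * ((14 * e * bv + 11 / 5 * d ^ 2) + (11 / 5 * |c| + 11 / 10 * (|d| * |c2|))) ≤
      14 * (e * (bu + bu * bv)) + 2 * ((d * bu) ^ 2 + d ^ 2 + c2 ^ 2) := by
  have he : 0 ≤ e := (abs_nonneg c).trans hc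
  have a1 : bu * |c| ≤ bu * e := by gcongr
  have a2 := psi_am (d * bu) c2
  rw [abs_mul, abs_of_nonneg hbu] at a2
  have a3 : bu * d ^ 2 ≤ ((d * bu) ^ 2 + d ^ 2) / 2 := by nlinarith [sq_nonneg (d * bu - d)]
  have a4 : 0 ≤ bu * e := by positivity
  nlinarith [sq_nonneg (d * bu), sq_nonneg d, sq_nonneg c2]

theorem psi_rr {e c du dv c2 : ℝ} (hc : |c| ≤ e) (hd : |du * dv| ≤ e) (he : e ≤ 1) :
    (11 / 5 * |c| + 11 / 10 * (|du| * |c2|)) * (11 / 5 * |c| + 11 / 10 * (|dv| * |c2|)) ≤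
      5 * (du ^ 2 + dv ^ 2 + c2 ^ 2 + e ^ 2) := by
  have a1 : |c| * |c| ≤ e * e := mul_self_le_mul_self (abs_nonneg c) hc
  have a2 : |c| * (|du| * |c2|) ≤ 1 * ((du ^ 2 + c2 ^ 2) / 2) :=
    mul_le_mul (hc.trans he) (psi_am _ _) (by positivity) zero_le_one
  have a3 : |c| * (|dv| * |c2|) ≤ 1 * ((dv ^ 2 + c2 ^ 2) / 2) :=
    mul_le_mul (hc.trans he) (psi_am _ _) (by positivity) zero_le_one
  have a4 : |du| * |c2| * (|dv| * |c2|) ≤ c2 ^ 2 := by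
    have : |du| * |c2| * (|dv| * |c2|) = |du * dv| * c2 ^ 2 := by rw [abs_mul, ← sq_abs c2]; ring
    rw [this]
    exact mul_le_of_le_one_left (sq_nonneg _) (hd.trans he)
  nlinarith [sq_nonneg du, sq_nonneg dv, sq_nonneg c2, sq_nonneg e]

theorem psi_pt {b ib κ K du dv c bu bv c2 c3 pu pv e : ℝ} (hb : |b| ≤ 2) (hib : |ib| ≤ 1)
    (hbi : b * ib = 1) (hc : |c| ≤ e) (hd : |du * dv| ≤ e) (he : e ≤ 1 / 500)
    (hκ : |κ| ≤ 11 / 10) (hκ' : |κ - ib ^ 2| ≤ 6 * e) (hK : |K| ≤ 11 / 10) (hK' : |K - ib| ≤ 14 * e)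
    (hbu : du ^ 2 ≤ bu) (hbv : dv ^ 2 ≤ bv) :
    |2 * (κ * dv * (pu - b * c2) + κ * du * (pv - b * c2) + K * (2 * c3 - b * (bu + bv))) +
      (κ * dv * (bu - b * c) + K * (c2 - b * du)) ^ 2 +
      (κ * du * (bv - b * c) + K * (c2 - b * dv)) ^ 2 +
      2 * ((K * (bu - b * c) + κ * du * (c2 - b * du)) * (K * (bv - b * c) + κ * dv * (c2 - b * dv))) -
      (2 * ib ^ 2 * (pu * dv + du * pv) + 4 * ib * c3 - 2 * bu - 2 * bv + 2 * ib ^ 2 * (bu * bv))| ≤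
    300 * (e * (|pu * dv| + |du * pv| + |c3| + bu + bv + bu * bv) +
      ((dv * bu) ^ 2 + (du * bv) ^ 2 + du ^ 2 + dv ^ 2 + c2 ^ 2 + e ^ 2)) := by
  have he0 : 0 ≤ e := (abs_nonneg c).trans hc
  have hbu0 : 0 ≤ bu := (sq_nonneg _).trans hbu
  have hbv0 : 0 ≤ bv := (sq_nonneg _).trans hbv
  have x1 := psi_x (du := du) (dv := dv) (bu := bu) (c2 := c2) hb (hc.trans (by linarith)) hκ hK
  have x2 := psi_x (du := dv) (dv := du) (bu := bv) (c2 := c2) hb (hc.trans (by linarith)) hκ hK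
  have y := psi_Y hib hbu0 hbv0 (by positivity) (by positivity) (by nlinarith) (by nlinarith)
    (psi_y (d := du) (c := c) (c2 := c2) hb hκ hK hK' hbu0)
    (psi_y (d := dv) (c := c) (c2 := c2) hb hκ hK hK' hbv0)
  have y1 := psi_bs (d := dv) (bv := bv) (c2 := c2) hc hbu0
  have y2 := psi_bs (d := du) (bv := bu) (c2 := c2) hc hbv0
  have y3 := psi_rr (c2 := c2) hc hd (by linarith)
  have a1 : |(κ - ib ^ 2) * (pu * dv + du * pv)| ≤ 6 * e * (|pu * dv| + |du * pv|) := by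
    rw [abs_mul]
    gcongr
    exact abs_add_le _ _
  have a2 : |κ * b * (c2 * du + c2 * dv)| ≤
      11 / 10 * 2 * ((c2 ^ 2 + du ^ 2) / 2 + (c2 ^ 2 + dv ^ 2) / 2) := by
    rw [abs_mul, abs_mul]
    gcongr
    refine (abs_add_le _ _).trans (add_le_add ?_ ?_) <;> rw [abs_mul] <;> exact psi_am _ _
  have a3 : |(K - ib) * (2 * c3 - b * (bu + bv))| ≤ 14 * e * (2 * |c3| + 2 * (bu + bv)) := by
    rw [abs_mul]
    gcongr
    refine (abs_sub _ _).trans (add_le_add ?_ ?_)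
    · rw [abs_mul, abs_two]
    · rw [abs_mul, abs_of_nonneg (add_nonneg hbu0 hbv0)]
      gcongr
  generalize κ * dv * (bu - b * c) + K * (c2 - b * du) = xu at x1 ⊢
  generalize κ * du * (bv - b * c) + K * (c2 - b * dv) = xv at x2 ⊢
  generalize K * (bu - b * c) + κ * du * (c2 - b * du) = yu at y ⊢
  generalize K * (bv - b * c) + κ * dv * (c2 - b * dv) = yv at y ⊢
  have e' : 2 * (κ * dv * (pu - b * c2) + κ * du * (pv - b * c2) + K * (2 * c3 - b * (bu + bv))) +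
      xu ^ 2 + xv ^ 2 + 2 * (yu * yv) -
      (2 * ib ^ 2 * (pu * dv + du * pv) + 4 * ib * c3 - 2 * bu - 2 * bv + 2 * ib ^ 2 * (bu * bv)) =
      2 * ((κ - ib ^ 2) * (pu * dv + du * pv)) - 2 * (κ * b * (c2 * du + c2 * dv)) +
        2 * ((K - ib) * (2 * c3 - b * (bu + bv))) + xu ^ 2 + xv ^ 2 +
        2 * (yu * yv - ib ^ 2 * (bu * bv)) := by
    linear_combination (-2 * (bu + bv)) * hbi
  have p1 : 0 ≤ e * |pu * dv| := by positivity
  have p2 : 0 ≤ e * |du * pv| := by positivity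
  have p3 : 0 ≤ e * |c3| := by positivity
  have p4 : 0 ≤ e * bu := by positivity
  have p5 : 0 ≤ e * bv := by positivity
  have p6 : 0 ≤ e * (bu * bv) := by positivity
  have y' := y.trans (add_le_add (add_le_add (mul_le_mul_of_nonneg_left y1 (by norm_num))
    (mul_le_mul_of_nonneg_left y2 (by norm_num))) y3)
  clear y y1 y2 y3
  rw [e', abs_le]
  constructor <;> linarith [abs_le.1 a1, abs_le.1 a2, abs_le.1 a3, abs_le.1 y', sq_nonneg xu,
    sq_nonneg xv, sq_nonneg (dv * bu), sq_nonneg (du * bv), sq_nonneg du, sq_nonneg dv,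
    sq_nonneg c2, sq_nonneg e]

theorem psi_main_le {ib du dv bu bv c3 pu pv : ℝ} (hib : |ib| ≤ 1) (hbu : 0 ≤ bu) (hbv : 0 ≤ bv) :
    |2 * ib ^ 2 * (pu * dv + du * pv) + 4 * ib * c3 - 2 * bu - 2 * bv + 2 * ib ^ 2 * (bu * bv)| ≤
      4 * (|pu * dv| + |du * pv| + |c3| + bu + bv + bu * bv) := by
  have h2 : |ib ^ 2| ≤ 1 := by rw [abs_pow]; exact pow_le_one₀ (abs_nonneg _) hib
  have a1 : |ib ^ 2 * (pu * dv + du * pv)| ≤ 1 * (|pu * dv| + |du * pv|) := by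
    rw [abs_mul]
    gcongr
    exact abs_add_le _ _
  have a2 : |ib * c3| ≤ 1 * |c3| := by rw [abs_mul]; gcongr
  have p : 0 ≤ bu * bv := by positivity
  have a3 : |ib ^ 2 * (bu * bv)| ≤ 1 * (bu * bv) := by rw [abs_mul, abs_of_nonneg p]; gcongr
  rw [abs_le]
  constructor <;> linarith [abs_le.1 a1, abs_le.1 a2, abs_le.1 a3, abs_nonneg (pu * dv),
    abs_nonneg (du * pv), abs_nonneg c3]

end Crest.Agent.R62
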