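import Crest.Agent.R62.Api
import Crest.Agent.R62.Trace
import Crest.Agent.R62.PsiAux1

/-!
# R62/Psi: drift and variance of `t2` (TASK)

General method (notation: see `Defs`).  On the support of `ω` (`ω u v ≠ 0`) we have `u ≠ v` (`Wt.ne`),
`|c| ≤ ϑ`, `|δ_u δ_v| ≤ ϑ` (`Adm`), so the exact formulas of `Trace` and `Reg.kap_bd` apply:
`K12 = 1/b + O(14 e)`, `κ = 1/b² + O(6 e)`, `E e² ≤ 16/r` (`Reg.av_e`), `E (ω-1)² ≤ Ξ²/r` (`Wt.av_sq`).
Write the increment as `main + rem` where `main` is a polynomial in entries of powers of `B` (defined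
for all pairs); `E_ω main = E main + E[(ω-1) main]` (`Ea_eq`), `E main` is computed exactly with
`av_prod, av_row, av_col` (row sums of `B^j` are `b^j`), everything else is bounded with Cauchy-Schwarz
(`av_cs`, `abs_av_cs`), `Wt.abs_Ea_le`, `Wt.Ea_le_two`, using the L² norms (over pairs, `r = t^8`)
`‖δ_u‖² = D/r ≤ Λ/r`, `‖β_u‖² = W/r ≤ Λ`, `‖b_j(u)‖² ≤ ν^(2j-4) Λ` (`word_diag_le`),
`‖c‖² ≤ 4/r`, `‖c_j‖ ≤ ν^j / r` for `j ≥ 2` (`av_sq_eq_fro`, `fro_mul_left`), `‖f(u) g(v)‖ = ‖f‖ ‖g‖`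
(`av_prod`), and the pointwise bounds `δ² ≤ Λ`, `δ_u² ≤ β_u`, `β² ≤ Λ r`, `c_2² ≤ β_u β_v`, `|b| ≤ 2`,
`1 ≤ Λ ≤ ν ≤ t^4`, `Λ ≤ ϑ t`.  The constant `CC = 10^12` is very generous: be crude.
Advice: split into many small lemmas (one per monomial type); avoid big `nlinarith` calls, use
`abs_mul, mul_le_mul, gcongr, positivity`.

`Δ t2 = 2 tr H1 + tr H0²`, `tr H1 = K11 (b_3(u) - b c_2) + K22 (b_3(v) - b c_2) + K12 (2 c_3 - b (β_u + β_v))`,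
`tr H0² = x_u² + x_v² + 2 y_u y_v` with `x_u = H0 0 0 = K11 (β_u - b c) + K12 (c_2 - b δ_u)`, `x_v = H0 1 1`,
`y_v = H0 0 1 = K12 (β_v - b c) + K11 (c_2 - b δ_v)`, `y_u = H0 1 0`.
`main = 2 (δ_v b_3(u) + δ_u b_3(v))/b² + 4 c_3 / b - 2 β_u - 2 β_v + 2 β_u β_v / b²`,
`E main = 4 T1 T3/(b² r²) + 4 b²/r - 4 o + 2 o²/b²`.
L² norms: `‖δ_v b_3(u)‖ ≤ ν Λ/t^4 ≤ Λ`, `‖c_3‖ ≤ ν³/r`, `‖β_u β_v‖ ≤ Λ`; `E|δ_v c_2| ≤ Λ ν²/t^12`;
`E x_u² ≤ C (ν^4/r² + Λ²/r)`;  `y_v = β_v / b + ỹ_v` with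
`|ỹ_v| ≤ 14 e β_v + 3|c| + 1.1 |δ_v| (|c_2| + 2|δ_v|)`; expand `y_u y_v - β_u β_v/b²` and bound every
product (use `|δ_u δ_v| ≤ ϑ`, `e ≤ 2ϑ` on the support; `E |δ_v| |c_2| β_u ≤ (Λ/t^4)(ν²/r)`,
`E δ_v² β_u ≤ 4Λ/r`).  Note `ν^4/r² ≤ ν³/t^12`, `Λ ν²/t^12 ≤ ν³/t^12`, `Λ²/r ≤ Λ/t^4`.
Variance: square every term: `E x_u^4 ≤ C Λ^4` (`Σ δ^4 ≤ Λ²`, `Σ β^4 ≤ W² ≤ Λ² r²`, `c_2^4 ≤ β_u² β_v²`),
`E (y_u y_v)² ≤ C Λ³` (`|y_v| ≤ C (β_v + 1 + |δ_v| |c_2|)`; `Σ β³ ≤ Λ t^4 W`, `Σ δ² β ≤ Λ · Λ t^4`: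
better `Σ β³ ≤ √(Λ r) Λ r`, or accept `Λ^4`), `E δ_v² c_2² ≤ Λ ν^4/r² ≤ ν^6/r²`.
-/

set_option autoImplicit false
set_option linter.unusedSectionVars false
open Finset Matrix

namespace Crest.Agent.R62

variable {ι : Type} [Fintype ι] [DecidableEq ι]
variable {ω : ι → ι → ℝ} {B : Matrix ι ι ℝ} {b Λ ν t ϑ Ξ Ω ρ : ℝ}

/-- L² bound -/
structure PsiL2 (f : ι → ι → ℝ) (A : ℝ) : Prop where
  nn : 0 ≤ A
  le : av (fun u v => f u v ^ 2) ≤ A ^ 2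

theorem PsiL2.add {f g : ι → ι → ℝ} {A A' : ℝ} (hf : PsiL2 f A) (hg : PsiL2 g A') :
    PsiL2 (fun u v => f u v + g u v) (A + A') := by
  refine ⟨add_nonneg hf.nn hg.nn, ?_⟩
  have h := (abs_le.1 (abs_av_cs hf.nn hg.nn hf.le hg.le)).2
  rw [av_congr (g := fun u v => f u v ^ 2 + (2 * (f u v * g u v) + g u v ^ 2))
    fun u v => by ring, av_add, av_add, av_const_mul]
  linarith [hf.le, hg.le]

theorem PsiL2.abs {f : ι → ι → ℝ} {A : ℝ} (hf : PsiL2 f A) : PsiL2 (fun u v => |f u v|) A :=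
  ⟨hf.nn, by simpa only [sq_abs] using hf.le⟩

theorem PsiL2.const_mul {f : ι → ι → ℝ} {A c : ℝ} (hf : PsiL2 f A) (hc : 0 ≤ c) :
    PsiL2 (fun u v => c * f u v) (c * A) := by
  refine ⟨mul_nonneg hc hf.nn, ?_⟩
  simp only [mul_pow]
  rw [av_const_mul]
  exact mul_le_mul_of_nonneg_left hf.le (sq_nonneg c)

theorem PsiL2.mono {f g : ι → ι → ℝ} {A : ℝ} (hf : PsiL2 f A) (h : ∀ u v, |g u v| ≤ f u v) :
    PsiL2 g A :=
  ⟨hf.nn, (av_mono fun u v => by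
    rw [← sq_abs]; exact pow_le_pow_left₀ (abs_nonneg _) (h u v) 2).trans hf.le⟩

theorem PsiL2.swap {f : ι → ι → ℝ} {A : ℝ} (hf : PsiL2 f A) : PsiL2 (fun u v => f v u) A :=
  ⟨hf.nn, (av_swap fun u v => f u v ^ 2).trans_le hf.le⟩

theorem PsiL2.prod (h0 : 0 < rr ι) {f g : ι → ℝ} {x y A : ℝ} (hA : 0 ≤ A) (hf : ∑ u, f u ^ 2 ≤ x)
    (hg : ∑ u, g u ^ 2 ≤ y) (h : x * y ≤ A ^ 2 * rr ι ^ 2) : PsiL2 (fun u v => f u * g v) A := by
  refine ⟨hA, ?_⟩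
  simp only [mul_pow]
  rw [av_prod (fun u => f u ^ 2) fun v => g v ^ 2, div_mul_div_comm, ← sq,
    div_le_iff₀ (by positivity)]
  have h1 : 0 ≤ ∑ u, f u ^ 2 := sum_nonneg fun _ _ => sq_nonneg _
  exact (mul_le_mul hf hg (sum_nonneg fun _ _ => sq_nonneg _) (h1.trans hf)).trans h

theorem PsiL2.left (h0 : 0 < rr ι) {f : ι → ℝ} {A : ℝ} (hA : 0 ≤ A)
    (hf : ∑ u, f u ^ 2 ≤ A ^ 2 * rr ι) : PsiL2 (fun u _ => f u) A :=
  ⟨hA, by rwa [av_left h0 fun u => f u ^ 2, div_le_iff₀ h0]⟩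

/-- the first order terms -/
def psiP (B : Matrix ι ι ℝ) (u v : ι) : ℝ :=
  |(B * B * B) u u * B v v| + |B u u * (B * B * B) v v| + |(B * B * B) u v| + bet B u + bet B v +
    bet B u * bet B v

/-- the second order terms -/
def psiQ (B : Matrix ι ι ℝ) (u v : ι) : ℝ :=
  (B v v * bet B u) ^ 2 + (B u u * bet B v) ^ 2 + B u u ^ 2 + B v v ^ 2 + (B * B) u v ^ 2

/-- the main term -/
def psiM (ib : ℝ) (B : Matrix ι ι ℝ) (u v : ι) : ℝ :=
  2 * ib ^ 2 * ((B * B * B) u u * B v v + B u u * (B * B * B) v v) + 4 * ib * (B * B * B) u v -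
    2 * bet B u - 2 * bet B v + 2 * ib ^ 2 * (bet B u * bet B v)

theorem psi_r (h : Reg B b Λ ν t ϑ) : rr ι = (t ^ 4) ^ 2 := by rw [← h.t8]; ring

theorem psi_ib (h : Reg B b Λ ν t ϑ) : |1 / b| ≤ 1 := by
  rw [abs_div, abs_one]
  exact div_le_one_of_le₀ h.abs_b.1 (abs_nonneg _)

theorem psi_b0 (h : Reg B b Λ ν t ϑ) : b ≠ 0 := by
  intro e
  have := h.b1
  rw [e] at this
  norm_num at this

theorem psi_P (h : Reg B b Λ ν t ϑ) : PsiL2 (psiP B) (5 * Λ + ν ^ 3 / (t ^ 4) ^ 2) := by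
  have hL := h.L1
  have hL0 : 0 ≤ Λ := by linarith
  have hν : 0 ≤ ν := hL0.trans h.Lν
  have h0 := h.rpos
  have h3 : ∑ u, (B * B * B) u u ^ 2 ≤ ν ^ 2 * (Λ * rr ι) := by
    refine le_trans (sum_le_sum fun u _ => ?_) ((mul_sum univ (fun u => bet B u ^ 2) _).ge.trans
      (mul_le_mul_of_nonneg_left h.w (sq_nonneg ν)))
    rw [← sq_abs, ← mul_pow]
    exact pow_le_pow_left₀ (abs_nonneg _) (word_diag_le h.symm hν h.op u) 2
  have hνr : ν ^ 2 ≤ rr ι := by rw [psi_r h]; exact pow_le_pow_left₀ hν h.νt 2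
  have a1 : PsiL2 (fun u v => (B * B * B) u u * B v v) Λ :=
    PsiL2.prod h0 hL0 h3 h.d (by
      calc ν ^ 2 * (Λ * rr ι) * Λ ≤ rr ι * (Λ * rr ι) * Λ := by gcongr
        _ = Λ ^ 2 * rr ι ^ 2 := by ring)
  have a2 : PsiL2 (fun u v => B u u * (B * B * B) v v) Λ := by
    simpa only [mul_comm] using a1.swap
  have a3 : PsiL2 (fun u v => (B * B * B) u v) (ν ^ 3 / (t ^ 4) ^ 2) := by
    refine ⟨by positivity, ?_⟩
    refine (av_sq_eq_fro fun u v => (B * B * B) u v).trans_le ?_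
    rw [div_pow, ← psi_r h]
    have h1 := fro_mul_right (M := B * B) h.op
    rw [fro_sq_eq_t4 h.symm] at h1
    have h2 := mul_le_mul_of_nonneg_left h.t4 (sq_nonneg ν)
    gcongr
    calc _ ≤ ν ^ 2 * ν ^ 4 := h1.trans h2
      _ = _ := by ring
  have a4 : PsiL2 (fun u _ => bet B u) Λ :=
    PsiL2.left h0 hL0 (h.w.trans (by gcongr; nlinarith))
  have a5 : PsiL2 (fun u v => bet B u * bet B v) Λ :=
    PsiL2.prod h0 hL0 h.w h.w (le_of_eq (by ring))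
  have := ((((a1.abs.add a2.abs).add a3.abs).add a4).add a4.swap).add a5
  rw [show 5 * Λ + ν ^ 3 / (t ^ 4) ^ 2 = Λ + Λ + ν ^ 3 / (t ^ 4) ^ 2 + Λ + Λ + Λ by ring]
  exact this

theorem psi_Q1 (h : Reg B b Λ ν t ϑ) : av (psiQ B) ≤ 4 * (Λ / t ^ 4 + ν ^ 3 / (t ^ 4) ^ 3) := by
  have hL := h.L1
  have hL0 : 0 ≤ Λ := by linarith
  have hν : 0 ≤ ν := hL0.trans h.Lν
  have h0 := h.rpos
  have hr := psi_r h
  have hνs := h.νt
  have hLs := h.Lν.trans hνs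
  generalize t ^ 4 = s at hr hνs hLs ⊢
  have hs : 0 < s := by linarith
  have a1 : av (fun u v => (B v v * bet B u) ^ 2) ≤ Λ / s := by
    have : PsiL2 (fun u v => bet B u * B v v) (Λ / s) :=
      PsiL2.prod h0 (by positivity) h.w h.d (le_of_eq (by rw [hr]; field_simp))
    refine (av_congr fun u v => by rw [mul_comm]).trans_le (this.le.trans ?_)
    exact pow_le_of_le_one (by positivity) (div_le_one_of_le₀ hLs hs.le) two_ne_zero
  have a2 : av (fun u v => (B u u * bet B v) ^ 2) ≤ Λ / s :=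
    (av_swap fun u v => (B v v * bet B u) ^ 2).trans_le a1
  have a3 : av (fun u (_ : ι) => B u u ^ 2) ≤ Λ / s := by
    rw [av_left h0 fun u => B u u ^ 2, hr]
    exact div_le_div₀ hL0 h.d hs (by nlinarith)
  have a4 : av (fun (_ : ι) v => B v v ^ 2) ≤ Λ / s :=
    (av_swap fun u (_ : ι) => B u u ^ 2).trans_le a3
  have a5 : av (fun u v => (B * B) u v ^ 2) ≤ ν ^ 3 / s ^ 3 := by
    refine (av_sq_eq_fro fun u v => (B * B) u v).trans_le ?_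
    rw [hr]
    have h1 : fro (B * B) ≤ ν ^ 4 := (fro_sq_eq_t4 h.symm).trans_le h.t4
    calc _ ≤ ν ^ 4 / (s ^ 2) ^ 2 := div_le_div_of_nonneg_right h1 (by positivity)
      _ = ν ^ 3 / s ^ 3 * (ν / s) := by field_simp
      _ ≤ _ := mul_le_of_le_one_right (by positivity) (div_le_one_of_le₀ hνs hs.le)
  unfold psiQ
  rw [av_add, av_add, av_add, av_add]
  have : 0 ≤ ν ^ 3 / s ^ 3 := by positivity
  linarith

theorem psi_Q2 (h : Reg B b Λ ν t ϑ) : PsiL2 (fun u v => psiQ B u v + 1) (6 * Λ ^ 2) := by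
  have hL := h.L1
  have hL0 : 0 ≤ Λ := by linarith
  have h0 := h.rpos
  have hLL : Λ ≤ Λ ^ 2 := by nlinarith
  have key : ∀ (f : ι → ℝ) (x : ℝ), ∑ u, f u ^ 2 ≤ x → ∑ u, (f u ^ 2) ^ 2 ≤ x ^ 2 := fun f x hx =>
    (sum_sq_le_sq_sum_of_nonneg fun _ _ => sq_nonneg _).trans
      (pow_le_pow_left₀ (sum_nonneg fun _ _ => sq_nonneg _) hx 2)
  have a1 : PsiL2 (fun u v => (B u u * bet B v) ^ 2) (Λ ^ 2) := by
    simp only [mul_pow]
    exact PsiL2.prod h0 (by positivity) (key _ _ h.d) (key _ _ h.w) (le_of_eq (by ring))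
  have ac : ∀ x : ℝ, 0 ≤ x → PsiL2 (fun _ _ : ι => x) x := fun x hx => ⟨hx, (av_const h0 _).le⟩
  have a3 : PsiL2 (fun u (_ : ι) => B u u ^ 2) (Λ ^ 2) :=
    (ac _ (sq_nonneg Λ)).mono fun u _ => by
      rw [abs_of_nonneg (sq_nonneg _)]; exact (h.ent u u).trans hLL
  have a5 : PsiL2 (fun u v => (B * B) u v ^ 2) (Λ ^ 2) :=
    (PsiL2.prod h0 (A := Λ ^ 2) (by positivity) h.w h.w (by
      calc Λ * rr ι * (Λ * rr ι) = Λ ^ 2 * rr ι ^ 2 := by ring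
        _ ≤ _ := by gcongr)).mono fun u v => by
      rw [abs_of_nonneg (sq_nonneg _)]; exact mul_sq_le h.symm h.symm u v
  have a6 : PsiL2 (fun _ _ : ι => (1 : ℝ)) (Λ ^ 2) :=
    (ac _ (sq_nonneg Λ)).mono fun _ _ => by rw [abs_one]; linarith
  have := ((((a1.swap.add a1).add a3).add a3.swap).add a5).add a6
  rw [show 6 * Λ ^ 2 = Λ ^ 2 + Λ ^ 2 + Λ ^ 2 + Λ ^ 2 + Λ ^ 2 + Λ ^ 2 by ring]
  exact this

theorem psi_M_le (h : Reg B b Λ ν t ϑ) (u v : ι) : |psiM (1 / b) B u v| ≤ 4 * psiP B u v :=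
  psi_main_le (psi_ib h) (bet_nonneg h.symm u) (bet_nonneg h.symm v)

theorem psi_av_M (h : Reg B b Λ ν t ϑ) : av (psiM (1 / b) B) =
    (-4 * (t2 B / rr ι) + 2 * (t2 B / rr ι) ^ 2 / b ^ 2 + 4 * t1 B * t3 B / (b ^ 2 * rr ι ^ 2)) +
      4 * b ^ 2 / rr ι := by
  have h0 := h.rpos
  have hb := psi_b0 h
  have a1 : av (fun u v => (B * B * B) u v) = b * b * b / rr ι := by
    have := av_row (row_mul (row_mul h.row h.row) h.row) fun _ => 1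
    simp only [one_mul, sum_const, card_univ, nsmul_eq_mul, mul_one] at this
    rw [this]
    change _ * rr ι / _ = _
    field_simp
  unfold psiM
  rw [av_add, av_sub, av_sub, av_add, av_const_mul, av_const_mul _ fun u v => (B * B * B) u v,
    av_const_mul, av_const_mul, av_const_mul, av_add, av_prod (fun u => (B * B * B) u u) fun v => B v v,
    av_prod (fun u => B u u) fun v => (B * B * B) v v, a1, av_left h0, av_right h0, av_prod,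
    sum_bet]
  change 2 * (1 / b) ^ 2 * (t3 B / _ * (t1 B / _) + t1 B / _ * (t3 B / _)) + _ - _ - _ + _ = _
  field_simp
  ring

theorem psi_diff (h : Reg B b Λ ν t ϑ) (hw : Wt ω ϑ Ξ Ω t) (ha : Adm ω B ϑ ρ) {u v : ι}
    (huv : ω u v ≠ 0) : |B u v| + |B u u * B v v| ≤ 1 ∧
    |t2 (upd b B u v) - t2 B - psiM (1 / b) B u v| ≤
      300 * ((|B u v| + |B u u * B v v|) * psiP B u v +
        (psiQ B u v + (|B u v| + |B u u * B v v|) ^ 2)) := by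
  obtain ⟨hc, hd, -⟩ := ha u v huv
  obtain ⟨k0, k1, k2, k3, k4, k5, -⟩ := h.kap_bd hc hd
  have hth := h.th1
  have hb1 := h.b1
  refine ⟨by linarith, ?_⟩
  have s1 : B v u = B u v := h.symm.apply u v
  have s2 : (B * B) v u = (B * B) u v := by
    have := (h.symm.pow 2).apply u v
    rwa [sq] at this
  have s3 : (B * B * B) v u = (B * B * B) u v := by
    have := (h.symm.pow 3).apply u v
    rwa [pow_succ, sq] at this
  have := psi_pt (b := b) (ib := 1 / b) (κ := kap b B u v) (K := kap b B u v * (b - B u v))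
    (du := B u u) (dv := B v v) (c := B u v) (bu := bet B u) (bv := bet B v) (c2 := (B * B) u v)
    (c3 := (B * B * B) u v) (pu := (B * B * B) u u) (pv := (B * B * B) v v)
    (e := |B u v| + |B u u * B v v|) h.abs_b.2 (psi_ib h) (mul_one_div_cancel (psi_b0 h))
    (le_add_of_nonneg_right (abs_nonneg _)) (le_add_of_nonneg_left (abs_nonneg _)) (by linarith)
    ((abs_of_pos k1).trans_le k2) (by rwa [_root_.one_div_pow]) k5 k4 (sq_le_bet h.symm u u)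
    (sq_le_bet h.symm v v)
  refine le_trans (le_of_eq ?_) this
  rw [t2_upd h.symm (hw.ne huv) (by linarith)]
  simp only [Matrix.trace_fin_two, Matrix.mul_apply (M := Hm b B 1 B u v), Fin.sum_univ_two,
    Hm_00, Hm_01, Hm_10, Hm_11, Matrix.mul_one, Matrix.one_mul, s1, s2, s3, psiM, bet]
  congr 1
  ring

theorem drift_t2 (h : Reg B b Λ ν t ϑ) (hw : Wt ω ϑ Ξ Ω t) (ha : Adm ω B ϑ ρ) :
    |Ea ω (fun u v => t2 (upd b B u v) - t2 B) -
      (-4 * (t2 B / rr ι) + 2 * (t2 B / rr ι) ^ 2 / b ^ 2 +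
        4 * t1 B * t3 B / (b ^ 2 * rr ι ^ 2))| ≤
    CC * Ξ * (Λ / t ^ 4 + ν ^ 3 / t ^ 12) := by
  have hL := h.L1
  have hL0 : 0 ≤ Λ := by linarith
  have hν : 0 ≤ ν := hL0.trans h.Lν
  have hΞ := hw.Xi1
  have hP := psi_P h
  have hQ := psi_Q1 h
  have he := h.av_e
  have hω := hw.av_sq h.t0 h.t8
  have hr := psi_r h
  have hLs := h.Lν.trans h.νt
  rw [show t ^ 12 = (t ^ 4) ^ 3 by ring]
  generalize t ^ 4 = s at hP hQ he hω hr hLs ⊢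
  have hs : 0 < s := by linarith
  have hP0 : ∀ u v, 0 ≤ psiP B u v := fun u v => by
    linarith [psi_M_le h u v, abs_nonneg (psiM (1 / b) B u v)]
  have e1 : Ea ω (fun u v => t2 (upd b B u v) - t2 B) =
      Ea ω (fun u v => t2 (upd b B u v) - t2 B - psiM (1 / b) B u v) + (av (psiM (1 / b) B) +
        av fun u v => (ω u v - 1) * psiM (1 / b) B u v) := by
    rw [← Ea_eq, Ea_sub ω _ (psiM (1 / b) B), sub_add_cancel]
  have a1 := abs_av_cs (by positivity) (hP.const_mul (c := 4) (by norm_num)).nn hω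
    ((hP.const_mul (c := 4) (by norm_num)).mono (psi_M_le h)).le
  have a2 := (hw.abs_Ea_le fun u v huv => (psi_diff h hw ha huv).2).trans
    (hw.Ea_le_two (h.th1.trans (by norm_num)) fun u v => by
      have := hP0 u v
      unfold psiQ
      positivity)
  rw [av_const_mul, av_add, av_add] at a2
  have a3 := (abs_le.1 (abs_av_cs (by positivity) hP.nn he hP.le)).2
  have x1 : 0 ≤ Λ / s := by positivity
  have x2 : 0 ≤ ν ^ 3 / s ^ 3 := by positivity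
  have b1 : 1 / s ^ 2 ≤ Λ / s := div_le_div₀ hL0 hL hs (by nlinarith)
  have b2 : (4 / s) ^ 2 = 16 * (1 / s ^ 2) := by ring
  have b3 : 4 / s * (5 * Λ + ν ^ 3 / s ^ 2) = 20 * (Λ / s) + 4 * (ν ^ 3 / s ^ 3) := by
    field_simp; ring
  have b4 : Ξ / s * (4 * (5 * Λ + ν ^ 3 / s ^ 2)) = Ξ * (20 * (Λ / s) + 4 * (ν ^ 3 / s ^ 3)) := by
    field_simp; ring
  have b5 : 4 * b ^ 2 / rr ι ≤ 16 * (1 / s ^ 2) := by
    rw [hr, mul_one_div]
    exact div_le_div_of_nonneg_right (by linarith [h.b4]) (by positivity)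
  have b6 : 0 ≤ 4 * b ^ 2 / rr ι := by rw [hr]; positivity
  have b7 : Λ / s ≤ Ξ * (Λ / s) := le_mul_of_one_le_left x1 hΞ
  have b8 : ν ^ 3 / s ^ 3 ≤ Ξ * (ν ^ 3 / s ^ 3) := le_mul_of_one_le_left x2 hΞ
  rw [e1, psi_av_M h, CC, abs_le]
  constructor <;> linarith [abs_le.1 a1, abs_le.1 a2]

theorem var_t2 (h : Reg B b Λ ν t ϑ) (hw : Wt ω ϑ Ξ Ω t) (ha : Adm ω B ϑ ρ) :
    Ea ω (fun u v => (t2 (upd b B u v) - t2 B) ^ 2) ≤ CC * (ν ^ 6 / t ^ 16 + Λ ^ 4) := by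
  have hL := h.L1
  have hL0 : 0 ≤ Λ := by linarith
  have hν : 0 ≤ ν := hL0.trans h.Lν
  have hP := psi_P h
  have hP0 : ∀ u v, 0 ≤ psiP B u v := fun u v => by
    linarith [psi_M_le h u v, abs_nonneg (psiM (1 / b) B u v)]
  have a1 := (hP.const_mul (c := 304) (by norm_num)).add
    ((psi_Q2 h).const_mul (c := 300) (by norm_num))
  have a2 : Ea ω (fun u v => (t2 (upd b B u v) - t2 B) ^ 2) ≤
      Ea ω fun u v => (304 * psiP B u v + 300 * (psiQ B u v + 1)) ^ 2 := by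
    refine hw.Ea_mono fun u v huv => ?_
    obtain ⟨h1, h2⟩ := psi_diff h hw ha huv
    rw [← sq_abs]
    refine pow_le_pow_left₀ (abs_nonneg _) ?_ 2
    have h3 := mul_le_of_le_one_left (hP0 u v) h1
    have h4 := pow_le_one₀ (n := 2) (by positivity) h1
    rw [abs_le]
    constructor <;> linarith [abs_le.1 h2, abs_le.1 (psi_M_le h u v)]
  have a3 := a2.trans ((hw.Ea_le_two (h.th1.trans (by norm_num)) fun u v => sq_nonneg _).trans
    (mul_le_mul_of_nonneg_left a1.le zero_le_two))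
  refine a3.trans ?_
  have e : ν ^ 6 / t ^ 16 = (ν ^ 3 / (t ^ 4) ^ 2) ^ 2 := by ring
  have x : 0 ≤ ν ^ 3 / (t ^ 4) ^ 2 := by positivity
  rw [e, CC]
  generalize ν ^ 3 / (t ^ 4) ^ 2 = y at x ⊢
  have hLL : Λ ≤ Λ ^ 2 := by nlinarith
  have b1 : (304 * (5 * Λ + y) + 300 * (6 * Λ ^ 2)) ^ 2 ≤ (3400 * (Λ ^ 2 + y)) ^ 2 :=
    pow_le_pow_left₀ (by positivity) (by linarith) 2
  nlinarith [sq_nonneg (Λ ^ 2 - y), sq_nonneg y, sq_nonneg (Λ ^ 2)]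

end Crest.Agent.R62
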