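import Crest.Agent.R62.QQAux1

/-!
# R62/QQAux2: the error term of the drift of `q4` and its average
-/

set_option autoImplicit false
set_option linter.unusedSectionVars false
open Finset Matrix

namespace Crest.Agent.R62

variable {ι : Type} [Fintype ι] [DecidableEq ι]
variable {ω : ι → ι → ℝ} {B : Matrix ι ι ℝ} {b Λ ν t ϑ Ξ Ω ρ : ℝ}

/-- half of the error term -/
noncomputable def qE (B : Matrix ι ι ℝ) (Λ t ϑ : ℝ) (u v : ι) : ℝ :=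
  B u u ^ 4 + B u v ^ 4 + 5 * (qN B u * |B v v|) + 24 * ϑ * qq B u + 16 * Λ * qP B u v +
    500 * qR B u v + 4000000 * Λ ^ 3 * (bet B u ^ 2 * B v v ^ 2) + 150 * (Λ ^ 2 * t ^ 4) * qT B u v

theorem qE_nonneg (h : Reg B b Λ ν t ϑ) (u v : ι) : 0 ≤ qE B Λ t ϑ u v := by
  have h1 := qq_nonneg (B := B) u
  have h2 := qN_nonneg (B := B) u
  have h3 := qP_nonneg (B := B) u v
  have h4 := qR_nonneg (B := B) u v
  have h5 := qT_nonneg (B := B) u v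
  have h6 := h.th0
  have h7 : 0 ≤ Λ := by linarith [h.L1]
  unfold qE
  positivity

/-- the terms carrying `K11` -/
theorem qq_pterm (h : Reg B b Λ ν t ϑ) {κ : ℝ} (h0 : 0 < κ) (h1 : κ ≤ 11 / 10) (u v : ι) :
    4 * (κ * B v v * qM B u u) + 344 * ((κ * B v v) ^ 2 * qR B u u) +
      2400000 * ((κ * B v v) ^ 4 * qq B u ^ 2) ≤
    5 * (qN B u * |B v v|) + 4000000 * Λ ^ 3 * (bet B u ^ 2 * B v v ^ 2) := by
  have hL := h.L1
  have hL0 : 0 ≤ Λ := by linarith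
  have a1 : κ * B v v * qM B u u ≤ 11 / 10 * (qN B u * |B v v|) := by
    calc κ * B v v * qM B u u ≤ |κ * B v v * qM B u u| := le_abs_self _
      _ = κ * (|qM B u u| * |B v v|) := by rw [abs_mul, abs_mul, abs_of_pos h0]; ring
      _ ≤ 11 / 10 * (qN B u * |B v v|) := by
        have := qM_diag h.symm u
        gcongr
  have hk2 : κ ^ 2 ≤ (11 / 10) ^ 2 := by gcongr
  have hk4 : κ ^ 4 ≤ (11 / 10) ^ 4 := by gcongr
  have hX : 0 ≤ bet B u ^ 2 * B v v ^ 2 := by positivity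
  have hL3 : Λ ≤ Λ ^ 3 := le_self_pow₀ hL (by norm_num)
  have a2 : (κ * B v v) ^ 2 * qR B u u ≤ (11 / 10) ^ 2 * (Λ ^ 3 * (bet B u ^ 2 * B v v ^ 2)) := by
    have := qR_diag h.symm h.ent u
    have := qR_nonneg (B := B) u u
    calc (κ * B v v) ^ 2 * qR B u u = κ ^ 2 * (B v v ^ 2 * qR B u u) := by ring
      _ ≤ (11 / 10) ^ 2 * (B v v ^ 2 * (Λ * bet B u ^ 2)) := by gcongr
      _ = (11 / 10) ^ 2 * (Λ * (bet B u ^ 2 * B v v ^ 2)) := by ring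
      _ ≤ _ := by gcongr
  have a3 : (κ * B v v) ^ 4 * qq B u ^ 2 ≤ (11 / 10) ^ 4 * (Λ ^ 3 * (bet B u ^ 2 * B v v ^ 2)) := by
    have := qq_le h.symm h.ent u
    have := qq_nonneg (B := B) u
    have := h.ent v v
    calc (κ * B v v) ^ 4 * qq B u ^ 2 = κ ^ 4 * (B v v ^ 2 * B v v ^ 2 * qq B u ^ 2) := by ring
      _ ≤ (11 / 10) ^ 4 * (Λ * B v v ^ 2 * (Λ * bet B u) ^ 2) := by gcongr
      _ = _ := by ring
  have p1 : 0 ≤ qN B u * |B v v| := mul_nonneg (qN_nonneg u) (abs_nonneg _)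
  have p2 : 0 ≤ Λ ^ 3 * (bet B u ^ 2 * B v v ^ 2) := by positivity
  have e : 4000000 * Λ ^ 3 * (bet B u ^ 2 * B v v ^ 2) =
      4000000 * (Λ ^ 3 * (bet B u ^ 2 * B v v ^ 2)) := by ring
  rw [e]
  linarith

theorem qq_z1 {κ a c d e ϑ : ℝ} (h0 : 0 < κ) (h1 : κ ≤ 11 / 10) (ha : |a| ≤ 11 / 10) (hc : |c| ≤ ϑ)
    (hd : |d * e| ≤ ϑ) : |a * c + κ * d * e| ≤ 3 * ϑ := by
  have hϑ : 0 ≤ ϑ := (abs_nonneg _).trans hc
  have a1 : |a * c| ≤ 11 / 10 * ϑ := by rw [abs_mul]; gcongr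
  have a2 : |κ * d * e| ≤ 11 / 10 * ϑ := by rw [mul_assoc, abs_mul, abs_of_pos h0]; gcongr
  have := abs_add_le (a * c) (κ * d * e)
  linarith

theorem qq_z2 {κ a c d ϑ : ℝ} (h0 : 0 < κ) (h1 : κ ≤ 11 / 10) (ha : |a| ≤ 11 / 10) (hc : |c| ≤ ϑ)
    (hϑ : ϑ ≤ 1 / 1000) : |a * d + κ * d * c| ≤ 2 * |d| := by
  have hc' : |c| ≤ 1 / 1000 := hc.trans hϑ
  have a1 : |a * d| ≤ 11 / 10 * |d| := by rw [abs_mul]; gcongr
  have a2 : |κ * d * c| ≤ 11 / 10 * |d| * (1 / 1000) := by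
    rw [abs_mul, abs_mul, abs_of_pos h0]; gcongr
  have := abs_add_le (a * d) (κ * d * c)
  have := abs_nonneg d
  linarith

theorem qq_a4 {a b ϑ : ℝ} (hb : 1 ≤ b ^ 2) (h : |a ^ 2 * b ^ 2 - 1| ≤ 120 * ϑ) (hϑ : ϑ ≤ 1 / 1000) :
    232 / 100 * a ^ 4 ≤ 292 / 100 / b ^ 4 := by
  have hb4 : 0 < b ^ 4 := by nlinarith
  rw [le_div_iff₀ hb4]
  have h1 : a ^ 2 * b ^ 2 ≤ 112 / 100 := by linarith [(abs_le.1 h).2]
  have h2 : (a ^ 2 * b ^ 2) ^ 2 ≤ (112 / 100) ^ 2 := by gcongr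
  nlinarith

/-- the pointwise bound on admissible pairs -/
theorem qq_point (h : Reg B b Λ ν t ϑ) {u v : ι} (huv : u ≠ v) (hc : |B u v| ≤ ϑ)
    (hd : |B u u * B v v| ≤ ϑ) :
    q4 (upd b B u v) ≤ q4 B - 2 * qq B u - 2 * qq B v +
      8 * (kap b B u v * (b - B u v) * qM B u v) + 292 / 100 / b ^ 4 * (qq B u * qq B v) +
      (qE B Λ t ϑ u v + qE B Λ t ϑ v u) := by
  obtain ⟨-, k0, k1, -, -, ka, -, kb⟩ := h.kap_bd hc hd
  have hL0 : 0 ≤ Λ := by linarith [h.L1]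
  have hs := h.symm
  have raw := qq_raw hs b huv rfl rfl rfl
  rw [qq_lin hs, qH_sum] at raw
  generalize kap b B u v * (b - B u v) = a at *
  generalize kap b B u v = κ at *
  have r1 : ∑ l, |B u l ^ 3 * qj B a (κ * B v v) (κ * B u u) u v u l| ≤
      3 * ϑ * qq B u + 2 * Λ * qP B u v := by
    refine qq_row hs h.ent ?_ ?_
    · exact qq_z1 k0 k1 ka hc (by rw [mul_comm]; exact hd)
    · exact qq_z2 k0 k1 ka hc h.th1
  have r2 : ∑ l, |B v l ^ 3 * qj B a (κ * B v v) (κ * B u u) u v v l| ≤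
      3 * ϑ * qq B v + 2 * Λ * qP B v u := by
    simp only [qj_swap a (κ * B v v)]
    refine qq_row hs h.ent ?_ ?_
    · rw [hs.apply u v]
      exact qq_z1 k0 k1 ka hc hd
    · rw [hs.apply u v]
      exact qq_z2 k0 k1 ka hc h.th1
  have r3 := qq_pterm h k0 k1 u v
  have r4 := qq_pterm h k0 k1 v u
  have ha2 : a ^ 2 ≤ (11 / 10) ^ 2 := by rw [← sq_abs]; gcongr
  have ha4 : a ^ 4 ≤ (11 / 10) ^ 4 := by
    have : a ^ 4 = (a ^ 2) ^ 2 := by ring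
    rw [this]
    calc (a ^ 2) ^ 2 ≤ ((11 / 10) ^ 2) ^ 2 := by gcongr
      _ = _ := by norm_num
  have r5 := mul_le_mul_of_nonneg_right ha2 (qR_nonneg (B := B) u v)
  have r6 := mul_le_mul_of_nonneg_right ha2 (qR_nonneg (B := B) v u)
  have r7 := mul_le_mul_of_nonneg_right (qq_a4 h.b1 kb h.th1)
    (mul_nonneg (qq_nonneg (B := B) u) (qq_nonneg (B := B) v))
  have hT0 := qT_nonneg (B := B) u v
  have hT : qT B u v ≤ Λ ^ 2 * t ^ 4 := by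
    calc qT B u v ≤ Λ * bet B u := qT_le hs h.ent u v
      _ ≤ Λ * (Λ * t ^ 4) := by have := h.bet_le u; gcongr
      _ = _ := by ring
  have r8 : a ^ 4 * qT B u v ^ 2 ≤ (11 / 10) ^ 4 * (Λ ^ 2 * t ^ 4 * qT B u v) := by
    rw [sq (qT B u v)]
    gcongr
  have e1 : qT B v u = qT B u v := Finset.sum_congr rfl fun k _ => mul_comm _ _
  have p1 := qR_nonneg (B := B) u v
  have p2 := qR_nonneg (B := B) v u
  have p3 : 0 ≤ Λ ^ 2 * t ^ 4 * qT B u v := by positivity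
  unfold qE
  rw [e1, hs.apply u v]
  generalize 292 / 100 / b ^ 4 = z at *
  linarith

/-! ### averages -/

theorem qq_div (h : Reg B b Λ ν t ϑ) {X C : ℝ} (hX : X ≤ C * t ^ 14) : X / rr ι ^ 2 ≤ C / t ^ 2 := by
  have ht := h.t0
  rw [← h.t8, div_le_div_iff₀ (by positivity) (by positivity)]
  calc X * t ^ 2 ≤ C * t ^ 14 * t ^ 2 := by gcongr
    _ = _ := by ring

theorem qq_tpow (h : Reg B b Λ ν t ϑ) {m n : ℕ} (hmn : m ≤ n) : t ^ m ≤ t ^ n :=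
  pow_le_pow_right₀ (by linarith [h.t1000]) hmn

theorem qq_Lpow (h : Reg B b Λ ν t ϑ) {m n : ℕ} (hmn : m ≤ n) : Λ ^ m ≤ Λ ^ n :=
  pow_le_pow_right₀ h.L1 hmn

theorem qq_w (h : Reg B b Λ ν t ϑ) : ww B ≤ Λ * t ^ 8 := by rw [h.t8]; exact h.w

theorem qq_q (h : Reg B b Λ ν t ϑ) : q4 B ≤ 16 * t ^ 8 := by rw [h.t8]; exact h.q

theorem qq_sum_one (h : Reg B b Λ ν t ϑ) (c : ℝ) : ∑ _k : ι, c = c * t ^ 8 := by
  rw [h.t8]; simp [rr, mul_comm]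

/-- `Σ |B_kl|³ β_k ≤ 9 Λ² t^10` -/
theorem qq_cube (h : Reg B b Λ ν t ϑ) : ∑ k, ∑ l, |B k l| ^ 3 * bet B k ≤ 9 * Λ ^ 2 * t ^ 10 := by
  have ht := h.t0
  have hL := h.L1
  have hL0 : 0 ≤ Λ := by linarith
  have h1 : ∀ k l, 2 * t ^ 2 * (|B k l| ^ 3 * bet B k) ≤
      bet B k ^ 2 * B k l ^ 2 + t ^ 4 * B k l ^ 4 := by
    intro k l
    have e4 : B k l ^ 4 = |B k l| ^ 4 := by
      rw [show B k l ^ 4 = (B k l ^ 2) ^ 2 by ring, ← sq_abs (B k l)]; ring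
    rw [e4, ← sq_abs (B k l)]
    nlinarith [sq_nonneg (bet B k * |B k l| - t ^ 2 * |B k l| ^ 2)]
  have h2 : ∑ k, ∑ l, 2 * t ^ 2 * (|B k l| ^ 3 * bet B k) ≤ _ :=
    Finset.sum_le_sum fun k _ => Finset.sum_le_sum fun l _ => h1 k l
  simp only [Finset.sum_add_distrib, ← Finset.mul_sum, ← bet_eq h.symm] at h2
  have h3 : ∑ k, bet B k ^ 2 * bet B k ≤ Λ * t ^ 4 * ww B := by
    unfold ww
    rw [Finset.mul_sum]
    refine Finset.sum_le_sum fun k _ => ?_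
    rw [mul_comm]
    exact mul_le_mul_of_nonneg_right (h.bet_le k) (sq_nonneg _)
  have h4 : Λ * t ^ 4 * ww B ≤ Λ * t ^ 4 * (Λ * t ^ 8) := by have := qq_w h; gcongr
  have h5 : t ^ 4 * ∑ k, ∑ l, B k l ^ 4 ≤ t ^ 4 * (16 * t ^ 8) := by
    have : ∑ k, ∑ l, B k l ^ 4 ≤ 16 * t ^ 8 := qq_q h
    gcongr
  have h6 : 1 * t ^ 12 ≤ Λ ^ 2 * t ^ 12 := by
    have : 1 ≤ Λ ^ 2 := one_le_pow₀ hL
    gcongr
  have h7 : 2 * t ^ 2 * ∑ k, ∑ l, |B k l| ^ 3 * bet B k ≤ 2 * t ^ 2 * (9 * Λ ^ 2 * t ^ 10) := by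
    have p : 0 ≤ Λ ^ 2 * t ^ 12 := by positivity
    nlinarith
  exact le_of_mul_le_mul_left h7 (by positivity)

theorem qq_av_a1 (h : Reg B b Λ ν t ϑ) : av (fun u (_ : ι) => B u u ^ 4) ≤ Λ ^ 5 / t ^ 2 := by
  have ht := h.t0
  have hL0 : 0 ≤ Λ := by linarith [h.L1]
  rw [av_left h.rpos, ← h.t8]
  have h1 : ∑ u, B u u ^ 4 ≤ Λ * dd B := by
    unfold dd
    rw [Finset.mul_sum]
    refine Finset.sum_le_sum fun k _ => ?_
    have := mul_le_mul_of_nonneg_right (h.ent k k) (sq_nonneg (B k k))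
    nlinarith
  have h2 : Λ * dd B ≤ Λ * Λ := by have := h.d; gcongr
  have h3 := qq_Lpow h (show 2 ≤ 5 by norm_num)
  have h4 := qq_tpow h (show 2 ≤ 8 by norm_num)
  exact div_le_div₀ (by positivity) (by nlinarith) (by positivity) h4

theorem qq_av_a2 (h : Reg B b Λ ν t ϑ) : av (fun u v => B u v ^ 4) ≤ 16 * Λ ^ 5 / t ^ 2 := by
  have ht := h.t0
  refine qq_div h ?_
  have h1 : ∑ k, ∑ l, B k l ^ 4 ≤ 16 * t ^ 8 := qq_q h
  have h2 : (1 : ℝ) ≤ Λ ^ 5 := one_le_pow₀ h.L1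
  have h4 := qq_tpow h (show 8 ≤ 14 by norm_num)
  calc _ ≤ 16 * 1 * t ^ 8 := by linarith
    _ ≤ _ := by gcongr

theorem qq_prod_div (x y r : ℝ) : x / r * (y / r) = x * y / r ^ 2 := by
  rw [div_mul_div_comm, sq]

theorem qq_av_a3 (h : Reg B b Λ ν t ϑ) :
    av (fun u v => qN B u * |B v v|) ≤ 9 * Λ ^ 5 / t ^ 2 := by
  have ht := h.t0
  have hL := h.L1
  have hL0 : 0 ≤ Λ := by linarith
  rw [av_prod (fun u => qN B u) (fun v => |B v v|), qq_prod_div]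
  refine qq_div h ?_
  have h1 : ∑ u, qN B u ≤ 9 * Λ ^ 2 * t ^ 10 := by
    refine le_trans (le_of_eq ?_) (qq_cube h)
    unfold qN
    rw [Finset.sum_comm]
    refine Finset.sum_congr rfl fun k _ => ?_
    rw [Finset.sum_comm]
    refine Finset.sum_congr rfl fun l _ => ?_
    rw [← Finset.mul_sum, bet_eq h.symm]
  have h2 : ∑ v, |B v v| ≤ Λ * t ^ 4 := by
    have a1 : ∀ v, 2 * t ^ 4 * |B v v| ≤ t ^ 8 * B v v ^ 2 + 1 := by
      intro v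
      rw [← sq_abs (B v v)]
      nlinarith [sq_nonneg (t ^ 4 * |B v v| - 1)]
    have a2 : ∑ v, 2 * t ^ 4 * |B v v| ≤ _ := Finset.sum_le_sum fun v _ => a1 v
    rw [Finset.sum_add_distrib, ← Finset.mul_sum, ← Finset.mul_sum, qq_sum_one h] at a2
    have a3 : t ^ 8 * ∑ v, B v v ^ 2 ≤ t ^ 8 * Λ := by
      have : ∑ v, B v v ^ 2 ≤ Λ := h.d
      gcongr
    have a4 : 1 * t ^ 8 ≤ Λ * t ^ 8 := by gcongr
    have a5 : 2 * t ^ 4 * ∑ v, |B v v| ≤ 2 * t ^ 4 * (Λ * t ^ 4) := by nlinarith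
    exact le_of_mul_le_mul_left a5 (by positivity)
  have h3 := qq_Lpow h (show 3 ≤ 5 by norm_num)
  have h4 : 0 ≤ ∑ v, |B v v| := by positivity
  calc (∑ u, qN B u) * ∑ v, |B v v| ≤ 9 * Λ ^ 2 * t ^ 10 * (Λ * t ^ 4) := by gcongr
    _ = 9 * Λ ^ 3 * t ^ 14 := by ring
    _ ≤ _ := by gcongr

theorem qq_av_a5 (h : Reg B b Λ ν t ϑ) : Λ * av (qP B) ≤ 5 * Λ ^ 5 / t ^ 2 := by
  have ht := h.t0
  have hL := h.L1
  have hL0 : 0 ≤ Λ := by linarith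
  have e : av (qP B) = (∑ k, (∑ u, B k u ^ 2) * (∑ v, |B k v|)) / rr ι ^ 2 :=
    qq_av1 (fun k u => B k u ^ 2) (fun k v => |B k v|)
  rw [e, ← mul_div_assoc]
  refine qq_div h ?_
  have h1 : ∀ k, ∑ v, |B k v| ≤ t ^ 2 * bet B k + t ^ 6 := by
    intro k
    have a1 : ∀ v, t ^ 2 * |B k v| ≤ t ^ 4 * B k v ^ 2 + 1 := by
      intro v
      rw [← sq_abs (B k v)]
      have : 0 ≤ t ^ 2 * |B k v| := by positivity
      nlinarith [sq_nonneg (t ^ 2 * |B k v| - 1)]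
    have a2 : ∑ v, t ^ 2 * |B k v| ≤ _ := Finset.sum_le_sum fun v _ => a1 v
    rw [Finset.sum_add_distrib, ← Finset.mul_sum, ← Finset.mul_sum, qq_sum_one h,
      ← bet_eq h.symm] at a2
    have a5 : t ^ 2 * ∑ v, |B k v| ≤ t ^ 2 * (t ^ 2 * bet B k + t ^ 6) := by nlinarith
    exact le_of_mul_le_mul_left a5 (by positivity)
  have h2 : ∑ k, (∑ u, B k u ^ 2) * (∑ v, |B k v|) ≤ t ^ 2 * ww B + t ^ 6 * t2 B := by
    unfold ww
    rw [← sum_bet, Finset.mul_sum, Finset.mul_sum, ← Finset.sum_add_distrib]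
    refine Finset.sum_le_sum fun k _ => ?_
    rw [← bet_eq h.symm]
    have := mul_le_mul_of_nonneg_left (h1 k) (bet_nonneg h.symm k)
    nlinarith
  have h3 : t ^ 2 * ww B ≤ t ^ 2 * (Λ * t ^ 8) := by have := qq_w h; gcongr
  have h4 : t ^ 6 * t2 B ≤ t ^ 6 * (4 * t ^ 8) := by have := h.f2'; gcongr
  have h5 : Λ * t ^ 10 ≤ Λ * t ^ 14 := by have := qq_tpow h (show 10 ≤ 14 by norm_num); gcongr
  have h6 : 1 * t ^ 14 ≤ Λ * t ^ 14 := by gcongr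
  have h7 : ∑ k, (∑ u, B k u ^ 2) * (∑ v, |B k v|) ≤ 5 * Λ * t ^ 14 := by nlinarith
  have h8 := qq_Lpow h (show 2 ≤ 5 by norm_num)
  calc Λ * ∑ k, (∑ u, B k u ^ 2) * (∑ v, |B k v|) ≤ Λ * (5 * Λ * t ^ 14) := by gcongr
    _ = 5 * Λ ^ 2 * t ^ 14 := by ring
    _ ≤ _ := by gcongr

theorem qq_av_a6 (h : Reg B b Λ ν t ϑ) : av (qR B) ≤ Λ ^ 5 / t ^ 2 := by
  have ht := h.t0
  have hL := h.L1
  have hL0 : 0 ≤ Λ := by linarith
  have e : av (qR B) = (∑ k, ∑ l, B k l ^ 2 * (∑ u, B k u ^ 2) * (∑ v, B l v ^ 2)) / rr ι ^ 2 :=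
    qq_av2 (fun k l => B k l ^ 2) (fun k u => B k u ^ 2) (fun l v => B l v ^ 2)
  rw [e]
  refine qq_div h ?_
  simp only [← bet_eq h.symm]
  have h1 : ∑ k, ∑ l, B k l ^ 2 * bet B k * bet B l ≤ Λ * t ^ 4 * ww B := by
    unfold ww
    rw [Finset.mul_sum]
    refine Finset.sum_le_sum fun k _ => ?_
    calc ∑ l, B k l ^ 2 * bet B k * bet B l ≤ ∑ l, B k l ^ 2 * bet B k * (Λ * t ^ 4) := by
          refine Finset.sum_le_sum fun l _ => ?_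
          have := h.bet_le l
          have := bet_nonneg h.symm k
          gcongr
      _ = _ := by rw [← Finset.sum_mul, ← Finset.sum_mul, ← bet_eq h.symm]; ring
  have h2 := qq_w h
  have h3 := qq_Lpow h (show 2 ≤ 5 by norm_num)
  have h4 := qq_tpow h (show 12 ≤ 14 by norm_num)
  calc _ ≤ Λ * t ^ 4 * ww B := h1
    _ ≤ Λ * t ^ 4 * (Λ * t ^ 8) := by gcongr
    _ = Λ ^ 2 * t ^ 12 := by ring
    _ ≤ _ := by gcongr

theorem qq_av_a7 (h : Reg B b Λ ν t ϑ) :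
    Λ ^ 3 * av (fun u v => bet B u ^ 2 * B v v ^ 2) ≤ Λ ^ 5 / t ^ 2 := by
  have ht := h.t0
  have hL := h.L1
  have hL0 : 0 ≤ Λ := by linarith
  rw [av_prod (fun u => bet B u ^ 2) (fun v => B v v ^ 2), qq_prod_div, ← mul_div_assoc]
  refine qq_div h ?_
  have h1 : ∑ u, bet B u ^ 2 ≤ Λ * t ^ 8 := qq_w h
  have h2 : ∑ v, B v v ^ 2 ≤ Λ := h.d
  have h4 := qq_tpow h (show 8 ≤ 14 by norm_num)
  calc Λ ^ 3 * ((∑ u, bet B u ^ 2) * ∑ v, B v v ^ 2) ≤ Λ ^ 3 * (Λ * t ^ 8 * Λ) := by gcongr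
    _ = Λ ^ 5 * t ^ 8 := by ring
    _ ≤ _ := by gcongr

theorem qq_av_a8 (h : Reg B b Λ ν t ϑ) : Λ ^ 2 * t ^ 4 * av (qT B) ≤ Λ ^ 5 / t ^ 2 := by
  have ht := h.t0
  have hL := h.L1
  have hL0 : 0 ≤ Λ := by linarith
  have e : av (qT B) = (∑ k, (∑ u, B k u ^ 2) * (∑ v, B k v ^ 2)) / rr ι ^ 2 :=
    qq_av1 (fun k u => B k u ^ 2) (fun k v => B k v ^ 2)
  rw [e, ← mul_div_assoc]
  refine qq_div h ?_
  simp only [← bet_eq h.symm, ← sq]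
  have h1 : ∑ u, bet B u ^ 2 ≤ Λ * t ^ 8 := qq_w h
  have h3 := qq_Lpow h (show 3 ≤ 5 by norm_num)
  have h4 := qq_tpow h (show 12 ≤ 14 by norm_num)
  calc Λ ^ 2 * t ^ 4 * ∑ u, bet B u ^ 2 ≤ Λ ^ 2 * t ^ 4 * (Λ * t ^ 8) := by gcongr
    _ = Λ ^ 3 * t ^ 12 := by ring
    _ ≤ _ := by gcongr

theorem qq_av_q (h : Reg B b Λ ν t ϑ) : av (fun u (_ : ι) => qq B u) = q4 B / rr ι := by
  rw [av_left h.rpos, qq_sum]

theorem qq_av_E (h : Reg B b Λ ν t ϑ) :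
    av (qE B Λ t ϑ) ≤ 24 * ϑ * (q4 B / rr ι) + 5000000 * (Λ ^ 5 / t ^ 2) := by
  have e : av (qE B Λ t ϑ) = av (fun u (_ : ι) => B u u ^ 4) + av (fun u v => B u v ^ 4) +
      5 * av (fun u v => qN B u * |B v v|) + 24 * ϑ * av (fun u (_ : ι) => qq B u) +
      16 * Λ * av (qP B) + 500 * av (qR B) +
      4000000 * Λ ^ 3 * av (fun u v => bet B u ^ 2 * B v v ^ 2) +
      150 * (Λ ^ 2 * t ^ 4) * av (qT B) := by
    simp only [← av_const_mul, ← av_add]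
    rfl
  have a1 := qq_av_a1 h
  have a2 := qq_av_a2 h
  have a3 := qq_av_a3 h
  have a5 := qq_av_a5 h
  have a6 := qq_av_a6 h
  have a7 := qq_av_a7 h
  have a8 := qq_av_a8 h
  have ht := h.t0
  have hL0 : 0 ≤ Λ := by linarith [h.L1]
  have p : 0 ≤ Λ ^ 5 / t ^ 2 := by positivity
  rw [mul_div_assoc] at a2 a3 a5
  rw [e, qq_av_q h]
  linarith

end Crest.Agent.R62
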