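import Crest.Agent.R62.Api
import Crest.Agent.R62.Trace
import Crest.Agent.R62.QQAux2

/-!
# R62/QQ: one-sided drift of `q4` (TASK)

General method (notation: see `Defs`).  On the support of `ω` (`ω u v ≠ 0`) we have `u ≠ v` (`Wt.ne`),
`|c| ≤ ϑ`, `|δ_u δ_v| ≤ ϑ` (`Adm`), so the exact formulas of `Trace` and `Reg.kap_bd` apply:
`K12 = 1/b + O(14 e)`, `κ = 1/b² + O(6 e)`, `E e² ≤ 16/r` (`Reg.av_e`), `E (ω-1)² ≤ Ξ²/r` (`Wt.av_sq`).
Write the increment as `main + rem` where `main` is a polynomial in entries of powers of `B` (defined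
for all pairs); `E_ω main = E main + E[(ω-1) main]` (`Ea_eq`), `E main` is computed exactly with
`av_prod, av_row, av_col` (row sums of `B^j` are `b^j`), everything else is bounded with Cauchy-Schwarz
(`av_cs`, `abs_av_cs`), `Wt.abs_Ea_le`, `Wt.Ea_le_two`, using the L² norms (over pairs, `r = t^8`)
`‖δ_u‖² = D/r ≤ Λ/r`, `‖β_u‖² = W/r ≤ Λ`, `‖b_j(u)‖² ≤ ν^(2j-4) Λ` (`word_diag_le`),
`‖c‖² ≤ 4/r`, `‖c_j‖ ≤ ν^j / r` for `j ≥ 2` (`av_sq_eq_fro`, `fro_mul_left`), `‖f(u) g(v)‖ = ‖f‖ ‖g‖`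
(`av_prod`), and the pointwise bounds `δ² ≤ Λ`, `δ_u² ≤ β_u`, `β² ≤ Λ r`, `c_2² ≤ β_u β_v`, `|b| ≤ 2`,
`1 ≤ Λ ≤ ν ≤ t^4`, `Λ ≤ ϑ t`.  The constant `CC = 10^12` is very generous: be crude.
Advice: split into many small lemmas (one per monomial type); avoid big `nlinarith` calls, use
`abs_mul, mul_le_mul, gcongr, positivity`.

For `k, l ∉ {u, v}`: `upd k l = B_kl + j_kl`, `j = j₁ + j₂ + j₃`, `j₁ = K12 B_ku B_lv`, `j₂ = K12 B_kv B_lu`,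
`j₃ = K11 B_ku B_lu + K22 B_kv B_lv`.  `q_u = Σ_k B_ku^4`, `Σ q_u = Q4`, `q_u ≤ Λ β_u`.
`(B + j)^4 ≤ B^4 + 4 B³ j + C B² j² + 1.1 j^4`, `j^4 ≤ 1.25 (j₁^4 + j₂^4) + C j₁² j₂² + C j₃^4` (any split with total
factor `≤ 1.45`; `K12^4 ≤ (1+Cϑ)/b^4`, `ω ≤ 1 + ϑ`, `Q4/r ≤ 16`);  `E Σ j₁^4 = K12^4 (Q4/r)²`.
* removal: `Σ_{k,l ∉ {u,v}} B^4 ≤ Q4 - 2q_u - 2q_v + δ_u^4 + δ_v^4 + 2c^4`; `E δ^4 ≤ Λ²/r`, `c^4 ≤ c²`.
* `Σ_{kl} j₁² j₂² = K12^4 (Σ_k B_ku² B_kv²)²`, `Σ_k B_ku²B_kv² ≤ Λ β_u ≤ Λ² t^4`, average of it `W/r²`.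
  `Σ j₃^4 ≤ C δ_v^4 q_u² + sym`, `E ≤ (Λ²/r)(Λ² W/r)`.  `Σ_kl B_kl² B_ku² B_lv²` averages to `Σ β_k β_l B_kl²/r² ≤ Λ t^4 W/r²`;
  `δ_v² Σ_kl B_kl² B_ku² B_lu² ≤ δ_v² Λ β_u²`.
* linear term: extend the sum to all `k, l`, the added terms (`k` or `l ∈ {u,v}`) are `Σ_l B_ul³ (z₁ B_lu + z₂ B_lv)` with
  `|z₁| ≤ 4ϑ`, `|z₂| ≤ 3|δ_u|`: `≤ 4ϑ q_u + 3 Λ² Σ_l B_ul² |B_lv|` and `Σ_v |B_lv| ≤ t^4 √β_l ≤ t^4 (1 + β_l)`, so the
  average is `≤ 3Λ² t^4 Σ_l β_l (1 + β_l)/r² ≤ C Λ³/t^4` (doubly counted corner terms `k, l ∈ {u,v}` are bounded likewise).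
  Full sums, `C₃ = B∘B∘B`: `K12 Σ_kl C₃ B_ku B_lv`: mean part `b Σ C₃/r²` (`|Σ C₃| ≤ Λ F2`), fluctuation with
  `ζ = ω K12 - 1/b` (Frobenius norm `≤ (Ξ + 112) t^4`), `OpB.nuclear` over the index `(k,l)`:
  `Σ |B_kl|³ √(β_kβ_l) ≤ Σ |B_kl|³ β_k ≤ √(Σ β³) √Q4 ≤ (Λ t^6)(4 t^4)`; so `≤ C Ξ Λ/t²`.
  `K11 Σ_kl C₃ B_ku B_lu`: absolute bound `E|δ_v| · Σ_kl |B_kl|³ (β_k + β_l)/(2r) ≤ (Λ/t^4) 4 Λ t²`.
-/

set_option autoImplicit false
set_option linter.unusedSectionVars false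
open Finset Matrix

namespace Crest.Agent.R62

variable {ι : Type} [Fintype ι] [DecidableEq ι]
variable {ω : ι → ι → ℝ} {B : Matrix ι ι ℝ} {b Λ ν t ϑ Ξ Ω ρ : ℝ}

/-- Frobenius norm of `ζ = ω K12 - 1/b` -/
theorem qq_zeta (h : Reg B b Λ ν t ϑ) (hw : Wt ω ϑ Ξ Ω t) (ha : Adm ω B ϑ ρ) :
    fro (fun u v => ω u v * (kap b B u v * (b - B u v)) - 1 / b) ≤ (160 * Ξ * t ^ 4) ^ 2 := by
  have ht := h.t0
  have hb : b ≠ 0 := by
    intro h0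
    have := h.b1
    rw [h0] at this
    norm_num at this
  have hb2 : (1 / b) ^ 2 ≤ 1 := by
    rw [div_pow, one_pow]
    exact div_le_one_of_le₀ h.b1 (sq_nonneg _)
  have key : ∀ u v, (ω u v * (kap b B u v * (b - B u v)) - 1 / b) ^ 2 ≤
      2 * (ω u v - 1) ^ 2 + 1568 * (|B u v| + |B u u * B v v|) ^ 2 := by
    intro u v
    have a1 : |ω u v * (kap b B u v * (b - B u v) - 1 / b)| ≤ 28 * (|B u v| + |B u u * B v v|) := by
      by_cases h0 : ω u v = 0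
      · rw [h0, zero_mul, abs_zero]; positivity
      · obtain ⟨hc, hd, -⟩ := ha u v h0
        obtain ⟨-, -, -, -, k, -⟩ := h.kap_bd hc hd
        have h2 : ω u v ≤ 2 := by linarith [hw.le u v, h.th1]
        rw [abs_mul, abs_of_nonneg (hw.nn u v)]
        calc _ ≤ 2 * (14 * (|B u v| + |B u u * B v v|)) := by gcongr
          _ = _ := by ring
    have a2 : (ω u v * (kap b B u v * (b - B u v) - 1 / b)) ^ 2 ≤
        (28 * (|B u v| + |B u u * B v v|)) ^ 2 := by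
      rw [← sq_abs]; gcongr
    have a3 : ((ω u v - 1) * (1 / b)) ^ 2 ≤ (ω u v - 1) ^ 2 := by
      rw [mul_pow]
      exact mul_le_of_le_one_right (sq_nonneg _) hb2
    have e : ω u v * (kap b B u v * (b - B u v)) - 1 / b =
        ω u v * (kap b B u v * (b - B u v) - 1 / b) + (ω u v - 1) * (1 / b) := by ring
    rw [e]
    generalize ω u v * (kap b B u v * (b - B u v) - 1 / b) = x at *
    generalize (ω u v - 1) * (1 / b) = y at *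
    nlinarith [sq_nonneg (x - y)]
  have h1 : fro (fun u v => ω u v * (kap b B u v * (b - B u v)) - 1 / b) ≤ _ :=
    Finset.sum_le_sum fun u _ => Finset.sum_le_sum fun v _ => key u v
  simp only [Finset.sum_add_distrib, ← Finset.mul_sum] at h1
  have h2 := hw.fro
  have h3 := h.av_e
  unfold av at h3
  rw [← h.t8] at h2 h3
  rw [div_le_iff₀ (by positivity)] at h3
  have e : (4 / t ^ 4) ^ 2 * (t ^ 8) ^ 2 = 16 * t ^ 8 := by field_simp; norm_num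
  rw [e] at h3
  have h4 : 1 * t ^ 8 ≤ Ξ ^ 2 * t ^ 8 := by
    have : 1 ≤ Ξ ^ 2 := one_le_pow₀ hw.Xi1
    gcongr
  have p : 0 ≤ Ξ ^ 2 * t ^ 8 := by positivity
  have e2 : (160 * Ξ * t ^ 4) ^ 2 = 25600 * (Ξ ^ 2 * t ^ 8) := by ring
  rw [e2]
  linarith

theorem qq_mean (h : Reg B b Λ ν t ϑ) : 1 / b * av (qM B) ≤ 8 * Λ ^ 5 / t ^ 2 := by
  have ht := h.t0
  have hL := h.L1
  have hL0 : 0 ≤ Λ := by linarith
  have hb : b ≠ 0 := by
    intro h0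
    have := h.b1
    rw [h0] at this
    norm_num at this
  have e : av (qM B) = (∑ k, ∑ l, B k l ^ 3 * (∑ u, B k u) * (∑ v, B l v)) / rr ι ^ 2 :=
    qq_av2 (fun k l => B k l ^ 3) (fun k u => B k u) (fun l v => B l v)
  rw [e, ← mul_div_assoc]
  refine qq_div h ?_
  simp only [h.row, ← Finset.sum_mul]
  have e2 : 1 / b * ((∑ k, ∑ l, B k l ^ 3) * b * b) = b * ∑ k, ∑ l, B k l ^ 3 := by field_simp
  rw [e2, Finset.mul_sum]
  have h1 : ∑ k, b * ∑ l, B k l ^ 3 ≤ 2 * Λ * t2 B := by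
    rw [← sum_bet, Finset.mul_sum]
    refine Finset.sum_le_sum fun k _ => ?_
    rw [bet_eq h.symm, Finset.mul_sum, Finset.mul_sum]
    refine Finset.sum_le_sum fun l _ => ?_
    have a1 : b * B k l ≤ 2 * Λ := by
      calc b * B k l ≤ |b * B k l| := le_abs_self _
        _ = |b| * |B k l| := abs_mul _ _
        _ ≤ 2 * Λ := by
          have := h.abs_b.2
          have := h.abs_ent k l
          gcongr
    have := mul_le_mul_of_nonneg_right a1 (sq_nonneg (B k l))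
    nlinarith
  have h2 := h.f2'
  have h3 : Λ ≤ Λ ^ 5 := le_self_pow₀ hL (by norm_num)
  have h4 := qq_tpow h (show 8 ≤ 14 by norm_num)
  calc _ ≤ 2 * Λ * t2 B := h1
    _ ≤ 2 * Λ * (4 * t ^ 8) := by gcongr
    _ = 8 * Λ * t ^ 8 := by ring
    _ ≤ _ := by gcongr

theorem qq_fluct (h : Reg B b Λ ν t ϑ) {ζ : ι → ι → ℝ} (hΞ : 1 ≤ Ξ)
    (hζ : fro ζ ≤ (160 * Ξ * t ^ 4) ^ 2) :
    av (fun u v => ζ u v * qM B u v) ≤ 1440 * (Ξ * Λ ^ 5) / t ^ 2 := by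
  have ht := h.t0
  have hL := h.L1
  have hL0 : 0 ≤ Λ := by linarith
  have hΞ0 : 0 ≤ Ξ := by linarith
  have hs := h.symm
  refine qq_div h ?_
  have nu := (OpB.of_fro hζ).nuclear (by positivity) (κ := ι × ι) (fun x => B x.1 x.2 ^ 3)
    (fun x u => B x.1 u) (fun x v => B x.2 v) (fun x => 1 / 2 * bet B x.1 + 1 / 2 * bet B x.2)
    (fun x => by have := bet_nonneg hs x.1; have := bet_nonneg hs x.2; positivity)
    (fun x => by
      rw [← bet_eq hs, ← bet_eq hs]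
      nlinarith [sq_nonneg (bet B x.1 - bet B x.2)])
  simp only [Fintype.sum_prod_type] at nu
  have e1 : ∑ k, ∑ l, |B k l ^ 3| * (1 / 2 * bet B k + 1 / 2 * bet B l) =
      ∑ k, ∑ l, |B k l| ^ 3 * bet B k := by
    have a : ∑ k, ∑ l, |B k l| ^ 3 * bet B l = ∑ k, ∑ l, |B k l| ^ 3 * bet B k := by
      rw [Finset.sum_comm]
      exact Finset.sum_congr rfl fun k _ => Finset.sum_congr rfl fun l _ => by rw [hs.apply k l]
    calc _ = ∑ k, ∑ l, (1 / 2 * (|B k l| ^ 3 * bet B k) + 1 / 2 * (|B k l| ^ 3 * bet B l)) :=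
          Finset.sum_congr rfl fun k _ => Finset.sum_congr rfl fun l _ => by rw [abs_pow]; ring
      _ = _ := by
          simp only [Finset.sum_add_distrib, ← Finset.mul_sum]
          rw [a]
          simp only [← Finset.sum_mul]
          ring
  rw [e1] at nu
  have h1 := qq_cube h
  have h3 := qq_Lpow h (show 2 ≤ 5 by norm_num)
  calc ∑ u, ∑ v, ζ u v * qM B u v ≤ |∑ u, ∑ v, ζ u v * qM B u v| := le_abs_self _
    _ ≤ 160 * Ξ * t ^ 4 * ∑ k, ∑ l, |B k l| ^ 3 * bet B k := nu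
    _ ≤ 160 * Ξ * t ^ 4 * (9 * Λ ^ 2 * t ^ 10) := by gcongr
    _ = 1440 * (Ξ * Λ ^ 2) * t ^ 14 := by ring
    _ ≤ _ := by gcongr

theorem qq_linear (h : Reg B b Λ ν t ϑ) (hw : Wt ω ϑ Ξ Ω t) (ha : Adm ω B ϑ ρ) :
    Ea ω (fun u v => kap b B u v * (b - B u v) * qM B u v) ≤ 1448 * (Ξ * Λ ^ 5 / t ^ 2) := by
  have ht := h.t0
  have hL0 : 0 ≤ Λ := by linarith [h.L1]
  have e : Ea ω (fun u v => kap b B u v * (b - B u v) * qM B u v) =
      av (fun u v => (ω u v * (kap b B u v * (b - B u v)) - 1 / b) * qM B u v) +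
        1 / b * av (qM B) := by
    rw [← av_const_mul, ← av_add]
    exact av_congr fun u v => by ring
  have h1 := qq_fluct h hw.Xi1 (qq_zeta h hw ha)
  have h2 := qq_mean h
  have h3 : 1 * Λ ^ 5 / t ^ 2 ≤ Ξ * Λ ^ 5 / t ^ 2 := by have := hw.Xi1; gcongr
  rw [one_mul] at h3
  rw [mul_div_assoc] at h1 h2
  rw [e]
  linarith

theorem drift_q4 (h : Reg B b Λ ν t ϑ) (hw : Wt ω ϑ Ξ Ω t) (ha : Adm ω B ϑ ρ) :
    Ea ω (fun u v => q4 (upd b B u v)) ≤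
      q4 B - (4 - 3 * (q4 B / rr ι) / b ^ 4) * (q4 B / rr ι) + CC * ϑ * (q4 B / rr ι) +
      CC * Ξ * Λ ^ 5 / t ^ 2 := by
  have ht := h.t0
  have hL0 : 0 ≤ Λ := by linarith [h.L1]
  have hϑ := h.th0
  have hϑ1 := h.th1
  have h1 := hw.Ea_mono (f := fun u v => q4 (upd b B u v)) fun u v h0 =>
    qq_point h (hw.ne h0) (ha u v h0).1 (ha u v h0).2.1
  simp only [Ea_add, Ea_sub, Ea_const_mul, hw.Ea_const h.rpos] at h1
  have h2 := hw.le_Ea_left (qq_nonneg (B := B))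
  have h3 := hw.le_Ea_right (qq_nonneg (B := B))
  rw [qq_sum] at h2 h3
  have h4 := qq_linear h hw ha
  have h5 := hw.Ea_le (f := fun u v => qq B u * qq B v)
    fun u v => mul_nonneg (qq_nonneg u) (qq_nonneg v)
  rw [av_prod, qq_sum] at h5
  have h6 := hw.Ea_le_two (by linarith) (qE_nonneg h)
  have h7 := hw.Ea_swap (qE B Λ t ϑ)
  have h8 := qq_av_E h
  have h9 : 1 * Λ ^ 5 / t ^ 2 ≤ Ξ * Λ ^ 5 / t ^ 2 := by have := hw.Xi1; gcongr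
  rw [one_mul] at h9
  have hb4 : 0 < b ^ 4 := by nlinarith [h.b1]
  have hθ : 0 ≤ q4 B / rr ι := by
    refine div_nonneg ?_ rr_nonneg
    unfold q4
    positivity
  have h10 : 292 / 100 / b ^ 4 * Ea ω (fun u v => qq B u * qq B v) ≤
      3 * (q4 B / rr ι) / b ^ 4 * (q4 B / rr ι) := by
    calc _ ≤ 292 / 100 / b ^ 4 * ((1 + ϑ) * (q4 B / rr ι * (q4 B / rr ι))) := by gcongr
      _ = (292 / 100 * (1 + ϑ)) * (q4 B / rr ι) / b ^ 4 * (q4 B / rr ι) := by ring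
      _ ≤ _ := by gcongr; linarith
  have p1 : 0 ≤ ϑ * (q4 B / rr ι) := by positivity
  have p2 : 0 ≤ Λ ^ 5 / t ^ 2 := by positivity
  have e : CC * Ξ * Λ ^ 5 / t ^ 2 = CC * (Ξ * Λ ^ 5 / t ^ 2) := by ring
  rw [e]
  unfold CC
  have h7' : Ea ω (fun u v => qE B Λ t ϑ u v) = Ea ω (qE B Λ t ϑ) := rfl
  rw [h7, h7'] at h1
  generalize q4 B / rr ι = θ at *
  generalize 3 * θ / b ^ 4 = z at *
  generalize 292 / 100 / b ^ 4 * Ea ω (fun u v => qq B u * qq B v) = y at *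
  generalize Ξ * Λ ^ 5 / t ^ 2 = x at *
  generalize Λ ^ 5 / t ^ 2 = x' at *
  linarith

end Crest.Agent.R62
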