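import Crest.Agent.R62.Api

/-!
# R62/QQAux1: the pointwise bound for `q4 (upd b B u v)`
-/

set_option autoImplicit false
set_option linter.unusedSectionVars false
open Finset Matrix

namespace Crest.Agent.R62

variable {ι : Type} [Fintype ι] [DecidableEq ι]

/-! ### scalar inequalities -/

theorem qq_s1 (B j : ℝ) :
    (B + j) ^ 4 ≤ B ^ 4 + 4 * (B ^ 3 * j) + 86 * (B ^ 2 * j ^ 2) + 105 / 100 * j ^ 4 := by
  nlinarith [sq_nonneg (j * (j - 40 * B))]

theorem qq_s2 (m n : ℝ) : (m + n) ^ 2 ≤ 63 / 62 * m ^ 2 + 63 * n ^ 2 := by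
  nlinarith [sq_nonneg (m - 62 * n)]

theorem qq_s3 (m n : ℝ) : (m + n) ^ 4 ≤ 105 / 100 * m ^ 4 + 250047 * n ^ 4 := by
  have h1 := qq_s2 m n
  have h2 := qq_s2 (63 / 62 * m ^ 2) (63 * n ^ 2)
  have h3 : ((m + n) ^ 2) ^ 2 ≤ (63 / 62 * m ^ 2 + 63 * n ^ 2) ^ 2 :=
    pow_le_pow_left₀ (sq_nonneg _) h1 2
  have h4 : 0 ≤ m ^ 4 := by positivity
  nlinarith

theorem qq_s4 (m n : ℝ) :
    (m + n) ^ 4 ≤ 105 / 100 * m ^ 4 + 105 / 100 * n ^ 4 + 166 * (m ^ 2 * n ^ 2) := by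
  nlinarith [sq_nonneg (m * (m - 40 * n)), sq_nonneg (n * (n - 40 * m))]

theorem qq_s5 (m n : ℝ) : (m + n) ^ 4 ≤ 8 * m ^ 4 + 8 * n ^ 4 := by
  nlinarith [sq_nonneg ((m - n) ^ 2), sq_nonneg (m ^ 2 - n ^ 2), sq_nonneg ((m - n) * (m + n))]

theorem qq_scalar (B j₁ j₂ j₃ j₄ : ℝ) :
    (B + (j₁ + j₂ + j₃ + j₄)) ^ 4 ≤ B ^ 4 + 4 * (B ^ 3 * (j₁ + j₂ + j₃ + j₄)) +
      (344 * (B ^ 2 * j₁ ^ 2) + 344 * (B ^ 2 * j₂ ^ 2) + 344 * (B ^ 2 * j₃ ^ 2) +
        344 * (B ^ 2 * j₄ ^ 2) + 116 / 100 * j₁ ^ 4 + 116 / 100 * j₂ ^ 4 +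
        200 * (j₁ ^ 2 * j₂ ^ 2) + 2400000 * j₃ ^ 4 + 2400000 * j₄ ^ 4) := by
  have h1 := qq_s1 B (j₁ + j₂ + j₃ + j₄)
  have h2 : (j₁ + j₂ + j₃ + j₄) ^ 2 ≤ 4 * (j₁ ^ 2 + j₂ ^ 2 + j₃ ^ 2 + j₄ ^ 2) := by
    nlinarith [sq_nonneg (j₁ - j₂), sq_nonneg (j₁ - j₃), sq_nonneg (j₁ - j₄), sq_nonneg (j₂ - j₃),
      sq_nonneg (j₂ - j₄), sq_nonneg (j₃ - j₄)]
  have h2' := mul_le_mul_of_nonneg_left h2 (sq_nonneg B)
  have h3 := qq_s3 (j₁ + j₂) (j₃ + j₄)
  have h4 := qq_s4 j₁ j₂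
  have h5 := qq_s5 j₃ j₄
  have e : j₁ + j₂ + (j₃ + j₄) = j₁ + j₂ + j₃ + j₄ := by ring
  rw [e] at h3
  have p1 : 0 ≤ j₁ ^ 4 := by positivity
  have p2 : 0 ≤ j₂ ^ 4 := by positivity
  have p3 : 0 ≤ j₃ ^ 4 := by positivity
  have p4 : 0 ≤ j₄ ^ 4 := by positivity
  have p5 : 0 ≤ j₁ ^ 2 * j₂ ^ 2 := by positivity
  have e2 : B ^ 2 * (4 * (j₁ ^ 2 + j₂ ^ 2 + j₃ ^ 2 + j₄ ^ 2)) =
      4 * (B ^ 2 * j₁ ^ 2) + 4 * (B ^ 2 * j₂ ^ 2) + 4 * (B ^ 2 * j₃ ^ 2) + 4 * (B ^ 2 * j₄ ^ 2) := by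
    ring
  rw [e2] at h2'
  linarith

/-! ### sums -/

theorem qq_cross {u v : ι} (huv : u ≠ v) (F : ι → ι → ℝ) :
    ∑ k, ∑ l, (if k = u ∨ k = v ∨ l = u ∨ l = v then F k l else 0) =
      ∑ l, F u l + ∑ l, F v l + ∑ k, F k u + ∑ k, F k v - (F u u + F u v + F v u + F v v) := by
  have key : ∀ k l, (if k = u ∨ k = v ∨ l = u ∨ l = v then F k l else 0) =
      (if k = u then F k l else 0) + (if k = v then F k l else 0) + (if l = u then F k l else 0) +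
        (if l = v then F k l else 0) -
        ((if k = u then (if l = u then F k l else 0) else 0) +
          (if k = u then (if l = v then F k l else 0) else 0) +
          (if k = v then (if l = u then F k l else 0) else 0) +
          (if k = v then (if l = v then F k l else 0) else 0)) := by
    intro k l
    by_cases h1 : k = u <;> by_cases h2 : k = v <;> by_cases h3 : l = u <;> by_cases h4 : l = v <;>
      simp_all
  have e1 : ∀ (w : ι) (G : ι → ι → ℝ), ∑ k, ∑ l, (if k = w then G k l else 0) = ∑ l, G w l := by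
    intro w G
    rw [Finset.sum_comm]
    simp
  simp only [key, Finset.sum_add_distrib, Finset.sum_sub_distrib, e1]
  simp

theorem qq_comm4 (F : ι → ι → ι → ι → ℝ) :
    ∑ u, ∑ v, ∑ k, ∑ l, F u v k l = ∑ k, ∑ l, ∑ u, ∑ v, F u v k l := by
  have h1 : ∑ u, ∑ v, ∑ k, ∑ l, F u v k l = ∑ x : ι × ι, ∑ y : ι × ι, F x.1 x.2 y.1 y.2 := by
    simp only [Fintype.sum_prod_type]
  have h2 : ∑ k, ∑ l, ∑ u, ∑ v, F u v k l = ∑ y : ι × ι, ∑ x : ι × ι, F x.1 x.2 y.1 y.2 := by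
    simp only [Fintype.sum_prod_type]
  rw [h1, h2, Finset.sum_comm]

theorem qq_av2 (w f g : ι → ι → ℝ) :
    av (fun u v => ∑ k, ∑ l, w k l * f k u * g l v) =
      (∑ k, ∑ l, w k l * (∑ u, f k u) * (∑ v, g l v)) / rr ι ^ 2 := by
  unfold av
  rw [qq_comm4]
  congr 1
  refine Finset.sum_congr rfl fun k _ => Finset.sum_congr rfl fun l _ => ?_
  rw [mul_assoc, Finset.sum_mul_sum, Finset.mul_sum]
  refine Finset.sum_congr rfl fun u _ => ?_
  rw [Finset.mul_sum]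
  exact Finset.sum_congr rfl fun v _ => by ring

theorem qq_av1 (f g : ι → ι → ℝ) :
    av (fun u v => ∑ k, f k u * g k v) = (∑ k, (∑ u, f k u) * (∑ v, g k v)) / rr ι ^ 2 := by
  unfold av
  congr 1
  calc ∑ u, ∑ v, ∑ k, f k u * g k v = ∑ u, ∑ k, ∑ v, f k u * g k v :=
        Finset.sum_congr rfl fun u _ => Finset.sum_comm
    _ = ∑ k, ∑ u, ∑ v, f k u * g k v := Finset.sum_comm
    _ = _ := Finset.sum_congr rfl fun k _ => (Finset.sum_mul_sum _ _ _ _).symm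

theorem qq_prod (c : ℝ) (f g : ι → ℝ) :
    ∑ k, ∑ l, c * (f k * g l) = c * ((∑ k, f k) * ∑ l, g l) := by
  rw [Finset.sum_mul_sum, Finset.mul_sum]
  exact Finset.sum_congr rfl fun k _ => (Finset.mul_sum _ _ _).symm

/-! ### the quantities -/

/-- `q_u` -/
def qq (B : Matrix ι ι ℝ) (u : ι) : ℝ := ∑ k, B k u ^ 4
def qM (B : Matrix ι ι ℝ) (u v : ι) : ℝ := ∑ k, ∑ l, B k l ^ 3 * B k u * B l v
def qN (B : Matrix ι ι ℝ) (u : ι) : ℝ := ∑ k, ∑ l, |B k l| ^ 3 * B k u ^ 2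
def qP (B : Matrix ι ι ℝ) (u v : ι) : ℝ := ∑ l, B l u ^ 2 * |B l v|
def qR (B : Matrix ι ι ℝ) (u v : ι) : ℝ := ∑ k, ∑ l, B k l ^ 2 * B k u ^ 2 * B l v ^ 2
def qT (B : Matrix ι ι ℝ) (u v : ι) : ℝ := ∑ k, B k u ^ 2 * B k v ^ 2
/-- the increment -/
def qj (B : Matrix ι ι ℝ) (a p s : ℝ) (u v k l : ι) : ℝ :=
  a * (B k u * B l v) + a * (B k v * B l u) + p * (B k u * B l u) + s * (B k v * B l v)

section
variable {B : Matrix ι ι ℝ}

theorem qq_nonneg (u : ι) : 0 ≤ qq B u := by unfold qq; positivity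
theorem qN_nonneg (u : ι) : 0 ≤ qN B u := by unfold qN; positivity
theorem qP_nonneg (u v : ι) : 0 ≤ qP B u v := by unfold qP; positivity
theorem qR_nonneg (u v : ι) : 0 ≤ qR B u v := by unfold qR; positivity
theorem qT_nonneg (u v : ι) : 0 ≤ qT B u v := by unfold qT; positivity

theorem qq_bet (hB : B.IsSymm) (u : ι) : ∑ k, B k u ^ 2 = bet B u := by
  rw [bet_eq hB]
  exact Finset.sum_congr rfl fun k _ => by rw [hB.apply u k]

theorem qq_sum (B : Matrix ι ι ℝ) : ∑ u, qq B u = q4 B := by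
  unfold qq q4
  exact Finset.sum_comm

theorem qq_le (hB : B.IsSymm) {Λ : ℝ} (he : ∀ k l, B k l ^ 2 ≤ Λ) (u : ι) :
    qq B u ≤ Λ * bet B u := by
  rw [← qq_bet hB, Finset.mul_sum]
  refine Finset.sum_le_sum fun k _ => ?_
  have := mul_le_mul_of_nonneg_right (he k u) (sq_nonneg (B k u))
  nlinarith

theorem qT_le (hB : B.IsSymm) {Λ : ℝ} (he : ∀ k l, B k l ^ 2 ≤ Λ) (u v : ι) :
    qT B u v ≤ Λ * bet B u := by
  rw [← qq_bet hB, Finset.mul_sum]
  refine Finset.sum_le_sum fun k _ => ?_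
  have := mul_le_mul_of_nonneg_right (he k v) (sq_nonneg (B k u))
  nlinarith

theorem qM_swap (hB : B.IsSymm) (u v : ι) : qM B v u = qM B u v := by
  unfold qM
  rw [Finset.sum_comm]
  exact Finset.sum_congr rfl fun k _ => Finset.sum_congr rfl fun l _ => by
    rw [hB.apply k l]; ring

theorem qM_diag (hB : B.IsSymm) (u : ι) : |qM B u u| ≤ qN B u := by
  have h1 : |qM B u u| ≤ ∑ k, ∑ l, |B k l ^ 3 * B k u * B l u| :=
    (Finset.abs_sum_le_sum_abs _ _).trans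
      (Finset.sum_le_sum fun k _ => Finset.abs_sum_le_sum_abs _ _)
  have h2 : ∑ k, ∑ l, |B k l| ^ 3 * B l u ^ 2 = qN B u := by
    unfold qN
    rw [Finset.sum_comm]
    exact Finset.sum_congr rfl fun k _ => Finset.sum_congr rfl fun l _ => by rw [hB.apply k l]
  have h3 : ∑ k, ∑ l, |B k l ^ 3 * B k u * B l u| ≤
      ∑ k, ∑ l, (1 / 2 * (|B k l| ^ 3 * B k u ^ 2) + 1 / 2 * (|B k l| ^ 3 * B l u ^ 2)) := by
    refine Finset.sum_le_sum fun k _ => Finset.sum_le_sum fun l _ => ?_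
    rw [abs_mul, abs_mul, abs_pow, ← sq_abs (B k u), ← sq_abs (B l u)]
    have := mul_nonneg (pow_nonneg (abs_nonneg (B k l)) 3) (sq_nonneg (|B k u| - |B l u|))
    nlinarith
  simp only [Finset.sum_add_distrib, ← Finset.mul_sum] at h3
  rw [h2] at h3
  have h4 : ∑ k, ∑ l, |B k l| ^ 3 * B k u ^ 2 = qN B u := rfl
  rw [h4] at h3
  linarith

/-- the full linear sum -/
theorem qq_lin (hB : B.IsSymm) (a p s : ℝ) (u v : ι) :
    ∑ k, ∑ l, B k l ^ 3 * qj B a p s u v k l =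
      2 * (a * qM B u v) + p * qM B u u + s * qM B v v := by
  have e : 2 * (a * qM B u v) = a * qM B u v + a * qM B v u := by rw [qM_swap hB]; ring
  rw [e]
  unfold qM qj
  simp only [Finset.mul_sum, ← Finset.sum_add_distrib]
  exact Finset.sum_congr rfl fun k _ => Finset.sum_congr rfl fun l _ => by ring

theorem qj_swap (a p s : ℝ) (u v k l : ι) : qj B a p s u v k l = qj B a s p v u k l := by
  unfold qj; ring

theorem qj_symm (a p s : ℝ) (u v k l : ι) : qj B a p s u v k l = qj B a p s u v l k := by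
  unfold qj; ring

/-- a removed row of the linear term -/
theorem qq_row (hB : B.IsSymm) {Λ ϑ a p s : ℝ} (he : ∀ k l, B k l ^ 2 ≤ Λ) {u v : ι}
    (h1 : |a * B u v + p * B u u| ≤ 3 * ϑ) (h2 : |a * B u u + s * B u v| ≤ 2 * |B u u|) :
    ∑ l, |B u l ^ 3 * qj B a p s u v u l| ≤ 3 * ϑ * qq B u + 2 * Λ * qP B u v := by
  unfold qq qP
  rw [Finset.mul_sum, Finset.mul_sum, ← Finset.sum_add_distrib]
  refine Finset.sum_le_sum fun l _ => ?_
  have e : B u l ^ 3 * qj B a p s u v u l =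
      (a * B u v + p * B u u) * B l u ^ 4 + (a * B u u + s * B u v) * B l u * (B l u ^ 2 * B l v) := by
    unfold qj
    rw [hB.apply l u]
    ring
  rw [e]
  refine (abs_add_le _ _).trans (add_le_add ?_ ?_)
  · rw [abs_mul, abs_of_nonneg (by positivity : 0 ≤ B l u ^ 4)]
    exact mul_le_mul_of_nonneg_right h1 (by positivity)
  · rw [abs_mul, abs_mul, abs_mul, abs_of_nonneg (sq_nonneg (B l u))]
    refine mul_le_mul_of_nonneg_right ?_ (by positivity)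
    have h3 : |B u u| * |B l u| ≤ Λ := by
      have a1 := he u u
      have a2 := he l u
      rw [← sq_abs] at a1 a2
      nlinarith [sq_nonneg (|B u u| - |B l u|)]
    have h4 := mul_le_mul_of_nonneg_right h2 (abs_nonneg (B l u))
    linarith

/-- the nonnegative higher order terms -/
noncomputable def qH (B : Matrix ι ι ℝ) (a p s : ℝ) (u v k l : ι) : ℝ :=
  344 * (B k l ^ 2 * (a * (B k u * B l v)) ^ 2) + 344 * (B k l ^ 2 * (a * (B k v * B l u)) ^ 2) +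
    344 * (B k l ^ 2 * (p * (B k u * B l u)) ^ 2) + 344 * (B k l ^ 2 * (s * (B k v * B l v)) ^ 2) +
    116 / 100 * (a * (B k u * B l v)) ^ 4 + 116 / 100 * (a * (B k v * B l u)) ^ 4 +
    200 * ((a * (B k u * B l v)) ^ 2 * (a * (B k v * B l u)) ^ 2) +
    2400000 * (p * (B k u * B l u)) ^ 4 + 2400000 * (s * (B k v * B l v)) ^ 4

theorem qH_nonneg (a p s : ℝ) (u v k l : ι) : 0 ≤ qH B a p s u v k l := by
  unfold qH; positivity

theorem qH_sum (a p s : ℝ) (u v : ι) : ∑ k, ∑ l, qH B a p s u v k l =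
    344 * (a ^ 2 * qR B u v) + 344 * (a ^ 2 * qR B v u) + 344 * (p ^ 2 * qR B u u) +
      344 * (s ^ 2 * qR B v v) + 232 / 100 * (a ^ 4 * (qq B u * qq B v)) +
      200 * (a ^ 4 * qT B u v ^ 2) + 2400000 * (p ^ 4 * qq B u ^ 2) +
      2400000 * (s ^ 4 * qq B v ^ 2) := by
  have e1 : ∀ (c : ℝ) (x y : ι), ∑ k, ∑ l, B k l ^ 2 * (c * (B k x * B l y)) ^ 2 = c ^ 2 * qR B x y := by
    intro c x y
    unfold qR
    simp only [Finset.mul_sum]
    exact Finset.sum_congr rfl fun k _ => Finset.sum_congr rfl fun l _ => by ring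
  have e2 : ∀ (c : ℝ) (x y : ι), ∑ k, ∑ l, (c * (B k x * B l y)) ^ 4 = c ^ 4 * (qq B x * qq B y) := by
    intro c x y
    unfold qq
    rw [← qq_prod]
    exact Finset.sum_congr rfl fun k _ => Finset.sum_congr rfl fun l _ => by ring
  have e3 : ∑ k, ∑ l, (a * (B k u * B l v)) ^ 2 * (a * (B k v * B l u)) ^ 2 = a ^ 4 * qT B u v ^ 2 := by
    unfold qT
    rw [sq (∑ k, B k u ^ 2 * B k v ^ 2), ← qq_prod]
    exact Finset.sum_congr rfl fun k _ => Finset.sum_congr rfl fun l _ => by ring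
  unfold qH
  simp only [Finset.sum_add_distrib, ← Finset.mul_sum, e1, e2, e3]
  ring

theorem qR_diag (hB : B.IsSymm) {Λ : ℝ} (he : ∀ k l, B k l ^ 2 ≤ Λ) (u : ι) :
    qR B u u ≤ Λ * bet B u ^ 2 := by
  rw [sq, ← qq_bet hB, ← qq_prod]
  refine Finset.sum_le_sum fun k _ => Finset.sum_le_sum fun l _ => ?_
  rw [mul_assoc]
  exact mul_le_mul_of_nonneg_right (he k l) (by positivity)

/-- the raw pointwise bound -/
theorem qq_raw (hB : B.IsSymm) (b : ℝ) {u v : ι} (huv : u ≠ v) {a p s : ℝ}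
    (ha : a = kap b B u v * (b - B u v)) (hp : p = kap b B u v * B v v)
    (hs : s = kap b B u v * B u u) :
    q4 (upd b B u v) ≤ q4 B - 2 * qq B u - 2 * qq B v + (B u u ^ 4 + B v v ^ 4 + 2 * B u v ^ 4) +
      4 * (∑ k, ∑ l, B k l ^ 3 * qj B a p s u v k l) + ∑ k, ∑ l, qH B a p s u v k l +
      8 * (∑ l, |B u l ^ 3 * qj B a p s u v u l|) + 8 * (∑ l, |B v l ^ 3 * qj B a p s u v v l|) := by
  have key : ∀ k l, upd b B u v k l ^ 4 ≤ B k l ^ 4 + 4 * (B k l ^ 3 * qj B a p s u v k l) +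
      qH B a p s u v k l - (if k = u ∨ k = v ∨ l = u ∨ l = v then B k l ^ 4 else 0) +
      4 * (if k = u ∨ k = v ∨ l = u ∨ l = v then |B k l ^ 3 * qj B a p s u v k l| else 0) := by
    intro k l
    unfold upd
    rw [Matrix.of_apply]
    split_ifs with hc
    · have h1 := qH_nonneg (B := B) a p s u v k l
      have h2 := neg_abs_le (B k l ^ 3 * qj B a p s u v k l)
      have h3 : (0 : ℝ) ^ 4 = 0 := by norm_num
      linarith
    · have e : kap b B u v * (B v v * B k u * B l u + B u u * B k v * B l v +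
          (b - B u v) * (B k u * B l v + B k v * B l u)) = qj B a p s u v k l := by
        unfold qj; rw [ha, hp, hs]; ring
      rw [e]
      have := qq_scalar (B k l) (a * (B k u * B l v)) (a * (B k v * B l u)) (p * (B k u * B l u))
        (s * (B k v * B l v))
      unfold qH qj
      linarith
  have h1 : q4 (upd b B u v) ≤ _ :=
    Finset.sum_le_sum fun k _ => Finset.sum_le_sum fun l _ => key k l
  simp only [Finset.sum_add_distrib, Finset.sum_sub_distrib, ← Finset.mul_sum, qq_cross huv] at h1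
  have e1 : ∀ x, ∑ l, B x l ^ 4 = qq B x := fun x =>
    Finset.sum_congr rfl fun l _ => by rw [hB.apply x l]
  have e2 : ∀ x, ∑ l, B l x ^ 4 = qq B x := fun x => rfl
  have e3 : ∀ x, ∑ k, |B k x ^ 3 * qj B a p s u v k x| = ∑ l, |B x l ^ 3 * qj B a p s u v x l| :=
    fun x => Finset.sum_congr rfl fun l _ => by rw [hB.apply x l, qj_symm]
  have e4 : ∑ k, ∑ l, B k l ^ 4 = q4 B := rfl
  rw [e1, e1, e2, e2, e3, e3, e4, hB.apply u v] at h1
  have p1 := abs_nonneg (B u u ^ 3 * qj B a p s u v u u)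
  have p2 := abs_nonneg (B u v ^ 3 * qj B a p s u v u v)
  have p3 := abs_nonneg (B u v ^ 3 * qj B a p s u v v u)
  have p4 := abs_nonneg (B v v ^ 3 * qj B a p s u v v v)
  linarith

end

end Crest.Agent.R62
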