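import Crest.Agent.R62.Alg

/-!
# R62/Size: the parameters of the algorithm are admissible; the numbers stay small (TASK)

`par_basic`: `Lof n` is the largest `L` with `L^96000 ≤ n` (the filtered list is an initial segment of `range n`, or: show
`i < Lof n ↔ (i+1)^96000 ≤ n`).  Take `n₀ = L₀^96000`, `L₀ = 10^80 d^20` (keep it symbolic!).  `n < (L+1)^96000 ≤ 2 L^96000` since
`(1 + 1/L)^96000 ≤ exp (96000/L) ≤ 2`, or `(1+1/L)^k ≤ 1 + 2k/L` by induction for `2k ≤ L`.  `k = kof d n` is the largest `k ≤ n` with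
`(d-1) k² M ≤ (M-1) n²`, `M = L^31880`; `1 ≤ k < n`, and `(d-1)(k+1)² M > (M-1) n²` gives
`1 - (d-1) m² < 1/M + (d-1)(2k+1)/n² ≤ 1/M + 3 d/n ≤ 2/M`.

`size_le`: with `k = kof d n`, `Δ = n (n² + (d-1) k²) ≤ d n³`, the matrix `Δ • Ht` has integer entries of size `≤ B = 11 d² n³`
(`x = 4 (d-1) k n/(n² + (d-1) k²) ≤ 2 √(d-1) ≤ 2d`, `m ρ ≤ d` from `GInv.deg`, `Amat ∈ {0,1}`).  If `M` is this integer matrix then `G = Δ • adj M / det M`
(`det M ≠ 0`), `|det M|, |adj M i j| ≤ n! B^n` (`Matrix.det_le`, `adjugate_apply`).  A rational number whose cast equals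
`(z : ℤ)/(D : ℤ)` has height `ratH ≤ |z| + |D|` (`ratH_div_le` with `ratH_intCast` also suffices); `g = k n/(n² - k²)`, `ratH_sub_le`.
So each entry has `ratH < 2^K` with `K ≤ 100 d² n^4` (crudely `B < 2^B`, `n! ≤ 2^(n²)`), `sz ≤ 8 K + 7` (`sz_rat_le_of_lt`); use `sh₁, sh₂`,
`sz_list_le`, `sz_nat_le_self`, `len`.
-/

set_option autoImplicit false
open Finset Matrix

namespace Crest.Agent.R62

open Crest.Agent.Lib.PT

theorem size_filter_range (p : ℕ → Prop) [DecidablePred p] (hp : ∀ i j, i ≤ j → p j → p i) (n : ℕ) :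
    ((List.range n).filter fun i => decide (p i)).length ≤ n ∧
      ∀ i < n, (i < ((List.range n).filter fun i => decide (p i)).length ↔ p i) := by
  induction n with
  | zero => simp
  | succ n ih =>
    obtain ⟨h1, h2⟩ := ih
    rw [List.range_succ, List.filter_append, List.length_append]
    by_cases hn : p n
    · have hc : ((List.range n).filter fun i => decide (p i)).length = n := by
        by_contra hne
        have hlt : ((List.range n).filter fun i => decide (p i)).length < n := lt_of_le_of_ne h1 hne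
        exact lt_irrefl _ ((h2 _ hlt).2 (hp _ _ hlt.le hn))
      have h3 : (List.filter (fun i => decide (p i)) [n]).length = 1 := by simp [hn]
      rw [hc, h3]
      exact ⟨le_rfl, fun i hi => ⟨fun _ => hp _ _ (by omega) hn, fun _ => hi⟩⟩
    · have h3 : (List.filter (fun i => decide (p i)) [n]).length = 0 := by simp [hn]
      rw [h3, add_zero]
      refine ⟨by omega, fun i hi => ?_⟩
      rcases Nat.lt_succ_iff_lt_or_eq.1 hi with hi | rfl
      · exact h2 i hi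
      · exact ⟨fun h => by omega, fun h => absurd h hn⟩

theorem size_succ_pow (L k : ℕ) (h : 2 * k ≤ L) : L * (L + 1) ^ k ≤ L ^ k * (L + 2 * k) := by
  induction k with
  | zero => simp
  | succ k ih =>
    have ih := ih (by omega)
    calc L * (L + 1) ^ (k + 1) = (L * (L + 1) ^ k) * (L + 1) := by rw [pow_succ]; ring
      _ ≤ (L ^ k * (L + 2 * k)) * (L + 1) := Nat.mul_le_mul_right _ ih
      _ = L ^ k * ((L + 2 * k) * (L + 1)) := by ring
      _ ≤ L ^ k * (L * (L + 2 * (k + 1))) := Nat.mul_le_mul_left _ (by nlinarith)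
      _ = L ^ (k + 1) * (L + 2 * (k + 1)) := by rw [pow_succ]; ring

theorem size_succ_pow_le (L k : ℕ) (h : 2 * k ≤ L) (hL : 0 < L) : (L + 1) ^ k ≤ 2 * L ^ k := by
  have h1 := size_succ_pow L k h
  have h2 : L ^ k * (L + 2 * k) ≤ L * (2 * L ^ k) := by
    calc L ^ k * (L + 2 * k) ≤ L ^ k * (2 * L) := Nat.mul_le_mul_left _ (by omega)
      _ = L * (2 * L ^ k) := by ring
  exact Nat.le_of_mul_le_mul_left (h1.trans h2) hL

/-- the root `L` of `n` -/
theorem size_root (E n L₀ : ℕ) (hE : 1 ≤ E) (h0 : 1 ≤ L₀) (h2 : 2 * E ≤ L₀) (hn : L₀ ^ E ≤ n) (L : ℕ)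
    (hL : L = ((List.range n).filter fun i => decide ((i + 1) ^ E ≤ n)).length) :
    L₀ ≤ L ∧ L ^ E ≤ n ∧ n ≤ 2 * L ^ E := by
  obtain ⟨h1, h3⟩ := size_filter_range (fun i => (i + 1) ^ E ≤ n)
    (fun i j hij hj => (Nat.pow_le_pow_left (by omega) _).trans hj) n
  rw [← hL] at h1 h3
  have h4 : L₀ ≤ n := (Nat.le_self_pow (by omega) _).trans hn
  have h5 : L₀ ≤ L := by
    have := (h3 (L₀ - 1) (by omega)).2 (by rw [Nat.sub_add_cancel h0]; exact hn)
    omega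
  refine ⟨h5, ?_, ?_⟩
  · have := (h3 (L - 1) (by omega)).1 (by omega)
    rwa [Nat.sub_add_cancel (by omega)] at this
  · refine le_trans ?_ (size_succ_pow_le L E (by omega) (by omega))
    rcases lt_or_eq_of_le h1 with h | h
    · by_contra hc
      exact lt_irrefl _ ((h3 L h).2 (by omega))
    · have := Nat.le_self_pow (n := E) (by omega) (L + 1)
      omega

/-- the numerator `k` of `m` -/
theorem size_k (d n M : ℕ) (hd : 3 ≤ d) (hM : 2 ≤ M) (hn : 2 * d * M ≤ n) (k : ℕ)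
    (hk : k = ((List.range n).filter fun j =>
      decide ((d - 1) * (j + 1) ^ 2 * M ≤ (M - 1) * n ^ 2)).length) :
    (0 : ℝ) < (k : ℝ) / n ∧ 1 / (M : ℝ) ≤ 1 - ((d : ℝ) - 1) * ((k : ℝ) / n) ^ 2 ∧
      1 - ((d : ℝ) - 1) * ((k : ℝ) / n) ^ 2 ≤ 2 / (M : ℝ) := by
  obtain ⟨h1, h3⟩ := size_filter_range (fun j => (d - 1) * (j + 1) ^ 2 * M ≤ (M - 1) * n ^ 2)
    (fun i j hij hj => le_trans (Nat.mul_le_mul_right _ (Nat.mul_le_mul_left _
      (Nat.pow_le_pow_left (by omega) _))) hj) n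
  rw [← hk] at h1 h3
  obtain ⟨e, rfl⟩ : ∃ e, d = e + 1 := ⟨d - 1, by omega⟩
  obtain ⟨m, rfl⟩ : ∃ m, M = m + 1 := ⟨M - 1, by omega⟩
  simp only [Nat.add_sub_cancel] at h3
  have hn1 : 2 * (e + 1) ≤ n := le_trans (Nat.le_mul_of_pos_right _ (by omega)) hn
  have hn0 : 0 < n := by omega
  have hk1 : 0 < k := by
    refine (h3 0 hn0).2 ?_
    have a1 : n ≤ n ^ 2 := Nat.le_self_pow (by omega) n
    have a2 : m * (2 * (e + 1)) ≤ m * n ^ 2 := Nat.mul_le_mul_left _ (by omega)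
    have a3 : e * (m + 1) ≤ e * (2 * m) := Nat.mul_le_mul_left _ (by omega)
    nlinarith
  have hlo : e * k ^ 2 * (m + 1) ≤ m * n ^ 2 := by
    have := (h3 (k - 1) (by omega)).1 (by omega)
    rwa [Nat.sub_add_cancel (by omega)] at this
  have hkn : k < n := by
    rcases lt_or_eq_of_le h1 with h | h
    · exact h
    · exfalso
      rw [h] at hlo
      have a1 : 0 < n ^ 2 := by positivity
      have a2 : 1 * n ^ 2 * (m + 1) ≤ e * n ^ 2 * (m + 1) :=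
        Nat.mul_le_mul_right _ (Nat.mul_le_mul_right _ (by omega))
      nlinarith
  have hhi : m * n ^ 2 < e * (k + 1) ^ 2 * (m + 1) := by
    by_contra hc
    exact lt_irrefl _ ((h3 k hkn).2 (by omega))
  have hhi2 : m * n ^ 2 ≤ e * k ^ 2 * (m + 1) + n ^ 2 := by
    have a1 : e * (2 * k + 1) * (m + 1) ≤ (e + 1) * (2 * n) * (m + 1) :=
      Nat.mul_le_mul_right _ (Nat.mul_le_mul (by omega) (by omega))
    have a2 : 2 * (e + 1) * (m + 1) * n ≤ n * n := Nat.mul_le_mul_right _ hn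
    nlinarith
  have hnR : (0 : ℝ) < n := by exact_mod_cast hn0
  have hmR : (0 : ℝ) < (m : ℝ) + 1 := by positivity
  have hloR : (e : ℝ) * k ^ 2 * (m + 1) ≤ m * n ^ 2 := by exact_mod_cast hlo
  have hhiR : (m : ℝ) * n ^ 2 ≤ e * k ^ 2 * (m + 1) + n ^ 2 := by exact_mod_cast hhi2
  have hn2 : (0 : ℝ) < (n : ℝ) ^ 2 := by positivity
  have key : (1 : ℝ) - (((e + 1 : ℕ) : ℝ) - 1) * ((k : ℝ) / n) ^ 2 =
      ((n : ℝ) ^ 2 - e * k ^ 2) / (n : ℝ) ^ 2 := by
    push_cast; field_simp; ring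
  refine ⟨by positivity, ?_, ?_⟩
  · rw [key, div_le_div_iff₀ (by positivity) hn2]
    push_cast; nlinarith
  · rw [key, div_le_div_iff₀ hn2 (by positivity)]
    push_cast; nlinarith

theorem par_basic (d : ℕ) (hd : 3 ≤ d) : ∃ n₀ : ℕ, ∀ n, n₀ ≤ n → (par d n).toR.Basic := by
  obtain ⟨L₀, hL₀⟩ : ∃ L₀, L₀ = 10 ^ 80 * d ^ 20 := ⟨_, rfl⟩
  have hd20 : d ≤ d ^ 20 := Nat.le_self_pow (by omega) d
  have hbig : 200000 * d ≤ L₀ := by
    rw [hL₀]; exact Nat.mul_le_mul (by norm_num) hd20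
  refine ⟨L₀ ^ 96000, fun n hn => ?_⟩
  obtain ⟨h1, h2, h3⟩ := size_root 96000 n L₀ (by norm_num) (by omega) (by omega) hn (Lof n) rfl
  have hM : 2 ≤ Lof n ^ 31880 := le_trans (by omega) (Nat.le_self_pow (by norm_num) (Lof n))
  have hn2 : 2 * d * Lof n ^ 31880 ≤ n := by
    refine le_trans ?_ h2
    have e : Lof n ^ 96000 = Lof n ^ 64120 * Lof n ^ 31880 := by rw [← pow_add]
    rw [e]
    exact Nat.mul_le_mul_right _ (le_trans (by omega) (Nat.le_self_pow (by norm_num) (Lof n)))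
  obtain ⟨h4, h5, h6⟩ := size_k d n (Lof n ^ 31880) hd hM hn2 (kof d n) rfl
  have hm : (par d n).toR.m = (kof d n : ℝ) / n := by simp [par, Par.toR]
  refine ⟨hd, hL₀ ▸ h1, h2, h3, ?_, ?_, ?_⟩
  · rw [hm]; exact h4
  · rw [hm]; rw [Nat.cast_pow] at h5; exact h5
  · rw [hm]; rw [Nat.cast_pow] at h6; exact h6

/-- Cramer's rule -/
theorem size_cramer {V : Type} [Fintype V] [DecidableEq V] (H G : Matrix V V ℝ) (hG : H * G = 1)
    (Δ : ℕ) (hΔ : Δ ≠ 0) (M : Matrix V V ℤ) (hM : ∀ i j, (M i j : ℝ) = Δ * H i j) (B : ℕ) (hB1 : 1 ≤ B)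
    (hB : ∀ i j, |M i j| ≤ B) (i j : V) : ∃ z D : ℤ, G i j = (z : ℝ) / D ∧
      z.natAbs ≤ Δ * ((Fintype.card V).factorial * B ^ Fintype.card V) ∧
      D.natAbs ≤ (Fintype.card V).factorial * B ^ Fintype.card V := by
  have hdet : ∀ A : Matrix V V ℤ, (∀ i j, |A i j| ≤ B) →
      A.det.natAbs ≤ (Fintype.card V).factorial * B ^ Fintype.card V := by
    intro A hA
    have := Matrix.det_le (A := A) (abv := AbsoluteValue.abs) (x := (B : ℤ)) hA
    rw [AbsoluteValue.abs_apply, nsmul_eq_mul, ← Int.natCast_natAbs] at this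
    exact_mod_cast this
  set M' : Matrix V V ℝ := (Int.castRingHom ℝ).mapMatrix M with hM'
  have e1 : M' = (Δ : ℝ) • H := by
    ext a b; simp [hM', hM]
  have e2 : M' * G = (Δ : ℝ) • (1 : Matrix V V ℝ) := by rw [e1, Matrix.smul_mul, hG]
  have e3 : M'.det ≠ 0 := by
    intro h0
    have := congrArg Matrix.det e2
    rw [Matrix.det_mul, h0, zero_mul, Matrix.det_smul, Matrix.det_one, mul_one] at this
    exact pow_ne_zero _ (by exact_mod_cast hΔ) this.symm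
  have e4 : M'.det • G = (Δ : ℝ) • M'.adjugate := by
    have := congrArg (fun X => M'.adjugate * X) e2
    simp only [← Matrix.mul_assoc, Matrix.adjugate_mul, Matrix.smul_mul, Matrix.one_mul,
      Matrix.mul_smul, Matrix.mul_one] at this
    exact this
  have e5 : M'.det = ((M.det : ℤ) : ℝ) := by
    rw [hM', ← RingHom.map_det]; rfl
  have e6 : M'.adjugate i j = ((M.adjugate i j : ℤ) : ℝ) := by
    rw [hM', ← RingHom.map_adjugate]; rfl
  refine ⟨Δ * M.adjugate i j, M.det, ?_, ?_, hdet M hB⟩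
  · have := congrFun (congrFun e4 i) j
    simp only [Matrix.smul_apply, smul_eq_mul] at this
    rw [e6] at this
    rw [← e5, eq_div_iff e3]
    push_cast; linarith
  · rw [Int.natAbs_mul, Int.natAbs_natCast]
    refine Nat.mul_le_mul_left _ ?_
    rw [Matrix.adjugate_apply]
    refine hdet _ fun a b => ?_
    rw [Matrix.updateRow_apply]
    split_ifs
    · rw [Pi.single_apply]
      split_ifs
      · simpa using hB1
      · simp
    · exact hB a b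

theorem size_kof_le (d n : ℕ) : kof d n ≤ n := by
  unfold kof
  exact (List.length_filter_le _ _).trans (by simp)

theorem size_g {d n : ℕ} (hd : 1 ≤ d) : ratH (par d n).g ≤ 4 * (n * d + 1) ^ 6 := by
  have hk := size_kof_le d n
  have hn : n ≤ n * d := Nat.le_mul_of_pos_right _ hd
  have h1 : ratH (par d n).m ≤ (n * d + 1) ^ 2 := by
    refine (ratH_div_le _ _).trans ?_
    rw [ratH_natCast, ratH_natCast, sq]
    exact Nat.mul_le_mul (by omega) (by omega)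
  have h2 : ratH ((par d n).m ^ 2) ≤ (n * d + 1) ^ 2 * (n * d + 1) ^ 2 := by
    rw [sq ((par d n).m)]
    exact (ratH_mul_le _ _).trans (Nat.mul_le_mul h1 h1)
  have h3 : ratH (1 - (par d n).m ^ 2) ≤ 2 * ((n * d + 1) ^ 2 * (n * d + 1) ^ 2) := by
    refine (ratH_sub_le _ _).trans ?_
    rw [ratH_one]; exact Nat.mul_le_mul_left _ h2
  have h4 : ratH (par d n).a ≤ 2 * (2 * ((n * d + 1) ^ 2 * (n * d + 1) ^ 2)) := by
    unfold Par.a
    refine (ratH_div_le _ _).trans ?_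
    rw [ratH_one]; exact Nat.mul_le_mul_left _ h3
  unfold Par.g
  refine (ratH_mul_le _ _).trans ((Nat.mul_le_mul h1 h4).trans (le_of_eq ?_))
  ring

theorem size_entry_bd {d n k ρ : ℕ} (hd : 1 ≤ d) (hn : 1 ≤ n) (hk : k ≤ n) (hρ : ρ ≤ n * d) (s A : ℤ)
    (hs : |s| ≤ 1) (hA : |A| ≤ 1) (c : Prop) [Decidable c] :
    |((if c then (n : ℤ) * (4 * ((d - 1 : ℕ) : ℤ) * k * n) - ((n ^ 2 + (d - 1) * k ^ 2 : ℕ) : ℤ) * k * ρ else 0) -
      s * ((n * (n ^ 2 + (d - 1) * k ^ 2) : ℕ) : ℤ) * A +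
      (s * ((n ^ 2 + (d - 1) * k ^ 2 : ℕ) : ℤ) * d - 4 * ((d - 1 : ℕ) : ℤ) * k * n))| ≤
      ((11 * (n * d) ^ 4 : ℕ) : ℤ) := by
  obtain ⟨N, hN⟩ : ∃ N, N = n * d := ⟨_, rfl⟩
  obtain ⟨Q, hQ⟩ : ∃ Q, Q = n ^ 2 + (d - 1) * k ^ 2 := ⟨_, rfl⟩
  obtain ⟨e, he⟩ : ∃ e, e = d - 1 := ⟨_, rfl⟩
  rw [← hQ, ← he, ← hN]
  rw [← hN] at hρ
  have hnN : n ≤ N := hN ▸ Nat.le_mul_of_pos_right _ hd
  have hdN : d ≤ N := hN ▸ Nat.le_mul_of_pos_left _ hn
  have hN1 : 1 ≤ N := by omega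
  have hQN : Q ≤ N ^ 2 := by
    have a1 : (d - 1) * k ^ 2 ≤ (d - 1) * n ^ 2 := Nat.mul_le_mul_left _ (Nat.pow_le_pow_left hk _)
    have a2 : n ^ 2 + (d - 1) * n ^ 2 = n * (n * d) := by
      obtain ⟨f, rfl⟩ : ∃ f, d = f + 1 := ⟨d - 1, by omega⟩
      simp only [Nat.add_sub_cancel]; ring
    have a3 : n * N ≤ N * N := Nat.mul_le_mul_right _ hnN
    rw [← hN] at a2
    rw [sq N]; omega
  have p3 : N ^ 3 ≤ N ^ 4 := Nat.pow_le_pow_right hN1 (by omega)
  have hekn : e * k * n ≤ N ^ 3 := by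
    calc e * k * n ≤ N * N * N := Nat.mul_le_mul (Nat.mul_le_mul (by omega) (by omega)) hnN
      _ = N ^ 3 := by ring
  have b1 : n * (e * k * n) ≤ N ^ 4 := by
    calc n * (e * k * n) ≤ N * N ^ 3 := Nat.mul_le_mul hnN hekn
      _ = N ^ 4 := by ring
  have b2 : Q * k * ρ ≤ N ^ 4 := by
    calc Q * k * ρ ≤ N ^ 2 * N * N := Nat.mul_le_mul (Nat.mul_le_mul hQN (by omega)) hρ
      _ = N ^ 4 := by ring
  have b3 : n * Q ≤ N ^ 4 := by
    calc n * Q ≤ N * N ^ 2 := Nat.mul_le_mul hnN hQN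
      _ = N ^ 3 := by ring
      _ ≤ N ^ 4 := p3
  have b4 : Q * d ≤ N ^ 4 := by
    calc Q * d ≤ N ^ 2 * N := Nat.mul_le_mul hQN hdN
      _ = N ^ 3 := by ring
      _ ≤ N ^ 4 := p3
  have b5 : e * k * n ≤ N ^ 4 := hekn.trans p3
  have c1 : (n : ℤ) * (e * k * n) ≤ (N : ℤ) ^ 4 := by exact_mod_cast b1
  have c2 : (Q : ℤ) * k * ρ ≤ (N : ℤ) ^ 4 := by exact_mod_cast b2
  have c3 : (n : ℤ) * Q ≤ (N : ℤ) ^ 4 := by exact_mod_cast b3
  have c4 : (Q : ℤ) * d ≤ (N : ℤ) ^ 4 := by exact_mod_cast b4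
  have c5 : (e : ℤ) * k * n ≤ (N : ℤ) ^ 4 := by exact_mod_cast b5
  have d1 : (0 : ℤ) ≤ (n : ℤ) * (e * k * n) := by positivity
  have d2 : (0 : ℤ) ≤ (Q : ℤ) * k * ρ := by positivity
  have d3 : (0 : ℤ) ≤ (n : ℤ) * Q := by positivity
  have d4 : (0 : ℤ) ≤ (Q : ℤ) * d := by positivity
  have d5 : (0 : ℤ) ≤ (e : ℤ) * k * n := by positivity
  have f1 : |s * ((n * Q : ℕ) : ℤ) * A| ≤ (n : ℤ) * Q := by
    rw [abs_mul, abs_mul, Nat.cast_mul, abs_of_nonneg d3]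
    calc |s| * ((n : ℤ) * Q) * |A| ≤ 1 * ((n : ℤ) * Q) * 1 := by gcongr
      _ = _ := by ring
  have f2 : |s * (Q : ℤ) * d| ≤ (Q : ℤ) * d := by
    rw [mul_assoc, abs_mul, abs_of_nonneg d4]
    calc |s| * ((Q : ℤ) * d) ≤ 1 * ((Q : ℤ) * d) := by gcongr
      _ = _ := by ring
  have g1 := abs_le.1 f1
  have g2 := abs_le.1 f2
  rw [abs_le]
  push_cast at g1 ⊢
  split_ifs <;> constructor <;> linarith [g1.1, g1.2, g2.1, g2.2]

theorem size_pow_bd (n N : ℕ) (hn : n ≤ N) (hN : 1 ≤ N) (Δ : ℕ) (hΔ : Δ ≤ N ^ 3) (a b : ℕ)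
    (ha : a ≤ Δ * (n.factorial * (11 * N ^ 4) ^ n)) (hb : b ≤ n.factorial * (11 * N ^ 4) ^ n) :
    (a + 1) * (b + 1) * (4 * (N + 1) ^ 6) < 2 ^ (31 * N ^ 2 + 1) := by
  obtain ⟨X, hX⟩ : ∃ X, X = N + 1 := ⟨_, rfl⟩
  rw [← hX]
  have hX2 : 2 ≤ X := by omega
  have hX0 : 0 < X := by omega
  have h1 : 11 * N ^ 4 ≤ X ^ 8 := by
    have a1 : 2 ^ 4 ≤ X ^ 4 := Nat.pow_le_pow_left hX2 _
    have a2 : N ^ 4 ≤ X ^ 4 := Nat.pow_le_pow_left (by omega) _
    calc 11 * N ^ 4 ≤ X ^ 4 * X ^ 4 := Nat.mul_le_mul (by omega) a2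
      _ = X ^ 8 := by ring
  have h2 : n.factorial ≤ X ^ N :=
    (Nat.factorial_le_pow n).trans ((Nat.pow_le_pow_left (by omega) _).trans
      (Nat.pow_le_pow_right hX0 hn))
  have h3 : (11 * N ^ 4) ^ n ≤ X ^ (8 * N) := by
    rw [pow_mul]
    exact (Nat.pow_le_pow_left h1 _).trans (Nat.pow_le_pow_right (by positivity) hn)
  have h4 : n.factorial * (11 * N ^ 4) ^ n ≤ X ^ (9 * N) := by
    calc _ ≤ X ^ N * X ^ (8 * N) := Nat.mul_le_mul h2 h3
      _ = X ^ (9 * N) := by rw [← pow_add]; congr 1; ring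
  have hs : ∀ c j : ℕ, c ≤ X ^ j → c + 1 ≤ X ^ (j + 1) := by
    intro c j hc
    have : 0 < X ^ j := by positivity
    calc c + 1 ≤ X ^ j * 2 := by omega
      _ ≤ X ^ j * X := Nat.mul_le_mul_left _ hX2
      _ = X ^ (j + 1) := (pow_succ _ _).symm
  have h5 : a + 1 ≤ X ^ (3 + 9 * N + 1) := by
    refine hs _ _ (ha.trans ?_)
    rw [pow_add]
    exact Nat.mul_le_mul (hΔ.trans (Nat.pow_le_pow_left (by omega) _)) h4
  have h6 : b + 1 ≤ X ^ (9 * N + 1) := hs _ _ (hb.trans h4)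
  have h7 : 4 * X ^ 6 ≤ X ^ 8 := by
    have a1 : 2 ^ 2 ≤ X ^ 2 := Nat.pow_le_pow_left hX2 _
    calc 4 * X ^ 6 ≤ X ^ 2 * X ^ 6 := Nat.mul_le_mul_right _ (by omega)
      _ = X ^ 8 := by ring
  have h8 : X ≤ 2 ^ N := by rw [hX]; exact Nat.lt_two_pow_self
  calc (a + 1) * (b + 1) * (4 * X ^ 6) ≤ X ^ (3 + 9 * N + 1) * X ^ (9 * N + 1) * X ^ 8 :=
        Nat.mul_le_mul (Nat.mul_le_mul h5 h6) h7
    _ = X ^ (3 + 9 * N + 1 + (9 * N + 1) + 8) := by rw [← pow_add, ← pow_add]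
    _ ≤ X ^ (31 * N) := Nat.pow_le_pow_right hX0 (by omega)
    _ ≤ (2 ^ N) ^ (31 * N) := Nat.pow_le_pow_left h8 _
    _ = 2 ^ (31 * N ^ 2) := by rw [← pow_mul]; congr 1; ring
    _ < 2 ^ (31 * N ^ 2 + 1) := Nat.pow_lt_pow_right (by omega) (by omega)

theorem size_toR_g (P : Par ℚ) : P.toR.g = ((P.g : ℚ) : ℝ) := by
  simp [Par.g, Par.a, Par.toR]

open Classical in
theorem size_mat {d n : ℕ} (hd : 1 ≤ d) (hn : 1 ≤ n) (s : ℤ) (hs : |s| ≤ 1)
    (R : Finset (Fin (par d n).r0)) (adj : Fin (par d n).n → Fin (par d n).n → Prop) (C : Mat)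
    (hw : WInv (par d n).toR (s : ℝ) (vxF (par d n)) R adj (toM (par d n).r0 C))
    (k l : ℕ) (hk : k < (par d n).r0) (hl : l < (par d n).r0) :
    ratH (mg C k l) < 2 ^ (31 * (n * d) ^ 2 + 1) := by
  obtain ⟨G, hG, hC⟩ := hw.ex
  have hkn := size_kof_le d n
  have hN1 : 1 ≤ n * d := Nat.mul_pos hn hd
  have hQ0 : 0 < n ^ 2 + (d - 1) * kof d n ^ 2 := by positivity
  have hnR : (0 : ℝ) < n := by exact_mod_cast hn
  have hdR : ((d - 1 : ℕ) : ℝ) = (d : ℝ) - 1 := by rw [Nat.cast_sub hd]; simp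
  have hQR : (0 : ℝ) < (n : ℝ) ^ 2 + ((d : ℝ) - 1) * (kof d n : ℝ) ^ 2 := by
    rw [← hdR]; exact_mod_cast hQ0
  have hm : (par d n).toR.m = (kof d n : ℝ) / n := by simp [par, Par.toR]
  have hx : (par d n).toR.x = 4 * ((d : ℝ) - 1) * kof d n * n /
      ((n : ℝ) ^ 2 + ((d : ℝ) - 1) * (kof d n : ℝ) ^ 2) := by
    unfold Par.x
    rw [hm]
    have : (par d n).toR.d = d := rfl
    rw [this]
    have h2 : 1 + ((d : ℝ) - 1) * ((kof d n : ℝ) / n) ^ 2 =
        ((n : ℝ) ^ 2 + ((d : ℝ) - 1) * (kof d n : ℝ) ^ 2) / (n : ℝ) ^ 2 := by field_simp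
    rw [h2]
    field_simp
  obtain ⟨z, D, hz, hz1, hD1⟩ := size_cramer _ G hG (n * (n ^ 2 + (d - 1) * kof d n ^ 2))
    (by positivity)
    (Matrix.of fun y w => ((if y = w then (n : ℤ) * (4 * ((d - 1 : ℕ) : ℤ) * kof d n * n) -
        ((n ^ 2 + (d - 1) * kof d n ^ 2 : ℕ) : ℤ) * kof d n *
          ((R.filter fun k => vxF (par d n) k = y).card : ℕ) else 0) -
      s * ((n * (n ^ 2 + (d - 1) * kof d n ^ 2) : ℕ) : ℤ) * (if adj y w then 1 else 0) +
      (s * ((n ^ 2 + (d - 1) * kof d n ^ 2 : ℕ) : ℤ) * d - 4 * ((d - 1 : ℕ) : ℤ) * kof d n * n)))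
    (by
      intro y w
      have e1 : (par d n).toR.d = d := rfl
      have e2 : (par d n).toR.n = n := rfl
      simp only [Matrix.of_apply, Ht, Amat, rho, hx, hm, e1, e2]
      push_cast [hdR]
      split_ifs <;> field_simp <;> ring)
    (11 * (n * d) ^ 4) (by have : 0 < (n * d) ^ 4 := by positivity
                           omega)
    (by
      intro y w
      rw [Matrix.of_apply]
      refine size_entry_bd hd hn hkn ?_ s _ hs (by split_ifs <;> simp) _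
      exact (Finset.card_le_univ _).trans (by rw [Fintype.card_fin]; rfl))
    (vxF (par d n) ⟨k, hk⟩) (vxF (par d n) ⟨l, hl⟩)
  have hcard : Fintype.card (Fin (par d n).n) = n := Fintype.card_fin _
  rw [hcard] at hz1 hD1
  have hΔ : n * (n ^ 2 + (d - 1) * kof d n ^ 2) ≤ (n * d) ^ 3 := by
    have a1 : (d - 1) * kof d n ^ 2 ≤ (d - 1) * n ^ 2 :=
      Nat.mul_le_mul_left _ (Nat.pow_le_pow_left hkn _)
    have a2 : n ^ 2 + (d - 1) * n ^ 2 = n ^ 2 * d := by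
      obtain ⟨f, rfl⟩ : ∃ f, d = f + 1 := ⟨d - 1, by omega⟩
      simp only [Nat.add_sub_cancel]; ring
    calc n * (n ^ 2 + (d - 1) * kof d n ^ 2) ≤ n * (n ^ 2 * d) := Nat.mul_le_mul_left _ (by omega)
      _ = n ^ 3 * d := by ring
      _ ≤ n ^ 3 * d ^ 3 := Nat.mul_le_mul_left _ (Nat.le_self_pow (by omega) d)
      _ = (n * d) ^ 3 := by ring
  have hbd := size_pow_bd n (n * d) (Nat.le_mul_of_pos_right _ hd) hN1 _ hΔ _ _ hz1 hD1
  have hzD : ratH ((z : ℚ) / (D : ℚ)) ≤ (z.natAbs + 1) * (D.natAbs + 1) := by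
    refine (ratH_div_le _ _).trans ?_
    rw [ratH_intCast, ratH_intCast]
  have hg := size_g (n := n) hd
  have hX : 0 < 4 * (n * d + 1) ^ 6 := by positivity
  have hkl := hC ⟨k, hk⟩ ⟨l, hl⟩
  rw [hz, size_toR_g] at hkl
  simp only [toM, Matrix.of_apply] at hkl
  refine lt_of_le_of_lt ?_ hbd
  split_ifs at hkl
  · have : mg C k l = (z : ℚ) / (D : ℚ) - (par d n).g := by
      apply Rat.cast_injective (α := ℝ)
      rw [hkl]; push_cast; rfl
    rw [this]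
    exact (ratH_sub_le _ _).trans (Nat.mul_le_mul hzD hg)
  · have : mg C k l = (z : ℚ) / (D : ℚ) := by
      apply Rat.cast_injective (α := ℝ)
      rw [hkl]; push_cast; ring
    rw [this]
    exact hzD.trans (Nat.le_mul_of_pos_right _ hX)
  · have : mg C k l = 0 := by exact_mod_cast hkl
    rw [this, ratH_zero]
    exact Nat.succ_le_of_lt (by positivity)

theorem size_mkM (N K : ℕ) (f : ℕ → ℕ → ℚ) (hf : ∀ k < N, ∀ l < N, ratH (f k l) < 2 ^ K) :
    sz (mkM N f) ≤ N * (N * (8 * K + 8) + 2) + 1 := by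
  have := sz_list_le (l := mkM N f) (B := N * (8 * K + 8) + 1) (by
    intro a ha
    simp only [mkM, List.mem_map, List.mem_range] at ha
    obtain ⟨k, hk, rfl⟩ := ha
    have := sz_list_le (l := (List.range N).map fun l => f k l) (B := 8 * K + 7) (by
      intro b hb
      simp only [List.mem_map, List.mem_range] at hb
      obtain ⟨l, hl, rfl⟩ := hb
      exact sz_rat_le_of_lt (hf k hk l hl))
    simpa using this)
  simpa [mkM] using this

theorem size_le {d n : ℕ} {σ : Sig} (hP : (par d n).toR.Good) (h : LInv (par d n) σ)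
    (hi : Inv (par d n).toR (vxF (par d n)) (interp (par d n) σ)) : sz σ ≤ szB (par d n) := by
  have hd3 : 3 ≤ d := hP.d3
  have hd : 1 ≤ d := by omega
  have hn : 1 ≤ n := by
    have h1 : 10 ^ 80 * d ^ 20 ≤ Lof n := hP.Lbig
    have h2 : Lof n ^ 96000 ≤ n := hP.nlo
    have h3 : 0 < 10 ^ 80 * d ^ 20 := by positivity
    exact le_trans (Nat.pow_pos (by omega)) h2
  have hr : (par d n).r0 = n * d := rfl
  have hnN : n ≤ n * d := Nat.le_mul_of_pos_right _ hd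
  have m1 : sz σ.2.2.1 ≤ n * d * (n * d * (8 * (31 * (n * d) ^ 2 + 1) + 8) + 2) + 1 := by
    rw [h.sh₁]
    exact size_mkM _ _ _ fun k hk l hl =>
      size_mat hd hn 1 (by simp) _ _ _ (by rw [Int.cast_one]; exact hi.w₁) k l hk hl
  have m2 : sz σ.2.2.2 ≤ n * d * (n * d * (8 * (31 * (n * d) ^ 2 + 1) + 8) + 2) + 1 := by
    rw [h.sh₂]
    exact size_mkM _ _ _ fun k hk l hl =>
      size_mat hd hn (-1) (by simp) _ _ _ (by rw [Int.cast_neg, Int.cast_one]; exact hi.w₂) k l hk hl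
  have hlen := h.len
  rw [hr] at hlen
  have m3 : sz σ.1 ≤ n * d * (4 * (n * d) + 1 + 1) + 1 := by
    refine (sz_list_le (B := 4 * (n * d) + 1) fun a ha => ?_).trans ?_
    · have := h.lt a ha
      have := sz_nat_le_self a
      omega
    · exact Nat.succ_le_succ (Nat.mul_le_mul_right _ (by omega))
  have m4 : sz σ.2.1 ≤ n * d * (8 * (n * d) + 3 + 1) + 1 := by
    refine (sz_list_le (B := 8 * (n * d) + 3) fun a ha => ?_).trans ?_
    · have h1 : a.1 < n ∧ a.2 < n := h.elt a ha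
      have := sz_nat_le_self a.1
      have := sz_nat_le_self a.2
      rw [sz_prod]; omega
    · exact Nat.succ_le_succ (Nat.mul_le_mul_right _ (by omega))
  rw [sz_prod, sz_prod σ.2, sz_prod σ.2.2]
  unfold szB
  rw [hr]
  generalize n * d = N at *
  have p1 : (N + 1) ^ 4 ≤ (N + 1) ^ 8 := Nat.pow_le_pow_right (by omega) (by omega)
  have p2 : (N + 1) ^ 4 = N ^ 4 + 4 * N ^ 3 + 6 * N ^ 2 + 4 * N + 1 := by ring
  have p3 : N * (N * (8 * (31 * N ^ 2 + 1) + 8) + 2) = 248 * N ^ 4 + 16 * N ^ 2 + 2 * N := by ring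
  have p4 : N * (4 * N + 1 + 1) = 4 * N ^ 2 + 2 * N := by ring
  have p5 : N * (8 * N + 3 + 1) = 8 * N ^ 2 + 4 * N := by ring
  omega

end Crest.Agent.R62
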