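import Crest.Agent.R62.WFacts

/-!
# R62/Wood: the invariants are preserved by an admissible step (TASK; Woodbury + positivity)

Let `x₀ = vx u ≠ y₀ = vx v`, `H = Ht`, `G = H⁻¹` (symmetric), `b = s a`, `c = C u v = G x₀ y₀`, `δ_u = C u u = G x₀ x₀ - g`, `δ_v` likewise.
New `ρ' = ρ - e_x₀ - e_y₀`, `A' = A + E_{x₀y₀} + E_{y₀x₀}`, so `H' = H - U W Uᵀ`, `U = [e_x₀, e_y₀]`, `W = s X - m`
(`W⁻¹ = b X + g`).  Woodbury: `G' = G + G U K Uᵀ G` with `K = (W⁻¹ - Uᵀ G U)⁻¹ = (b X - S)⁻¹ = Kmat`, i.e.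
`G' y z = G y z + κ (δ_v G y x₀ G z x₀ + δ_u G y y₀ G z y₀ + (b - c)(G y x₀ G z y₀ + G y y₀ G z x₀))`; check `H' G' = 1`
(`K - W - W (Uᵀ G U) K = 0`), and for `k ∈ R \ {u,v}`, `C k u = G (vx k) x₀`, so the formula for `C'` is immediate.
Positivity.  Let `ρ' · w = 0`, `w ≠ 0`, `r = |R| ≥ 3`, `τ = (ρ · w)/r`, `w₀ = w - τ 1 ∈ ρ^⊥`, `ℓ₁ = w₀ x₀ + w₀ y₀ = (r - 2) τ`,
`ℓ₂ = w₀ x₀ - w₀ y₀`; `w₀ ≠ 0` (else `τ = 0`, `w = 0`).  With `Q w = wᵀ H w` and `H 1 = (s-m) ρ`:
`wᵀ H' w = Q w₀ - c₁ ℓ₁² - c₂ ℓ₂²`, `c₁ = (s - m) r/(2 (r-2))`, `c₂ = -(s + m)/2` (opposite signs, `0 < m < 1`).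
On `ρ^⊥`, `ℓ_i(w₀) = g_iᵀ H w₀` with `g₁ = G (e_x₀ + e_y₀ - (2/r) ρ)`, `g₂ = G (e_x₀ - e_y₀)`, both in `ρ^⊥`; Gram matrix
`Γ₁₁ = δ_u + δ_v + 2c + 2g - 4(b+g)/r`, `Γ₁₂ = δ_u - δ_v`, `Γ₂₂ = δ_u + δ_v - 2c + 2g`, and
`(1 - c₁Γ₁₁)(1 - c₂Γ₂₂) - c₁c₂Γ₁₂² = (r/(r-2)) ((b - c)² - δ_u δ_v)/a` is positive.
General lemma: if `Q` is positive definite on a subspace containing `g₁, g₂`, `c₁ > 0 > c₂` and this determinant is positive,
then `Q - c₁ℓ₁² - c₂ℓ₂²` is positive definite on it: `Q₁ = Q - c₂ ℓ₂²` is positive definite, `ℓ₁` is represented w.r.t. `Q₁` by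
`h = g₁ + (c₂Γ₁₂/(1 - c₂Γ₂₂)) g₂`, `Q₁ h = ℓ₁ h = Γ₁₁ + c₂Γ₁₂²/(1 - c₂Γ₂₂) < 1/c₁`, and Cauchy-Schwarz `ℓ₁(w)² ≤ Q₁ h · Q₁ w`
(expand `Q₁ (w - λ h) ≥ 0`).  For `s = -1` swap the roles of `1` and `2`.
-/

set_option autoImplicit false
set_option linter.unusedSectionVars false
open Finset Matrix

namespace Crest.Agent.R62

variable {ι V : Type} [Fintype ι] [DecidableEq ι] [Fintype V] [DecidableEq V]
  {P : Par ℝ} {vx : ι → V}

/-- rank two perturbation with coefficients of opposite signs -/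
theorem wood_two {E : Type*} [AddCommGroup E] [Module ℝ E] (B : E →ₗ[ℝ] E →ₗ[ℝ] ℝ)
    (hB : ∀ x y, B x y = B y x) (o : E) (hpos : ∀ z, B z o = 0 → z ≠ 0 → 0 < B z z)
    {g₁ g₂ w : E} (h₁ : B g₁ o = 0) (h₂ : B g₂ o = 0) (hw : B w o = 0) (hw0 : w ≠ 0) {c₁ c₂ : ℝ}
    (hc₁ : 0 < c₁) (hc₂ : c₂ ≤ 0)
    (hdet : 0 < (1 - c₁ * B g₁ g₁) * (1 - c₂ * B g₂ g₂) - c₁ * c₂ * B g₁ g₂ ^ 2) :
    0 < B w w - c₁ * B w g₁ ^ 2 - c₂ * B w g₂ ^ 2 := by
  have hnn : ∀ z, B z o = 0 → 0 ≤ B z z := fun z hz => by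
    by_cases h0 : z = 0
    · simp [h0]
    · exact (hpos z hz h0).le
  have hq := hpos w hw hw0
  have h22 := hnn g₂ h₂
  have hD : 0 < 1 - c₂ * B g₂ g₂ := by nlinarith
  set μ := c₂ * B g₁ g₂ / (1 - c₂ * B g₂ g₂) with hμ
  have hμ' : μ * (1 - c₂ * B g₂ g₂) = c₂ * B g₁ g₂ := div_mul_cancel₀ _ hD.ne'
  have hη : 0 < 1 - c₁ * (B g₁ g₁ + μ * B g₁ g₂) := by
    have e : (1 - c₁ * (B g₁ g₁ + μ * B g₁ g₂)) * (1 - c₂ * B g₂ g₂) =
        (1 - c₁ * B g₁ g₁) * (1 - c₂ * B g₂ g₂) - c₁ * c₂ * B g₁ g₂ ^ 2 := by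
      linear_combination (-c₁ * B g₁ g₂) * hμ'
    rw [← e] at hdet
    exact (mul_pos_iff_of_pos_right hD).1 hdet
  have h2 : 0 ≤ -c₂ * B w g₂ ^ 2 := mul_nonneg (by linarith) (sq_nonneg _)
  by_cases hl : B w g₁ = 0
  · rw [hl]
    linarith
  have hz := hnn (w - (c₁ * B w g₁) • g₁ - (c₁ * B w g₁ * μ) • g₂) (by simp [h₁, h₂, hw])
  simp only [map_sub, map_smul, LinearMap.sub_apply, LinearMap.smul_apply, smul_eq_mul,
    hB g₁ w, hB g₂ w, hB g₂ g₁] at hz
  have h3 : 0 ≤ -c₂ * (B w g₂ - c₁ * B w g₁ * (B g₁ g₂ + μ * B g₂ g₂)) ^ 2 :=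
    mul_nonneg (by linarith) (sq_nonneg _)
  have h4 : 0 < c₁ * B w g₁ ^ 2 * (1 - c₁ * (B g₁ g₁ + μ * B g₁ g₂)) := by positivity
  have e : B w w - c₁ * B w g₁ ^ 2 - c₂ * B w g₂ ^ 2 =
      (B w w - c₁ * B w g₁ * B w g₁ - c₁ * B w g₁ * μ * B w g₂ -
        c₁ * B w g₁ * (B w g₁ - c₁ * B w g₁ * B g₁ g₁ - c₁ * B w g₁ * μ * B g₁ g₂) -
        c₁ * B w g₁ * μ * (B w g₂ - c₁ * B w g₁ * B g₁ g₂ - c₁ * B w g₁ * μ * B g₂ g₂)) +
      -c₂ * (B w g₂ - c₁ * B w g₁ * (B g₁ g₂ + μ * B g₂ g₂)) ^ 2 +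
      c₁ * B w g₁ ^ 2 * (1 - c₁ * (B g₁ g₁ + μ * B g₁ g₂)) := by
    linear_combination (2 * c₁ * B w g₁ * B w g₂ -
      (c₁ * B w g₁) ^ 2 * (B g₁ g₂ + μ * B g₂ g₂)) * hμ'
  rw [e]
  linarith

theorem wood_det {s m b g du dv c ϱ k : ℝ} (hs : s = 1 ∨ s = -1) (hm0 : 0 < m) (hm1 : m < 1)
    (hsm : (s - m) * (b + g) = 1) (hsp : (s + m) * (b - g) = 1) (hϱ0 : 0 < ϱ)
    (hϱk : ϱ * (s - m) * k = ϱ - 1) (hk : 0 < (b - c) ^ 2 - du * dv) :
    0 < (1 - ϱ * (s - m) / 2 * (du + dv + 2 * c + 2 * g - 2 * k)) *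
      (1 - -(s + m) / 2 * (du + dv - 2 * c + 2 * g)) -
        ϱ * (s - m) / 2 * (-(s + m) / 2) * (du - dv) ^ 2 := by
  have e1 : 1 - ϱ * (s - m) / 2 * (du + dv + 2 * c + 2 * g - 2 * k) =
      ϱ * (s - m) * (b - c - (du + dv) / 2) := by
    linear_combination hϱk - ϱ * hsm
  have e2 : 1 - -(s + m) / 2 * (du + dv - 2 * c + 2 * g) = (s + m) * (b - c + (du + dv) / 2) := by
    linear_combination -hsp
  have hs2 : s ^ 2 = 1 := by rcases hs with rfl | rfl <;> norm_num
  rw [e1, e2]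
  have e : ϱ * (s - m) * (b - c - (du + dv) / 2) * ((s + m) * (b - c + (du + dv) / 2)) -
      ϱ * (s - m) / 2 * (-(s + m) / 2) * (du - dv) ^ 2 =
      ϱ * (s ^ 2 - m ^ 2) * ((b - c) ^ 2 - du * dv) := by ring
  rw [e, hs2]
  have : 0 < 1 - m ^ 2 := sub_pos.2 (pow_lt_one₀ hm0.le hm1 two_ne_zero)
  positivity

/-- positivity of the updated form on the new hyperplane, abstractly -/
theorem wood_pos {E : Type*} [AddCommGroup E] [Module ℝ E] (B : E →ₗ[ℝ] E →ₗ[ℝ] ℝ)
    (hB : ∀ x y, B x y = B y x) (o : E) (hpos : ∀ z, B z o = 0 → z ≠ 0 → 0 < B z z)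
    {s m b g r du dv c : ℝ} (hs : s = 1 ∨ s = -1) (hm0 : 0 < m) (hm1 : m < 1) (hr : 2 < r)
    (hsm : (s - m) * (b + g) = 1) (hsp : (s + m) * (b - g) = 1) {gx gy w : E}
    (hoo : B o o = (s - m) * r) (hx : B gx o = 1) (hy : B gy o = 1) (hxx : B gx gx = du + g)
    (hyy : B gy gy = dv + g) (hxy : B gx gy = c) (hw : B w o = (s - m) * (B w gx + B w gy))
    (hw0 : w ≠ 0) (hk : 0 < (b - c) ^ 2 - du * dv) :
    0 < B w w + m * (B w gx ^ 2 + B w gy ^ 2) - 2 * s * (B w gx * B w gy) := by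
  have hr0 : 0 < r := by linarith
  have hr2 : 0 < r - 2 := by linarith
  obtain ⟨τ, hτ⟩ : ∃ τ, τ * r = B w gx + B w gy := ⟨_, div_mul_cancel₀ _ hr0.ne'⟩
  obtain ⟨k, hk'⟩ : ∃ k, k * r = 2 * (b + g) := ⟨_, div_mul_cancel₀ _ hr0.ne'⟩
  obtain ⟨ϱ, hϱ⟩ : ∃ ϱ, ϱ * (r - 2) = r := ⟨_, div_mul_cancel₀ _ hr2.ne'⟩
  have hϱ0 : 0 < ϱ := (mul_pos_iff_of_pos_right hr2).1 (by rw [hϱ]; exact hr0)
  have hϱk : ϱ * (s - m) * k = ϱ - 1 := by
    refine mul_right_cancel₀ hr0.ne' ?_
    linear_combination ϱ * (s - m) * hk' + 2 * ϱ * hsm - hϱ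
  have hw₀ : B (w - τ • o) o = 0 := by
    simp only [map_sub, map_smul, LinearMap.sub_apply, LinearMap.smul_apply, smul_eq_mul, hw, hoo]
    linear_combination (-(s - m)) * hτ
  have hne : w - τ • o ≠ 0 := by
    intro h0
    have h1 : w = τ • o := sub_eq_zero.1 h0
    have h2 : τ * r = 2 * τ := by
      rw [hτ, h1]
      simp only [map_smul, LinearMap.smul_apply, smul_eq_mul, hB o gx, hB o gy, hx, hy]
      ring
    have h3 : τ = 0 := by
      refine mul_right_cancel₀ hr2.ne' ?_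
      linarith
    exact hw0 (by rw [h1, h3, zero_smul])
  have h₁ : B (gx + gy - k • o) o = 0 := by
    simp only [map_sub, map_add, map_smul, LinearMap.sub_apply, LinearMap.add_apply,
      LinearMap.smul_apply, smul_eq_mul, hx, hy, hoo]
    linear_combination (-(s - m)) * hk' - 2 * hsm
  have h₂ : B (gx - gy) o = 0 := by
    simp only [map_sub, LinearMap.sub_apply, hx, hy, sub_self]
  have v11 : B (gx + gy - k • o) (gx + gy - k • o) = du + dv + 2 * c + 2 * g - 2 * k := by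
    rw [map_sub, map_smul, h₁]
    simp only [map_sub, map_add, map_smul, LinearMap.sub_apply, LinearMap.add_apply,
      LinearMap.smul_apply, smul_eq_mul, hB o gx, hB o gy, hB gy gx, hx, hy, hxx, hyy, hxy]
    ring
  have v12 : B (gx + gy - k • o) (gx - gy) = du - dv := by
    simp only [map_sub, map_add, map_smul, LinearMap.sub_apply, LinearMap.add_apply,
      LinearMap.smul_apply, smul_eq_mul, hB o gx, hB o gy, hB gy gx, hx, hy, hxx, hyy, hxy]
    ring
  have v22 : B (gx - gy) (gx - gy) = du + dv - 2 * c + 2 * g := by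
    simp only [map_sub, LinearMap.sub_apply, hB gy gx, hxx, hyy, hxy]
    ring
  have l1 : B (w - τ • o) (gx + gy - k • o) = (r - 2) * τ := by
    rw [map_sub, map_smul, hw₀]
    simp only [map_sub, map_add, map_smul, LinearMap.sub_apply, LinearMap.smul_apply, smul_eq_mul,
      hB o gx, hB o gy, hx, hy]
    linear_combination -hτ
  have l2 : B (w - τ • o) (gx - gy) = B w gx - B w gy := by
    simp only [map_sub, map_smul, LinearMap.sub_apply, LinearMap.smul_apply, smul_eq_mul,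
      hB o gx, hB o gy, hx, hy]
    ring
  have q0 : B (w - τ • o) (w - τ • o) = B w w - (s - m) * r * τ ^ 2 := by
    rw [map_sub, map_smul, hw₀]
    simp only [map_sub, map_smul, LinearMap.sub_apply, LinearMap.smul_apply, smul_eq_mul,
      hB o w, hw]
    linear_combination (s - m) * τ * hτ
  have hdet := wood_det hs hm0 hm1 hsm hsp hϱ0 hϱk hk
  have key : 0 < B (w - τ • o) (w - τ • o) -
      ϱ * (s - m) / 2 * B (w - τ • o) (gx + gy - k • o) ^ 2 -
      -(s + m) / 2 * B (w - τ • o) (gx - gy) ^ 2 := by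
    rcases hs with rfl | rfl
    · refine wood_two B hB o hpos h₁ h₂ hw₀ hne ?_ (by linarith only [hm0])
        (by rwa [v11, v12, v22])
      have : 0 < 1 - m := by linarith only [hm1]
      positivity
    · have := wood_two B hB o hpos h₂ h₁ hw₀ hne (c₁ := -(-1 + m) / 2) (c₂ := ϱ * (-1 - m) / 2)
        (by linarith only [hm1])
        (div_nonpos_of_nonpos_of_nonneg (mul_nonpos_of_nonneg_of_nonpos hϱ0.le
          (by linarith only [hm0])) zero_le_two)
        (by rw [hB (gx - gy) (gx + gy - k • o), v11, v12, v22]; linarith only [hdet])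
      linarith only [this]
  rw [q0, l1, l2] at key
  have e : B w w + m * (B w gx ^ 2 + B w gy ^ 2) - 2 * s * (B w gx * B w gy) =
      B w w - (s - m) * r * τ ^ 2 - ϱ * (s - m) / 2 * ((r - 2) * τ) ^ 2 -
        -(s + m) / 2 * (B w gx - B w gy) ^ 2 := by
    linear_combination (s - m) / 2 * (τ * r + (B w gx + B w gy)) * hτ +
      (s - m) / 2 * (r - 2) * τ ^ 2 * hϱ
  rw [e]
  exact key

theorem wood_rho {R : Finset ι} {u v : ι} (hu : u ∈ R) (hv : v ∈ R) (huv : u ≠ v) (y : V) :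
    rho vx ((R.erase u).erase v) y =
      rho vx R y - (if y = vx u then 1 else 0) - (if y = vx v then 1 else 0) := by
  have e : ∀ S : Finset ι, rho vx S y = ∑ k ∈ S, if y = vx k then (1 : ℝ) else 0 := fun S => by
    simp only [rho, Finset.sum_boole, eq_comm (a := y)]
  rw [e, e, Finset.sum_erase_eq_sub (Finset.mem_erase.2 ⟨huv.symm, hv⟩),
    Finset.sum_erase_eq_sub hu]

theorem wood_Amat {adj : V → V → Prop} (hsym : ∀ y z, adj y z → adj z y) {x y : V} (hne : x ≠ y)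
    (hna : ¬ adj x y) (p q : V) : Amat (adjStep adj x y) p q =
      Amat adj p q + (if p = x ∧ q = y then 1 else 0) + (if p = y ∧ q = x then 1 else 0) := by
  have hna' : ¬ adj y x := fun h => hna (hsym _ _ h)
  simp only [Amat, adjStep, Matrix.of_apply]
  by_cases h1 : p = x ∧ q = y
  · obtain ⟨rfl, rfl⟩ := h1
    simp [hna, hne]
  · by_cases h2 : p = y ∧ q = x
    · obtain ⟨rfl, rfl⟩ := h2
      simp [hna', hne.symm]
    · by_cases h3 : adj p q <;> simp [h1, h2, h3]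

theorem wood_mulVec {d : ℕ} {s : ℝ} {R : Finset ι} {adj : V → V → Prop} (h : GInv d vx R adj)
    {u v : ι} (hu : u ∈ R) (hv : v ∈ R) (hne : vx u ≠ vx v) (hna : ¬ adj (vx u) (vx v))
    (w : V → ℝ) (y : V) :
    (Ht P s vx ((R.erase u).erase v) (adjStep adj (vx u) (vx v)) *ᵥ w) y =
      (Ht P s vx R adj *ᵥ w) y + (if y = vx u then P.m * w (vx u) - s * w (vx v) else 0) +
        (if y = vx v then P.m * w (vx v) - s * w (vx u) else 0) := by
  have huv : u ≠ v := fun h => hne (h ▸ rfl)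
  have e : ∀ z, Ht P s vx ((R.erase u).erase v) (adjStep adj (vx u) (vx v)) y z * w z =
      Ht P s vx R adj y z * w z +
        (if y = vx u then (if z = vx u then P.m * w z else 0) - (if z = vx v then s * w z else 0)
          else 0) +
        (if y = vx v then (if z = vx v then P.m * w z else 0) - (if z = vx u then s * w z else 0)
          else 0) := by
    intro z
    simp only [Ht, Matrix.of_apply, wood_rho hu hv huv, wood_Amat h.symm hne hna]
    by_cases h1 : y = vx u <;> by_cases h2 : y = vx v <;> by_cases h3 : z = vx u <;>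
      by_cases h4 : z = vx v <;> by_cases h5 : y = z <;> simp_all <;> ring
  simp only [Matrix.mulVec, dotProduct, e, Finset.sum_add_distrib]
  congr 1
  · congr 1
    split_ifs <;> simp [Finset.sum_sub_distrib]
  · split_ifs <;> simp [Finset.sum_sub_distrib]

theorem GInv.step {d : ℕ} {R : Finset ι} {adj : V → V → Prop} (h : GInv d vx R adj) {u v : ι}
    (hu : u ∈ R) (hv : v ∈ R) (hne : vx u ≠ vx v) (hna : ¬ adj (vx u) (vx v)) :
    GInv d vx ((R.erase u).erase v) (adjStep adj (vx u) (vx v)) := by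
  have huv : u ≠ v := fun h => hne (h ▸ rfl)
  refine ⟨?_, ?_, fun y => ?_⟩
  · rintro y z (h1 | h1 | h1)
    · exact Or.inl (h.symm _ _ h1)
    · exact Or.inr (Or.inr ⟨h1.2, h1.1⟩)
    · exact Or.inr (Or.inl ⟨h1.2, h1.1⟩)
  · rintro y (h1 | h1 | h1)
    · exact h.irrefl y h1
    · exact hne (h1.1.symm.trans h1.2)
    · exact hne (h1.2.symm.trans h1.1)
  · simp only [wood_rho hu hv huv, wood_Amat h.symm hne hna, Finset.sum_add_distrib]
    have e : ∀ a b : V, ∑ z, (if y = a ∧ z = b then (1 : ℝ) else 0) = if y = a then 1 else 0 := by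
      intro a b
      by_cases h1 : y = a <;> simp [h1]
    rw [e, e]
    linarith [h.deg y]

theorem WInv.step {s : ℝ} {R : Finset ι} {adj : V → V → Prop} {C : Matrix ι ι ℝ} (hP : P.Good)
    (hV : Fintype.card V = P.n) (hs : s = 1 ∨ s = -1) (hg : GInv P.d vx R adj)
    (h : WInv P s vx R adj C) (h3 : 3 ≤ R.card) {u v : ι}
    (hu : u ∈ R) (hv : v ∈ R) (hne : vx u ≠ vx v) (hna : ¬ adj (vx u) (vx v))
    (hk : 0 < (s * P.a - C u v) ^ 2 - C u u * C v v) :
    WInv P s vx ((R.erase u).erase v) (adjStep adj (vx u) (vx v)) (upd (s * P.a) C u v) := by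
  have huv : u ≠ v := fun h => hne (h ▸ rfl)
  obtain ⟨G, hG, hC⟩ := h.ex
  have hH : (Ht P s vx R adj).IsSymm := Ht_symm hg
  have hGs : ∀ y z, G y z = G z y := by
    have h1 : Gᵀ * Ht P s vx R adj = 1 := by
      have := congrArg Matrix.transpose hG
      rwa [Matrix.transpose_mul, hH.eq, Matrix.transpose_one] at this
    have h2 : Gᵀ = G := by
      calc Gᵀ = Gᵀ * (Ht P s vx R adj * G) := by rw [hG, Matrix.mul_one]
        _ = G := by rw [← Matrix.mul_assoc, h1, Matrix.one_mul]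
    exact fun y z => by rw [← Matrix.transpose_apply G z y, h2]
  have hcol : ∀ z y, (Ht P s vx R adj *ᵥ fun p => G p z) y = if y = z then 1 else 0 := by
    intro z y
    have := congrFun (congrFun hG y) z
    rwa [Matrix.mul_apply, Matrix.one_apply] at this
  have hs2 : s ^ 2 = 1 := by rcases hs with rfl | rfl <;> norm_num
  have hm1 : P.m < 1 := by nlinarith [hP.m2, hP.m0]
  have ha : P.a * (1 - P.m ^ 2) = 1 := by
    have : 1 - P.m ^ 2 ≠ 0 := by nlinarith [hP.m2]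
    unfold Par.a
    field_simp
  have hgm : P.g = P.m * P.a := rfl
  have huu : G (vx u) (vx u) = C u u + P.g := by rw [hC]; simp [hu]
  have hvv : G (vx v) (vx v) = C v v + P.g := by rw [hC]; simp [hv]
  have hc : G (vx u) (vx v) = C u v := by rw [hC]; simp [hu, hv, huv]
  have hκ : kap (s * P.a) C u v * ((s * P.a - C u v) ^ 2 - C u u * C v v) = 1 :=
    one_div_mul_cancel hk.ne'
  constructor
  · refine ⟨Matrix.of fun y z => G y z +
      kap (s * P.a) C u v * (C v v * G z (vx u) + (s * P.a - C u v) * G z (vx v)) * G y (vx u) +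
      kap (s * P.a) C u v * (C u u * G z (vx v) + (s * P.a - C u v) * G z (vx u)) * G y (vx v),
      ?_, fun k l => ?_⟩
    · ext y z
      set α := kap (s * P.a) C u v * (C v v * G z (vx u) + (s * P.a - C u v) * G z (vx v)) with hα
      set β := kap (s * P.a) C u v * (C u u * G z (vx v) + (s * P.a - C u v) * G z (vx u)) with hβ
      have h1 := wood_mulVec (P := P) (s := s) hg hu hv hne hna
        ((fun p => G p z) + α • (fun p => G p (vx u)) + β • fun p => G p (vx v)) y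
      have h0 : (Ht P s vx R adj *ᵥ
          ((fun p => G p z) + α • (fun p => G p (vx u)) + β • fun p => G p (vx v))) y =
          (if y = z then 1 else 0) + α * (if y = vx u then 1 else 0) +
            β * (if y = vx v then 1 else 0) := by
        rw [Matrix.mulVec_add, Matrix.mulVec_add, Matrix.mulVec_smul, Matrix.mulVec_smul]
        simp only [Pi.add_apply, Pi.smul_apply, smul_eq_mul, hcol]
      rw [h0] at h1
      simp only [Pi.add_apply, Pi.smul_apply, smul_eq_mul] at h1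
      have w1 : G (vx u) z + α * G (vx u) (vx u) + β * G (vx u) (vx v) = P.g * α + s * P.a * β := by
        rw [huu, hc, hGs (vx u) z, hα, hβ]
        linear_combination (-G z (vx u)) * hκ
      have w2 : G (vx v) z + α * G (vx v) (vx u) + β * G (vx v) (vx v) = P.g * β + s * P.a * α := by
        rw [hvv, hGs (vx v) (vx u), hc, hGs (vx v) z, hα, hβ]
        linear_combination (-G z (vx v)) * hκ
      have z1 : P.m * (P.g * α + s * P.a * β) - s * (P.g * β + s * P.a * α) = -α := by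
        rw [hgm]
        linear_combination (-α) * ha - P.a * α * hs2
      have z2 : P.m * (P.g * β + s * P.a * α) - s * (P.g * α + s * P.a * β) = -β := by
        rw [hgm]
        linear_combination (-β) * ha - P.a * β * hs2
      rw [w1, w2, z1, z2] at h1
      rw [Matrix.mul_apply, Matrix.one_apply]
      refine Eq.trans (b := _) ?_ (h1.trans ?_)
      · rfl
      · split_ifs <;> ring
    · simp only [upd, Matrix.of_apply, Finset.mem_erase]
      by_cases h1 : k = u ∨ k = v ∨ l = u ∨ l = v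
      · rw [if_pos h1, if_neg (by tauto)]
      rw [if_neg h1]
      push Not at h1
      obtain ⟨hku, hkv, hlu, hlv⟩ := h1
      by_cases hkR : k ∈ R
      · by_cases hlR : l ∈ R
        · rw [if_pos ⟨⟨hkv, hku, hkR⟩, hlv, hlu, hlR⟩, hC k l, hC k u, hC k v, hC l u, hC l v]
          simp only [hkR, hlR, hu, hv, hku, hkv, hlu, hlv, and_self, if_true, if_false]
          ring
        · rw [if_neg (by tauto), hC k l, hC l u, hC l v]
          simp [hlR]
      · rw [if_neg (by tauto), hC k l, hC k u, hC k v]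
        simp [hkR]
  · intro w hw hw0
    have hBs : ∀ x y : V → ℝ, Matrix.toBilin' (Ht P s vx R adj) x y =
        Matrix.toBilin' (Ht P s vx R adj) y x := by
      intro x y
      rw [Matrix.toBilin'_apply', Matrix.toBilin'_apply', Matrix.dotProduct_mulVec,
        ← Matrix.mulVec_transpose, hH.eq, dotProduct_comm]
    have hBo : ∀ z : V → ℝ, Matrix.toBilin' (Ht P s vx R adj) z (fun _ => 1) =
        (s - P.m) * ∑ y, rho vx R y * z y := by
      intro z
      rw [Matrix.toBilin'_apply', Finset.mul_sum]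
      refine Finset.sum_congr rfl fun y _ => ?_
      simp only [Matrix.mulVec, dotProduct, mul_one, Ht_one hP hV hg]
      ring
    have hBg : ∀ (z : V → ℝ) (p : V), Matrix.toBilin' (Ht P s vx R adj) z (fun y => G y p) = z p := by
      intro z p
      rw [Matrix.toBilin'_apply']
      simp [dotProduct, hcol]
    have hsm := sm_mul hP hs
    have hsm0 : s - P.m ≠ 0 := left_ne_zero_of_mul_eq_one hsm
    have hρ : ∑ y, rho vx R y * w y = w (vx u) + w (vx v) := by
      simp only [wood_rho hu hv huv, sub_mul, Finset.sum_sub_distrib, ite_mul, one_mul, zero_mul,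
        Finset.sum_ite_eq', Finset.mem_univ, if_true] at hw
      linarith
    have key := wood_pos (Matrix.toBilin' (Ht P s vx R adj)) hBs (fun _ => 1)
      (fun z hz hz0 => by
        rw [Matrix.toBilin'_apply']
        rw [hBo] at hz
        exact h.pos z ((mul_eq_zero.1 hz).resolve_left hsm0) hz0)
      (b := s * P.a) (g := P.g) (r := R.card) (du := C u u) (dv := C v v) (c := C u v) hs hP.m0 hm1
      (by exact_mod_cast h3) hsm (by rw [hgm]; linear_combination ha + P.a * hs2)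
      (gx := fun y => G y (vx u)) (gy := fun y => G y (vx v)) (w := w)
      (by rw [hBo, sum_rho]; simp) (by rw [hBs, hBg]) (by rw [hBs, hBg]) (by rw [hBg, huu])
      (by rw [hBg, hvv]) (by rw [hBg, hGs, hc]) (by rw [hBo, hBg, hBg, hρ]) hw0 hk
    rw [hBg, hBg, Matrix.toBilin'_apply'] at key
    simp only [dotProduct, wood_mulVec hg hu hv hne hna, mul_add, Finset.sum_add_distrib, mul_ite,
      mul_zero, Finset.sum_ite_eq', Finset.mem_univ, if_true] at key ⊢
    linarith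

theorem Inv.step {σ : St ι V} (hP : P.Good) (hV : Fintype.card V = P.n) (h : Inv P vx σ)
    (h3 : 3 ≤ σ.R.card) {u v : ι} (hok : σ.Ok P vx u v) : Inv P vx (σ.step P vx u v) := by
  obtain ⟨hu, hv, hne, hna, h1, h2⟩ := hok
  refine ⟨h.g.step hu hv hne hna, ?_, ?_⟩
  · have := h.w₁.step hP hV (Or.inl rfl) h.g h3 hu hv hne hna (by simpa using h1)
    simpa [St.step] using this
  · have := h.w₂.step hP hV (Or.inr rfl) h.g h3 hu hv hne hna (by simpa using h2)
    simpa [St.step] using this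

end Crest.Agent.R62
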