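import Crest.Agent.R62.Step
import Crest.Agent.R62.Wood
import Crest.Agent.R62.Init
import Crest.Agent.R62.Link
import Crest.Agent.R62.Size
import Crest.Agent.R62.Finish

/-!
# R62/Run: the invariant of the main loop and the correctness of the algorithm
-/

set_option autoImplicit false
set_option linter.unusedSectionVars false
open Finset Matrix

namespace Crest.Agent.R62

open Crest.Agent.Lib.PT

/-- the budget of the potential when `r` half-edges are left -/
noncomputable def budget (P : Par ℝ) (r : ℕ) : ℝ :=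
  1 / 2 + 20 * C2 / P.L * Real.log (P.r0 / r) + (if r ≤ P.r4 then 200 / (P.L : ℝ) else 0)

theorem budget_le {P : Par ℝ} (hP : P.Good) {r : ℕ} (hr : 0 < r) : budget P r ≤ 2 := by
  have hL := hP.L_big
  have hL1 := hP.L_one
  have hL0 : (0 : ℝ) < P.L := by linarith
  have hr1 : (1 : ℝ) ≤ r := by exact_mod_cast hr
  have h0 : (0 : ℝ) < P.r0 := by
    have h1 := hP.r0_lo
    have h2 := hP.n_lo
    have h3 : (0 : ℝ) < (P.L : ℝ) ^ 96000 := pow_pos hL0 _
    linarith
  have h1 : Real.log (P.r0 / r) ≤ 96001 * Real.log P.L := by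
    have e : (96001 : ℝ) * Real.log P.L = Real.log ((P.L : ℝ) ^ 96001) := by
      rw [Real.log_pow]; norm_num
    rw [e]
    refine Real.log_le_log (by positivity) ?_
    calc (P.r0 : ℝ) / r ≤ P.r0 := div_le_self h0.le hr1
      _ ≤ _ := hP.r0_hi
  set s := Real.sqrt P.L with hs
  have hs0 : 0 < s := Real.sqrt_pos.2 hL0
  have hss : s * s = P.L := Real.mul_self_sqrt hL0.le
  have hs1 : (10 : ℝ) ^ 40 ≤ s := by
    apply Real.le_sqrt_of_sq_le; calc ((10 : ℝ) ^ 40) ^ 2 = 10 ^ 80 := by norm_num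
      _ ≤ _ := hL
  have h2 : Real.log P.L ≤ 2 * s := by
    rw [← hss, Real.log_mul hs0.ne' hs0.ne']
    have := Real.log_le_sub_one_of_pos hs0
    linarith
  have h3 : 20 * C2 / P.L * Real.log (P.r0 / r) ≤ 1 / 2 := by
    have hC : 0 ≤ 20 * C2 / (P.L : ℝ) := by unfold C2; positivity
    calc 20 * C2 / P.L * Real.log (P.r0 / r) ≤ 20 * C2 / P.L * (96001 * (2 * s)) :=
          mul_le_mul_of_nonneg_left (h1.trans (by linarith)) hC
      _ = 20 * C2 * 96001 * 2 / s := by rw [← hss]; field_simp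
      _ ≤ 1 / 2 := by
          rw [div_le_iff₀ hs0]; unfold C2
          have : (20 : ℝ) * 10 ^ 18 * 96001 * 2 ≤ 1 / 2 * 10 ^ 40 := by norm_num
          linarith
  have h4 : (200 : ℝ) / P.L ≤ 1 := by
    rw [div_le_one hL0]
    have : (200 : ℝ) ≤ 10 ^ 80 := by norm_num
    linarith
  unfold budget
  split_ifs <;> linarith

theorem budget_step {P : Par ℝ} (hP : P.Good) {r : ℕ} (hr : 3 ≤ r) :
    budget P r + 20 * (C2 / (P.L * r)) +
      (if P.r4 < r ∧ r - 2 ≤ P.r4 then 200 / (P.L : ℝ) else 0) ≤ budget P (r - 2) := by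
  have hL1 := hP.L_one
  have hL0 : (0 : ℝ) < P.L := by linarith
  have hr3 : (3 : ℝ) ≤ r := by exact_mod_cast hr
  have h0 : (0 : ℝ) < P.r0 := by
    have h1 := hP.r0_lo
    have h2 := hP.n_lo
    have h3 : (0 : ℝ) < (P.L : ℝ) ^ 96000 := pow_pos hL0 _
    linarith
  have hc : ((r - 2 : ℕ) : ℝ) = r - 2 := by
    rw [Nat.cast_sub (by omega)]; norm_num
  have hlog : Real.log (P.r0 / r) + 1 / r ≤ Real.log (P.r0 / (r - 2 : ℕ)) := by
    rw [hc]
    have e : (P.r0 : ℝ) / (r - 2) = P.r0 / r * (r / (r - 2)) := by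
      have : (r : ℝ) - 2 ≠ 0 := by linarith
      field_simp
    have hp : (0 : ℝ) < r / (r - 2) := div_pos (by linarith) (by linarith)
    rw [e, Real.log_mul (by positivity) hp.ne']
    have h1 := Real.one_sub_inv_le_log_of_pos hp
    have e2 : 1 - ((r : ℝ) / (r - 2))⁻¹ = 2 / r := by
      have : (r : ℝ) - 2 ≠ 0 := by linarith
      field_simp; ring
    have : 1 / (r : ℝ) ≤ 2 / r := by gcongr; norm_num
    linarith
  have hC : 0 ≤ 20 * C2 / (P.L : ℝ) := by unfold C2; positivity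
  have h2 := mul_le_mul_of_nonneg_left hlog hC
  have e3 : 20 * C2 / (P.L : ℝ) * (Real.log (P.r0 / r) + 1 / r) =
      20 * C2 / P.L * Real.log (P.r0 / r) + 20 * (C2 / (P.L * r)) := by
    field_simp
  have h200 : 0 ≤ 200 / (P.L : ℝ) := by positivity
  unfold budget
  by_cases c1 : r ≤ P.r4
  · rw [if_pos c1, if_neg (by omega), if_pos (by omega)]; linarith
  · by_cases c2 : r - 2 ≤ P.r4
    · rw [if_neg c1, if_pos ⟨by omega, c2⟩, if_pos c2]; linarith
    · rw [if_neg c1, if_neg (by omega), if_neg c2]; linarith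

/-- the loop invariant -/
structure RInv (P : Par ℚ) (σ : Sig) : Prop where
  l : LInv P σ
  i : Inv P.toR (vxF P) (interp P σ)
  pos : 0 < σ.1.length
  u : (interp P σ).U P.toR (vxF P) ≤ budget P.toR σ.1.length

theorem rinv_init {P : Par ℚ} (hP : P.toR.Good) : RInv P (initL P) := by
  have hd : 0 < P.d := by have : 3 ≤ P.d := hP.d3; omega
  have hV : Fintype.card (Fin P.n) = P.toR.n := Fintype.card_fin _
  have hf := vxF_fiber P hd
  have hlen : (initL P).1.length = P.r0 := by simp [initL]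
  have hL1 := hP.L_one
  have h0 : (0 : ℝ) < P.toR.r0 := by
    have h1 := hP.r0_lo
    have h2 := hP.n_lo
    have h3 : (0 : ℝ) < (P.toR.L : ℝ) ^ 96000 := pow_pos (by linarith) _
    linarith
  refine ⟨linv_init P, ?_, ?_, ?_⟩
  · rw [interp_init]; exact init_inv hP hV hf
  · rw [hlen]; exact_mod_cast h0
  · rw [interp_init, hlen]
    refine (init_U hP hV hf).trans ?_
    unfold budget
    have e : ((P.toR.r0 : ℕ) : ℝ) / (P.r0 : ℕ) = 1 := div_self h0.ne'
    rw [e, Real.log_one]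
    have h200 : 0 ≤ 200 / (P.toR.L : ℝ) := by positivity
    split_ifs <;> linarith

theorem rinv_next {d n : ℕ} {σ : Sig} (hP : (par d n).toR.Good) (h : RInv (par d n) σ)
    (hrun : ¬ 4 * (par d n).L * σ.1.length ^ 2 ≤ (par d n).rs) :
    RInv (par d n) (nextC (par d n) σ) ∧ (nextC (par d n) σ).1.length + 2 = σ.1.length := by
  set P := par d n with hPdef
  have hV : Fintype.card (Fin P.n) = P.toR.n := Fintype.card_fin _
  have hcard := interp_card h.l
  have hrun' : P.toR.rs < 4 * P.toR.L * (interp P σ).R.card ^ 2 := by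
    rw [hcard]; exact not_le.1 hrun
  have hpar : ∃ i, (interp P σ).R.card + 2 * i = P.toR.r0 := ⟨_, by rw [hcard]; exact h.l.len⟩
  have hU : (interp P σ).U P.toR (vxF P) ≤ 2 := h.u.trans (budget_le hP h.pos)
  obtain ⟨u, v, hok, hle⟩ := step_exists hP hV h.i hrun' hpar hU
  have hbig : 1000 ≤ σ.1.length := by
    have hr' : (0 : ℝ) < σ.1.length := by exact_mod_cast h.pos
    have hc : Ctx P.toR σ.1.length ((σ.1.length : ℝ) ^ ((1 : ℝ) / 8)) :=
      ⟨hP, by rw [← hcard]; exact hrun', by rw [← hcard]; exact hpar,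
        Real.rpow_pos_of_pos hr' _, by
        rw [← Real.rpow_natCast, ← Real.rpow_mul hr'.le]; norm_num⟩
    exact hc.r_big
  have hmem := (mem_cands u v).2 hok
  obtain ⟨p, hp⟩ : ∃ p, (cands P σ).argmin (fun p => potL P (stepL P σ p)) = some p := by
    cases hh : (cands P σ).argmin (fun p => potL P (stepL P σ p)) with
    | none => rw [List.argmin_eq_none] at hh; rw [hh] at hmem; simp at hmem
    | some p => exact ⟨p, rfl⟩
  have hpm : p ∈ cands P σ := List.argmin_mem hp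
  have hmin : potL P (stepL P σ p) ≤ potL P (stepL P σ (u.val, v.val)) :=
    List.le_of_mem_argmin (f := fun p => potL P (stepL P σ p)) hmem hp
  have hnext : nextL P σ = stepL P σ p := by
    unfold nextL; rw [if_neg hrun, hp]; rfl
  obtain ⟨hp1, hp2⟩ := cands_lt h.l hpm
  have hpe : p = ((⟨p.1, hp1⟩ : Fin P.r0).val, (⟨p.2, hp2⟩ : Fin P.r0).val) := rfl
  have hok' : (interp P σ).Ok P.toR (vxF P) ⟨p.1, hp1⟩ ⟨p.2, hp2⟩ := (mem_cands _ _).1 hpm
  obtain ⟨l', hlen⟩ := linv_step h.l hpm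
  have i' : Inv P.toR (vxF P) (interp P (stepL P σ p)) := by
    rw [hpe, interp_step]
    exact h.i.step hP hV (by rw [hcard]; omega) hok'
  have hsz : sz (stepL P σ p) ≤ szB P := size_le hP l' i'
  have hC : nextC P σ = stepL P σ p := by
    unfold nextC; rw [hnext, if_pos hsz]
  rw [hC]
  refine ⟨⟨l', i', by omega, ?_⟩, hlen⟩
  rw [← pot_cast l']
  have h1 : (potL P (stepL P σ p) : ℝ) ≤ potL P (stepL P σ (u.val, v.val)) := by exact_mod_cast hmin
  rw [pot_cast (linv_step h.l hmem).1, interp_step] at h1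
  have e : (stepL P σ p).1.length = σ.1.length - 2 := by omega
  rw [e]
  rw [hcard] at hle
  have h2 := budget_step hP (r := σ.1.length) (by omega)
  have h3 := h.u
  linarith

theorem nextC_stop {P : Par ℚ} {σ : Sig} (h : 4 * P.L * σ.1.length ^ 2 ≤ P.rs) : nextC P σ = σ := by
  have : nextL P σ = σ := by unfold nextL; rw [if_pos h]
  unfold nextC; rw [this]; split_ifs <;> rfl

theorem rinv_iter {d n : ℕ} (hP : (par d n).toR.Good) (k : ℕ) :
    RInv (par d n) ((nextC (par d n))^[k] (initL (par d n))) ∧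
      (4 * (par d n).L * ((nextC (par d n))^[k] (initL (par d n))).1.length ^ 2 ≤ (par d n).rs ∨
        ((nextC (par d n))^[k] (initL (par d n))).1.length + 2 * k = (par d n).r0) := by
  induction k with
  | zero => exact ⟨rinv_init hP, Or.inr (by simp [initL])⟩
  | succ k ih =>
    rw [Function.iterate_succ_apply']
    set σ := (nextC (par d n))^[k] (initL (par d n))
    by_cases hs : 4 * (par d n).L * σ.1.length ^ 2 ≤ (par d n).rs
    · rw [nextC_stop hs]; exact ⟨ih.1, Or.inl hs⟩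
    · obtain ⟨h1, h2⟩ := rinv_next hP ih.1 hs
      refine ⟨h1, Or.inr ?_⟩
      have := ih.2.resolve_left hs
      omega

/-- numerical end of the argument -/
theorem final_bounds {P : Par ℝ} (hP : P.Good) {r : ℕ} (hr : 0 < r) (hs : 4 * P.L * r ^ 2 ≤ P.rs) :
    (∀ z, P.UF r z ≤ 2 → z - P.a ^ 2 < 1) ∧ (∀ z, P.US r z ≤ 2 → z < 1) ∧
      (∀ z, P.UA r z ≤ 2 → z < 1) := by
  have hL1 := hP.L_one
  have hL0 : (0 : ℝ) < P.L := by linarith
  have hr1 : (1 : ℝ) ≤ r := by exact_mod_cast hr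
  have hs' : 4 * (P.L : ℝ) * (r : ℝ) ^ 2 ≤ P.rs := by exact_mod_cast hs
  have hrs : (0 : ℝ) < P.rs := by rw [P.rs_cast]; exact pow_pos hL0 _
  have hn := hP.n_lo
  have hn0 : (0 : ℝ) < P.n := lt_of_lt_of_le (pow_pos hL0 _) hn
  have hA : (P.L : ℝ) ^ 3 * P.rs ≤ P.n := by
    rw [P.rs_cast, ← pow_add]
    exact (pow_le_pow_right₀ hL1 (by norm_num)).trans hn
  have hL3 : (1 : ℝ) ≤ (P.L : ℝ) ^ 3 := one_le_pow₀ hL1
  have hS : (P.rs : ℝ) ≤ P.n := le_trans (le_mul_of_one_le_left hrs.le hL3) hA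
  have h4 : r ≤ P.r4 := by
    have h1 : ((r : ℝ)) ^ 2 ≤ ((P.r4 : ℕ) : ℝ) ^ 2 := by
      rw [P.r4_cast, ← pow_mul]
      calc (r : ℝ) ^ 2 ≤ 4 * P.L * (r : ℝ) ^ 2 := le_mul_of_one_le_left (by positivity) (by linarith)
        _ ≤ P.rs := hs'
        _ ≤ _ := by rw [P.rs_cast]; exact pow_le_pow_right₀ hL1 (by norm_num)
    have h2 : (r : ℝ) ≤ (P.r4 : ℕ) := (pow_le_pow_iff_left₀ (Nat.cast_nonneg _) (Nat.cast_nonneg _)
      two_ne_zero).1 h1
    exact_mod_cast h2
  have hp : (0 : ℝ) < P.L * (r : ℝ) ^ 2 := by positivity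
  refine ⟨fun z hz => ?_, fun z hz => ?_, fun z hz => ?_⟩
  · unfold Par.UF at hz
    rw [if_pos h4, div_le_iff₀ hp] at hz
    by_contra hc
    have : (P.rs : ℝ) ≤ (z - P.a ^ 2) * P.rs := le_mul_of_one_le_left hrs.le (not_lt.1 hc)
    linarith
  · unfold Par.US at hz
    rw [div_le_iff₀ hp] at hz
    by_contra hc
    have : (P.n : ℝ) ≤ z * P.n := le_mul_of_one_le_left hn0.le (not_lt.1 hc)
    linarith
  · unfold Par.UA at hz
    rw [div_le_iff₀ (by positivity)] at hz
    by_contra hc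
    have h1 : (P.n : ℝ) ≤ z * P.n := le_mul_of_one_le_left hn0.le (not_lt.1 hc)
    have h2 : (P.L : ℝ) ^ 3 * (4 * P.L * (r : ℝ) ^ 2) ≤ (P.L : ℝ) ^ 3 * P.rs :=
      mul_le_mul_of_nonneg_left hs' (by positivity)
    have h3 : (P.L : ℝ) ^ 3 * (4 * P.L * (r : ℝ) ^ 2) = 4 * ((P.L : ℝ) ^ 4 * (r : ℝ) ^ 2) := by ring
    have h5 : 0 < (P.L : ℝ) ^ 4 * (r : ℝ) ^ 2 := by positivity
    linarith

open Crest.CombinatoricsR Classical in
theorem correct {d n : ℕ} (hP : (par d n).toR.Good) (hn : Even n) :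
    (GraphCode.adjGraph n (bitsL n (finalE d (runL (par d n))))).IsRegularOfDegree d ∧
    ∀ x : Fin n → ℝ, ∑ i, x i = 0 → x ≠ 0 →
      |x ⬝ᵥ ((GraphCode.adjGraph n (bitsL n (finalE d (runL (par d n))))).adjMatrix ℝ *ᵥ x)| <
        2 * Real.sqrt ((d : ℝ) - 1) * (x ⬝ᵥ x) := by
  obtain ⟨h, hs⟩ := rinv_iter hP (par d n).r0
  change RInv (par d n) (runL (par d n)) at h
  change 4 * (par d n).L * (runL (par d n)).1.length ^ 2 ≤ (par d n).rs ∨
    (runL (par d n)).1.length + 2 * (par d n).r0 = (par d n).r0 at hs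
  set σ := runL (par d n)
  have hpos := h.pos
  have hs' : 4 * (par d n).L * σ.1.length ^ 2 ≤ (par d n).rs := hs.resolve_right (by omega)
  have hV : Fintype.card (Fin (par d n).n) = (par d n).toR.n := Fintype.card_fin _
  have hcard := interp_card h.l
  obtain ⟨b1, b2, bS, bA⟩ := state_bnd hP hV h.i (by rw [hcard]; exact hpos)
    (h.u.trans (budget_le hP hpos))
  rw [hcard] at b1 b2 bS bA
  obtain ⟨f1, f2, f3⟩ := final_bounds hP hpos hs'
  have hev : Even σ.1.length := by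
    have h1 := h.l.len
    have h2 : Even (par d n).r0 := hn.mul_right d
    rw [← h1] at h2
    exact (Nat.even_add.1 h2).2 (even_two_mul _)
  have t1' := f1 _ b1.F
  have t2' := f1 _ b2.F
  rw [t2_res h.i.w₁.supp] at t1'
  rw [t2_res h.i.w₂.supp] at t2'
  exact finish hP h.l h.i hev hpos t1' t2' (f2 _ bS) (f3 _ bA)

end Crest.Agent.R62
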