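import Crest.Agent.R62.BFacts
import Crest.Agent.R62.DD
import Crest.Agent.R62.QQ

/-!
# R62/TD: one step of the `dd` term and of the `q4` term (TASK)

`term_D`: `D = dd B ≤ 2 Dbar r`, `q = q4/r`.  `Ξ Λ/t ≤ L^2671/L^4007 ≤ 1/L`.  By `drift_dd`
`E D' ≤ D (1 - (2 - 4q/b^4)/r + 2 CC/(L r)) + src`.  Ratio `Dbar r/Dbar (r-2)`:
* `r ≥ 2 r2 + 2`: `≤ 1` (if `r - 2 < 2 r2 + 2` then `Dbar (r-2) ≥ L^19 (r-2)/r4 ≥ L^19`), and `2 - 4q/b^4 ≥ -40/L` (`q_half`);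
* `r < 2 r2 + 2`: `≤ r/(r-2)`, `q ≤ 1/L^4780`, `(1 - 2/r) r/(r-2) = 1`.
In all cases `Dbar (r-2) ≥ Dbar r/2`.  Sources (`W/r ≤ 4 L^12`), each must be `≤ C Dbar r/(L r)`:
`t1² W L/r³`: for `r > r4`, `t1² ≤ r` (`4 L^64482 ≤ L^65240`, `4 L^63958 ≤ L^64072`) gives `4 L^13/r` and `Dbar r ≥ L^19`;
for `r ≤ r4`, `t1² ≤ r D` and `W/r ≤ 2 (L^12 r/r3 + L^-8) ≤ 4 L^-8`.  `Ω² W L/r³`: outside the tilt phase `= L^5 W/r²`, need
`L^6 W/r ≤ C Dbar r`: `4 L^18 ≤ L^19` for `r > r4` (indeed `r ≥ r4`), and `2 L^18 r/r3 + 2/L² ≤ 2 Dbar r` for `r < r3`;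
tilt: `4 L^(66394+14)/L^65240 ≤ L^1187 ≤ Dbar r`.  `L/r²`: `L² ≤ r/L²`.

`term_Q`: `f (r-2) ≤ f r (1 + 1/(2r))`, `4 - 3 q/b^4 ≥ 5/2 - 30/L` (`q_half`),
`(1 - 5/(2r) + (CC+30)/(L r)) (1 + 1/(2r)) r/(r-2) ≤ 1 + C/(L r)`, `q4 f/(L r) ≤ 2`;
`Ξ Λ^5 f ≤ t²` with `f ≤ L^4782`: tilt `12205 ≤ 16310`, middle `10724 ≤ 16018`, else `4884 ≤ 8014`.

General remarks.  `h : Side ..` provides `h.reg, h.wt, h.adm` (hypotheses of the drift lemmas, with `ϑ = 1/L`,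
`Λ = Lam r`, `ν = nu r t`, `Ξ = Xi r`, `Ω = Om r t`), `h.bnd` (use the lemmas `Bnd.*` of `BFacts`), `h.ctx` (lemmas
`Ctx.*`, `Good.*` of `Facts`), `h.rr_eq : rr ι = r`, `h.b_sq`, `h.nonneg`.  `t^8 = r`; `CC = 10^12`, `C2 = 10^18`,
`L ≥ 10^80`, `L^96000 ≤ n ≤ 2 L^96000`.  Split into phases (`by_cases`), rewrite the weights with `if_pos/if_neg`,
use linearity of `Ea` (`Ea_add, Ea_const_mul, Wt.Ea_const, Wt.Ea_mono`), then check the monomial inequalities with the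
bounds on `t` (`Ctx.t_lo, t_mid, t_tilt, t_hi`) and `cpow_le`.  Prove each monomial inequality as a separate small
lemma about real numbers `L, t, ..` (never let `norm_num`/`nlinarith` see the huge exponents; `calc`, `gcongr`,
`div_le_iff₀`, `pow_le_pow_right₀`, `ring`).
-/

set_option autoImplicit false
set_option linter.unusedSectionVars false
open Finset Matrix

namespace Crest.Agent.R62

variable {ι : Type} [Fintype ι] [DecidableEq ι] {P : Par ℝ} {r : ℕ} {t b : ℝ}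
  {B B' : Matrix ι ι ℝ} {ω : ι → ι → ℝ}

/-! ### real-number cores -/

theorem td_coreD {E D lam c S Db Db' X c' : ℝ} (hD0 : 0 ≤ D) (hDb : 0 < Db) (hDb' : 0 < Db')
    (hX : 0 < X) (hc : 0 ≤ c) (hS0 : 0 ≤ S) (hE : E ≤ D * lam + D * c / X + S)
    (hl : lam * Db ≤ Db') (h2 : Db ≤ 2 * Db') (hD : D ≤ 2 * Db) (hS : S ≤ c' * Db / X) :
    E / Db' ≤ D / Db + (4 * c + 2 * c') / X := by
  have h3 : D * lam / Db' ≤ D / Db := by
    rw [div_le_div_iff₀ hDb' hDb, mul_assoc]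
    exact mul_le_mul_of_nonneg_left hl hD0
  have h4 : D * c / X + S ≤ (2 * c + c') * Db / X := by
    have : D * c / X ≤ 2 * Db * c / X := by gcongr
    calc D * c / X + S ≤ 2 * Db * c / X + c' * Db / X := by linarith
      _ = _ := by ring
  have h5 : (D * c / X + S) / Db' ≤ (4 * c + 2 * c') / X := by
    have h0 : 0 ≤ D * c / X + S := by positivity
    have h6 : 0 ≤ (2 * c + c') / X := by
      have h7 : 0 ≤ (2 * c + c') / X * Db := by
        calc 0 ≤ (2 * c + c') * Db / X := h0.trans h4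
          _ = _ := by ring
      exact nonneg_of_mul_nonneg_left h7 hDb
    rw [div_le_iff₀ hDb']
    calc D * c / X + S ≤ (2 * c + c') / X * Db := h4.trans_eq (by ring)
      _ ≤ (2 * c + c') / X * (2 * Db') := by gcongr
      _ = _ := by ring
  calc E / Db' ≤ (D * lam + (D * c / X + S)) / Db' := by gcongr; linarith
    _ = D * lam / Db' + (D * c / X + S) / Db' := by ring
    _ ≤ _ := add_le_add h3 h5

theorem td_coreQ {E Q R L f f' c s : ℝ} (hR : 1000 ≤ R) (hL : 1 ≤ L) (hQ : 0 ≤ Q) (hf' : 0 ≤ f')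
    (hf : 0 ≤ f) (hc : 0 ≤ c) (hs : 0 ≤ s)
    (hE : E ≤ Q * (1 - 5 / (2 * R)) + c * Q / (L * R) + s)
    (h1 : f' ≤ f * (1 + 1 / (2 * R))) (h2 : Q * f / (L * R) ≤ 2) {c' : ℝ} (h3 : s * f ≤ c') :
    E * f' / (L * (R - 2)) ≤ Q * f / (L * R) + (4 * c + 2 * c') / (L * R) := by
  have hR0 : 0 < R := by linarith
  have hL0 : 0 < L := by linarith
  have hR2 : 0 < R - 2 := by linarith
  have e1 : 0 ≤ 1 - 5 / (2 * R) := by
    rw [sub_nonneg, div_le_one (by positivity)]; linarith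
  have e2 : (1 - 5 / (2 * R)) * (1 + 1 / (2 * R)) / (R - 2) ≤ 1 / R := by
    rw [div_le_div_iff₀ hR2 hR0]
    have : (1 - 5 / (2 * R)) * (1 + 1 / (2 * R)) * R = R - 2 - 5 / (4 * R) := by
      field_simp; ring
    have h5 : 0 ≤ 5 / (4 * R) := by positivity
    linarith
  have e3 : (1 + 1 / (2 * R)) / (R - 2) ≤ 2 / R := by
    rw [div_le_div_iff₀ hR2 hR0]
    have : (1 + 1 / (2 * R)) * R = R + 1 / 2 := by field_simp
    linarith
  have hN : 0 ≤ Q * (1 - 5 / (2 * R)) + c * Q / (L * R) + s := by positivity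
  have hc' : 0 ≤ c' := le_trans (by positivity) h3
  calc E * f' / (L * (R - 2))
      ≤ (Q * (1 - 5 / (2 * R)) + c * Q / (L * R) + s) * (f * (1 + 1 / (2 * R))) / (L * (R - 2)) := by
        gcongr ?_ / _
        exact (mul_le_mul_of_nonneg_right hE hf').trans (mul_le_mul_of_nonneg_left h1 hN)
    _ = Q * f / L * ((1 - 5 / (2 * R)) * (1 + 1 / (2 * R)) / (R - 2)) +
        (c * (Q * f / (L * R)) + s * f) / L * ((1 + 1 / (2 * R)) / (R - 2)) := by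
        field_simp
        ring
    _ ≤ Q * f / L * (1 / R) + (c * 2 + c') / L * (2 / R) := by gcongr
    _ = _ := by field_simp; ring

/-! ### the weights -/

theorem td_Xi_le (hg : P.Good) (r : ℕ) : P.Xi r ≤ (P.L : ℝ) ^ 1483 := by
  unfold Par.Xi; split_ifs
  · exact le_rfl
  · exact pow_le_pow_right₀ hg.L_one (by norm_num)

theorem td_Lam_le (hg : P.Good) (r : ℕ) : P.Lam r ≤ (P.L : ℝ) ^ 1188 := by
  unfold Par.Lam; split_ifs
  · exact le_rfl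
  · exact pow_le_pow_right₀ hg.L_one (by norm_num)

theorem td_Xi_nonneg (r : ℕ) : 0 ≤ P.Xi r := by unfold Par.Xi; split_ifs <;> positivity

theorem td_Lam_nonneg (r : ℕ) : 0 ≤ P.Lam r := by unfold Par.Lam; split_ifs <;> positivity

theorem td_XiLam (hc : Ctx P r t) : P.Xi r * P.Lam r / t ≤ 1 / P.L := by
  have hL := hc.good.L_one
  have h1 := td_Xi_le hc.good r
  have h2 := td_Lam_le hc.good r
  have h3 := td_Lam_nonneg (P := P) r
  rw [div_le_div_iff₀ hc.t0 (by linarith), one_mul]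
  calc P.Xi r * P.Lam r * P.L ≤ (P.L : ℝ) ^ 1483 * (P.L : ℝ) ^ 1188 * P.L := by gcongr
    _ = (P.L : ℝ) ^ 2672 := by ring
    _ ≤ (P.L : ℝ) ^ 4007 := pow_le_pow_right₀ hL (by norm_num)
    _ ≤ t := hc.t_lo

theorem td_sf (hc : Ctx P r t) : P.Xi r * P.Lam r ^ 5 / t ^ 2 * P.f r ≤ 1 := by
  have hL := hc.good.L_one
  have ht := hc.t0
  have hf := hc.good.f_le r
  have hf1 := hc.good.f_one r
  rw [div_mul_eq_mul_div, div_le_one (by positivity)]
  by_cases hr : P.r4 < r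
  · have h1 := td_Xi_le hc.good r
    have h2 := td_Lam_le hc.good r
    have h3 := td_Lam_nonneg (P := P) r
    calc P.Xi r * P.Lam r ^ 5 * P.f r
        ≤ (P.L : ℝ) ^ 1483 * ((P.L : ℝ) ^ 1188) ^ 5 * (P.L : ℝ) ^ 4782 := by gcongr
      _ = (P.L : ℝ) ^ 12205 := by ring
      _ ≤ (P.L : ℝ) ^ 16018 := pow_le_pow_right₀ hL (by norm_num)
      _ = ((P.L : ℝ) ^ 8009) ^ 2 := by ring
      _ ≤ t ^ 2 := by gcongr; exact hc.t_mid hr
  · have h4 := hc.good.r4_lt_r3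
    have h5 := hc.good.r3_lt_r2
    rw [Par.Xi, if_neg (by omega), Par.Lam, if_neg (by omega)]
    calc (P.L : ℝ) ^ 2 * ((P.L : ℝ) ^ 20) ^ 5 * P.f r
        ≤ (P.L : ℝ) ^ 2 * ((P.L : ℝ) ^ 20) ^ 5 * (P.L : ℝ) ^ 4782 := by gcongr
      _ = (P.L : ℝ) ^ 4884 := by ring
      _ ≤ (P.L : ℝ) ^ 8014 := pow_le_pow_right₀ hL (by norm_num)
      _ = ((P.L : ℝ) ^ 4007) ^ 2 := by ring
      _ ≤ t ^ 2 := by gcongr; exact hc.t_lo

theorem td_r4_pos (hg : P.Good) : (0 : ℝ) < P.r4 := by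
  have := hg.L_one
  rw [P.r4_cast]; positivity

theorem td_Dbar_ge (hg : P.Good) {r : ℕ} (hr : P.r4 ≤ r) : (P.L : ℝ) ^ 19 ≤ P.Dbar r := by
  have hL := hg.L_one
  have h4 := td_r4_pos hg
  unfold Par.Dbar; split_ifs
  · exact le_rfl
  · have h1 : (P.L : ℝ) ^ 19 ≤ (P.L : ℝ) ^ 19 * r / P.r4 := by
      rw [le_div_iff₀ h4]
      gcongr
    have h2 : 0 ≤ 1 / (P.L : ℝ) ^ 2 := by positivity
    linarith

theorem td_Dbar_ge' (hg : P.Good) (r : ℕ) : 1 / (P.L : ℝ) ^ 2 ≤ P.Dbar r := by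
  have hL := hg.L_one
  have h4 := td_r4_pos hg
  unfold Par.Dbar; split_ifs
  · exact (div_le_one_of_le₀ (one_le_pow₀ hL) (by positivity)).trans (one_le_pow₀ hL)
  · have : 0 ≤ (P.L : ℝ) ^ 19 * r / P.r4 := by positivity
    linarith

theorem td_ratioA (hc : Ctx P r t) (hr : 2 * P.r2 + 2 ≤ r) : P.Dbar r ≤ P.Dbar (r - 2) := by
  have h4 := hc.good.r4_lt_r3
  have h5 := hc.good.r3_lt_r2
  rw [Par.Dbar, if_pos hr]
  exact td_Dbar_ge hc.good (by omega)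

theorem td_ratioB (hc : Ctx P r t) (hr : r < 2 * P.r2 + 2) :
    (1 - 2 / (r : ℝ)) * P.Dbar r ≤ P.Dbar (r - 2) := by
  have hL := hc.good.L_one
  have h4 := td_r4_pos hc.good
  have hR : (1000 : ℝ) ≤ r := by exact_mod_cast hc.r_big
  rw [Par.Dbar, if_neg (by omega), Par.Dbar, if_neg (by omega), hc.cast_sub]
  have e : (1 - 2 / (r : ℝ)) * ((P.L : ℝ) ^ 19 * r / P.r4 + 1 / (P.L : ℝ) ^ 2) =
      (P.L : ℝ) ^ 19 * (r - 2) / P.r4 + 1 / (P.L : ℝ) ^ 2 - 2 / r * (1 / (P.L : ℝ) ^ 2) := by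
    field_simp
    ring
  have : 0 ≤ 2 / (r : ℝ) * (1 / (P.L : ℝ) ^ 2) := by positivity
  linarith

theorem td_ratio2 (hc : Ctx P r t) : P.Dbar r ≤ 2 * P.Dbar (r - 2) := by
  have h0 := hc.good.Dbar_pos r
  have h1 := hc.good.Dbar_pos (r - 2)
  by_cases hr : 2 * P.r2 + 2 ≤ r
  · have := td_ratioA hc hr
    linarith
  · have h2 := td_ratioB hc (by omega)
    have hR : (1000 : ℝ) ≤ r := by exact_mod_cast hc.r_big
    have h3 : 2 / (r : ℝ) ≤ 1 / 2 := by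
      rw [div_le_div_iff₀ (by linarith) (by norm_num)]; linarith
    nlinarith

/-! ### the sources of `dd` -/

theorem td_t1_sq (hb : Bnd P r B B') (hc : Ctx P r t) (hr : P.r4 < r) : t1 B ^ 2 ≤ r := by
  have hL := hc.good.L_one
  have hL4 : (4 : ℝ) ≤ P.L := le_trans (by norm_num) hc.good.L_big
  rw [← sq_abs]
  by_cases h2 : r ≤ P.r2
  · calc |t1 B| ^ 2 ≤ (2 * (P.L : ℝ) ^ 31979) ^ 2 := by
          gcongr; exact hb.t1_mid hc hr h2
      _ = 4 * (P.L : ℝ) ^ 63958 := by ring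
      _ ≤ (P.L : ℝ) ^ 64072 := cpow_le hL hL4 (by norm_num)
      _ = P.r4 := P.r4_cast.symm
      _ ≤ r := by exact_mod_cast hr.le
  · calc |t1 B| ^ 2 ≤ (2 * (P.L : ℝ) ^ 32241) ^ 2 := by
          gcongr; exact hb.t1_early hc hr
      _ = 4 * (P.L : ℝ) ^ 64482 := by ring
      _ ≤ (P.L : ℝ) ^ 65240 := cpow_le hL hL4 (by norm_num)
      _ = P.r2 := P.r2_cast.symm
      _ ≤ r := by exact_mod_cast (not_le.1 h2).le

theorem td_w_late (hb : Bnd P r B B') (hc : Ctx P r t) (hr : r ≤ P.r4) :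
    ww B ≤ 2 * ((P.L : ℝ) ^ 12 * r / P.r3 + 1 / (P.L : ℝ) ^ 8) * r := by
  have h4 := hc.good.r4_lt_r3
  have := hb.w_bd hc
  rw [Par.Wbar, if_neg (by omega)] at this
  exact this.trans_eq (by ring)

theorem td_src1 (h : Side P r t B B' b ω) :
    t1 B ^ 2 * ww B * (P.L : ℝ) ^ 2 ≤ 8 * P.Dbar r * (r : ℝ) ^ 2 := by
  have hc := h.ctx
  have hL := hc.good.L_one
  have hW := dd_ww_nonneg B
  have hD := hc.good.Dbar_pos r
  by_cases hr : P.r4 < r
  · calc t1 B ^ 2 * ww B * (P.L : ℝ) ^ 2 ≤ r * (4 * (P.L : ℝ) ^ 12 * r) * (P.L : ℝ) ^ 2 := by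
          gcongr
          · exact td_t1_sq h.bnd hc hr
          · exact h.bnd.w_bd' hc
      _ = 4 * (P.L : ℝ) ^ 14 * (r : ℝ) ^ 2 := by ring
      _ ≤ 8 * P.Dbar r * (r : ℝ) ^ 2 := by
          gcongr
          · norm_num
          · exact (pow_le_pow_right₀ hL (by norm_num)).trans (td_Dbar_ge hc.good hr.le)
  · have h1 : t1 B ^ 2 ≤ r * (2 * P.Dbar r) := by
      refine (t1_sq_le B).trans ?_
      rw [h.rr_eq]
      gcongr
      exact h.bnd.d_bd hc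
    have h2 : (P.L : ℝ) ^ 12 * r / P.r3 ≤ 1 / (P.L : ℝ) ^ 8 := by
      rw [P.r3_cast, div_le_div_iff₀ (by positivity) (by positivity), one_mul]
      have h3 : (r : ℝ) ≤ (P.L : ℝ) ^ 64072 := by
        rw [← P.r4_cast]; exact_mod_cast not_lt.1 hr
      calc (P.L : ℝ) ^ 12 * r * (P.L : ℝ) ^ 8 ≤ (P.L : ℝ) ^ 12 * (P.L : ℝ) ^ 64072 * (P.L : ℝ) ^ 8 := by
            gcongr
        _ = (P.L : ℝ) ^ 64092 := by ring
        _ ≤ _ := pow_le_pow_right₀ hL (by norm_num)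
    have h3 : ww B ≤ 4 / (P.L : ℝ) ^ 8 * r := by
      refine (td_w_late h.bnd hc (not_lt.1 hr)).trans ?_
      calc 2 * ((P.L : ℝ) ^ 12 * r / P.r3 + 1 / (P.L : ℝ) ^ 8) * r
          ≤ 2 * (1 / (P.L : ℝ) ^ 8 + 1 / (P.L : ℝ) ^ 8) * r := by gcongr
        _ = _ := by ring
    calc t1 B ^ 2 * ww B * (P.L : ℝ) ^ 2
        ≤ r * (2 * P.Dbar r) * (4 / (P.L : ℝ) ^ 8 * r) * (P.L : ℝ) ^ 8 := by
          gcongr
          norm_num
      _ = _ := by field_simp; ring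

theorem td_aux {L R x y : ℝ} (hL : 1 ≤ L) (hR : 0 ≤ R) (hx : 0 < x) (hxy : x ≤ y) :
    2 * (L ^ 18 * R / y + 1 / L ^ 2) * R ^ 2 ≤ 4 * (L ^ 19 * R / x + 1 / L ^ 2) * R ^ 2 := by
  have : 0 < y := by linarith
  gcongr
  · norm_num
  · norm_num

theorem td_src2 (h : Side P r t B B' b ω) :
    P.Om r t ^ 2 * ww B * (P.L : ℝ) ^ 2 ≤ 4 * P.Dbar r * (r : ℝ) ^ 2 := by
  have hc := h.ctx
  have hL := hc.good.L_one
  have hW := dd_ww_nonneg B
  have hD := hc.good.Dbar_pos r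
  have h4 := td_r4_pos hc.good
  unfold Par.Om
  split_ifs with h1
  · have h2 : (P.L : ℝ) ^ 65240 ≤ r := by rw [← P.r2_cast]; exact_mod_cast h1.1.le
    have h3 : (P.L : ℝ) ^ 1187 ≤ P.Dbar r := by
      rw [Par.Dbar, if_neg (by omega)]
      have h5 : (P.L : ℝ) ^ 1187 ≤ (P.L : ℝ) ^ 19 * r / P.r4 := by
        rw [le_div_iff₀ h4, P.r4_cast]
        calc (P.L : ℝ) ^ 1187 * (P.L : ℝ) ^ 64072 = (P.L : ℝ) ^ 19 * (P.L : ℝ) ^ 65240 := by ring
          _ ≤ _ := by gcongr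
      have h6 : 0 ≤ 1 / (P.L : ℝ) ^ 2 := by positivity
      linarith
    calc ((P.L : ℝ) ^ 33197) ^ 2 * ww B * (P.L : ℝ) ^ 2
        ≤ ((P.L : ℝ) ^ 33197) ^ 2 * (4 * (P.L : ℝ) ^ 12 * r) * (P.L : ℝ) ^ 2 := by
          gcongr; exact h.bnd.w_bd' hc
      _ = 4 * (P.L : ℝ) ^ 1168 * ((P.L : ℝ) ^ 65240 * r) := by ring
      _ ≤ 4 * P.Dbar r * (r * r) := by
          gcongr
          exact (pow_le_pow_right₀ hL (by norm_num)).trans h3
      _ = _ := by ring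
  · have e : ((P.L : ℝ) ^ 2 * t ^ 4) ^ 2 = (P.L : ℝ) ^ 4 * r := by rw [← hc.t8]; ring
    rw [e]
    by_cases hr : P.r4 < r
    · calc (P.L : ℝ) ^ 4 * r * ww B * (P.L : ℝ) ^ 2
          ≤ (P.L : ℝ) ^ 4 * r * (4 * (P.L : ℝ) ^ 12 * r) * (P.L : ℝ) ^ 2 := by
            gcongr; exact h.bnd.w_bd' hc
        _ = 4 * (P.L : ℝ) ^ 18 * (r : ℝ) ^ 2 := by ring
        _ ≤ _ := by
            gcongr
            exact (pow_le_pow_right₀ hL (by norm_num)).trans (td_Dbar_ge hc.good hr.le)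
    · have h5 := hc.good.r4_lt_r3
      have h6 := hc.good.r3_lt_r2
      have h7 : (P.r4 : ℝ) ≤ P.r3 := by exact_mod_cast (by omega : P.r4 ≤ P.r3)
      calc (P.L : ℝ) ^ 4 * r * ww B * (P.L : ℝ) ^ 2
          ≤ (P.L : ℝ) ^ 4 * r * (2 * ((P.L : ℝ) ^ 12 * r / P.r3 + 1 / (P.L : ℝ) ^ 8) * r) *
            (P.L : ℝ) ^ 2 := by
            gcongr; exact td_w_late h.bnd hc (not_lt.1 hr)
        _ = 2 * ((P.L : ℝ) ^ 18 * r / P.r3 + 1 / (P.L : ℝ) ^ 2) * (r : ℝ) ^ 2 := by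
            field_simp
        _ ≤ 4 * ((P.L : ℝ) ^ 19 * r / P.r4 + 1 / (P.L : ℝ) ^ 2) * (r : ℝ) ^ 2 :=
            td_aux hL (Nat.cast_nonneg r) h4 h7
        _ = _ := by rw [Par.Dbar, if_neg (by omega)]

theorem td_src3 (hc : Ctx P r t) : (P.L : ℝ) ^ 2 ≤ P.Dbar r * r := by
  have hL := hc.good.L_one
  calc (P.L : ℝ) ^ 2 = 1 / (P.L : ℝ) ^ 2 * (P.L : ℝ) ^ 4 := by field_simp
    _ ≤ P.Dbar r * r := by
      gcongr
      · exact (hc.good.Dbar_pos r).le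
      · exact td_Dbar_ge' hc.good r
      · exact (pow_le_pow_right₀ hL (by norm_num)).trans hc.r_lo

theorem td_src (h : Side P r t B B' b ω) :
    CC * ((t1 B ^ 2 / (r : ℝ) ^ 2 + P.Om r t ^ 2 / (r : ℝ) ^ 2) * ww B / (1 / P.L * r) +
      1 / (1 / P.L * (r : ℝ) ^ 2)) ≤ 13 * CC * P.Dbar r / (P.L * r) := by
  have hL := h.ctx.good.L_one
  have hR : (1000 : ℝ) ≤ r := by exact_mod_cast h.ctx.r_big
  have h1 := td_src1 h
  have h2 := td_src2 h
  have h3 := td_src3 h.ctx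
  have hC : 0 ≤ CC := by unfold CC; norm_num
  have h4 : (P.L : ℝ) ^ 2 * r ≤ P.Dbar r * r * r := by gcongr
  calc _ = CC * ((t1 B ^ 2 * ww B * (P.L : ℝ) ^ 2 + P.Om r t ^ 2 * ww B * (P.L : ℝ) ^ 2 +
          (P.L : ℝ) ^ 2 * r) / (r : ℝ) ^ 2) / (P.L * r) := by field_simp
    _ ≤ CC * ((8 * P.Dbar r * (r : ℝ) ^ 2 + 4 * P.Dbar r * (r : ℝ) ^ 2 + P.Dbar r * r * r) /
          (r : ℝ) ^ 2) / (P.L * r) := by gcongr
    _ = _ := by field_simp; ring

theorem td_b4 (h : Side P r t B B' b ω) : 1 ≤ b ^ 4 := by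
  have := h.reg.b1
  calc (1 : ℝ) ≤ (b ^ 2) ^ 2 := one_le_pow₀ this
    _ = b ^ 4 := by ring

theorem td_q_half (h : Side P r t B B' b ω) : q4 B / r / b ^ 4 ≤ 1 / 2 + 10 / P.L := by
  have := td_b4 h
  rw [div_le_iff₀ (by linarith)]
  exact h.q_half

theorem term_D (h : Side P r t B B' b ω) :
    Ea ω (fun u v => P.UD (r - 2) (dd (upd b B u v))) ≤ P.UD r (dd B) + C2 / (P.L * r) := by
  have hc := h.ctx
  have hL := hc.good.L_one
  have hR : (1000 : ℝ) ≤ r := by exact_mod_cast hc.r_big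
  have hC : 0 ≤ CC := by unfold CC; norm_num
  have hD0 := dd_dd_nonneg B
  have hW := dd_ww_nonneg B
  have e : Ea ω (fun u v => P.UD (r - 2) (dd (upd b B u v))) =
      Ea ω (fun u v => dd (upd b B u v)) / P.Dbar (r - 2) := by
    rw [div_eq_inv_mul, ← Ea_const_mul]
    simp only [Par.UD, div_eq_inv_mul]
  have hE := drift_dd h.reg h.wt h.adm
  rw [h.rr_eq] at hE
  have h1 : CC * (1 / P.L + P.Xi r * P.Lam r / t) * dd B / r ≤ dd B * (2 * CC) / (P.L * r) := by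
    calc CC * (1 / P.L + P.Xi r * P.Lam r / t) * dd B / r ≤ CC * (1 / P.L + 1 / P.L) * dd B / r := by
          gcongr CC * (_ + ?_) * _ / _; exact td_XiLam hc
      _ = _ := by field_simp; ring
  have key : ∀ lam : ℝ, lam * P.Dbar r ≤ P.Dbar (r - 2) →
      -(2 - 4 * (q4 B / r) / b ^ 4) / r ≤ lam - 1 + 40 / (P.L * r) →
      Ea ω (fun u v => dd (upd b B u v)) / P.Dbar (r - 2) ≤ P.UD r (dd B) + C2 / (P.L * r) := by
    intro lam hl hk
    have h2 := mul_le_mul_of_nonneg_left hk hD0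
    refine (td_coreD (c := 2 * CC + 40) hD0 (hc.good.Dbar_pos r) (hc.good.Dbar_pos _)
      (by positivity) (by positivity) (by positivity) ?_ hl (td_ratio2 hc) (h.bnd.d_bd hc)
      (td_src h)).trans ?_
    · have e1 : dd B * (-(2 - 4 * (q4 B / r) / b ^ 4) / r) =
          -((2 - 4 * (q4 B / r) / b ^ 4) * dd B / r) := by ring
      have e2 : dd B * (lam - 1 + 40 / (P.L * r)) = dd B * lam - dd B + dd B * 40 / (P.L * r) := by
        ring
      have e3 : dd B * (2 * CC + 40) / (P.L * r) =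
          dd B * (2 * CC) / (P.L * r) + dd B * 40 / (P.L * r) := by ring
      linarith
    · unfold Par.UD
      gcongr
      unfold CC C2
      norm_num
  rw [e]
  by_cases hr : 2 * P.r2 + 2 ≤ r
  · refine key 1 (by rw [one_mul]; exact td_ratioA hc hr) ?_
    have h2 := td_q_half h
    calc (-(2 - 4 * (q4 B / r) / b ^ 4) / r : ℝ) = (4 * (q4 B / r / b ^ 4) - 2) / r := by ring
      _ ≤ ((4 * (1 / 2 + 10 / P.L) - 2) / r : ℝ) := by gcongr
      _ = _ := by field_simp; ring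
  · refine key _ (td_ratioB hc (by omega)) ?_
    have h2 : q4 B / r / b ^ 4 ≤ 10 / P.L := by
      have h3 := h.bnd.q_small2 hc (by omega)
      have h4 := td_b4 h
      have h5 : 1 / (P.L : ℝ) ^ 4780 ≤ 10 / P.L := by
        gcongr
        · norm_num
        · exact le_self_pow₀ hL (by norm_num)
      have h6 : 0 ≤ q4 B / r := by
        have : 0 ≤ q4 B := Finset.sum_nonneg fun _ _ => Finset.sum_nonneg fun _ _ => by positivity
        positivity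
      exact (div_le_self h6 h4).trans (h3.trans h5)
    calc (-(2 - 4 * (q4 B / r) / b ^ 4) / r : ℝ) = (4 * (q4 B / r / b ^ 4) - 2) / r := by ring
      _ ≤ ((4 * (10 / P.L) - 2) / r : ℝ) := by gcongr
      _ = _ := by field_simp; ring

theorem term_Q (h : Side P r t B B' b ω) :
    Ea ω (fun u v => P.UQ (r - 2) (q4 (upd b B u v))) ≤ P.UQ r (q4 B) + C2 / (P.L * r) := by
  have hc := h.ctx
  have hL := hc.good.L_one
  have ht := hc.t0
  have hR : (1000 : ℝ) ≤ r := by exact_mod_cast hc.r_big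
  have hC : 0 ≤ CC := by unfold CC; norm_num
  have hQ : 0 ≤ q4 B := Finset.sum_nonneg fun _ _ => Finset.sum_nonneg fun _ _ => by positivity
  have e : Ea ω (fun u v => P.UQ (r - 2) (q4 (upd b B u v))) =
      Ea ω (fun u v => q4 (upd b B u v)) * P.f (r - 2) / (P.L * (r - 2)) := by
    rw [mul_div_assoc, mul_comm, ← Ea_const_mul, ← hc.cast_sub]
    simp only [Par.UQ, mul_div_assoc, mul_comm]
  have hE := drift_q4 h.reg h.wt h.adm
  rw [h.rr_eq] at hE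
  have hX := td_Xi_nonneg (P := P) r
  have hΛ := td_Lam_nonneg (P := P) r
  rw [e]
  refine (td_coreQ (Q := q4 B) (c := CC + 30) (s := CC * P.Xi r * P.Lam r ^ 5 / t ^ 2) (c' := CC)
    hR hL hQ (zero_le_one.trans (hc.good.f_one _)) (zero_le_one.trans (hc.good.f_one r))
    (by positivity) (div_nonneg (mul_nonneg (mul_nonneg hC hX) (pow_nonneg hΛ 5)) (sq_nonneg t))
    ?_ hc.f_step h.bnd.Q ?_).trans ?_
  · have h2 : 3 * (q4 B / r) / b ^ 4 * (q4 B / r) ≤ 3 * (1 / 2 + 10 / P.L) * (q4 B / r) := by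
      rw [mul_div_assoc]
      gcongr
      exact td_q_half h
    have e1 : q4 B * (1 - 5 / (2 * r)) + (CC + 30) * q4 B / (P.L * r) =
        q4 B - 4 * (q4 B / r) + 3 * (1 / 2 + 10 / P.L) * (q4 B / r) +
          CC * (1 / P.L) * (q4 B / r) := by
      field_simp
      ring
    have e2 : (4 - 3 * (q4 B / r) / b ^ 4) * (q4 B / r) =
        4 * (q4 B / r) - 3 * (q4 B / r) / b ^ 4 * (q4 B / r) := by ring
    linarith
  · calc CC * P.Xi r * P.Lam r ^ 5 / t ^ 2 * P.f r = CC * (P.Xi r * P.Lam r ^ 5 / t ^ 2 * P.f r) := by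
          ring
      _ ≤ CC * 1 := by gcongr; exact td_sf hc
      _ = CC := mul_one _
  · unfold Par.UQ
    gcongr
    unfold CC C2
    norm_num

end Crest.Agent.R62
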