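import Crest.Agent.R62.BFacts
import Crest.Agent.R62.Psi

/-!
# R62/TPsi: one step of the `ψ` term (TASK)

If `r - 2 ≤ r4` the left side is `0`.  Otherwise `ψ = a² r - t2 B`, `Ψ = Psi r`, `τ = tau r`, `y = ψ - Ψ`, `y² ≤ 2τ²`, `Δ = t2' - t2`,
`Ψ' = Psi (r-2) = Ψ/(1+z)`, `z = 2Ψ/(a² r (r-2)) ≤ 2/(r-2)` (`Psi_step`), `τ' = τ/(1+z)²`,
`y' = y - 2a² - Δ + (Ψ - Ψ')`.  With `o = t2/r = a² - ψ/r`: `-2a² + 4 o - 2 o²/a² = -2 ψ²/(a² r²)`.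
`Ψ - Ψ' = Ψ z/(1+z) = 2Ψ²/(a² r²) + e`, `|e| ≤ 20 Ψ²/r³`.  So
`E y' = y (1 - 2(ψ+Ψ)/(a² r²)) + err = y (1 - 4Ψ/(a² r²) - 2y/(a² r²)) + err`,
`|err| ≤ 4|t1||t3|/r² + CC Ξ (Λ/t^4 + ν³/t^12) + 20Ψ²/r³ ≤ C τ/(L r)`, and `|y|/r² ≤ 2τ/r² ≤ 2Ψ/(L r²) ≤ 8/(L r)`;
`|1 - 4Ψ/(a²r²) - 2y/(a²r²)| (1+z)² ≤ 1 + C/(L r)` (`(1+z)² ≤ 1 + 4Ψ/(a² r²) + 40/r²`, `L ≤ r`).
`E y'² = (E y')² + E (y' - E y')² ≤ (E y')² + E (y' - y)²`, `(y'-y)² ≤ 3Δ² + 3·64 + 3·100`, `E Δ² ≤ CC (ν^6/r² + Λ^4)`.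
Lower bound `τ ≥ M²/(4 L² rs)`, `M = min r rs` (`tau_ge`); the monomial checks (`rs = L^64120`, `ν = 2 L^48024/t²`):
* `20Ψ²/r³ ≤ C τ/(L r)`: `τ = Ψ² Y0/L`, `Y0 ≥ 1/(L rs)`, `L³ rs ≤ r²`.
* `r ≥ rs` (`τ ≥ L^64118/4`): `|t1||t3| L/r ≤ 12 L^(32241+96002)/L^65240` if `r > r2`, `≤ 12 L^(31979+96002)/L^64120` else;
  `Ξ Λ t^4 L ≤ L^(2672 + 48004)`; `Ξ ν³ L/t^4 = 8 Ξ L^144073/t^10` with `t^10 ≥ L^81550` (`Ξ ≤ L^1483`, `r > r2`) or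
  `t^10 ≥ L^80090` (`Ξ = L²`): exponents `64006`, `63985 < 64118`.  Variance: `ν^6 L/r = 64 L^288145/t^20`, `t^20 ≥ L^160180`,
  `127965 < 128236`; `Λ^4 L r ≤ L^(4753+96001)`.
* `r4 < r < rs` (`τ ≥ r²/(4 L^64122)`, `Ξ = L²`, `t ≥ L^8009`): `|t1||t3| L L^64122 ≤ 12 L^192103 ≤ r³ (≥ L^192216)`;
  `Ξ Λ t^4 L L^64122 ≤ r²`; `8 L^(144075+64122) ≤ t^26 (≥ L^208234)`; variance `64 L^(288145+128244) ≤ t^52 (≥ L^416468)`,
  `Λ^4 L L^128244 ≤ r³`.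
Also prove `dF_le` (used by `TChi`, `TF`): `-4 o + 2 o²/a² ≤ 0` as `0 ≤ o ≤ a²`, `Side.t1_t3_small`, and
`CC Ξ Λ/t^4, CC Ξ ν³/t^12 = 8 CC Ξ L^144072/t^18 ≤ 1/4` (`t^18 ≥ L^144162`, resp. `L^146790` when `Ξ = L^1483`).

General remarks.  `h : Side ..` provides `h.reg, h.wt, h.adm` (hypotheses of the drift lemmas, with `ϑ = 1/L`,
`Λ = Lam r`, `ν = nu r t`, `Ξ = Xi r`, `Ω = Om r t`), `h.bnd` (use the lemmas `Bnd.*` of `BFacts`), `h.ctx` (lemmas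
`Ctx.*`, `Good.*` of `Facts`), `h.rr_eq : rr ι = r`, `h.b_sq`, `h.nonneg`.  `t^8 = r`; `CC = 10^12`, `C2 = 10^18`,
`L ≥ 10^80`, `L^96000 ≤ n ≤ 2 L^96000`.  Split into phases (`by_cases`), rewrite the weights with `if_pos/if_neg`,
use linearity of `Ea` (`Ea_add, Ea_const_mul, Wt.Ea_const, Wt.Ea_mono`), then check the monomial inequalities with the
bounds on `t` (`Ctx.t_lo, t_mid, t_tilt, t_hi`) and `cpow_le`.  Prove each monomial inequality as a separate small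
lemma about real numbers `L, t, ..` (never let `norm_num`/`nlinarith` see the huge exponents; `calc`, `gcongr`,
`div_le_iff₀`, `pow_le_pow_right₀`, `ring`).
-/

set_option autoImplicit false
set_option linter.unusedSectionVars false
open Finset Matrix

namespace Crest.Agent.R62

variable {ι : Type} [Fintype ι] [DecidableEq ι] {P : Par ℝ} {r : ℕ} {t b : ℝ}
  {B B' : Matrix ι ι ℝ} {ω : ι → ι → ℝ}

/-! ### monomial inequalities -/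

theorem tpsi_m1 {L R x y : ℝ} (hL : 10 ^ 80 ≤ L) {p q : ℕ} (hx : |x| ≤ 2 * L ^ p)
    (hy : |y| ≤ 6 * L ^ 96001) (hR : L ^ q ≤ R) (hpq : p + 96002 < 64011 + q) :
    4 * |x| * |y| / R ^ 2 * (L * R) ≤ L ^ 64011 := by
  have hL1 : 1 ≤ L := le_trans (by norm_num) hL
  have hL0 : 0 < L := by linarith
  have hR0 : 0 < R := lt_of_lt_of_le (by positivity) hR
  have e : 4 * |x| * |y| / R ^ 2 * (L * R) = 4 * |x| * |y| * L / R := by field_simp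
  rw [e, div_le_iff₀ hR0]
  calc 4 * |x| * |y| * L ≤ 4 * (2 * L ^ p) * (6 * L ^ 96001) * L := by gcongr
    _ = 48 * L ^ (p + 96002) := by rw [pow_add]; ring
    _ ≤ L ^ (64011 + q) := cpow_le hL1 (le_trans (by norm_num) hL) hpq
    _ = L ^ 64011 * L ^ q := pow_add _ _ _
    _ ≤ _ := by gcongr

theorem tpsi_m2 {L t Ξ Λ : ℝ} (hL : 10 ^ 80 ≤ L) (ht : 0 < t) (ht2 : t ≤ L ^ 12001)
    (hΞ : Ξ ≤ L ^ 1483) (hΛ0 : 0 ≤ Λ) (hΛ : Λ ≤ L ^ 1188) :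
    CC * Ξ * (Λ / t ^ 4) * (L * t ^ 8) ≤ L ^ 64011 := by
  have hL1 : 1 ≤ L := le_trans (by norm_num) hL
  have hL0 : 0 < L := by linarith
  have hC : 0 < CC := by unfold CC; norm_num
  have e : CC * Ξ * (Λ / t ^ 4) * (L * t ^ 8) = CC * Ξ * Λ * L * t ^ 4 := by field_simp
  rw [e]
  calc CC * Ξ * Λ * L * t ^ 4 ≤ CC * L ^ 1483 * L ^ 1188 * L * (L ^ 12001) ^ 4 := by gcongr
    _ = CC * L ^ 50676 := by ring
    _ ≤ L ^ 64011 := cpow_le hL1 (le_trans (by unfold CC; norm_num) hL) (by norm_num)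

theorem tpsi_m3 {L t Ξ : ℝ} (hL : 10 ^ 80 ≤ L) {x q : ℕ} (ht : L ^ q ≤ t) (hΞ : Ξ ≤ L ^ x)
    (hxq : x + 144073 < 64011 + q * 10) :
    CC * Ξ * ((2 * L ^ 48024 / t ^ 2) ^ 3 / t ^ 12) * (L * t ^ 8) ≤ L ^ 64011 := by
  have hL1 : 1 ≤ L := le_trans (by norm_num) hL
  have hL0 : 0 < L := by linarith
  have hC : 0 < CC := by unfold CC; norm_num
  have ht0 : 0 < t := lt_of_lt_of_le (by positivity) ht
  have e : CC * Ξ * ((2 * L ^ 48024 / t ^ 2) ^ 3 / t ^ 12) * (L * t ^ 8) =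
      8 * CC * Ξ * L ^ 144073 / t ^ 10 := by
    have e1 : L ^ 144073 = (L ^ 48024) ^ 3 * L := by ring
    rw [e1]
    generalize L ^ 48024 = Z
    field_simp
    ring
  rw [e, div_le_iff₀ (by positivity)]
  calc 8 * CC * Ξ * L ^ 144073 ≤ 8 * CC * L ^ x * L ^ 144073 := by gcongr
    _ = 8 * CC * L ^ (x + 144073) := by rw [pow_add]; ring
    _ ≤ L ^ (64011 + q * 10) := cpow_le hL1 (le_trans (by unfold CC; norm_num) hL) hxq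
    _ = L ^ 64011 * (L ^ q) ^ 10 := by rw [pow_add, pow_mul]
    _ ≤ _ := by gcongr

theorem tpsi_m4 {L t : ℝ} (hL : 10 ^ 80 ≤ L) (ht : L ^ 8009 ≤ t) :
    CC * ((2 * L ^ 48024 / t ^ 2) ^ 6 / t ^ 16) * (L * t ^ 8) ≤ L ^ 127966 := by
  have hL1 : 1 ≤ L := le_trans (by norm_num) hL
  have hL0 : 0 < L := by linarith
  have hC : 0 < CC := by unfold CC; norm_num
  have ht0 : 0 < t := lt_of_lt_of_le (by positivity) ht
  have e : CC * ((2 * L ^ 48024 / t ^ 2) ^ 6 / t ^ 16) * (L * t ^ 8) =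
      64 * CC * L ^ 288145 / t ^ 20 := by
    have e1 : L ^ 288145 = (L ^ 48024) ^ 6 * L := by ring
    rw [e1]
    generalize L ^ 48024 = Z
    field_simp
    ring
  rw [e, div_le_iff₀ (by positivity)]
  calc 64 * CC * L ^ 288145 ≤ L ^ 288146 :=
        cpow_le hL1 (le_trans (by unfold CC; norm_num) hL) (by norm_num)
    _ = L ^ 127966 * (L ^ 8009) ^ 20 := by ring
    _ ≤ _ := by gcongr

theorem tpsi_m5 {L t Λ : ℝ} (hL : 10 ^ 80 ≤ L) (ht : 0 < t) (ht2 : t ≤ L ^ 12001)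
    (hΛ0 : 0 ≤ Λ) (hΛ : Λ ≤ L ^ 1188) : CC * Λ ^ 4 * (L * t ^ 8) ≤ L ^ 127966 := by
  have hL1 : 1 ≤ L := le_trans (by norm_num) hL
  have hL0 : 0 < L := by linarith
  have hC : 0 < CC := by unfold CC; norm_num
  calc CC * Λ ^ 4 * (L * t ^ 8) ≤ CC * (L ^ 1188) ^ 4 * (L * (L ^ 12001) ^ 8) := by gcongr
    _ = CC * L ^ 100761 := by ring
    _ ≤ L ^ 127966 := cpow_le hL1 (le_trans (by unfold CC; norm_num) hL) (by norm_num)

theorem tpsi_m6 {L M : ℝ} (hL : 10 ^ 80 ≤ L) (hM : L ^ 64072 ≤ M) :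
    L ^ 64022 / 4 ≤ M ^ 2 / (4 * L ^ 2 * L ^ 64120) := by
  have hL1 : 1 ≤ L := le_trans (by norm_num) hL
  have hL0 : 0 < L := by linarith
  rw [le_div_iff₀ (by positivity)]
  calc L ^ 64022 / 4 * (4 * L ^ 2 * L ^ 64120) = (L ^ 64072) ^ 2 := by ring
    _ ≤ M ^ 2 := by gcongr

theorem tpsi_m7 {L R Y Ψ : ℝ} (hL : 10 ^ 80 ≤ L) (hR : L ^ 64072 ≤ R) (hY : 1 / (L * L ^ 64120) ≤ Y) :
    Ψ ^ 2 / R ^ 3 ≤ Ψ ^ 2 * Y / L * (1 / (L * R)) := by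
  have hL1 : 1 ≤ L := le_trans (by norm_num) hL
  have hL0 : 0 < L := by linarith
  have hR0 : 0 < R := lt_of_lt_of_le (by positivity) hR
  have h1 : L ^ 2 * (L * L ^ 64120) ≤ R ^ 2 := by
    calc L ^ 2 * (L * L ^ 64120) = L ^ 64123 := by ring
      _ ≤ L ^ 128144 := pow_le_pow_right₀ hL1 (by norm_num)
      _ = (L ^ 64072) ^ 2 := by ring
      _ ≤ R ^ 2 := by gcongr
  have hZ : 0 < L * L ^ 64120 := by positivity
  generalize L * L ^ 64120 = Z at *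
  calc Ψ ^ 2 / R ^ 3 = Ψ ^ 2 / R / R ^ 2 := by field_simp
    _ ≤ Ψ ^ 2 / R / (L ^ 2 * Z) := by gcongr
    _ = Ψ ^ 2 * (1 / Z) / L * (1 / (L * R)) := by field_simp
    _ ≤ _ := by gcongr

/-! ### the real-variable core -/

theorem tpsi_z {R s z : ℝ} (hR : 1000 ≤ R) (hs0 : 0 ≤ s) (hs : s * R ≤ 2) (hz : z * (R - 2) = s * R) :
    s ≤ z ∧ (z - s) * R ≤ 3 * s ∧ z ^ 2 * R ≤ 3 * s ∧ z ≤ 1 / 100 := by
  have h1 : 0 ≤ z := by
    by_contra hn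
    have : z * (R - 2) < 0 := mul_neg_of_neg_of_pos (not_le.1 hn) (by linarith)
    have : 0 ≤ s * R := by positivity
    linarith
  have h2 : (z - s) * R = 2 * z := by linarith
  have h3 : s ≤ z := by
    by_contra hn
    have : (z - s) * R < 0 := mul_neg_of_neg_of_pos (by linarith) (by linarith)
    linarith
  have h4 : z ≤ 101 / 100 * s := by
    by_contra hn
    have a1 : 101 / 100 * s * (R - 2) ≤ z * (R - 2) :=
      mul_le_mul_of_nonneg_right (not_le.1 hn).le (by linarith)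
    have a2 : 0 ≤ s * (R - 1000) := mul_nonneg hs0 (by linarith)
    have a3 : s = 0 := by nlinarith
    rw [a3] at hz hn
    have : z = 0 := by
      rcases mul_eq_zero.1 (hz.trans (zero_mul R)) with h | h
      · exact h
      · linarith
    rw [this] at hn
    norm_num at hn
  have h5 : z * R ≤ 202 / 100 := by nlinarith
  have h6 : z ≤ 1 / 100 := by nlinarith
  refine ⟨h3, by linarith, ?_, h6⟩
  calc z ^ 2 * R = z * (z * R) := by ring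
    _ ≤ 101 / 100 * s * (202 / 100) := by gcongr
    _ ≤ 3 * s := by linarith

theorem tpsi_fac {s z x δ ρ : ℝ} (hs0 : 0 ≤ s) (hsz : s ≤ z) (hz : z ≤ 1 / 100)
    (h1 : z - s ≤ ρ) (h2 : z ^ 2 ≤ ρ) (hρ : ρ ≤ 6 * δ) (hx : |x| ≤ 4 * δ) (hδ : δ ≤ 1 / 1000) :
    |1 - 2 * s - x| * (1 + z) ^ 2 ≤ 1 + 30 * δ := by
  have hδ0 : 0 ≤ δ := by linarith [abs_nonneg x]
  obtain ⟨x1, x2⟩ := abs_le.1 hx
  rw [abs_of_nonneg (by linarith)]
  have a1 : (1 + z) ^ 2 ≤ 1 + 2 * s + 18 * δ := by nlinarith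
  calc (1 - 2 * s - x) * (1 + z) ^ 2 ≤ (1 - 2 * s + 4 * δ) * (1 + 2 * s + 18 * δ) := by
        apply mul_le_mul (by linarith) a1 (by positivity) (by linarith)
    _ ≤ 1 + 30 * δ := by nlinarith [mul_nonneg hs0 hδ0, sq_nonneg s]

theorem tpsi_tail {z δ τ τ' y ε e φ V : ℝ} (hz0 : 0 ≤ z) (z4 : z ≤ 1 / 100) (hδ0 : 0 < δ)
    (hδ1 : δ ≤ 1 / 1000) (hτ : 0 < τ) (hτ' : τ' * (1 + z) ^ 2 = τ) (hy : |y| ≤ 2 * τ)
    (hε : |ε| ≤ τ * δ) (he1 : |e| ≤ 6 * (τ * δ)) (f1 : |φ| * (1 + z) ^ 2 ≤ 1 + 30 * δ)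
    (hV : V ≤ τ ^ 2 * δ) :
    ((y * φ + (e + ε)) ^ 2 + V) / τ' ^ 2 ≤ y ^ 2 / τ ^ 2 + 10000 * δ := by
  have hz2 : (1 + z) ^ 2 ≤ 2 := by nlinarith
  have hτδ : 0 < τ * δ := by positivity
  have g1 : |y * φ + (e + ε)| * (1 + z) ^ 2 ≤ |y| + 74 * (τ * δ) := by
    have a1 : |y * φ + (e + ε)| ≤ |y| * |φ| + 7 * (τ * δ) := by
      have := abs_add_le (y * φ) (e + ε)
      have := abs_add_le e ε
      rw [abs_mul] at *
      linarith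
    calc _ ≤ (|y| * |φ| + 7 * (τ * δ)) * (1 + z) ^ 2 := by gcongr
      _ = |y| * (|φ| * (1 + z) ^ 2) + 7 * (τ * δ) * (1 + z) ^ 2 := by ring
      _ ≤ |y| * (1 + 30 * δ) + 7 * (τ * δ) * 2 := by gcongr
      _ = |y| + 30 * (|y| * δ) + 14 * (τ * δ) := by ring
      _ ≤ |y| + 30 * (2 * τ * δ) + 14 * (τ * δ) := by gcongr
      _ = _ := by ring
  generalize y * φ + (e + ε) = m at *
  have g2 : m ^ 2 * ((1 + z) ^ 2) ^ 2 ≤ y ^ 2 + 400 * (τ ^ 2 * δ) := by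
    have a1 : (|m| * (1 + z) ^ 2) ^ 2 ≤ (|y| + 74 * (τ * δ)) ^ 2 := by gcongr
    have a2 : |y| * (τ * δ) ≤ 2 * τ * (τ * δ) := by gcongr
    have a3 : (τ * δ) ^ 2 ≤ τ ^ 2 * δ * (1 / 1000) := by
      calc (τ * δ) ^ 2 = τ ^ 2 * δ * δ := by ring
        _ ≤ _ := by gcongr
    have a4 : 0 ≤ τ ^ 2 * δ := by positivity
    rw [mul_pow, sq_abs, add_sq |y|, sq_abs] at a1
    have a5 : 2 * |y| * (74 * (τ * δ)) = 148 * (|y| * (τ * δ)) := by ring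
    have a6 : (74 * (τ * δ)) ^ 2 = 5476 * (τ * δ) ^ 2 := by ring
    have a7 : 2 * τ * (τ * δ) = 2 * (τ ^ 2 * δ) := by ring
    rw [a5, a6] at a1
    rw [a7] at a2
    generalize τ ^ 2 * δ = X at *
    linarith
  have g3 : V * ((1 + z) ^ 2) ^ 2 ≤ 4 * (τ ^ 2 * δ) := by
    calc V * ((1 + z) ^ 2) ^ 2 ≤ τ ^ 2 * δ * ((1 + z) ^ 2) ^ 2 := by gcongr
      _ ≤ τ ^ 2 * δ * 2 ^ 2 := by gcongr
      _ = _ := by ring
  have hz1 : 0 < (1 + z) ^ 2 := by positivity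
  have hτ'0 : 0 < τ' := by
    by_contra hn
    have : τ' * (1 + z) ^ 2 ≤ 0 := mul_nonpos_of_nonpos_of_nonneg (not_lt.1 hn) hz1.le
    linarith
  have a4 : 0 ≤ τ ^ 2 * δ := by positivity
  calc (m ^ 2 + V) / τ' ^ 2 = (m ^ 2 + V) * ((1 + z) ^ 2) ^ 2 / τ ^ 2 := by
        rw [← hτ']; field_simp
    _ ≤ (y ^ 2 + 10000 * (τ ^ 2 * δ)) / τ ^ 2 := by gcongr; linarith
    _ = _ := by field_simp

theorem tpsi_core {R L A Ψ Ψ' τ τ' y ε V z : ℝ} (hR : 1000 ≤ R) (hL : 1 ≤ L) (hLR : L ≤ R)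
    (hA : 1 ≤ A) (hΨ0 : 0 < Ψ) (hΨ : Ψ ≤ A * R) (hz : z = 2 * Ψ / (A * R * (R - 2)))
    (hΨ' : Ψ' * (1 + z) = Ψ) (hτ : 0 < τ) (hτ1 : τ ≤ Ψ / L) (hτ' : τ' * (1 + z) ^ 2 = τ)
    (he : Ψ ^ 2 / R ^ 3 ≤ τ * (1 / (L * R))) (hy : |y| ≤ 2 * τ) (hε : |ε| ≤ τ * (1 / (L * R)))
    (hV : V ≤ τ ^ 2 * (1 / (L * R))) :
    ((y - 2 * (Ψ + y) ^ 2 / (A * R ^ 2) + (Ψ - Ψ') + ε) ^ 2 + V) / τ' ^ 2 ≤
      y ^ 2 / τ ^ 2 + 10000 * (1 / (L * R)) := by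
  have hR0 : 0 < R := by linarith
  have hR2 : 0 < R - 2 := by linarith
  have hA0 : 0 < A := by linarith
  have hL0 : 0 < L := by linarith
  obtain ⟨w, hw⟩ : ∃ w, w = 2 / (A * R ^ 2) := ⟨_, rfl⟩
  have hw0 : 0 < w := by rw [hw]; positivity
  obtain ⟨δ, hδ⟩ : ∃ δ, δ = 1 / (L * R) := ⟨_, rfl⟩
  have hδ0 : 0 < δ := by rw [hδ]; positivity
  have hδ1 : δ ≤ 1 / 1000 := by
    rw [hδ]
    exact one_div_le_one_div_of_le (by norm_num) (by nlinarith)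
  have hsR : w * Ψ * R ≤ 2 := by
    calc w * Ψ * R ≤ w * (A * R) * R := by gcongr
      _ = 2 := by rw [hw]; field_simp
  have hzs : z * (R - 2) = w * Ψ * R := by rw [hz, hw]; field_simp
  obtain ⟨z1, z2, z3, z4⟩ := tpsi_z hR (by positivity) hsR hzs
  have hz0 : 0 ≤ z := le_trans (by positivity) z1
  have hρ : 3 * (w * Ψ) / R ≤ 6 * δ := by
    rw [hδ, div_le_iff₀ hR0]
    have a1 : w * Ψ * L ≤ 2 := le_trans (by gcongr) hsR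
    have a2 : 6 * (1 / (L * R)) * R = 6 / L := by field_simp
    rw [a2, le_div_iff₀ hL0]
    linarith
  have hx : |w * y| ≤ 4 * δ := by
    rw [abs_mul, abs_of_pos hw0, hδ]
    calc w * |y| ≤ w * (2 * (Ψ / L)) := by gcongr; linarith
      _ = 2 * (w * Ψ * R) * (1 / (L * R)) := by field_simp
      _ ≤ 2 * 2 * (1 / (L * R)) := by gcongr
      _ = _ := by ring
  have f1 := tpsi_fac (by positivity) z1 z4 ((le_div_iff₀ hR0).2 z2) ((le_div_iff₀ hR0).2 z3) hρ hx hδ1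
  -- the error `e`
  have he1 : |Ψ - Ψ' - w * Ψ ^ 2| ≤ 6 * (τ * δ) := by
    have hΨ'0 : 0 < Ψ' := by
      by_contra hn
      have : Ψ' * (1 + z) ≤ 0 := mul_nonpos_of_nonpos_of_nonneg (not_lt.1 hn) (by linarith)
      linarith
    have hΨ'1 : Ψ' ≤ Ψ := by nlinarith
    have e1 : Ψ - Ψ' - w * Ψ ^ 2 = Ψ * (z - w * Ψ) - Ψ' * z ^ 2 := by rw [← hΨ']; ring
    have b1 : Ψ * (z - w * Ψ) ≤ Ψ * (3 * (w * Ψ) / R) := by
      have := (le_div_iff₀ hR0).2 z2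
      gcongr
    have b2 : Ψ' * z ^ 2 ≤ Ψ * (3 * (w * Ψ) / R) := by
      have := (le_div_iff₀ hR0).2 z3
      gcongr
    have b3 : 0 ≤ Ψ * (z - w * Ψ) := mul_nonneg hΨ0.le (by linarith)
    have b4 : 0 ≤ Ψ' * z ^ 2 := by positivity
    have b5 : Ψ * (3 * (w * Ψ) / R) ≤ 6 * (τ * δ) := by
      calc Ψ * (3 * (w * Ψ) / R) = 6 * (Ψ ^ 2 / R ^ 3) / A := by rw [hw]; field_simp; ring
        _ ≤ 6 * (Ψ ^ 2 / R ^ 3) := div_le_self (by positivity) hA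
        _ ≤ _ := by rw [hδ]; gcongr
    rw [e1, abs_le]
    constructor <;> linarith
  rw [← hδ] at hε hV ⊢
  have e2 : y - 2 * (Ψ + y) ^ 2 / (A * R ^ 2) + (Ψ - Ψ') + ε =
      y * (1 - 2 * (w * Ψ) - w * y) + (Ψ - Ψ' - w * Ψ ^ 2 + ε) := by rw [hw]; ring
  rw [e2]
  exact tpsi_tail hz0 z4 hδ0 hδ1 hτ hτ' hy hε he1 f1 hV

/-! ### the error terms in a `Side` -/

theorem tpsi_R (hr : P.r4 < r) : (P.L : ℝ) ^ 64072 ≤ r := by
  rw [← P.r4_cast]; exact_mod_cast hr.le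

theorem tpsi_Lam (hg : P.Good) : P.Lam r ≤ (P.L : ℝ) ^ 1188 := by
  unfold Par.Lam
  split_ifs
  · exact le_rfl
  · exact pow_le_pow_right₀ hg.L_one (by norm_num)

theorem tpsi_Xi (hg : P.Good) : P.Xi r ≤ (P.L : ℝ) ^ 1483 := by
  unfold Par.Xi
  split_ifs
  · exact le_rfl
  · exact pow_le_pow_right₀ hg.L_one (by norm_num)

theorem tpsi_eta (h : Side P r t B B' b ω) (hr : P.r4 < r) :
    (4 * |t1 B| * |t3 B| / (r : ℝ) ^ 2 +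
      CC * P.Xi r * (P.Lam r / t ^ 4 + P.nu r t ^ 3 / t ^ 12)) * (P.L * r) ≤ (P.L : ℝ) ^ 64012 := by
  have hg := h.ctx.good
  have hL := hg.L_big
  have hL1 := hg.L_one
  have hΛ0 : 0 ≤ P.Lam r := by linarith [h.reg.L1]
  have h3 : |t3 B| ≤ 6 * (P.L : ℝ) ^ 96001 := by
    calc |t3 B| ≤ 3 * P.L * P.n := h.bnd.t3_mid h.ctx hr
      _ ≤ 3 * P.L * (2 * (P.L : ℝ) ^ 96000) := by have := hg.n_hi; gcongr
      _ = _ := by ring
  have a2 := tpsi_m2 hL h.ctx.t0 h.ctx.t_hi (tpsi_Xi (r := r) hg) hΛ0 (tpsi_Lam hg)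
  have hν : P.nu r t = 2 * (P.L : ℝ) ^ 48024 / t ^ 2 := by unfold Par.nu; rw [if_pos hr]
  have a13 : 4 * |t1 B| * |t3 B| / (r : ℝ) ^ 2 * (P.L * r) ≤ (P.L : ℝ) ^ 64011 ∧
      CC * P.Xi r * ((2 * (P.L : ℝ) ^ 48024 / t ^ 2) ^ 3 / t ^ 12) * (P.L * t ^ 8) ≤
        (P.L : ℝ) ^ 64011 := by
    by_cases h2 : P.r2 < r
    · have hR : (P.L : ℝ) ^ 65240 ≤ r := by rw [← P.r2_cast]; exact_mod_cast h2.le
      exact ⟨tpsi_m1 hL (h.bnd.t1_early h.ctx hr) h3 hR (by norm_num),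
        tpsi_m3 hL (h.ctx.t_tilt h2) (tpsi_Xi hg) (by norm_num)⟩
    · have hΞ : P.Xi r ≤ (P.L : ℝ) ^ 2 := by
        unfold Par.Xi; rw [if_neg fun hh => h2 hh.1]
      exact ⟨tpsi_m1 hL (h.bnd.t1_mid h.ctx hr (not_lt.1 h2)) h3 (tpsi_R hr) (by norm_num),
        tpsi_m3 hL (h.ctx.t_mid hr) hΞ (by norm_num)⟩
  obtain ⟨a1, a3⟩ := a13
  rw [← hν, h.ctx.t8] at a3
  rw [h.ctx.t8] at a2
  have a4 : 3 * (P.L : ℝ) ^ 64011 ≤ (P.L : ℝ) ^ 64012 :=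
    cpow_le hL1 (le_trans (by norm_num) hL) (by norm_num)
  generalize (P.L : ℝ) ^ 64011 = Z at *
  calc _ = 4 * |t1 B| * |t3 B| / (r : ℝ) ^ 2 * (P.L * r) + CC * P.Xi r * (P.Lam r / t ^ 4) * (P.L * r) +
        CC * P.Xi r * (P.nu r t ^ 3 / t ^ 12) * (P.L * r) := by ring
    _ ≤ 3 * Z := by linarith
    _ ≤ _ := a4

theorem tpsi_tau (h : Side P r t B B' b ω) (hr : P.r4 < r) : (P.L : ℝ) ^ 64022 / 4 ≤ P.tau r := by
  have hg := h.ctx.good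
  refine le_trans ?_ (hg.tau_ge (by omega))
  rw [P.rs_cast]
  exact tpsi_m6 hg.L_big (le_min (tpsi_R hr) (pow_le_pow_right₀ hg.L_one (by norm_num)))

theorem tpsi_var (h : Side P r t B B' b ω) (hr : P.r4 < r) :
    CC * (P.nu r t ^ 6 / t ^ 16 + P.Lam r ^ 4) * (P.L * r) ≤ P.tau r ^ 2 := by
  have hg := h.ctx.good
  have hL := hg.L_big
  have hL1 := hg.L_one
  have hΛ0 : 0 ≤ P.Lam r := by linarith [h.reg.L1]
  have hν : P.nu r t = 2 * (P.L : ℝ) ^ 48024 / t ^ 2 := by unfold Par.nu; rw [if_pos hr]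
  have a1 := tpsi_m4 hL (h.ctx.t_mid hr)
  have a2 := tpsi_m5 hL h.ctx.t0 h.ctx.t_hi hΛ0 (tpsi_Lam hg)
  rw [← hν, h.ctx.t8] at a1
  rw [h.ctx.t8] at a2
  have a3 : 32 * (P.L : ℝ) ^ 127966 ≤ (P.L : ℝ) ^ 128044 :=
    cpow_le hL1 (le_trans (by norm_num) hL) (by norm_num)
  have a4 := tpsi_tau h hr
  calc _ = CC * (P.nu r t ^ 6 / t ^ 16) * (P.L * r) + CC * P.Lam r ^ 4 * (P.L * r) := by ring
    _ ≤ (P.L : ℝ) ^ 127966 + (P.L : ℝ) ^ 127966 := add_le_add a1 a2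
    _ = 32 * (P.L : ℝ) ^ 127966 / 16 := by ring
    _ ≤ (P.L : ℝ) ^ 128044 / 16 := by gcongr
    _ = ((P.L : ℝ) ^ 64022 / 4) ^ 2 := by ring
    _ ≤ _ := by gcongr

/-- the drift of `t2` up to the error -/
theorem tpsi_drift (h : Side P r t B B' b ω) :
    |Ea ω (fun u v => t2 (upd b B u v) - t2 B) -
      (-4 * (t2 B / r) + 2 * (t2 B / r) ^ 2 / P.a ^ 2)| ≤
    4 * |t1 B| * |t3 B| / (r : ℝ) ^ 2 +
      CC * P.Xi r * (P.Lam r / t ^ 4 + P.nu r t ^ 3 / t ^ 12) := by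
  have h1 := drift_t2 h.reg h.wt h.adm
  rw [h.rr_eq, h.b_sq] at h1
  have ha : 1 ≤ P.a ^ 2 := one_le_pow₀ h.ctx.good.a1
  have hr : (0 : ℝ) < r := by have := h.ctx.r_big; exact_mod_cast (by omega : 0 < r)
  have h2 : |4 * t1 B * t3 B / (P.a ^ 2 * (r : ℝ) ^ 2)| ≤ 4 * |t1 B| * |t3 B| / (r : ℝ) ^ 2 := by
    rw [abs_div, abs_mul, abs_mul, abs_of_pos (by positivity : 0 < P.a ^ 2 * (r : ℝ) ^ 2),
      abs_of_pos (by norm_num : (0 : ℝ) < 4)]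
    exact div_le_div_of_nonneg_left (by positivity) (by positivity)
      (le_mul_of_one_le_left (by positivity) ha)
  rw [abs_le] at *
  constructor <;> linarith [h1.1, h1.2, h2.1, h2.2]

theorem tpsi_sq (hw : Wt ω (1 / P.L) (P.Xi r) (P.Om r t) t) (h0 : 0 < rr ι) (c : ℝ)
    (f : ι → ι → ℝ) :
    Ea ω (fun u v => (c - f u v) ^ 2) ≤ (c - Ea ω f) ^ 2 + Ea ω fun u v => f u v ^ 2 := by
  have e : Ea ω (fun u v => (c - f u v) ^ 2) =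
      c ^ 2 - 2 * c * Ea ω f + Ea ω fun u v => f u v ^ 2 := by
    rw [← hw.Ea_const h0 (c ^ 2), ← Ea_const_mul, ← Ea_sub, ← Ea_add]
    exact Ea_congr fun u v _ => by ring
  rw [e]
  nlinarith [sq_nonneg (Ea ω f)]

theorem dF_le (h : Side P r t B B' b ω) (hr : P.r4 < r) :
    Ea ω (fun u v => t2 (upd b B u v) - t2 B) ≤ 1 := by
  have hg := h.ctx.good
  have hL1 := hg.L_one
  have h1 := (abs_le.1 (tpsi_drift h)).2
  have h2 := tpsi_eta h hr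
  have hR : (0 : ℝ) < r := by have := h.ctx.r_big; exact_mod_cast (by omega : 0 < r)
  have h3 : (P.L : ℝ) ^ 64012 ≤ 1 * (P.L * r) := by
    calc (P.L : ℝ) ^ 64012 ≤ (P.L : ℝ) ^ 64072 := pow_le_pow_right₀ hL1 (by norm_num)
      _ ≤ r := tpsi_R hr
      _ ≤ _ := by rw [one_mul]; exact le_mul_of_one_le_left hR.le hL1
  have h4 := le_of_mul_le_mul_right (h2.trans h3) (by positivity)
  have ha : 0 < P.a ^ 2 := by have := hg.a1; positivity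
  have o1 : t2 B / r ≤ P.a ^ 2 := by rw [div_le_iff₀ hR]; exact h.bnd.f2_le h.ctx
  have o0 : 0 ≤ t2 B / r := by
    refine div_nonneg ?_ hR.le
    rw [← sum_bet]
    exact Finset.sum_nonneg fun k _ => bet_nonneg h.reg.symm k
  have o2 : 2 * (t2 B / r) ^ 2 / P.a ^ 2 ≤ 2 * (t2 B / r) := by
    rw [div_le_iff₀ ha]
    have := mul_le_mul_of_nonneg_left o1 o0
    nlinarith
  linarith

theorem term_psi (h : Side P r t B B' b ω) :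
    Ea ω (fun u v => P.Upsi (r - 2) (t2 (upd b B u v))) ≤ P.Upsi r (t2 B) + C2 / (P.L * r) := by
  have hg := h.ctx.good
  have hL := hg.L_big
  have hL1 := hg.L_one
  have hrb := h.ctx.r_big
  have hR : (1000 : ℝ) ≤ r := by exact_mod_cast hrb
  have hR0 : (0 : ℝ) < r := by linarith
  have hC : (0 : ℝ) < C2 := by unfold C2; norm_num
  by_cases h4 : P.r4 < r - 2
  swap
  · have e : Ea ω (fun u v => P.Upsi (r - 2) (t2 (upd b B u v))) = 0 := by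
      rw [← h.wt.Ea_const h.reg.rpos 0]
      exact Ea_congr fun u v _ => by unfold Par.Upsi; rw [if_neg h4]
    have := h.nonneg.2.1
    rw [e]
    positivity
  have hr : P.r4 < r := by omega
  have hLR : (P.L : ℝ) ≤ r :=
    le_trans (le_self_pow₀ hL1 (by norm_num)) (tpsi_R hr)
  have hδ : (0 : ℝ) < P.L * r := by positivity
  have hτ := hg.tau_pos (show 0 < r by omega)
  have hstep := hg.Psi_step (show 3 ≤ r by omega)
  have hε : (4 * |t1 B| * |t3 B| / (r : ℝ) ^ 2 +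
      CC * P.Xi r * (P.Lam r / t ^ 4 + P.nu r t ^ 3 / t ^ 12)) ≤ P.tau r * (1 / (P.L * r)) := by
    rw [mul_one_div, le_div_iff₀ hδ]
    refine (tpsi_eta h hr).trans (le_trans ?_ (tpsi_tau h hr))
    rw [le_div_iff₀ (by norm_num), mul_comm]
    exact cpow_le hL1 (le_trans (by norm_num) hL) (by norm_num)
  have hV : Ea ω (fun u v => (t2 (upd b B u v) - t2 B) ^ 2) ≤ P.tau r ^ 2 * (1 / (P.L * r)) := by
    rw [mul_one_div]
    exact (var_t2 h.reg h.wt h.adm).trans ((le_div_iff₀ hδ).2 (tpsi_var h hr))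
  have hd := (tpsi_drift h).trans hε
  rw [abs_sub_comm] at hd
  have hτ' : P.tau (r - 2) * (1 + 2 * P.Psi r / (P.a ^ 2 * r * (r - 2))) ^ 2 = P.tau r := by
    unfold Par.tau
    generalize 1 + 2 * P.Psi r / (P.a ^ 2 * r * (r - 2)) = Z at *
    rw [← hstep]
    ring
  have he : P.Psi r ^ 2 / (r : ℝ) ^ 3 ≤ P.tau r * (1 / (P.L * r)) := by
    have := hg.Y1
    rw [P.rs_cast] at this
    exact tpsi_m7 hL (tpsi_R hr) this
  have core := tpsi_core hR hL1 hLR (one_le_pow₀ hg.a1) (hg.Psi_pos (show 0 < r by omega))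
    (hg.Psi_le (show 0 < r by omega)) rfl hstep hτ (hg.tau_le (show 0 < r by omega)) hτ' he
    (h.bnd.psi_bd h.ctx hr) hd hV
  have e1 : Ea ω (fun u v => P.Upsi (r - 2) (t2 (upd b B u v))) =
      1 / P.tau (r - 2) ^ 2 * Ea ω (fun u v => ((P.a ^ 2 * (r - 2) - t2 B - P.Psi (r - 2)) -
        (t2 (upd b B u v) - t2 B)) ^ 2) := by
    rw [← Ea_const_mul]
    refine Ea_congr fun u v _ => ?_
    unfold Par.Upsi
    rw [if_pos h4, h.ctx.cast_sub]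
    ring
  have h5 := tpsi_sq h.wt h.reg.rpos (P.a ^ 2 * (r - 2) - t2 B - P.Psi (r - 2))
    (fun u v => t2 (upd b B u v) - t2 B)
  have ha : 0 < P.a := by linarith [hg.a1]
  have e2 : P.a ^ 2 * (r - 2) - t2 B - P.Psi (r - 2) - Ea ω (fun u v => t2 (upd b B u v) - t2 B) =
      P.a ^ 2 * r - t2 B - P.Psi r -
        2 * (P.Psi r + (P.a ^ 2 * r - t2 B - P.Psi r)) ^ 2 / (P.a ^ 2 * (r : ℝ) ^ 2) +
        (P.Psi r - P.Psi (r - 2)) + (-4 * (t2 B / r) + 2 * (t2 B / r) ^ 2 / P.a ^ 2 -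
          Ea ω (fun u v => t2 (upd b B u v) - t2 B)) := by
    field_simp
    ring
  rw [e2] at h5
  have e3 : P.Upsi r (t2 B) = (P.a ^ 2 * r - t2 B - P.Psi r) ^ 2 / P.tau r ^ 2 := by
    unfold Par.Upsi; rw [if_pos hr]
  have h6 : 10000 * (1 / ((P.L : ℝ) * r)) ≤ C2 / (P.L * r) := by
    rw [mul_one_div]
    gcongr
    unfold C2; norm_num
  rw [e1, e3, one_div, inv_mul_eq_div]
  refine le_trans ?_ (core.trans (add_le_add le_rfl h6))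
  gcongr

end Crest.Agent.R62
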