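import Crest.Agent.R62.Api
import Crest.Agent.R62.Trace

/-!
# R62/TVar: variance of `t3` (TASK)

General method (notation: see `Defs`).  On the support of `ω` (`ω u v ≠ 0`) we have `u ≠ v` (`Wt.ne`),
`|c| ≤ ϑ`, `|δ_u δ_v| ≤ ϑ` (`Adm`), so the exact formulas of `Trace` and `Reg.kap_bd` apply:
`K12 = 1/b + O(14 e)`, `κ = 1/b² + O(6 e)`, `E e² ≤ 16/r` (`Reg.av_e`), `E (ω-1)² ≤ Ξ²/r` (`Wt.av_sq`).
Write the increment as `main + rem` where `main` is a polynomial in entries of powers of `B` (defined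
for all pairs); `E_ω main = E main + E[(ω-1) main]` (`Ea_eq`), `E main` is computed exactly with
`av_prod, av_row, av_col` (row sums of `B^j` are `b^j`), everything else is bounded with Cauchy-Schwarz
(`av_cs`, `abs_av_cs`), `Wt.abs_Ea_le`, `Wt.Ea_le_two`, using the L² norms (over pairs, `r = t^8`)
`‖δ_u‖² = D/r ≤ Λ/r`, `‖β_u‖² = W/r ≤ Λ`, `‖b_j(u)‖² ≤ ν^(2j-4) Λ` (`word_diag_le`),
`‖c‖² ≤ 4/r`, `‖c_j‖ ≤ ν^j / r` for `j ≥ 2` (`av_sq_eq_fro`, `fro_mul_left`), `‖f(u) g(v)‖ = ‖f‖ ‖g‖`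
(`av_prod`), and the pointwise bounds `δ² ≤ Λ`, `δ_u² ≤ β_u`, `β² ≤ Λ r`, `c_2² ≤ β_u β_v`, `|b| ≤ 2`,
`1 ≤ Λ ≤ ν ≤ t^4`, `Λ ≤ ϑ t`.  The constant `CC = 10^12` is very generous: be crude.
Advice: split into many small lemmas (one per monomial type); avoid big `nlinarith` calls, use
`abs_mul, mul_le_mul, gcongr, positivity`.

`Δ t3 = 3 tr H2 + 3 tr (H0 H1) + tr H0³` (`t3_upd`).  Here the support also gives `|δ_v| β_u ≤ ν`,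
`|δ_u| β_v ≤ ν` (apply `Adm` to `(v, u)`, `Wt.symm`) and `β_u β_v ≤ ν²`.
* `tr H2 = K11 (b_4(u) - b c_3) + K22 (..) + K12 (2 c_4 - b b_3(u) - b b_3(v))`: squares average to
  `Λ² ν^4/r ≤ Λ² ν²`, `Λ ν^6/r² ≤ ν^8/r²`, `ν^8/r²`, `ν² Λ`.
* `tr H0 H1 = x⁰_u x¹_u + x⁰_v x¹_v + y⁰_v y¹_u + y⁰_u y¹_v`.  With `p = √(β_u β_v)` (`|c_2| ≤ p`, `|c_3| ≤ ν p`, `p ≤ ν`):
  `|x⁰_u| ≤ C (|δ_v| (β_u+1) + p + |δ_u|) ≤ C ν`, `|x¹_u| ≤ C (|δ_v| ν β_u + |δ_v| p + ν p + β_u)`,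
  `|y⁰_v| ≤ C (β_v + 1 + |δ_v| p)`, `|y¹_u| ≤ C (ν β_u + p + |δ_u| ν p)`.
  Simplest: `(x⁰ x¹)² ≤ C (x⁰)² ν² (δ_v² β_u² + p²) + C ν² β_u²` and `E (x⁰)^4, E δ_v^4 β_u^4, E p^4 ≤ C Λ^4`.
  `(y⁰_v y¹_u)²`: `(β_v+1)² ν² β_u² → ν² Λ²`; `(β_v+1)² p² ≤ (β_v+1)² ν²`;
  `(β_v+1)² β_v · δ_u² β_u ν²` and `δ_v² β_v · β_u³ ν²` → `ν² (Λ² t^4/r)(Λ² t^4) = ν² Λ^4`;
  `δ_v² β_v² β_u² → Λ³`; `δ_u² δ_v² ≤ 1`.
* `tr H0³ = x_u³ + x_v³ + 3 (x_u + x_v) y_u y_v`, use `|x| ≤ C ν`, `E x^4 ≤ C Λ^4`, `E (y_u y_v)² ≤ C Λ^4`.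
-/

set_option autoImplicit false
set_option linter.unusedSectionVars false
open Finset Matrix

namespace Crest.Agent.R62

variable {ι : Type} [Fintype ι] [DecidableEq ι]
variable {ω : ι → ι → ℝ} {B : Matrix ι ι ℝ} {b Λ ν t ϑ Ξ Ω ρ : ℝ}

theorem tv_sq {κ k b : ℝ} (hκ : κ ^ 2 ≤ 4) (hk : k ^ 2 ≤ 4) (hb : b ^ 2 ≤ 4) (δ a a' g g' : ℝ) :
    (κ * δ * (a - b * a') + k * (g - b * g')) ^ 2 ≤
      16 * (δ ^ 2 * a ^ 2 + 4 * (δ ^ 2 * a' ^ 2) + g ^ 2 + 4 * g' ^ 2) := by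
  have h : ∀ s₁ s₂ s₃ s₄ : ℝ, (s₁ - s₂ + s₃ - s₄) ^ 2 ≤ 4 * (s₁ ^ 2 + s₂ ^ 2 + s₃ ^ 2 + s₄ ^ 2) := by
    intro s₁ s₂ s₃ s₄
    nlinarith [sq_nonneg (s₁ + s₂), sq_nonneg (s₁ - s₃), sq_nonneg (s₁ + s₄), sq_nonneg (s₂ + s₃),
      sq_nonneg (s₂ - s₄), sq_nonneg (s₃ + s₄)]
  have h1 : (κ * (δ * a)) ^ 2 ≤ 4 * (δ ^ 2 * a ^ 2) := by
    rw [mul_pow, mul_pow]; gcongr
  have h2 : (κ * (b * (δ * a'))) ^ 2 ≤ 4 * (4 * (δ ^ 2 * a' ^ 2)) := by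
    rw [mul_pow, mul_pow, mul_pow]; gcongr
  have h3 : (k * g) ^ 2 ≤ 4 * g ^ 2 := by
    rw [mul_pow]; gcongr
  have h4 : (k * (b * g')) ^ 2 ≤ 4 * (4 * g' ^ 2) := by
    rw [mul_pow, mul_pow]; gcongr
  have e : κ * δ * (a - b * a') + k * (g - b * g') =
      κ * (δ * a) - κ * (b * (δ * a')) + k * g - k * (b * g') := by ring
  rw [e]
  linarith [h (κ * (δ * a)) (κ * (b * (δ * a'))) (k * g) (k * (b * g'))]

/-- the pointwise data: `D = δ_u²`, `E = δ_v²`, `x = β_u`, `y = β_v`, `T = r` -/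
structure TVD (D E x y Λ ν T : ℝ) : Prop where
  D0 : 0 ≤ D
  E0 : 0 ≤ E
  DΛ : D ≤ Λ
  EΛ : E ≤ Λ
  Dx : D ≤ x
  Ey : E ≤ y
  DE : D * E ≤ 1
  Ex : E * x ^ 2 ≤ ν ^ 2
  Dy : D * y ^ 2 ≤ ν ^ 2
  xy : x * y ≤ ν ^ 2
  L1 : 1 ≤ Λ
  Lν : Λ ≤ ν
  νT : ν ^ 2 ≤ T

/-- the dominating polynomial -/
def tvM (D E x y Λ T : ℝ) : ℝ :=
  x ^ 4 * E ^ 2 + D ^ 2 * y ^ 4 + x ^ 3 * (E * y) + D * x * y ^ 3 + Λ * (x ^ 2 * y ^ 2) + Λ * x ^ 2 +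
    Λ * y ^ 2 + Λ ^ 2 + T * (x ^ 2 * E) + T * (D * y ^ 2)

theorem tvM_symm (D E x y Λ T : ℝ) : tvM E D y x Λ T = tvM D E x y Λ T := by
  unfold tvM; ring

section real
variable {D E x y T : ℝ} (H : TVD D E x y Λ ν T)
include H

theorem TVD.symm : TVD E D y x Λ ν T :=
  ⟨H.E0, H.D0, H.EΛ, H.DΛ, H.Ey, H.Dx, by rw [mul_comm]; exact H.DE, H.Dy, H.Ex,
    by rw [mul_comm]; exact H.xy, H.L1, H.Lν, H.νT⟩

theorem TVD.x0 : 0 ≤ x := H.D0.trans H.Dx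
theorem TVD.y0 : 0 ≤ y := H.E0.trans H.Ey
theorem TVD.L0 : 0 ≤ Λ := zero_le_one.trans H.L1
theorem TVD.T0 : 0 ≤ T := (sq_nonneg _).trans H.νT
theorem TVD.ν1 : 1 ≤ ν ^ 2 := one_le_pow₀ (H.L1.trans H.Lν)
theorem TVD.Lν2 : Λ ≤ ν ^ 2 := H.Lν.trans (le_self_pow₀ (H.L1.trans H.Lν) two_ne_zero)

theorem TVD.terms : 0 ≤ x ^ 4 * E ^ 2 ∧ 0 ≤ D ^ 2 * y ^ 4 ∧ 0 ≤ x ^ 3 * (E * y) ∧
    0 ≤ D * x * y ^ 3 ∧ x ^ 2 * y ^ 2 ≤ Λ * (x ^ 2 * y ^ 2) ∧ x ^ 2 ≤ Λ * x ^ 2 ∧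
    y ^ 2 ≤ Λ * y ^ 2 ∧ 1 ≤ Λ ^ 2 ∧ 0 ≤ T * (x ^ 2 * E) ∧ 0 ≤ T * (D * y ^ 2) ∧
    0 ≤ x ^ 2 * y ^ 2 ∧ D * (x * y) ≤ Λ * x ^ 2 / 2 + Λ * y ^ 2 / 2 ∧
    E * (x * y) ≤ Λ * x ^ 2 / 2 + Λ * y ^ 2 / 2 ∧ D * E * (x ^ 2 * y ^ 2) ≤ x ^ 2 * y ^ 2 := by
  have := H.x0; have := H.y0; have := H.D0; have := H.E0; have := H.T0; have := H.L0
  have hxy : Λ * (x * y) ≤ Λ * x ^ 2 / 2 + Λ * y ^ 2 / 2 := by
    nlinarith [mul_nonneg H.L0 (sq_nonneg (x - y))]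
  refine ⟨by positivity, by positivity, by positivity, by positivity,
    le_mul_of_one_le_left (by positivity) H.L1, le_mul_of_one_le_left (by positivity) H.L1,
    le_mul_of_one_le_left (by positivity) H.L1, one_le_pow₀ H.L1, by positivity, by positivity,
    by positivity, le_trans ?_ hxy, le_trans ?_ hxy, mul_le_of_le_one_left (by positivity) H.DE⟩
  · exact mul_le_mul_of_nonneg_right H.DΛ (by positivity)
  · exact mul_le_mul_of_nonneg_right H.EΛ (by positivity)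

theorem TVD.M0 : 0 ≤ tvM D E x y Λ T := by
  have := H.x0; have := H.y0; have := H.D0; have := H.E0; have := H.T0; have := H.L0
  unfold tvM; positivity

theorem TVD.GG : (E * x ^ 2 + x * y + Λ) ^ 2 ≤ 3 * tvM D E x y Λ T := by
  obtain ⟨h1, h2, h3, h4, h5, h6, h7, h8, h9, h10, h11, h12, h13, h14⟩ := H.terms
  have h : (E * x ^ 2 + x * y + Λ) ^ 2 ≤ 3 * (x ^ 4 * E ^ 2 + x ^ 2 * y ^ 2 + Λ ^ 2) := by
    nlinarith [sq_nonneg (E * x ^ 2 - x * y), sq_nonneg (E * x ^ 2 - Λ), sq_nonneg (x * y - Λ)]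
  unfold tvM
  linarith [sq_nonneg x, sq_nonneg y]

theorem TVD.xM : x ^ 2 ≤ tvM D E x y Λ T := by
  obtain ⟨h1, h2, h3, h4, h5, h6, h7, h8, h9, h10, h11, h12, h13, h14⟩ := H.terms
  unfold tvM
  linarith [sq_nonneg x, sq_nonneg y]

theorem TVD.PP : (D * (x * y) + x ^ 2 + 1) * (E * (x * y) + y ^ 2 + 1) ≤ 2 * tvM D E x y Λ T := by
  obtain ⟨h1, h2, h3, h4, h5, h6, h7, h8, h9, h10, h11, h12, h13, h14⟩ := H.terms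
  have e : (D * (x * y) + x ^ 2 + 1) * (E * (x * y) + y ^ 2 + 1) =
      D * E * (x ^ 2 * y ^ 2) + D * x * y ^ 3 + D * (x * y) + x ^ 3 * (E * y) + x ^ 2 * y ^ 2 +
        x ^ 2 + E * (x * y) + y ^ 2 + 1 := by ring
  unfold tvM
  linarith [sq_nonneg x, sq_nonneg y]

theorem TVD.PQ : (E * (x * y) + y ^ 2 + 1) * (ν ^ 2 * x ^ 2 + x * y + ν ^ 2 * (D * (x * y))) ≤
    3 * (ν ^ 2 * tvM D E x y Λ T) := by
  obtain ⟨h1, h2, h3, h4, h5, h6, h7, h8, h9, h10, h11, h12, h13, h14⟩ := H.terms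
  have e : (E * (x * y) + y ^ 2 + 1) * (ν ^ 2 * x ^ 2 + x * y + ν ^ 2 * (D * (x * y))) =
      ν ^ 2 * (x ^ 3 * (E * y) + D * E * (x ^ 2 * y ^ 2) + x ^ 2 * y ^ 2 + D * x * y ^ 3 + x ^ 2 +
        D * (x * y)) + E * (x ^ 2 * y ^ 2) + x * y * (y ^ 2 + 1) := by ring
  have a1 : E * (x ^ 2 * y ^ 2) ≤ ν ^ 2 * (Λ * (x ^ 2 * y ^ 2)) :=
    (mul_le_mul_of_nonneg_right H.EΛ h11).trans
      (le_mul_of_one_le_left (mul_nonneg H.L0 h11) H.ν1)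
  have a2 : x * y * (y ^ 2 + 1) ≤ ν ^ 2 * (y ^ 2 + 1) :=
    mul_le_mul_of_nonneg_right H.xy (by positivity)
  have a3 : x ^ 3 * (E * y) + D * E * (x ^ 2 * y ^ 2) + x ^ 2 * y ^ 2 + D * x * y ^ 3 + x ^ 2 +
      D * (x * y) + Λ * (x ^ 2 * y ^ 2) + (y ^ 2 + 1) ≤ 3 * tvM D E x y Λ T := by
    unfold tvM
    linarith [sq_nonneg x, sq_nonneg y]
  have a4 := mul_le_mul_of_nonneg_left a3 (sq_nonneg ν)
  rw [e]
  linarith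

theorem TVD.X0 {z c2 c1 : ℝ} (hz : z ≤ 16 * (E * x ^ 2 + 4 * (E * c1) + c2 + 4 * D))
    (h1 : c1 ≤ 1 / 4) (h2 : c2 ≤ x * y) : z ≤ 80 * (E * x ^ 2 + x * y + Λ) ∧ z ≤ 112 * ν ^ 2 := by
  have := mul_le_mul_of_nonneg_left h1 H.E0
  have := mul_nonneg H.E0 (sq_nonneg x)
  have := mul_nonneg H.x0 H.y0
  constructor <;> linarith [H.EΛ, H.DΛ, H.Ex, H.xy, H.Lν2]

theorem TVD.Y0 {z c2 c1 : ℝ} (hz : z ≤ 16 * (E * c2 + 4 * (E * E) + y ^ 2 + 4 * c1))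
    (h1 : c1 ≤ 1 / 4) (h2 : c2 ≤ x * y) : z ≤ 80 * (E * (x * y) + y ^ 2 + 1) := by
  have := mul_le_mul_of_nonneg_left h2 H.E0
  have := mul_nonneg H.E0 (mul_nonneg H.x0 H.y0)
  have := mul_self_le_mul_self H.E0 H.Ey
  nlinarith

theorem TVD.X1 {z c2 c3 b3 : ℝ} (hz : z ≤ 16 * (E * b3 + 4 * (E * c2) + c3 + 4 * x ^ 2))
    (h2 : c2 ≤ x * y) (h3 : c3 ≤ ν ^ 2 * (x * y)) (h4 : b3 ≤ ν ^ 2 * x ^ 2) :
    z ≤ 80 * (ν ^ 2 * (E * x ^ 2 + x * y + Λ)) + 64 * x ^ 2 := by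
  have a1 := mul_le_mul_of_nonneg_left h4 H.E0
  have a2 := (mul_le_mul_of_nonneg_left h2 H.E0).trans
    (mul_le_mul_of_nonneg_right (H.EΛ.trans H.Lν2) (mul_nonneg H.x0 H.y0))
  have a3 := mul_nonneg (sq_nonneg ν) (mul_nonneg H.E0 (sq_nonneg x))
  have a4 := mul_nonneg (sq_nonneg ν) H.L0
  nlinarith

theorem TVD.Y1 {z c2 c3 b3 : ℝ} (hz : z ≤ 16 * (D * c3 + 4 * (D * x ^ 2) + b3 + 4 * c2))
    (h2 : c2 ≤ x * y) (h3 : c3 ≤ ν ^ 2 * (x * y)) (h4 : b3 ≤ ν ^ 2 * x ^ 2) :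
    z ≤ 80 * (ν ^ 2 * x ^ 2 + x * y + ν ^ 2 * (D * (x * y))) := by
  have a1 := mul_le_mul_of_nonneg_left h3 H.D0
  have a2 := mul_le_mul_of_nonneg_right (H.DΛ.trans H.Lν2) (sq_nonneg x)
  have a3 := mul_nonneg H.x0 H.y0
  have a4 := mul_nonneg (sq_nonneg ν) (mul_nonneg H.D0 a3)
  nlinarith

theorem TVD.X2 {z c3 c4 b3 b4 : ℝ} (hz : z ≤ 16 * (E * b4 + 4 * (E * c3) + c4 + 4 * b3))
    (h3 : c3 ≤ ν ^ 2 * (x * y)) (h4 : b3 ≤ ν ^ 2 * x ^ 2) (h5 : b4 ≤ ν ^ 4 * x ^ 2) :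
    z ≤ 96 * (ν ^ 2 * tvM D E x y Λ T) + 16 * c4 := by
  obtain ⟨t1, t2, t3, t4, t5, t6, t7, t8, t9, t10, t11, t12, t13, t14⟩ := H.terms
  have a1 := mul_le_mul_of_nonneg_left h5 H.E0
  have a2 := mul_le_mul_of_nonneg_left h3 H.E0
  have a3 := mul_le_mul_of_nonneg_right H.νT (mul_nonneg (sq_nonneg x) H.E0)
  have a4 : ν ^ 2 * (x ^ 2 * E) + 4 * (E * (x * y)) + 4 * x ^ 2 ≤ 6 * tvM D E x y Λ T := by
    unfold tvM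
    linarith [sq_nonneg x, sq_nonneg y]
  have a5 := mul_le_mul_of_nonneg_left a4 (sq_nonneg ν)
  nlinarith

theorem TVD.XX {z z' : ℝ} (hz : z ^ 2 ≤ 80 * (E * x ^ 2 + x * y + Λ) ∧ z ^ 2 ≤ 112 * ν ^ 2)
    (hz' : z' ^ 2 ≤ 80 * (ν ^ 2 * (E * x ^ 2 + x * y + Λ)) + 64 * x ^ 2) :
    (z * z') ^ 2 ≤ 2250000 * (ν ^ 2 * tvM D E x y Λ T) := by
  have hG : 0 ≤ E * x ^ 2 + x * y + Λ :=
    add_nonneg (add_nonneg (mul_nonneg H.E0 (sq_nonneg x)) (mul_nonneg H.x0 H.y0)) H.L0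
  have a1 := mul_le_mul_of_nonneg_left hz' (sq_nonneg z)
  have a2 := mul_le_mul_of_nonneg_right hz.1 (mul_nonneg (sq_nonneg ν) hG)
  have a3 := mul_le_mul_of_nonneg_right hz.2 (sq_nonneg x)
  have a4 := mul_le_mul_of_nonneg_left H.GG (sq_nonneg ν)
  have a5 := mul_le_mul_of_nonneg_left H.xM (sq_nonneg ν)
  have a6 := mul_nonneg (sq_nonneg ν) H.M0
  rw [mul_pow]
  nlinarith

theorem TVD.YY {z z' : ℝ} (hz : z ^ 2 ≤ 80 * (E * (x * y) + y ^ 2 + 1))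
    (hz' : z' ^ 2 ≤ 80 * (ν ^ 2 * x ^ 2 + x * y + ν ^ 2 * (D * (x * y)))) :
    (z * z') ^ 2 ≤ 2250000 * (ν ^ 2 * tvM D E x y Λ T) := by
  have a1 := mul_le_mul hz hz' (sq_nonneg _) ((sq_nonneg _).trans hz)
  have a6 := mul_nonneg (sq_nonneg ν) H.M0
  rw [mul_pow]
  linarith [H.PQ]

theorem TVD.XXX {z : ℝ} (hz : z ^ 2 ≤ 80 * (E * x ^ 2 + x * y + Λ) ∧ z ^ 2 ≤ 112 * ν ^ 2) :
    (z ^ 3) ^ 2 ≤ 2250000 * (ν ^ 2 * tvM D E x y Λ T) := by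
  have a1 := pow_le_pow_left₀ (sq_nonneg z) hz.1 2
  have a2 : (z ^ 2) ^ 2 ≤ 19200 * tvM D E x y Λ T := by linarith [H.GG, mul_pow (80 : ℝ) (E * x ^ 2 + x * y + Λ) 2]
  have a3 := mul_le_mul hz.2 a2 (sq_nonneg _) ((sq_nonneg _).trans hz.2)
  have a6 := mul_nonneg (sq_nonneg ν) H.M0
  nlinarith

theorem TVD.XYY {z z' z'' : ℝ} (hz : z ^ 2 ≤ 112 * ν ^ 2)
    (hz' : z' ^ 2 ≤ 80 * (E * (x * y) + y ^ 2 + 1))
    (hz'' : z'' ^ 2 ≤ 80 * (D * (y * x) + x ^ 2 + 1)) :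
    (z * z' * z'') ^ 2 ≤ 2250000 * (ν ^ 2 * tvM D E x y Λ T) := by
  rw [mul_comm y x] at hz''
  have a1 := mul_le_mul hz'' hz' (sq_nonneg _) ((sq_nonneg _).trans hz'')
  have a2 : z'' ^ 2 * z' ^ 2 ≤ 12800 * tvM D E x y Λ T := by linarith [H.PP]
  have a3 := mul_le_mul hz a2 (by positivity) ((sq_nonneg _).trans hz)
  have a6 := mul_nonneg (sq_nonneg ν) H.M0
  nlinarith

end real

theorem tv_comb {S h₁ h₂ a₁ a₂ a₃ a₄ c₁ c₂ c₃ c₄ : ℝ} (e₁ : h₁ ^ 2 ≤ S) (e₂ : h₂ ^ 2 ≤ S)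
    (e₃ : a₁ ^ 2 ≤ S) (e₄ : a₂ ^ 2 ≤ S) (e₅ : a₃ ^ 2 ≤ S) (e₆ : a₄ ^ 2 ≤ S) (e₇ : c₁ ^ 2 ≤ S)
    (e₈ : c₂ ^ 2 ≤ S) (e₉ : c₃ ^ 2 ≤ S) (e₁₀ : c₄ ^ 2 ≤ S) :
    (3 * (h₁ + h₂) + 3 * (a₁ + a₂ + a₃ + a₄) + (c₁ + c₂ + 3 * c₃ + 3 * c₄)) ^ 2 ≤ 676 * S := by
  have hS : 0 ≤ S := (sq_nonneg _).trans e₁
  have f₁ := abs_le.1 (Real.abs_le_sqrt e₁)
  have f₂ := abs_le.1 (Real.abs_le_sqrt e₂)
  have f₃ := abs_le.1 (Real.abs_le_sqrt e₃)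
  have f₄ := abs_le.1 (Real.abs_le_sqrt e₄)
  have f₅ := abs_le.1 (Real.abs_le_sqrt e₅)
  have f₆ := abs_le.1 (Real.abs_le_sqrt e₆)
  have f₇ := abs_le.1 (Real.abs_le_sqrt e₇)
  have f₈ := abs_le.1 (Real.abs_le_sqrt e₈)
  have f₉ := abs_le.1 (Real.abs_le_sqrt e₉)
  have f₁₀ := abs_le.1 (Real.abs_le_sqrt e₁₀)
  refine (sq_le_sq' (b := 26 * √S) (by linarith) (by linarith)).trans (le_of_eq ?_)
  rw [mul_pow, Real.sq_sqrt hS]; norm_num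

theorem tv_trace2 (M N : Matrix (Fin 2) (Fin 2) ℝ) :
    (M * N).trace = M 0 0 * N 0 0 + M 1 1 * N 1 1 + M 0 1 * N 1 0 + M 1 0 * N 0 1 := by
  simp only [Matrix.trace_fin_two, Matrix.mul_apply, Fin.sum_univ_two]; ring

theorem tv_trace3 (M : Matrix (Fin 2) (Fin 2) ℝ) :
    (M * M * M).trace = M 0 0 ^ 3 + M 1 1 ^ 3 + 3 * (M 0 0 * M 0 1 * M 1 0) +
      3 * (M 1 1 * M 0 1 * M 1 0) := by
  simp only [Matrix.trace_fin_two, Matrix.mul_apply, Fin.sum_univ_two]; ring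

theorem tv_data (h : Reg B b Λ ν t ϑ) (hw : Wt ω ϑ Ξ Ω t) (ha : Adm ω B ϑ ρ) (hρ0 : 0 ≤ ρ)
    (hρ : ρ ≤ ν) {u v : ι} (huv : ω u v ≠ 0) :
    TVD (B u u ^ 2) (B v v ^ 2) (bet B u) (bet B v) Λ ν (t ^ 8) := by
  obtain ⟨-, h2, h3, h4⟩ := ha u v huv
  obtain ⟨-, -, h3', -⟩ := ha v u (hw.symm u v ▸ huv)
  have key : ∀ k l, |B k k| * bet B l ≤ ρ → B k k ^ 2 * bet B l ^ 2 ≤ ν ^ 2 := fun k l hkl => by
    rw [← sq_abs (B k k), ← mul_pow]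
    exact pow_le_pow_left₀ (mul_nonneg (abs_nonneg _) (bet_nonneg h.symm _)) (hkl.trans hρ) 2
  refine ⟨sq_nonneg _, sq_nonneg _, h.ent _ _, h.ent _ _, sq_le_bet h.symm _ _,
    sq_le_bet h.symm _ _, ?_, key _ _ h3, key _ _ h3', h4.trans (pow_le_pow_left₀ hρ0 hρ 2), h.L1,
    h.Lν, ?_⟩
  · rw [← mul_pow, sq_le_one_iff_abs_le_one]
    linarith [h.th1]
  · exact (pow_le_pow_left₀ (hρ0.trans hρ) h.νt 2).trans (le_of_eq (by ring))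

theorem tv_point (h : Reg B b Λ ν t ϑ) (hw : Wt ω ϑ Ξ Ω t) (ha : Adm ω B ϑ ρ) (hρ0 : 0 ≤ ρ)
    (hρ : ρ ≤ ν) {u v : ι} (huv : ω u v ≠ 0) :
    (t3 (upd b B u v) - t3 B) ^ 2 ≤ 676 * (2250000 * (ν ^ 2 *
      tvM (B u u ^ 2) (B v v ^ 2) (bet B u) (bet B v) Λ (t ^ 8)) +
        16 * ((B * (B * B) * B) u v ^ 2 + (B * (B * B) * B) v u ^ 2)) := by
  have H := tv_data h hw ha hρ0 hρ huv
  have H' := H.symm
  obtain ⟨hc, hd, -, -⟩ := ha u v huv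
  obtain ⟨k1, k2, k3, -, -, k4, -, -⟩ := h.kap_bd hc hd
  have hν0 : 0 ≤ ν := hρ0.trans hρ
  have hκ : kap b B u v ^ 2 ≤ 4 := by nlinarith
  have hk : (kap b B u v * (b - B u v)) ^ 2 ≤ 4 := by
    have := abs_le.1 k4
    nlinarith
  have hc1 : B u v ^ 2 ≤ 1 / 4 := by
    have := abs_le.1 hc
    nlinarith [h.th1, h.th0]
  have hc1' : B v u ^ 2 ≤ 1 / 4 := by rw [h.symm.apply u v]; exact hc1
  have c2 := mul_sq_le h.symm h.symm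
  have c3 := word_sq_le h.symm h.symm h.op
  have c2' : ∀ k l, (B * B) k l ^ 2 ≤ bet B l * bet B k := fun k l => by
    rw [mul_comm]; exact c2 k l
  have c3' : ∀ k l, (B * B * B) k l ^ 2 ≤ ν ^ 2 * (bet B l * bet B k) := fun k l => by
    rw [mul_comm (bet B l)]; exact c3 k l
  have b3 : ∀ k, (B * B * B) k k ^ 2 ≤ ν ^ 2 * bet B k ^ 2 := fun k => by
    rw [sq (bet B k)]; exact c3 k k
  have b4 : ∀ k, (B * (B * B) * B) k k ^ 2 ≤ ν ^ 4 * bet B k ^ 2 := fun k =>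
    (word_sq_le h.symm h.symm (h.op.mul h.op) k k).trans (le_of_eq (by ring))
  have S := tv_sq hκ hk h.b4
  have x0u := H.X0 (z := Hm b B 1 B u v 0 0 ^ 2)
    (by rw [Hm_00, Matrix.mul_one, Matrix.one_mul]; exact S _ _ _ _ _) hc1' (c2' v u)
  have x0v := H'.X0 (z := Hm b B 1 B u v 1 1 ^ 2)
    (by rw [Hm_11, Matrix.mul_one, Matrix.one_mul, add_comm]; exact S _ _ _ _ _) hc1 (c2' u v)
  have y0v := H.Y0 (z := Hm b B 1 B u v 0 1 ^ 2)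
    (by rw [Hm_01, Matrix.mul_one, Matrix.one_mul]; exact S _ _ _ _ _) hc1 (c2 u v)
  have y0u := H'.Y0 (z := Hm b B 1 B u v 1 0 ^ 2)
    (by rw [Hm_10, Matrix.mul_one, Matrix.one_mul, add_comm]; exact S _ _ _ _ _) hc1' (c2 v u)
  have x1u := H.X1 (z := Hm b B B B u v 0 0 ^ 2)
    (by rw [Hm_00]; exact S _ _ _ _ _) (c2' v u) (c3' v u) (b3 u)
  have x1v := H'.X1 (z := Hm b B B B u v 1 1 ^ 2)
    (by rw [Hm_11, add_comm]; exact S _ _ _ _ _) (c2' u v) (c3' u v) (b3 v)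
  have y1u := H.Y1 (z := Hm b B B B u v 1 0 ^ 2)
    (by rw [Hm_10, add_comm]; exact S _ _ _ _ _) (c2' v u) (c3' v u) (b3 u)
  have y1v := H'.Y1 (z := Hm b B B B u v 0 1 ^ 2)
    (by rw [Hm_01]; exact S _ _ _ _ _) (c2' u v) (c3' u v) (b3 v)
  have x2u := H.X2 (z := Hm b B (B * B) B u v 0 0 ^ 2)
    (by rw [Hm_00]; exact S _ _ _ _ _) (c3' v u) (b3 u) (b4 u)
  have x2v := H'.X2 (z := Hm b B (B * B) B u v 1 1 ^ 2)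
    (by rw [Hm_11, add_comm]; exact S _ _ _ _ _) (c3' u v) (b3 v) (b4 v)
  have p1 := H.XX x0u x1u
  have p2 := H'.XX x0v x1v
  have p3 := H.YY y0v y1u
  have p4 := H'.YY y0u y1v
  have p5 := H.XXX x0u
  have p6 := H'.XXX x0v
  have p7 := H.XYY x0u.2 y0v y0u
  have p8 := H.XYY x0v.2 y0v y0u
  rw [tvM_symm] at x2v p2 p4 p6
  have m0 := mul_nonneg (sq_nonneg ν) H.M0
  have q1 := sq_nonneg ((B * (B * B) * B) u v)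
  have q2 := sq_nonneg ((B * (B * B) * B) v u)
  rw [t3_upd h.symm (hw.ne huv) (by linarith [h.b1]), tv_trace2, tv_trace3, Matrix.trace_fin_two]
  apply tv_comb <;> linarith

theorem tv_av_prod (h0 : 0 < rr ι) {f g : ι → ℝ} (hg0 : ∀ k, 0 ≤ g k) {A A' C : ℝ} (hA : 0 ≤ A)
    (hf : ∑ k, f k ≤ A) (hg : ∑ k, g k ≤ A') (hC : A * A' ≤ C * rr ι ^ 2) :
    av (fun u v => f u * g v) ≤ C := by
  rw [av_prod, div_mul_div_comm, ← sq, div_le_iff₀ (by positivity)]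
  exact (mul_le_mul hf hg (Finset.sum_nonneg fun k _ => hg0 k) hA).trans hC

theorem tv_avM (h : Reg B b Λ ν t ϑ) :
    av (fun u v => tvM (B u u ^ 2) (B v v ^ 2) (bet B u) (bet B v) Λ (t ^ 8)) ≤ 10 * Λ ^ 4 := by
  have r0 := h.rpos
  have L0 : 0 ≤ Λ := zero_le_one.trans h.L1
  have t0 := h.t0
  have β0 := bet_nonneg h.symm
  have s1 : ∑ k, B k k ^ 2 ≤ Λ := h.d
  have s2 : ∑ k, bet B k ^ 2 ≤ Λ * rr ι := h.w
  have s3 : ∑ k, (B k k ^ 2) ^ 2 ≤ Λ * Λ := by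
    refine le_trans ?_ (mul_le_mul_of_nonneg_left s1 L0)
    rw [Finset.mul_sum]
    exact Finset.sum_le_sum fun k _ => by
      rw [sq (B k k ^ 2)]; exact mul_le_mul_of_nonneg_right (h.ent k k) (sq_nonneg _)
  have s4 : ∑ k, bet B k ^ 4 ≤ Λ * rr ι * (Λ * rr ι) := by
    refine le_trans ?_ (mul_le_mul_of_nonneg_left s2 (by positivity))
    rw [Finset.mul_sum]
    exact Finset.sum_le_sum fun k _ => by
      rw [show bet B k ^ 4 = bet B k ^ 2 * bet B k ^ 2 by ring]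
      exact mul_le_mul_of_nonneg_right ((bet_sq_le_ww B k).trans h.w) (sq_nonneg _)
  have s5 : ∑ k, bet B k ^ 3 ≤ Λ * t ^ 4 * (Λ * rr ι) := by
    refine le_trans ?_ (mul_le_mul_of_nonneg_left s2 (by positivity))
    rw [Finset.mul_sum]
    exact Finset.sum_le_sum fun k _ => by
      rw [pow_succ' (bet B k) 2]
      exact mul_le_mul_of_nonneg_right (h.bet_le k) (sq_nonneg _)
  have s6 : ∑ k, B k k ^ 2 * bet B k ≤ Λ * t ^ 4 * Λ := by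
    refine le_trans ?_ (mul_le_mul_of_nonneg_left s1 (by positivity))
    rw [Finset.mul_sum]
    exact Finset.sum_le_sum fun k _ => by
      rw [mul_comm]
      exact mul_le_mul_of_nonneg_right (h.bet_le k) (sq_nonneg _)
  have a1 := tv_av_prod r0 (fun k => sq_nonneg _) (by positivity) s4 s3 (C := Λ ^ 4)
    (le_of_eq (by ring))
  have a2 := tv_av_prod r0 (fun k => by have := β0 k; positivity) (by positivity) s3 s4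
    (C := Λ ^ 4) (le_of_eq (by ring))
  have a3 := tv_av_prod r0 (fun k => by have := β0 k; positivity) (by positivity) s5 s6
    (C := Λ ^ 4) (le_of_eq (by rw [← h.t8]; ring))
  have a4 := tv_av_prod r0 (fun k => by have := β0 k; positivity) (by positivity) s6 s5
    (C := Λ ^ 4) (le_of_eq (by rw [← h.t8]; ring))
  have a5 := tv_av_prod r0 (fun k => sq_nonneg _) (by positivity) s2 s2 (C := Λ ^ 2)
    (le_of_eq (by ring))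
  have a6 : av (fun u _ : ι => bet B u ^ 2) ≤ Λ := by
    rw [av_left r0, div_le_iff₀ r0]; exact s2
  have a7 : av (fun _ v : ι => bet B v ^ 2) ≤ Λ := by
    rw [av_right r0, div_le_iff₀ r0]; exact s2
  have a8 := tv_av_prod r0 (fun k => sq_nonneg _) (by positivity) s2 s1 (C := Λ ^ 2 / rr ι)
    (le_of_eq (by field_simp))
  have a9 := tv_av_prod r0 (fun k => sq_nonneg _) (by positivity) s1 s2 (C := Λ ^ 2 / rr ι)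
    (le_of_eq (by field_simp))
  rw [le_div_iff₀' r0] at a8 a9
  have a5' := mul_le_mul_of_nonneg_left a5 L0
  have a6' := mul_le_mul_of_nonneg_left a6 L0
  have a7' := mul_le_mul_of_nonneg_left a7 L0
  have l2 : Λ ^ 2 ≤ Λ ^ 4 := pow_le_pow_right₀ h.L1 (by norm_num)
  have l3 : Λ ^ 3 ≤ Λ ^ 4 := pow_le_pow_right₀ h.L1 (by norm_num)
  simp only [tvM, av_add, av_const_mul, av_const r0, h.t8]
  nlinarith

theorem tv_avc (h : Reg B b Λ ν t ϑ) :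
    av (fun u v => (B * (B * B) * B) u v ^ 2) ≤ ν ^ 8 / t ^ 16 := by
  have h1 := fro_mul_right (M := B * (B * B)) h.op
  have h2 := fro_mul_left (N := B * B) h.op
  rw [fro_sq_eq_t4 h.symm] at h2
  have h3 := mul_le_mul_of_nonneg_left (h2.trans (mul_le_mul_of_nonneg_left h.t4 (sq_nonneg ν)))
    (sq_nonneg ν)
  have t0 := h.t0
  rw [av_sq_eq_fro (B * (B * B) * B), ← h.t8, ← pow_mul]
  exact div_le_div_of_nonneg_right ((h1.trans h3).trans (le_of_eq (by ring))) (by positivity)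

theorem var_t3 (h : Reg B b Λ ν t ϑ) (hw : Wt ω ϑ Ξ Ω t) (ha : Adm ω B ϑ ρ) (hρ0 : 0 ≤ ρ)
    (hρ : ρ ≤ ν) :
    Ea ω (fun u v => (t3 (upd b B u v) - t3 B) ^ 2) ≤ CC * (ν ^ 8 / t ^ 16 + Λ ^ 4 * ν ^ 2) := by
  refine (hw.Ea_mono fun u v huv => tv_point h hw ha hρ0 hρ huv).trans ?_
  have L0 : 0 ≤ Λ := zero_le_one.trans h.L1
  refine (hw.Ea_le_two (by linarith [h.th1]) fun u v => ?_).trans ?_
  · have := bet_nonneg h.symm u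
    have := bet_nonneg h.symm v
    unfold tvM
    positivity
  · have h1 := mul_le_mul_of_nonneg_left (tv_avM h) (sq_nonneg ν)
    have h2 := tv_avc h
    have h3 : 0 ≤ ν ^ 8 / t ^ 16 := by positivity
    have h4 : 0 ≤ Λ ^ 4 * ν ^ 2 := by positivity
    rw [av_const_mul, av_add, av_const_mul, av_const_mul, av_const_mul, av_add,
      av_swap fun u v => (B * (B * B) * B) u v ^ 2, CC]
    nlinarith

end Crest.Agent.R62
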