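import Crest.Agent.R62.BFacts
import Crest.Agent.R62.Chi
import Crest.Agent.R62.TVar

/-!
# R62/TT: one step of the `t3` term (TASK)

`wT (r-2) ≤ wT r`, so it suffices to bound `wT r · E (t3' - Tc)²`; nothing to do if `r ≤ r4`.  `y = t3 - Tc`, `Δ = t3' - t3`,
`E (y+Δ)² = y² + 2 y EΔ + EΔ²`.  `chi B B = t3 B` and `(B*B).trace = t2 B` by `rfl`, so `drift_chi` with `B₁ = B₂ = B` gives
`EΔ = -6 (ψ/(a² r)) t3/r + err`, `ψ = a² r - t2 ∈ [0, min (a² r) (2 L rs)]`,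
`|err| ≤ CC (2|t1| ν^4/r² + Ξ (ν^4/t^12 + Λ³ν/t^4))`, `ν^4 = 16 L^192096/r`; `var_t3` (`rho r t = nu r t` here) gives
`EΔ² ≤ CC (ν^8/r² + Λ^4 ν²)`.
* `r > r2`: `w = L²/n²`, `|y| ≤ 2n/L`; need `|EΔ| ≤ C n/(L² r)`: `|t3| ψ L²/r ≤ 6 L^(1+1+64120+2) n/L^65240`;
  `|t1| ν^4 L²/r ≤ 32 L^(32241+192096+2)/r² ≤ n`; `Ξ ν^4 L²/t^4 = 16 L^(1483+192098)/t^12 ≤ L^(193582-97860) ≤ n`;
  `Ξ Λ³ ν t^4 L² = 2 Ξ Λ³ L^48026 t² ≤ L^(5048+48026+24002) ≤ n`.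
  Variance: `ν^8 L³/r = 256 L^384195/r³ ≤ n²` (`r³ ≥ L^195720`), `Λ^4 ν² L³ r = 4 Λ^4 L^96051 t^4 ≤ L^(4753+96051+48004) ≤ n²`.
* `r4 < r ≤ r2`: `w = 1/(L² n²)`, `|y| ≤ 2 L n`; main term `-12 (ψ/(a² r)) (t3 - Tc) t3/r ≤ 3 Tc²/r ≤ 3 L n²/r`
  (`-(T - Tc) T ≤ Tc²/4`); need `|err| ≤ C n/r`: `|t1| ν^4/r ≤ 32 L^(31979+192096)/L^128144 ≤ n`;
  `Ξ ν^4/t^4 = 16 L^192098/t^12 ≤ 16 L^(192098-96108) ≤ n`; the third as above.
  Variance: `ν^8/r = 256 L^384192/r³ ≤ 256 L^191976 ≤ L n²`.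

General remarks.  `h : Side ..` provides `h.reg, h.wt, h.adm` (hypotheses of the drift lemmas, with `ϑ = 1/L`,
`Λ = Lam r`, `ν = nu r t`, `Ξ = Xi r`, `Ω = Om r t`), `h.bnd` (use the lemmas `Bnd.*` of `BFacts`), `h.ctx` (lemmas
`Ctx.*`, `Good.*` of `Facts`), `h.rr_eq : rr ι = r`, `h.b_sq`, `h.nonneg`.  `t^8 = r`; `CC = 10^12`, `C2 = 10^18`,
`L ≥ 10^80`, `L^96000 ≤ n ≤ 2 L^96000`.  Split into phases (`by_cases`), rewrite the weights with `if_pos/if_neg`,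
use linearity of `Ea` (`Ea_add, Ea_const_mul, Wt.Ea_const, Wt.Ea_mono`), then check the monomial inequalities with the
bounds on `t` (`Ctx.t_lo, t_mid, t_tilt, t_hi`) and `cpow_le`.  Prove each monomial inequality as a separate small
lemma about real numbers `L, t, ..` (never let `norm_num`/`nlinarith` see the huge exponents; `calc`, `gcongr`,
`div_le_iff₀`, `pow_le_pow_right₀`, `ring`).
-/

set_option autoImplicit false
set_option linter.unusedSectionVars false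
open Finset Matrix

namespace Crest.Agent.R62

section real
variable {L t n : ℝ}

theorem tt_lo (hL : 1 ≤ L) {c : ℝ} (hc : c ≤ L) {a m e k : ℕ} (ht : L ^ e ≤ t)
    (h : a < m + e * k) : c * L ^ a ≤ L ^ m * t ^ k := by
  have hL0 : 0 ≤ L := zero_le_one.trans hL
  calc c * L ^ a ≤ L ^ (m + e * k) := cpow_le hL hc h
    _ = L ^ m * (L ^ e) ^ k := by rw [pow_add, pow_mul]
    _ ≤ L ^ m * t ^ k := by gcongr

theorem tt_hi (hL : 1 ≤ L) (ht0 : 0 ≤ t) {c : ℝ} (hc0 : 0 ≤ c) (hc : c ≤ L) {a m e k : ℕ}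
    (ht : t ≤ L ^ e) (h : a + e * k < m) : c * L ^ a * t ^ k ≤ L ^ m := by
  have hL0 : 0 ≤ L := zero_le_one.trans hL
  calc c * L ^ a * t ^ k ≤ c * L ^ a * (L ^ e) ^ k := by gcongr
    _ = c * L ^ (a + e * k) := by rw [pow_add, pow_mul, mul_assoc]
    _ ≤ L ^ m := cpow_le hL hc h

/-- first error term -/
theorem tt_e1 (hL : 256 ≤ L) (ht0 : 0 < t) {z : ℝ} {p q N j e : ℕ} (hn : L ^ N ≤ n)
    (hz : |z| ≤ 2 * L ^ p) (ht : L ^ e ≤ t) (h : p + q * 4 + j < N + e * 16) :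
    (|z| + |z|) * (2 * L ^ q / t ^ 2) ^ 4 / (t ^ 8) ^ 2 ≤ n / (L ^ j * t ^ 8) := by
  have hL1 : 1 ≤ L := by linarith
  have hL0 : 0 < L := by linarith
  have key := tt_lo (c := 64) hL1 (by linarith) ht h
  calc (|z| + |z|) * (2 * L ^ q / t ^ 2) ^ 4 / (t ^ 8) ^ 2
      ≤ (2 * L ^ p + 2 * L ^ p) * (2 * L ^ q / t ^ 2) ^ 4 / (t ^ 8) ^ 2 := by gcongr
    _ = 64 * L ^ (p + q * 4 + j) / t ^ 16 / (L ^ j * t ^ 8) := by
        rw [pow_add, pow_add, pow_mul]; field_simp; ring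
    _ ≤ L ^ N * t ^ 16 / t ^ 16 / (L ^ j * t ^ 8) := by gcongr
    _ = L ^ N / (L ^ j * t ^ 8) := by field_simp
    _ ≤ n / (L ^ j * t ^ 8) := by gcongr

/-- second error term -/
theorem tt_e2 (hL : 256 ≤ L) (ht0 : 0 < t) {Ξ : ℝ} {p q N j e : ℕ} (hn : L ^ N ≤ n)
    (hz : Ξ ≤ L ^ p) (ht : L ^ e ≤ t) (h : p + q * 4 + j < N + e * 12) :
    Ξ * ((2 * L ^ q / t ^ 2) ^ 4 / t ^ 12) ≤ n / (L ^ j * t ^ 8) := by
  have hL1 : 1 ≤ L := by linarith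
  have hL0 : 0 < L := by linarith
  have key := tt_lo (c := 16) hL1 (by linarith) ht h
  calc Ξ * ((2 * L ^ q / t ^ 2) ^ 4 / t ^ 12)
      ≤ L ^ p * ((2 * L ^ q / t ^ 2) ^ 4 / t ^ 12) := by gcongr
    _ = 16 * L ^ (p + q * 4 + j) / t ^ 12 / (L ^ j * t ^ 8) := by
        rw [pow_add, pow_add, pow_mul]; field_simp; ring
    _ ≤ L ^ N * t ^ 12 / t ^ 12 / (L ^ j * t ^ 8) := by gcongr
    _ = L ^ N / (L ^ j * t ^ 8) := by field_simp
    _ ≤ n / (L ^ j * t ^ 8) := by gcongr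

/-- third error term -/
theorem tt_e3 (hL : 256 ≤ L) (ht0 : 0 < t) {Ξ Λ : ℝ} {p l q N j e : ℕ} (hn : L ^ N ≤ n)
    (hz : Ξ ≤ L ^ p) (hΛ0 : 0 ≤ Λ) (hΛ : Λ ≤ L ^ l) (ht : t ≤ L ^ e)
    (h : p + l * 3 + q + j + e * 2 < N) :
    Ξ * (Λ ^ 3 * (2 * L ^ q / t ^ 2) / t ^ 4) ≤ n / (L ^ j * t ^ 8) := by
  have hL1 : 1 ≤ L := by linarith
  have hL0 : 0 < L := by linarith
  have key := tt_hi (c := 2) hL1 ht0.le (by norm_num) (by linarith) ht h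
  calc Ξ * (Λ ^ 3 * (2 * L ^ q / t ^ 2) / t ^ 4)
      ≤ L ^ p * ((L ^ l) ^ 3 * (2 * L ^ q / t ^ 2) / t ^ 4) := by gcongr
    _ = 2 * L ^ (p + l * 3 + q + j) * t ^ 2 / (L ^ j * t ^ 8) := by
        rw [pow_add, pow_add, pow_add, pow_mul]; field_simp
    _ ≤ L ^ N / (L ^ j * t ^ 8) := by gcongr
    _ ≤ n / (L ^ j * t ^ 8) := by gcongr

/-- first variance term -/
theorem tt_v1 (hL : 256 ≤ L) (ht0 : 0 < t) {q N j e : ℕ} (hn : L ^ N ≤ n)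
    (ht : L ^ e ≤ t) (h : q * 8 + j < N * 2 + e * 24) :
    (2 * L ^ q / t ^ 2) ^ 8 / t ^ 16 ≤ n ^ 2 / (L ^ j * t ^ 8) := by
  have hL1 : 1 ≤ L := by linarith
  have hL0 : 0 < L := by linarith
  have key := tt_lo (c := 256) hL1 hL ht h
  calc (2 * L ^ q / t ^ 2) ^ 8 / t ^ 16
      = 256 * L ^ (q * 8 + j) / t ^ 24 / (L ^ j * t ^ 8) := by
        rw [pow_add, pow_mul]; field_simp; ring
    _ ≤ L ^ (N * 2) * t ^ 24 / t ^ 24 / (L ^ j * t ^ 8) := by gcongr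
    _ = (L ^ N) ^ 2 / (L ^ j * t ^ 8) := by rw [pow_mul]; field_simp
    _ ≤ n ^ 2 / (L ^ j * t ^ 8) := by gcongr

/-- second variance term -/
theorem tt_v2 (hL : 256 ≤ L) (ht0 : 0 < t) {Λ : ℝ} {l q N j e : ℕ} (hn : L ^ N ≤ n)
    (hΛ0 : 0 ≤ Λ) (hΛ : Λ ≤ L ^ l) (ht : t ≤ L ^ e) (h : l * 4 + q * 2 + j + e * 4 < N * 2) :
    Λ ^ 4 * (2 * L ^ q / t ^ 2) ^ 2 ≤ n ^ 2 / (L ^ j * t ^ 8) := by
  have hL1 : 1 ≤ L := by linarith
  have hL0 : 0 < L := by linarith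
  have key := tt_hi (c := 4) hL1 ht0.le (by norm_num) (by linarith) ht h
  calc Λ ^ 4 * (2 * L ^ q / t ^ 2) ^ 2
      ≤ (L ^ l) ^ 4 * (2 * L ^ q / t ^ 2) ^ 2 := by gcongr
    _ = 4 * L ^ (l * 4 + q * 2 + j) * t ^ 4 / (L ^ j * t ^ 8) := by
        rw [pow_add, pow_add, pow_mul, pow_mul]; field_simp; ring
    _ ≤ L ^ (N * 2) / (L ^ j * t ^ 8) := by gcongr
    _ = (L ^ N) ^ 2 / (L ^ j * t ^ 8) := by rw [pow_mul]
    _ ≤ n ^ 2 / (L ^ j * t ^ 8) := by gcongr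

/-- the main term in the early phases -/
theorem tt_main (hL : 256 ≤ L) (hn : 0 ≤ n) {R s T : ℝ} {p q : ℕ} (hR : L ^ q ≤ R)
    (hs0 : 0 ≤ s) (hs : s ≤ 2 * (L * L ^ p) / R) (hT : |T| ≤ 3 * L * n) (h : p + 4 < q) :
    |s * T / R| ≤ n / (L ^ 2 * R) := by
  have hL1 : 1 ≤ L := by linarith
  have hL0 : 0 < L := by linarith
  have hR0 : 0 < R := lt_of_lt_of_le (by positivity) hR
  have key : 6 * L ^ (p + 4) ≤ R := (cpow_le hL1 (by linarith) h).trans hR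
  rw [abs_div, abs_mul, abs_of_nonneg hs0, abs_of_pos hR0]
  calc s * |T| / R ≤ 2 * (L * L ^ p) / R * (3 * L * n) / R := by gcongr
    _ = 6 * L ^ (p + 4) / R * (n / (L ^ 2 * R)) := by rw [pow_add]; field_simp; ring
    _ ≤ 1 * (n / (L ^ 2 * R)) := by
        gcongr
        exact (div_le_one hR0).2 key
    _ = n / (L ^ 2 * R) := one_mul _

theorem tt_early (hL : 0 < L) (hn : 0 < n) {R y M V : ℝ} (hR : 0 < R) (hy : |y| ≤ 2 * n / L)
    (hM : |M| ≤ 4 * CC * (n / (L ^ 2 * R))) (hV : V ≤ 2 * CC * (n ^ 2 / (L ^ 3 * R))) :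
    L ^ 2 / n ^ 2 * (2 * y * M + V) ≤ C2 / (L * R) := by
  have hC : (0 : ℝ) ≤ CC := by unfold CC; positivity
  have h1 : y * M ≤ 2 * n / L * (4 * CC * (n / (L ^ 2 * R))) := by
    refine (le_abs_self _).trans ?_
    rw [abs_mul]
    exact mul_le_mul hy hM (abs_nonneg _) (by positivity)
  calc L ^ 2 / n ^ 2 * (2 * y * M + V)
      ≤ L ^ 2 / n ^ 2 * (2 * (2 * n / L * (4 * CC * (n / (L ^ 2 * R)))) +
          2 * CC * (n ^ 2 / (L ^ 3 * R))) := by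
        refine mul_le_mul_of_nonneg_left ?_ (by positivity)
        linarith
    _ = 18 * CC / (L * R) := by field_simp; ring
    _ ≤ C2 / (L * R) := by
        gcongr
        unfold CC C2; norm_num

theorem tt_mid (hL : 1 ≤ L) (hn : 0 < n) {R T Tc s M V : ℝ} (hR : 0 < R)
    (hy : |T - Tc| ≤ 2 * L * n) (hs0 : 0 ≤ s) (hs1 : s ≤ 1) (hTc : Tc ^ 2 ≤ L * n ^ 2)
    (hM : |M - -6 * (s * T / R)| ≤ 3 * CC * (n / R)) (hV : V ≤ 2 * CC * (n ^ 2 / R)) :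
    1 / (L ^ 2 * n ^ 2) * (2 * (T - Tc) * M + V) ≤ C2 / (L * R) := by
  have hC : (0 : ℝ) ≤ CC := by unfold CC; positivity
  have hL0 : 0 < L := by linarith
  have h1 : (T - Tc) * (M - -6 * (s * T / R)) ≤ 2 * L * n * (3 * CC * (n / R)) := by
    refine (le_abs_self _).trans ?_
    rw [abs_mul]
    exact mul_le_mul hy hM (abs_nonneg _) (by positivity)
  have h2 : -((T - Tc) * T) ≤ L * n ^ 2 / 4 := by nlinarith [sq_nonneg (T - Tc / 2)]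
  have h3 : s * -((T - Tc) * T) ≤ L * n ^ 2 / 4 :=
    (mul_le_mul_of_nonneg_left h2 hs0).trans (mul_le_of_le_one_left (by positivity) hs1)
  have h4 : s * -((T - Tc) * T) / R ≤ L * n ^ 2 / 4 / R := by gcongr
  have h5 : n ^ 2 / R ≤ L * (n ^ 2 / R) := le_mul_of_one_le_left (by positivity) hL
  have h6 : V ≤ 2 * CC * (L * (n ^ 2 / R)) :=
    hV.trans (mul_le_mul_of_nonneg_left h5 (by positivity))
  have e : 2 * (T - Tc) * M = 2 * ((T - Tc) * (M - -6 * (s * T / R))) +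
      12 * (s * -((T - Tc) * T) / R) := by ring
  calc 1 / (L ^ 2 * n ^ 2) * (2 * (T - Tc) * M + V)
      ≤ 1 / (L ^ 2 * n ^ 2) * (2 * (2 * L * n * (3 * CC * (n / R))) +
          12 * (L * n ^ 2 / 4 / R) + 2 * CC * (L * (n ^ 2 / R))) := by
        refine mul_le_mul_of_nonneg_left ?_ (by positivity)
        linarith
    _ = (14 * CC + 3) / (L * R) := by field_simp; ring
    _ ≤ C2 / (L * R) := by
        gcongr
        unfold CC C2; norm_num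

end real

variable {ι : Type} [Fintype ι] [DecidableEq ι] {P : Par ℝ} {r : ℕ} {t b : ℝ}
  {B B' : Matrix ι ι ℝ} {ω : ι → ι → ℝ}

theorem tt_wT_mono (hg : P.Good) (r : ℕ) : P.wT (r - 2) ≤ P.wT r := by
  have hL := hg.L_one
  have h0 := hg.wT_nonneg r
  have hle : (1 : ℝ) / ((P.L : ℝ) ^ 2 * (P.n : ℝ) ^ 2) ≤ (P.L : ℝ) ^ 2 / (P.n : ℝ) ^ 2 := by
    rw [← div_div]
    refine div_le_div_of_nonneg_right ?_ (sq_nonneg _)
    have h1 : (1 : ℝ) ≤ (P.L : ℝ) ^ 2 := one_le_pow₀ hL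
    exact (div_le_one (by positivity)).2 h1 |>.trans h1
  by_cases h1 : P.r2 < r - 2
  · have h2 : P.r2 < r := by omega
    simp only [Par.wT, if_pos h1, if_pos h2, le_refl]
  · by_cases h3 : P.r4 < r - 2
    · have h4 : P.r4 < r := by omega
      by_cases h2 : P.r2 < r
      · simp only [Par.wT, if_neg h1, if_pos h3, if_pos h2]
        exact hle
      · simp only [Par.wT, if_neg h1, if_pos h3, if_neg h2, if_pos h4, le_refl]
    · rw [Par.wT, if_neg h1, if_neg h3]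
      exact h0

theorem tt_expand {ϑ Ξ Ω : ℝ} (hw : Wt ω ϑ Ξ Ω t) (h0 : 0 < rr ι) (f : ι → ι → ℝ) (T Tc : ℝ) :
    Ea ω (fun u v => (f u v - Tc) ^ 2) = (T - Tc) ^ 2 +
      (2 * (T - Tc) * Ea ω (fun u v => f u v - T) + Ea ω (fun u v => (f u v - T) ^ 2)) := by
  rw [← Ea_const_mul, ← Ea_add, ← hw.Ea_const h0 ((T - Tc) ^ 2), ← Ea_add]
  exact Ea_congr fun u v _ => by ring

theorem tt_Lam_le (hg : P.Good) (r : ℕ) : P.Lam r ≤ (P.L : ℝ) ^ 1188 := by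
  unfold Par.Lam
  split_ifs
  · exact le_rfl
  · exact pow_le_pow_right₀ hg.L_one (by norm_num)

theorem tt_Xi_le (hg : P.Good) (r : ℕ) : P.Xi r ≤ (P.L : ℝ) ^ 1483 := by
  unfold Par.Xi
  split_ifs
  · exact le_rfl
  · exact pow_le_pow_right₀ hg.L_one (by norm_num)

theorem tt_drift (h : Side P r t B B' b ω) :
    |Ea ω (fun u v => t3 (upd b B u v) - t3 B) -
      -6 * ((P.a ^ 2 * r - t2 B) / (P.a ^ 2 * r) * t3 B / r)| ≤
    CC * ((|t1 B| + |t1 B|) * P.nu r t ^ 4 / (t ^ 8) ^ 2 +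
      (P.Xi r * (P.nu r t ^ 4 / t ^ 12) + P.Xi r * (P.Lam r ^ 3 * P.nu r t / t ^ 4))) := by
  have key := drift_chi h.reg h.reg h.wt h.adm h.adm
  have ha : 0 < P.a := lt_of_lt_of_le one_pos h.ctx.good.a1
  have hr : (0 : ℝ) < r := by
    have := h.ctx.r_big
    exact_mod_cast (by omega : 0 < r)
  have e : (-6 + 2 * (t2 B / rr ι) / b ^ 2 + 4 * ((B * B).trace / rr ι) / (b * b)) *
      chi B B / rr ι = -6 * ((P.a ^ 2 * r - t2 B) / (P.a ^ 2 * r) * t3 B / r) := by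
    rw [← sq b, h.b_sq, h.rr_eq]
    change (-6 + 2 * (t2 B / r) / P.a ^ 2 + 4 * (t2 B / r) / P.a ^ 2) * t3 B / r = _
    field_simp
    ring
  rw [e, h.rr_eq, ← h.ctx.t8, mul_add (P.Xi r)] at key
  rw [← h.ctx.t8]
  exact key

theorem term_T (h : Side P r t B B' b ω) :
    Ea ω (fun u v => P.UT (r - 2) (t3 (upd b B u v))) ≤ P.UT r (t3 B) + C2 / (P.L * r) := by
  have hc := h.ctx
  have hg := hc.good
  have hL1 := hg.L_one
  have hL : (256 : ℝ) ≤ P.L := le_trans (by norm_num) hg.L_big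
  have hL0 : (0 : ℝ) < P.L := by linarith
  have hn := hg.n_lo
  have hn0 : (0 : ℝ) < P.n := lt_of_lt_of_le (pow_pos hL0 _) hn
  have hrn : 0 < r := by have := hc.r_big; omega
  have hr : (0 : ℝ) < r := by exact_mod_cast hrn
  have h0 : 0 < rr ι := by rw [h.rr_eq]; exact hr
  have ht0 := hc.t0
  have hC : (0 : ℝ) ≤ CC := by unfold CC; positivity
  have hC2 : (0 : ℝ) ≤ C2 := by unfold C2; positivity
  have hnn : 0 ≤ Ea ω (fun u v => (t3 (upd b B u v) - P.Tc) ^ 2) := by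
    rw [← h.wt.Ea_const h0 0]
    exact h.wt.Ea_mono fun u v _ => sq_nonneg _
  unfold Par.UT
  rw [Ea_const_mul]
  refine (mul_le_mul_of_nonneg_right (tt_wT_mono hg r) hnn).trans ?_
  rw [tt_expand h.wt h0 _ (t3 B), mul_add]
  refine add_le_add le_rfl ?_
  by_cases h4 : P.r4 < r
  swap
  · have h2 : ¬ P.r2 < r := by
      have := hg.r4_lt_r3; have := hg.r3_lt_r2; omega
    rw [Par.wT, if_neg h2, if_neg h4, zero_mul]
    exact div_nonneg hC2 (mul_pos hL0 hr).le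
  have hν : P.nu r t = 2 * (P.L : ℝ) ^ 48024 / t ^ 2 := by rw [Par.nu, if_pos h4]
  have hρ : P.rho r t = P.nu r t := by rw [Par.rho, if_pos h4]
  have hΛ0 : 0 ≤ P.Lam r := zero_le_one.trans h.reg.L1
  have hν0 : 0 ≤ P.nu r t := hΛ0.trans h.reg.Lν
  have hdr := tt_drift h
  have hvar := var_t3 h.reg h.wt h.adm (hρ ▸ hν0) hρ.le
  rw [hν] at hdr hvar
  have ha2 : 1 ≤ P.a ^ 2 := one_le_pow₀ hg.a1
  have hψ := h.bnd.psi_range hc h4
  have hs0 : 0 ≤ (P.a ^ 2 * r - t2 B) / (P.a ^ 2 * r) :=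
    div_nonneg hψ.1 (mul_nonneg (by linarith) hr.le)
  have hΛ := tt_Lam_le hg r
  have hhi := hc.t_hi
  by_cases h2 : P.r2 < r
  · rw [Par.wT, if_pos h2]
    have htl := hc.t_tilt h2
    have hR : (P.L : ℝ) ^ 65240 ≤ r := by
      rw [← P.r2_cast]; exact_mod_cast h2.le
    have hs : (P.a ^ 2 * r - t2 B) / (P.a ^ 2 * r) ≤ 2 * (P.L * (P.L : ℝ) ^ 64120) / r := by
      have h5 := hg.Psi_le' hrn
      rw [P.rs_cast] at h5
      refine div_le_div₀ (mul_nonneg zero_le_two (mul_nonneg hL0.le (pow_pos hL0 _).le))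
        (by linarith [hψ.2]) hr (le_mul_of_one_le_left hr.le ha2)
    have m := tt_main hL hn0.le hR hs0 hs (h.bnd.t3_mid hc h4) (by norm_num)
    have e1 := tt_e1 (q := 48024) (j := 2) hL ht0 hn (h.bnd.t1_early hc h4) htl (by norm_num)
    have e2 := tt_e2 (q := 48024) (j := 2) hL ht0 hn (tt_Xi_le hg r) htl (by norm_num)
    have e3 := tt_e3 (q := 48024) (j := 2) hL ht0 hn (tt_Xi_le hg r) hΛ0 hΛ hhi (by norm_num)
    have v1 := tt_v1 (q := 48024) (j := 3) hL ht0 hn htl (by norm_num)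
    have v2 := tt_v2 (q := 48024) (j := 3) hL ht0 hn hΛ0 hΛ hhi (by norm_num)
    have hE := hdr.trans (mul_le_mul_of_nonneg_left (add_le_add e1 (add_le_add e2 e3)) hC)
    have hV := hvar.trans (mul_le_mul_of_nonneg_left (add_le_add v1 v2) hC)
    rw [hc.t8] at hE hV
    clear e1 e2 e3 v1 v2 hdr hvar hs hR htl hhi hΛ hν hn
    refine tt_early hL0 hn0 hr (h.bnd.t3_early hc h2) ?_ (by linarith)
    have hX : 0 ≤ (P.n : ℝ) / ((P.L : ℝ) ^ 2 * r) := by positivity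
    have h6 : 6 * ((P.n : ℝ) / ((P.L : ℝ) ^ 2 * r)) ≤ CC * ((P.n : ℝ) / ((P.L : ℝ) ^ 2 * r)) :=
      mul_le_mul_of_nonneg_right (by unfold CC; norm_num) hX
    have a1 := abs_le.1 hE
    have a2 := abs_le.1 m
    rw [abs_le]
    constructor <;> linarith [a1.1, a1.2, a2.1, a2.2]
  · rw [Par.wT, if_neg h2, if_pos h4]
    have htl := hc.t_mid h4
    have hs : (P.a ^ 2 * r - t2 B) / (P.a ^ 2 * r) ≤ 1 := by
      refine (div_le_one (mul_pos (by linarith) hr)).2 ?_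
      have : 0 ≤ t2 B := (sq_nonneg b).trans (sq_le_t2 h.reg.symm h.reg.row h0)
      linarith
    have hΞ : P.Xi r ≤ (P.L : ℝ) ^ 2 := by
      rw [Par.Xi, if_neg fun hh => h2 hh.1]
    have e1 := tt_e1 (q := 48024) (j := 0) hL ht0 hn (h.bnd.t1_mid hc h4 (not_lt.1 h2)) htl
      (by norm_num)
    have e2 := tt_e2 (q := 48024) (j := 0) hL ht0 hn hΞ htl (by norm_num)
    have e3 := tt_e3 (q := 48024) (j := 0) hL ht0 hn hΞ hΛ0 hΛ hhi (by norm_num)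
    have v1 := tt_v1 (q := 48024) (j := 0) hL ht0 hn htl (by norm_num)
    have v2 := tt_v2 (q := 48024) (j := 0) hL ht0 hn hΛ0 hΛ hhi (by norm_num)
    have hE := hdr.trans (mul_le_mul_of_nonneg_left (add_le_add e1 (add_le_add e2 e3)) hC)
    have hV := hvar.trans (mul_le_mul_of_nonneg_left (add_le_add v1 v2) hC)
    rw [hc.t8, pow_zero, one_mul] at hE hV
    clear e1 e2 e3 v1 v2 hdr hvar htl hhi hΛ hν hn
    exact tt_mid hL1 hn0 hr (h.bnd.t3_mid' hc h4) hs0 hs hg.Tc2 (hE.trans (by linarith))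
      (by linarith)

end Crest.Agent.R62
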