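import Crest.Agent.R62.T4Aux3

/-!
# R62/T4Aux4: the nonlinear terms
-/

set_option autoImplicit false
set_option linter.unusedSectionVars false
open Finset Matrix

namespace Crest.Agent.R62.T4

variable {ι : Type} [Fintype ι] [DecidableEq ι]
variable {ω : ι → ι → ℝ} {B : Matrix ι ι ℝ} {b Λ ν t ϑ Ξ Ω ρ : ℝ}

theorem mul3_le {k m r M R : ℝ} (hk : |k| ≤ 11 / 10) (hm : |m| ≤ M) (hr : |r| ≤ R) :
    k * m * r ≤ 2 * (M * R) := by
  refine (le_abs_self _).trans ?_
  rw [abs_mul, abs_mul, mul_assoc]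
  exact mul_le_mul (by linarith) (mul_le_mul hm hr (abs_nonneg _) ((abs_nonneg _).trans hm))
    (by positivity) zero_le_two

theorem mul2_le {m r M R : ℝ} (hm : |m| ≤ M) (hr : |r| ≤ R) : m * r ≤ M * R := by
  refine (le_abs_self _).trans ?_
  rw [abs_mul]
  exact mul_le_mul hm hr (abs_nonneg _) ((abs_nonneg _).trans hm)

variable (h : Reg B b Λ ν t ϑ) (ha : Adm ω B ϑ ρ) (hw : Wt ω ϑ Ξ Ω t)
include h ha hw

theorem pB0 : Ea ω (fun u v => xx b B (B * B) B u v * xx b B (B * B * B * B) (B * B * B) u v) ≤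
    2880 * EE Λ ν t Ξ Ω := by
  have h1 := (lw_x0 h ha hw).cs (lw_x2 h ha hw)
  have h2 := e4 h hw 1 2 1
  have h3 := e3 h hw
  linarith

theorem pB1 : Ea ω (fun u v => kk b B u v ^ 2 * ((B * B * B * B) u u * (B * B) v v)) ≤
    (1 + 120 * ϑ) * ((1 + ϑ) * (t4 B * si t ^ 2)) := by
  have hb : 0 < b ^ 2 := by linarith [h.b1]
  have hϑ := h.th0
  have hn : ∀ u v, 0 ≤ (B * B * B * B) u u * (B * B) v v :=
    fun u v => mul_nonneg (b4_nonneg h u) (bet_nonneg h.symm v)
  refine (hw.Ea_mono (g := fun u v => (1 + 120 * ϑ) / b ^ 2 * ((B * B * B * B) u u * (B * B) v v))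
    fun u v h0 => ?_).trans ?_
  · have h3 := (abs_le.1 (h.kap_bd (ha u v h0).1 (ha u v h0).2.1).2.2.2.2.2.2.2).2
    exact mul_le_mul_of_nonneg_right (by rw [le_div_iff₀ hb]; unfold kk; linarith) (hn u v)
  · have h1 := hw.Ea_le hn
    have h2 : (∑ v, (B * B) v v) / rr ι ≤ b ^ 2 := (div_le_iff₀ h.rpos).2 h.f2
    have h3 : 0 ≤ t4 B * si t ^ 2 := mul_nonneg (t4_nonneg h) (sq_nonneg _)
    rw [av_prod, div_rr h (∑ u, (B * B * B * B) u u),
      show ∑ u, (B * B * B * B) u u = t4 B from rfl] at h1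
    rw [Ea_const_mul]
    calc _ ≤ (1 + 120 * ϑ) / b ^ 2 * ((1 + ϑ) * (t4 B * si t ^ 2 * b ^ 2)) :=
          mul_le_mul_of_nonneg_left (h1.trans (by gcongr)) (by positivity)
      _ = (1 + 120 * ϑ) * ((1 + ϑ) * (t4 B * si t ^ 2)) * (b ^ 2 / b ^ 2) := by ring
      _ = _ := by rw [div_self hb.ne', mul_one]

theorem pB2 : Ea ω (fun u v => kk b B u v * (B * B * B * B) u u * yr b B (B * B) B v u) ≤
    192 * EE Λ ν t Ξ Ω := by
  refine (hw.Ea_mono (g := fun u v => 6 * ν ^ 2 * (gam B u * |B u v| +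
    |B v v| * gam B u * |(B * B) u v| + |B v v| * gam B u * |B v v|)) fun u v h0 => ?_).trans ?_
  · refine (mul3_le (kk_le h ha h0) (b4_le h u) (yr_le h ha _ _ (ne_swap hw h0))).trans
      (le_of_eq ?_)
    rw [(s2 h).apply u v, h.symm.apply u v]
    ring
  · have h1 := (lw_g h hw).cs (lw_c h hw)
    have h2 := (lw_dg h hw).cs (lw_c2 h hw)
    have h3 := (lw_dg h hw).cs (lw_d h hw).swap
    rw [Ea_const_mul, Ea_add, Ea_add]
    refine (mul_le_mul_of_nonneg_left (add_le_add (add_le_add h1 h2) h3) (by positivity)).trans ?_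
    have h4 := e4 h hw 1 2 1
    have h5 := e4 h hw 1 4 3
    have h6 := e4 h hw 2 2 2
    linarith

theorem pB3 : Ea ω (fun u v => yy b B (B * B) B v u * yr b B (B * B * B * B) (B * B * B) u v) ≤
    1296 * EE Λ ν t Ξ Ω := by
  have hν := nu0 h
  have hL := L0 h
  refine (hw.Ea_mono (g := fun u v => 27 * (gam B v * |(B * B * B) u v| +
    |B u u| * gam B v * |(B * B * B * B) u v| + ν * (|B u u| * gam B v * gam B u) +
    Λ * (|(B * B) u v| * |(B * B * B) u v|) + |(B * B) u v| * |(B * B * B * B) u v| +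
    ν * (|(B * B) u v| * gam B u))) fun u v h0 => ?_).trans ?_
  · have h1 : |yr b B (B * B * B * B) (B * B * B) u v| ≤ 3 * (|(B * B * B) u v| +
        |B u u| * |(B * B * B * B) u v| + |B u u| * (ν * gam B u)) :=
      (yr_le h ha _ _ h0).trans (by gcongr; exact b3_le h u)
    refine (mul2_le (y0_le h ha (ne_swap hw h0)) h1).trans ?_
    rw [(s2 h).apply u v]
    have hg := gam0 h u
    have h2 := mul_le_mul_of_nonneg_right (h.abs_ent v v)
      (mul_nonneg (abs_nonneg ((B * B) u v)) (abs_nonneg ((B * B * B) u v)))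
    have h3 := mul_le_mul_of_nonneg_right (dd_le h ha h0)
      (mul_nonneg (abs_nonneg ((B * B) u v)) (abs_nonneg ((B * B * B * B) u v)))
    have h4 := mul_le_mul_of_nonneg_right (dd_le h ha h0)
      (show 0 ≤ ν * (|(B * B) u v| * gam B u) by positivity)
    linarith
  · have h1 := (lw_g h hw).swap.cs (lw_c3 h hw)
    have h2 := (lw_dg h hw).swap.cs (lw_c4 h hw)
    have h3 := mul_le_mul_of_nonneg_left ((lw_dg h hw).swap.cs (lw_g h hw)) hν
    have h4 := mul_le_mul_of_nonneg_left ((lw_c2 h hw).cs (lw_c3 h hw)) hL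
    have h5 := (lw_c2 h hw).cs (lw_c4 h hw)
    have h6 := mul_le_mul_of_nonneg_left ((lw_c2 h hw).cs (lw_g h hw)) hν
    simp only [Ea_const_mul, Ea_add]
    have e1 := e4 h hw 1 3 2
    have e2 := e4 h hw 1 4 3
    have e3 := e4 h hw 2 1 1
    have e4 := e4 h hw 1 5 4
    have e5 := e3' h hw
    linarith

theorem pB : Ea ω (fun u v => yy b B (B * B) B v u * yy b B (B * B * B * B) (B * B * B) u v) ≤
    (1 + 120 * ϑ) * ((1 + ϑ) * (t4 B * si t ^ 2)) + 1488 * EE Λ ν t Ξ Ω := by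
  have h1 := pB1 h ha hw
  have h2 := pB2 h ha hw
  have h3 := pB3 h ha hw
  rw [Ea_congr (g := fun u v => kk b B u v ^ 2 * ((B * B * B * B) u u * (B * B) v v) +
    kk b B u v * (B * B * B * B) u u * yr b B (B * B) B v u +
    yy b B (B * B) B v u * yr b B (B * B * B * B) (B * B * B) u v)
    fun u v _ => by simp only [yy, kk_symm h.symm u v]; ring, Ea_add, Ea_add]
  linarith

theorem pC0 : Ea ω (fun u v => xx b B (B * B * B) (B * B) u v * xx b B (B * B * B) (B * B) u v) ≤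
    3600 * EE Λ ν t Ξ Ω := by
  have h1 := (lw_x1 h ha hw).cs (lw_x1 h ha hw)
  have h2 := e5 h hw 2
  have h3 := e3' h hw
  have h4 := e4 h hw 1 3 2
  linarith

theorem pC1 : Ea ω (fun u v => kk b B u v ^ 2 * ((B * B * B) u u * (B * B * B) v v)) ≤
    t3 B ^ 2 * si t ^ 4 + 964 * EE Λ ν t Ξ Ω := by
  have hν := nu0 h
  have hL := L0 h
  have hF : av (fun u v => ((B * B * B) u u * (B * B * B) v v) ^ 2) ≤ (ν ^ 2 * (4 * Λ)) ^ 2 := by
    refine (av_mono (g := fun u v => (ν ^ 2) ^ 2 * (gam B u * gam B v) ^ 2) fun u v => ?_).trans ?_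
    · rw [← sq_abs, ← mul_pow, abs_mul]
      refine pow_le_pow_left₀ (by positivity) ?_ 2
      have := mul_le_mul (b3_le h u) (b3_le h v) (abs_nonneg _) (mul_nonneg hν (gam0 h u))
      linarith
    · rw [av_const_mul, mul_pow]
      exact mul_le_mul_of_nonneg_left (av_gg h) (sq_nonneg _)
  have h1 := main_term h hw (g := fun u v => kk b B u v ^ 2) (C := 30) (inv_b2 h) (by norm_num)
    (fun u v h0 => by
      have h2 : |kk b B u v - 1 / b| ≤ _ := (h.kap_bd (ha u v h0).1 (ha u v h0).2.1).2.2.2.2.1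
      have h3 : |kk b B u v + 1 / b| ≤ 11 / 10 + 1 :=
        (abs_add_le _ _).trans (add_le_add (kk_le h ha h0) (inv_b h))
      rw [show kk b B u v ^ 2 - 1 / b ^ 2 = (kk b B u v + 1 / b) * (kk b B u v - 1 / b) by ring,
        abs_mul]
      refine (mul_le_mul h3 h2 (abs_nonneg _) (by norm_num)).trans ?_
      linarith [abs_nonneg (B u v), abs_nonneg (B u u * B v v)]) (by positivity) hF
  rw [av_prod, div_rr h, show ∑ u, (B * B * B) u u = t3 B from rfl] at h1
  have h2 := mul_le_mul_of_nonneg_right ((le_abs_self _).trans (inv_b2 h))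
    (mul_self_nonneg (t3 B * si t ^ 2))
  have h3 := eXi h hw 1 2 1
  linarith

theorem pC2 : Ea ω (fun u v => kk b B u v * (B * B * B) u u * yr b B (B * B * B) (B * B) v u) ≤
    192 * EE Λ ν t Ξ Ω := by
  have hν := nu0 h
  refine (hw.Ea_mono (g := fun u v => 6 * ν * (gam B u * |(B * B) u v| +
    |B v v| * gam B u * |(B * B * B) u v| + |B v v| * gam B u * gam B v)) fun u v h0 => ?_).trans ?_
  · have h1 : |yr b B (B * B * B) (B * B) v u| ≤ 3 * (|(B * B) v u| +
        |B v v| * |(B * B * B) v u| + |B v v| * gam B v) :=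
      (yr_le h ha _ _ (ne_swap hw h0)).trans (by gcongr; exact b2_le h v)
    refine (mul3_le (kk_le h ha h0) (b3_le h u) h1).trans (le_of_eq ?_)
    rw [(s2 h).apply u v, (s3 h).apply u v]
    ring
  · have h1 := (lw_g h hw).cs (lw_c2 h hw)
    have h2 := (lw_dg h hw).cs (lw_c3 h hw)
    have h3 := (lw_dg h hw).cs (lw_g h hw).swap
    rw [Ea_const_mul, Ea_add, Ea_add]
    refine (mul_le_mul_of_nonneg_left (add_le_add (add_le_add h1 h2) h3) (by positivity)).trans ?_
    have h4 := e4 h hw 1 3 2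
    have h5 := e4 h hw 1 4 3
    have h6 := e4 h hw 2 1 1
    linarith

theorem pC3 : Ea ω (fun u v => yr b B (B * B * B) (B * B) u v * yr b B (B * B * B) (B * B) v u) ≤
    576 * EE Λ ν t Ξ Ω := by
  have hν := nu0 h
  have hL := L0 h
  have hw1 : LW ω (fun u v => |(B * B) u v| + |B u u| * gam B u) (6 * Λ) :=
    ((lw_c2 h hw).add (lw_dg' h hw)).mono (by
      have := mon_le h 0 2 2 1 0 0
      linarith)
  refine (hw.Ea_mono (g := fun u v => 9 * ((|(B * B) u v| + |B u u| * gam B u) *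
    (|(B * B) v u| + |B v v| * gam B v) +
    Λ * ((|(B * B) u v| + |B u u| * gam B u) * |(B * B * B) u v|) +
    Λ * ((|(B * B) v u| + |B v v| * gam B v) * |(B * B * B) u v|) +
    |(B * B * B) u v| * |(B * B * B) u v|)) fun u v h0 => ?_).trans ?_
  · have h1 : ∀ u v, ω u v ≠ 0 → |yr b B (B * B * B) (B * B) u v| ≤ 3 * (|(B * B) u v| +
        |B u u| * |(B * B * B) u v| + |B u u| * gam B u) := fun u v h0 =>
      (yr_le h ha _ _ h0).trans (by gcongr; exact b2_le h u)
    refine (mul2_le (h1 u v h0) (h1 v u (ne_swap hw h0))).trans ?_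
    rw [(s3 h).apply u v]
    have hg := gam0 h u
    have hg' := gam0 h v
    have h2 := mul_le_mul_of_nonneg_right (h.abs_ent v v)
      (show 0 ≤ (|(B * B) u v| + |B u u| * gam B u) * |(B * B * B) u v| by positivity)
    have h3 := mul_le_mul_of_nonneg_right (h.abs_ent u u)
      (show 0 ≤ (|(B * B) v u| + |B v v| * gam B v) * |(B * B * B) u v| by positivity)
    have h4 := mul_le_mul_of_nonneg_right (dd_le h ha h0) (mul_self_nonneg |(B * B * B) u v|)
    linarith
  · have h1 := hw1.cs hw1.swap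
    have h2 := mul_le_mul_of_nonneg_left (hw1.cs (lw_c3 h hw)) hL
    have h3 := mul_le_mul_of_nonneg_left (hw1.swap.cs (lw_c3 h hw)) hL
    have h4 := (lw_c3 h hw).cs (lw_c3 h hw)
    rw [Ea_const_mul, Ea_add, Ea_add, Ea_add, Ea_const_mul, Ea_const_mul]
    have e1 := e5 h hw 2
    have e2 := e4 h hw 2 3 2
    have e3 := e3' h hw
    linarith

theorem pC : Ea ω (fun u v => yy b B (B * B * B) (B * B) u v * yy b B (B * B * B) (B * B) v u) ≤
    t3 B ^ 2 * si t ^ 4 + 1924 * EE Λ ν t Ξ Ω := by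
  have h1 := pC1 h ha hw
  have h2 := pC2 h ha hw
  have h2' := (hw.Ea_swap _).le.trans h2
  have h3 := pC3 h ha hw
  rw [Ea_congr (g := fun u v => kk b B u v ^ 2 * ((B * B * B) u u * (B * B * B) v v) +
    kk b B u v * (B * B * B) u u * yr b B (B * B * B) (B * B) v u +
    kk b B v u * (B * B * B) v v * yr b B (B * B * B) (B * B) u v +
    yr b B (B * B * B) (B * B) u v * yr b B (B * B * B) (B * B) v u)
    fun u v _ => by simp only [yy, kk_symm h.symm u v]; ring, Ea_add, Ea_add, Ea_add]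
  linarith

theorem pD1 : Ea ω (fun u v => (xx b B (B * B) B u v ^ 2 +
    yy b B (B * B) B u v * yy b B (B * B) B v u) * xx b B (B * B * B) (B * B) u v) ≤
    265680 * EE Λ ν t Ξ Ω := by
  have h1 := ((lw_x0sq h ha hw).add (lw_yy h ha hw)).cs (lw_x1 h ha hw)
  have h2 := e5 h hw 3
  have h3 := e4 h hw 2 3 2
  linarith

theorem pD2 : Ea ω (fun u v => yy b B (B * B) B v u * yy b B (B * B * B) (B * B) u v *
    (xx b B (B * B) B u v + xx b B (B * B) B v u)) ≤ 228096 * EE Λ ν t Ξ Ω := by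
  have h1 := (lw_y01 h ha hw).cs ((lw_x0 h ha hw).add (lw_x0 h ha hw).swap)
  have h2 := e4 h hw 2 2 1
  linarith

theorem pE : Ea ω (fun u v => (xx b B (B * B) B u v ^ 2 +
    yy b B (B * B) B u v * yy b B (B * B) B v u) ^ 2 +
    yy b B (B * B) B u v * yy b B (B * B) B v u *
      (xx b B (B * B) B u v + xx b B (B * B) B v u) ^ 2) ≤ 10 ^ 8 * EE Λ ν t Ξ Ω := by
  have h1 := (lw_x0sq h ha hw).add (lw_yy h ha hw)
  have h2 : LW ω (fun u v => (xx b B (B * B) B u v + xx b B (B * B) B v u) ^ 2) _ :=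
    (((lw_x0sq h ha hw).add (lw_x0sq h ha hw).swap).smul zero_le_two).of_le fun u v _ => by
      rw [abs_of_nonneg (sq_nonneg _)]
      nlinarith [sq_nonneg (xx b B (B * B) B u v - xx b B (B * B) B v u)]
  have h3 := h1.le
  have h4 := (lw_yy h ha hw).cs h2
  have h5 := e5 h hw 4
  have h6 : 0 ≤ Λ ^ 4 := by positivity
  rw [Ea_add]
  linarith

end Crest.Agent.R62.T4
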