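import Crest.Agent.R62.Api
import Crest.Agent.R62.Trace
import Crest.Agent.R62.T4Aux4

/-!
# R62/T4: one-sided drift of `t4` (TASK)

General method (notation: see `Defs`).  On the support of `ω` (`ω u v ≠ 0`) we have `u ≠ v` (`Wt.ne`),
`|c| ≤ ϑ`, `|δ_u δ_v| ≤ ϑ` (`Adm`), so the exact formulas of `Trace` and `Reg.kap_bd` apply:
`K12 = 1/b + O(14 e)`, `κ = 1/b² + O(6 e)`, `E e² ≤ 16/r` (`Reg.av_e`), `E (ω-1)² ≤ Ξ²/r` (`Wt.av_sq`).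
Write the increment as `main + rem` where `main` is a polynomial in entries of powers of `B` (defined
for all pairs); `E_ω main = E main + E[(ω-1) main]` (`Ea_eq`), `E main` is computed exactly with
`av_prod, av_row, av_col` (row sums of `B^j` are `b^j`), everything else is bounded with Cauchy-Schwarz
(`av_cs`, `abs_av_cs`), `Wt.abs_Ea_le`, `Wt.Ea_le_two`, using the L² norms (over pairs, `r = t^8`)
`‖δ_u‖² = D/r ≤ Λ/r`, `‖β_u‖² = W/r ≤ Λ`, `‖b_j(u)‖² ≤ ν^(2j-4) Λ` (`word_diag_le`),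
`‖c‖² ≤ 4/r`, `‖c_j‖ ≤ ν^j / r` for `j ≥ 2` (`av_sq_eq_fro`, `fro_mul_left`), `‖f(u) g(v)‖ = ‖f‖ ‖g‖`
(`av_prod`), and the pointwise bounds `δ² ≤ Λ`, `δ_u² ≤ β_u`, `β² ≤ Λ r`, `c_2² ≤ β_u β_v`, `|b| ≤ 2`,
`1 ≤ Λ ≤ ν ≤ t^4`, `Λ ≤ ϑ t`.  The constant `CC = 10^12` is very generous: be crude.
Advice: split into many small lemmas (one per monomial type); avoid big `nlinarith` calls, use
`abs_mul, mul_le_mul, gcongr, positivity`.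

`Δ t4 = 4 tr H3 + 4 tr H0 H2 + 2 tr H1² + 4 tr H0² H1 + tr H0^4` (`t4_upd`); `b_4(u) ≥ 0`, `Σ b_4 = T4 ≤ ν^4`.
* `tr H3 = K11 (b_5(u) - b c_4) + K22 (..) + K12 (2 c_5 - b b_4(u) - b b_4(v))`.
  Removal: `-4 K12 b (b_4(u) + b_4(v))` has `E_ω ≤ -8 (1-56ϑ)(1-ϑ) T4/r`.
  `ω K12 c_5 = c_5/b + ζ c_5`, `E c_5 = b^5/r`, `ζ = (ω-1)/b + ω (K12 - 1/b)` has `OpB` norm `≤ Ω + 112 t^4 ≤ 113 Ω`,
  `c_5 = Σ_k (B²) u k (B³) v k`, `OpB.nuclear` gives `|Σ ζ c_5| ≤ 113 Ω ν T4`.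
  `ω κ δ_v b_5(u) = δ_v b_5(u)/b² + (ω κ - 1/b²) δ_v b_5(u)`: average `T1 T5/(b² r²)`, `|T5| ≤ ν T4`; the rest
  `≤ C (Ξ/t^4)(Λ ν³/t^4)`.   `E|δ_v c_4| ≤ (Λ/t^4) ν^4/r ≤ ϑ ν^4/r`.
* `tr H0 H2 = x⁰x² + x⁰x² + y⁰_v y²_u + y⁰_u y²_v`; main `K12² β_v b_4(u) ≤ (1+120ϑ) β_v b_4(u)/b²`,
  `E_ω ≤ (1+ϑ)(1+120ϑ) (o/b²) T4/r` and `o ≤ b²` cancels the removal up to `C ϑ ν^4/r`.
  `‖x⁰‖ ≤ C (Λ/t^4 + ν²/r)`, `‖x²‖ ≤ C (Λ ν + ν^4/r)`.  `y⁰_v = K12 β_v - K12 b c + K11 (c_2 - b δ_v)`,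
  `y²_u = K12 b_4(u) - K12 b c_3 + K22 (c_4 - b b_3(u))`: `E|c| b_4(u) ≤ ϑ T4/r`, `E β_v |c_3| ≤ Λ ν³/r`, etc.
* `tr H1² = (x¹_u)² + (x¹_v)² + 2 y¹_u y¹_v`; `‖x¹‖ ≤ C (Λ + ν³/r)`; main `ω K12² b_3(u) b_3(v)` has average
  `(T3/r)²/b² + O((Ξ/t^4) ν² Λ²)`.
* `tr H0² H1`, `tr H0^4 = x_u^4 + x_v^4 + 4 (x_u² + x_v² + x_u x_v) y_u y_v + 2 (y_u y_v)²`: use `E x^4 ≤ C Λ^4`,
  `E (y_u y_v)² ≤ C Λ^4`, `‖x¹‖`, `‖y⁰_u y¹_v‖ ≤ C (ν Λ² + Λ t²)` (see the list of products in `TVar`;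
  here `(β_v+1)² β_v β_u` averages to `C Λ² t^4`), `‖x⁰‖`.
Every error is one of `ϑ ν^4/r`, `Ω ν^5/r²` (note `ν^6/r² ≤ Ω ν^5/r²`), `Ξ Λ² ν²/t^4` (dominates `Λ² ν³/r`),
`Λ^4`; also `Λ³ ν/t^4 ≤ Λ^4`.
-/

set_option autoImplicit false
set_option linter.unusedSectionVars false
open Finset Matrix

namespace Crest.Agent.R62

variable {ι : Type} [Fintype ι] [DecidableEq ι]
variable {ω : ι → ι → ℝ} {B : Matrix ι ι ℝ} {b Λ ν t ϑ Ξ Ω ρ : ℝ}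

/-- half of the increment of `t4` -/
private noncomputable def t4_G (b : ℝ) (B : Matrix ι ι ℝ) (u v : ι) : ℝ :=
  4 * T4.xx b B (B * B * B * B * B) (B * B * B * B) u v +
  4 * (T4.xx b B (B * B) B u v * T4.xx b B (B * B * B * B) (B * B * B) u v) +
  4 * (T4.yy b B (B * B) B v u * T4.yy b B (B * B * B * B) (B * B * B) u v) +
  2 * (T4.xx b B (B * B * B) (B * B) u v * T4.xx b B (B * B * B) (B * B) u v) +
  2 * (T4.yy b B (B * B * B) (B * B) u v * T4.yy b B (B * B * B) (B * B) v u) +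
  4 * ((T4.xx b B (B * B) B u v ^ 2 + T4.yy b B (B * B) B u v * T4.yy b B (B * B) B v u) *
    T4.xx b B (B * B * B) (B * B) u v) +
  4 * (T4.yy b B (B * B) B v u * T4.yy b B (B * B * B) (B * B) u v *
    (T4.xx b B (B * B) B u v + T4.xx b B (B * B) B v u)) +
  ((T4.xx b B (B * B) B u v ^ 2 + T4.yy b B (B * B) B u v * T4.yy b B (B * B) B v u) ^ 2 +
    T4.yy b B (B * B) B u v * T4.yy b B (B * B) B v u *
      (T4.xx b B (B * B) B u v + T4.xx b B (B * B) B v u) ^ 2)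

private theorem t4_eq (h : Reg B b Λ ν t ϑ) (hw : Wt ω ϑ Ξ Ω t) (ha : Adm ω B ϑ ρ) {u v : ι}
    (h0 : ω u v ≠ 0) : t4 (upd b B u v) - t4 B = t4_G b B u v + t4_G b B v u := by
  have hk : (b - B u v) ^ 2 - B u u * B v v ≠ 0 := by
    have h1 := (h.kap_bd (ha u v h0).1 (ha u v h0).2.1).1
    have h2 := h.b1
    exact ne_of_gt (by linarith)
  rw [t4_upd h.symm (hw.ne h0) hk,
    T4.Hm_eq h.symm (w := B * B * B) (by simp only [Matrix.mul_assoc]) rfl (T4.s5 h) (T4.s4 h),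
    T4.Hm_eq h.symm (w := B * B) (by simp only [Matrix.mul_assoc]) rfl (T4.s4 h) (T4.s3 h),
    T4.Hm_eq h.symm (w := B) rfl rfl (T4.s3 h) (T4.s2 h),
    T4.Hm_eq h.symm (w := 1) (by rw [Matrix.mul_one]) (Matrix.one_mul B) (T4.s2 h) h.symm]
  simp only [Matrix.mul_fin_two, Matrix.trace_fin_two_of, t4_G]
  ring

theorem drift_t4 (h : Reg B b Λ ν t ϑ) (hw : Wt ω ϑ Ξ Ω t) (ha : Adm ω B ϑ ρ) :
    Ea ω (fun u v => t4 (upd b B u v) - t4 B) ≤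
      4 * t3 B ^ 2 / rr ι ^ 2 +
      CC * (ϑ + |t1 B| * ν / rr ι + Ω * ν / rr ι) * ν ^ 4 / rr ι +
      CC * (Ξ * Λ ^ 2 * ν ^ 2 / t ^ 4 + Λ ^ 4) := by
  have h0 := T4.si_pos h
  have hν := T4.nu0 h
  have hϑ := h.th0
  have hϑ1 := h.th1
  have hA := T4.pA h ha hw
  have hB0 := T4.pB0 h ha hw
  have hB := T4.pB h ha hw
  have hC0 := T4.pC0 h ha hw
  have hC := T4.pC h ha hw
  have hD1 := T4.pD1 h ha hw
  have hD2 := T4.pD2 h ha hw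
  have hE := T4.pE h ha hw
  have h1 : (1 + 120 * ϑ) * (1 + ϑ) - (1 - 56 * ϑ) * (1 - ϑ) ≤ 179 * ϑ := by nlinarith
  have h2 := mul_le_mul_of_nonneg_right h1 (mul_nonneg (T4.t4_nonneg h) (sq_nonneg (T4.si t)))
  have h3 : ϑ * (t4 B * T4.si t ^ 2) ≤ ϑ * (ν ^ 4 * T4.si t ^ 2) := by gcongr; exact h.t4
  have h4 : 0 ≤ ϑ * (ν ^ 4 * T4.si t ^ 2) := by positivity
  have h5 : 0 ≤ |t1 B| * (ν ^ 5 * T4.si t ^ 4) := by positivity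
  have h6 : 0 ≤ T4.EE Λ ν t Ξ Ω := (pow_nonneg (T4.L0 h) 0).trans (T4.e5 h hw 0)
  have e : Ξ * Λ ^ 2 * ν ^ 2 / t ^ 4 = Ξ * (Λ ^ 2 * ν ^ 2 * T4.si t) := by unfold T4.si; ring
  have hG : Ea ω (t4_G b B) ≤ 2 * t3 B ^ 2 * T4.si t ^ 4 + 716 * (ϑ * (ν ^ 4 * T4.si t ^ 2)) +
      4 * (|t1 B| * (ν ^ 5 * T4.si t ^ 4)) + 10 ^ 9 * T4.EE Λ ν t Ξ Ω := by
    unfold t4_G
    rw [Ea_add, Ea_add, Ea_add, Ea_add, Ea_add, Ea_add, Ea_add, Ea_const_mul, Ea_const_mul,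
      Ea_const_mul, Ea_const_mul, Ea_const_mul, Ea_const_mul, Ea_const_mul]
    linarith
  rw [Ea_congr fun u v h0 => t4_eq h hw ha h0, Ea_add, hw.Ea_swap (t4_G b B), T4.div_rr2 h, e]
  simp only [T4.div_rr h]
  unfold CC
  unfold T4.EE at hG h6
  change Ea ω (t4_G b B) + _ ≤ _
  linarith

end Crest.Agent.R62
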