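import Crest.Agent.R62.BFacts
import Crest.Agent.R62.T4
import Crest.Agent.R62.Late
import Crest.Agent.R62.TPsi

/-!
# R62/TT4: one step of the `t4` term and of the late `t2` term (TASK)

`term_T4`: if `r - 2 ≤ r4` the left side is `0`.  Else `U4 (r-2) z ≤ z r/L^192096` (`t4 ≥ 0`: `fro_sq_eq_t4`, `upd_symm`), and by
`drift_t4`, `Side.rel_small`, `ν^4 r/L^192096 = 16`:  `4 t3²/(r L^192096) ≤ 144 L^192002/(r L^192096)`;
`CC (3/L) 16/r`; `Ξ Λ² ν² r/(t^4 L^192096) = 4 Ξ Λ²/L^96048 ≤ 4/(L r)` iff `Ξ Λ² L r ≤ L^96048`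
(`r ≥ 2 r2 + 2`: `L^(43+96001)`; otherwise `r ≤ 4 L^65240`, `ΞΛ² ≤ L^3859`);  `Λ^4 L r² ≤ L^192096`
(`L^(81+192002)`, resp. `16 L^(4753+130480)`).

`term_F`: `F = t2 - a² ≥ 0`, weight `w ρ = rs/(L ρ²)` for `ρ ≤ r4`.
* `r - 2 > r4`: both sides vanish.
* `r - 2 ≤ r4 < r`: `E F' ≤ t2 + 1 ≤ 48 r²/rs + 1` (`dF_le`, `Bnd.F_mid`), `(r-2)² ≥ 0.9 r²`, `rs ≤ r²`: `≤ 100/L`.
* `r ≤ r4`: `drift_late` with `Ξ Λ ν/t^4 = L^(2+20-23) = 1/L`, `t2/r ≤ 1/L` (`o_small`):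
  `E F' ≤ F (1 - 4/r) + 3 CC (F + 4)/(L r) + CC D/r`; `w (r-2) = w r (r/(r-2))²`, `(1 - 4/r)(r/(r-2))² ≤ 1`, `w r F ≤ 2`,
  `w (r-2) ≤ 8` (`ctx.run`), `D ≤ 2 L^19 r/r4 + 2/L²`, `w (r-2) 2 L^19 r/r4 ≤ 4 L^66/r ≤ 1/L`.

General remarks.  `h : Side ..` provides `h.reg, h.wt, h.adm` (hypotheses of the drift lemmas, with `ϑ = 1/L`,
`Λ = Lam r`, `ν = nu r t`, `Ξ = Xi r`, `Ω = Om r t`), `h.bnd` (use the lemmas `Bnd.*` of `BFacts`), `h.ctx` (lemmas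
`Ctx.*`, `Good.*` of `Facts`), `h.rr_eq : rr ι = r`, `h.b_sq`, `h.nonneg`.  `t^8 = r`; `CC = 10^12`, `C2 = 10^18`,
`L ≥ 10^80`, `L^96000 ≤ n ≤ 2 L^96000`.  Split into phases (`by_cases`), rewrite the weights with `if_pos/if_neg`,
use linearity of `Ea` (`Ea_add, Ea_const_mul, Wt.Ea_const, Wt.Ea_mono`), then check the monomial inequalities with the
bounds on `t` (`Ctx.t_lo, t_mid, t_tilt, t_hi`) and `cpow_le`.  Prove each monomial inequality as a separate small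
lemma about real numbers `L, t, ..` (never let `norm_num`/`nlinarith` see the huge exponents; `calc`, `gcongr`,
`div_le_iff₀`, `pow_le_pow_right₀`, `ring`).
-/

set_option autoImplicit false
set_option linter.unusedSectionVars false
open Finset Matrix

namespace Crest.Agent.R62

variable {ι : Type} [Fintype ι] [DecidableEq ι] {P : Par ℝ} {r : ℕ} {t b : ℝ}
  {B B' : Matrix ι ι ℝ} {ω : ι → ι → ℝ}

theorem tt4_main {L R t K T x y ν Ξ Λ Δ : ℝ} (hL : 0 < L) (ht : 0 < t) (hR : t ^ 8 = R)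
    (hK : 0 < K) (hν : ν = 2 * K / t ^ 2) (h1 : 4 * T ^ 2 * L ≤ K ^ 4) (hx : x ≤ 1 / L)
    (hy : y ≤ 1 / L) (h3 : Ξ * Λ ^ 2 * L * R ≤ K ^ 2) (h4 : Λ ^ 4 * L * R ^ 2 ≤ K ^ 4)
    (hΔ : Δ ≤ 4 * T ^ 2 / R ^ 2 + CC * (1 / L + x + y) * ν ^ 4 / R +
      CC * (Ξ * Λ ^ 2 * ν ^ 2 / t ^ 4 + Λ ^ 4)) :
    R / K ^ 4 * Δ ≤ C2 / (L * R) := by
  have hR0 : 0 < R := hR ▸ pow_pos ht 8
  have hd : 0 < L * R ^ 2 := by positivity
  set Z := K ^ 4 / (L * R ^ 2) with hZ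
  have hZ0 : 0 < Z := by positivity
  have a1 : 4 * T ^ 2 / R ^ 2 ≤ Z := by
    calc 4 * T ^ 2 / R ^ 2 = 4 * T ^ 2 * L / (L * R ^ 2) := by field_simp
      _ ≤ Z := div_le_div_of_nonneg_right h1 hd.le
  have a2 : (1 / L + x + y) * ν ^ 4 / R ≤ 48 * Z := by
    calc (1 / L + x + y) * ν ^ 4 / R ≤ (3 * (1 / L)) * ν ^ 4 / R := by
          refine div_le_div_of_nonneg_right (mul_le_mul_of_nonneg_right (by linarith) ?_) hR0.le
          rw [hν]; positivity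
      _ = 48 * Z := by
          rw [hZ, hν, ← hR]; field_simp; norm_num
  have a3 : Ξ * Λ ^ 2 * ν ^ 2 / t ^ 4 ≤ 4 * Z := by
    calc Ξ * Λ ^ 2 * ν ^ 2 / t ^ 4 = 4 * K ^ 2 * (Ξ * Λ ^ 2 * L * R) / (L * R ^ 2) := by
          rw [hν, ← hR]; field_simp; norm_num
      _ ≤ 4 * K ^ 2 * K ^ 2 / (L * R ^ 2) :=
          div_le_div_of_nonneg_right (mul_le_mul_of_nonneg_left h3 (by positivity)) hd.le
      _ = 4 * Z := by rw [hZ]; ring
  have a4 : Λ ^ 4 ≤ Z := by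
    rw [hZ, le_div_iff₀ hd, ← mul_assoc]
    exact h4
  have hC : (0 : ℝ) ≤ CC := by unfold CC; positivity
  have a5 : Δ ≤ C2 * Z := by
    have b2 := mul_le_mul_of_nonneg_left a2 hC
    have b3 := mul_le_mul_of_nonneg_left (add_le_add a3 a4) hC
    have e : CC * (1 / L + x + y) * ν ^ 4 / R = CC * ((1 / L + x + y) * ν ^ 4 / R) := by ring
    rw [e] at hΔ
    have b4 : (1 + 53 * CC) * Z ≤ C2 * Z :=
      mul_le_mul_of_nonneg_right (by unfold CC C2; norm_num) hZ0.le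
    linarith
  calc R / K ^ 4 * Δ ≤ R / K ^ 4 * (C2 * Z) := mul_le_mul_of_nonneg_left a5 (by positivity)
    _ = C2 / (L * R) := by rw [hZ]; field_simp

theorem tt4_mono₃ {L Ξ Λ R : ℝ} {a b c k : ℕ} (hL : 1 ≤ L) (hΞ : Ξ ≤ L ^ a) (hΛ : Λ = L ^ b)
    (hR0 : 0 ≤ R) (hR : R ≤ L ^ c) (h : a + 2 * b + 1 + c ≤ k * 2) :
    Ξ * Λ ^ 2 * L * R ≤ (L ^ k) ^ 2 := by
  have h0 : 0 ≤ L := by linarith
  calc Ξ * Λ ^ 2 * L * R ≤ L ^ a * Λ ^ 2 * L * L ^ c := by gcongr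
    _ = L ^ (a + 2 * b + 1 + c) := by rw [hΛ]; ring
    _ ≤ L ^ (k * 2) := pow_le_pow_right₀ hL h
    _ = (L ^ k) ^ 2 := pow_mul _ _ _

theorem tt4_mono₄ {L Λ R : ℝ} {b c k : ℕ} (hL : 1 ≤ L) (hΛ : Λ = L ^ b)
    (hR0 : 0 ≤ R) (hR : R ≤ L ^ c) (h : 4 * b + 1 + 2 * c ≤ k * 4) :
    Λ ^ 4 * L * R ^ 2 ≤ (L ^ k) ^ 4 := by
  have h0 : 0 ≤ L := by linarith
  calc Λ ^ 4 * L * R ^ 2 ≤ Λ ^ 4 * L * (L ^ c) ^ 2 := by gcongr
    _ = L ^ (4 * b + 1 + 2 * c) := by rw [hΛ]; ring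
    _ ≤ L ^ (k * 4) := pow_le_pow_right₀ hL h
    _ = (L ^ k) ^ 4 := pow_mul _ _ _

theorem tt4_mono₁ {L T n : ℝ} {c k : ℕ} (hL : 144 ≤ L) (hT : |T| ≤ 3 * L * n) (hn : n ≤ 2 * L ^ c)
    (h : 2 * c + 4 ≤ k * 4) : 4 * T ^ 2 * L ≤ (L ^ k) ^ 4 := by
  have h0 : 0 ≤ L := by linarith
  have h1 : |T| ≤ 3 * L * (2 * L ^ c) := hT.trans (by gcongr)
  have h2 : T ^ 2 ≤ (3 * L * (2 * L ^ c)) ^ 2 := by
    rw [← sq_abs T]
    exact pow_le_pow_left₀ (abs_nonneg _) h1 2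
  calc 4 * T ^ 2 * L ≤ 4 * (3 * L * (2 * L ^ c)) ^ 2 * L := by gcongr
    _ = 144 * L ^ (2 * c + 3) := by ring
    _ ≤ L ^ (k * 4) := cpow_le (by linarith) hL (by omega)
    _ = (L ^ k) ^ 4 := pow_mul _ _ _

theorem tt4_tilt {L R : ℝ} {c : ℕ} (hL : 4 ≤ L) (hR : R ≤ 2 * L ^ c + 2) : R ≤ L ^ (c + 1) := by
  have h1 : (1 : ℝ) ≤ L ^ c := one_le_pow₀ (by linarith)
  exact (show R ≤ 4 * L ^ c by linarith).trans (cpow_le (by linarith) hL (Nat.lt_succ_self c))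

theorem tt4_late {L R S F D Δ : ℝ} (hL : 0 < L) (hR : 1000 ≤ R) (hS : 0 ≤ S)
    (hS' : S ≤ 4 * L * R ^ 2) (hF : 0 ≤ F) (hF' : F * S / (L * R ^ 2) ≤ 2) (hD0 : 0 ≤ D)
    (hD : S / (L * R ^ 2) * D * L ≤ 9)
    (hΔ : Δ ≤ -4 * F / R + 3 * CC * (F + 4) / (L * R) + CC * (D / R)) :
    S / (L * (R - 2) ^ 2) * (Δ + F) ≤ F * S / (L * R ^ 2) + C2 / (L * R) := by
  have hR0 : 0 < R := by linarith
  have hR2 : 0 < R - 2 := by linarith
  have hC : (0 : ℝ) ≤ CC := by unfold CC; positivity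
  set w := S / (L * R ^ 2) with hw
  set w' := S / (L * (R - 2) ^ 2) with hw'
  have e0 : F * S / (L * R ^ 2) = F * w := by rw [hw]; ring
  rw [e0] at hF' ⊢
  have w0 : 0 ≤ w := by positivity
  have w0' : 0 ≤ w' := by positivity
  have e1 : w' * (R - 2) ^ 2 = w * R ^ 2 := by rw [hw, hw']; field_simp
  have w4 : w ≤ 4 := by
    rw [hw, div_le_iff₀ (by positivity)]
    linarith
  have w2 : w' ≤ 2 * w := by
    refine le_of_mul_le_mul_right ?_ (pow_pos hR2 2)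
    rw [e1]
    have : R ^ 2 ≤ 2 * (R - 2) ^ 2 := by nlinarith
    have := mul_le_mul_of_nonneg_left this w0
    linarith
  have w1 : w' * (1 - 4 / R) ≤ w := by
    refine le_of_mul_le_mul_right ?_ (pow_pos hR0 2)
    rw [← e1]
    have e : w' * (1 - 4 / R) * R ^ 2 = w' * (R ^ 2 - 4 * R) := by field_simp
    rw [e]
    exact mul_le_mul_of_nonneg_left (by nlinarith) w0'
  set z := 1 / (L * R) with hz
  have z0 : 0 ≤ z := by positivity
  have a1 : w' * (F + 4) ≤ 36 := by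
    have := mul_le_mul_of_nonneg_right w2 (by linarith : 0 ≤ F + 4)
    linarith
  have a2 : w' * D * L ≤ 18 := by
    have := mul_le_mul_of_nonneg_right (mul_le_mul_of_nonneg_right w2 hD0) hL.le
    linarith
  have e2 : w' * (-4 * F / R + 3 * CC * (F + 4) / (L * R) + CC * (D / R) + F) =
      F * (w' * (1 - 4 / R)) + 3 * (CC * z) * (w' * (F + 4)) + CC * z * (w' * D * L) := by
    rw [hz]; field_simp; ring
  have a3 := mul_le_mul_of_nonneg_left (add_le_add_left hΔ F) w0'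
  rw [e2] at a3
  have a4 := mul_le_mul_of_nonneg_left w1 hF
  have cz : 0 ≤ CC * z := mul_nonneg hC z0
  have a5 := mul_le_mul_of_nonneg_left a1 (mul_nonneg (by norm_num : (0 : ℝ) ≤ 3) cz)
  have a6 := mul_le_mul_of_nonneg_left a2 cz
  have a7 : 126 * CC * z ≤ C2 * z := mul_le_mul_of_nonneg_right (by unfold CC C2; norm_num) z0
  have e3 : C2 / (L * R) = C2 * z := by rw [hz]; ring
  rw [e3]
  linarith

theorem tt4_D {L R S V D : ℝ} (hL : 1 ≤ L) (hR : 0 < R) (hV : 0 < V) (hS : S = L ^ 48 * V)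
    (hS' : S ≤ 4 * L * R ^ 2) (hR' : 2 * L ^ 67 ≤ R) (hD : D ≤ 2 * (L ^ 19 * R / V + 1 / L ^ 2)) :
    S / (L * R ^ 2) * D * L ≤ 9 := by
  have h0 : 0 < L := by linarith
  have hS0 : 0 ≤ S := by rw [hS]; positivity
  have w4 : S / (L * R ^ 2) ≤ 4 := by
    rw [div_le_iff₀ (by positivity)]
    linarith
  have a1 : 2 * L ^ 67 / R ≤ 1 := (div_le_one hR).2 hR'
  have a2 : S / (L * R ^ 2) * (2 / L) ≤ 4 * 2 := by
    refine mul_le_mul w4 ?_ (by positivity) (by norm_num)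
    rw [div_le_iff₀ h0]
    linarith
  calc S / (L * R ^ 2) * D * L ≤ S / (L * R ^ 2) * (2 * (L ^ 19 * R / V + 1 / L ^ 2)) * L := by
        gcongr
    _ = 2 * L ^ 67 / R + S / (L * R ^ 2) * (2 / L) := by rw [hS]; field_simp
    _ ≤ 9 := by linarith

theorem tt4_mid {L R S F Δ : ℝ} (hL : 0 < L) (hR : 1000 ≤ R) (hS : 0 < S)
    (h : Δ + F ≤ 48 * R ^ 2 / S) : S / (L * (R - 2) ^ 2) * (Δ + F) ≤ 100 / L := by
  have hR2 : 0 < R - 2 := by linarith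
  calc S / (L * (R - 2) ^ 2) * (Δ + F) ≤ S / (L * (R - 2) ^ 2) * (48 * R ^ 2 / S) :=
        mul_le_mul_of_nonneg_left h (by positivity)
    _ = 48 * R ^ 2 / (R - 2) ^ 2 / L := by field_simp
    _ ≤ 100 / L := by
        refine div_le_div_of_nonneg_right ?_ hL.le
        rw [div_le_iff₀ (pow_pos hR2 2)]
        nlinarith

theorem tt4_eps {L s : ℝ} (hL : 0 < L) (hs : 0 < s) : L ^ 2 * L ^ 20 * (s / L ^ 23) / s = 1 / L := by
  field_simp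

theorem tt4_Ea (h : Side P r t B B' b ω) (c y : ℝ) (f : ι → ι → ℝ) :
    Ea ω (fun u v => c * ((f u v - y) + y)) = c * (Ea ω (fun u v => f u v - y) + y) := by
  rw [Ea_const_mul, Ea_add, h.wt.Ea_const h.reg.rpos]

theorem term_T4 (h : Side P r t B B' b ω) :
    Ea ω (fun u v => P.U4 (r - 2) (t4 (upd b B u v))) ≤ P.U4 r (t4 B) + C2 / (P.L * r) := by
  have hg := h.ctx.good
  have hLb := hg.L_big
  have hL1 := hg.L_one
  have hL0 : (0 : ℝ) < P.L := by linarith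
  have hRb : (1000 : ℝ) ≤ r := by exact_mod_cast h.ctx.r_big
  have hR0 : (0 : ℝ) < r := by linarith
  have hC : 0 ≤ C2 / ((P.L : ℝ) * r) := by unfold C2; positivity
  by_cases hr2 : P.r4 < r - 2
  swap
  · have e : (fun u v => P.U4 (r - 2) (t4 (upd b B u v))) = fun _ _ => (0 : ℝ) := by
      funext u v
      exact if_neg hr2
    rw [e, h.wt.Ea_const h.reg.rpos]
    exact add_nonneg h.nonneg.2.2.2.1 hC
  have hr : P.r4 < r := by omega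
  have eK : (P.L : ℝ) ^ 192096 = ((P.L : ℝ) ^ 48024) ^ 4 := by rw [← pow_mul]
  have hK : (0 : ℝ) < (P.L : ℝ) ^ 48024 := pow_pos hL0 _
  have h1 : Ea ω (fun u v => P.U4 (r - 2) (t4 (upd b B u v))) ≤ Ea ω (fun u v =>
      (r : ℝ) / ((P.L : ℝ) ^ 48024) ^ 4 * ((t4 (upd b B u v) - t4 B) + t4 B)) := by
    refine h.wt.Ea_mono fun u v _ => ?_
    have h0 : 0 ≤ t4 (upd b B u v) := by
      rw [← fro_sq_eq_t4 (upd_symm b h.reg.symm u v)]
      exact sum_nonneg fun _ _ => sum_nonneg fun _ _ => sq_nonneg _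
    unfold Par.U4
    rw [if_pos hr2, h.ctx.cast_sub, eK, sub_add_cancel, div_mul_eq_mul_div, mul_comm (r : ℝ)]
    exact div_le_div_of_nonneg_right (mul_le_mul_of_nonneg_left (by linarith) h0) (pow_pos hK 4).le
  rw [tt4_Ea h] at h1
  have hd := drift_t4 h.reg h.wt h.adm
  rw [h.rr_eq] at hd
  have hL144 : (144 : ℝ) ≤ P.L := le_trans (by norm_num) hLb
  have k1 := tt4_mono₁ (k := 48024) hL144 (h.bnd.t3_mid h.ctx hr) hg.n_hi (by norm_num)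
  have k34 : P.Xi r * P.Lam r ^ 2 * P.L * r ≤ ((P.L : ℝ) ^ 48024) ^ 2 ∧
      P.Lam r ^ 4 * P.L * (r : ℝ) ^ 2 ≤ ((P.L : ℝ) ^ 48024) ^ 4 := by
    by_cases hp : r < 2 * P.r2 + 2
    · have hΛ : P.Lam r = (P.L : ℝ) ^ 1188 := if_pos ⟨hr, hp⟩
      have hΞ : P.Xi r ≤ (P.L : ℝ) ^ 1483 := by
        unfold Par.Xi
        split_ifs
        · exact le_rfl
        · exact pow_le_pow_right₀ hL1 (by norm_num)
      have hR : (r : ℝ) ≤ (P.L : ℝ) ^ (65240 + 1) := by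
        refine tt4_tilt (by linarith) ?_
        rw [← P.r2_cast]
        exact_mod_cast hp.le
      exact ⟨tt4_mono₃ hL1 hΞ hΛ hR0.le hR (by norm_num), tt4_mono₄ hL1 hΛ hR0.le hR (by norm_num)⟩
    · have hΛ : P.Lam r = (P.L : ℝ) ^ 20 := if_neg fun h' => hp h'.2
      have hΞ : P.Xi r ≤ (P.L : ℝ) ^ 2 := le_of_eq (if_neg fun h' => hp h'.2)
      have hR : (r : ℝ) ≤ (P.L : ℝ) ^ 96001 :=
        le_trans (Nat.cast_le.2 h.ctx.r_le) hg.r0_hi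
      exact ⟨tt4_mono₃ hL1 hΞ hΛ hR0.le hR (by norm_num), tt4_mono₄ hL1 hΛ hR0.le hR (by norm_num)⟩
  have hν : P.nu r t = 2 * (P.L : ℝ) ^ 48024 / t ^ 2 := if_pos hr
  have k5 := tt4_main hL0 h.ctx.t0 h.ctx.t8 hK hν k1 h.rel_small.1 h.rel_small.2 k34.1 k34.2 hd
  have e : P.U4 r (t4 B) = (r : ℝ) / ((P.L : ℝ) ^ 48024) ^ 4 * t4 B := by
    unfold Par.U4
    rw [if_pos hr, eK, div_mul_eq_mul_div, mul_comm (r : ℝ)]
  rw [e]
  rw [mul_add] at h1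
  exact h1.trans ((add_le_add_left k5 _).trans (le_of_eq (add_comm _ _)))

theorem term_F (h : Side P r t B B' b ω) :
    Ea ω (fun u v => P.UF (r - 2) (t2 (upd b B u v))) ≤ P.UF r (t2 B) + C2 / (P.L * r) +
      (if P.r4 < r ∧ r - 2 ≤ P.r4 then 100 / (P.L : ℝ) else 0) := by
  have hg := h.ctx.good
  have hLb := hg.L_big
  have hL1 := hg.L_one
  have hL0 : (0 : ℝ) < P.L := by linarith
  have hRb : (1000 : ℝ) ≤ r := by exact_mod_cast h.ctx.r_big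
  have hR0 : (0 : ℝ) < r := by linarith
  have hC : 0 ≤ C2 / ((P.L : ℝ) * r) := by unfold C2; positivity
  have hU := h.nonneg.2.2.2.2.2.2.2.2
  by_cases hr2 : r - 2 ≤ P.r4
  swap
  · have e : (fun u v => P.UF (r - 2) (t2 (upd b B u v))) = fun _ _ => (0 : ℝ) := by
      funext u v
      exact if_neg hr2
    rw [e, h.wt.Ea_const h.reg.rpos, if_neg fun h' => hr2 h'.2, add_zero]
    exact add_nonneg hU hC
  have hS : (0 : ℝ) < P.rs := by rw [P.rs_cast]; exact pow_pos hL0 _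
  have e1 : Ea ω (fun u v => P.UF (r - 2) (t2 (upd b B u v))) =
      (P.rs : ℝ) / (P.L * ((r : ℝ) - 2) ^ 2) *
        (Ea ω (fun u v => t2 (upd b B u v) - t2 B) + (t2 B - P.a ^ 2)) := by
    rw [← h.wt.Ea_const h.reg.rpos (t2 B - P.a ^ 2), ← Ea_add, ← Ea_const_mul]
    refine Ea_congr fun u v _ => ?_
    unfold Par.UF
    rw [if_pos hr2, h.ctx.cast_sub]
    ring
  rw [e1]
  have ha1 : 1 ≤ P.a ^ 2 := one_le_pow₀ hg.a1
  have ha4 : P.a ^ 2 ≤ 4 := h.b_sq ▸ h.reg.b4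
  by_cases hr : P.r4 < r
  · rw [if_pos ⟨hr, hr2⟩]
    have k1 := dF_le h hr
    have k2 := h.bnd.F_mid h.ctx hr
    have k3 := tt4_mid (Δ := Ea ω (fun u v => t2 (upd b B u v) - t2 B)) (F := t2 B - P.a ^ 2)
      hL0 hRb hS (by linarith only [k1, k2, ha1])
    linarith only [k3, hU, hC]
  · rw [if_neg fun h' => hr h'.1, add_zero]
    have hr' : r ≤ P.r4 := not_lt.1 hr
    have h43 := hg.r4_lt_r3
    have h32 := hg.r3_lt_r2
    have hΛ : P.Lam r = (P.L : ℝ) ^ 20 := if_neg fun h' => hr h'.1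
    have hΞ : P.Xi r = (P.L : ℝ) ^ 2 := if_neg fun h' => by omega
    have hν : P.nu r t = t ^ 4 / (P.L : ℝ) ^ 23 := if_neg hr
    have ht4 : 0 < t ^ 4 := pow_pos h.ctx.t0 4
    have hε : P.Xi r * P.Lam r * P.nu r t / t ^ 4 = 1 / P.L := by
      rw [hΛ, hΞ, hν]; exact tt4_eps hL0 ht4
    have hd := drift_late h.reg h.wt h.adm (by
      rw [← div_le_one ht4, hε, div_le_one hL0]; exact hL1)
    rw [hε, h.rr_eq, h.b_sq] at hd
    have ho := h.bnd.o_small h.ctx (by omega)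
    have hF : 0 ≤ t2 B - P.a ^ 2 := by
      have := sq_le_t2 h.reg.symm h.reg.row h.reg.rpos
      rw [h.b_sq] at this
      linarith only [this]
    have hCC : (0 : ℝ) ≤ CC := by unfold CC; positivity
    have k1 : CC * (t2 B / r) * (1 / P.L + t2 B / r + 1 / P.L) ≤
        3 * CC * (t2 B - P.a ^ 2 + 4) / (P.L * r) := by
      calc CC * (t2 B / r) * (1 / P.L + t2 B / r + 1 / P.L)
          ≤ CC * ((t2 B - P.a ^ 2 + 4) / r) * (3 * (1 / P.L)) := by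
            have b0 : 0 ≤ t2 B := by linarith only [hF, ha1]
            have b1 : t2 B / r ≤ (t2 B - P.a ^ 2 + 4) / r :=
              div_le_div_of_nonneg_right (by linarith only [ha4]) hR0.le
            refine mul_le_mul (mul_le_mul_of_nonneg_left b1 hCC) (by linarith only [ho])
              (by positivity) (mul_nonneg hCC (div_nonneg (by linarith only [hF]) hR0.le))
        _ = _ := by field_simp
    have hrun : (P.rs : ℝ) ≤ 4 * P.L * (r : ℝ) ^ 2 := by exact_mod_cast h.ctx.run.le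
    have eU : P.UF r (t2 B) = (t2 B - P.a ^ 2) * P.rs / (P.L * (r : ℝ) ^ 2) := if_pos hr'
    have hD : dd B ≤ 2 * ((P.L : ℝ) ^ 19 * r / P.r4 + 1 / (P.L : ℝ) ^ 2) := by
      have := h.bnd.d_bd h.ctx
      unfold Par.Dbar at this
      rwa [if_neg (by omega)] at this
    have hV : (0 : ℝ) < P.r4 := by rw [P.r4_cast]; exact pow_pos hL0 _
    have hSV : (P.rs : ℝ) = (P.L : ℝ) ^ 48 * P.r4 := by rw [P.rs_cast, P.r4_cast, ← pow_add]
    have hR' : 2 * (P.L : ℝ) ^ 67 ≤ r :=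
      (cpow_le hL1 (le_trans (by norm_num) hLb) (by norm_num)).trans h.ctx.r_lo
    have k2 := tt4_D hL1 hR0 hV hSV hrun hR' hD
    rw [eU]
    have hD0 : 0 ≤ dd B := sum_nonneg fun _ _ => sq_nonneg _
    exact tt4_late hL0 hRb hS.le hrun hF (eU ▸ h.bnd.F) hD0 k2 (by linarith only [hd, k1])

end Crest.Agent.R62
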