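import Crest.Agent.R62.WWAux3

/-!
# R62/WW: one-sided drift of `ww` (TASK, the longest drift lemma; may be split in several files)

General method (notation: see `Defs`).  On the support of `ω` (`ω u v ≠ 0`) we have `u ≠ v` (`Wt.ne`),
`|c| ≤ ϑ`, `|δ_u δ_v| ≤ ϑ` (`Adm`), so the exact formulas of `Trace` and `Reg.kap_bd` apply:
`K12 = 1/b + O(14 e)`, `κ = 1/b² + O(6 e)`, `E e² ≤ 16/r` (`Reg.av_e`), `E (ω-1)² ≤ Ξ²/r` (`Wt.av_sq`).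
Write the increment as `main + rem` where `main` is a polynomial in entries of powers of `B` (defined
for all pairs); `E_ω main = E main + E[(ω-1) main]` (`Ea_eq`), `E main` is computed exactly with
`av_prod, av_row, av_col` (row sums of `B^j` are `b^j`), everything else is bounded with Cauchy-Schwarz
(`av_cs`, `abs_av_cs`), `Wt.abs_Ea_le`, `Wt.Ea_le_two`, using the L² norms (over pairs, `r = t^8`)
`‖δ_u‖² = D/r ≤ Λ/r`, `‖β_u‖² = W/r ≤ Λ`, `‖b_j(u)‖² ≤ ν^(2j-4) Λ` (`word_diag_le`),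
`‖c‖² ≤ 4/r`, `‖c_j‖ ≤ ν^j / r` for `j ≥ 2` (`av_sq_eq_fro`, `fro_mul_left`), `‖f(u) g(v)‖ = ‖f‖ ‖g‖`
(`av_prod`), and the pointwise bounds `δ² ≤ Λ`, `δ_u² ≤ β_u`, `β² ≤ Λ r`, `c_2² ≤ β_u β_v`, `|b| ≤ 2`,
`1 ≤ Λ ≤ ν ≤ t^4`, `Λ ≤ ϑ t`.  The constant `CC = 10^12` is very generous: be crude.
Advice: split into many small lemmas (one per monomial type); avoid big `nlinarith` calls, use
`abs_mul, mul_le_mul, gcongr, positivity`.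

By `bet_upd`, for `k ≠ u, v`: `β'_k = β_k + Δ_k`, `Δ_k = I + II`, `I = 2 (p z₁ + q z₂)` (`p = (B²) k u`, `q = (B²) k v`),
`II = (β_u - b²) z₁² + (β_v - b²) z₂² + 2 c_2 z₁ z₂`, `z₁ = K11 B_ku + K12 B_kv`, `z₂ = K12 B_ku + K22 B_kv`.
Define `Δ_k` by this formula for all `k`.  `W' = W - β_u² - β_v² + 2 Σ_k β_k Δ_k - 2β_uΔ_u - 2β_vΔ_v + Σ_{k≠u,v} Δ_k²`.
Let `z_u = Σ_k β_k B_ku² ≥ 0` (`Σ_u z_u = W`), `A = B∘B`, `q_u = Σ_k B_ku^4 ≤ Λ β_u`, `II₀ = K12² ((β_u - b²) B_kv² + (β_v - b²) B_ku²)`.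
Useful: `Σ_u β_u z_u = Σ β_k β_u B_ku² ≤ Σ β³ ≤ Λ t^4 W`;  `Σ_u z_u² ≤ max z · W`, `z_u ≤ √(W q_u) ≤ Λ² t^6`.
* removal `≥ 2 (1-ϑ) W/r`.
* `k = u`: `|z₁| ≤ 4ϑ`, `z₂ = κ b δ_u`; `β_u |Δ_u| ≤ C ϑ β_u² + C β_u |δ_u| |c_2| + C β_u + C β_u δ_u² (β_v + 4)`; the term
  `C ϑ β_u` must be treated as `|z₁|² β_u`, `|z₁| ≤ 3 e`, `E e β_u ≤ (4/t^4) Λ`; `E β_u|δ_u||c_2| ≤ E β_u^{3/2}|δ_u| · E √β_v`, or by
  AM-GM `β_u |δ_u| |c_2| ≤ (t² ... )`: `‖δ_u β_u ‖`-free way: `|c_2| ≤ √(β_uβ_v)`, Cauchy-Schwarz over pairs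
  `‖δ_u √β_v‖ ‖β_u^{3/2}‖ ≤ (2Λ/t^4)(Λ t²)`, i.e. `av_cs` with `f² = δ_u² β_v`, `g² = β_u³` (or `f = δ_u c_2`, `g = β_u`:
  `E δ_u² c_2² ≤ E δ_u² β_u β_v ≤ 4 Λ² t^4/r`, `E β_u² ≤ Λ`).
* `Σ_k β_k II₀`: `E_ω K12² β_v z_u ≤ (1+Cϑ)(o/b²) W/r`, `E_ω K12² b² z_u ≥ (1-Cϑ) W/r`.
* `Σ_k β_k (II - II₀)`: `(β_u+4) δ_v² z_u`, `(β_u+4)|δ_v||N'_uv|` (`N' = B diag(β) B`, `N'_uv² ≤ z_u z_v`; Cauchy-Schwarz with
  `f = (β_u+4) δ_v`, `g = N'_uv`, `E g² ≤ W²/r²`), `|c_2||δ_v| z_u` (`f = c_2 δ_v`, `E f² ≤ E β_u β_v δ_v² ≤ 4Λ² t^4/r`,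
  `E z_u² ≤ Λ³ t^6`... finer: `|c_2| ≤ √β_u √β_v`, `√β_u ≤ Λ t²`, `Σ_v √β_v |δ_v| ≤ 2 t^4 Λ`, giving `C Λ³/t²`),
  `|c_2||N'_uv| → (ν²/r)(W/r)`.
* `Σ_k β_k I`: with `N = B² diag(β) B`: `K12 (N_uv + N_vu)`: average part `b² F2/r² ≤ 16/r`, fluctuation
  `≤ 113 Ω ν W/r²` (`OpB.nuclear`, see `T4`); `κ δ_v N_uu`: mean part `(T1/r) tr N/(b² r)`, `|tr N| ≤ ν W`;
  fluctuation `≤ (Ξ+48) t^4 √D ‖diag N‖/r²`, `Σ_u |N_uu| ≤ ν W`, `N_uu² ≤ W Λ ν² β_u ≤ ν² Λ³ t^12`, so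
  `Σ N_uu² ≤ ν² Λ³ t^14`; total `≤ C Ξ Λ³ ν/t^5 ≤ C Ξ Λ³/t`.
* `Δ² ≤ 2 II₀² + 2 (I + II - II₀)²`.  `E Σ_k II₀² ≤ (1+Cϑ)/b^4 · 2 (W/r + 16) Q4/r + C E[(β_u+4)(β_v+4) Σ_k B_ku²B_kv²]`,
  the last is `Σ_k (z_k + 4β_k)²/r² ≤ C Λ³/t²`.  `E Σ_k p² B_kv² = Σ_k b_4(k) β_k/r² ≤ ν² W/r² ≤ Ω ν W/r²`;
  `δ_v² Σ_k p² B_ku² ≤ δ_v² β_u z_u`; `(β_u+4)² δ_v² B_ku² B_kv²` (`Σ_u (β_u+4)² B_ku² ≤ C Λ W + C Λ r`, `Σ_v δ_v² β_v ≤ Λ² t^4`);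
  `(β_u+4)² δ_v^4 q_u`; `c_2² z₁² z₂² ≤ C β_u β_v (B_kv² + δ_v² B_ku²)(B_ku² + δ_u² B_kv²)`.  All `≤ C Λ^5/t²`.
-/

set_option autoImplicit false
set_option linter.unusedSectionVars false
open Finset Matrix

namespace Crest.Agent.R62

variable {ι : Type} [Fintype ι] [DecidableEq ι]
variable {ω : ι → ι → ℝ} {B : Matrix ι ι ℝ} {b Λ ν t ϑ Ξ Ω ρ : ℝ}

theorem ww_Ea_H (ω : ι → ι → ℝ) (b Λ t ϑ : ℝ) (B : Matrix ι ι ℝ) :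
    Ea ω (ww_H b Λ t ϑ B) =
      4 * (Ea ω (fun u v => kap b B u v * (B v v * ww_N B u u)) +
        Ea ω (fun u v => ww_a b B u v * ww_N B u v)) -
      (1 - 12 * ϑ) * Ea ω (fun u _ => bet B u ^ 2) +
      2 * ((1 + 120 * ϑ) / b ^ 2) * Ea ω (fun u v => bet B u * ww_Z B v) -
      2 * (1 - 120 * ϑ) * Ea ω (fun _ v => ww_Z B v) +
      2 * ((1 + 255 * ϑ) / b ^ 4) * Ea ω (fun u v => bet B u ^ 2 * ww_q B v) +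
      3 * Ea ω (fun _ v => ww_q B v) +
      530 * (Λ ^ 3 * t ^ 6) * Ea ω (ww_P1 B) + 14 * (Λ / t) * Ea ω (ww_P2 B) +
      10 * (Λ * t ^ 4) * Ea ω (ww_P3 B) + 6 * Ea ω (ww_P4 B) + 100 * Ea ω (ww_P5 B) +
      250 * Ea ω (ww_P6 B) := by
  simp only [← Ea_const_mul, ← Ea_add, ← Ea_sub]
  rfl

theorem ww_final {W X o Q s s2 ϑ T O Y e1 e2 e3 e4 e5 e6 e7 e8 : ℝ} (hX : 0 ≤ X)
    (hQ0 : 0 ≤ Q) (ho : o * s ≤ 1) (hQ : Q * s2 ≤ 16) (hs : 0 ≤ s) (hs2 : 0 ≤ s2)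
    (h0 : 0 ≤ ϑ) (h1 : ϑ ≤ 1 / 1000) (hT : 0 ≤ T) (hO : 0 ≤ O) (hY : 0 ≤ Y)
    (a1 : e1 ≤ T * X + 113 * (O * X) + 84 * Y) (a2 : (1 - ϑ) * X ≤ e2)
    (a3 : e3 ≤ (1 + ϑ) * (o * X)) (a4 : (1 - ϑ) * X ≤ e4) (a5 : e5 ≤ (1 + ϑ) * (X * Q))
    (a6 : e6 ≤ 2 * Q) (a7 : e7 ≤ 100000 * Y) (a8 : e8 ≤ 1000 * (O * X)) :
    W + 2 * (4 * e1 - (1 - 12 * ϑ) * e2 + 2 * ((1 + 120 * ϑ) * s) * e3 - 2 * (1 - 120 * ϑ) * e4 +
      2 * ((1 + 255 * ϑ) * s2) * e5 + 3 * e6 + e7 + e8) ≤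
      W - (6 - 4 * o * s - 4 * Q * s2) * X + 10 ^ 12 * (ϑ + T + O) * X + 10 ^ 12 * (Q + Y) := by
  have hϑX : 0 ≤ ϑ * X := mul_nonneg h0 hX
  have hϑϑX : 0 ≤ ϑ * (ϑ * X) := mul_nonneg h0 hϑX
  have hϑϑX1 : ϑ * (ϑ * X) ≤ 1 / 1000 * (ϑ * X) := mul_le_mul_of_nonneg_right h1 hϑX
  have hTX : 0 ≤ T * X := mul_nonneg hT hX
  have hOX : 0 ≤ O * X := mul_nonneg hO hX
  have b2 := mul_le_mul_of_nonneg_left a2 (by linarith : 0 ≤ 1 - 12 * ϑ)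
  have b4 := mul_le_mul_of_nonneg_left a4 (by linarith : 0 ≤ 1 - 120 * ϑ)
  have b3 := mul_le_mul_of_nonneg_left a3 (by positivity : 0 ≤ (1 + 120 * ϑ) * s)
  have b5 := mul_le_mul_of_nonneg_left a5 (by positivity : 0 ≤ (1 + 255 * ϑ) * s2)
  have c3 := mul_le_mul_of_nonneg_right ho (by positivity : 0 ≤ 121 * (ϑ * X) + 120 * (ϑ * (ϑ * X)))
  have c5 := mul_le_mul_of_nonneg_right hQ (by positivity : 0 ≤ 256 * (ϑ * X) + 255 * (ϑ * (ϑ * X)))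
  linarith

theorem drift_ww (h : Reg B b Λ ν t ϑ) (hw : Wt ω ϑ Ξ Ω t) (ha : Adm ω B ϑ ρ) :
    Ea ω (fun u v => ww (upd b B u v)) ≤
      ww B - (6 - 4 * (t2 B / rr ι) / b ^ 2 - 4 * (q4 B / rr ι) / b ^ 4) * ww B / rr ι +
      CC * (ϑ + |t1 B| * ν / rr ι + Ω * ν / rr ι) * ww B / rr ι +
      CC * (q4 B / rr ι + Ξ * Λ ^ 5 / t) := by
  have hL := h.L1
  have ht := h.t1000
  have ht0 := h.t0
  have ht1 : 1 ≤ t := by linarith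
  have hr := h.rpos
  have hν : 0 ≤ ν := by linarith [h.L1, h.Lν]
  have hb := h.b1
  have hΞ := hw.Xi1
  have hΩ : ν ≤ Ω := h.νt.trans hw.Om
  have hϑ : ϑ ≤ 1 := by linarith [h.th1]
  have hW := ww_nonneg' B
  have hβ := bet_nonneg h.symm
  have hZ := ww_Z_nonneg h.symm
  have hq := ww_q_nonneg B
  have hh := ww_hh_nonneg h.symm
  have hQ : 0 ≤ q4 B := by rw [← ww_sum_q]; exact Finset.sum_nonneg fun u _ => hq u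
  have h1 : Ea ω (fun u v => ww (upd b B u v)) ≤ ww B + 2 * Ea ω (ww_H b Λ t ϑ B) := by
    refine (hw.Ea_mono fun u v h0 =>
      ww_pointwise h (hw.ne h0) (ha u v h0).1 (ha u v h0).2.1).trans (le_of_eq ?_)
    rw [Ea_add, Ea_add, hw.Ea_const hr, hw.Ea_swap (ww_H b Λ t ϑ B)]
    ring
  -- comparison of the small terms with `Y`
  have hY : ∀ (i j : ℕ), i ≤ 5 → 1 ≤ j → Λ ^ i / t ^ j ≤ Ξ * Λ ^ 5 / t := by
    intro i j hi hj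
    have e1 : Λ ^ i ≤ Ξ * Λ ^ 5 :=
      (pow_le_pow_right₀ hL hi).trans (le_mul_of_one_le_left (by positivity) hΞ)
    have e2 : t ≤ t ^ j := le_self_pow₀ ht1 (by omega)
    gcongr
  have a1 : Ea ω (fun u v => kap b B u v * (B v v * ww_N B u u)) +
      Ea ω (fun u v => ww_a b B u v * ww_N B u v) ≤ |t1 B| * ν / rr ι * (ww B / rr ι) +
      113 * (Ω * ν / rr ι * (ww B / rr ι)) + 84 * (Ξ * Λ ^ 5 / t) := by
    have e1 := ww_Ea_A1 h hw ha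
    have e2 := ww_Ea_A2 h hw ha
    have e3 : Ξ * Λ ^ 2 / t ≤ Ξ * Λ ^ 5 / t := by gcongr; norm_num
    have e4 := hY 0 8 (by norm_num) (by norm_num)
    have e5 : 16 / t ^ 8 = 16 * (Λ ^ 0 / t ^ 8) := by ring
    linarith
  have a2 : (1 - ϑ) * (ww B / rr ι) ≤ Ea ω (fun u _ => bet B u ^ 2) :=
    hw.le_Ea_left (f := fun u => bet B u ^ 2) fun u => sq_nonneg _
  have a3 : Ea ω (fun u v => bet B u * ww_Z B v) ≤ (1 + ϑ) * (t2 B / rr ι * (ww B / rr ι)) := by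
    have := hw.Ea_le (f := fun u v => bet B u * ww_Z B v) fun u v => mul_nonneg (hβ u) (hZ v)
    rwa [av_prod, ww_sum_Z h.symm] at this
  have a4 : (1 - ϑ) * (ww B / rr ι) ≤ Ea ω (fun _ v => ww_Z B v) := by
    have := hw.le_Ea_right hZ
    rwa [ww_sum_Z h.symm] at this
  have a5 : Ea ω (fun u v => bet B u ^ 2 * ww_q B v) ≤ (1 + ϑ) * (ww B / rr ι * (q4 B / rr ι)) := by
    have := hw.Ea_le (f := fun u v => bet B u ^ 2 * ww_q B v)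
      fun u v => mul_nonneg (sq_nonneg _) (hq v)
    rwa [av_prod, ww_sum_q] at this
  have a6 : Ea ω (fun _ v => ww_q B v) ≤ 2 * (q4 B / rr ι) := by
    have := hw.Ea_le_two hϑ (f := fun _ v => ww_q B v) fun _ v => hq v
    rwa [av_right hr, ww_sum_q] at this
  have p1 : Ea ω (ww_P1 B) ≤ 2 * (35 * Λ ^ 2 / t ^ 8) :=
    (hw.Ea_le_two hϑ fun u v => mul_nonneg (sq_nonneg _) (hh u)).trans
      (mul_le_mul_of_nonneg_left (ww_av_P1 h) zero_le_two)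
  have p2 : Ea ω (ww_P2 B) ≤ 2 * (280 * Λ) :=
    (hw.Ea_le_two hϑ fun u v => mul_nonneg (by linarith [hβ u]) (hh v)).trans
      (mul_le_mul_of_nonneg_left (ww_av_P2 h) zero_le_two)
  have p3 : Ea ω (ww_P3 B) ≤ 2 * (16 / t ^ 8) :=
    (hw.Ea_le_two hϑ fun u v => sq_nonneg _).trans (mul_le_mul_of_nonneg_left (ww_av_P3 h) zero_le_two)
  have p4 : Ea ω (ww_P4 B) ≤ 2 * (ν ^ 2 / rr ι * (ww B / rr ι)) :=
    (hw.Ea_le_two hϑ fun u v => mul_nonneg (abs_nonneg _) (abs_nonneg _)).trans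
      (mul_le_mul_of_nonneg_left (ww_av_P4 h) zero_le_two)
  have p5 : Ea ω (ww_P5 B) ≤ 2 * (ν ^ 2 / rr ι * (ww B / rr ι)) :=
    (hw.Ea_le_two hϑ fun u v => Finset.sum_nonneg fun k _ => by positivity).trans
      (mul_le_mul_of_nonneg_left (ww_av_P5 h) zero_le_two)
  have p6 : Ea ω (ww_P6 B) ≤ 2 * (34 * Λ ^ 3 / t ^ 2) :=
    (hw.Ea_le_two hϑ fun u v => Finset.sum_nonneg fun k _ => by
      have := hβ u
      have := hβ v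
      positivity).trans (mul_le_mul_of_nonneg_left (ww_av_P6 h) zero_le_two)
  have a7 : 530 * (Λ ^ 3 * t ^ 6) * Ea ω (ww_P1 B) + 14 * (Λ / t) * Ea ω (ww_P2 B) +
      10 * (Λ * t ^ 4) * Ea ω (ww_P3 B) + 250 * Ea ω (ww_P6 B) ≤ 100000 * (Ξ * Λ ^ 5 / t) := by
    have e1 := mul_le_mul_of_nonneg_left p1 (by positivity : 0 ≤ 530 * (Λ ^ 3 * t ^ 6))
    have e2 := mul_le_mul_of_nonneg_left p2 (by positivity : 0 ≤ 14 * (Λ / t))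
    have e3 := mul_le_mul_of_nonneg_left p3 (by positivity : 0 ≤ 10 * (Λ * t ^ 4))
    have f1 : 530 * (Λ ^ 3 * t ^ 6) * (2 * (35 * Λ ^ 2 / t ^ 8)) = 37100 * (Λ ^ 5 / t ^ 2) := by
      field_simp; norm_num
    have f2 : 14 * (Λ / t) * (2 * (280 * Λ)) = 7840 * (Λ ^ 2 / t ^ 1) := by ring
    have f3 : 10 * (Λ * t ^ 4) * (2 * (16 / t ^ 8)) = 320 * (Λ ^ 1 / t ^ 4) := by
      field_simp; norm_num
    have f6 : 2 * (34 * Λ ^ 3 / t ^ 2) = 68 * (Λ ^ 3 / t ^ 2) := by ring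
    have g1 := hY 5 2 (by norm_num) (by norm_num)
    have g2 := hY 2 1 (by norm_num) (by norm_num)
    have g3 := hY 1 4 (by norm_num) (by norm_num)
    have g6 := hY 3 2 (by norm_num) (by norm_num)
    have g0 : 0 ≤ Ξ * Λ ^ 5 / t := by positivity
    rw [f1] at e1
    rw [f2] at e2
    rw [f3] at e3
    rw [f6] at p6
    generalize Ξ * Λ ^ 5 / t = Y at *
    linarith
  have a8 : 6 * Ea ω (ww_P4 B) + 100 * Ea ω (ww_P5 B) ≤ 1000 * (Ω * ν / rr ι * (ww B / rr ι)) := by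
    have e1 : ν ^ 2 / rr ι * (ww B / rr ι) ≤ Ω * ν / rr ι * (ww B / rr ι) := by
      rw [sq]; gcongr
    have e2 : 0 ≤ ν ^ 2 / rr ι * (ww B / rr ι) := by positivity
    linarith
  have hb2 : 0 < b ^ 2 := by linarith
  have hb4 : 1 ≤ b ^ 4 := by rw [show b ^ 4 = (b ^ 2) ^ 2 by ring]; exact one_le_pow₀ hb
  have ho : t2 B / rr ι * (b ^ 2)⁻¹ ≤ 1 := by
    rw [← div_eq_mul_inv, div_le_one hb2, div_le_iff₀ hr]; exact h.f2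
  have hQ2 : q4 B / rr ι * (b ^ 4)⁻¹ ≤ 16 := by
    rw [← div_eq_mul_inv, div_le_iff₀ (by linarith), div_le_iff₀ hr]
    have := mul_le_mul_of_nonneg_right hb4 hr.le
    linarith [h.q]
  have key := ww_final (W := ww B) (by positivity) (by positivity) ho hQ2 (by positivity)
    (by positivity) h.th0.le h.th1 (by positivity) (div_nonneg (mul_nonneg (hν.trans hΩ) hν) hr.le)
    (by positivity) a1 a2 a3 a4 a5 a6 a7 a8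
  refine h1.trans (le_trans (le_of_eq ?_) (key.trans (le_of_eq ?_)))
  · rw [ww_Ea_H]; ring
  · rw [CC]; ring

end Crest.Agent.R62
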