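import Crest.Agent.R62.BFacts
import Crest.Agent.R62.WW
import Crest.Agent.R62.Chi
import Crest.Agent.R62.TPsi

/-!
# R62/TW: one step of the `ww` term and of the `chi` term (TASK)

`term_W`: `W ≤ 2 Wbar r`, `q = q4/r`, `o = t2/r ≤ b²`.  By `drift_ww` and `rel_small`,
`E W' ≤ W (1 - κ/r + 3 CC/(L r)) + CC (q + Ξ Λ^5/t)`, `κ = 6 - 4 o/b² - 4 q/b^4`.  Cases on `r - 2`:
* `r0 ≤ L^11 (r-2)`: `Wbar` is `L r0` at both; `κ ≥ -40/L` (`q_half`); `q ≤ 16`, `ΞΛ^5 ≤ t` always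
  (tilt `7423 ≤ 8155`, middle `5942 ≤ 8009`, else `102 ≤ 4007`), `17 CC/(L r0) ≤ 17 CC/(L r)`.
* `r3 ≤ r - 2`, `L^11 (r-2) < r0`: `Wbar (r-2) = L^12 (r-2)`, `Wbar r ≤ L^12 r`, `q ≤ 1/L` (`q_small1`; `L^11 r ≤ 2 r0`), `κ ≥ 2 - 4/L`.
* `r - 2 < r3`: `Wbar r ≤ Wbar (r-2) (r/(r-2))²` (also when `r ≥ r3`: then `Wbar r = L^12 r`, as `L^11 r < r0`, and `r3 ≤ r`),
  `o ≤ 1/L` (`o_small`), `q ≤ L^-4780`, `κ ≥ 4`; `Wbar (r-2) ≥ r/(2 L^8)`, `q, ΞΛ^5/t ≤ L^-9` (`5951 ≤ 8009`, `111 ≤ 4007`).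

`term_chi`: if `r - 2 ≤ r2` the left side is `0`.  Else `X = chi + g t2 + 16 ∈ [0, 2 (L² r + n/L)]` (`chi_lower`, `chi_bd`),
`w ρ = 1/(L² ρ + n/L)`, `w (r-2) ≤ w r · r/(r-2)`, `w (r-2) ≤ 1/(L² (r-2))`, `w (r-2) ≤ L/n`.
`drift_chi` with `b₁ = b`, `b₂ = -b`: `EΔχ = κ χ/r + err`, `κ = -6 + 2 o/a² - 4 o₁₂/a²`, `o₁₂ = tr (B B')/r`.
`cross_lower`: `-4 o₁₂/a² ≤ 4 g²/a² + 6 (|t1 B| + |t1 B'|)/r + 64/r ≤ 2 + 1/L`, so `κ ≤ -2 + 1/L`;
`|tr (B B')| ≤ (t2 B + t2 B')/2 ≤ a² r` gives `κ ≥ -10`.  `κ χ = κ X - κ (g t2 + 16) ≤ (-2 + 1/L) X + 10 (6 r + 16)`;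
`g EΔt2 ≤ 2` (`dF_le`).  `err ≤ C n/(L² r)` exactly as in `TT` (case `r > r2`): `|t1| ν^4 L²/r ≤ 32 L^224339/r² ≤ n`,
`Ξ ν^4 L²/t^4 ≤ 16 L^193581/t^12 ≤ n` (`t^12 ≥ L^97860`), `Ξ Λ³ ν t^4 L² ≤ 2 L^(5047+48026+24002) ≤ n`.

General remarks.  `h : Side ..` provides `h.reg, h.wt, h.adm` (hypotheses of the drift lemmas, with `ϑ = 1/L`,
`Λ = Lam r`, `ν = nu r t`, `Ξ = Xi r`, `Ω = Om r t`), `h.bnd` (use the lemmas `Bnd.*` of `BFacts`), `h.ctx` (lemmas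
`Ctx.*`, `Good.*` of `Facts`), `h.rr_eq : rr ι = r`, `h.b_sq`, `h.nonneg`.  `t^8 = r`; `CC = 10^12`, `C2 = 10^18`,
`L ≥ 10^80`, `L^96000 ≤ n ≤ 2 L^96000`.  Split into phases (`by_cases`), rewrite the weights with `if_pos/if_neg`,
use linearity of `Ea` (`Ea_add, Ea_const_mul, Wt.Ea_const, Wt.Ea_mono`), then check the monomial inequalities with the
bounds on `t` (`Ctx.t_lo, t_mid, t_tilt, t_hi`) and `cpow_le`.  Prove each monomial inequality as a separate small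
lemma about real numbers `L, t, ..` (never let `norm_num`/`nlinarith` see the huge exponents; `calc`, `gcongr`,
`div_le_iff₀`, `pow_le_pow_right₀`, `ring`).
-/

set_option autoImplicit false
set_option linter.unusedSectionVars false
open Finset Matrix

namespace Crest.Agent.R62

variable {ι : Type} [Fintype ι] [DecidableEq ι] {P : Par ℝ} {r : ℕ} {t b : ℝ}
  {B B' : Matrix ι ι ℝ} {ω : ι → ι → ℝ}

theorem tw_abs {E W V V' κ R L z : ℝ} (hR : 0 < R) (hL : 0 < L) (hV : 0 < V) (hV' : 0 < V')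
    (hW0 : 0 ≤ W) (hW : W ≤ 2 * V) (hE : E ≤ W - κ * W / R + CC * (3 / L) * W / R + CC * z)
    (h1 : V * (1 - κ / R) ≤ V' * (1 + 40 / (L * R))) (h2 : V ≤ 2 * V')
    (h3 : z ≤ 17 * V' / (L * R)) : E / V' ≤ W / V + C2 / (L * R) := by
  obtain ⟨y, rfl⟩ : ∃ y, W = y * V := ⟨W / V, by field_simp⟩
  have hy0 : 0 ≤ y := nonneg_of_mul_nonneg_left hW0 hV
  have hy : y ≤ 2 := le_of_mul_le_mul_right hW hV
  obtain ⟨s, hs⟩ : ∃ s, s = 1 / (L * R) := ⟨_, rfl⟩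
  have hs0 : 0 < s := by rw [hs]; positivity
  have e1 : y * V - κ * (y * V) / R + CC * (3 / L) * (y * V) / R =
      y * (V * (1 - κ / R)) + 3 * CC * s * (y * V) := by rw [hs]; field_simp
  have e2 : 40 / (L * R) = 40 * s := by rw [hs]; ring
  have e3 : 17 * V' / (L * R) = 17 * V' * s := by rw [hs]; ring
  have e4 : C2 / (L * R) = C2 * s := by rw [hs]; ring
  rw [e1] at hE
  rw [e2] at h1
  rw [e3] at h3
  rw [e4, mul_div_cancel_right₀ _ hV.ne', div_le_iff₀ hV']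
  have k1 := mul_le_mul_of_nonneg_left h1 hy0
  have k2 : y * V ≤ 4 * V' := by nlinarith
  have k3 := mul_le_mul_of_nonneg_left k2 hs0.le
  have k4 := mul_le_mul_of_nonneg_right hy (mul_pos hs0 hV').le
  have k5 := mul_pos hs0 hV'
  unfold CC C2 at *
  nlinarith

theorem tw_e_aux {L t : ℝ} (hL : 1 ≤ L) {a c k : ℕ} (ht : L ^ k ≤ t) (h : a + c * 5 + 9 ≤ k) :
    L ^ a * (L ^ c) ^ 5 / t ≤ 1 / L ^ 9 := by
  have h0 : 0 < t := lt_of_lt_of_le (by positivity) ht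
  rw [div_le_div_iff₀ h0 (by positivity), ← pow_mul, ← pow_add, ← pow_add, one_mul]
  exact (pow_le_pow_right₀ hL h).trans ht

theorem tw_e (h : Ctx P r t) : P.Xi r * P.Lam r ^ 5 / t ≤ 1 / (P.L : ℝ) ^ 9 := by
  have hL := h.good.L_one
  have h1 := h.good.r4_lt_r3
  have h2 := h.good.r3_lt_r2
  unfold Par.Xi Par.Lam
  split_ifs with k1 k2 k3
  · exact tw_e_aux hL (h.t_tilt k1.1) (by norm_num)
  · exact absurd ⟨by omega, k1.2⟩ k2
  · exact tw_e_aux hL (h.t_mid k3.1) (by norm_num)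
  · exact tw_e_aux hL h.t_lo (by norm_num)

theorem tw_Wbar_le (hg : P.Good) (h : P.r3 ≤ r) : P.Wbar r ≤ (P.L : ℝ) ^ 12 * r := by
  unfold Par.Wbar
  rw [if_pos h]
  split_ifs with k
  · have k1 : (P.r0 : ℝ) ≤ (P.L : ℝ) ^ 11 * r := by exact_mod_cast k
    have := hg.L_one
    calc (P.L : ℝ) * P.r0 ≤ P.L * ((P.L : ℝ) ^ 11 * r) := by gcongr
      _ = _ := by ring
  · exact le_rfl

theorem tw_caseB {V κ R L M z : ℝ} (hR : 1000 ≤ R) (hL : 1 ≤ L) (hM : 2 * L ≤ M) (hV0 : 0 ≤ V)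
    (hV : V ≤ M * R) (hκ : 2 - 4 / L ≤ κ) (hz : z ≤ 17) :
    V * (1 - κ / R) ≤ M * (R - 2) * (1 + 40 / (L * R)) ∧ V ≤ 2 * (M * (R - 2)) ∧
      z ≤ 17 * (M * (R - 2)) / (L * R) := by
  have hR0 : 0 < R := by linarith
  have hL0 : 0 < L := by linarith
  have hM0 : 0 < M := by linarith
  have h4 : 0 ≤ 4 / L := by positivity
  refine ⟨?_, by nlinarith, ?_⟩
  · have k1 : 1 - κ / R ≤ 1 - (2 - 4 / L) / R := by gcongr
    have k2 : 0 ≤ 1 - (2 - 4 / L) / R := by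
      rw [sub_nonneg, div_le_one hR0]; linarith
    have k3 : 4 / L ≤ (R - 2) * (40 / (L * R)) := by
      rw [← mul_div_assoc, div_le_div_iff₀ hL0 (by positivity)]
      nlinarith [mul_pos hL0 hR0]
    calc V * (1 - κ / R) ≤ V * (1 - (2 - 4 / L) / R) := by gcongr
      _ ≤ M * R * (1 - (2 - 4 / L) / R) := by gcongr
      _ = M * (R - 2 + 4 / L) := by field_simp; ring
      _ ≤ M * (R - 2 + (R - 2) * (40 / (L * R))) := by gcongr
      _ = _ := by ring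
  · rw [le_div_iff₀ (by positivity)]
    have : L * R ≤ M * (R - 2) := by nlinarith
    nlinarith [mul_pos hL0 hR0]

theorem tw_caseC {V κ R L M z : ℝ} (hR : 1000 ≤ R) (hL : 1 ≤ L) (hM : 0 ≤ M) (hV0 : 0 ≤ V)
    (hV : V ≤ M * R ^ 2 + R / L ^ 8) (hκ : 4 ≤ κ) (hz : z ≤ 2 / L ^ 9) :
    V * (1 - κ / R) ≤ (M * (R - 2) ^ 2 + (R - 2) / L ^ 8) * (1 + 40 / (L * R)) ∧
      V ≤ 2 * (M * (R - 2) ^ 2 + (R - 2) / L ^ 8) ∧
      z ≤ 17 * (M * (R - 2) ^ 2 + (R - 2) / L ^ 8) / (L * R) := by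
  have hR0 : 0 < R := by linarith
  have hL0 : 0 < L := by linarith
  obtain ⟨s, hs⟩ : ∃ s, s = 1 / L ^ 8 := ⟨_, rfl⟩
  have hs0 : 0 < s := by rw [hs]; positivity
  have e1 : R / L ^ 8 = R * s := by rw [hs]; ring
  have e2 : (R - 2) / L ^ 8 = (R - 2) * s := by rw [hs]; ring
  have e3 : 2 / L ^ 9 = 2 * s / L := by rw [hs]; field_simp
  rw [e1] at hV
  rw [e3] at hz
  rw [e2]
  have hV' : 0 ≤ M * (R - 2) ^ 2 + (R - 2) * s := by
    have : 0 ≤ R - 2 := by linarith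
    positivity
  refine ⟨?_, ?_, ?_⟩
  · have k2 : 0 ≤ 1 - 4 / R := by rw [sub_nonneg, div_le_one hR0]; linarith
    calc V * (1 - κ / R) ≤ V * (1 - 4 / R) := by gcongr
      _ ≤ (M * R ^ 2 + R * s) * (1 - 4 / R) := by gcongr
      _ = M * (R * (R - 4)) + (R - 4) * s := by field_simp
      _ ≤ M * (R - 2) ^ 2 + (R - 2) * s := by
          gcongr <;> nlinarith
      _ ≤ _ := le_mul_of_one_le_right hV' (le_add_of_nonneg_right (by positivity))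
  · have k1 : M * R ^ 2 ≤ M * (2 * (R - 2) ^ 2) := by gcongr; nlinarith
    nlinarith
  · refine hz.trans ?_
    rw [div_le_div_iff₀ hL0 (by positivity)]
    have k1 : 0 ≤ M * (R - 2) ^ 2 * L := by positivity
    have k2 : 0 < s * L := by positivity
    nlinarith

theorem term_W (h : Side P r t B B' b ω) :
    Ea ω (fun u v => P.UW (r - 2) (ww (upd b B u v))) ≤ P.UW r (ww B) + C2 / (P.L * r) := by
  have hc := h.ctx
  have hg := hc.good
  have hL := hg.L_one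
  have hL' := hg.L_big
  have hL0 : (0 : ℝ) < P.L := by linarith
  have hr := hc.r_big
  have hR : (1000 : ℝ) ≤ r := by exact_mod_cast hr
  have hR0 : (0 : ℝ) < r := by linarith
  have hb1 := h.reg.b1
  have hb4 : 1 ≤ b ^ 4 := by nlinarith
  have hW0 : 0 ≤ ww B := Finset.sum_nonneg fun _ _ => sq_nonneg _
  have hV := hg.Wbar_pos (r := r) (by omega)
  have hV' := hg.Wbar_pos (r := r - 2) (by omega)
  have hq0 : 0 ≤ q4 B / r :=
    div_nonneg (Finset.sum_nonneg fun _ _ => Finset.sum_nonneg fun _ _ => by positivity) hR0.le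
  have ht2 : 0 ≤ t2 B := by
    rw [← sum_bet]; exact Finset.sum_nonneg fun k _ => bet_nonneg h.reg.symm k
  have ho : t2 B / r / b ^ 2 ≤ 1 := by
    rw [div_le_one (by linarith), div_le_iff₀ hR0, ← h.rr_eq]; exact h.reg.f2
  have he := tw_e hc
  have he1 : 1 / (P.L : ℝ) ^ 9 ≤ 1 := div_le_one_of_le₀ (one_le_pow₀ hL) (by positivity)
  have hq16 : q4 B / r ≤ 16 := by rw [div_le_iff₀ hR0, ← h.rr_eq]; exact h.reg.q
  have hE := drift_ww h.reg h.wt h.adm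
  rw [h.rr_eq] at hE
  have hE2 : Ea ω (fun u v => ww (upd b B u v)) ≤
      ww B - (6 - 4 * (t2 B / r) / b ^ 2 - 4 * (q4 B / r) / b ^ 4) * ww B / r +
      CC * (3 / P.L) * ww B / r + CC * (q4 B / r + P.Xi r * P.Lam r ^ 5 / t) := by
    refine hE.trans ?_
    have k := h.rel_small
    have k2 : 1 / (P.L : ℝ) + |t1 B| * P.nu r t / r + P.Om r t * P.nu r t / r ≤ 3 / P.L := by
      have : (3 : ℝ) / P.L = 1 / P.L + 1 / P.L + 1 / P.L := by ring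
      linarith [k.1, k.2]
    have k3 : 0 ≤ CC := by unfold CC; positivity
    gcongr
  have e1 : Ea ω (fun u v => P.UW (r - 2) (ww (upd b B u v))) =
      Ea ω (fun u v => ww (upd b B u v)) / P.Wbar (r - 2) := by
    rw [div_eq_inv_mul, ← Ea_const_mul]
    exact Ea_congr fun u v _ => by rw [Par.UW, div_eq_inv_mul]
  rw [e1, Par.UW]
  suffices H : P.Wbar r * (1 - (6 - 4 * (t2 B / r) / b ^ 2 - 4 * (q4 B / r) / b ^ 4) / r) ≤
      P.Wbar (r - 2) * (1 + 40 / (P.L * r)) ∧ P.Wbar r ≤ 2 * P.Wbar (r - 2) ∧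
      q4 B / r + P.Xi r * P.Lam r ^ 5 / t ≤ 17 * P.Wbar (r - 2) / (P.L * r) from
    tw_abs hR0 hL0 hV hV' hW0 (h.bnd.w_bd hc) hE2 H.1 H.2.1 H.2.2
  rw [mul_div_assoc 4, mul_div_assoc 4]
  by_cases k1 : P.r3 ≤ r - 2
  · by_cases k2 : P.r0 ≤ P.L ^ 11 * (r - 2)
    · have e2 : P.Wbar (r - 2) = P.L * P.r0 := by unfold Par.Wbar; rw [if_pos k1, if_pos k2]
      have e3 : P.Wbar r = P.L * P.r0 := by
        unfold Par.Wbar
        rw [if_pos (by omega), if_pos (k2.trans (Nat.mul_le_mul_left _ (by omega)))]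
      have k3 : q4 B / r / b ^ 4 ≤ 1 / 2 + 10 / P.L := by
        rw [div_le_iff₀ (by linarith)]; exact h.q_half
      have k4 : (r : ℝ) ≤ P.r0 := by exact_mod_cast hc.r_le
      rw [e3] at hV
      rw [e2, e3]
      refine ⟨mul_le_mul_of_nonneg_left ?_ hV.le, by linarith, ?_⟩
      · have e4 : (40 : ℝ) / (P.L * r) = (4 * (10 / P.L)) / r := by field_simp; norm_num
        rw [e4, sub_eq_add_neg, ← neg_div]
        gcongr
        linarith
      · rw [le_div_iff₀ (by positivity)]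
        have k5 : (P.L : ℝ) * r ≤ P.L * P.r0 := by gcongr
        have k6 : q4 B / r + P.Xi r * P.Lam r ^ 5 / t ≤ 17 := by linarith
        nlinarith [mul_pos hL0 hR0]
    · have e2 : P.Wbar (r - 2) = (P.L : ℝ) ^ 12 * (r - 2) := by
        unfold Par.Wbar; rw [if_pos k1, if_neg k2, hc.cast_sub]
      have k3 : (P.L : ℝ) ^ 11 * (r - 2) < P.r0 := by
        rw [← hc.cast_sub]; exact_mod_cast not_le.1 k2
      have k4 := h.bnd.q_small1 hc (by nlinarith [pow_pos hL0 11])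
      have k5 : q4 B / r / b ^ 4 ≤ 1 / P.L := (div_le_self hq0 hb4).trans k4
      rw [e2]
      refine tw_caseB hR hL ?_ hV.le (tw_Wbar_le hg (by omega)) ?_ (by linarith)
      · calc 2 * (P.L : ℝ) = 2 * (P.L : ℝ) ^ 1 := by ring
          _ ≤ _ := cpow_le hL (by linarith) (by norm_num)
      · have : (4 : ℝ) / P.L = 4 * (1 / P.L) := by ring
        linarith
  · have k2 := hg.r3_lt_r2
    have hr3 : (0 : ℝ) < P.r3 := by
      have := hg.r4_lt_r3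
      exact_mod_cast (by omega : 0 < P.r3)
    have e2 : P.Wbar (r - 2) = (P.L : ℝ) ^ 12 / P.r3 * (r - 2) ^ 2 + (r - 2) / (P.L : ℝ) ^ 8 := by
      unfold Par.Wbar; rw [if_neg k1, hc.cast_sub]; ring
    have k3 : P.Wbar r ≤ (P.L : ℝ) ^ 12 / P.r3 * (r : ℝ) ^ 2 + r / (P.L : ℝ) ^ 8 := by
      by_cases k4 : P.r3 ≤ r
      · refine (tw_Wbar_le hg k4).trans (le_add_of_le_of_nonneg ?_ (by positivity))
        have k5 : (P.r3 : ℝ) ≤ r := by exact_mod_cast k4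
        rw [div_mul_eq_mul_div, le_div_iff₀ hr3, sq, ← mul_assoc]
        gcongr
      · unfold Par.Wbar; rw [if_neg k4]; apply le_of_eq; ring
    have k4 := h.bnd.o_small hc (by omega)
    have k5 := h.bnd.q_small2 hc (by omega)
    have k6 : 1 / (P.L : ℝ) ^ 4780 ≤ 1 / (P.L : ℝ) ^ 9 :=
      one_div_le_one_div_of_le (by positivity) (pow_le_pow_right₀ hL (by norm_num))
    have k7 : 1 / (P.L : ℝ) ^ 9 ≤ 1 / P.L :=
      one_div_le_one_div_of_le hL0 (le_self_pow₀ hL (by norm_num))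
    have k8 : 1 / (P.L : ℝ) ≤ 1 / 4 := one_div_le_one_div_of_le (by norm_num) (by linarith)
    have k9 : t2 B / r / b ^ 2 ≤ t2 B / r := div_le_self (div_nonneg ht2 hR0.le) hb1
    have k10 : q4 B / r / b ^ 4 ≤ q4 B / r := div_le_self hq0 hb4
    have k11 : q4 B / r ≤ 1 / (P.L : ℝ) ^ 9 := k5.trans k6
    clear k5 k6
    rw [e2]
    refine tw_caseC hR hL (div_nonneg (pow_nonneg hL0.le _) hr3.le) hV.le k3 (by linarith) ?_
    have : (2 : ℝ) / P.L ^ 9 = 1 / P.L ^ 9 + 1 / P.L ^ 9 := by ring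
    linarith

theorem tw_abs2 {E X κ χ y R L N err : ℝ} (hR : 1000 ≤ R) (hL : 1 ≤ L) (hN : 0 < N)
    (hX0 : 0 ≤ X) (hX : X ≤ 2 * (L ^ 2 * R + N / L)) (hχ : X = χ + y) (hy0 : 0 ≤ y)
    (hy : y ≤ 6 * R + 16) (hκ1 : κ ≤ -2 + 1 / L) (hκ2 : -10 ≤ κ)
    (herr : err ≤ 3 * (N / (L ^ 2 * R))) (hE : E ≤ X + (κ * χ / R + CC * err) + 2) :
    E / (L ^ 2 * (R - 2) + N / L) ≤ X / (L ^ 2 * R + N / L) + C2 / (L * R) := by
  have hR0 : 0 < R := by linarith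
  have hR2 : 0 < R - 2 := by linarith
  have hL0 : 0 < L := by linarith
  have hNL : 0 < N / L := by positivity
  have hL2 : L ≤ L ^ 2 := by nlinarith
  have k1 : κ * χ / R ≤ (-2 + 1 / L) * X / R + 61 := by
    rw [div_add' _ _ _ hR0.ne']
    refine div_le_div_of_nonneg_right ?_ hR0.le
    have e : χ = X - y := by linarith
    rw [e]
    nlinarith [mul_le_mul_of_nonneg_right hκ1 hX0, mul_le_mul_of_nonneg_right hκ2 hy0]
  obtain ⟨D, hD⟩ : ∃ D, D = L ^ 2 * R + N / L := ⟨_, rfl⟩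
  obtain ⟨D', hD'⟩ : ∃ D', D' = L ^ 2 * (R - 2) + N / L := ⟨_, rfl⟩
  rw [← hD] at hX
  rw [← hD, ← hD']
  have hD0 : 0 < D := by rw [hD]; positivity
  have hD0' : 0 < D' := by rw [hD']; positivity
  have d1 : D * (R - 2) ≤ R * D' := by rw [hD, hD']; nlinarith
  have d2 : D ≤ 2 * D' := by rw [hD, hD']; nlinarith [pow_pos hL0 2]
  have d3 : L * R ≤ 2 * D' := by rw [hD']; nlinarith
  have d4 : N / (L ^ 2 * R) ≤ D' / (L * R) := by
    have : N / (L ^ 2 * R) = N / L / (L * R) := by field_simp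
    rw [this]
    refine div_le_div_of_nonneg_right ?_ (by positivity)
    rw [hD']; nlinarith [pow_pos hL0 2]
  obtain ⟨s, hs⟩ : ∃ s, s = 1 / (L * R) := ⟨_, rfl⟩
  have hs0 : 0 < s := by rw [hs]; positivity
  have a1 : X * (R - 2) / R ≤ X / D * D' := by
    rw [div_mul_eq_mul_div, div_le_div_iff₀ hR0 hD0]
    nlinarith [mul_le_mul_of_nonneg_left d1 hX0]
  have a2 : X + (-2 + 1 / L) * X / R = X * (R - 2) / R + X * s := by rw [hs]; field_simp; ring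
  have a3 : X * s ≤ 4 * (D' * s) := by nlinarith
  have a4 : 1 ≤ 2 * (D' * s) := by
    rw [hs, mul_one_div, ← mul_div_assoc, le_div_iff₀ (by positivity)]; linarith
  have a5 : D' / (L * R) = D' * s := by rw [hs]; ring
  have a6 : C2 / (L * R) = C2 * s := by rw [hs]; ring
  rw [a5] at d4
  rw [a6, div_le_iff₀ hD0']
  unfold CC C2 at *
  nlinarith

theorem tw_err1 {L t R N x : ℝ} (hL : 10 ^ 80 ≤ L) (ht : 0 < t) (h8 : t ^ 8 = R)
    (hR : L ^ 65240 ≤ R) (hN : L ^ 96000 ≤ N) (hx : x ≤ 4 * L ^ 32241) :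
    x * (2 * L ^ 48024 / t ^ 2) ^ 4 / R ^ 2 ≤ N / (L ^ 2 * R) := by
  have hL1 : 1 ≤ L := le_trans (by norm_num) hL
  have hL0 : 0 < L := by linarith
  have hR0 : 0 < R := by rw [← h8]; positivity
  have e1 : (2 * L ^ 48024 / t ^ 2) ^ 4 = 16 * L ^ 192096 / R := by
    rw [← h8, div_pow, mul_pow, ← pow_mul, ← pow_mul]; norm_num
  rw [e1, div_le_div_iff₀ (by positivity) (by positivity)]
  calc x * (16 * L ^ 192096 / R) * (L ^ 2 * R) = x * (16 * L ^ 192096 * L ^ 2) := by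
        rw [mul_assoc, mul_comm (L ^ 2) R, ← mul_assoc (_ / _), div_mul_cancel₀ _ hR0.ne']
    _ ≤ 4 * L ^ 32241 * (16 * L ^ 192096 * L ^ 2) := by gcongr
    _ = 64 * L ^ 224339 := by ring
    _ ≤ L ^ 226480 := cpow_le hL1 (le_trans (by norm_num) hL) (by norm_num)
    _ = L ^ 96000 * (L ^ 65240) ^ 2 := by ring
    _ ≤ _ := by gcongr; exact le_trans (by positivity) hN

theorem tw_err2 {L t R N Ξ : ℝ} (hL : 10 ^ 80 ≤ L) (h8 : t ^ 8 = R)
    (ht : L ^ 8155 ≤ t) (hN : L ^ 96000 ≤ N) (hx : Ξ ≤ L ^ 1483) :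
    Ξ * ((2 * L ^ 48024 / t ^ 2) ^ 4 / t ^ 12) ≤ N / (L ^ 2 * R) := by
  have hL1 : 1 ≤ L := le_trans (by norm_num) hL
  have hL0 : 0 < L := by linarith
  have ht0 : 0 < t := lt_of_lt_of_le (by positivity) ht
  have hR0 : 0 < R := by rw [← h8]; positivity
  have e1 : (2 * L ^ 48024 / t ^ 2) ^ 4 = 16 * L ^ 192096 / R := by
    rw [← h8, div_pow, mul_pow, ← pow_mul, ← pow_mul]; norm_num
  rw [e1, ← mul_div_assoc, div_le_div_iff₀ (by positivity) (by positivity)]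
  calc Ξ * (16 * L ^ 192096 / R) * (L ^ 2 * R) = Ξ * (16 * L ^ 192096 * L ^ 2) := by
        rw [mul_assoc, mul_comm (L ^ 2) R, ← mul_assoc (_ / _), div_mul_cancel₀ _ hR0.ne']
    _ ≤ L ^ 1483 * (16 * L ^ 192096 * L ^ 2) := by gcongr
    _ = 16 * L ^ 193581 := by ring
    _ ≤ L ^ 193860 := cpow_le hL1 (le_trans (by norm_num) hL) (by norm_num)
    _ = L ^ 96000 * (L ^ 8155) ^ 12 := by ring
    _ ≤ _ := by gcongr; exact le_trans (by positivity) hN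

theorem tw_err3 {L t R N Ξ Λ : ℝ} (hL : 10 ^ 80 ≤ L) (ht0 : 0 < t) (h8 : t ^ 8 = R)
    (ht : t ≤ L ^ 12001) (hN : L ^ 96000 ≤ N) (hx : Ξ ≤ L ^ 1483) (hΛ0 : 0 ≤ Λ)
    (hΛ : Λ ≤ L ^ 1188) :
    Ξ * (Λ ^ 3 * (2 * L ^ 48024 / t ^ 2) / t ^ 4) ≤ N / (L ^ 2 * R) := by
  have hL1 : 1 ≤ L := le_trans (by norm_num) hL
  have hL0 : 0 < L := by linarith
  rw [← h8, le_div_iff₀ (by positivity)]
  have e1 : ∀ A : ℝ, Ξ * (Λ ^ 3 * (A / t ^ 2) / t ^ 4) * (L ^ 2 * t ^ 8) =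
      Ξ * (Λ ^ 3 * A * L ^ 2 * t ^ 2) := fun A => by field_simp
  rw [e1]
  calc _ ≤ L ^ 1483 * ((L ^ 1188) ^ 3 * (2 * L ^ 48024) * L ^ 2 * (L ^ 12001) ^ 2) := by gcongr
    _ = 2 * L ^ 77075 := by ring
    _ ≤ L ^ 96000 := cpow_le hL1 (le_trans (by norm_num) hL) (by norm_num)
    _ ≤ _ := hN

theorem tw_small {L R x : ℝ} (hL : 10 ^ 80 ≤ L) (hR : L ^ 65240 ≤ R) (hx : x ≤ 4 * L ^ 32241) :
    (6 * x + 64) / R ≤ 1 / L := by
  have hL1 : 1 ≤ L := le_trans (by norm_num) hL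
  have hL0 : 0 < L := by linarith
  have hR0 : 0 < R := lt_of_lt_of_le (by positivity) hR
  rw [div_le_div_iff₀ hR0 hL0, one_mul]
  have h1 : 1 ≤ L ^ 32241 := one_le_pow₀ hL1
  calc (6 * x + 64) * L ≤ (6 * (4 * L ^ 32241) + 64 * L ^ 32241) * L := by
        gcongr; exact le_mul_of_one_le_right (by norm_num) h1
    _ = 88 * L ^ 32242 := by ring
    _ ≤ L ^ 65240 := cpow_le hL1 (le_trans (by norm_num) hL) (by norm_num)
    _ ≤ _ := hR

theorem tw_cross_le (hB : B.IsSymm) (hB' : B'.IsSymm) : (B * B').trace ≤ (t2 B + t2 B') / 2 := by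
  rw [trace_mul_eq, ← fro_eq_t2 hB, ← fro_eq_t2 hB', fro, fro, ← Finset.sum_add_distrib,
    Finset.sum_div]
  refine Finset.sum_le_sum fun u _ => ?_
  rw [← Finset.sum_add_distrib, Finset.sum_div]
  refine Finset.sum_le_sum fun v _ => ?_
  rw [hB'.apply u v]
  nlinarith [sq_nonneg (B u v - B' u v)]

theorem tw_kappa {A R o c g x l : ℝ} (hA : 1 ≤ A) (hR : 0 < R) (ho0 : 0 ≤ o) (ho : o ≤ A * R)
    (hc : c ≤ A * R) (hg : g ^ 2 ≤ A / 2) (hx : 0 ≤ x) (hc' : -g ^ 2 * R - 3 / 2 * x - 16 ≤ c)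
    (hl : (6 * x + 64) / R ≤ l) :
    -6 + 2 * (o / R) / A + 4 * (c / R) / (-A) ≤ -2 + l ∧
      -10 ≤ -6 + 2 * (o / R) / A + 4 * (c / R) / (-A) := by
  have hA0 : 0 < A := by linarith
  have e1 : 2 * (o / R) / A = 2 * (o / (A * R)) := by field_simp
  have e2 : 4 * (c / R) / (-A) = -(4 * c / (A * R)) := by field_simp
  have h1 : o / (A * R) ≤ 1 := (div_le_one (by positivity)).2 ho
  have h2 : 0 ≤ o / (A * R) := by positivity
  have h3 : 4 * c / (A * R) ≤ 4 := by rw [div_le_iff₀ (by positivity)]; linarith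
  have h4 : -(2 + (6 * x + 64) / R) ≤ 4 * c / (A * R) := by
    rw [le_div_iff₀ (by positivity)]
    have e3 : -(2 + (6 * x + 64) / R) * (A * R) = -(2 * A * R) - (6 * x + 64) * A := by
      field_simp; ring
    rw [e3]
    nlinarith
  rw [e1, e2]
  constructor <;> linarith

theorem term_chi (h : Side P r t B B' b ω) :
    Ea ω (fun u v => P.Uchi (r - 2) (chi (upd b B u v) (upd (-b) B' u v)) (t2 (upd b B u v))) ≤
      P.Uchi r (chi B B') (t2 B) + C2 / (P.L * r) := by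
  have hc := h.ctx
  have hg := hc.good
  have hL := hg.L_one
  have hL' := hg.L_big
  have hL0 : (0 : ℝ) < P.L := by linarith
  have hr := hc.r_big
  have hR : (1000 : ℝ) ≤ r := by exact_mod_cast hr
  have hR0 : (0 : ℝ) < r := by linarith
  have hrr := h.reg.rpos
  by_cases k1 : P.r2 < r - 2
  swap
  · simp only [Par.Uchi, if_neg k1]
    rw [h.wt.Ea_const hrr]
    have := h.nonneg.2.2.2.2.2.2.2.1
    unfold Par.Uchi at this
    have h2 : 0 ≤ C2 / ((P.L : ℝ) * r) := by unfold C2; positivity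
    linarith
  have k2 : P.r2 < r := by omega
  have k4 : P.r4 < r := by have := hg.r4_lt_r3; have := hg.r3_lt_r2; omega
  have hR2 : (P.L : ℝ) ^ 65240 ≤ r := by rw [← P.r2_cast]; exact_mod_cast k2.le
  have hN := hg.n_lo
  have hN0 : (0 : ℝ) < P.n := lt_of_lt_of_le (by positivity) hN
  have e1 : Ea ω (fun u v =>
      P.Uchi (r - 2) (chi (upd b B u v) (upd (-b) B' u v)) (t2 (upd b B u v))) =
      ((chi B B' + P.g * t2 B + 16) +
        Ea ω (fun u v => chi (upd b B u v) (upd (-b) B' u v) - chi B B') +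
        P.g * Ea ω (fun u v => t2 (upd b B u v) - t2 B)) /
        ((P.L : ℝ) ^ 2 * (r - 2) + P.n / P.L) := by
    rw [← h.wt.Ea_const hrr (chi B B' + P.g * t2 B + 16), ← Ea_const_mul, ← Ea_add, ← Ea_add,
      div_eq_inv_mul, ← Ea_const_mul]
    refine Ea_congr fun u v _ => ?_
    rw [Par.Uchi, if_pos k1, hc.cast_sub, div_eq_inv_mul]
    ring
  rw [e1, Par.Uchi, if_pos k2]
  have ht2 : 0 ≤ t2 B := by
    rw [← sum_bet]; exact Finset.sum_nonneg fun k _ => bet_nonneg h.reg.symm k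
  have hf := h.bnd.f2_le hc
  have hf' := h.bnd'.f2_le hc
  have ha1 : 1 ≤ P.a ^ 2 := one_le_pow₀ hg.a1
  have ha4 : P.a ^ 2 ≤ 4 := h.b_sq ▸ h.reg.b4
  have hg0 := hg.g0
  have hg1 := hg.g_le
  have hx : |t1 B| + |t1 B'| ≤ 4 * (P.L : ℝ) ^ 32241 := by
    have := add_le_add (h.bnd.t1_early hc k4) (h.bnd'.t1_early hc k4)
    rwa [← add_mul, show (2 + 2 : ℝ) = 4 by norm_num] at this
  have hcr := cross_lower h.reg.symm h.reg'.symm h.reg.row h.reg'.row h.gam h.gam' h.reg.b4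
    h.reg'.b4 hg0.le (by linarith [hg.g2]) hrr
  rw [h.rr_eq] at hcr
  have hκ := tw_kappa (c := (B * B').trace) ha1 hR0 ht2 hf
    (by linarith [tw_cross_le h.reg.symm h.reg'.symm]) hg.g2
    (add_nonneg (abs_nonneg (t1 B)) (abs_nonneg (t1 B'))) (by
      have h1 : P.g * (t1 B + t1 B') ≤ 3 / 2 * (|t1 B| + |t1 B'|) :=
        (mul_le_mul_of_nonneg_left (add_le_add (le_abs_self _) (le_abs_self _)) hg0.le).trans
          (mul_le_mul_of_nonneg_right hg1 (by positivity))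
      linarith) (tw_small hL' hR2 hx)
  have hd := (abs_le.1 (drift_chi h.reg h.reg' h.wt h.adm h.adm')).2
  rw [h.rr_eq, mul_neg, ← sq, h.b_sq] at hd
  have hnu : P.nu r t = 2 * (P.L : ℝ) ^ 48024 / t ^ 2 := by unfold Par.nu; rw [if_pos k4]
  have hXi : P.Xi r ≤ (P.L : ℝ) ^ 1483 := by
    unfold Par.Xi; split_ifs
    · exact le_rfl
    · exact pow_le_pow_right₀ hL (by norm_num)
  have hLam : P.Lam r ≤ (P.L : ℝ) ^ 1188 := by
    unfold Par.Lam; split_ifs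
    · exact le_rfl
    · exact pow_le_pow_right₀ hL (by norm_num)
  have r1 := tw_err1 hL' hc.t0 hc.t8 hR2 hN hx
  have r2 := tw_err2 hL' hc.t8 (hc.t_tilt k2) hN hXi
  have r3 := tw_err3 hL' hc.t0 hc.t8 hc.t_hi hN hXi (zero_le_one.trans h.reg.L1) hLam
  rw [← hnu] at r1 r2 r3
  have hdF : P.g * Ea ω (fun u v => t2 (upd b B u v) - t2 B) ≤ 2 :=
    (mul_le_mul_of_nonneg_left (dF_le h k4) hg0.le).trans (by linarith)
  refine tw_abs2 (y := P.g * t2 B + 16) (χ := chi B B')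
    (err := (|t1 B| + |t1 B'|) * P.nu r t ^ 4 / (r : ℝ) ^ 2 +
      P.Xi r * (P.nu r t ^ 4 / t ^ 12 + P.Lam r ^ 3 * P.nu r t / t ^ 4)) hR hL hN0
    (chi_lower h.reg.symm h.reg'.symm h.reg.row h.gam' h.reg.b4 h.reg'.b4 hg0.le hrr)
    (h.bnd.chi_bd hc k2) (by ring) (by positivity) ?_ hκ.1 hκ.2 ?_ ?_
  · have : P.g * t2 B ≤ 3 / 2 * (4 * r) :=
      mul_le_mul hg1 (hf.trans (mul_le_mul_of_nonneg_right ha4 hR0.le)) ht2 (by norm_num)
    linarith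
  · rw [mul_add]
    clear hR2 hN hx hXi hLam hnu
    linarith
  · clear hR2 hN hx hXi hLam hnu
    linarith

end Crest.Agent.R62
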