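import Crest.Agent.R62.State
import Crest.Agent.R62.Api

/-!
# R62/WFacts: consequences of the resolvent invariant; restriction to `R` (TASK)

`H = Ht ..` is symmetric (`adj` symmetric), so its inverse `G` is symmetric and `G H = 1` (`mul_eq_one_comm`).
`H 1 = (s - m) ρ` (use `deg` and `card V = n > 0`), so `G ρ = (s a + g) 1` because `(s - m)(s a + g) = 1`
(`a (1 - m²) = 1`, `g = m a`, `s² = 1`).  `Σ_{l ∈ R} G (vx k) (vx l) = (G ρ)(vx k)`.
`Gam`: for `p : R → ℝ` let `q = Tᵀ p` (`q y = Σ_{vx k = y} p k`), then `pᵀ C p + g Σ p² = qᵀ G q`.  Put `q₀ = q - (Σ p / r) ρ`, so `Σ q₀ = 0`,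
`qᵀ G q - (b+g)(Σp)²/r = q₀ᵀ G q₀ = wᵀ H w` with `w = G q₀`, `ρ · w = (b+g) Σ q₀ = 0`, hence `≥ 0` by `pos`.
The restriction lemmas are routine: sums over `ι` of functions vanishing outside `R` are sums over `↥R`
(`Finset.sum_coe_sort`, `Finset.sum_subset`); `res R (M * N) = res R M * res R N` if `Supp R N` (or `M`), `Supp` is closed under products.
-/

set_option autoImplicit false
set_option linter.unusedSectionVars false
open Finset Matrix

namespace Crest.Agent.R62

variable {ι V : Type} [Fintype ι] [DecidableEq ι] [Fintype V] [DecidableEq V]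
  {P : Par ℝ} {s : ℝ} {vx : ι → V} {R : Finset ι} {adj : V → V → Prop} {C C' : Matrix ι ι ℝ}

private theorem wfacts_Amat_symm {d : ℕ} (hg : GInv d vx R adj) (y z : V) :
    Amat adj y z = Amat adj z y := by
  classical
  unfold Amat
  simp only [Matrix.of_apply]
  by_cases h : adj y z
  · rw [if_pos h, if_pos (hg.symm _ _ h)]
  · rw [if_neg h, if_neg (fun h' => h (hg.symm _ _ h'))]

private theorem wfacts_Amat_nonneg (adj : V → V → Prop) (y z : V) : 0 ≤ Amat adj y z := by
  classical
  unfold Amat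
  simp only [Matrix.of_apply]
  split_ifs <;> norm_num

private theorem wfacts_n_pos (hP : P.Good) : (0 : ℝ) < P.n := by
  have h1 : 0 < P.d := lt_of_lt_of_le (by norm_num) hP.d3
  have h2 : 0 < P.L := lt_of_lt_of_le (by positivity) hP.Lbig
  have h3 : 0 < P.n := lt_of_lt_of_le (pow_pos h2 _) hP.nlo
  exact_mod_cast h3

theorem Ht_symm (hg : GInv P.d vx R adj) : (Ht P s vx R adj).IsSymm := by
  refine Matrix.IsSymm.ext fun y z => ?_
  unfold Ht
  simp only [Matrix.of_apply]
  rw [wfacts_Amat_symm hg z y]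
  by_cases h : y = z
  · subst h; rfl
  · rw [if_neg h, if_neg (Ne.symm h)]

theorem Ht_one (hP : P.Good) (hV : Fintype.card V = P.n) (hg : GInv P.d vx R adj) (y : V) :
    ∑ z, Ht P s vx R adj y z = (s - P.m) * rho vx R y := by
  have hn := wfacts_n_pos hP
  have hd := hg.deg y
  unfold Ht
  simp only [Matrix.of_apply, Finset.sum_add_distrib, Finset.sum_sub_distrib, Finset.sum_ite_eq,
    Finset.mem_univ, if_true, ← Finset.mul_sum, Finset.sum_const, Finset.card_univ, hV, nsmul_eq_mul]
  have h1 : ∑ z, Amat adj y z = P.d - rho vx R y := by linarith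
  rw [h1]
  field_simp
  ring

theorem sm_mul (hP : P.Good) (hs : s = 1 ∨ s = -1) : (s - P.m) * (s * P.a + P.g) = 1 := by
  have h1 : 1 - P.m ^ 2 ≠ 0 := by
    have h0 : 0 < 1 - P.m ^ 2 := by linarith [hP.m2]
    exact h0.ne'
  have h2 : s ^ 2 = 1 := by rcases hs with h | h <;> rw [h] <;> norm_num
  have h3 : P.a * (1 - P.m ^ 2) = 1 := by unfold Par.a; field_simp
  unfold Par.g
  calc (s - P.m) * (s * P.a + P.m * P.a) = P.a * (s ^ 2 - P.m ^ 2) := by ring
    _ = 1 := by rw [h2, h3]

theorem sum_rho (vx : ι → V) (R : Finset ι) (w : V → ℝ) :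
    ∑ y, rho vx R y * w y = ∑ k ∈ R, w (vx k) := by
  have h1 : ∀ y, rho vx R y * w y = ∑ k ∈ R, if vx k = y then w y else 0 := by
    intro y
    unfold rho
    rw [← Finset.sum_filter, Finset.sum_const, nsmul_eq_mul]
  simp_rw [h1]
  rw [Finset.sum_comm]
  refine Finset.sum_congr rfl fun k _ => ?_
  rw [Finset.sum_ite_eq]
  simp

theorem WInv.supp (h : WInv P s vx R adj C) : Supp R C := by
  obtain ⟨G, -, hC⟩ := h.ex
  intro k l hkl
  rw [hC, if_neg]
  rintro ⟨h1, h2⟩
  rcases hkl with h' | h'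
  · exact h' h1
  · exact h' h2

private theorem wfacts_inv_symm {H G : Matrix V V ℝ} (hH : H.IsSymm) (h : H * G = 1) : G.IsSymm := by
  have h1 : Gᵀ * H = 1 := by
    have := congrArg Matrix.transpose h
    rwa [Matrix.transpose_mul, hH.eq, Matrix.transpose_one] at this
  calc Gᵀ = Gᵀ * (H * G) := by rw [h, Matrix.mul_one]
    _ = G := by rw [← Matrix.mul_assoc, h1, Matrix.one_mul]

theorem WInv.symm (hg : GInv P.d vx R adj) (h : WInv P s vx R adj C) : C.IsSymm := by
  obtain ⟨G, hG, hC⟩ := h.ex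
  have hs := wfacts_inv_symm (Ht_symm hg) hG
  refine Matrix.IsSymm.ext fun k l => ?_
  rw [hC, hC, hs.apply (vx k) (vx l)]
  simp only [and_comm, eq_comm]

/-- `G ρ = (s a + g) 1` -/
private theorem wfacts_G_rho (hP : P.Good) (hV : Fintype.card V = P.n) (hs : s = 1 ∨ s = -1)
    (hg : GInv P.d vx R adj) {G : Matrix V V ℝ} (hG : Ht P s vx R adj * G = 1) (y : V) :
    ∑ z, rho vx R z * G y z = s * P.a + P.g := by
  have hG' : G * Ht P s vx R adj = 1 := mul_eq_one_comm.mp hG
  have h1 : ∀ z, rho vx R z = (s * P.a + P.g) * ∑ w, Ht P s vx R adj z w := by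
    intro z
    rw [Ht_one hP hV hg, ← mul_assoc, mul_comm (s * P.a + P.g), sm_mul hP hs, one_mul]
  have h2 : ∑ w, (G * Ht P s vx R adj) y w = 1 := by
    rw [hG']; simp [Matrix.one_apply]
  calc ∑ z, rho vx R z * G y z
      = (s * P.a + P.g) * ∑ z, ∑ w, G y z * Ht P s vx R adj z w := by
        rw [Finset.mul_sum]
        refine Finset.sum_congr rfl fun z _ => ?_
        rw [← Finset.mul_sum, h1 z]; ring
    _ = (s * P.a + P.g) * ∑ w, (G * Ht P s vx R adj) y w := by
        rw [Finset.sum_comm]; simp only [Matrix.mul_apply]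
    _ = _ := by rw [h2, mul_one]

private theorem wfacts_res_apply {G : Matrix V V ℝ} (hC : ∀ k l, C k l =
    if k ∈ R ∧ l ∈ R then G (vx k) (vx l) - (if k = l then P.g else 0) else 0) (k l : R) :
    res R C k l = G (vx k) (vx l) - (if k = l then P.g else 0) := by
  unfold res
  rw [Matrix.submatrix_apply, hC, if_pos ⟨k.2, l.2⟩]
  simp only [Subtype.ext_iff]

theorem WInv.res_row (hP : P.Good) (hV : Fintype.card V = P.n) (hs : s = 1 ∨ s = -1)
    (hg : GInv P.d vx R adj) (h : WInv P s vx R adj C) (k : R) :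
    ∑ l, res R C k l = s * P.a := by
  obtain ⟨G, hG, hC⟩ := h.ex
  have h1 := wfacts_G_rho hP hV hs hg hG (vx k)
  rw [sum_rho vx R (fun z => G (vx k) z)] at h1
  simp only [wfacts_res_apply hC, Finset.sum_sub_distrib, Finset.sum_ite_eq, Finset.mem_univ, if_true]
  rw [Finset.sum_coe_sort R (fun l => G (vx k) (vx l)), h1]
  ring

/-- push a vector on `R` forward to the vertices -/
private theorem wfacts_push (vx : ι → V) (R : Finset ι) (p : R → ℝ) :
    ∃ q : V → ℝ, ∀ f : V → ℝ, ∑ y, q y * f y = ∑ k : R, p k * f (vx k) := by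
  refine ⟨fun y => ∑ k : R, if vx k = y then p k else 0, fun f => ?_⟩
  simp only [Finset.sum_mul]
  rw [Finset.sum_comm]
  refine Finset.sum_congr rfl fun k _ => ?_
  simp only [ite_mul, zero_mul]
  rw [Finset.sum_ite_eq]
  simp

theorem WInv.res_gam (hP : P.Good) (hV : Fintype.card V = P.n) (hs : s = 1 ∨ s = -1)
    (hg : GInv P.d vx R adj) (h : WInv P s vx R adj C) : Gam (res R C) (s * P.a) P.g := by
  obtain ⟨G, hG, hC⟩ := h.ex
  have hGs := wfacts_inv_symm (Ht_symm hg) hG
  have hρ := wfacts_G_rho hP hV hs hg hG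
  set c : ℝ := s * P.a + P.g with hc
  intro p
  obtain ⟨q, hq⟩ := wfacts_push vx R p
  set S : ℝ := ∑ k, p k with hS
  set r : ℝ := rr R with hr
  have hSq : ∑ y, q y = S := by
    have := hq fun _ => 1
    simp only [mul_one] at this
    exact this
  have hρr : ∑ y, rho vx R y = r := by
    have := sum_rho vx R fun _ => 1
    simp only [mul_one, Finset.sum_const, nsmul_eq_mul] at this
    rw [this, hr, rr, Fintype.card_coe]
  set τ : ℝ := S / r with hτ
  have hτr : τ * r = S := by
    by_cases h0 : r = 0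
    · have h1 : Fintype.card R = 0 := by
        have : ((Fintype.card R : ℕ) : ℝ) = 0 := h0
        exact_mod_cast this
      have : IsEmpty R := Fintype.card_eq_zero_iff.mp h1
      rw [h0, hS]; simp
    · rw [hτ]; field_simp
  set ρ : V → ℝ := rho vx R with hρdef
  have hGρ : G *ᵥ ρ = fun _ => c := by
    funext y
    rw [← hρ y]
    simp only [Matrix.mulVec, dotProduct, mul_comm]
  have hsym : ∀ x y : V → ℝ, x ⬝ᵥ G *ᵥ y = y ⬝ᵥ G *ᵥ x := by
    intro x y
    rw [Matrix.dotProduct_mulVec, ← Matrix.mulVec_transpose, hGs.eq, dotProduct_comm]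
  have hxρ : ∀ x : V → ℝ, x ⬝ᵥ G *ᵥ ρ = c * ∑ y, x y := by
    intro x
    rw [hGρ, Finset.mul_sum]
    simp only [dotProduct, mul_comm]
  -- the quadratic form of `p`
  have h1 : p ⬝ᵥ res R C *ᵥ p + P.g * ∑ k, p k ^ 2 = q ⬝ᵥ G *ᵥ q := by
    have e1 : q ⬝ᵥ G *ᵥ q = ∑ k : R, p k * ∑ l : R, p l * G (vx k) (vx l) := by
      unfold dotProduct
      rw [hq]
      refine Finset.sum_congr rfl fun k _ => ?_
      rw [← hq fun z => G (vx k) z]
      simp only [Matrix.mulVec, dotProduct, mul_comm]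
    rw [e1, Finset.mul_sum]
    unfold dotProduct
    rw [← Finset.sum_add_distrib]
    refine Finset.sum_congr rfl fun k _ => ?_
    simp only [Matrix.mulVec, dotProduct, wfacts_res_apply hC, sub_mul, Finset.sum_sub_distrib,
      ite_mul, zero_mul, Finset.sum_ite_eq, Finset.mem_univ, if_true]
    have : ∑ l : R, G (vx k) (vx l) * p l = ∑ l : R, p l * G (vx k) (vx l) :=
      Finset.sum_congr rfl fun l _ => mul_comm _ _
    rw [this]; ring
  set q₀ : V → ℝ := q - τ • ρ with hq₀
  have hq₀S : ∑ y, q₀ y = 0 := by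
    simp only [hq₀, Pi.sub_apply, Pi.smul_apply, smul_eq_mul, Finset.sum_sub_distrib, ← Finset.mul_sum]
    rw [hSq, hρr, hτr, sub_self]
  have h2 : q₀ ⬝ᵥ G *ᵥ q₀ = q ⬝ᵥ G *ᵥ q - c / r * S ^ 2 := by
    have e1 : q₀ ⬝ᵥ G *ᵥ q₀ = q₀ ⬝ᵥ G *ᵥ q - τ * (q₀ ⬝ᵥ G *ᵥ ρ) := by
      conv_lhs => rw [show G *ᵥ q₀ = G *ᵥ q - τ • G *ᵥ ρ by
        rw [hq₀, Matrix.mulVec_sub, Matrix.mulVec_smul]]
      rw [dotProduct_sub, dotProduct_smul, smul_eq_mul]
    have e2 : q₀ ⬝ᵥ G *ᵥ q = q ⬝ᵥ G *ᵥ q - τ * (q ⬝ᵥ G *ᵥ ρ) := by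
      rw [hq₀, sub_dotProduct, smul_dotProduct, smul_eq_mul, hsym ρ q]
    rw [e1, e2, hxρ, hxρ, hq₀S, hSq, hτ]
    ring
  have h3 : 0 ≤ q₀ ⬝ᵥ G *ᵥ q₀ := by
    set w : V → ℝ := G *ᵥ q₀ with hw
    have hHw : Ht P s vx R adj *ᵥ w = q₀ := by
      rw [hw, Matrix.mulVec_mulVec, hG, Matrix.one_mulVec]
    have hρw : ∑ y, rho vx R y * w y = 0 := by
      have : ρ ⬝ᵥ G *ᵥ q₀ = 0 := by rw [hsym, hxρ, hq₀S, mul_zero]
      exact this
    by_cases h0 : w = 0
    · rw [h0]; simp
    · have := h.pos w hρw h0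
      rw [hHw, dotProduct_comm] at this
      exact this.le
  rw [h1, ← h2]
  exact h3

theorem res_symm (h : C.IsSymm) : (res R C).IsSymm := h.submatrix _

theorem res_upd (b : ℝ) (C : Matrix ι ι ℝ) (u v : R) :
    res R (upd b C u v) = upd b (res R C) u v := by
  ext k l
  simp only [res, upd, kap, Matrix.submatrix_apply, Matrix.of_apply, Subtype.ext_iff]

theorem Supp.upd (h : Supp R C) (b : ℝ) (u v : ι) : Supp R (upd b C u v) := by
  intro k l hkl
  unfold R62.upd
  simp only [Matrix.of_apply]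
  split_ifs with h1
  · rfl
  · rcases hkl with h' | h'
    · rw [h k l (Or.inl h'), h k u (Or.inl h'), h k v (Or.inl h')]; ring
    · rw [h k l (Or.inr h'), h l u (Or.inl h'), h l v (Or.inl h')]; ring

private theorem wfacts_sum {f : ι → ℝ} (h : ∀ k, k ∉ R → f k = 0) : ∑ k : R, f k = ∑ k, f k := by
  rw [Finset.sum_coe_sort R f]
  exact Finset.sum_subset (Finset.subset_univ R) fun k _ hk => h k hk

private theorem wfacts_res_mul (M : Matrix ι ι ℝ) (h : Supp R C) :
    res R (M * C) = res R M * res R C := by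
  ext k l
  simp only [res, Matrix.submatrix_apply, Matrix.mul_apply]
  exact (wfacts_sum (R := R) (f := fun j => M k j * C j l)
    fun j hj => by rw [h j l (Or.inl hj), mul_zero]).symm

private theorem wfacts_supp_mul (h : Supp R C) (h' : Supp R C') : Supp R (C * C') := by
  intro k l hkl
  rw [Matrix.mul_apply]
  refine Finset.sum_eq_zero fun j _ => ?_
  rcases hkl with h1 | h1
  · rw [h k j (Or.inl h1), zero_mul]
  · rw [h' j l (Or.inr h1), mul_zero]

private theorem wfacts_trace (h : Supp R C) : (res R C).trace = C.trace := by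
  simp only [Matrix.trace, Matrix.diag_apply, res, Matrix.submatrix_apply]
  exact wfacts_sum (R := R) (f := fun j => C j j) fun j hj => h j j (Or.inl hj)

theorem t2_res (h : Supp R C) : t2 (res R C) = t2 C := by
  unfold t2
  rw [← wfacts_res_mul C h, wfacts_trace (wfacts_supp_mul h h)]

private theorem wfacts_chi (h : Supp R C) (h' : Supp R C') :
    chi (res R C) (res R C') = chi C C' := by
  unfold chi
  rw [← wfacts_res_mul C h, ← wfacts_res_mul (C * C) h',
    wfacts_trace (wfacts_supp_mul (wfacts_supp_mul h h) h')]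

private theorem wfacts_t4 (h : Supp R C) : t4 (res R C) = t4 C := by
  unfold t4
  rw [← wfacts_res_mul C h, ← wfacts_res_mul (C * C) h, ← wfacts_res_mul (C * C * C) h,
    wfacts_trace (wfacts_supp_mul (wfacts_supp_mul (wfacts_supp_mul h h) h) h)]

private theorem wfacts_dd (h : Supp R C) : dd (res R C) = dd C := by
  simp only [dd, res, Matrix.submatrix_apply]
  exact wfacts_sum (R := R) (f := fun j => C j j ^ 2) fun j hj => by
    rw [h j j (Or.inl hj)]; norm_num

private theorem wfacts_ww (h : Supp R C) : ww (res R C) = ww C := by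
  unfold ww bet
  rw [← wfacts_res_mul C h]
  simp only [res, Matrix.submatrix_apply]
  exact wfacts_sum (R := R) (f := fun j => (C * C) j j ^ 2) fun j hj => by
    rw [wfacts_supp_mul h h j j (Or.inl hj)]; norm_num

private theorem wfacts_q4 (h : Supp R C) : q4 (res R C) = q4 C := by
  simp only [q4, res, Matrix.submatrix_apply]
  rw [← wfacts_sum (R := R) (f := fun k => ∑ l, C k l ^ 4) fun k hk =>
    Finset.sum_eq_zero fun l _ => by rw [h k l (Or.inl hk)]; norm_num]
  refine Finset.sum_congr rfl fun k _ => ?_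
  exact wfacts_sum (R := R) (f := fun l => C k l ^ 4) fun l hl => by
    rw [h k l (Or.inr hl)]; norm_num

theorem Uside_res (P : Par ℝ) (r : ℕ) (h : Supp R C) (h' : Supp R C') :
    Uside P r (res R C) (res R C') = Uside P r C C' := by
  have h1 : t1 (res R C) = t1 C := wfacts_trace h
  have h3 : t3 (res R C) = t3 C := wfacts_chi h h
  unfold Uside
  rw [h1, t2_res h, h3, wfacts_t4 h, wfacts_dd h, wfacts_ww h, wfacts_q4 h, wfacts_chi h h']

private theorem wfacts_Sc_map (vx : ι → V) (R : Finset ι) (T : Finset R) :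
    Sc (fun k : R => vx k) T = Sc vx (T.map (Function.Embedding.subtype _)) := by
  unfold Sc
  simp only [Finset.sum_map, Function.Embedding.coe_subtype, ne_eq, Subtype.ext_iff]
  exact Finset.sum_congr rfl fun _ _ => Finset.sum_congr rfl fun _ _ => if_congr Iff.rfl rfl rfl

private theorem wfacts_Ac_map (vx : ι → V) (adj : V → V → Prop) (R : Finset ι) (T : Finset R) :
    Ac (fun k : R => vx k) adj T = Ac vx adj (T.map (Function.Embedding.subtype _)) := by
  unfold Ac
  simp only [Finset.sum_map, Function.Embedding.coe_subtype]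
  rfl

private theorem wfacts_map_univ (R : Finset ι) :
    (univ : Finset R).map (Function.Embedding.subtype _) = R := by
  ext k; simp

private theorem wfacts_map_erase (R : Finset ι) (u v : R) :
    (((univ : Finset R).erase u).erase v).map (Function.Embedding.subtype _) =
      (R.erase u).erase v := by
  rw [Finset.map_erase, Finset.map_erase, wfacts_map_univ]
  rfl

theorem Sc_res (vx : ι → V) (R : Finset ι) : Sc (fun k : R => vx k) univ = Sc vx R := by
  rw [wfacts_Sc_map, wfacts_map_univ]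

theorem Ac_res (vx : ι → V) (adj : V → V → Prop) (R : Finset ι) :
    Ac (fun k : R => vx k) adj univ = Ac vx adj R := by
  rw [wfacts_Ac_map, wfacts_map_univ]

theorem Sc_res_erase (vx : ι → V) (R : Finset ι) (u v : R) :
    Sc (fun k : R => vx k) ((univ.erase u).erase v) = Sc vx ((R.erase u).erase v) := by
  rw [wfacts_Sc_map, wfacts_map_erase]

theorem Ac_res_erase (vx : ι → V) (adj : V → V → Prop) (R : Finset ι) (u v : R) :
    Ac (fun k : R => vx k) adj ((univ.erase u).erase v) = Ac vx adj ((R.erase u).erase v) := by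
  rw [wfacts_Ac_map, wfacts_map_erase]

open Classical in
/-- at most `d + d²` unmatched half-edges are at the vertex of `u` or at a neighbour
(`rho ≤ d` and at most `d` neighbours, by `deg`) -/
theorem forb_card (hg : GInv P.d vx R adj) (u : R) :
    ((univ.filter fun v : R => vx u = vx v ∨ adj (vx u) (vx v)).card : ℝ) ≤ P.d + (P.d : ℝ) ^ 2 := by
  have hρ0 : ∀ y, 0 ≤ rho vx R y := fun y => Nat.cast_nonneg _
  have hA0 : ∀ y, 0 ≤ ∑ z, Amat adj y z := fun y =>
    Finset.sum_nonneg fun z _ => wfacts_Amat_nonneg adj y z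
  have hρ : ∀ y, rho vx R y ≤ P.d := fun y => by linarith [hg.deg y, hA0 y]
  have hA : ∀ y, ∑ z, Amat adj y z ≤ P.d := fun y => by linarith [hg.deg y, hρ0 y]
  have hd : (0 : ℝ) ≤ P.d := Nat.cast_nonneg _
  set w : V → ℝ := fun y => (if vx u = y then 1 else 0) + Amat adj (vx u) y with hw
  have h1 : ((univ.filter fun v : R => vx u = vx v ∨ adj (vx u) (vx v)).card : ℝ) ≤
      ∑ v : R, w (vx v) := by
    rw [Finset.card_filter, Nat.cast_sum]
    refine Finset.sum_le_sum fun v _ => ?_
    simp only [hw, Amat, Matrix.of_apply]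
    by_cases h1 : vx u = vx v
    · rw [if_pos (Or.inl h1), if_pos h1]
      split_ifs <;> norm_num
    · by_cases h2 : adj (vx u) (vx v)
      · rw [if_pos (Or.inr h2), if_neg h1, if_pos h2]; norm_num
      · rw [if_neg (not_or.mpr ⟨h1, h2⟩), if_neg h1, if_neg h2]; norm_num
  rw [Finset.sum_coe_sort R (fun k => w (vx k)), ← sum_rho] at h1
  refine h1.trans ?_
  simp only [hw, mul_add, Finset.sum_add_distrib, mul_ite, mul_one, mul_zero, Finset.sum_ite_eq,
    Finset.mem_univ, if_true]
  have h2 : ∑ y, rho vx R y * Amat adj (vx u) y ≤ ∑ y, (P.d : ℝ) * Amat adj (vx u) y :=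
    Finset.sum_le_sum fun y _ => mul_le_mul_of_nonneg_right (hρ y) (wfacts_Amat_nonneg _ _ _)
  rw [← Finset.mul_sum] at h2
  have h3 := mul_le_mul_of_nonneg_left (hA (vx u)) hd
  nlinarith [hρ (vx u)]

end Crest.Agent.R62
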