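import Crest.Agent.R62.TPhi
import Crest.Agent.R62.TPsi
import Crest.Agent.R62.TT
import Crest.Agent.R62.TT4
import Crest.Agent.R62.TD
import Crest.Agent.R62.TW
import Crest.Agent.R62.MkSide
import Crest.Agent.R62.Pairs
import Crest.Agent.R62.WFacts

/-!
# R62/Step: in a running good state some admissible pair hardly increases the potential
-/

set_option autoImplicit false
set_option linter.unusedSectionVars false
open Finset Matrix

namespace Crest.Agent.R62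

section side
variable {ι : Type} [Fintype ι] [DecidableEq ι] {P : Par ℝ} {r : ℕ} {t b : ℝ}
  {B B' : Matrix ι ι ℝ} {ω : ι → ι → ℝ}

theorem side_step (h : Side P r t B B' b ω) :
    Ea ω (fun u v => Uside P (r - 2) (upd b B u v) (upd (-b) B' u v)) ≤
      Uside P r B B' + 9 * (C2 / (P.L * r)) +
        (if P.r4 < r ∧ r - 2 ≤ P.r4 then 100 / (P.L : ℝ) else 0) := by
  have h1 := term_phi h
  have h2 := term_psi h
  have h3 := term_T h
  have h4 := term_T4 h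
  have h5 := term_D h
  have h6 := term_W h
  have h7 := term_Q h
  have h8 := term_chi h
  have h9 := term_F h
  unfold Uside Par.Uobs
  rw [Ea_add, Ea_add, Ea_add, Ea_add, Ea_add, Ea_add, Ea_add, Ea_add]
  linarith

theorem bnd_of_le (hg : P.Good) (hr : 0 < r) (hcard : Fintype.card ι = r)
    (hb : b = P.a ∨ b = -P.a) (hB : B.IsSymm) (hB' : B'.IsSymm) (hrow : ∀ k, ∑ l, B k l = b)
    (hΓ' : Gam B' (-b) P.g) : 0 ≤ Uside P r B B' ∧ (Uside P r B B' ≤ 2 → Bnd P r B B') := by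
  obtain ⟨h1, h2, h3, h4, h5, h6, h7, h8, h9⟩ := terms_nonneg hg hr hcard hb hB hB' hrow hΓ'
  unfold Uside Par.Uobs
  refine ⟨by linarith, fun h => ⟨?_, ?_, ?_, ?_, ?_, ?_, ?_, ?_, ?_⟩⟩ <;> linarith

end side

variable {ι V : Type} [Fintype ι] [DecidableEq ι] [Fintype V] [DecidableEq V]
  {P : Par ℝ} {vx : ι → V} {σ : St ι V}

theorem US_nonneg (P : Par ℝ) (r : ℕ) {z : ℝ} (hz : 0 ≤ z) : 0 ≤ P.US r z := by
  unfold Par.US; positivity

theorem UA_nonneg (P : Par ℝ) (r : ℕ) {z : ℝ} (hz : 0 ≤ z) : 0 ≤ P.UA r z := by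
  unfold Par.UA; positivity

/-- the bounds on all terms in a state with potential at most `2` -/
theorem state_bnd (hP : P.Good) (hV : Fintype.card V = P.n) (h : Inv P vx σ) (hr : 0 < σ.R.card)
    (hU : σ.U P vx ≤ 2) :
    Bnd P σ.R.card (res σ.R σ.C₁) (res σ.R σ.C₂) ∧ Bnd P σ.R.card (res σ.R σ.C₂) (res σ.R σ.C₁) ∧
      P.US σ.R.card (Sc vx σ.R) ≤ 2 ∧ P.UA σ.R.card (Ac vx σ.adj σ.R) ≤ 2 := by
  have hcard : Fintype.card σ.R = σ.R.card := Fintype.card_coe _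
  have s1 := res_symm (R := σ.R) (h.w₁.symm h.g)
  have s2 := res_symm (R := σ.R) (h.w₂.symm h.g)
  have r1 : ∀ k, ∑ l, res σ.R σ.C₁ k l = P.a := fun k => by
    simpa using h.w₁.res_row hP hV (Or.inl rfl) h.g k
  have r2 : ∀ k, ∑ l, res σ.R σ.C₂ k l = -P.a := fun k => by
    simpa using h.w₂.res_row hP hV (Or.inr rfl) h.g k
  have g1 : Gam (res σ.R σ.C₁) (- -P.a) P.g := by
    simpa using h.w₁.res_gam hP hV (Or.inl rfl) h.g
  have g2 : Gam (res σ.R σ.C₂) (-P.a) P.g := by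
    simpa using h.w₂.res_gam hP hV (Or.inr rfl) h.g
  obtain ⟨n1, b1⟩ := bnd_of_le hP hr hcard (Or.inl rfl) s1 s2 r1 g2
  obtain ⟨n2, b2⟩ := bnd_of_le hP hr hcard (Or.inr rfl) s2 s1 r2 g1
  have n3 := US_nonneg P σ.R.card (Sc_nonneg vx σ.R)
  have n4 := UA_nonneg P σ.R.card (Ac_nonneg vx σ.adj σ.R)
  rw [Uside_res P _ h.w₁.supp h.w₂.supp] at n1 b1
  rw [Uside_res P _ h.w₂.supp h.w₁.supp] at n2 b2
  unfold St.U at hU
  exact ⟨b1 (by linarith), b2 (by linarith), by linarith, by linarith⟩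

theorem step_exists (hP : P.Good) (hV : Fintype.card V = P.n) (h : Inv P vx σ)
    (hrun : P.rs < 4 * P.L * σ.R.card ^ 2) (hpar : ∃ i, σ.R.card + 2 * i = P.r0)
    (hU : σ.U P vx ≤ 2) :
    ∃ u v, σ.Ok P vx u v ∧ (σ.step P vx u v).U P vx ≤ σ.U P vx + 20 * (C2 / (P.L * σ.R.card)) +
      (if P.r4 < σ.R.card ∧ σ.R.card - 2 ≤ P.r4 then 200 / (P.L : ℝ) else 0) := by
  classical
  set r := σ.R.card with hrdef
  have hr : 0 < r := by
    rcases Nat.eq_zero_or_pos r with h0 | h0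
    · rw [h0] at hrun; simp at hrun
    · exact h0
  have hr' : (0 : ℝ) < r := by exact_mod_cast hr
  have hc : Ctx P r ((r : ℝ) ^ ((1 : ℝ) / 8)) :=
    ⟨hP, hrun, hpar, Real.rpow_pos_of_pos hr' _, by
      rw [← Real.rpow_natCast, ← Real.rpow_mul hr'.le]; norm_num⟩
  set t := (r : ℝ) ^ ((1 : ℝ) / 8)
  have hcard : Fintype.card σ.R = r := Fintype.card_coe _
  obtain ⟨b1, b2, bS, bA⟩ := state_bnd hP hV h hr hU
  have s1 := res_symm (R := σ.R) (h.w₁.symm h.g)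
  have s2 := res_symm (R := σ.R) (h.w₂.symm h.g)
  have r1 : ∀ k, ∑ l, res σ.R σ.C₁ k l = P.a := fun k => by
    simpa using h.w₁.res_row hP hV (Or.inl rfl) h.g k
  have r2 : ∀ k, ∑ l, res σ.R σ.C₂ k l = -P.a := fun k => by
    simpa using h.w₂.res_row hP hV (Or.inr rfl) h.g k
  have g1 : Gam (res σ.R σ.C₁) P.a P.g := by
    simpa using h.w₁.res_gam hP hV (Or.inl rfl) h.g
  have g2 : Gam (res σ.R σ.C₂) (-P.a) P.g := by
    simpa using h.w₂.res_gam hP hV (Or.inr rfl) h.g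
  have hFc : ∀ u : σ.R, ((univ.filter fun v : σ.R =>
      vx u = vx v ∨ σ.adj (vx u) (vx v)).card : ℝ) ≤ (P.L : ℝ) ^ 2 := fun u => by
    have h1 := forb_card h.g u
    have h2 := hP.dL'
    have h3 := hP.d3'
    have h4 : 2 * (P.d : ℝ) ≤ P.L := by nlinarith
    have h5 : (2 * (P.d : ℝ)) ^ 2 ≤ (P.L : ℝ) ^ 2 := by gcongr
    refine le_trans (le_of_eq ?_) (h1.trans (by nlinarith))
    congr
  obtain ⟨ω, S1, S2, hF⟩ := mk_side hc hcard s1 s2 r1 r2 g1 g2 b1 b2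
    (fun u v : σ.R => vx u = vx v ∨ σ.adj (vx u) (vx v))
    (fun u v huv => huv.imp Eq.symm (h.g.symm _ _)) (fun u => Or.inl rfl) hFc
  have e1 := side_step S1
  have e2 := side_step S2
  rw [neg_neg] at e2
  have e3 := term_S hc hcard S1.wt (fun k : σ.R => vx k) (by rwa [Sc_res])
  have e4 := term_A hc hcard S1.wt (fun k : σ.R => vx k) σ.adj h.g.irrefl (by rwa [Sc_res])
    (by rwa [Ac_res])
  rw [Sc_res] at e3
  rw [Ac_res] at e4
  rw [Uside_res P _ h.w₁.supp h.w₂.supp] at e1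
  rw [Uside_res P _ h.w₂.supp h.w₁.supp] at e2
  obtain ⟨u, v, hω, hle⟩ := S1.wt.exists_le S1.reg.rpos (fun u v : σ.R =>
    Uside P (r - 2) (upd P.a (res σ.R σ.C₁) u v) (upd (-P.a) (res σ.R σ.C₂) u v) +
    Uside P (r - 2) (upd (-P.a) (res σ.R σ.C₂) u v) (upd P.a (res σ.R σ.C₁) u v) +
    P.US (r - 2) (Sc (fun k : σ.R => vx k) ((univ.erase u).erase v)) +
    P.UA (r - 2) (Ac (fun k : σ.R => vx k) (adjStep σ.adj (vx u) (vx v)) ((univ.erase u).erase v)))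
  rw [Ea_add, Ea_add, Ea_add] at hle
  have hne : u ≠ v := S1.wt.ne hω
  have hnF := hF u v hω
  push Not at hnF
  have k1 := (S1.reg.kap_bd (S1.adm u v hω).1 (S1.adm u v hω).2.1).1
  have k2 := (S2.reg.kap_bd (S2.adm u v hω).1 (S2.adm u v hω).2.1).1
  have hb1 := S1.reg.b1
  have hb2 := S2.reg.b1
  refine ⟨u, v, ⟨u.2, v.2, hnF.1, hnF.2, ?_, ?_⟩, ?_⟩
  · have : (0 : ℝ) < (P.a - res σ.R σ.C₁ u v) ^ 2 - res σ.R σ.C₁ u u * res σ.R σ.C₁ v v := by
      linarith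
    exact this
  · have : (0 : ℝ) < (-P.a - res σ.R σ.C₂ u v) ^ 2 - res σ.R σ.C₂ u u * res σ.R σ.C₂ v v := by
      linarith
    exact this
  · have hc2 : ((σ.R.erase u).erase v).card = r - 2 := by
      have hv : (v : ι) ∈ σ.R.erase u :=
        mem_erase.2 ⟨fun e => hne (Subtype.ext e).symm, v.2⟩
      rw [card_erase_of_mem hv, card_erase_of_mem u.2]; omega
    have p1 := h.w₁.supp.upd P.a u v
    have p2 := h.w₂.supp.upd (-P.a) u v
    rw [← res_upd, ← res_upd, Uside_res P _ p1 p2, Uside_res P _ p2 p1, Sc_res_erase,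
      Ac_res_erase] at hle
    have eU : (σ.step P vx u v).U P vx =
        Uside P (r - 2) (upd P.a σ.C₁ u v) (upd (-P.a) σ.C₂ u v) +
        Uside P (r - 2) (upd (-P.a) σ.C₂ u v) (upd P.a σ.C₁ u v) +
        P.US (r - 2) (Sc vx ((σ.R.erase u).erase v)) +
        P.UA (r - 2) (Ac vx (adjStep σ.adj (vx u) (vx v)) ((σ.R.erase u).erase v)) := by
      simp only [St.U, St.step, hc2]
    rw [eU]
    have eU0 : σ.U P vx = Uside P r σ.C₁ σ.C₂ + Uside P r σ.C₂ σ.C₁ + P.US r (Sc vx σ.R) +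
        P.UA r (Ac vx σ.adj σ.R) := rfl
    rw [eU0]
    split_ifs at e1 e2 ⊢
    · have : (200 : ℝ) / P.L = 100 / P.L + 100 / P.L := by ring
      linarith
    · linarith

end Crest.Agent.R62
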