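import Crest.Agent.R62.Api

/-!
# R62/T4Aux1: weighted `L²` norms and the basic estimates used for the drift of `t4`
-/

set_option autoImplicit false
set_option linter.unusedSectionVars false
open Finset Matrix

namespace Crest.Agent.R62.T4

variable {ι : Type} [Fintype ι] [DecidableEq ι]
variable {ω : ι → ι → ℝ} {B : Matrix ι ι ℝ} {b Λ ν t ϑ Ξ Ω ρ : ℝ}

/-- weighted `L²` bound -/
structure LW (ω f : ι → ι → ℝ) (A : ℝ) : Prop where
  nn : ∀ u v, 0 ≤ ω u v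
  symm : ∀ u v, ω u v = ω v u
  pos : 0 ≤ A
  le : Ea ω (fun u v => f u v ^ 2) ≤ A ^ 2

section LW
variable {f g : ι → ι → ℝ} {A A' : ℝ}

theorem Ea_mono' (hω : ∀ u v, 0 ≤ ω u v) (h : ∀ u v, ω u v ≠ 0 → f u v ≤ g u v) :
    Ea ω f ≤ Ea ω g :=
  av_mono fun u v => by
    by_cases h0 : ω u v = 0
    · simp [h0]
    · exact mul_le_mul_of_nonneg_left (h u v h0) (hω u v)

theorem LW.cs (hf : LW ω f A) (hg : LW ω g A') : Ea ω (fun u v => f u v * g u v) ≤ A * A' := by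
  have e : ∀ (f g : ι → ι → ℝ) u v,
      (√(ω u v) * f u v) * (√(ω u v) * g u v) = ω u v * (f u v * g u v) := fun f g u v => by
    rw [mul_mul_mul_comm, Real.mul_self_sqrt (hf.nn u v)]
  have := abs_av_cs (f := fun u v => √(ω u v) * f u v) (g := fun u v => √(ω u v) * g u v)
    hf.pos hg.pos (by simpa only [sq, e, Ea] using hf.le) (by simpa only [sq, e, Ea] using hg.le)
  simp only [e] at this
  exact (le_abs_self _).trans this

theorem LW.of_le (hg : LW ω g A) (h : ∀ u v, ω u v ≠ 0 → |f u v| ≤ g u v) : LW ω f A :=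
  ⟨hg.nn, hg.symm, hg.pos, (Ea_mono' hg.nn fun u v h0 => by
    rw [← sq_abs]; exact pow_le_pow_left₀ (abs_nonneg _) (h u v h0) 2).trans hg.le⟩

theorem LW.mono (hf : LW ω f A) (h : A ≤ A') : LW ω f A' :=
  ⟨hf.nn, hf.symm, hf.pos.trans h, hf.le.trans (pow_le_pow_left₀ hf.pos h 2)⟩

theorem LW.add (hf : LW ω f A) (hg : LW ω g A') : LW ω (fun u v => f u v + g u v) (A + A') := by
  refine ⟨hf.nn, hf.symm, add_nonneg hf.pos hg.pos, ?_⟩
  have h1 := hf.cs hg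
  have h2 := hf.le
  have h3 := hg.le
  simp only [add_sq, mul_assoc, Ea_add, Ea_const_mul]
  linarith

theorem LW.smul (hf : LW ω f A) {c : ℝ} (hc : 0 ≤ c) : LW ω (fun u v => c * f u v) (c * A) := by
  refine ⟨hf.nn, hf.symm, mul_nonneg hc hf.pos, ?_⟩
  simp only [mul_pow, Ea_const_mul]
  exact mul_le_mul_of_nonneg_left hf.le (sq_nonneg c)

theorem LW.swap (hf : LW ω f A) : LW ω (fun u v => f v u) A := by
  refine ⟨hf.nn, hf.symm, hf.pos, le_trans (le_of_eq ?_) hf.le⟩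
  unfold Ea
  rw [← av_swap]
  exact av_congr fun u v => by rw [hf.symm]

theorem LW.of_av (hw : Wt ω ϑ Ξ Ω t) (h1 : ϑ ≤ 1) (hA : 0 ≤ A)
    (h : av (fun u v => f u v ^ 2) ≤ A ^ 2) : LW ω f (2 * A) :=
  ⟨hw.nn, hw.symm, by positivity, (hw.Ea_le_two h1 fun _ _ => sq_nonneg _).trans (by
    nlinarith [sq_nonneg A])⟩

theorem av_sep (h0 : 0 < rr ι) {p q : ι → ℝ} {P Q : ℝ} (hq0 : ∀ u, 0 ≤ q u) (hP : 0 ≤ P)
    (hp : ∑ u, p u ≤ P * rr ι) (hq : ∑ u, q u ≤ Q * rr ι) (hf : ∀ u v, f u v ^ 2 ≤ p u * q v)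
    (hA : P * Q ≤ A ^ 2) : av (fun u v => f u v ^ 2) ≤ A ^ 2 := by
  refine (av_mono hf).trans ?_
  rw [av_prod]
  refine le_trans (mul_le_mul ((div_le_iff₀ h0).2 hp) ((div_le_iff₀ h0).2 hq)
    (div_nonneg (sum_nonneg fun u _ => hq0 u) h0.le) hP) hA

end LW

/-- `1 / t⁴ = r^(-1/2)` -/
noncomputable def si (t : ℝ) : ℝ := 1 / t ^ 4

/-- the error unit -/
noncomputable def EE (Λ ν t Ξ Ω : ℝ) : ℝ :=
  Ξ * (Λ ^ 2 * ν ^ 2 * si t) + Ω * (ν ^ 5 * si t ^ 4) + Λ ^ 4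

/-- `γ = β + 1` -/
def gam (B : Matrix ι ι ℝ) (u : ι) : ℝ := bet B u + 1

section num
variable (h : Reg B b Λ ν t ϑ)
include h

theorem si_pos : 0 < si t := by have := h.t0; unfold si; positivity
theorem L0 : 0 ≤ Λ := by linarith [h.L1]
theorem nu1 : 1 ≤ ν := h.L1.trans h.Lν
theorem nu0 : 0 ≤ ν := by linarith [nu1 h]
theorem th1 : ϑ ≤ 1 := by linarith [h.th1]
theorem t4_si : t ^ 4 * si t = 1 := by have := h.t0; unfold si; field_simp
theorem rr_si : rr ι * si t ^ 2 = 1 := by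
  have := h.t0; rw [← h.t8]; unfold si; field_simp
theorem rr_eq : rr ι = (t ^ 4) ^ 2 := by rw [← h.t8]; ring
theorem div_rr (x : ℝ) : x / rr ι = x * si t ^ 2 := by
  have := h.t0; rw [← h.t8]; unfold si; field_simp
theorem div_rr2 (x : ℝ) : x / rr ι ^ 2 = x * si t ^ 4 := by
  have := h.t0; rw [← h.t8]; unfold si; field_simp
theorem nu_si : ν * si t ≤ 1 :=
  (mul_le_mul_of_nonneg_right h.νt (si_pos h).le).trans (t4_si h).le
theorem si_le : si t ≤ 1 := (le_mul_of_one_le_left (si_pos h).le (nu1 h)).trans (nu_si h)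

theorem mon_le (a c e a' c' e' : ℕ) (ha : a ≤ a' := by norm_num) (he : e' ≤ e := by norm_num)
    (hc : c + e' ≤ c' + e := by norm_num) :
    Λ ^ a * ν ^ c * si t ^ e ≤ Λ ^ a' * ν ^ c' * si t ^ e' := by
  obtain ⟨k, rfl⟩ := Nat.exists_eq_add_of_le he
  have h0 := si_pos h
  have h1 := nu0 h
  have h2 := L0 h
  calc Λ ^ a * ν ^ c * si t ^ (e' + k) ≤ Λ ^ a' * ν ^ (c' + k) * si t ^ (e' + k) := by
        gcongr
        exacts [h.L1, nu1 h, by omega]
    _ = Λ ^ a' * ν ^ c' * si t ^ e' * (ν * si t) ^ k := by ring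
    _ ≤ _ := mul_le_of_le_one_right (by positivity) (pow_le_one₀ (by positivity) (nu_si h))

variable (hw : Wt ω ϑ Ξ Ω t)
include hw

theorem Om0 : 0 ≤ Ω := le_trans (by have := h.t0; positivity) hw.Om

theorem eXi (a c e : ℕ) (ha : a ≤ 2 := by norm_num) (he : 1 ≤ e := by norm_num)
    (hc : c + 1 ≤ 2 + e := by norm_num) :
    Ξ * (Λ ^ a * ν ^ c * si t ^ e) ≤ EE Λ ν t Ξ Ω := by
  have h0 := si_pos h
  have h1 := nu0 h
  have h2 := Om0 h hw
  have h3 := mul_le_mul_of_nonneg_left (mon_le h a c e 2 2 1 ha he hc) (zero_le_one.trans hw.Xi1)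
  rw [pow_one] at h3
  have h4 : 0 ≤ Ω * (ν ^ 5 * si t ^ 4) + Λ ^ 4 := by positivity
  unfold EE
  linarith

theorem e4 (a c e : ℕ) (ha : a ≤ 2 := by norm_num) (he : 1 ≤ e := by norm_num)
    (hc : c + 1 ≤ 2 + e := by norm_num) :
    Λ ^ a * ν ^ c * si t ^ e ≤ EE Λ ν t Ξ Ω := by
  have h0 := si_pos h
  have h1 := nu0 h
  have h2 := L0 h
  exact (le_mul_of_one_le_left (by positivity) hw.Xi1).trans (eXi h hw a c e ha he hc)

theorem eOm : Ω * (ν ^ 5 * si t ^ 4) ≤ EE Λ ν t Ξ Ω := by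
  have h0 := si_pos h
  have h1 := hw.Xi1
  have h4 : 0 ≤ Ξ * (Λ ^ 2 * ν ^ 2 * si t) + Λ ^ 4 := by positivity
  unfold EE
  linarith

theorem e3 : ν ^ 5 * si t ^ 3 ≤ EE Λ ν t Ξ Ω := by
  have h0 := si_pos h
  have h1 := nu0 h
  refine le_trans ?_ (eOm h hw)
  calc ν ^ 5 * si t ^ 3 = t ^ 4 * si t * (ν ^ 5 * si t ^ 3) := by rw [t4_si h, one_mul]
    _ = t ^ 4 * (ν ^ 5 * si t ^ 4) := by ring
    _ ≤ _ := mul_le_mul_of_nonneg_right hw.Om (by positivity)

theorem e3' : ν ^ 6 * si t ^ 4 ≤ EE Λ ν t Ξ Ω := by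
  have h1 := mon_le h 0 6 4 0 5 3
  have := e3 h hw
  linarith

theorem e5 (a : ℕ) (ha : a ≤ 4 := by norm_num) : Λ ^ a ≤ EE Λ ν t Ξ Ω := by
  have h0 := si_pos h
  have h1 := hw.Xi1
  have h2 := Om0 h hw
  have h3 := nu0 h
  have h4 : 0 ≤ Ξ * (Λ ^ 2 * ν ^ 2 * si t) + Ω * (ν ^ 5 * si t ^ 4) := by positivity
  have := pow_le_pow_right₀ h.L1 ha
  unfold EE
  linarith

end num

section atoms
variable (h : Reg B b Λ ν t ϑ)
include h

theorem s2 : (B * B).IsSymm := by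
  simp [Matrix.IsSymm, Matrix.transpose_mul, h.symm.eq]
theorem s3 : (B * B * B).IsSymm := by
  simp [Matrix.IsSymm, Matrix.transpose_mul, h.symm.eq, Matrix.mul_assoc]
theorem s4 : (B * B * B * B).IsSymm := by
  simp [Matrix.IsSymm, Matrix.transpose_mul, h.symm.eq, Matrix.mul_assoc]
theorem s5 : (B * B * B * B * B).IsSymm := by
  simp [Matrix.IsSymm, Matrix.transpose_mul, h.symm.eq, Matrix.mul_assoc]

theorem gam1 (u : ι) : 1 ≤ gam B u := le_add_of_nonneg_left (bet_nonneg h.symm u)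
theorem gam0 (u : ι) : 0 ≤ gam B u := zero_le_one.trans (gam1 h u)
theorem bet_le (u : ι) : bet B u ≤ gam B u := le_add_of_nonneg_right zero_le_one
theorem d_sq (u : ι) : |B u u| * |B u u| ≤ gam B u := by
  rw [abs_mul_abs_self, ← sq]; exact (sq_le_bet h.symm u u).trans (bet_le h u)
theorem d_sqL (u : ι) : |B u u| ^ 2 ≤ Λ := by rw [sq_abs]; exact h.ent u u
theorem gam_le (u : ι) : gam B u ≤ 2 * Λ * t ^ 4 := by
  have h1 := h.bet_le u
  have h2 : 1 ≤ Λ * t ^ 4 := one_le_mul_of_one_le_of_one_le h.L1 ((nu1 h).trans h.νt)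
  unfold gam; linarith
theorem sum_gam2 : ∑ u, gam B u ^ 2 ≤ 4 * Λ * rr ι := by
  have h1 : ∑ u, gam B u ^ 2 ≤ ∑ u, (2 * bet B u ^ 2 + 2) :=
    sum_le_sum fun u _ => by unfold gam; nlinarith [sq_nonneg (bet B u - 1)]
  rw [sum_add_distrib, ← mul_sum, sum_const, card_univ, nsmul_eq_mul] at h1
  have h2 := h.w
  have h3 : rr ι ≤ Λ * rr ι := le_mul_of_one_le_left h.rpos.le h.L1
  unfold ww rr at *
  linarith
theorem gam_sq_le (u : ι) : gam B u ^ 2 ≤ 4 * Λ * rr ι :=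
  (single_le_sum (f := fun u => gam B u ^ 2) (fun _ _ => sq_nonneg _) (mem_univ u)).trans
    (sum_gam2 h)
theorem sum_d2 : ∑ u, |B u u| ^ 2 ≤ Λ * si t ^ 2 * rr ι := by
  rw [mul_assoc, mul_comm (si t ^ 2), rr_si h, mul_one]
  simp only [sq_abs]
  exact h.d
theorem sum_one : ∑ _u : ι, (1 : ℝ) ≤ 1 * rr ι := by simp [rr]

omit h in
theorem sum_mul_le {p q : ι → ℝ} {M S : ℝ} (hM : 0 ≤ M) (hq : ∀ u, 0 ≤ q u) (hp : ∀ u, p u ≤ M)
    (hS : ∑ u, q u ≤ S * rr ι) : ∑ u, p u * q u ≤ M * S * rr ι := by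
  refine (sum_le_sum fun u _ => mul_le_mul_of_nonneg_right (hp u) (hq u)).trans ?_
  rw [← mul_sum, mul_assoc]
  exact mul_le_mul_of_nonneg_left hS hM

theorem b2_le (u : ι) : |(B * B) u u| ≤ gam B u := by
  change |bet B u| ≤ _
  rw [abs_of_nonneg (bet_nonneg h.symm u)]; exact bet_le h u
theorem b3_le (u : ι) : |(B * B * B) u u| ≤ ν * gam B u :=
  (word_diag_le h.symm (nu0 h) h.op u).trans (mul_le_mul_of_nonneg_left (bet_le h u) (nu0 h))
theorem b4_le (u : ι) : |(B * B * B * B) u u| ≤ ν ^ 2 * gam B u := by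
  have h0 := nu0 h
  have := word_diag_le h.symm (by positivity) (h.op.mul h.op) u
  rw [← Matrix.mul_assoc, ← sq ν] at this
  exact this.trans (mul_le_mul_of_nonneg_left (bet_le h u) (sq_nonneg ν))
theorem b5_le (u : ι) : |(B * B * B * B * B) u u| ≤ ν ^ 3 * gam B u := by
  have h0 := nu0 h
  have := word_diag_le h.symm (by positivity) ((h.op.mul h.op).mul h.op) u
  rw [← Matrix.mul_assoc, ← Matrix.mul_assoc, show ν * ν * ν = ν ^ 3 by ring] at this
  exact this.trans (mul_le_mul_of_nonneg_left (bet_le h u) (by positivity))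
omit h in
theorem b4_eq (u : ι) : (B * B * B * B) u u = bet (B * B) u := by
  simp only [bet, Matrix.mul_assoc]
theorem b4_nonneg (u : ι) : 0 ≤ (B * B * B * B) u u := by
  rw [b4_eq]; exact bet_nonneg (s2 h) u
theorem b5_le' (u : ι) : |(B * B * B * B * B) u u| ≤ ν * (B * B * B * B) u u := by
  have := word_diag_le (s2 h) (nu0 h) h.op u
  rwa [← Matrix.mul_assoc, ← b4_eq] at this
theorem c2_sq (u v : ι) : |(B * B) u v| ^ 2 ≤ gam B u * gam B v := by
  rw [sq_abs]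
  exact (mul_sq_le h.symm h.symm u v).trans
    (mul_le_mul (bet_le h u) (bet_le h v) (bet_nonneg h.symm v) (gam0 h u))
theorem c3_sq (u v : ι) : |(B * B * B) u v| ^ 2 ≤ ν ^ 2 * (gam B u * gam B v) := by
  rw [sq_abs]
  exact (word_sq_le h.symm h.symm h.op u v).trans (mul_le_mul_of_nonneg_left
    (mul_le_mul (bet_le h u) (bet_le h v) (bet_nonneg h.symm v) (gam0 h u)) (sq_nonneg ν))
theorem fro2 : fro (B * B) ≤ (ν ^ 2) ^ 2 := by
  rw [fro_sq_eq_t4 h.symm, ← pow_mul]; exact h.t4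
theorem fro3 : fro (B * B * B) ≤ (ν ^ 3) ^ 2 :=
  (fro_mul_right h.op).trans ((mul_le_mul_of_nonneg_left (fro2 h) (sq_nonneg ν)).trans
    (le_of_eq (by ring)))
theorem fro4 : fro (B * B * B * B) ≤ (ν ^ 4) ^ 2 :=
  (fro_mul_right h.op).trans ((mul_le_mul_of_nonneg_left (fro3 h) (sq_nonneg ν)).trans
    (le_of_eq (by ring)))

theorem av_dg : av (fun u v => (|B v v| * gam B u) ^ 2) ≤ (2 * (Λ * si t)) ^ 2 :=
  av_sep h.rpos (fun _ => sq_nonneg _) (by have := L0 h; positivity) (sum_gam2 h) (sum_d2 h)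
    (fun u v => le_of_eq (by ring)) (le_of_eq (by ring))

theorem av_gg : av (fun u v => (gam B u * gam B v) ^ 2) ≤ (4 * Λ) ^ 2 :=
  av_sep h.rpos (fun _ => sq_nonneg _) (by have := L0 h; positivity) (sum_gam2 h) (sum_gam2 h)
    (fun u v => le_of_eq (by ring)) (le_of_eq (by ring))

variable (hw : Wt ω ϑ Ξ Ω t)
include hw

theorem lw_fro {M : Matrix ι ι ℝ} {A : ℝ} (hA : 0 ≤ A) (hM : fro M ≤ A ^ 2) :
    LW ω (fun u v => |M u v|) (2 * (A * si t ^ 2)) := by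
  have h0 := si_pos h
  refine LW.of_av hw (th1 h) (by positivity) ?_
  simp only [sq_abs]
  refine (av_sq_eq_fro M).le.trans ?_
  rw [div_rr2 h]
  exact (mul_le_mul_of_nonneg_right hM (by positivity)).trans (le_of_eq (by ring))

theorem lw_c2 : LW ω (fun u v => |(B * B) u v|) (2 * (ν ^ 2 * si t ^ 2)) :=
  lw_fro h hw (sq_nonneg ν) (fro2 h)
theorem lw_c3 : LW ω (fun u v => |(B * B * B) u v|) (2 * (ν ^ 3 * si t ^ 2)) :=
  lw_fro h hw (pow_nonneg (nu0 h) 3) (fro3 h)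
theorem lw_c4 : LW ω (fun u v => |(B * B * B * B) u v|) (2 * (ν ^ 4 * si t ^ 2)) :=
  lw_fro h hw (pow_nonneg (nu0 h) 4) (fro4 h)
theorem lw_c : LW ω (fun u v => |B u v|) (4 * si t) := by
  have := lw_fro h hw (M := B) (A := 2 * t ^ 4) (by positivity) (by
    rw [fro_eq_t2 h.symm]; exact h.f2'.trans (le_of_eq (by ring)))
  refine this.mono (le_of_eq ?_)
  calc 2 * (2 * t ^ 4 * si t ^ 2) = 4 * si t * (t ^ 4 * si t) := by ring
    _ = _ := by rw [t4_si h, mul_one]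

theorem lw_d : LW ω (fun u _ => |B u u|) (2 * (Λ * si t)) := by
  have h0 := si_pos h
  have h1 := L0 h
  refine LW.of_av hw (th1 h) (by positivity) (av_sep h.rpos (fun _ => zero_le_one) (by positivity)
    (sum_d2 h) (sum_one h) (fun u v => le_of_eq (by ring)) ?_)
  have := mon_le h 1 0 2 2 0 2
  linarith

theorem lw_g : LW ω (fun u _ => gam B u) (4 * Λ) := by
  have h1 := h.L1
  exact (LW.of_av (A := 2 * Λ) hw (th1 h) (by positivity) (av_sep h.rpos (fun _ => zero_le_one)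
    (by positivity) (sum_gam2 h) (sum_one h) (fun u v => le_of_eq (by ring))
    (by nlinarith))).mono (by linarith)

theorem lw_dg : LW ω (fun u v => |B v v| * gam B u) (4 * (Λ * si t)) := by
  have h0 := si_pos h
  have h1 := L0 h
  exact (LW.of_av hw (th1 h) (by positivity) (av_dg h)).mono (by linarith)

theorem lw_gg : LW ω (fun u v => gam B u * gam B v) (8 * Λ) := by
  have h1 := L0 h
  exact (LW.of_av hw (th1 h) (by positivity) (av_gg h)).mono (by linarith)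

theorem lw_dg' : LW ω (fun u _ => |B u u| * gam B u) (4 * Λ) := by
  have h0 := si_pos h
  have h1 := L0 h
  have h2 := h.rpos
  refine (LW.of_av (A := 2 * Λ) hw (th1 h) (by positivity) (av_sep h.rpos (fun _ => zero_le_one)
    (by positivity) (sum_mul_le (by positivity) (fun _ => sq_nonneg _) (gam_sq_le h) (sum_d2 h))
    (sum_one h) (fun u v => le_of_eq (by ring)) (le_of_eq ?_))).mono (by linarith)
  calc 4 * Λ * rr ι * (Λ * si t ^ 2) * 1 = (2 * Λ) ^ 2 * (rr ι * si t ^ 2) := by ring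
    _ = _ := by rw [rr_si h, mul_one]

theorem lw_dg2 : LW ω (fun u v => (|B v v| * gam B u) ^ 2) (8 * Λ ^ 2) := by
  have h0 := si_pos h
  have h1 := L0 h
  have h2 := h.rpos
  refine (LW.of_av (A := 4 * Λ ^ 2) hw (th1 h) (by positivity) (av_sep h.rpos
    (fun _ => mul_nonneg (sq_nonneg _) (sq_nonneg _)) (by positivity)
    (sum_mul_le (by positivity) (fun _ => sq_nonneg _) (gam_sq_le h) (sum_gam2 h))
    (sum_mul_le h1 (fun _ => sq_nonneg _) (d_sqL h) (sum_d2 h))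
    (fun u v => le_of_eq (by ring)) (le_of_eq ?_))).mono (by linarith)
  calc 4 * Λ * rr ι * (4 * Λ) * (Λ * (Λ * si t ^ 2)) = (4 * Λ ^ 2) ^ 2 * (rr ι * si t ^ 2) := by
        ring
    _ = _ := by rw [rr_si h, mul_one]

theorem lw_half {f : ι → ι → ℝ} {M : ℝ} (hM : 0 ≤ M)
    (hf : ∀ u v, f u v ^ 2 ≤ M ^ 2 * (gam B u * gam B v)) :
    LW ω (fun u v => |B v v| * gam B u * f u v) (8 * (M * Λ ^ 2)) := by
  have h0 := si_pos h
  have h1 := L0 h
  have h2 := h.t0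
  refine (LW.of_av (A := 4 * (M * Λ ^ 2)) hw (th1 h) (by positivity) (av_sep h.rpos
    (fun u => mul_nonneg (gam0 h u) (sq_nonneg _)) (by positivity)
    (sum_mul_le (by positivity) (fun _ => sq_nonneg _)
      (fun u => mul_le_mul_of_nonneg_left (gam_le h u) (sq_nonneg M)) (sum_gam2 h))
    (sum_mul_le (by positivity) (fun _ => sq_nonneg _) (gam_le h) (sum_d2 h))
    (fun u v => ?_) (le_of_eq ?_))).mono (by linarith)
  · rw [mul_pow]
    exact (mul_le_mul_of_nonneg_left (hf u v) (sq_nonneg _)).trans (le_of_eq (by ring))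
  · calc M ^ 2 * (2 * Λ * t ^ 4) * (4 * Λ) * (2 * Λ * t ^ 4 * (Λ * si t ^ 2)) =
          (4 * (M * Λ ^ 2)) ^ 2 * (t ^ 4 * si t) ^ 2 := by ring
      _ = _ := by rw [t4_si h, one_pow, mul_one]

end atoms

end Crest.Agent.R62.T4
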