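import Crest.Agent.R62.T4Aux1

/-!
# R62/T4Aux2: the entries of the matrices `H_j` and their norms
-/

set_option autoImplicit false
set_option linter.unusedSectionVars false
open Finset Matrix

namespace Crest.Agent.R62.T4

variable {ι : Type} [Fintype ι] [DecidableEq ι]
variable {ω : ι → ι → ℝ} {B : Matrix ι ι ℝ} {b Λ ν t ϑ Ξ Ω ρ : ℝ}

/-- `K12` -/
noncomputable def kk (b : ℝ) (B : Matrix ι ι ℝ) (u v : ι) : ℝ := kap b B u v * (b - B u v)

/-- diagonal entry of `H` -/
noncomputable def xx (b : ℝ) (B M N : Matrix ι ι ℝ) (u v : ι) : ℝ :=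
  kap b B u v * B v v * (M u u - b * N u v) + kk b B u v * (M u v - b * N u u)

/-- off-diagonal entry of `H` without its main term -/
noncomputable def yr (b : ℝ) (B M N : Matrix ι ι ℝ) (u v : ι) : ℝ :=
  kap b B u v * B u u * (M u v - b * N u u) - kk b B u v * (b * N u v)

/-- off-diagonal entry of `H` -/
noncomputable def yy (b : ℝ) (B M N : Matrix ι ι ℝ) (u v : ι) : ℝ :=
  kk b B u v * M u u + yr b B M N u v

theorem kap_symm (hB : B.IsSymm) (u v : ι) : kap b B v u = kap b B u v := by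
  unfold kap; rw [hB.apply u v, mul_comm]

theorem kk_symm (hB : B.IsSymm) (u v : ι) : kk b B v u = kk b B u v := by
  unfold kk; rw [kap_symm hB, hB.apply u v]

theorem Hm_eq (hB : B.IsSymm) {w M N : Matrix ι ι ℝ} (hM : B * w * B = M) (hN : w * B = N)
    (sM : M.IsSymm) (sN : N.IsSymm) (u v : ι) :
    Hm b B w B u v = !![xx b B M N u v, yy b B M N v u; yy b B M N u v, xx b B M N v u] := by
  have e1 := sM.apply u v
  have e2 := sN.apply u v
  have e3 := kap_symm (b := b) hB u v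
  have e4 := hB.apply u v
  ext i j
  fin_cases i <;> fin_cases j
  · simp [Hm_00, hM, hN, xx, kk, e1, e2]
  · simp only [Fin.zero_eta, Fin.mk_one, Fin.isValue, Hm_01, hM, hN, of_apply, cons_val',
      cons_val_one, cons_val_zero, cons_val_fin_one, yy, yr, kk, e1, e2, e3, e4]
    ring
  · simp only [Fin.zero_eta, Fin.mk_one, Fin.isValue, Hm_10, hM, hN, of_apply, cons_val',
      cons_val_one, cons_val_zero, cons_val_fin_one, yy, yr, kk, e1, e2]
    ring
  · simp only [Fin.mk_one, Fin.isValue, Hm_11, hM, hN, of_apply, cons_val',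
      cons_val_one, cons_val_fin_one, xx, kk, e1, e2, e3, e4]
    ring

theorem abs_lin {k b x y : ℝ} (hk : |k| ≤ 11 / 10) (hb : |b| ≤ 2) :
    |k * (x - b * y)| ≤ 3 * (|x| + |y|) := by
  have h1 : |x - b * y| ≤ |x| + 2 * |y| := (abs_sub _ _).trans (by rw [abs_mul]; gcongr)
  rw [abs_mul]
  refine (mul_le_mul hk h1 (abs_nonneg _) (by norm_num)).trans ?_
  linarith [abs_nonneg x, abs_nonneg y]

section
variable (h : Reg B b Λ ν t ϑ) (ha : Adm ω B ϑ ρ)
include h ha

theorem kap_le {u v : ι} (h0 : ω u v ≠ 0) : |kap b B u v| ≤ 11 / 10 := by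
  obtain ⟨-, h1, h2, -⟩ := h.kap_bd (ha u v h0).1 (ha u v h0).2.1
  rwa [abs_of_pos h1]

theorem kk_le {u v : ι} (h0 : ω u v ≠ 0) : |kk b B u v| ≤ 11 / 10 :=
  (h.kap_bd (ha u v h0).1 (ha u v h0).2.1).2.2.2.2.2.1

theorem c_le {u v : ι} (h0 : ω u v ≠ 0) : |B u v| ≤ 1 := (ha u v h0).1.trans (th1 h)

theorem dd_le {u v : ι} (h0 : ω u v ≠ 0) : |B u u| * |B v v| ≤ 1 := by
  rw [← abs_mul]; exact (ha u v h0).2.1.trans (th1 h)

theorem xx_le (M N : Matrix ι ι ℝ) {u v : ι} (h0 : ω u v ≠ 0) : |xx b B M N u v| ≤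
    3 * (|B v v| * |M u u| + |B v v| * |N u v| + |M u v| + |N u u|) := by
  have h1 := abs_lin (x := M u u) (y := N u v) (kap_le h ha h0) h.abs_b.2
  have h2 := abs_lin (x := M u v) (y := N u u) (kk_le h ha h0) h.abs_b.2
  have h3 := mul_le_mul_of_nonneg_left h1 (abs_nonneg (B v v))
  unfold xx
  refine (abs_add_le _ _).trans ?_
  rw [mul_right_comm, abs_mul]
  linarith

theorem yr_le (M N : Matrix ι ι ℝ) {u v : ι} (h0 : ω u v ≠ 0) : |yr b B M N u v| ≤
    3 * (|N u v| + |B u u| * |M u v| + |B u u| * |N u u|) := by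
  have h1 := abs_lin (x := M u v) (y := N u u) (kap_le h ha h0) h.abs_b.2
  have h2 := abs_lin (x := 0) (y := N u v) (kk_le h ha h0) h.abs_b.2
  rw [zero_sub, mul_neg, abs_neg, abs_zero, zero_add] at h2
  have h3 := mul_le_mul_of_nonneg_left h1 (abs_nonneg (B u u))
  unfold yr
  refine (abs_sub _ _).trans ?_
  rw [mul_right_comm, abs_mul]
  linarith

theorem yy_le (M N : Matrix ι ι ℝ) {u v : ι} (h0 : ω u v ≠ 0) : |yy b B M N u v| ≤
    3 * (|M u u| + |N u v| + |B u u| * |M u v| + |B u u| * |N u u|) := by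
  have h1 := yr_le h ha M N h0
  have h2 := mul_le_mul_of_nonneg_right (kk_le h ha h0) (abs_nonneg (M u u))
  unfold yy
  refine (abs_add_le _ _).trans ?_
  rw [abs_mul]
  linarith [abs_nonneg (M u u)]

theorem x0_le {u v : ι} (h0 : ω u v ≠ 0) : |xx b B (B * B) B u v| ≤
    6 * (|B v v| * gam B u + |(B * B) u v| + |B u u|) := by
  have h1 := xx_le h ha (B * B) B h0
  have h2 := mul_le_mul_of_nonneg_left (b2_le h u) (abs_nonneg (B v v))
  have h3 := mul_le_mul_of_nonneg_left ((c_le h ha h0).trans (gam1 h u)) (abs_nonneg (B v v))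
  linarith [abs_nonneg ((B * B) u v), abs_nonneg (B u u)]

theorem y0_le {u v : ι} (h0 : ω u v ≠ 0) : |yy b B (B * B) B u v| ≤
    9 * (gam B u + |B u u| * |(B * B) u v|) := by
  have h1 := yy_le h ha (B * B) B h0
  have h2 := b2_le h u
  have h3 := (c_le h ha h0).trans (gam1 h u)
  have h4 := d_sq h u
  linarith [mul_nonneg (abs_nonneg (B u u)) (abs_nonneg ((B * B) u v))]

theorem y1_le {u v : ι} (h0 : ω u v ≠ 0) : |yy b B (B * B * B) (B * B) u v| ≤
    6 * (ν * gam B u + |(B * B) u v| + |B u u| * |(B * B * B) u v|) := by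
  have h1 := yy_le h ha (B * B * B) (B * B) h0
  have h2 := b3_le h u
  have h3 := mul_le_mul ((h.abs_ent u u).trans h.Lν) (b2_le h u) (abs_nonneg _) (nu0 h)
  linarith [mul_nonneg (abs_nonneg (B u u)) (abs_nonneg ((B * B * B) u v)),
    abs_nonneg ((B * B) u v)]

variable (hw : Wt ω ϑ Ξ Ω t)
include hw

omit h ha in
theorem ne_swap {u v : ι} (h0 : ω u v ≠ 0) : ω v u ≠ 0 := by rwa [hw.symm]

theorem lw_x0 : LW ω (xx b B (B * B) B) (48 * (ν * si t)) := by
  refine (((((lw_dg h hw).add (lw_c2 h hw)).add (lw_d h hw)).smul (c := 6) (by norm_num)).of_le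
    fun u v h0 => x0_le h ha h0).mono ?_
  have h1 := mul_le_mul_of_nonneg_right h.Lν (si_pos h).le
  have h2 := mon_le h 0 2 2 0 1 1
  linarith

theorem lw_x0sq : LW ω (fun u v => xx b B (B * B) B u v ^ 2) (1836 * Λ ^ 2) := by
  have h1 : LW ω (fun _ _ => Λ) Λ :=
    ⟨hw.nn, hw.symm, L0 h, (hw.Ea_const h.rpos _).le⟩
  refine (((((lw_dg2 h hw).add (lw_gg h hw)).add h1).smul (c := 108) (by norm_num)).of_le
    fun u v h0 => ?_).mono ?_
  · rw [abs_pow]
    refine (pow_le_pow_left₀ (abs_nonneg _) (x0_le h ha h0) 2).trans ?_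
    have h2 := c2_sq h u v
    have h3 := d_sqL h u
    generalize |B v v| * gam B u = x at *
    generalize |(B * B) u v| = y at *
    generalize |B u u| = z at *
    nlinarith [sq_nonneg (x - y), sq_nonneg (x - z), sq_nonneg (y - z)]
  · have := h.L1
    nlinarith

theorem lw_x1 : LW ω (xx b B (B * B * B) (B * B)) (30 * (Λ + ν ^ 3 * si t ^ 2)) := by
  refine (((((((lw_dg h hw).smul (nu0 h)).add ((lw_c2 h hw).smul (L0 h))).add (lw_c3 h hw)).add
    (lw_g h hw)).smul (c := 3) (by norm_num)).of_le fun u v h0 => ?_).mono ?_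
  · have h1 := xx_le h ha (B * B * B) (B * B) h0
    have h2 := mul_le_mul_of_nonneg_left (b3_le h u) (abs_nonneg (B v v))
    have h3 := mul_le_mul_of_nonneg_right (h.abs_ent v v) (abs_nonneg ((B * B) u v))
    have h4 := b2_le h u
    linarith
  · have h1 := mon_le h 1 1 1 1 0 0
    have h2 := mon_le h 1 2 2 1 0 0
    have h3 : 0 ≤ ν ^ 3 * si t ^ 2 := by have := nu0 h; positivity
    linarith

theorem lw_x2 : LW ω (xx b B (B * B * B * B) (B * B * B)) (30 * (Λ * ν + ν ^ 4 * si t ^ 2)) := by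
  refine (((((((lw_dg h hw).smul (sq_nonneg ν)).add ((lw_c3 h hw).smul (L0 h))).add
    (lw_c4 h hw)).add ((lw_g h hw).smul (nu0 h))).smul (c := 3) (by norm_num)).of_le
    fun u v h0 => ?_).mono ?_
  · have h1 := xx_le h ha (B * B * B * B) (B * B * B) h0
    have h2 := mul_le_mul_of_nonneg_left (b4_le h u) (abs_nonneg (B v v))
    have h3 := mul_le_mul_of_nonneg_right (h.abs_ent v v) (abs_nonneg ((B * B * B) u v))
    have h4 := b3_le h u
    linarith
  · have h1 := mon_le h 1 2 1 1 1 0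
    have h2 := mon_le h 1 3 2 1 1 0
    have h3 : 0 ≤ ν ^ 4 * si t ^ 2 := by positivity
    linarith

omit ha in
theorem lw_h2 : LW ω (fun u v => |B v v| * gam B u * |(B * B) u v|) (8 * Λ ^ 2) := by
  have := lw_half h hw (f := fun u v => |(B * B) u v|) zero_le_one
    fun u v => by rw [one_pow, one_mul]; exact c2_sq h u v
  rwa [one_mul] at this

omit ha in
theorem lw_h3 : LW ω (fun u v => |B v v| * gam B u * |(B * B * B) u v|) (8 * (ν * Λ ^ 2)) :=
  lw_half h hw (f := fun u v => |(B * B * B) u v|) (nu0 h) (c3_sq h)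

theorem lw_yy : LW ω (fun u v => yy b B (B * B) B u v * yy b B (B * B) B v u) (2592 * Λ ^ 2) := by
  refine ((((((lw_gg h hw).add (lw_h2 h hw)).add (lw_h2 h hw).swap).add (lw_gg h hw)).smul
    (c := 81) (by norm_num)).of_le fun u v h0 => ?_).mono ?_
  · rw [abs_mul]
    refine (mul_le_mul (y0_le h ha h0) (y0_le h ha (ne_swap hw h0)) (abs_nonneg _)
      ((abs_nonneg _).trans (y0_le h ha h0))).trans ?_
    have h1 := mul_le_mul (dd_le h ha h0) (c2_sq h u v) (sq_nonneg _) zero_le_one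
    rw [(s2 h).apply u v]
    linarith
  · have := h.L1
    nlinarith

theorem lw_y01 : LW ω (fun u v => yy b B (B * B) B v u * yy b B (B * B * B) (B * B) u v)
    (2376 * (ν * Λ ^ 2)) := by
  have hL := L0 h
  have hν := nu0 h
  have ht := h.t0
  refine (((((((((lw_gg h hw).smul hν).add ((lw_c2 h hw).smul (c := 2 * Λ * t ^ 4)
    (by positivity))).add (lw_h3 h hw).swap).add ((lw_h2 h hw).smul hν)).add
    ((lw_gg h hw).smul hL)).add ((lw_gg h hw).smul hν)).smul
    (c := 54) (by norm_num)).of_le fun u v h0 => ?_).mono ?_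
  · rw [abs_mul]
    refine (mul_le_mul (y0_le h ha (ne_swap hw h0)) (y1_le h ha h0) (abs_nonneg _)
      ((abs_nonneg _).trans (y0_le h ha (ne_swap hw h0)))).trans ?_
    have h1 := mul_le_mul_of_nonneg_right (gam_le h v) (abs_nonneg ((B * B) u v))
    have h2 := mul_le_mul (h.abs_ent v v) (c2_sq h u v) (sq_nonneg _) hL
    have hg := mul_nonneg (gam0 h u) (gam0 h v)
    have h3 : |(B * B) u v| * |(B * B * B) u v| ≤ ν * (gam B u * gam B v) :=
      (pow_le_pow_iff_left₀ (by positivity) (by positivity) two_ne_zero).1 (by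
        rw [mul_pow]
        exact (mul_le_mul (c2_sq h u v) (c3_sq h u v) (sq_nonneg _) hg).trans (le_of_eq (by ring)))
    have h4 := mul_le_mul (dd_le h ha h0) h3 (by positivity) zero_le_one
    rw [(s2 h).apply u v, (s3 h).apply u v]
    linarith
  · have h1 := mon_le h 1 1 0 2 1 0
    have h2 := mon_le h 2 0 0 2 1 0
    have h3 := mon_le h 1 2 1 2 1 0
    have h4 : 2 * Λ * t ^ 4 * (2 * (ν ^ 2 * si t ^ 2)) = 4 * (Λ * ν ^ 2 * si t) := by
      calc _ = 4 * (Λ * ν ^ 2 * si t) * (t ^ 4 * si t) := by ring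
        _ = _ := by rw [t4_si h, mul_one]
    rw [h4]
    linarith

end

end Crest.Agent.R62.T4
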