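import Crest.Agent.R62.T4Aux2

/-!
# R62/T4Aux3: the linear term `tr H3`
-/

set_option autoImplicit false
set_option linter.unusedSectionVars false
open Finset Matrix

namespace Crest.Agent.R62.T4

variable {ι : Type} [Fintype ι] [DecidableEq ι]
variable {ω : ι → ι → ℝ} {B : Matrix ι ι ℝ} {b Λ ν t ϑ Ξ Ω ρ : ℝ}
variable (h : Reg B b Λ ν t ϑ) (ha : Adm ω B ϑ ρ) (hw : Wt ω ϑ Ξ Ω t)

include h in
theorem inv_b : |1 / b| ≤ 1 := by
  rw [abs_div, abs_one]; exact (div_le_one (by linarith [h.abs_b.1])).2 h.abs_b.1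

include h in
theorem inv_b2 : |1 / b ^ 2| ≤ 1 := by
  have := h.b1
  rw [abs_of_nonneg (by positivity)]; exact (div_le_one (by linarith)).2 h.b1

include h in
theorem t4_nonneg : 0 ≤ t4 B := sum_nonneg fun u _ => b4_nonneg h u

include h hw

theorem zeta_sq {g : ι → ι → ℝ} {g0 C : ℝ}
    (hg : ∀ u v, ω u v ≠ 0 → |g u v - g0| ≤ C * (|B u v| + |B u u * B v v|)) :
    av (fun u v => (ω u v * (g u v - g0)) ^ 2) ≤ (8 * C * si t) ^ 2 := by
  refine (av_mono (g := fun u v => (2 * C) ^ 2 * (|B u v| + |B u u * B v v|) ^ 2)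
    fun u v => ?_).trans ?_
  · by_cases h0 : ω u v = 0
    · rw [h0, zero_mul, zero_pow two_ne_zero]; positivity
    · rw [← sq_abs, ← mul_pow, abs_mul, abs_of_nonneg (hw.nn u v), mul_assoc]
      exact pow_le_pow_left₀ (mul_nonneg (hw.nn u v) (abs_nonneg _))
        (mul_le_mul (by linarith [hw.le u v, th1 h]) (hg u v h0) (abs_nonneg _) zero_le_two) 2
  · rw [av_const_mul]
    refine (mul_le_mul_of_nonneg_left h.av_e (sq_nonneg _)).trans (le_of_eq ?_)
    unfold si; ring

theorem main_term {g F : ι → ι → ℝ} {g0 C A : ℝ} (hg0 : |g0| ≤ 1) (hC : 0 ≤ C)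
    (hg : ∀ u v, ω u v ≠ 0 → |g u v - g0| ≤ C * (|B u v| + |B u u * B v v|)) (hA : 0 ≤ A)
    (hF : av (fun u v => F u v ^ 2) ≤ A ^ 2) :
    Ea ω (fun u v => g u v * F u v) ≤ g0 * av F + (1 + 8 * C) * (Ξ * (si t * A)) := by
  have h0 := si_pos h
  have hΞ := hw.Xi1
  have ht := h.t0
  have h1 := abs_av_cs (by positivity) hA (hw.av_sq h.t0 h.t8) hF
  have h2 := (le_abs_self _).trans (abs_av_cs (by positivity) hA (zeta_sq h hw hg) hF)
  have h3 : g0 * av (fun u v => (ω u v - 1) * F u v) ≤ 1 * (Ξ / t ^ 4 * A) :=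
    (le_abs_self _).trans (by rw [abs_mul]; exact mul_le_mul hg0 h1 (abs_nonneg _) zero_le_one)
  have e : Ea ω (fun u v => g u v * F u v) = g0 * av F + g0 * av (fun u v => (ω u v - 1) * F u v) +
      av (fun u v => ω u v * (g u v - g0) * F u v) := by
    rw [← av_const_mul, ← av_const_mul, ← av_add, ← av_add]
    exact av_congr fun u v => by ring
  have h4 : 1 * (C * (si t * A)) ≤ Ξ * (C * (si t * A)) :=
    mul_le_mul_of_nonneg_right hΞ (by positivity)
  have h5 : Ξ / t ^ 4 = Ξ * si t := by unfold si; ring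
  rw [h5] at h3
  rw [e]
  linarith

include ha

theorem pA1 : Ea ω (fun u v => -(kk b B u v * b * (B * B * B * B) u u)) ≤
    -((1 - 56 * ϑ) * ((1 - ϑ) * (t4 B * si t ^ 2))) := by
  have h1 := hw.le_Ea_left (b4_nonneg h)
  rw [div_rr h] at h1
  have h2 : 0 ≤ 1 - 56 * ϑ := by linarith [h.th1]
  refine (hw.Ea_mono (g := fun u _ => -(1 - 56 * ϑ) * (B * B * B * B) u u) fun u v h0 => ?_).trans ?_
  · have h3 := (abs_le.1 (h.kap_bd (ha u v h0).1 (ha u v h0).2.1).2.2.2.2.2.2.1).1
    rw [neg_mul, neg_le_neg_iff]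
    exact mul_le_mul_of_nonneg_right (by unfold kk; linarith) (b4_nonneg h u)
  · rw [Ea_const_mul, neg_mul, neg_le_neg_iff]
    exact mul_le_mul_of_nonneg_left h1 h2

theorem pA2 : Ea ω (fun u v => kk b B u v * (B * B * B * B * B) u v) ≤ 129 * EE Λ ν t Ξ Ω := by
  have h0 := si_pos h
  have ht := h.t0
  have hΩ := Om0 h hw
  have hν := nu0 h
  have hz := zeta_sq h hw (g := kk b B) (g0 := 1 / b) (C := 14)
    fun u v h0 => (h.kap_bd (ha u v h0).1 (ha u v h0).2.1).2.2.2.2.1
  have hz2 : OpB (fun u v => ω u v * (kk b B u v - 1 / b)) (112 * t ^ 4) := by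
    refine OpB.of_fro ?_
    rw [av_sq_eq_fro, div_le_iff₀ (pow_pos h.rpos 2), rr_eq h] at hz
    refine hz.trans (le_of_eq ?_)
    calc _ = (112 * t ^ 4) ^ 2 * (t ^ 4 * si t) ^ 2 := by ring
      _ = _ := by rw [t4_si h, one_pow, mul_one]
  have hz3 := ((hw.op.const_mul (1 / b)).add hz2 (by positivity) (by positivity)).mono
    (Ω' := 113 * Ω) (by positivity) (by
      have := mul_le_mul_of_nonneg_right (inv_b h) hΩ
      linarith [hw.Om])
  have hn := hz3.nuclear (by positivity) (fun _ : ι => 1) (fun k u => (B * B) u k)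
    (fun k v => (B * (B * B)) v k) (fun k => ν * bet (B * B) k)
    (fun k => mul_nonneg hν (bet_nonneg (s2 h) k)) fun k => by
      have h1 := sum_row_mul_sq_le (s2 h) OpLe.one k
      have h2 := sum_row_mul_sq_le (s2 h) h.op k
      rw [Matrix.one_mul, one_pow, one_mul] at h1
      exact (mul_le_mul h1 h2 (sum_nonneg fun _ _ => sq_nonneg _) (bet_nonneg (s2 h) k)).trans
        (le_of_eq (by ring))
  have e1 : ∀ u v, ∑ k, 1 * (B * B) u k * (B * (B * B)) v k = (B * B * B * B * B) u v := by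
    intro u v
    rw [show B * B * B * B * B = B * B * (B * B * B) by simp only [Matrix.mul_assoc],
      Matrix.mul_apply]
    refine sum_congr rfl fun k _ => ?_
    rw [one_mul, ← Matrix.mul_assoc, (s3 h).apply k v]
  have e2 : ∑ k, |(1 : ℝ)| * (ν * bet (B * B) k) = ν * t4 B := by
    simp only [abs_one, one_mul, ← mul_sum, ← b4_eq]
    rfl
  simp only [e1, e2] at hn
  have hr := row_mul (row_mul (row_mul (row_mul h.row h.row) h.row) h.row) h.row
  have e3 := av_row hr fun _ => 1 / b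
  have e6 : Ea ω (fun u v => kk b B u v * (B * B * B * B * B) u v) =
      av (fun u v => 1 / b * (B * B * B * B * B) u v) + av fun u v => (1 / b * (ω u v - 1) +
        ω u v * (kk b B u v - 1 / b)) * (B * B * B * B * B) u v := by
    rw [← av_add]
    exact av_congr fun u v => by ring
  have hb : b ≠ 0 := fun hb => by have := h.b1; rw [hb] at this; norm_num at this
  have h5 : b * b * b * b * b * (∑ _u : ι, 1 / b) / rr ι ^ 2 ≤ 16 * EE Λ ν t Ξ Ω := by
    have hr0 := h.rpos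
    have : b * b * b * b * b * (∑ _u : ι, 1 / b) / rr ι ^ 2 = (b ^ 2) ^ 2 / rr ι := by
      rw [sum_const, card_univ, nsmul_eq_mul]
      change _ * (rr ι * _) / _ = _
      field_simp
    rw [this, div_rr h]
    have h6 := e4 h hw 0 0 2
    have h7 : (b ^ 2) ^ 2 * si t ^ 2 ≤ 4 ^ 2 * si t ^ 2 :=
      mul_le_mul_of_nonneg_right (pow_le_pow_left₀ (sq_nonneg b) h.b4 2) (sq_nonneg _)
    linarith
  have h8 : (av fun u v => (1 / b * (ω u v - 1) + ω u v * (kk b B u v - 1 / b)) *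
      (B * B * B * B * B) u v) ≤ 113 * EE Λ ν t Ξ Ω := by
    unfold av
    rw [div_rr2 h]
    refine (mul_le_mul_of_nonneg_right ((le_abs_self _).trans hn) (by positivity)).trans ?_
    have h9 : 113 * Ω * (ν * t4 B) * si t ^ 4 ≤ 113 * Ω * (ν * ν ^ 4) * si t ^ 4 := by
      gcongr; exact h.t4
    have := eOm h hw
    linarith
  rw [e6, e3]
  linarith

theorem pA3 : Ea ω (fun u v => kap b B u v * ((B * B * B * B * B) u u * B v v)) ≤
    |t1 B| * (ν ^ 5 * si t ^ 4) + 98 * EE Λ ν t Ξ Ω := by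
  have h0 := si_pos h
  have hν := nu0 h
  have hL := L0 h
  have hF : av (fun u v => ((B * B * B * B * B) u u * B v v) ^ 2) ≤
      (ν ^ 3 * (2 * (Λ * si t))) ^ 2 := by
    refine (av_mono (g := fun u v => (ν ^ 3) ^ 2 * (|B v v| * gam B u) ^ 2) fun u v => ?_).trans ?_
    · rw [← sq_abs, ← mul_pow, abs_mul]
      refine pow_le_pow_left₀ (by positivity) ?_ 2
      have := mul_le_mul_of_nonneg_right (b5_le h u) (abs_nonneg (B v v))
      linarith
    · rw [av_const_mul, mul_pow]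
      exact mul_le_mul_of_nonneg_left (av_dg h) (sq_nonneg _)
  have h1 := main_term h hw (g := kap b B) (C := 6) (inv_b2 h) (by norm_num)
    (fun u v h0 => (h.kap_bd (ha u v h0).1 (ha u v h0).2.1).2.2.2.1) (by positivity) hF
  have h2 : |∑ u, (B * B * B * B * B) u u| ≤ ν * ν ^ 4 := by
    refine (abs_sum_le_sum_abs _ _).trans ((sum_le_sum fun u _ => b5_le' h u).trans ?_)
    rw [← mul_sum]
    exact mul_le_mul_of_nonneg_left h.t4 hν
  have h3 : 1 / b ^ 2 * av (fun u v => (B * B * B * B * B) u u * B v v) ≤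
      1 * (ν * ν ^ 4 * si t ^ 2 * (|t1 B| * si t ^ 2)) := by
    refine (le_abs_self _).trans ?_
    rw [av_prod, div_rr h, div_rr h, abs_mul, abs_mul, abs_mul, abs_mul,
      abs_of_nonneg (sq_nonneg (si t)), show ∑ v, B v v = t1 B from rfl]
    gcongr
    exact inv_b2 h
  have h4 := eXi h hw 1 3 2
  linarith

theorem pA4 : Ea ω (fun u v => -(kap b B u v * B v v * (b * (B * B * B * B) u v))) ≤
    12 * EE Λ ν t Ξ Ω := by
  refine (hw.Ea_mono (g := fun u v => 3 * (|B v v| * |(B * B * B * B) u v|))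
    fun u v h0 => ?_).trans ?_
  · have h1 := abs_lin (x := 0) (y := (B * B * B * B) u v) (kap_le h ha h0) h.abs_b.2
    rw [zero_sub, mul_neg, abs_neg, abs_zero, zero_add] at h1
    have h2 := mul_le_mul_of_nonneg_left h1 (abs_nonneg (B v v))
    refine (neg_le_abs _).trans ?_
    rw [mul_right_comm, abs_mul]
    linarith
  · have h1 := (lw_d h hw).swap.cs (lw_c4 h hw)
    have h2 := e4 h hw 1 4 3
    rw [Ea_const_mul]
    linarith

theorem pA : Ea ω (xx b B (B * B * B * B * B) (B * B * B * B)) ≤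
    -((1 - 56 * ϑ) * ((1 - ϑ) * (t4 B * si t ^ 2))) + |t1 B| * (ν ^ 5 * si t ^ 4) +
      239 * EE Λ ν t Ξ Ω := by
  have h1 := pA1 h ha hw
  have h2 := pA2 h ha hw
  have h3 := pA3 h ha hw
  have h4 := pA4 h ha hw
  have e : Ea ω (xx b B (B * B * B * B * B) (B * B * B * B)) = _ + _ + _ + _ :=
    (Ea_congr (g := fun u v => -(kk b B u v * b * (B * B * B * B) u u) +
      kk b B u v * (B * B * B * B * B) u v + kap b B u v * ((B * B * B * B * B) u u * B v v) +
      -(kap b B u v * B v v * (b * (B * B * B * B) u v))) fun u v _ => by unfold xx; ring).trans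
      (by rw [Ea_add, Ea_add, Ea_add])
  rw [e]
  linarith

end Crest.Agent.R62.T4
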