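import Crest.Agent.R62.BFacts
import Crest.Agent.R62.Phi

/-!
# R62/TPhi: one step of the `φ` term (TASK)

If `r - 2 ≤ r4` the left side is `0`.  Otherwise let `y = -t1 B - A r`, `|y| ≤ 2σ` (`σ = sig = L^31979`), `Δ = t1' - t1`,
`y' = y - Δ - G r`; `E y'² = y² + 2 y (E(-Δ) - G) + E (Δ + G)²`.  By `drift_t1` and `h.gain`,
`E(-Δ) - G = 2 t1 ψ/(a² r²) + err`, `ψ = a² r - t2 ∈ [0, 2Ψ]`, `Ψ ≤ L rs`,
`|err| ≤ CC (Ξ Λ/r + ν²/t^12) + σ/(L r) ≤ (2 CC + 1) σ/(L r)`: `Ξ Λ L ≤ L^(1483+1188+1) ≤ σ`;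
`ν² L/t^4 = 4 L^96049/r ≤ 4 L^(96049-64072) ≤ σ`.
* `r ≤ r2`: `A r = 0`, `t1 = -y`, so `2 y · 2 t1 ψ/(a² r²) ≤ 0`.
* `r > r2`: `2 |t1| ψ/r² ≤ 8 L^(32241 + 1 + 64120)/r² ≤ σ/(L r)` as `r ≥ L^65240`.
Variance: `E (Δ+G)² ≤ 2 CC (ν^4/r² + Λ²/r) + 2 G²`; `ν^4 L/r = 16 L^192097/r² ≤ 16 L^63953 ≤ σ²`, `Λ² L ≤ σ²`;
`G ≠ 0` only for `r < 2 r2 + 2 ≤ 4 r2`, `G² L r ≤ 16 L^(64482+1)/L^65240 ≤ σ²`.

General remarks.  `h : Side ..` provides `h.reg, h.wt, h.adm` (hypotheses of the drift lemmas, with `ϑ = 1/L`,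
`Λ = Lam r`, `ν = nu r t`, `Ξ = Xi r`, `Ω = Om r t`), `h.bnd` (use the lemmas `Bnd.*` of `BFacts`), `h.ctx` (lemmas
`Ctx.*`, `Good.*` of `Facts`), `h.rr_eq : rr ι = r`, `h.b_sq`, `h.nonneg`.  `t^8 = r`; `CC = 10^12`, `C2 = 10^18`,
`L ≥ 10^80`, `L^96000 ≤ n ≤ 2 L^96000`.  Split into phases (`by_cases`), rewrite the weights with `if_pos/if_neg`,
use linearity of `Ea` (`Ea_add, Ea_const_mul, Wt.Ea_const, Wt.Ea_mono`), then check the monomial inequalities with the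
bounds on `t` (`Ctx.t_lo, t_mid, t_tilt, t_hi`) and `cpow_le`.  Prove each monomial inequality as a separate small
lemma about real numbers `L, t, ..` (never let `norm_num`/`nlinarith` see the huge exponents; `calc`, `gcongr`,
`div_le_iff₀`, `pow_le_pow_right₀`, `ring`).
-/

set_option autoImplicit false
set_option linter.unusedSectionVars false
open Finset Matrix

namespace Crest.Agent.R62

variable {ι : Type} [Fintype ι] [DecidableEq ι] {P : Par ℝ} {r : ℕ} {t b : ℝ}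
  {B B' : Matrix ι ι ℝ} {ω : ι → ι → ℝ}

theorem tphi_Xi_le (hg : P.Good) (r : ℕ) : P.Xi r ≤ (P.L : ℝ) ^ 1483 := by
  unfold Par.Xi; split_ifs
  · exact le_rfl
  · exact pow_le_pow_right₀ hg.L_one (by norm_num)

theorem tphi_Lam_le (hg : P.Good) (r : ℕ) : P.Lam r ≤ (P.L : ℝ) ^ 1188 := by
  unfold Par.Lam; split_ifs
  · exact le_rfl
  · exact pow_le_pow_right₀ hg.L_one (by norm_num)

theorem tphi_Lam_nonneg (r : ℕ) : 0 ≤ P.Lam r := by unfold Par.Lam; split_ifs <;> positivity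

theorem tphi_a {L R X Λ : ℝ} (hL : 1 ≤ L) (hR : 0 < R) (hΛ : 0 ≤ Λ) (h1 : X ≤ L ^ 1483)
    (h2 : Λ ≤ L ^ 1188) : X * Λ / R ≤ L ^ 31979 / (L * R) := by
  rw [div_le_div_iff₀ hR (by positivity)]
  calc X * Λ * (L * R) ≤ L ^ 1483 * L ^ 1188 * (L * R) := by gcongr
    _ = L ^ 2672 * R := by ring
    _ ≤ L ^ 31979 * R := by gcongr; norm_num

theorem tphi_b {L R t : ℝ} (hL : 1 ≤ L) (ht : 0 < t) (h8 : t ^ 8 = R) (hR : L ^ 64072 ≤ R) :
    (2 * L ^ 48024 / t ^ 2) ^ 2 / t ^ 12 ≤ 4 * (L ^ 31979 / (L * R)) := by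
  have hR0 : 0 < R := by rw [← h8]; positivity
  calc (2 * L ^ 48024 / t ^ 2) ^ 2 / t ^ 12 = 4 * (L ^ 96049 / (L * (t ^ 8 * t ^ 8))) := by
        field_simp; ring
    _ ≤ 4 * (L ^ 31979 * R / (L * (R * R))) := by
        rw [h8]
        gcongr
        calc L ^ 96049 ≤ L ^ 96051 := pow_le_pow_right₀ hL (by norm_num)
          _ = L ^ 31979 * L ^ 64072 := by ring
          _ ≤ _ := by gcongr
    _ = _ := by field_simp

theorem tphi_c {L R x ψ a : ℝ} (hL : 8 ≤ L) (hR : L ^ 65240 ≤ R) (hx : |x| ≤ 2 * L ^ 32241)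
    (h0 : 0 ≤ ψ) (h1 : ψ ≤ 2 * (L * L ^ 64120)) (ha : 1 ≤ a) :
    |-2 * x * ψ / (a * R ^ 2)| ≤ L ^ 31979 / (L * R) := by
  have hL1 : 1 ≤ L := by linarith
  have hR0 : 0 < R := lt_of_lt_of_le (by positivity) hR
  rw [abs_div, abs_mul, abs_mul, abs_of_nonneg h0, abs_of_nonneg (show 0 ≤ a * R ^ 2 by positivity),
    abs_neg, abs_two]
  calc 2 * |x| * ψ / (a * R ^ 2) ≤ 2 * (2 * L ^ 32241) * (2 * (L * L ^ 64120)) / (1 * R ^ 2) := by
        gcongr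
    _ = 8 * L ^ 96363 / (L * (R * R)) := by field_simp; ring
    _ ≤ L ^ 31979 * R / (L * (R * R)) := by
        gcongr ?_ / _
        calc 8 * L ^ 96363 ≤ L ^ 97219 := cpow_le hL1 hL (by norm_num)
          _ = L ^ 31979 * L ^ 65240 := by ring
          _ ≤ _ := by gcongr
    _ = _ := by field_simp

theorem tphi_d {L R t : ℝ} (hL : 16 ≤ L) (ht : 0 < t) (h8 : t ^ 8 = R) (hR : L ^ 64072 ≤ R) :
    (2 * L ^ 48024 / t ^ 2) ^ 4 / t ^ 16 ≤ (L ^ 31979) ^ 2 / (L * R) := by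
  have hL1 : 1 ≤ L := by linarith
  have hR0 : 0 < R := by rw [← h8]; positivity
  calc (2 * L ^ 48024 / t ^ 2) ^ 4 / t ^ 16 = 16 * L ^ 192097 / (L * (t ^ 8 * (t ^ 8) ^ 2)) := by
        field_simp; ring
    _ ≤ (L ^ 31979) ^ 2 * R ^ 2 / (L * (R * R ^ 2)) := by
        rw [h8]
        gcongr ?_ / _
        calc 16 * L ^ 192097 ≤ L ^ 192102 := cpow_le hL1 hL (by norm_num)
          _ = (L ^ 31979) ^ 2 * (L ^ 64072) ^ 2 := by ring
          _ ≤ _ := by gcongr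
    _ = _ := by field_simp

theorem tphi_e {L R Λ : ℝ} (hL : 1 ≤ L) (hR : 0 < R) (hΛ : 0 ≤ Λ) (h2 : Λ ≤ L ^ 1188) :
    Λ ^ 2 / R ≤ (L ^ 31979) ^ 2 / (L * R) := by
  rw [div_le_div_iff₀ hR (by positivity)]
  calc Λ ^ 2 * (L * R) ≤ (L ^ 1188) ^ 2 * (L * R) := by gcongr
    _ = L ^ 2377 * R := by ring
    _ ≤ L ^ 63958 * R := by gcongr; norm_num
    _ = _ := by ring

theorem tphi_f {L R G : ℝ} (hL : 16 ≤ L) (hR : 0 < R) (hR' : R ≤ 4 * L ^ 65240) (h0 : 0 ≤ G)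
    (h1 : G ≤ 2 * L ^ 32241 / L ^ 65240) : G ^ 2 ≤ (L ^ 31979) ^ 2 / (L * R) := by
  have hL1 : 1 ≤ L := by linarith
  rw [le_div_iff₀ (by positivity)]
  calc G ^ 2 * (L * R) ≤ (2 * L ^ 32241 / L ^ 65240) ^ 2 * (L * (4 * L ^ 65240)) := by gcongr
    _ = 16 * L ^ 64483 / L ^ 65240 := by field_simp; ring
    _ ≤ L ^ 63958 := by
        rw [div_le_iff₀ (by positivity)]
        calc 16 * L ^ 64483 ≤ L ^ 129198 := cpow_le hL1 hL (by norm_num)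
          _ = _ := by ring
    _ = _ := by ring

theorem tphi_core {E y eΔ G V M T σ X c : ℝ} (hσ : 0 < σ) (hX : 0 < X) (hc : 0 ≤ c)
    (hE : E ≤ y ^ 2 - 2 * y * (eΔ + G) + 2 * V + 2 * G ^ 2) (hy : |y| ≤ 2 * σ)
    (h1 : |eΔ - M - T| ≤ c * (5 * (σ / X))) (h2 : |T + G| ≤ σ / X)
    (h3 : -(y * M) ≤ 2 * σ * (σ / X)) (h4 : V ≤ c * (2 * (σ ^ 2 / X))) (h5 : G ^ 2 ≤ σ ^ 2 / X) :
    E / σ ^ 2 ≤ y ^ 2 / σ ^ 2 + (24 * c + 10) / X := by
  have h6 : -(y * (eΔ - M - T)) ≤ 2 * σ * (c * (5 * (σ / X))) := by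
    refine (neg_le_abs _).trans ?_
    rw [abs_mul]; gcongr
  have h7 : -(y * (T + G)) ≤ 2 * σ * (σ / X) := by
    refine (neg_le_abs _).trans ?_
    rw [abs_mul]; gcongr
  have e : σ * (σ / X) = σ ^ 2 / X := by ring
  have h8 : E ≤ y ^ 2 + (24 * c + 10) * (σ ^ 2 / X) := by
    have e1 : 2 * σ * (c * (5 * (σ / X))) = 10 * (c * (σ ^ 2 / X)) := by ring
    have e2 : 2 * σ * (σ / X) = 2 * (σ ^ 2 / X) := by ring
    have e3 : c * (2 * (σ ^ 2 / X)) = 2 * (c * (σ ^ 2 / X)) := by ring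
    have e4 : (24 * c + 10) * (σ ^ 2 / X) = 24 * (c * (σ ^ 2 / X)) + 10 * (σ ^ 2 / X) := by ring
    have e5 : y * (eΔ + G) = y * (eΔ - M - T) + y * (T + G) + y * M := by ring
    linarith
  calc E / σ ^ 2 ≤ (y ^ 2 + (24 * c + 10) * (σ ^ 2 / X)) / σ ^ 2 := by gcongr
    _ = _ := by field_simp

theorem term_phi (h : Side P r t B B' b ω) :
    Ea ω (fun u v => P.Uphi (r - 2) (t1 (upd b B u v))) ≤ P.Uphi r (t1 B) + C2 / (P.L * r) := by
  have hc := h.ctx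
  have hg := hc.good
  have hL := hg.L_one
  have hL16 : (16 : ℝ) ≤ P.L := le_trans (by norm_num) hg.L_big
  have hR : (1000 : ℝ) ≤ r := by exact_mod_cast hc.r_big
  have hR0 : (0 : ℝ) < r := by linarith
  have hrr : 0 < rr ι := h.reg.rpos
  have hC : 0 ≤ CC := by unfold CC; norm_num
  have hX : (0 : ℝ) < P.L * r := by positivity
  by_cases h2 : P.r4 < r - 2
  swap
  · simp only [Par.Uphi, if_neg h2]
    rw [h.wt.Ea_const hrr]
    have h0 := h.nonneg.1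
    have : 0 ≤ C2 / (P.L * r) := by unfold C2; positivity
    simp only [Par.Uphi] at h0
    linarith
  have h4 : P.r4 < r := by omega
  have hR4 : (P.L : ℝ) ^ 64072 ≤ r := by rw [← P.r4_cast]; exact_mod_cast h4.le
  have hν : P.nu r t = 2 * (P.L : ℝ) ^ 48024 / t ^ 2 := if_pos h4
  have e : Ea ω (fun u v => P.Uphi (r - 2) (t1 (upd b B u v))) =
      Ea ω (fun u v => (-t1 (upd b B u v) - P.A (r - 2)) ^ 2) / P.sig ^ 2 := by
    rw [div_eq_inv_mul, ← Ea_const_mul]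
    simp only [Par.Uphi, if_pos h2, div_eq_inv_mul]
  have hE : Ea ω (fun u v => (-t1 (upd b B u v) - P.A (r - 2)) ^ 2) ≤
      (-t1 B - P.A r) ^ 2 - 2 * (-t1 B - P.A r) *
        (Ea ω (fun u v => t1 (upd b B u v) - t1 B) + P.G r) +
      2 * Ea ω (fun u v => (t1 (upd b B u v) - t1 B) ^ 2) + 2 * P.G r ^ 2 := by
    have e1 : (-t1 B - P.A r) ^ 2 - 2 * (-t1 B - P.A r) *
        (Ea ω (fun u v => t1 (upd b B u v) - t1 B) + P.G r) +
        2 * Ea ω (fun u v => (t1 (upd b B u v) - t1 B) ^ 2) + 2 * P.G r ^ 2 =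
        Ea ω (fun u v => ((-t1 B - P.A r) ^ 2 - 2 * (-t1 B - P.A r) * P.G r + 2 * P.G r ^ 2) +
          (-2 * (-t1 B - P.A r) * (t1 (upd b B u v) - t1 B) +
            2 * (t1 (upd b B u v) - t1 B) ^ 2)) := by
      rw [Ea_add, h.wt.Ea_const hrr, Ea_add, Ea_const_mul, Ea_const_mul]; ring
    rw [e1]
    refine h.wt.Ea_mono fun u v _ => ?_
    have e2 : P.A (r - 2) = P.A r + P.G r := by unfold Par.G; ring
    rw [e2]
    nlinarith [sq_nonneg (t1 (upd b B u v) - t1 B - P.G r)]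
  have hd := drift_t1 h.reg h.wt h.adm
  have hv := var_t1 h.reg h.wt h.adm
  rw [h.rr_eq, h.b_sq, hc.t8] at hd
  rw [hc.t8] at hv
  have hψ := h.bnd.psi_range hc h4
  have hΛ := tphi_Lam_nonneg (P := P) r
  have hΛ' := tphi_Lam_le hg r
  rw [e, Par.Uphi, if_pos h4]
  refine (tphi_core (c := CC) (X := P.L * r) hg.sig_pos hX hC hE (h.bnd.phi_bd hc h4)
    (hd.trans ?_) (h.gain h4) ?_ (hv.trans ?_) ?_).trans ?_
  · refine mul_le_mul_of_nonneg_left ?_ hC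
    have h5 := tphi_a hL hR0 hΛ (tphi_Xi_le hg r) hΛ'
    have h6 := tphi_b hL hc.t0 hc.t8 hR4
    rw [hν, Par.sig]
    linarith
  · by_cases h5 : r ≤ P.r2
    · rw [hg.A_zero h5]
      have h6 : 0 ≤ 2 * P.sig * (P.sig / (P.L * r)) :=
        mul_nonneg (mul_nonneg zero_le_two hg.sig_pos.le) (div_nonneg hg.sig_pos.le hX.le)
      have h7 : 0 ≤ 2 * t1 B ^ 2 * (P.a ^ 2 * r - t2 B) / (P.a ^ 2 * (r : ℝ) ^ 2) :=
        div_nonneg (mul_nonneg (by positivity) hψ.1) (by positivity)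
      have e1 : (-t1 B - 0) * (-2 * t1 B * (P.a ^ 2 * r - t2 B) / (P.a ^ 2 * (r : ℝ) ^ 2)) =
          2 * t1 B ^ 2 * (P.a ^ 2 * r - t2 B) / (P.a ^ 2 * (r : ℝ) ^ 2) := by ring
      linarith
    · refine (neg_le_abs _).trans ?_
      rw [abs_mul]
      refine mul_le_mul (h.bnd.phi_bd hc h4) ?_ (abs_nonneg _) (mul_nonneg zero_le_two hg.sig_pos.le)
      refine tphi_c (by linarith) ?_ (h.bnd.t1_early hc h4) hψ.1 (hψ.2.trans ?_)
        (one_le_pow₀ hg.a1)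
      · rw [← P.r2_cast]; exact_mod_cast (not_le.1 h5).le
      · rw [← P.rs_cast]
        exact mul_le_mul_of_nonneg_left (hg.Psi_le' (by omega)) (by norm_num)
  · refine mul_le_mul_of_nonneg_left ?_ hC
    have h5 := tphi_d hL16 hc.t0 hc.t8 hR4
    have h6 := tphi_e hL hR0 hΛ hΛ'
    rw [hν, Par.sig]
    linarith
  · by_cases h5 : P.r2 < r ∧ r < 2 * P.r2 + 2
    · refine tphi_f hL16 hR0 ?_ (hg.G_nonneg r) ((hg.G_le r).trans ?_)
      · have h6 := hg.r3_lt_r2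
        rw [← P.r2_cast]
        exact_mod_cast (by omega : r ≤ 4 * P.r2)
      · rw [P.r2_cast]
        exact div_le_div_of_nonneg_right (mul_le_mul_of_nonneg_left hg.Th1 (by norm_num))
          (by positivity)
    · rw [hg.G_zero h5]
      have : 0 ≤ P.sig ^ 2 / (P.L * r) := div_nonneg (sq_nonneg _) hX.le
      simpa using this
  · gcongr
    unfold CC C2
    norm_num

end Crest.Agent.R62
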