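import Crest.Agent.R62.Api
import Crest.Agent.R62.Trace

/-!
# R62/WWAux1: real inequalities used for the drift of `ww`
-/

set_option autoImplicit false

namespace Crest.Agent.R62

theorem ww_sq_le {x : ℝ} (h : |x| ≤ 11 / 10) : x ^ 2 ≤ 121 / 100 := by
  have := abs_le.1 h
  nlinarith

theorem ww_z_sq {κ a δ x y : ℝ} (hκ : κ ^ 2 ≤ 121 / 100) (ha : a ^ 2 ≤ 121 / 100) :
    (κ * δ * x + a * y) ^ 2 ≤ 242 / 100 * (δ ^ 2 * x ^ 2 + y ^ 2) := by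
  have h1 : κ ^ 2 * (δ ^ 2 * x ^ 2) ≤ 121 / 100 * (δ ^ 2 * x ^ 2) :=
    mul_le_mul_of_nonneg_right hκ (by positivity)
  have h2 : a ^ 2 * y ^ 2 ≤ 121 / 100 * y ^ 2 := mul_le_mul_of_nonneg_right ha (by positivity)
  linarith [sq_nonneg (κ * δ * x - a * y)]

theorem ww_z_diff_sq {κ a δ x y : ℝ} (hκ : κ ^ 2 ≤ 121 / 100) (ha : a ^ 2 ≤ 121 / 100) :
    ((κ * δ * x + a * y) ^ 2 - a ^ 2 * y ^ 2) ^ 2 ≤
      12 * (δ ^ 4 * x ^ 4 + δ ^ 2 * x ^ 2 * y ^ 2) := by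
  have h1 : (κ * δ * x) ^ 2 ≤ 121 / 100 * (δ ^ 2 * x ^ 2) := by
    have := mul_le_mul_of_nonneg_right hκ (by positivity : 0 ≤ δ ^ 2 * x ^ 2)
    linarith [show (κ * δ * x) ^ 2 = κ ^ 2 * (δ ^ 2 * x ^ 2) by ring]
  have h2 : a ^ 2 * y ^ 2 ≤ 121 / 100 * y ^ 2 := mul_le_mul_of_nonneg_right ha (by positivity)
  have h3 : (κ * δ * x + 2 * (a * y)) ^ 2 ≤ 242 / 100 * (δ ^ 2 * x ^ 2) + 968 / 100 * y ^ 2 := by
    linarith [sq_nonneg (κ * δ * x - 2 * (a * y))]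
  have h4 := mul_le_mul h1 h3 (sq_nonneg _) (by positivity)
  have h5 : 0 ≤ δ ^ 4 * x ^ 4 := by positivity
  have h6 : 0 ≤ δ ^ 2 * x ^ 2 * y ^ 2 := by positivity
  calc _ = (κ * δ * x) ^ 2 * (κ * δ * x + 2 * (a * y)) ^ 2 := by ring
    _ ≤ _ := h4
    _ = 29282 / 10000 * (δ ^ 4 * x ^ 4) + 117128 / 10000 * (δ ^ 2 * x ^ 2 * y ^ 2) := by ring
    _ ≤ _ := by linarith

theorem ww_zz_sq {κ a δ δ' x y : ℝ} (hκ : κ ^ 2 ≤ 121 / 100) (ha : a ^ 2 ≤ 121 / 100)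
    (hδ : (δ' * δ) ^ 2 ≤ 1) :
    (κ * δ * x + a * y) ^ 2 * (κ * δ' * y + a * x) ^ 2 ≤
      6 * (2 * (x ^ 2 * y ^ 2) + δ ^ 2 * x ^ 4 + δ' ^ 2 * y ^ 4) := by
  have h4 := mul_le_mul (ww_z_sq (δ := δ) (x := x) (y := y) hκ ha)
    (ww_z_sq (δ := δ') (x := y) (y := x) hκ ha) (sq_nonneg _) (by positivity)
  have h1 : (δ' * δ) ^ 2 * (x ^ 2 * y ^ 2) ≤ 1 * (x ^ 2 * y ^ 2) :=
    mul_le_mul_of_nonneg_right hδ (by positivity)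
  have h5 : 0 ≤ x ^ 2 * y ^ 2 := by positivity
  have h6 : 0 ≤ δ ^ 2 * x ^ 4 := by positivity
  have h7 : 0 ≤ δ' ^ 2 * y ^ 4 := by positivity
  calc _ ≤ _ := h4
    _ = 58564 / 10000 * ((δ' * δ) ^ 2 * (x ^ 2 * y ^ 2) + x ^ 2 * y ^ 2 + δ ^ 2 * x ^ 4
        + δ' ^ 2 * y ^ 4) := by ring
    _ ≤ _ := by linarith

theorem ww_abs_sub {β s : ℝ} (hβ : 0 ≤ β) (h0 : 0 ≤ s) (h4 : s ≤ 4) : |β - s| ≤ β + 4 :=
  abs_le.2 ⟨by linarith, by linarith⟩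

theorem ww_sub_sq {β s : ℝ} (hβ : 0 ≤ β) (h0 : 0 ≤ s) (h4 : s ≤ 4) : (β - s) ^ 2 ≤ (β + 4) ^ 2 :=
  sq_le_sq' (by linarith) (by linarith)

/-- half of the bound for `Δ²` -/
def ww_g (a s βu βv δv x y p : ℝ) : ℝ :=
  2 * a ^ 4 * (βu ^ 2 + s ^ 2) * y ^ 4 + 250 * ((βu + 4) * (βv + 4) * (x ^ 2 * y ^ 2)) +
    100 * (p ^ 2 * y ^ 2) + 100 * (δv ^ 2 * (p ^ 2 * x ^ 2)) +
    120 * ((βu + 4) ^ 2 * (δv ^ 4 * x ^ 4 + δv ^ 2 * x ^ 2 * y ^ 2)) +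
    240 * (βu * βv * (δv ^ 2 * x ^ 4))

theorem ww_five (a b c d e : ℝ) :
    (a + b + c + d + e) ^ 2 ≤ 5 * (a ^ 2 + b ^ 2 + c ^ 2 + d ^ 2 + e ^ 2) := by
  linarith [sq_nonneg (a - b), sq_nonneg (a - c), sq_nonneg (a - d), sq_nonneg (a - e),
    sq_nonneg (b - c), sq_nonneg (b - d), sq_nonneg (b - e), sq_nonneg (c - d), sq_nonneg (c - e),
    sq_nonneg (d - e)]

theorem ww_half {κ a s βu βv δv x y p : ℝ} (hκ : κ ^ 2 ≤ 121 / 100) (ha : a ^ 2 ≤ 121 / 100)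
    (hu : 0 ≤ βu) (hv : 0 ≤ βv) (h0 : 0 ≤ s) (h4 : s ≤ 4) :
    2 * (a ^ 4 * (βu - s) ^ 2 * y ^ 4) + 2 * (a ^ 4 * ((βu - s) * (βv - s)) * (x ^ 2 * y ^ 2)) +
      40 * (p ^ 2 * (κ * δv * x + a * y) ^ 2) +
      10 * ((βu - s) ^ 2 * ((κ * δv * x + a * y) ^ 2 - a ^ 2 * y ^ 2) ^ 2) +
      240 * (βu * βv * (x ^ 2 * y ^ 2 + δv ^ 2 * x ^ 4)) ≤ ww_g a s βu βv δv x y p := by
  have e1 : a ^ 4 * (βu - s) ^ 2 * y ^ 4 ≤ a ^ 4 * (βu ^ 2 + s ^ 2) * y ^ 4 := by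
    have : (βu - s) ^ 2 ≤ βu ^ 2 + s ^ 2 := by nlinarith [mul_nonneg hu h0]
    gcongr
  have ha4 : a ^ 4 ≤ 3 / 2 := by nlinarith [sq_nonneg a]
  have e2 : a ^ 4 * ((βu - s) * (βv - s)) * (x ^ 2 * y ^ 2) ≤
      3 / 2 * ((βu + 4) * (βv + 4)) * (x ^ 2 * y ^ 2) := by
    have h1 : (βu - s) * (βv - s) ≤ (βu + 4) * (βv + 4) := by
      refine (le_abs_self _).trans ?_
      rw [abs_mul]
      exact mul_le_mul (ww_abs_sub hu h0 h4) (ww_abs_sub hv h0 h4) (abs_nonneg _) (by positivity)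
    refine mul_le_mul_of_nonneg_right ?_ (by positivity)
    exact (mul_le_mul_of_nonneg_left h1 (by positivity)).trans
      (mul_le_mul_of_nonneg_right ha4 (by positivity))
  have e3 := mul_le_mul_of_nonneg_left (ww_z_sq (δ := δv) (x := x) (y := y) hκ ha) (sq_nonneg p)
  have e4 := mul_le_mul (ww_sub_sq hu h0 h4) (ww_z_diff_sq (δ := δv) (x := x) (y := y) hκ ha)
    (sq_nonneg _) (sq_nonneg _)
  have e5 : βu * βv * (x ^ 2 * y ^ 2) ≤ (βu + 4) * (βv + 4) * (x ^ 2 * y ^ 2) := by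
    gcongr <;> linarith
  have n1 : 0 ≤ (βu + 4) * (βv + 4) * (x ^ 2 * y ^ 2) := by positivity
  have n2 : 0 ≤ p ^ 2 * y ^ 2 := by positivity
  have n3 : 0 ≤ δv ^ 2 * (p ^ 2 * x ^ 2) := by positivity
  unfold ww_g
  linarith

/-- the bound for `Δ²` -/
theorem ww_Delta_sq {κ a s βu βv δu δv x y p q c : ℝ} (hκ : κ ^ 2 ≤ 121 / 100)
    (ha : a ^ 2 ≤ 121 / 100) (hu : 0 ≤ βu) (hv : 0 ≤ βv) (h0 : 0 ≤ s) (h4 : s ≤ 4)
    (hδ : (δu * δv) ^ 2 ≤ 1) (hc : c ^ 2 ≤ βu * βv) :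
    (2 * (p * (κ * δv * x + a * y) + q * (κ * δu * y + a * x)) +
      (βu - s) * (κ * δv * x + a * y) ^ 2 + (βv - s) * (κ * δu * y + a * x) ^ 2 +
      2 * c * (κ * δv * x + a * y) * (κ * δu * y + a * x)) ^ 2 ≤
      ww_g a s βu βv δv x y p + ww_g a s βv βu δu y x q := by
  have g1 := ww_half (δv := δv) (x := x) (y := y) (p := p) hκ ha hu hv h0 h4
  have g2 := ww_half (δv := δu) (x := y) (y := x) (p := q) hκ ha hv hu h0 h4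
  have e := mul_le_mul hc (ww_zz_sq (x := x) (y := y) hκ ha hδ) (by positivity) (by positivity)
  generalize κ * δv * x + a * y = z at *
  generalize κ * δu * y + a * x = z' at *
  have h5 := ww_five (2 * p * z) (2 * q * z') ((βu - s) * (z ^ 2 - a ^ 2 * y ^ 2))
    ((βv - s) * (z' ^ 2 - a ^ 2 * x ^ 2)) (2 * c * z * z')
  set R := 2 * p * z + 2 * q * z' + (βu - s) * (z ^ 2 - a ^ 2 * y ^ 2) +
    (βv - s) * (z' ^ 2 - a ^ 2 * x ^ 2) + 2 * c * z * z' with hR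
  have h6 : (a ^ 2 * ((βu - s) * y ^ 2 + (βv - s) * x ^ 2) + R) ^ 2 ≤
      2 * (a ^ 2 * ((βu - s) * y ^ 2 + (βv - s) * x ^ 2)) ^ 2 + 2 * R ^ 2 := by
    linarith [sq_nonneg (a ^ 2 * ((βu - s) * y ^ 2 + (βv - s) * x ^ 2) - R)]
  calc _ = (a ^ 2 * ((βu - s) * y ^ 2 + (βv - s) * x ^ 2) + R) ^ 2 := by rw [hR]; ring
    _ ≤ _ := h6
    _ ≤ _ := by linarith

/-- `|z² - a² y²| ≤ a² y² / t + (1 + t) s²` -/
theorem ww_B_pt {κ a s βu δ x y t : ℝ} (hκ : κ ^ 2 ≤ 121 / 100) (ha : a ^ 2 ≤ 121 / 100)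
    (hu : 0 ≤ βu) (h0 : 0 ≤ s) (h4 : s ≤ 4) (ht : 1 ≤ t) :
    (βu - s) * (κ * δ * x + a * y) ^ 2 ≤ a ^ 2 * βu * y ^ 2 - a ^ 2 * s * y ^ 2 +
      (βu + 4) * (2 / t * y ^ 2 + 3 * t * (δ ^ 2 * x ^ 2)) := by
  have ht0 : 0 < t := by linarith
  have h1 : (κ * δ * x) ^ 2 ≤ 121 / 100 * (δ ^ 2 * x ^ 2) := by
    have := mul_le_mul_of_nonneg_right hκ (by positivity : 0 ≤ δ ^ 2 * x ^ 2)
    linarith [show (κ * δ * x) ^ 2 = κ ^ 2 * (δ ^ 2 * x ^ 2) by ring]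
  have h2 : (a * y) ^ 2 ≤ 2 * y ^ 2 := by
    have := mul_le_mul_of_nonneg_right ha (sq_nonneg y)
    nlinarith [sq_nonneg y]
  have h3 : |(κ * δ * x + a * y) ^ 2 - a ^ 2 * y ^ 2| ≤
      2 / t * y ^ 2 + 3 * t * (δ ^ 2 * x ^ 2) := by
    generalize κ * δ * x = w at *
    have e1 : |2 * w * (a * y)| ≤ (a * y) ^ 2 / t + t * w ^ 2 := by
      rw [abs_le]
      have k1 : 0 ≤ (a * y + t * w) ^ 2 / t := by positivity
      have k2 : 0 ≤ (a * y - t * w) ^ 2 / t := by positivity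
      have k3 : (a * y + t * w) ^ 2 / t = (a * y) ^ 2 / t + t * w ^ 2 + 2 * w * (a * y) := by
        field_simp; ring
      have k4 : (a * y - t * w) ^ 2 / t = (a * y) ^ 2 / t + t * w ^ 2 - 2 * w * (a * y) := by
        field_simp; ring
      constructor <;> linarith
    have e2 : (a * y) ^ 2 / t ≤ 2 / t * y ^ 2 := by
      rw [div_mul_eq_mul_div]
      exact div_le_div_of_nonneg_right h2 ht0.le
    have e3 : t * w ^ 2 ≤ t * (121 / 100 * (δ ^ 2 * x ^ 2)) := mul_le_mul_of_nonneg_left h1 ht0.le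
    have e4 : 1 * (δ ^ 2 * x ^ 2) ≤ t * (δ ^ 2 * x ^ 2) :=
      mul_le_mul_of_nonneg_right ht (by positivity)
    have e5 : 0 ≤ δ ^ 2 * x ^ 2 := by positivity
    rw [show (w + a * y) ^ 2 - a ^ 2 * y ^ 2 = w ^ 2 + 2 * w * (a * y) by ring]
    refine (abs_add_le _ _).trans ?_
    rw [abs_of_nonneg (sq_nonneg w)]
    linarith
  have h5 : (βu - s) * ((κ * δ * x + a * y) ^ 2 - a ^ 2 * y ^ 2) ≤
      (βu + 4) * (2 / t * y ^ 2 + 3 * t * (δ ^ 2 * x ^ 2)) := by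
    refine (le_abs_self _).trans ?_
    rw [abs_mul]
    exact mul_le_mul (ww_abs_sub hu h0 h4) h3 (abs_nonneg _) (by positivity)
  linarith

theorem ww_amgm {x y η : ℝ} (hη : 0 < η) : |x| * |y| ≤ (x ^ 2 / η + η * y ^ 2) / 2 := by
  have k2 : 0 ≤ (|x| - η * |y|) ^ 2 / η := by positivity
  have k4 : (|x| - η * |y|) ^ 2 / η = |x| ^ 2 / η + η * |y| ^ 2 - 2 * (|x| * |y|) := by
    field_simp; ring
  rw [sq_abs, sq_abs] at k4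
  linarith

/-- the term `k = u` -/
theorem ww_E_pt {s βu βv δ z z' c e ϑ : ℝ} (hu : 0 ≤ βu) (hv : 0 ≤ βv) (h0 : 0 ≤ s) (h4 : s ≤ 4)
    (hz : |z| ≤ 11 / 10 * e) (he : e ≤ 2 * ϑ) (hϑ : ϑ ≤ 1 / 1000) (hz' : |z'| ≤ 22 / 10 * |δ|) :
    βu * |2 * (βu * z + c * z') + (βu - s) * z ^ 2 + (βv - s) * z' ^ 2 + 2 * c * z * z'| ≤
      6 * ϑ * βu ^ 2 + 5 * (|βu| * |c * δ|) + 5 * (βu * e ^ 2) + 5 * (βu * (βv + 4) * δ ^ 2) := by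
  have he0 : 0 ≤ e := by linarith [abs_nonneg z]
  have hϑ0 : 0 ≤ ϑ := by linarith
  have hz1 : |z| ≤ 22 / 10 * ϑ := by linarith
  have hzz : z ^ 2 ≤ 121 / 100 * e ^ 2 := by
    rw [← sq_abs]; nlinarith [abs_nonneg z]
  have hzz1 : z ^ 2 ≤ ϑ := by
    rw [← sq_abs]; nlinarith [abs_nonneg z]
  have hzz' : z' ^ 2 ≤ 5 * δ ^ 2 := by
    rw [← sq_abs, ← sq_abs δ]; nlinarith [abs_nonneg z', abs_nonneg δ]
  have a1 : |βu * z| ≤ βu * (22 / 10 * ϑ) := by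
    rw [abs_mul, abs_of_nonneg hu]; gcongr
  have a2 : |c * z'| ≤ 22 / 10 * |c * δ| := by
    rw [abs_mul, abs_mul]; nlinarith [abs_nonneg c]
  have a3 : |(βu - s) * z ^ 2| ≤ βu * ϑ + 5 * e ^ 2 := by
    rw [abs_mul, abs_of_nonneg (sq_nonneg z)]
    refine (mul_le_mul_of_nonneg_right (ww_abs_sub hu h0 h4) (sq_nonneg z)).trans ?_
    linarith [mul_le_mul_of_nonneg_left hzz1 hu, sq_nonneg e]
  have a4 : |(βv - s) * z' ^ 2| ≤ (βv + 4) * (5 * δ ^ 2) := by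
    rw [abs_mul, abs_of_nonneg (sq_nonneg z')]
    exact mul_le_mul (ww_abs_sub hv h0 h4) hzz' (sq_nonneg _) (by positivity)
  have a5 : |2 * c * z * z'| ≤ 1 / 10 * |c * δ| := by
    rw [show 2 * c * z * z' = 2 * z * (c * z') by ring, abs_mul, abs_mul, abs_two]
    have : 2 * |z| ≤ 1 / 100 := by linarith
    nlinarith [abs_nonneg (c * z'), abs_nonneg z, abs_nonneg (c * δ)]
  have a6 : |2 * (βu * z + c * z') + (βu - s) * z ^ 2 + (βv - s) * z' ^ 2 + 2 * c * z * z'| ≤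
      6 * ϑ * βu + 5 * |c * δ| + 5 * e ^ 2 + (βv + 4) * (5 * δ ^ 2) := by
    have b1 := abs_le.1 a1
    have b2 := abs_le.1 a2
    have b3 := abs_le.1 a3
    have b4 := abs_le.1 a4
    have b5 := abs_le.1 a5
    have := mul_nonneg hu hϑ0
    have := abs_nonneg (c * δ)
    rw [abs_le]
    constructor <;> linarith
  rw [abs_of_nonneg hu]
  linarith [mul_le_mul_of_nonneg_left a6 hu]

end Crest.Agent.R62
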