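import Crest.Agent.R62.WWAux1

/-!
# R62/WWAux2: the pointwise bound for `ww (upd b B u v)`
-/

set_option autoImplicit false
set_option linter.unusedSectionVars false
open Finset Matrix

namespace Crest.Agent.R62

variable {ι : Type} [Fintype ι] [DecidableEq ι]

noncomputable def ww_a (b : ℝ) (B : Matrix ι ι ℝ) (u v : ι) : ℝ := kap b B u v * (b - B u v)
noncomputable def ww_z (b : ℝ) (B : Matrix ι ι ℝ) (u v k : ι) : ℝ :=
  kap b B u v * B v v * B k u + ww_a b B u v * B k v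
def ww_Z (B : Matrix ι ι ℝ) (u : ι) : ℝ := ∑ k, bet B k * B k u ^ 2
def ww_q (B : Matrix ι ι ℝ) (u : ι) : ℝ := ∑ k, B k u ^ 4
def ww_M (B : Matrix ι ι ℝ) (u v : ι) : ℝ := ∑ k, bet B k * B k u * B k v
def ww_N (B : Matrix ι ι ℝ) (u v : ι) : ℝ := ∑ k, bet B k * (B * B) k u * B k v
def ww_hh (B : Matrix ι ι ℝ) (u : ι) : ℝ := (bet B u + 4) ^ 2 + ww_Z B u
noncomputable def ww_D (b : ℝ) (B : Matrix ι ι ℝ) (u v k : ι) : ℝ :=
  2 * ((B * B) k u * ww_z b B u v k + (B * B) k v * ww_z b B v u k) +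
    (bet B u - b ^ 2) * ww_z b B u v k ^ 2 + (bet B v - b ^ 2) * ww_z b B v u k ^ 2 +
    2 * (B * B) u v * ww_z b B u v k * ww_z b B v u k
noncomputable def ww_A (b : ℝ) (B : Matrix ι ι ℝ) (u v : ι) : ℝ :=
  kap b B u v * (B v v * ww_N B u u) + ww_a b B u v * ww_N B u v
def ww_P1 (B : Matrix ι ι ℝ) (u v : ι) : ℝ := B v v ^ 2 * ww_hh B u
def ww_P2 (B : Matrix ι ι ℝ) (u v : ι) : ℝ := (bet B u + 4) * ww_hh B v
def ww_P3 (B : Matrix ι ι ℝ) (u v : ι) : ℝ := (|B u v| + |B u u * B v v|) ^ 2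
def ww_P4 (B : Matrix ι ι ℝ) (u v : ι) : ℝ := |(B * B) u v| * |ww_M B u v|
def ww_P5 (B : Matrix ι ι ℝ) (u v : ι) : ℝ := ∑ k, (B * B) k u ^ 2 * B k v ^ 2
def ww_P6 (B : Matrix ι ι ℝ) (u v : ι) : ℝ :=
  ∑ k, (bet B u + 4) * (bet B v + 4) * (B k u ^ 2 * B k v ^ 2)

variable {B : Matrix ι ι ℝ} {b Λ ν t ϑ : ℝ}

theorem ww_kap_symm (hB : B.IsSymm) (b : ℝ) (u v : ι) : kap b B v u = kap b B u v := by
  rw [kap, kap, hB.apply u v, mul_comm]

theorem ww_a_symm (hB : B.IsSymm) (b : ℝ) (u v : ι) : ww_a b B v u = ww_a b B u v := by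
  rw [ww_a, ww_a, ww_kap_symm hB, hB.apply u v]

theorem ww_sq_symm (hB : B.IsSymm) (u v : ι) : (B * B) v u = (B * B) u v := by
  simp only [Matrix.mul_apply]
  exact Finset.sum_congr rfl fun k _ => by rw [hB.apply k v, hB.apply u k, mul_comm]

theorem ww_D_symm (hB : B.IsSymm) (b : ℝ) (u v k : ι) : ww_D b B v u k = ww_D b B u v k := by
  rw [ww_D, ww_D, ww_sq_symm hB u v]
  ring

theorem ww_z_swap (hB : B.IsSymm) (b : ℝ) (u v k : ι) :
    ww_z b B v u k = kap b B u v * B u u * B k v + ww_a b B u v * B k u := by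
  rw [ww_z, ww_kap_symm hB, ww_a_symm hB]

theorem ww_Z_nonneg (hB : B.IsSymm) (u : ι) : 0 ≤ ww_Z B u :=
  Finset.sum_nonneg fun k _ => mul_nonneg (bet_nonneg hB k) (sq_nonneg _)

theorem ww_q_nonneg (B : Matrix ι ι ℝ) (u : ι) : 0 ≤ ww_q B u :=
  Finset.sum_nonneg fun k _ => by positivity

theorem ww_hh_nonneg (hB : B.IsSymm) (u : ι) : 0 ≤ ww_hh B u :=
  add_nonneg (sq_nonneg _) (ww_Z_nonneg hB u)

theorem ww_Z_le_hh (B : Matrix ι ι ℝ) (u : ι) : ww_Z B u ≤ ww_hh B u :=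
  le_add_of_nonneg_left (sq_nonneg _)

theorem ww_sq_le_hh (hB : B.IsSymm) (u : ι) : (bet B u + 4) ^ 2 ≤ ww_hh B u :=
  le_add_of_nonneg_right (ww_Z_nonneg hB u)

theorem ww_bet_col (hB : B.IsSymm) (u : ι) : ∑ k, B k u ^ 2 = bet B u := by
  rw [bet_eq hB]
  exact Finset.sum_congr rfl fun k _ => by rw [hB.apply u k]

theorem ww_q_le (h : Reg B b Λ ν t ϑ) (u : ι) : ww_q B u ≤ Λ * bet B u := by
  rw [← ww_bet_col h.symm, Finset.mul_sum]
  refine Finset.sum_le_sum fun k _ => ?_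
  have := mul_le_mul_of_nonneg_right (h.ent k u) (sq_nonneg (B k u))
  linarith

/-- first step: expand the squares -/
theorem ww_step1 (hB : B.IsSymm) {u v : ι} (huv : u ≠ v)
    (hk : (b - B u v) ^ 2 - B u u * B v v ≠ 0) :
    ww (upd b B u v) ≤ ww B + 2 * ∑ k, bet B k * ww_D b B u v k + ∑ k, ww_D b B u v k ^ 2
      - bet B u ^ 2 - bet B v ^ 2 + 2 * (bet B u * |ww_D b B u v u|)
      + 2 * (bet B v * |ww_D b B u v v|) := by
  have h1 : ∀ k, bet (upd b B u v) k ^ 2 = (bet B k + ww_D b B u v k) ^ 2 -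
      (if k = u then (bet B u + ww_D b B u v u) ^ 2 else 0) -
      (if k = v then (bet B v + ww_D b B u v v) ^ 2 else 0) := by
    intro k
    by_cases hu : k = u
    · subst hu
      rw [bet_upd_left, if_pos rfl, if_neg huv]; ring
    by_cases hv : k = v
    · subst hv
      rw [bet_upd_right, if_pos rfl, if_neg hu]; ring
    rw [if_neg hu, if_neg hv, bet_upd hB huv hk hu hv (ww_z b B u v k) (ww_z b B v u k)
      (by rw [ww_z, ww_a]; ring) (by rw [ww_z_swap hB, ww_a]; ring), ww_D]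
    ring
  have h2 : ∀ k, bet B k ^ 2 - 2 * (bet B k * |ww_D b B u v k|) ≤ (bet B k + ww_D b B u v k) ^ 2 :=
    fun k => by
      have := mul_le_mul_of_nonneg_left (neg_abs_le (ww_D b B u v k)) (bet_nonneg hB k)
      linarith [sq_nonneg (ww_D b B u v k)]
  have h3 : ∑ k, (bet B k + ww_D b B u v k) ^ 2 =
      ww B + 2 * ∑ k, bet B k * ww_D b B u v k + ∑ k, ww_D b B u v k ^ 2 := by
    rw [ww, Finset.mul_sum, ← Finset.sum_add_distrib, ← Finset.sum_add_distrib]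
    exact Finset.sum_congr rfl fun k _ => by ring
  rw [ww]
  simp only [h1, Finset.sum_sub_distrib, Finset.sum_ite_eq', Finset.mem_univ, if_true, h3]
  linarith [h2 u, h2 v]

theorem ww_sum_A (b : ℝ) (B : Matrix ι ι ℝ) (u v : ι) :
    ∑ k, bet B k * ((B * B) k u * ww_z b B u v k) = ww_A b B u v := by
  simp only [ww_A, ww_N, ww_z, Finset.mul_sum, ← Finset.sum_add_distrib]
  exact Finset.sum_congr rfl fun k _ => by ring

theorem ww_sum_D (b : ℝ) (B : Matrix ι ι ℝ) (u v : ι) :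
    ∑ k, bet B k * ww_D b B u v k = 2 * ww_A b B u v + 2 * ww_A b B v u +
      ∑ k, bet B k * ((bet B u - b ^ 2) * ww_z b B u v k ^ 2) +
      ∑ k, bet B k * ((bet B v - b ^ 2) * ww_z b B v u k ^ 2) +
      2 * ((B * B) u v * ∑ k, bet B k * (ww_z b B u v k * ww_z b B v u k)) := by
  simp only [← ww_sum_A, ww_D, Finset.mul_sum, ← Finset.sum_add_distrib]
  exact Finset.sum_congr rfl fun k _ => by ring

section adm
variable (h : Reg B b Λ ν t ϑ) {u v : ι} (hc : |B u v| ≤ ϑ) (hd : |B u u * B v v| ≤ ϑ)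
include h hc hd

theorem ww_kap_sq : kap b B u v ^ 2 ≤ 121 / 100 := by
  obtain ⟨-, h1, h2, -⟩ := h.kap_bd hc hd
  exact ww_sq_le (by rwa [abs_of_pos h1])

theorem ww_a_sq : ww_a b B u v ^ 2 ≤ 121 / 100 :=
  ww_sq_le (h.kap_bd hc hd).2.2.2.2.2.1

theorem ww_a_up : ww_a b B u v ^ 2 ≤ (1 + 120 * ϑ) / b ^ 2 := by
  have h1 := (abs_le.1 (h.kap_bd hc hd).2.2.2.2.2.2.2).2
  rw [le_div_iff₀ (by linarith [h.b1]), ww_a]
  linarith

theorem ww_a_low : 1 - 120 * ϑ ≤ ww_a b B u v ^ 2 * b ^ 2 := by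
  have h1 := (abs_le.1 (h.kap_bd hc hd).2.2.2.2.2.2.2).1
  rw [ww_a]
  linarith

theorem ww_B_bd : ∑ k, bet B k * ((bet B u - b ^ 2) * ww_z b B u v k ^ 2) ≤
    (1 + 120 * ϑ) / b ^ 2 * (bet B u * ww_Z B v) - (1 - 120 * ϑ) * ww_Z B v +
      2 * (Λ / t) * ww_P2 B u v + 15 * (Λ ^ 3 * t ^ 6) * ww_P1 B u v := by
  have ht := h.t1000
  have hL := h.L1
  have hu := bet_nonneg h.symm u
  have hZu := ww_Z_nonneg h.symm u
  have hZv := ww_Z_nonneg h.symm v
  have h1 : ∑ k, bet B k * ((bet B u - b ^ 2) * ww_z b B u v k ^ 2) ≤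
      ww_a b B u v ^ 2 * (bet B u * ww_Z B v) - ww_a b B u v ^ 2 * b ^ 2 * ww_Z B v +
      2 / t * ((bet B u + 4) * ww_Z B v) + 3 * t * (bet B u + 4) * (B v v ^ 2 * ww_Z B u) := by
    simp only [ww_Z, Finset.mul_sum, ← Finset.sum_add_distrib, ← Finset.sum_sub_distrib]
    refine Finset.sum_le_sum fun k _ => ?_
    have := mul_le_mul_of_nonneg_left (ww_B_pt (δ := B v v) (x := B k u) (y := B k v)
      (ww_kap_sq h hc hd) (ww_a_sq h hc hd) hu (sq_nonneg b) h.b4 (by linarith : 1 ≤ t))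
      (bet_nonneg h.symm k)
    rw [ww_z]
    linarith
  have h2 := mul_le_mul_of_nonneg_right (ww_a_up h hc hd) (mul_nonneg hu hZv)
  have h3 := mul_le_mul_of_nonneg_right (ww_a_low h hc hd) hZv
  have h4 : 2 / t * ((bet B u + 4) * ww_Z B v) ≤ 2 * (Λ / t) * ww_P2 B u v := by
    rw [ww_P2, ← mul_div_assoc]
    have := ww_Z_le_hh B v
    gcongr
    linarith
  have h5 : 3 * t * (bet B u + 4) * (B v v ^ 2 * ww_Z B u) ≤
      15 * (Λ ^ 3 * t ^ 6) * ww_P1 B u v := by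
    rw [ww_P1]
    have e1 := ww_Z_le_hh B u
    have e2 : 1 * 1 ≤ Λ * t ^ 4 := mul_le_mul hL (one_le_pow₀ (by linarith)) zero_le_one (by linarith)
    have e3 : bet B u + 4 ≤ 5 * (Λ * t ^ 4) := by linarith [h.bet_le u]
    have e4 : Λ * t ^ 5 ≤ Λ ^ 3 * t ^ 6 :=
      mul_le_mul (le_self_pow₀ hL (by norm_num)) (pow_le_pow_right₀ (by linarith) (by norm_num))
        (by positivity) (by positivity)
    have e5 : 3 * t * (bet B u + 4) ≤ 15 * (Λ ^ 3 * t ^ 6) := by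
      have := mul_le_mul_of_nonneg_left e3 (by linarith : 0 ≤ 3 * t)
      linarith
    gcongr
  linarith

theorem ww_C_half : |(B * B) u v| * |B v v| * ww_Z B u ≤
    ((Λ / t) * ww_P2 B v u + Λ ^ 3 * t ^ 6 * ww_P1 B u v) / 2 := by
  have ht := h.t1000
  have hL := h.L1
  have hu := bet_nonneg h.symm u
  have hv := bet_nonneg h.symm v
  have hZu := ww_Z_nonneg h.symm u
  have h1 := ww_amgm (x := (B * B) u v) (y := B v v) (by positivity : 0 < t ^ 6)
  have h2 : (B * B) u v ^ 2 / t ^ 6 ≤ Λ / t * (bet B v + 4) := by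
    rw [div_le_iff₀ (by positivity)]
    calc (B * B) u v ^ 2 ≤ bet B u * bet B v := mul_sq_le h.symm h.symm u v
      _ ≤ (Λ * t ^ 4) * (bet B v + 4) := by
          have := h.bet_le u
          gcongr; linarith
      _ ≤ (Λ * t ^ 5) * (bet B v + 4) := by
          gcongr
          · linarith
          · norm_num
      _ = _ := by field_simp
  have h3 : t ^ 6 * B v v ^ 2 ≤ Λ ^ 3 * t ^ 6 * B v v ^ 2 := by
    have : 1 * t ^ 6 ≤ Λ ^ 3 * t ^ 6 := by gcongr; exact one_le_pow₀ hL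
    gcongr; linarith
  have h4 : |(B * B) u v| * |B v v| ≤ (Λ / t * (bet B v + 4) + Λ ^ 3 * t ^ 6 * B v v ^ 2) / 2 := by
    linarith
  have h5 := mul_le_mul h4 (ww_Z_le_hh B u) hZu (by positivity)
  rw [ww_P1, ww_P2]
  linarith

theorem ww_C_bd : (B * B) u v * ∑ k, bet B k * (ww_z b B u v k * ww_z b B v u k) ≤
    3 * ww_P4 B u v + (Λ / t) * (ww_P2 B u v + ww_P2 B v u) +
      Λ ^ 3 * t ^ 6 * (ww_P1 B u v + ww_P1 B v u) := by
  have h1 : ∑ k, bet B k * (ww_z b B u v k * ww_z b B v u k) =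
      (ww_a b B u v ^ 2 + kap b B u v ^ 2 * (B u u * B v v)) * ww_M B u v +
      ww_a b B u v * kap b B u v * (B v v * ww_Z B u) +
      ww_a b B u v * kap b B u v * (B u u * ww_Z B v) := by
    simp only [ww_z_swap h.symm b u v, ww_Z, ww_M, Finset.mul_sum, ← Finset.sum_add_distrib]
    exact Finset.sum_congr rfl fun k _ => by rw [ww_z]; ring
  have hκ := ww_kap_sq h hc hd
  have ha := ww_a_sq h hc hd
  have e1 : |ww_a b B u v ^ 2 + kap b B u v ^ 2 * (B u u * B v v)| ≤ 3 := by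
    refine (abs_add_le _ _).trans ?_
    rw [abs_mul, abs_of_nonneg (sq_nonneg _), abs_of_nonneg (sq_nonneg _)]
    have := mul_le_mul hκ (hd.trans h.th1) (abs_nonneg _) (by norm_num)
    linarith
  have e2 : |ww_a b B u v * kap b B u v| ≤ 2 := by
    rw [abs_le]
    constructor <;> linarith [sq_nonneg (ww_a b B u v + kap b B u v),
      sq_nonneg (ww_a b B u v - kap b B u v)]
  have f1 := ww_C_half h hc hd
  have f2 := ww_C_half h (u := v) (v := u) (by rwa [h.symm.apply]) (by rwa [mul_comm])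
  rw [ww_sq_symm h.symm u v] at f2
  have g1 : (B * B) u v * ((ww_a b B u v ^ 2 + kap b B u v ^ 2 * (B u u * B v v)) * ww_M B u v) ≤
      3 * ww_P4 B u v := by
    refine (le_abs_self _).trans ?_
    rw [abs_mul, abs_mul, ww_P4]
    have := mul_le_mul_of_nonneg_right e1 (mul_nonneg (abs_nonneg ((B * B) u v))
      (abs_nonneg (ww_M B u v)))
    linarith
  have g2 : ∀ δ Z : ℝ, 0 ≤ Z → (B * B) u v * (ww_a b B u v * kap b B u v * (δ * Z)) ≤
      2 * (|(B * B) u v| * |δ| * Z) := by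
    intro δ Z hZ
    refine (le_abs_self _).trans ?_
    rw [abs_mul, abs_mul, abs_mul δ, abs_of_nonneg hZ]
    have := mul_le_mul_of_nonneg_right e2 (by positivity : 0 ≤ |(B * B) u v| * |δ| * Z)
    linarith
  have g3 := g2 (B v v) _ (ww_Z_nonneg h.symm u)
  have g4 := g2 (B u u) _ (ww_Z_nonneg h.symm v)
  rw [h1]
  linarith

theorem ww_E_bd : bet B u * |ww_D b B u v u| ≤ 6 * ϑ * bet B u ^ 2 +
    3 * (Λ / t) * ww_P2 B v u + 8 * (Λ ^ 3 * t ^ 6) * ww_P1 B v u +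
      5 * (Λ * t ^ 4) * ww_P3 B u v := by
  have ht := h.t1000
  have hL := h.L1
  have hu := bet_nonneg h.symm u
  have hv := bet_nonneg h.symm v
  obtain ⟨-, k1, k2, -, -, k3, -⟩ := h.kap_bd hc hd
  have hz : |ww_z b B u v u| ≤ 11 / 10 * (|B u v| + |B u u * B v v|) := by
    rw [ww_z, mul_assoc, mul_comm (B v v)]
    refine (abs_add_le _ _).trans ?_
    rw [abs_mul, abs_mul (ww_a b B u v), abs_of_pos k1]
    have e1 := mul_le_mul_of_nonneg_right k2 (abs_nonneg (B u u * B v v))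
    have e2 := mul_le_mul_of_nonneg_right k3 (abs_nonneg (B u v))
    rw [ww_a]
    linarith
  have hz' : |ww_z b B v u u| ≤ 22 / 10 * |B u u| := by
    have e : ww_z b B v u u = kap b B u v * b * B u u := by rw [ww_z_swap h.symm, ww_a]; ring
    rw [e, abs_mul, abs_mul, abs_of_pos k1]
    have := mul_le_mul k2 h.abs_b.2 (abs_nonneg _) (by norm_num)
    gcongr
    linarith
  have h1 := ww_E_pt (c := (B * B) u v) hu hv (sq_nonneg b) h.b4 hz (by linarith) h.th1 hz'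
  have h2 := ww_amgm (x := bet B u) (y := (B * B) u v * B u u) (by positivity : 0 < t ^ 2)
  have hhv := ww_sq_le_hh h.symm v
  have hhu := ww_sq_le_hh h.symm u
  have hv1 : bet B v + 4 ≤ ww_hh B v := by nlinarith
  have e4 : Λ * t ^ 6 ≤ Λ ^ 3 * t ^ 6 := by
    gcongr
    exact le_self_pow₀ hL (by norm_num)
  have h3 : bet B u ^ 2 / t ^ 2 ≤ Λ / t * ww_P2 B v u := by
    rw [ww_P2]
    calc bet B u ^ 2 / t ^ 2 ≤ bet B u ^ 2 / t := by
          gcongr
          exact le_self_pow₀ (by linarith) (by norm_num)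
      _ = 1 / t * (1 * bet B u ^ 2) := by ring
      _ ≤ Λ / t * ((bet B v + 4) * ww_hh B u) := by
          gcongr
          · linarith
          · nlinarith
  have h4 : t ^ 2 * ((B * B) u v * B u u) ^ 2 ≤ Λ ^ 3 * t ^ 6 * ww_P1 B v u := by
    rw [ww_P1]
    calc t ^ 2 * ((B * B) u v * B u u) ^ 2 = t ^ 2 * (B * B) u v ^ 2 * B u u ^ 2 := by ring
      _ ≤ t ^ 2 * (bet B u * bet B v) * B u u ^ 2 := by
          gcongr
          exact mul_sq_le h.symm h.symm u v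
      _ ≤ t ^ 2 * ((Λ * t ^ 4) * ww_hh B v) * B u u ^ 2 := by
          gcongr
          · exact h.bet_le u
          · linarith
      _ = Λ * t ^ 6 * (B u u ^ 2 * ww_hh B v) := by ring
      _ ≤ _ := by
          have := ww_hh_nonneg h.symm v
          gcongr
  have h5 : bet B u * (|B u v| + |B u u * B v v|) ^ 2 ≤ Λ * t ^ 4 * ww_P3 B u v := by
    rw [ww_P3]
    gcongr
    exact h.bet_le u
  have h6 : bet B u * (bet B v + 4) * B u u ^ 2 ≤ Λ ^ 3 * t ^ 6 * ww_P1 B v u := by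
    rw [ww_P1]
    calc bet B u * (bet B v + 4) * B u u ^ 2 ≤ (Λ * t ^ 4) * ww_hh B v * B u u ^ 2 := by
          gcongr
          exact h.bet_le u
      _ = Λ * t ^ 4 * (B u u ^ 2 * ww_hh B v) := by ring
      _ ≤ Λ * t ^ 6 * (B u u ^ 2 * ww_hh B v) := by
          have := ww_hh_nonneg h.symm v
          gcongr
          · linarith
          · norm_num
      _ ≤ _ := by
          have := ww_hh_nonneg h.symm v
          gcongr
  have n1 : 0 ≤ Λ / t * ww_P2 B v u := (by positivity : 0 ≤ bet B u ^ 2 / t ^ 2).trans h3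
  have n2 : 0 ≤ Λ ^ 3 * t ^ 6 * ww_P1 B v u :=
    (by positivity : 0 ≤ t ^ 2 * ((B * B) u v * B u u) ^ 2).trans h4
  rw [ww_D]
  change bet B u * |2 * (bet B u * _ + _) + _ + _ + _| ≤ _
  linarith

theorem ww_F_half : ∑ k, ww_g (ww_a b B u v) (b ^ 2) (bet B u) (bet B v) (B v v) (B k u) (B k v)
      ((B * B) k u) ≤
    2 * ((1 + 255 * ϑ) / b ^ 4) * (bet B u ^ 2 * ww_q B v) + 3 * ww_q B v + 250 * ww_P6 B u v +
      100 * ww_P5 B u v + 480 * (Λ ^ 3 * t ^ 6) * ww_P1 B u v := by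
  have ht := h.t1000
  have hL := h.L1
  have hu := bet_nonneg h.symm u
  have hv := bet_nonneg h.symm v
  have hb : 0 < b ^ 2 := by linarith [h.b1]
  have hb4 : 0 < b ^ 4 := by rw [show b ^ 4 = (b ^ 2) ^ 2 by ring]; positivity
  have hϑ := h.th0
  have hϑ1 := h.th1
  have ha : ww_a b B u v ^ 4 ≤ (1 + 255 * ϑ) / b ^ 4 := by
    calc ww_a b B u v ^ 4 = (ww_a b B u v ^ 2) ^ 2 := by ring
      _ ≤ ((1 + 120 * ϑ) / b ^ 2) ^ 2 := pow_le_pow_left₀ (sq_nonneg _) (ww_a_up h hc hd) 2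
      _ = (1 + 120 * ϑ) ^ 2 / b ^ 4 := by rw [div_pow]; congr 1; ring
      _ ≤ _ := by gcongr; nlinarith
  have h1 : ∑ k, ww_g (ww_a b B u v) (b ^ 2) (bet B u) (bet B v) (B v v) (B k u) (B k v)
      ((B * B) k u) ≤ 2 * ww_a b B u v ^ 4 * (bet B u ^ 2 + b ^ 4) * ww_q B v + 250 * ww_P6 B u v +
      100 * ww_P5 B u v + B v v ^ 2 * (100 * (bet B u * ww_Z B u) +
        120 * ((bet B u + 4) ^ 2 * (Λ * ww_q B u + Λ * ∑ k, B k v ^ 2)) +
        240 * (bet B u * bet B v * ww_q B u)) := by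
    simp only [ww_q, ww_P5, ww_P6, ww_Z, Finset.mul_sum, ← Finset.sum_add_distrib]
    refine Finset.sum_le_sum fun k _ => ?_
    have e1 : B v v ^ 2 * ((B * B) k u ^ 2 * B k u ^ 2) ≤
        B v v ^ 2 * (bet B k * bet B u * B k u ^ 2) := by
      gcongr
      exact mul_sq_le h.symm h.symm k u
    have e2 : (bet B u + 4) ^ 2 * (B v v ^ 2 * B v v ^ 2 * B k u ^ 4 + B v v ^ 2 * B k u ^ 2 * B k v ^ 2)
        ≤ (bet B u + 4) ^ 2 * (B v v ^ 2 * Λ * B k u ^ 4 + B v v ^ 2 * Λ * B k v ^ 2) := by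
      gcongr
      · exact h.ent v v
      · exact h.ent k u
    rw [ww_g]
    linarith
  rw [ww_bet_col h.symm] at h1
  have hq := ww_q_nonneg B v
  have h2 : ww_a b B u v ^ 4 * (bet B u ^ 2 + b ^ 4) * ww_q B v ≤
      (1 + 255 * ϑ) / b ^ 4 * (bet B u ^ 2 * ww_q B v) + 3 / 2 * ww_q B v := by
    calc ww_a b B u v ^ 4 * (bet B u ^ 2 + b ^ 4) * ww_q B v
        ≤ (1 + 255 * ϑ) / b ^ 4 * (bet B u ^ 2 + b ^ 4) * ww_q B v := by gcongr
      _ = (1 + 255 * ϑ) / b ^ 4 * (bet B u ^ 2 * ww_q B v) + (1 + 255 * ϑ) * ww_q B v := by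
          have e : (1 + 255 * ϑ) / b ^ 4 * b ^ 4 = 1 + 255 * ϑ := div_mul_cancel₀ _ hb4.ne'
          linear_combination ww_q B v * e
      _ ≤ _ := by gcongr; linarith
  have hZ := ww_Z_nonneg h.symm u
  have hqu := ww_q_le h u
  have hbu := h.bet_le u
  have hbv := h.bet_le v
  have hqu0 := ww_q_nonneg B u
  have t46 : t ^ 4 ≤ t ^ 6 := pow_le_pow_right₀ (by linarith) (by norm_num)
  have L13 : Λ ≤ Λ ^ 3 := le_self_pow₀ hL (by norm_num)
  have L23 : Λ ^ 2 ≤ Λ ^ 3 := pow_le_pow_right₀ hL (by norm_num)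
  have f1 : bet B u * ww_Z B u ≤ Λ ^ 3 * t ^ 6 * ww_Z B u := by
    gcongr
    exact hbu.trans (by gcongr)
  have f2 : Λ * ww_q B u ≤ Λ ^ 3 * t ^ 6 := by
    calc Λ * ww_q B u ≤ Λ * (Λ * (Λ * t ^ 4)) := by
          gcongr
          exact hqu.trans (by gcongr)
      _ = Λ ^ 3 * t ^ 4 := by ring
      _ ≤ _ := by gcongr
  have f3 : Λ * bet B v ≤ Λ ^ 3 * t ^ 6 := by
    calc Λ * bet B v ≤ Λ * (Λ * t ^ 4) := by gcongr
      _ = Λ ^ 2 * t ^ 4 := by ring
      _ ≤ _ := by gcongr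
  have f4 : (bet B u + 4) ^ 2 * (Λ * ww_q B u + Λ * bet B v) ≤
      (bet B u + 4) ^ 2 * (2 * (Λ ^ 3 * t ^ 6)) := by
    gcongr
    linarith
  have f5 : bet B u * bet B v * ww_q B u ≤ Λ ^ 3 * t ^ 6 * (bet B u + 4) ^ 2 := by
    calc bet B u * bet B v * ww_q B u ≤ bet B u * (Λ * t ^ 4) * (Λ * bet B u) := by gcongr
      _ = Λ ^ 2 * t ^ 4 * bet B u ^ 2 := by ring
      _ ≤ _ := by gcongr; linarith
  have f6 : 100 * (bet B u * ww_Z B u) +
        120 * ((bet B u + 4) ^ 2 * (Λ * ww_q B u + Λ * bet B v)) +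
        240 * (bet B u * bet B v * ww_q B u) ≤ 480 * (Λ ^ 3 * t ^ 6) * ww_hh B u := by
    rw [ww_hh]
    have : 0 ≤ Λ ^ 3 * t ^ 6 * ww_Z B u := by positivity
    linarith
  have f7 := mul_le_mul_of_nonneg_left f6 (sq_nonneg (B v v))
  rw [ww_P1]
  linarith

end adm

/-- half of the pointwise bound -/
noncomputable def ww_H (b Λ t ϑ : ℝ) (B : Matrix ι ι ℝ) (u v : ι) : ℝ :=
  4 * ww_A b B u v - (1 - 12 * ϑ) * bet B u ^ 2 +
    2 * ((1 + 120 * ϑ) / b ^ 2) * (bet B u * ww_Z B v) - 2 * (1 - 120 * ϑ) * ww_Z B v +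
    2 * ((1 + 255 * ϑ) / b ^ 4) * (bet B u ^ 2 * ww_q B v) + 3 * ww_q B v +
    530 * (Λ ^ 3 * t ^ 6) * ww_P1 B u v + 14 * (Λ / t) * ww_P2 B u v +
    10 * (Λ * t ^ 4) * ww_P3 B u v + 6 * ww_P4 B u v + 100 * ww_P5 B u v + 250 * ww_P6 B u v

theorem ww_pointwise (h : Reg B b Λ ν t ϑ) {u v : ι} (huv : u ≠ v) (hc : |B u v| ≤ ϑ)
    (hd : |B u u * B v v| ≤ ϑ) :
    ww (upd b B u v) ≤ ww B + (ww_H b Λ t ϑ B u v + ww_H b Λ t ϑ B v u) := by
  have hc' : |B v u| ≤ ϑ := by rwa [h.symm.apply]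
  have hd' : |B v v * B u u| ≤ ϑ := by rwa [mul_comm]
  have hk : (b - B u v) ^ 2 - B u u * B v v ≠ 0 := by
    have := (h.kap_bd hc hd).1
    have := h.b1
    intro h0
    linarith
  have h1 := ww_step1 h.symm huv hk
  rw [ww_sum_D] at h1
  have b1 := ww_B_bd h hc hd
  have b2 := ww_B_bd h hc' hd'
  have c1 := ww_C_bd h hc hd
  have c2 := ww_C_bd h hc' hd'
  have c3 : (B * B) v u * ∑ k, bet B k * (ww_z b B v u k * ww_z b B u v k) =
      (B * B) u v * ∑ k, bet B k * (ww_z b B u v k * ww_z b B v u k) := by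
    rw [ww_sq_symm h.symm u v]
    simp only [mul_comm (ww_z b B v u _)]
  rw [c3] at c2
  have e1 := ww_E_bd h hc hd
  have e2 := ww_E_bd h hc' hd'
  rw [ww_D_symm h.symm] at e2
  have f1 := ww_F_half h hc hd
  have f2 := ww_F_half h hc' hd'
  rw [ww_a_symm h.symm] at f2
  have f3 : ∑ k, ww_D b B u v k ^ 2 ≤
      ∑ k, ww_g (ww_a b B u v) (b ^ 2) (bet B u) (bet B v) (B v v) (B k u) (B k v) ((B * B) k u) +
      ∑ k, ww_g (ww_a b B u v) (b ^ 2) (bet B v) (bet B u) (B u u) (B k v) (B k u) ((B * B) k v) := by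
    rw [← Finset.sum_add_distrib]
    refine Finset.sum_le_sum fun k _ => ?_
    have hδ : (B u u * B v v) ^ 2 ≤ 1 := by
      rw [← sq_abs]
      exact pow_le_one₀ (abs_nonneg _) (by linarith [h.th1])
    have := ww_Delta_sq (x := B k u) (y := B k v) (p := (B * B) k u) (q := (B * B) k v)
      (ww_kap_sq h hc hd) (ww_a_sq h hc hd) (bet_nonneg h.symm u)
      (bet_nonneg h.symm v) (sq_nonneg b) h.b4 hδ (mul_sq_le h.symm h.symm u v)
    rw [ww_D, ww_z_swap h.symm b u v k, ww_z]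
    exact this
  rw [ww_H, ww_H]
  linarith

end Crest.Agent.R62
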