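import Crest.Agent.R62.WWAux2

/-!
# R62/WWAux3: averages of the terms of the pointwise bound for `ww (upd b B u v)`
-/

set_option autoImplicit false
set_option linter.unusedSectionVars false
open Finset Matrix

namespace Crest.Agent.R62

variable {ι : Type} [Fintype ι] [DecidableEq ι]
variable {ω : ι → ι → ℝ} {B : Matrix ι ι ℝ} {b Λ ν t ϑ Ξ Ω ρ : ℝ}

theorem ww_nonneg' (B : Matrix ι ι ℝ) : 0 ≤ ww B := Finset.sum_nonneg fun _ _ => sq_nonneg _

theorem ww_sum_Z (hB : B.IsSymm) : ∑ u, ww_Z B u = ww B := by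
  simp only [ww_Z]
  rw [Finset.sum_comm, ww]
  refine Finset.sum_congr rfl fun k _ => ?_
  rw [← Finset.mul_sum, ← bet_eq hB, sq]

theorem ww_sum_q (B : Matrix ι ι ℝ) : ∑ u, ww_q B u = q4 B := by
  simp only [ww_q]
  rw [Finset.sum_comm]; rfl

theorem ww_sum_const (c : ℝ) : ∑ _u : ι, c = c * rr ι := by
  rw [Finset.sum_const, Finset.card_univ, nsmul_eq_mul, mul_comm]; rfl

theorem ww_sum_hh (h : Reg B b Λ ν t ϑ) : ∑ u, ww_hh B u ≤ 35 * Λ * rr ι := by
  have h1 : ∑ u, ww_hh B u ≤ ∑ u, (2 * bet B u ^ 2 + 32 + ww_Z B u) :=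
    Finset.sum_le_sum fun u _ => by rw [ww_hh]; linarith [sq_nonneg (bet B u - 4)]
  rw [Finset.sum_add_distrib, Finset.sum_add_distrib, ← Finset.mul_sum, ww_sum_Z h.symm,
    ww_sum_const] at h1
  have h2 := mul_le_mul_of_nonneg_right h.L1 h.rpos.le
  have h3 := h.w
  change _ ≤ 2 * ww B + _ + _ at h1
  linarith

theorem ww_av_hh (h : Reg B b Λ ν t ϑ) : (∑ u, ww_hh B u) / rr ι ≤ 35 * Λ := by
  rw [div_le_iff₀ h.rpos]; exact ww_sum_hh h

theorem ww_av_P1 (h : Reg B b Λ ν t ϑ) : av (ww_P1 B) ≤ 35 * Λ ^ 2 / t ^ 8 := by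
  have h1 : av (ww_P1 B) = av (fun u v => ww_hh B u * B v v ^ 2) :=
    av_congr fun u v => by rw [ww_P1, mul_comm]
  have hL := h.L1
  have hr := h.rpos
  have h2 : (∑ v, B v v ^ 2) / rr ι ≤ Λ / rr ι := by
    have := h.d
    rw [dd] at this
    gcongr
  rw [h1, av_prod, h.t8]
  calc _ ≤ 35 * Λ * (Λ / rr ι) :=
        mul_le_mul (ww_av_hh h) h2 (by positivity) (by positivity)
    _ = _ := by ring

theorem ww_av_P2 (h : Reg B b Λ ν t ϑ) : av (ww_P2 B) ≤ 280 * Λ := by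
  have h1 : av (ww_P2 B) = av (fun u v => (bet B u + 4) * ww_hh B v) := rfl
  have hL := h.L1
  have hr := h.rpos
  have h2 : (∑ u, (bet B u + 4)) / rr ι ≤ 8 := by
    rw [div_le_iff₀ hr, Finset.sum_add_distrib, sum_bet, ww_sum_const]
    have := h.f2'
    rw [h.t8] at this
    linarith
  rw [h1, av_prod]
  calc _ ≤ 8 * (35 * Λ) := mul_le_mul h2 (ww_av_hh h)
        (div_nonneg (Finset.sum_nonneg fun v _ => ww_hh_nonneg h.symm v) hr.le) (by norm_num)
    _ = _ := by ring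

theorem ww_av_P3 (h : Reg B b Λ ν t ϑ) : av (ww_P3 B) ≤ 16 / t ^ 8 := by
  refine h.av_e.trans (le_of_eq ?_)
  rw [div_pow]; congr 1 <;> ring

theorem ww_M_sq (hB : B.IsSymm) (u v : ι) : ww_M B u v ^ 2 ≤ ww_Z B u * ww_Z B v := by
  have := Finset.sum_sq_le_sum_mul_sum_of_sq_le_mul (univ : Finset ι)
    (r := fun k => bet B k * B k u * B k v) (f := fun k => bet B k * B k u ^ 2)
    (g := fun k => bet B k * B k v ^ 2)
    (fun k _ => mul_nonneg (bet_nonneg hB k) (sq_nonneg _))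
    (fun k _ => mul_nonneg (bet_nonneg hB k) (sq_nonneg _)) (fun k _ => le_of_eq (by ring))
  exact this

theorem ww_av_P4 (h : Reg B b Λ ν t ϑ) : av (ww_P4 B) ≤ ν ^ 2 / rr ι * (ww B / rr ι) := by
  have hr := h.rpos
  have hW := ww_nonneg' B
  refine av_cs (f := fun u v => (B * B) u v) (g := ww_M B) (by positivity) (by positivity) ?_ ?_
  · rw [av_sq_eq_fro, div_pow, ← pow_mul]
    have : fro (fun u v => (B * B) u v) = t4 B := fro_sq_eq_t4 h.symm
    rw [this]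
    have := h.t4
    gcongr
  · refine (av_mono fun u v => ww_M_sq h.symm u v).trans (le_of_eq ?_)
    rw [av_prod, ww_sum_Z h.symm, sq]

theorem ww_row_sq (h : Reg B b Λ ν t ϑ) (k : ι) : ∑ u, (B * B) k u ^ 2 ≤ ν ^ 2 * bet B k := by
  refine le_trans (le_of_eq ?_) (sum_row_mul_sq_le h.symm h.op k)
  exact Finset.sum_congr rfl fun u _ => by rw [ww_sq_symm h.symm]

theorem ww_sum3 (f g : ι → ι → ℝ) :
    ∑ u, ∑ v, ∑ k, f k u * g k v = ∑ k, (∑ u, f k u) * ∑ v, g k v := by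
  simp only [Finset.sum_mul_sum]
  rw [Finset.sum_comm (f := fun k u => ∑ v, f k u * g k v)]
  exact Finset.sum_congr rfl fun u _ => Finset.sum_comm

theorem ww_av_P5 (h : Reg B b Λ ν t ϑ) : av (ww_P5 B) ≤ ν ^ 2 / rr ι * (ww B / rr ι) := by
  have hr := h.rpos
  have h1 : ∑ u, ∑ v, ww_P5 B u v ≤ ν ^ 2 * ww B := by
    simp only [ww_P5]
    rw [ww_sum3 (fun k u => (B * B) k u ^ 2) (fun k v => B k v ^ 2), ww, Finset.mul_sum]
    refine Finset.sum_le_sum fun k _ => ?_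
    rw [← bet_eq h.symm]
    have := mul_le_mul_of_nonneg_right (ww_row_sq h k) (bet_nonneg h.symm k)
    linarith
  rw [av, div_mul_div_comm, ← sq]
  gcongr

theorem ww_W_le (h : Reg B b Λ ν t ϑ) : ww B ≤ Λ * t ^ 8 := by rw [h.t8]; exact h.w

theorem ww_Z_le (h : Reg B b Λ ν t ϑ) (u : ι) : ww_Z B u ≤ Λ ^ 2 * t ^ 6 := by
  have hL := h.L1
  have ht := h.t0
  refine le_of_sq_le_sq₀' ?_ (by positivity)
  have h1 : ww_Z B u ^ 2 ≤ ww B * ww_q B u := by
    have := Finset.sum_mul_sq_le_sq_mul_sq univ (fun k => bet B k) (fun k => B k u ^ 2)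
    simp only [← pow_mul] at this
    exact this
  have h2 : ww_q B u ≤ Λ * (Λ * t ^ 4) := (ww_q_le h u).trans (by have := h.bet_le u; gcongr)
  calc _ ≤ ww B * ww_q B u := h1
    _ ≤ Λ * t ^ 8 * (Λ * (Λ * t ^ 4)) :=
        mul_le_mul (ww_W_le h) h2 (ww_q_nonneg B u) (by positivity)
    _ = Λ ^ 3 * t ^ 12 := by ring
    _ ≤ Λ ^ 4 * t ^ 12 := by gcongr; norm_num
    _ = _ := by ring

theorem ww_av_P6 (h : Reg B b Λ ν t ϑ) : av (ww_P6 B) ≤ 34 * Λ ^ 3 / t ^ 2 := by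
  have hr := h.rpos
  have hL := h.L1
  have ht := h.t1000
  have hW := ww_W_le h
  have h0 : ∀ k, ∑ u, (bet B u + 4) * B k u ^ 2 = ww_Z B k + 4 * bet B k := by
    intro k
    rw [ww_Z, bet_eq h.symm k, Finset.mul_sum, ← Finset.sum_add_distrib]
    exact Finset.sum_congr rfl fun u _ => by rw [h.symm.apply k u]; ring
  have h1 : ∑ u, ∑ v, ww_P6 B u v ≤ 2 * (Λ ^ 2 * t ^ 6) * ww B + 32 * ww B := by
    have e : ∀ u v, ww_P6 B u v =
        ∑ k, ((bet B u + 4) * B k u ^ 2) * ((bet B v + 4) * B k v ^ 2) := fun u v =>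
      Finset.sum_congr rfl fun k _ => by ring
    simp only [e]
    rw [ww_sum3 (fun k u => (bet B u + 4) * B k u ^ 2) (fun k v => (bet B v + 4) * B k v ^ 2)]
    simp only [h0]
    conv_rhs => rw [← ww_sum_Z h.symm]; congr; rfl; rw [ww_sum_Z h.symm, ww]
    rw [Finset.mul_sum, Finset.mul_sum, ← Finset.sum_add_distrib]
    refine Finset.sum_le_sum fun k _ => ?_
    have := mul_le_mul_of_nonneg_right (ww_Z_le h k) (ww_Z_nonneg h.symm k)
    linarith [sq_nonneg (ww_Z B k - 4 * bet B k)]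
  have h2 : 1 * 1 ≤ Λ ^ 2 * t ^ 6 :=
    mul_le_mul (one_le_pow₀ hL) (one_le_pow₀ (by linarith)) zero_le_one (by positivity)
  have h3 := mul_le_mul_of_nonneg_right h2 (ww_nonneg' B)
  have h4 := mul_le_mul_of_nonneg_left hW (by positivity : 0 ≤ Λ ^ 2 * t ^ 6)
  rw [av, ← h.t8, div_le_div_iff₀ (by positivity) (by positivity)]
  have h5 : ∑ u, ∑ v, ww_P6 B u v ≤ 34 * (Λ ^ 2 * t ^ 6 * (Λ * t ^ 8)) := by linarith
  calc _ ≤ 34 * (Λ ^ 2 * t ^ 6 * (Λ * t ^ 8)) * t ^ 2 := by gcongr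
    _ = _ := by ring

/-! ### the term `ww_A` -/

theorem ww_sum_N_abs (h : Reg B b Λ ν t ϑ) : ∑ u, |ww_N B u u| ≤ ν * ww B := by
  have hν : 0 ≤ ν := by linarith [h.L1, h.Lν]
  have h1 : ∀ k, ∑ u, |(B * B) k u| * |B k u| ≤ ν * bet B k := by
    intro k
    have hk := bet_nonneg h.symm k
    refine le_of_sq_le_sq₀' ((Finset.sum_mul_sq_le_sq_mul_sq _ _ _).trans ?_) (by positivity)
    simp only [sq_abs]
    rw [← bet_eq h.symm]
    have := mul_le_mul_of_nonneg_right (ww_row_sq h k) hk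
    linarith
  calc ∑ u, |ww_N B u u| ≤ ∑ u, ∑ k, bet B k * (|(B * B) k u| * |B k u|) := by
        refine Finset.sum_le_sum fun u _ => (Finset.abs_sum_le_sum_abs _ _).trans (le_of_eq ?_)
        refine Finset.sum_congr rfl fun k _ => ?_
        rw [abs_mul, abs_mul, abs_of_nonneg (bet_nonneg h.symm k), mul_assoc]
    _ = ∑ k, bet B k * ∑ u, |(B * B) k u| * |B k u| := by
        rw [Finset.sum_comm]; simp only [Finset.mul_sum]
    _ ≤ ∑ k, ν * bet B k ^ 2 := Finset.sum_le_sum fun k _ => by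
        have := mul_le_mul_of_nonneg_left (h1 k) (bet_nonneg h.symm k)
        linarith
    _ = _ := by rw [ww, Finset.mul_sum]

theorem ww_N_le (h : Reg B b Λ ν t ϑ) (u : ι) : |ww_N B u u| ≤ ν * (Λ ^ 2 * t ^ 6) := by
  have hL := h.L1
  have ht := h.t0
  have hν : 0 ≤ ν := by linarith [h.L1, h.Lν]
  refine le_of_sq_le_sq₀' ?_ (by positivity)
  have h1 : ww_N B u u ^ 2 ≤ (∑ k, (bet B k * B k u) ^ 2) * ∑ k, (B * B) k u ^ 2 := by
    refine le_trans (le_of_eq ?_) (Finset.sum_mul_sq_le_sq_mul_sq _ _ _)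
    rw [ww_N]
    congr 1
    exact Finset.sum_congr rfl fun k _ => by ring
  have h2 : ∑ k, (bet B k * B k u) ^ 2 ≤ Λ * (Λ * t ^ 8) := by
    refine le_trans ?_ (mul_le_mul_of_nonneg_left (ww_W_le h) (by linarith))
    rw [ww, Finset.mul_sum]
    refine Finset.sum_le_sum fun k _ => ?_
    have := mul_le_mul_of_nonneg_right (h.ent k u) (sq_nonneg (bet B k))
    linarith
  have h3 : ∑ k, (B * B) k u ^ 2 ≤ ν ^ 2 * (Λ * t ^ 4) :=
    (sum_row_mul_sq_le h.symm h.op u).trans (by have := h.bet_le u; gcongr)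
  rw [sq_abs]
  calc _ ≤ _ := h1
    _ ≤ Λ * (Λ * t ^ 8) * (ν ^ 2 * (Λ * t ^ 4)) :=
        mul_le_mul h2 h3 (Finset.sum_nonneg fun _ _ => sq_nonneg _) (by positivity)
    _ = Λ ^ 3 * (ν ^ 2 * t ^ 12) := by ring
    _ ≤ Λ ^ 4 * (ν ^ 2 * t ^ 12) := by gcongr; norm_num
    _ = _ := by ring

theorem ww_av_dN (h : Reg B b Λ ν t ϑ) :
    av (fun u v => (B v v * ww_N B u u) ^ 2) ≤ (ν * Λ ^ 2 / t) ^ 2 := by
  have hL := h.L1
  have ht := h.t0
  have hr := h.rpos
  have hν : 0 ≤ ν := by linarith [h.L1, h.Lν]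
  have h1 : ∑ u, ww_N B u u ^ 2 ≤ ν * (Λ ^ 2 * t ^ 6) * (ν * (Λ * t ^ 8)) := by
    calc ∑ u, ww_N B u u ^ 2 ≤ ∑ u, ν * (Λ ^ 2 * t ^ 6) * |ww_N B u u| :=
          Finset.sum_le_sum fun u _ => by
            rw [← sq_abs, sq]
            exact mul_le_mul_of_nonneg_right (ww_N_le h u) (abs_nonneg _)
      _ = ν * (Λ ^ 2 * t ^ 6) * ∑ u, |ww_N B u u| := by rw [Finset.mul_sum]
      _ ≤ _ := by
          gcongr
          exact (ww_sum_N_abs h).trans (by have := ww_W_le h; gcongr)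
  have h2 : ∑ v, B v v ^ 2 ≤ Λ := h.d
  have h3 : av (fun u v => (B v v * ww_N B u u) ^ 2) =
      av (fun u v => ww_N B u u ^ 2 * B v v ^ 2) := av_congr fun u v => by ring
  rw [h3, av_prod, ← h.t8]
  calc _ ≤ ν * (Λ ^ 2 * t ^ 6) * (ν * (Λ * t ^ 8)) / t ^ 8 * (Λ / t ^ 8) := by gcongr
    _ = _ := by field_simp

theorem ww_inv_b (h : Reg B b Λ ν t ϑ) : |1 / b| ≤ 1 := by
  rw [abs_div, abs_one, div_le_one (by linarith [h.abs_b.1])]
  exact h.abs_b.1

theorem ww_Ea_A1 (h : Reg B b Λ ν t ϑ) (hw : Wt ω ϑ Ξ Ω t) (ha : Adm ω B ϑ ρ) :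
    Ea ω (fun u v => kap b B u v * (B v v * ww_N B u u)) ≤
      |t1 B| * ν / rr ι * (ww B / rr ι) + 68 * (Ξ * Λ ^ 2 / t) := by
  have hL := h.L1
  have ht := h.t0
  have hr := h.rpos
  have hν : 0 ≤ ν := by linarith [h.L1, h.Lν]
  have hΞ := hw.Xi1
  have hb := h.b1
  have e1 : Ea ω (fun u v => kap b B u v * (B v v * ww_N B u u)) =
      1 / b ^ 2 * av (fun u v => ww_N B u u * B v v) +
        av (fun u v => (ω u v * kap b B u v - 1 / b ^ 2) * (B v v * ww_N B u u)) := by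
    rw [Ea, ← av_const_mul, ← av_add]
    exact av_congr fun u v => by ring
  have hb1 : 1 / b ^ 2 ≤ 1 := by rw [div_le_one (by linarith)]; exact hb
  have hb0 : 0 ≤ 1 / b ^ 2 := by positivity
  have e2 : 1 / b ^ 2 * av (fun u v => ww_N B u u * B v v) ≤ |t1 B| * ν / rr ι * (ww B / rr ι) := by
    refine (le_abs_self _).trans ?_
    rw [abs_mul, abs_of_nonneg hb0, av_prod, abs_mul, abs_div, abs_div, abs_of_pos hr]
    have f1 : |∑ u, ww_N B u u| ≤ ν * ww B :=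
      (Finset.abs_sum_le_sum_abs _ _).trans (ww_sum_N_abs h)
    have f2 : ∑ v, B v v = t1 B := rfl
    rw [f2]
    calc _ ≤ 1 * (ν * ww B / rr ι * (|t1 B| / rr ι)) := by gcongr
      _ = _ := by ring
  have e3 : av (fun u v => (ω u v * kap b B u v - 1 / b ^ 2) ^ 2) ≤ (68 * Ξ / t ^ 4) ^ 2 := by
    have f1 : av (fun u v => (ω u v * kap b B u v - 1 / b ^ 2) ^ 2) ≤
        av (fun u v => 2 * (ω u v - 1) ^ 2 + 288 * (|B u v| + |B u u * B v v|) ^ 2) := by
      refine av_mono fun u v => ?_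
      have g1 : (1 / b ^ 2 * (ω u v - 1)) ^ 2 ≤ (ω u v - 1) ^ 2 := by
        rw [mul_pow]
        exact mul_le_of_le_one_left (sq_nonneg _) (pow_le_one₀ hb0 hb1)
      have g2 : (ω u v * (kap b B u v - 1 / b ^ 2)) ^ 2 ≤
          (2 * (6 * (|B u v| + |B u u * B v v|))) ^ 2 := by
        by_cases h0 : ω u v = 0
        · rw [h0, zero_mul, zero_pow two_ne_zero]; positivity
        · rw [← sq_abs, abs_mul, abs_of_nonneg (hw.nn u v)]
          have := (h.kap_bd (ha u v h0).1 (ha u v h0).2.1).2.2.2.1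
          have := hw.nn u v
          gcongr
          linarith [hw.le u v, h.th1]
      linarith [sq_nonneg (1 / b ^ 2 * (ω u v - 1) - ω u v * (kap b B u v - 1 / b ^ 2))]
    rw [av_add, av_const_mul, av_const_mul] at f1
    have f2 := hw.av_sq ht h.t8
    have f3 := h.av_e
    have f4 : (4 / t ^ 4) ^ 2 ≤ (4 * Ξ / t ^ 4) ^ 2 := by gcongr; linarith
    have f5 : 0 ≤ (Ξ / t ^ 4) ^ 2 := sq_nonneg _
    have f6 : (4 * Ξ / t ^ 4) ^ 2 = 16 * (Ξ / t ^ 4) ^ 2 := by ring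
    have f7 : (68 * Ξ / t ^ 4) ^ 2 = 4624 * (Ξ / t ^ 4) ^ 2 := by ring
    linarith
  have e4 := (le_abs_self _).trans (abs_av_cs (by positivity) (by positivity) e3 (ww_av_dN h))
  have e5 : 68 * Ξ / t ^ 4 * (ν * Λ ^ 2 / t) ≤ 68 * (Ξ * Λ ^ 2 / t) := by
    calc _ ≤ 68 * Ξ / t ^ 4 * (t ^ 4 * Λ ^ 2 / t) := by have := h.νt; gcongr
      _ = _ := by field_simp
  linarith

theorem ww_Ea_A2 (h : Reg B b Λ ν t ϑ) (hw : Wt ω ϑ Ξ Ω t) (ha : Adm ω B ϑ ρ) :
    Ea ω (fun u v => ww_a b B u v * ww_N B u v) ≤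
      16 / t ^ 8 + 113 * (Ω * ν / rr ι * (ww B / rr ι)) := by
  have hL := h.L1
  have ht := h.t0
  have hr := h.rpos
  have hν : 0 ≤ ν := by linarith [h.L1, h.Lν]
  have hb := h.b1
  have hb0 : b ≠ 0 := by rintro rfl; norm_num at hb
  have hΩ : 0 ≤ Ω := le_trans (by positivity) hw.Om
  have e1 : Ea ω (fun u v => ww_a b B u v * ww_N B u v) = 1 / b * av (ww_N B) +
      av (fun u v => (1 / b * (ω u v - 1) + ω u v * (ww_a b B u v - 1 / b)) * ww_N B u v) := by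
    rw [Ea, ← av_const_mul, ← av_add]
    exact av_congr fun u v => by ring
  have e2 : ∑ u, ∑ v, ww_N B u v = b ^ 3 * t2 B := by
    simp only [ww_N]
    rw [ww_sum3 (fun k u => bet B k * (B * B) k u) (fun k v => B k v), ← sum_bet, Finset.mul_sum]
    refine Finset.sum_congr rfl fun k _ => ?_
    rw [← Finset.mul_sum, row_mul h.row h.row, h.row]
    ring
  have e3 : 1 / b * av (ww_N B) ≤ 16 / t ^ 8 := by
    have ht2 : 0 ≤ t2 B := Finset.sum_nonneg fun k _ => bet_nonneg h.symm k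
    rw [av, e2, ← h.t8]
    calc 1 / b * (b ^ 3 * t2 B / (t ^ 8) ^ 2) = b ^ 2 * t2 B / (t ^ 8) ^ 2 := by field_simp
      _ ≤ 4 * (4 * t ^ 8) / (t ^ 8) ^ 2 := by
          have := h.b4
          have := h.f2'
          gcongr
      _ = _ := by field_simp; norm_num
  have o1 : OpB (fun u v => 1 / b * (ω u v - 1)) Ω :=
    (hw.op.const_mul (1 / b)).mono (by positivity) (mul_le_of_le_one_left hΩ (ww_inv_b h))
  have o2 : OpB (fun u v => ω u v * (ww_a b B u v - 1 / b)) (112 * Ω) := by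
    refine (OpB.of_fro (Ω := 112 * t ^ 4) ?_).mono (by positivity) (by linarith [hw.Om])
    have f1 : av (fun u v => (ω u v * (ww_a b B u v - 1 / b)) ^ 2) ≤
        av (fun u v => 784 * (|B u v| + |B u u * B v v|) ^ 2) := by
      refine av_mono fun u v => ?_
      by_cases h0 : ω u v = 0
      · rw [h0, zero_mul, zero_pow two_ne_zero]; positivity
      · rw [← sq_abs, abs_mul, abs_of_nonneg (hw.nn u v), ww_a]
        have := (h.kap_bd (ha u v h0).1 (ha u v h0).2.1).2.2.2.2.1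
        have := hw.nn u v
        calc _ ≤ (2 * (14 * (|B u v| + |B u u * B v v|))) ^ 2 := by
              gcongr
              linarith [hw.le u v, h.th1]
          _ = _ := by ring
    rw [av_const_mul, av_sq_eq_fro, div_le_iff₀ (by positivity), ← h.t8] at f1
    refine f1.trans ?_
    calc _ ≤ 784 * (4 / t ^ 4) ^ 2 * (t ^ 8) ^ 2 := by have := h.av_e; gcongr
      _ = _ := by field_simp; norm_num
  have o3 := (o1.add o2 hΩ (by positivity)).nuclear (by positivity) (fun k => bet B k)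
    (fun k u => (B * B) k u) (fun k v => B k v) (fun k => ν * bet B k)
    (fun k => mul_nonneg hν (bet_nonneg h.symm k)) (fun k => by
      rw [← bet_eq h.symm]
      have := mul_le_mul_of_nonneg_right (ww_row_sq h k) (bet_nonneg h.symm k)
      linarith)
  have o4 : ∑ k, |bet B k| * (ν * bet B k) = ν * ww B := by
    rw [ww, Finset.mul_sum]
    exact Finset.sum_congr rfl fun k _ => by rw [abs_of_nonneg (bet_nonneg h.symm k)]; ring
  rw [o4] at o3
  have e4 : av (fun u v => (1 / b * (ω u v - 1) + ω u v * (ww_a b B u v - 1 / b)) * ww_N B u v) ≤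
      113 * (Ω * ν / rr ι * (ww B / rr ι)) := by
    have := (le_abs_self _).trans o3
    calc _ ≤ (Ω + 112 * Ω) * (ν * ww B) / rr ι ^ 2 :=
          div_le_div_of_nonneg_right this (sq_nonneg _)
      _ = _ := by ring
  linarith

end Crest.Agent.R62
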