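import Crest.Agent.R62.Api

/-!
# R62/WeightAux1: the abstract construction of the weight
-/

set_option autoImplicit false
set_option linter.unusedSectionVars false
open Finset Matrix

namespace Crest.Agent.R62

variable {ι : Type} [Fintype ι] [DecidableEq ι]

/-- sum over ordered pairs -/
def weightS (f : ι → ι → ℝ) : ℝ := ∑ u, ∑ v, f u v

theorem weightS_mono {f g : ι → ι → ℝ} (h : ∀ u v, f u v ≤ g u v) : weightS f ≤ weightS g :=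
  sum_le_sum fun u _ => sum_le_sum fun v _ => h u v

theorem weightS_add (f g : ι → ι → ℝ) :
    weightS (fun u v => f u v + g u v) = weightS f + weightS g := by
  simp only [weightS, sum_add_distrib]

theorem weightS_sub (f g : ι → ι → ℝ) :
    weightS (fun u v => f u v - g u v) = weightS f - weightS g := by
  simp only [weightS, sum_sub_distrib]

theorem weightS_mul (c : ℝ) (f : ι → ι → ℝ) :
    weightS (fun u v => c * f u v) = c * weightS f := by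
  simp only [weightS, mul_sum]

theorem weightS_const (c : ℝ) : weightS (fun _ _ : ι => c) = c * rr ι ^ 2 := by
  simp only [weightS, sum_const, card_univ, nsmul_eq_mul, rr]
  ring

theorem weightS_nonneg {f : ι → ι → ℝ} (h : ∀ u v, 0 ≤ f u v) : 0 ≤ weightS f :=
  sum_nonneg fun u _ => sum_nonneg fun v _ => h u v

/-- the large part -/
noncomputable def weightL (ϑ x : ℝ) : ℝ := if |x| ≤ ϑ / 4 then 0 else x

theorem weightL_sub {ϑ : ℝ} (h : 0 < ϑ) (x : ℝ) :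
    -(ϑ / 4) ≤ weightL ϑ x - x ∧ weightL ϑ x - x ≤ ϑ / 4 ∧ (weightL ϑ x - x) ^ 2 ≤ x ^ 2 := by
  unfold weightL
  split_ifs with hx
  · have := abs_le.1 hx
    exact ⟨by linarith, by linarith, by simp⟩
  · exact ⟨by linarith, by linarith, by simpa using sq_nonneg x⟩

theorem weightL_abs {ϑ τ : ℝ} (hτ : 0 < τ) (h : ϑ * τ = 1) (x : ℝ) :
    |weightL ϑ x| ≤ 4 * τ * x ^ 2 ∧ weightL ϑ x ^ 2 ≤ 16 * τ ^ 2 * x ^ 4 := by
  have key : |weightL ϑ x| ≤ 4 * τ * x ^ 2 := by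
    unfold weightL
    split_ifs with hx
    · rw [abs_zero]; positivity
    · rw [not_le] at hx
      have h1 : 1 ≤ 4 * τ * |x| := by nlinarith
      rw [← sq_abs x]
      nlinarith [abs_nonneg x]
  refine ⟨key, ?_⟩
  rw [← sq_abs]
  calc |weightL ϑ x| ^ 2 ≤ (4 * τ * x ^ 2) ^ 2 := pow_le_pow_left₀ (abs_nonneg _) key 2
    _ = _ := by ring

theorem weight_c {t S E : ℝ} (ht : 1000 ≤ t) (hE : |E| ≤ 21 * t ^ 2 * t ^ 8)
    (hS : S = (t ^ 8) ^ 2 + E) : 0 < S ∧ |(t ^ 8) ^ 2 / S - 1| * t ^ 6 ≤ 42 := by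
  have ht0 : 0 < t := by linarith
  have h6 : 42 ≤ t ^ 6 := by
    have : (1000 : ℝ) ^ 6 ≤ t ^ 6 := pow_le_pow_left₀ (by norm_num) ht 6
    linarith
  have h10 : 0 < t ^ 10 := by positivity
  have h1 : 42 * t ^ 10 ≤ (t ^ 8) ^ 2 := by
    calc 42 * t ^ 10 ≤ t ^ 6 * t ^ 10 := by gcongr
      _ = _ := by ring
  have h2 : 21 * t ^ 2 * t ^ 8 = 21 * t ^ 10 := by ring
  have h3 := abs_le.1 hE
  have hS2 : (t ^ 8) ^ 2 ≤ 2 * S := by linarith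
  have hS0 : 0 < S := by linarith
  refine ⟨hS0, ?_⟩
  have h4 : (t ^ 8) ^ 2 / S - 1 = -E / S := by
    field_simp
    linarith
  rw [h4, abs_div, abs_neg, abs_of_pos hS0, div_mul_eq_mul_div, div_le_iff₀ hS0]
  calc |E| * t ^ 6 ≤ 21 * t ^ 2 * t ^ 8 * t ^ 6 := by gcongr
    _ = 21 * (t ^ 8) ^ 2 := by ring
    _ ≤ 42 * S := by linarith

theorem weight_num1 {t ϑ τ l r sL sΔ sP : ℝ} (ht : 1000 ≤ t) (hϑ1 : ϑ ≤ 1 / 1000) (hτ0 : 0 < τ)
    (hτ : ϑ * τ = 1) (hτt : τ ≤ t) (hl0 : 0 ≤ l) (hl : l ≤ ϑ * t) (hr : 0 ≤ r)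
    (a1 : sL ≤ 4 * τ * (16 * l ^ 2 * r)) (a2 : -(4 * τ * (16 * l ^ 2 * r)) ≤ sL) (a3 : 0 ≤ sP)
    (a4 : sP ≤ (1 + ϑ / 4) * (16 * τ ^ 2 * r)) (hsum : |sΔ| ≤ 4 * l * r) :
    |sL - sΔ - sP| ≤ 21 * t ^ 2 * r := by
  have ht0 : 0 < t := by linarith
  have hlt : l ≤ t / 1000 := hl.trans (by nlinarith)
  have a5 : τ * l ^ 2 ≤ t ^ 2 / 1000 := by
    have b1 : τ * l ≤ t := by
      calc τ * l ≤ τ * (ϑ * t) := by gcongr
        _ = ϑ * τ * t := by ring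
        _ = t := by rw [hτ, one_mul]
    calc τ * l ^ 2 = τ * l * l := by ring
      _ ≤ t * (t / 1000) := by gcongr
      _ = _ := by ring
  have a6 : τ ^ 2 ≤ t ^ 2 := by gcongr
  have a7 : l ≤ t ^ 2 / 1000 := by nlinarith
  have a8 : (1 + ϑ / 4) * (16 * τ ^ 2) ≤ 20 * t ^ 2 := by nlinarith [sq_nonneg τ]
  have b1 := mul_le_mul_of_nonneg_right a5 hr
  have b2 := mul_le_mul_of_nonneg_right a7 hr
  have b3 := mul_le_mul_of_nonneg_right a8 hr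
  have b4 : 0 ≤ t ^ 2 * r := by positivity
  have b5 := abs_le.1 hsum
  rw [abs_le]
  constructor <;> linarith

theorem weight_num2 {t ϑ τ l c : ℝ} (ht : 1000 ≤ t) (hϑ0 : 0 < ϑ) (hϑ1 : ϑ ≤ 1 / 1000)
    (hτ : ϑ * τ = 1) (hτt : τ ≤ t) (hl0 : 0 ≤ l) (hl : l ≤ ϑ * t) (hc : |c - 1| * t ^ 6 ≤ 42) :
    0 < c ∧ 1 - ϑ / 4 ≤ c ∧ c ≤ 1 + ϑ / 4 ∧ c ^ 2 ≤ 11 / 10 ∧ (c - 1) ^ 2 * (t ^ 8) ^ 2 ≤ t ^ 8 ∧
      16 * l ^ 2 ≤ t ^ 8 := by
  have ht0 : 0 < t := by linarith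
  have hc1 : |c - 1| ≤ ϑ / 4 := by
    have a1 : (1000 : ℝ) ^ 5 ≤ t ^ 5 := pow_le_pow_left₀ (by norm_num) ht 5
    have a2 : 1 ≤ ϑ * t := by nlinarith
    have a3 : t ^ 5 ≤ ϑ * t ^ 6 := by
      calc t ^ 5 = 1 * t ^ 5 := (one_mul _).symm
        _ ≤ ϑ * t * t ^ 5 := by gcongr
        _ = _ := by ring
    refine le_of_mul_le_mul_right ?_ (pow_pos ht0 6)
    linarith
  have hc2 : (c - 1) ^ 2 * t ^ 8 ≤ 1 := by
    have a1 : (|c - 1| * t ^ 6) ^ 2 ≤ 42 ^ 2 := pow_le_pow_left₀ (by positivity) hc 2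
    have a2 : (1000 : ℝ) ^ 4 ≤ t ^ 4 := pow_le_pow_left₀ (by norm_num) ht 4
    rw [mul_pow, sq_abs] at a1
    refine le_of_mul_le_mul_right ?_ (pow_pos ht0 4)
    have a3 : (c - 1) ^ 2 * t ^ 8 * t ^ 4 = (c - 1) ^ 2 * (t ^ 6) ^ 2 := by ring
    linarith
  obtain ⟨hc3, hc4⟩ := abs_le.1 hc1
  refine ⟨by linarith, by linarith, by linarith, by nlinarith, ?_, ?_⟩
  · calc (c - 1) ^ 2 * (t ^ 8) ^ 2 = (c - 1) ^ 2 * t ^ 8 * t ^ 8 := by ring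
      _ ≤ 1 * t ^ 8 := by gcongr
      _ = _ := one_mul _
  · have hlt : l ≤ t / 1000 := hl.trans (by nlinarith)
    have c1 : l ^ 2 ≤ (t / 1000) ^ 2 := by gcongr
    have c2 : t ^ 2 ≤ t ^ 8 := pow_le_pow_right₀ (by linarith) (by norm_num)
    nlinarith [sq_nonneg t]

theorem weight_num3 {ϑ τ : ℝ} (hϑ0 : 0 < ϑ) (hϑ1 : ϑ ≤ 1 / 1000) (hτ : ϑ * τ = 1) :
    0 < τ ∧ 1000 ≤ τ ^ 2 ∧ (1 + ϑ / 4) ^ 2 ≤ 17 / 16 ∧ (1 + ϑ / 4) * (1 + ϑ / 4) ≤ 1 + ϑ ∧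
      1 - ϑ ≤ (1 - ϑ / 4) * ((1 - ϑ / 4) * (1 - ϑ / 4)) := by
  have hτ0 : 0 < τ := (mul_pos_iff_of_pos_left hϑ0).1 (by rw [hτ]; exact one_pos)
  have hτ1 : 1000 ≤ τ := by nlinarith
  exact ⟨hτ0, by nlinarith, by nlinarith, by nlinarith, by nlinarith [sq_nonneg ϑ]⟩

theorem weight_sq3 (a b d : ℝ) : (a + b - d) ^ 2 ≤ 3 * a ^ 2 + 3 * b ^ 2 + 3 * d ^ 2 := by
  nlinarith [sq_nonneg (a - b), sq_nonneg (a + d), sq_nonneg (b + d)]

theorem weight_sq4 (a b d e : ℝ) :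
    (a - b + d - e) ^ 2 ≤ 4 * a ^ 2 + 4 * b ^ 2 + 4 * d ^ 2 + 4 * e ^ 2 := by
  nlinarith [sq_nonneg (a + b), sq_nonneg (a - d), sq_nonneg (a + e), sq_nonneg (b + d),
    sq_nonneg (b - e), sq_nonneg (d + e)]

theorem weight_abs {Δ : ι → ι → ℝ} (hΔ : ∀ u v, Δ u v = Δ v u) (Bad : ι → ι → Prop)
    [DecidableRel Bad] (hBs : ∀ u v, Bad u v → Bad v u) {t ϑ τ l Y : ℝ} (ht : 1000 ≤ t)
    (t8 : t ^ 8 = rr ι) (hϑ0 : 0 < ϑ) (hϑ1 : ϑ ≤ 1 / 1000) (hτ : ϑ * τ = 1) (hτt : τ ≤ t)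
    (hl0 : 0 ≤ l) (hl : l ≤ ϑ * t)
    (hrow : ∀ u, ∑ v, (if Bad u v then (1 : ℝ) else 0) ≤ ϑ / 4 * rr ι)
    (htot : weightS (fun u v => if Bad u v then (1 : ℝ) else 0) ≤ 16 * τ ^ 2 * rr ι)
    (hsum : |weightS Δ| ≤ 4 * l * rr ι) (h2 : weightS (fun u v => Δ u v ^ 2) ≤ 16 * l ^ 2 * rr ι)
    (h4 : weightS (fun u v => Δ u v ^ 4) ≤ Y * rr ι) :
    ∃ ω : ι → ι → ℝ, (∀ u v, 0 ≤ ω u v) ∧ (∀ u v, ω u v ≤ 1 + ϑ) ∧ (∀ u v, ω u v = ω v u) ∧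
      (∀ u v, Bad u v → ω u v = 0) ∧ weightS ω = rr ι ^ 2 ∧ (∀ u, (1 - ϑ) * rr ι ≤ ∑ v, ω u v) ∧
      weightS (fun u v => (ω u v - 1) ^ 2) ≤ (100 * τ ^ 2 + 100 * l ^ 2) * rr ι ∧
      weightS (fun u v => (ω u v - 1 + Δ u v) ^ 2) ≤ (100 + 100 * Y) * τ ^ 2 * rr ι := by
  have ht0 : 0 < t := by linarith
  obtain ⟨hτ0, hττ, n1, n2, n3⟩ := weight_num3 hϑ0 hϑ1 hτ
  have hr : 0 < rr ι := by rw [← t8]; positivity
  have hY : 0 ≤ Y := by
    have := (weightS_nonneg fun u v => by positivity).trans h4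
    exact nonneg_of_mul_nonneg_left this hr
  obtain ⟨I, hI⟩ : ∃ I : ι → ι → ℝ, I = fun u v => if Bad u v then (1 : ℝ) else 0 := ⟨_, rfl⟩
  obtain ⟨L, hL⟩ : ∃ L : ι → ι → ℝ, L = fun u v => weightL ϑ (Δ u v) := ⟨_, rfl⟩
  obtain ⟨P, hP⟩ : ∃ P : ι → ι → ℝ, P = fun u v => (1 + (L u v - Δ u v)) * I u v := ⟨_, rfl⟩
  obtain ⟨G, hG⟩ : ∃ G : ι → ι → ℝ, G = fun u v => 1 + (L u v - Δ u v) - P u v := ⟨_, rfl⟩
  rw [← hI] at htot
  have hZ : ∀ u v, -(ϑ / 4) ≤ L u v - Δ u v ∧ L u v - Δ u v ≤ ϑ / 4 ∧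
      (L u v - Δ u v) ^ 2 ≤ Δ u v ^ 2 := fun u v => by rw [hL]; exact weightL_sub hϑ0 _
  have hLa : ∀ u v, |L u v| ≤ 4 * τ * Δ u v ^ 2 ∧ L u v ^ 2 ≤ 16 * τ ^ 2 * Δ u v ^ 4 :=
    fun u v => by rw [hL]; exact weightL_abs hτ0 hτ _
  have hPI : ∀ u v, 0 ≤ P u v ∧ P u v ≤ (1 + ϑ / 4) * I u v ∧
      P u v ^ 2 ≤ (1 + ϑ / 4) ^ 2 * I u v := by
    intro u v
    obtain ⟨a1, a2, -⟩ := hZ u v
    simp only [hP, hI]
    split_ifs
    · simp only [mul_one]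
      exact ⟨by linarith, by linarith, pow_le_pow_left₀ (by linarith) (by linarith) 2⟩
    · simp
  have hGb : ∀ u v, Bad u v → G u v = 0 := fun u v h => by simp [hG, hP, hI, h]
  have hGg : ∀ u v, (1 - ϑ / 4) * (1 - I u v) ≤ G u v ∧ G u v ≤ 1 + ϑ / 4 ∧ 0 ≤ G u v := by
    intro u v
    obtain ⟨a1, a2, -⟩ := hZ u v
    simp only [hG, hP, hI]
    split_ifs
    · simp only [mul_one, sub_self, mul_zero, le_refl, true_and, and_true]
      linarith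
    · simp only [mul_zero, sub_zero, mul_one]
      exact ⟨by linarith, by linarith, by linarith⟩
  -- the normalisation
  have hS : weightS G = (t ^ 8) ^ 2 + (weightS L - weightS Δ - weightS P) := by
    rw [hG, weightS_sub, weightS_add, weightS_sub, weightS_const, t8]
    ring
  have hE : |weightS L - weightS Δ - weightS P| ≤ 21 * t ^ 2 * t ^ 8 := by
    have a1 : weightS L ≤ 4 * τ * (16 * l ^ 2 * rr ι) := by
      refine (weightS_mono fun u v => (le_abs_self _).trans (hLa u v).1).trans ?_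
      rw [weightS_mul]
      gcongr
    have a2 : -(4 * τ * (16 * l ^ 2 * rr ι)) ≤ weightS L := by
      have : weightS (fun u v => -(4 * τ) * Δ u v ^ 2) ≤ weightS L :=
        weightS_mono fun u v => by linarith [(abs_le.1 (hLa u v).1).1]
      rw [weightS_mul] at this
      have b := mul_le_mul_of_nonneg_left h2 (by positivity : 0 ≤ 4 * τ)
      linarith
    have a3 : 0 ≤ weightS P := weightS_nonneg fun u v => (hPI u v).1
    have a4 : weightS P ≤ (1 + ϑ / 4) * (16 * τ ^ 2 * rr ι) := by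
      refine (weightS_mono fun u v => (hPI u v).2.1).trans ?_
      rw [weightS_mul]
      gcongr
    rw [t8]
    exact weight_num1 ht hϑ1 hτ0 hτ hτt hl0 hl hr.le a1 a2 a3 a4 hsum
  obtain ⟨hS0, hc⟩ := weight_c ht hE hS
  rw [t8] at hc
  obtain ⟨c, hcdef⟩ : ∃ c : ℝ, c = rr ι ^ 2 / weightS G := ⟨_, rfl⟩
  rw [← hcdef] at hc
  obtain ⟨hc0, hc3, hc4, hcc, hcr, hl16⟩ := weight_num2 ht hϑ0 hϑ1 hτ hτt hl0 hl hc
  rw [t8] at hcr hl16
  have hP2 : weightS (fun u v => P u v ^ 2) ≤ 17 * τ ^ 2 * rr ι := by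
    refine (weightS_mono fun u v => (hPI u v).2.2).trans ?_
    rw [weightS_mul]
    calc (1 + ϑ / 4) ^ 2 * weightS I ≤ (1 + ϑ / 4) ^ 2 * (16 * τ ^ 2 * rr ι) := by gcongr
      _ ≤ 17 / 16 * (16 * τ ^ 2 * rr ι) := by gcongr
      _ = _ := by ring
  have hτr := mul_le_mul_of_nonneg_right hττ hr.le
  have hcP := mul_le_mul hcc hP2 (weightS_nonneg fun u v => sq_nonneg _) (by norm_num)
  refine ⟨fun u v => c * G u v, fun u v => mul_nonneg hc0.le (hGg u v).2.2, fun u v => ?_,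
    fun u v => ?_, fun u v h => mul_eq_zero_of_right _ (hGb u v h), ?_, fun u => ?_, ?_, ?_⟩
  · calc c * G u v ≤ (1 + ϑ / 4) * (1 + ϑ / 4) :=
          mul_le_mul hc4 (hGg u v).2.1 (hGg u v).2.2 (hc0.le.trans hc4)
      _ ≤ 1 + ϑ := n2
  · have : Bad u v ↔ Bad v u := ⟨hBs u v, hBs v u⟩
    simp only [hG, hP, hI, hL, hΔ u v, this]
  · rw [weightS_mul, hcdef, div_mul_cancel₀ _ hS0.ne']
  · rw [← mul_sum]
    have a1 : ∑ v, (1 - ϑ / 4) * (1 - I u v) ≤ ∑ v, G u v := sum_le_sum fun v _ => (hGg u v).1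
    rw [← mul_sum, sum_sub_distrib, sum_const, card_univ, nsmul_eq_mul, mul_one] at a1
    have a2 : ∑ v, I u v ≤ ϑ / 4 * rr ι := by rw [hI]; exact hrow u
    have a3 : (1 - ϑ / 4) * ((1 - ϑ / 4) * rr ι) ≤ ∑ v, G u v := by
      refine le_trans (mul_le_mul_of_nonneg_left ?_ (by linarith)) a1
      unfold rr at a2 ⊢
      linarith
    have a4 : 0 ≤ 1 - ϑ / 4 := by linarith
    calc (1 - ϑ) * rr ι ≤ (1 - ϑ / 4) * ((1 - ϑ / 4) * (1 - ϑ / 4)) * rr ι := by gcongr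
      _ = (1 - ϑ / 4) * ((1 - ϑ / 4) * ((1 - ϑ / 4) * rr ι)) := by ring
      _ ≤ c * ∑ v, G u v := mul_le_mul hc3 a3 (by positivity) hc0.le
  · have a1 : weightS (fun u v => (c * G u v - 1) ^ 2) ≤
        weightS (fun u v => 3 * (c - 1) ^ 2 + 3 * c ^ 2 * Δ u v ^ 2 + 3 * c ^ 2 * P u v ^ 2) := by
      refine weightS_mono fun u v => ?_
      have b1 := mul_le_mul_of_nonneg_left (hZ u v).2.2 (sq_nonneg c)
      have b2 : c * G u v - 1 = (c - 1) + c * (L u v - Δ u v) - c * P u v := by rw [hG]; ring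
      rw [b2]
      refine (weight_sq3 _ _ _).trans ?_
      simp only [mul_pow]
      linarith
    rw [weightS_add, weightS_add, weightS_const, weightS_mul, weightS_mul] at a1
    have a2 := mul_le_mul hcc h2 (weightS_nonneg fun u v => sq_nonneg _) (by norm_num)
    have a3 : 0 ≤ l ^ 2 * rr ι := by positivity
    linarith
  · have a1 : weightS (fun u v => (c * G u v - 1 + Δ u v) ^ 2) ≤
        weightS (fun u v => 4 * (c - 1) ^ 2 + 4 * (c - 1) ^ 2 * Δ u v ^ 2 +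
          4 * c ^ 2 * (16 * τ ^ 2) * Δ u v ^ 4 + 4 * c ^ 2 * P u v ^ 2) := by
      refine weightS_mono fun u v => ?_
      have b1 := mul_le_mul_of_nonneg_left (hLa u v).2 (sq_nonneg c)
      have b2 : c * G u v - 1 + Δ u v =
          (c - 1) - (c - 1) * Δ u v + c * L u v - c * P u v := by rw [hG]; ring
      rw [b2]
      refine (weight_sq4 _ _ _ _).trans ?_
      simp only [mul_pow]
      linarith
    rw [weightS_add, weightS_add, weightS_add, weightS_const, weightS_mul, weightS_mul,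
      weightS_mul] at a1
    have a2 : (c - 1) ^ 2 * weightS (fun u v => Δ u v ^ 2) ≤ rr ι := by
      calc (c - 1) ^ 2 * weightS (fun u v => Δ u v ^ 2) ≤ (c - 1) ^ 2 * (16 * l ^ 2 * rr ι) := by
            gcongr
        _ ≤ (c - 1) ^ 2 * (rr ι * rr ι) := by gcongr
        _ = (c - 1) ^ 2 * rr ι ^ 2 := by ring
        _ ≤ _ := hcr
    have a3 := mul_le_mul hcc h4 (weightS_nonneg fun u v => by positivity) (by norm_num)
    have a4 := mul_le_mul_of_nonneg_left a3 (sq_nonneg τ)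
    have a5 : 0 ≤ τ ^ 2 * (Y * rr ι) := by positivity
    linarith

end Crest.Agent.R62
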